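/-
S0241 blueprint, Mod C (see blueprints/S0241/BLUEPRINT.md section 3): the scalar channel.
For a ∈ (-1,1), the law with density (1 + a y)/2 on [-1,1] is the image of Lebesgue on [0,1] under `chanT a`.
-/
import Mathlib

set_option autoImplicit false

namespace Crest.Agent.Lib.IsingFIID

open MeasureTheory Set

/-- Quantile function of the density `(1 + a y)/2` on `[-1,1]`. -/
noncomputable def chanT (a U : ℝ) : ℝ :=
  (4 * U - 2 + a) / (1 + Real.sqrt (1 + a * (4 * U - 2 + a)))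

/-- Field increment (the martingale coefficient): `μ'(f) = μ(f) + ρ Cov_μ(f, σ_u)`. -/
noncomputable def rhoFn (ε m U : ℝ) : ℝ :=
  ε * chanT (ε * m) U / (1 + ε * chanT (ε * m) U * m)

variable {a a' U ε m m' : ℝ}

private theorem disc_nonneg (ha : |a| ≤ 1) (hU : U ∈ Icc (0 : ℝ) 1) :
    0 ≤ 1 + a * (4 * U - 2 + a) := by
  obtain ⟨h0, h1⟩ := hU
  have := abs_le.mp ha
  nlinarith [sq_nonneg (1 - a), sq_nonneg (1 + a), mul_nonneg h0 (sub_nonneg.mpr h1),
    mul_nonneg (sub_nonneg.mpr this.2) h0, mul_nonneg (sub_nonneg.mpr this.2) (sub_nonneg.mpr h1),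
    mul_nonneg (by linarith [this.1] : (0 : ℝ) ≤ 1 + a) h0,
    mul_nonneg (by linarith [this.1] : (0 : ℝ) ≤ 1 + a) (sub_nonneg.mpr h1)]

theorem chanT_mem (ha : |a| ≤ 1) (hU : U ∈ Icc (0 : ℝ) 1) : chanT a U ∈ Icc (-1 : ℝ) 1 := by
  have hd := disc_nonneg ha hU
  obtain ⟨h0, h1⟩ := hU
  have hab := abs_le.mp ha
  set w := 4 * U - 2 + a with hw
  set s := Real.sqrt (1 + a * w) with hs
  have hs0 : 0 ≤ s := Real.sqrt_nonneg _
  have hss : s ^ 2 = 1 + a * w := Real.sq_sqrt hd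
  have hpos : 0 < 1 + s := by linarith
  unfold chanT
  rw [← hw, ← hs]
  constructor
  · rw [le_div_iff₀ hpos]
    by_cases hw1 : -1 ≤ w
    · nlinarith
    · push Not at hw1
      have : -w - 1 ≤ s := by
        by_contra h
        push Not at h
        have h2 : 0 ≤ -w := by linarith
        have h3 : w ^ 2 + 2 * w + 1 > s ^ 2 := by nlinarith
        have h4 : (a - w - 2) * (-w) ≤ 0 := by
          apply mul_nonpos_of_nonpos_of_nonneg _ h2
          rw [hw]; linarith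
        nlinarith
      nlinarith
  · rw [div_le_iff₀ hpos]
    by_cases hw1 : w ≤ 1
    · nlinarith
    · push Not at hw1
      have : w - 1 ≤ s := by
        by_contra h
        push Not at h
        have h2 : 0 ≤ w := by linarith
        have h3 : w ^ 2 - 2 * w + 1 > s ^ 2 := by nlinarith
        have h4 : (w - 2 - a) * w ≤ 0 := by
          apply mul_nonpos_of_nonpos_of_nonneg _ h2
          rw [hw]; linarith
        nlinarith
      nlinarith

/-- The defining quadratic equation. -/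
theorem chanT_eqn (ha : |a| ≤ 1) (hU : U ∈ Icc (0 : ℝ) 1) :
    (chanT a U + 1) / 2 + a * (chanT a U ^ 2 - 1) / 4 = U := by
  have hd := disc_nonneg ha hU
  set w := 4 * U - 2 + a with hw
  set s := Real.sqrt (1 + a * w) with hs
  have hs0 : 0 ≤ s := Real.sqrt_nonneg _
  have hss : s ^ 2 = 1 + a * w := Real.sq_sqrt hd
  have hpos : 0 < 1 + s := by linarith
  have hne : (1 + s) ≠ 0 := hpos.ne'
  have hT : chanT a U = w / (1 + s) := by
    unfold chanT; rw [← hw, ← hs]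
  rw [hT]
  have key : a * (w / (1 + s)) ^ 2 + 2 * (w / (1 + s)) = w := by
    have h1 : a * w + (1 + s) * 2 = (1 + s) ^ 2 := by nlinarith
    field_simp
    rw [h1]
  have hU' : U = (w + 2 - a) / 4 := by rw [hw]; ring
  rw [hU']
  linarith

/-- The polynomial inverse of `chanT a`. -/
private noncomputable def phiFn (a y : ℝ) : ℝ := (y + 1) / 2 + a * (y ^ 2 - 1) / 4

private theorem phiFn_mem (ha : |a| < 1) {y : ℝ} (hy : y ∈ Icc (-1 : ℝ) 1) :
    phiFn a y ∈ Icc (0 : ℝ) 1 := by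
  obtain ⟨h0, h1⟩ := hy
  have hab := abs_lt.mp ha
  unfold phiFn
  constructor
  · have : (y + 1) / 2 + a * (y ^ 2 - 1) / 4 = (y + 1) / 2 * (1 + a * (y - 1) / 2) := by ring
    rw [this]
    apply mul_nonneg (by linarith)
    nlinarith
  · have : 1 - ((y + 1) / 2 + a * (y ^ 2 - 1) / 4) = (1 - y) / 2 * (1 + a * (1 + y) / 2) := by ring
    have h2 : 0 ≤ (1 - y) / 2 * (1 + a * (1 + y) / 2) := by
      apply mul_nonneg (by linarith)
      nlinarith
    linarith

private theorem phiFn_injOn (ha : |a| < 1) : InjOn (phiFn a) (Icc (-1 : ℝ) 1) := by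
  intro y hy y' hy' h
  obtain ⟨h0, h1⟩ := hy
  obtain ⟨h0', h1'⟩ := hy'
  have hab := abs_lt.mp ha
  unfold phiFn at h
  have h2 : (y - y') * (1 / 2 + a * (y + y') / 4) = 0 := by linarith [h, (by ring :
    (y - y') * (1 / 2 + a * (y + y') / 4) =
      ((y + 1) / 2 + a * (y ^ 2 - 1) / 4) - ((y' + 1) / 2 + a * (y' ^ 2 - 1) / 4))]
  rcases mul_eq_zero.mp h2 with h3 | h3
  · linarith
  · exfalso
    have h5 : |y + y'| ≤ 2 := by rw [abs_le]; constructor <;> linarith
    have h6 : |a * (y + y')| < 2 := by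
      rw [abs_mul]
      have := mul_le_mul_of_nonneg_left h5 (abs_nonneg a)
      linarith
    have := abs_lt.mp h6
    linarith [this.1]

private theorem phiFn_image (ha : |a| < 1) : phiFn a '' Icc (-1 : ℝ) 1 = Icc (0 : ℝ) 1 := by
  ext U
  constructor
  · rintro ⟨y, hy, rfl⟩
    exact phiFn_mem ha hy
  · intro hU
    refine ⟨chanT a U, chanT_mem ha.le hU, ?_⟩
    unfold phiFn
    exact chanT_eqn ha.le hU

private theorem chanT_phiFn (ha : |a| < 1) {y : ℝ} (hy : y ∈ Icc (-1 : ℝ) 1) :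
    chanT a (phiFn a y) = y := by
  have hU := phiFn_mem ha hy
  apply phiFn_injOn ha (chanT_mem ha.le hU) hy
  unfold phiFn at hU ⊢
  exact chanT_eqn ha.le hU

/-- Change of variables, general form: no hypothesis on `g` is needed. -/
theorem integral_chanT_gen (ha : |a| < 1) (g : ℝ → ℝ) :
    ∫ U in (0 : ℝ)..1, g (chanT a U) = ∫ y in (-1 : ℝ)..1, g y * ((1 + a * y) / 2) := by
  have hder : ∀ y ∈ Icc (-1 : ℝ) 1,
      HasDerivWithinAt (phiFn a) ((1 + a * y) / 2) (Icc (-1 : ℝ) 1) y := by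
    intro y _
    have h1 : HasDerivAt (phiFn a) ((1 + a * y) / 2) y := by
      unfold phiFn
      have h2 : HasDerivAt (fun y : ℝ => (y + 1) / 2) (1 / 2) y := by
        simpa using ((hasDerivAt_id y).add_const (1 : ℝ)).div_const 2
      have h3 : HasDerivAt (fun y : ℝ => a * (y ^ 2 - 1) / 4) (a * (2 * y) / 4) y := by
        have h4 : HasDerivAt (fun y : ℝ => y ^ 2 - 1) (2 * y) y := by
          simpa using (hasDerivAt_pow 2 y).sub_const (1 : ℝ)
        exact (h4.const_mul a).div_const 4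
      exact (h2.fun_add h3).congr_deriv (by ring)
    exact h1.hasDerivWithinAt
  have key := integral_image_eq_integral_abs_deriv_smul (s := Icc (-1 : ℝ) 1)
    (f := phiFn a) (f' := fun y => (1 + a * y) / 2) measurableSet_Icc hder (phiFn_injOn ha)
    (fun U => g (chanT a U))
  rw [phiFn_image ha] at key
  rw [intervalIntegral.integral_of_le (by norm_num : (0 : ℝ) ≤ 1),
    intervalIntegral.integral_of_le (by norm_num : (-1 : ℝ) ≤ 1),
    ← integral_Icc_eq_integral_Ioc, ← integral_Icc_eq_integral_Ioc, key]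
  apply setIntegral_congr_fun measurableSet_Icc
  intro y hy
  have hab := abs_lt.mp ha
  have hpos : 0 ≤ (1 + a * y) / 2 := by
    obtain ⟨h0, h1⟩ := hy
    nlinarith [abs_lt.mp ha]
  simp only [smul_eq_mul]
  rw [abs_of_nonneg hpos, chanT_phiFn ha hy]
  ring

/-- Change of variables. -/
theorem integral_chanT (ha : |a| < 1) {g : ℝ → ℝ} (_hg : Measurable g) (_hb : ∃ C, ∀ y, |g y| ≤ C) :
    ∫ U in (0 : ℝ)..1, g (chanT a U) = ∫ y in (-1 : ℝ)..1, g y * ((1 + a * y) / 2) :=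
  integral_chanT_gen ha g

/-- Lipschitz in `a`, pointwise. -/
theorem chanT_lipschitz (ha : |a| ≤ 1 / 2) (ha' : |a'| ≤ 1 / 2) (hU : U ∈ Icc (0 : ℝ) 1) :
    |chanT a U - chanT a' U| ≤ |a - a'| := by
  have ha1 : |a| ≤ 1 := by linarith
  have ha1' : |a'| ≤ 1 := by linarith
  have h1 := chanT_eqn ha1 hU
  have h2 := chanT_eqn ha1' hU
  obtain ⟨hy0, hy1⟩ := chanT_mem ha1 hU
  obtain ⟨hy0', hy1'⟩ := chanT_mem ha1' hU
  set y := chanT a U
  set y' := chanT a' U
  have h3 : (y - y') * (1 / 2 + a * (y + y') / 4) = (a' - a) * (y' ^ 2 - 1) / 4 := by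
    linear_combination h1 - h2
  have hsum : |y + y'| ≤ 2 := by rw [abs_le]; constructor <;> linarith
  have h4 : |a * (y + y') / 4| ≤ 1 / 4 := by
    rw [abs_div, abs_mul, abs_of_pos (by norm_num : (0 : ℝ) < 4)]
    have := mul_le_mul ha hsum (abs_nonneg _) (by norm_num : (0 : ℝ) ≤ 1 / 2)
    linarith
  have h5 : 1 / 4 ≤ 1 / 2 + a * (y + y') / 4 := by
    have := abs_le.mp h4
    linarith [this.1]
  have h6 : |y' ^ 2 - 1| ≤ 1 := by
    rw [abs_le]; constructor <;> nlinarith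
  have h7 : |y - y'| * |1 / 2 + a * (y + y') / 4| = |a' - a| * |y' ^ 2 - 1| / 4 := by
    rw [← abs_mul, h3, abs_div, abs_mul, abs_of_pos (by norm_num : (0 : ℝ) < 4)]
  rw [abs_of_pos (by linarith : 0 < 1 / 2 + a * (y + y') / 4)] at h7
  rw [abs_sub_comm a a']
  have h8 : |y - y'| * (1 / 4) ≤ |y - y'| * (1 / 2 + a * (y + y') / 4) :=
    mul_le_mul_of_nonneg_left h5 (abs_nonneg _)
  have h9 : |a' - a| * |y' ^ 2 - 1| ≤ |a' - a| * 1 :=
    mul_le_mul_of_nonneg_left h6 (abs_nonneg _)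
  linarith

theorem measurable_chanT : Measurable (fun p : ℝ × ℝ => chanT p.1 p.2) := by
  unfold chanT
  fun_prop

theorem measurable_rhoFn : Measurable (fun p : ℝ × ℝ × ℝ => rhoFn p.1 p.2.1 p.2.2) := by
  have h : Measurable (fun p : ℝ × ℝ × ℝ => chanT (p.1 * p.2.1) p.2.2) :=
    measurable_chanT.comp (by fun_prop : Measurable (fun p : ℝ × ℝ × ℝ => (p.1 * p.2.1, p.2.2)))
  unfold rhoFn
  fun_prop

private theorem denom_lower (hε : 0 ≤ ε) (hε' : ε ≤ 1 / 2) (hm : |m| ≤ 1) {y : ℝ}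
    (hy : y ∈ Icc (-1 : ℝ) 1) : 1 / 2 ≤ 1 + ε * y * m := by
  have h1 : |y * m| ≤ 1 := by
    rw [abs_mul]
    have : |y| ≤ 1 := abs_le.mpr hy
    nlinarith [abs_nonneg y, abs_nonneg m]
  have h2 := abs_le.mp h1
  nlinarith [h2.1, h2.2]

private theorem abs_mul_le_half (hε : 0 ≤ ε) (hε' : ε ≤ 1 / 2) (hm : |m| ≤ 1) :
    |ε * m| ≤ 1 / 2 := by
  rw [abs_mul, abs_of_nonneg hε]
  nlinarith [abs_nonneg m]

private theorem rho_integral_eq (hε : 0 ≤ ε) (hε' : ε ≤ 1 / 2) (hm : |m| ≤ 1) (F : ℝ → ℝ) :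
    ∫ U in (0 : ℝ)..1, F (chanT (ε * m) U) =
      ∫ y in (-1 : ℝ)..1, F y * ((1 + ε * y * m) / 2) := by
  have h := abs_mul_le_half hε hε' hm
  rw [integral_chanT_gen (by linarith : |ε * m| < 1) F]
  apply intervalIntegral.integral_congr
  intro y _
  have e : ε * m * y = ε * y * m := by ring
  simp only [e]

/-- mean zero -/
theorem integral_rhoFn (hε : 0 ≤ ε) (hε' : ε ≤ 1 / 2) (hm : |m| ≤ 1) :
    ∫ U in (0 : ℝ)..1, rhoFn ε m U = 0 := by
  unfold rhoFn
  rw [rho_integral_eq hε hε' hm (fun y => ε * y / (1 + ε * y * m))]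
  have h : ∫ y in (-1 : ℝ)..1, ε * y / (1 + ε * y * m) * ((1 + ε * y * m) / 2) =
      ∫ y in (-1 : ℝ)..1, ε / 2 * y := by
    apply intervalIntegral.integral_congr
    intro y hy
    rw [uIcc_of_le (by norm_num : (-1 : ℝ) ≤ 1)] at hy
    have := denom_lower hε hε' hm hy
    have hne : 1 + ε * y * m ≠ 0 := by linarith
    simp only
    field_simp
  rw [h, intervalIntegral.integral_const_mul, integral_id]
  norm_num

/-- second moment -/
theorem integral_rhoFn_sq (hε : 0 ≤ ε) (hε' : ε ≤ 1 / 2) (hm : |m| ≤ 1) :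
    ∫ U in (0 : ℝ)..1, rhoFn ε m U ^ 2 ≤ ε ^ 2 := by
  unfold rhoFn
  rw [rho_integral_eq hε hε' hm (fun y => (ε * y / (1 + ε * y * m)) ^ 2)]
  have h1 : ∫ y in (-1 : ℝ)..1, (ε * y / (1 + ε * y * m)) ^ 2 * ((1 + ε * y * m) / 2) =
      ∫ y in (-1 : ℝ)..1, (ε * y) ^ 2 / (1 + ε * y * m) / 2 := by
    apply intervalIntegral.integral_congr
    intro y hy
    rw [uIcc_of_le (by norm_num : (-1 : ℝ) ≤ 1)] at hy
    have := denom_lower hε hε' hm hy
    have hne : 1 + ε * y * m ≠ 0 := by linarith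
    simp only
    field_simp
  rw [h1]
  have hint1 : IntervalIntegrable (fun y : ℝ => (ε * y) ^ 2 / (1 + ε * y * m) / 2)
      volume (-1) 1 := by
    apply ContinuousOn.intervalIntegrable
    rw [uIcc_of_le (by norm_num : (-1 : ℝ) ≤ 1)]
    apply ContinuousOn.div_const
    apply ContinuousOn.div (by fun_prop) (by fun_prop)
    intro y hy
    have := denom_lower hε hε' hm hy
    linarith
  have hint2 : IntervalIntegrable (fun y : ℝ => ε ^ 2 * y ^ 2) volume (-1) 1 :=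
    (by fun_prop : Continuous (fun y : ℝ => ε ^ 2 * y ^ 2)).intervalIntegrable _ _
  have h2 : ∫ y in (-1 : ℝ)..1, (ε * y) ^ 2 / (1 + ε * y * m) / 2 ≤
      ∫ y in (-1 : ℝ)..1, ε ^ 2 * y ^ 2 := by
    apply intervalIntegral.integral_mono_on (by norm_num) hint1 hint2
    intro y hy
    have h3 := denom_lower hε hε' hm hy
    have hpos : 0 < 1 + ε * y * m := by linarith
    rw [div_div, div_le_iff₀ (by positivity)]
    have h4 : 0 ≤ ε ^ 2 * y ^ 2 := by positivity
    nlinarith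
  have h3 : ∫ y in (-1 : ℝ)..1, ε ^ 2 * y ^ 2 = 2 / 3 * ε ^ 2 := by
    rw [intervalIntegral.integral_const_mul, integral_pow]
    norm_num
    ring
  rw [h3] at h2
  nlinarith [sq_nonneg ε]

theorem rhoFn_bound (hε : 0 ≤ ε) (hε' : ε ≤ 1 / 2) (hm : |m| ≤ 1) (hU : U ∈ Icc (0 : ℝ) 1) :
    |rhoFn ε m U| ≤ 2 * ε := by
  have ha : |ε * m| ≤ 1 := by linarith [abs_mul_le_half hε hε' hm]
  have hy := chanT_mem ha hU
  have hd := denom_lower hε hε' hm hy
  unfold rhoFn
  set y := chanT (ε * m) U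
  have hpos : 0 < 1 + ε * y * m := by linarith
  rw [abs_div, abs_of_pos hpos, div_le_iff₀ hpos, abs_mul, abs_of_nonneg hε]
  have hy' : |y| ≤ 1 := abs_le.mpr hy
  nlinarith

/-- Lipschitz in `m`, with the crucial factor `ε²`. -/
theorem rhoFn_lipschitz (hε : 0 ≤ ε) (hε' : ε ≤ 1 / 2) (hm : |m| ≤ 1) (hm' : |m'| ≤ 1)
    (hU : U ∈ Icc (0 : ℝ) 1) : |rhoFn ε m U - rhoFn ε m' U| ≤ 16 * ε ^ 2 * |m - m'| := by
  have ha := abs_mul_le_half hε hε' hm
  have ha' := abs_mul_le_half hε hε' hm'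
  have hy := chanT_mem (by linarith : |ε * m| ≤ 1) hU
  have hy' := chanT_mem (by linarith : |ε * m'| ≤ 1) hU
  have hd := denom_lower hε hε' hm hy
  have hd' := denom_lower hε hε' hm' hy'
  have hL := chanT_lipschitz ha ha' hU
  unfold rhoFn
  set y := chanT (ε * m) U
  set y' := chanT (ε * m') U
  have hpos : 0 < 1 + ε * y * m := by linarith
  have hpos' : 0 < 1 + ε * y' * m' := by linarith
  have hLy : |y - y'| ≤ ε * |m - m'| := by
    have : ε * m - ε * m' = ε * (m - m') := by ring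
    rw [this, abs_mul, abs_of_nonneg hε] at hL
    exact hL
  have e1 : ε * y / (1 + ε * y * m) - ε * y' / (1 + ε * y' * m') =
      ε * ((y - y') + ε * (y * y') * (m' - m)) / ((1 + ε * y * m) * (1 + ε * y' * m')) := by
    field_simp
    ring
  rw [e1, abs_div, abs_of_pos (mul_pos hpos hpos'), div_le_iff₀ (mul_pos hpos hpos')]
  have hyy : |y * y'| ≤ 1 := by
    rw [abs_mul]
    have h1 : |y| ≤ 1 := abs_le.mpr hy
    have h2 : |y'| ≤ 1 := abs_le.mpr hy'
    nlinarith [abs_nonneg y, abs_nonneg y']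
  have hA : |ε * ((y - y') + ε * (y * y') * (m' - m))| ≤ ε * (2 * (ε * |m - m'|)) := by
    rw [abs_mul, abs_of_nonneg hε]
    apply mul_le_mul_of_nonneg_left _ hε
    calc |(y - y') + ε * (y * y') * (m' - m)|
        ≤ |y - y'| + |ε * (y * y') * (m' - m)| := abs_add_le _ _
      _ ≤ ε * |m - m'| + ε * |m - m'| := by
          apply add_le_add hLy
          rw [abs_mul, abs_mul, abs_of_nonneg hε, abs_sub_comm m' m]
          have := abs_nonneg (m - m')
          have h3 : ε * |y * y'| ≤ ε * 1 := mul_le_mul_of_nonneg_left hyy hε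
          nlinarith
      _ = 2 * (ε * |m - m'|) := by ring
  have hB : (1 / 2) * (1 / 2) ≤ (1 + ε * y * m) * (1 + ε * y' * m') :=
    mul_le_mul hd hd' (by norm_num) hpos.le
  have hC : 0 ≤ 16 * ε ^ 2 * |m - m'| := by positivity
  nlinarith

/-- The `√(1-m²)` contraction when the vertex itself acts (blueprint E2).
With `m' = (m+εy)/(1+εym)`: `∫ √(1-m'^2) dU = √(1-m²) ∫_{-1}^1 √(1-ε²y²) dy/2`. -/
theorem integral_sqrt_self (hε : 0 ≤ ε) (hε' : ε ≤ 1 / 2) (hm : |m| < 1) :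
    ∫ U in (0 : ℝ)..1,
        Real.sqrt (1 - ((m + ε * chanT (ε * m) U) / (1 + ε * chanT (ε * m) U * m)) ^ 2) =
      Real.sqrt (1 - m ^ 2) * ∫ y in (-1 : ℝ)..1, Real.sqrt (1 - ε ^ 2 * y ^ 2) / 2 := by
  rw [rho_integral_eq hε hε' hm.le
    (fun y => Real.sqrt (1 - ((m + ε * y) / (1 + ε * y * m)) ^ 2)),
    ← intervalIntegral.integral_const_mul]
  apply intervalIntegral.integral_congr
  intro y hy
  rw [uIcc_of_le (by norm_num : (-1 : ℝ) ≤ 1)] at hy
  have hd := denom_lower hε hε' hm.le hy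
  have hpos : 0 < 1 + ε * y * m := by linarith
  have hne : 1 + ε * y * m ≠ 0 := hpos.ne'
  have hm2 : 0 ≤ 1 - m ^ 2 := by
    have := abs_lt.mp hm
    nlinarith
  have e : 1 - ((m + ε * y) / (1 + ε * y * m)) ^ 2 =
      (1 - m ^ 2) * (1 - ε ^ 2 * y ^ 2) / (1 + ε * y * m) ^ 2 := by
    have hne2 : (1 + ε * y * m) ^ 2 ≠ 0 := pow_ne_zero 2 hne
    rw [eq_div_iff hne2, sub_mul, div_pow, div_mul_cancel₀ _ hne2]
    ring
  simp only
  rw [e, Real.sqrt_div' _ (sq_nonneg _), Real.sqrt_sq hpos.le, Real.sqrt_mul hm2]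
  generalize 1 + ε * y * m = D at hne
  field_simp

end Crest.Agent.Lib.IsingFIID
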