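/-
S0241 blueprint, Mod A: combinatorics of the d-regular tree.   See blueprints/S0241/BLUEPRINT.md
All definitions here are final (others depend on them); add lemmas freely.
-/
import Mathlib

set_option autoImplicit false
universe u

namespace Crest.Agent.Lib.IsingFIID

open scoped Classical

variable {V : Type u}

/-- The standing hypothesis: `G` is the `(D+1)`-regular tree, `D ≥ 2`. -/
structure RegTree (G : SimpleGraph V) (D : ℕ) : Prop where
  isTree : G.IsTree
  reg : ∀ [G.LocallyFinite], G.IsRegularOfDegree (D + 1)
  two_le : 2 ≤ D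

variable (G : SimpleGraph V) [G.LocallyFinite]

/-- children of `y` as seen from `p`: neighbours of `y` other than `p`. -/
noncomputable def ch (p y : V) : Finset V := (G.neighborFinset y).erase p

/-- `desc r p y`: vertices at depth `r` below `y`, in the half tree away from `p`. -/
noncomputable def desc : ℕ → V → V → Finset V
  | 0, _, y => {y}
  | r + 1, p, y => (ch G p y).biUnion fun z => desc r y z

/-- `sub R p y`: depth-`R` regular subtree rooted at `y`, away from `p`. -/
noncomputable def sub (R : ℕ) (p y : V) : Finset V :=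
  (Finset.range (R + 1)).biUnion fun r => desc G r p y

/-- sphere of radius `r` around `v`. -/
noncomputable def sphere (v : V) : ℕ → Finset V
  | 0 => {v}
  | r + 1 => (G.neighborFinset v).biUnion fun y => desc G r v y

/-- closed ball of radius `R` around `v`. -/
noncomputable def ball (v : V) (R : ℕ) : Finset V :=
  (Finset.range (R + 1)).biUnion fun r => sphere G v r

/-- Geodesically convex finite sets: these are the finite subtrees. -/
def IsConvexSet (W : Finset V) : Prop :=
  ∀ u ∈ W, ∀ v ∈ W, ∀ w, G.dist u w + G.dist w v = G.dist u v → w ∈ W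

/-- `stepTo y u`: the neighbour of `y` on the geodesic to `u` (and `y` if `u = y`). -/
noncomputable def stepTo (y u : V) : V :=
  if h : ∃ z, G.Adj y z ∧ G.dist z u + 1 = G.dist y u then h.choose else y

/-- Non-backtracking paths (as vertex lists). -/
def IsNB : List V → Prop
  | [] => True
  | [_] => True
  | [x, y] => G.Adj x y
  | x :: y :: z :: l => G.Adj x y ∧ z ≠ x ∧ IsNB (y :: z :: l)

variable {G} {D : ℕ}

/-! ### Basic facts about distances in trees -/

section TreeFacts

variable {G' : SimpleGraph V}

theorem exists_closer (hT : G'.IsTree) {y u : V} (h : y ≠ u) :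
    ∃ z, G'.Adj y z ∧ G'.dist z u + 1 = G'.dist y u := by
  obtain ⟨p, hp⟩ := hT.connected.exists_walk_length_eq_dist y u
  cases p with
  | nil => exact absurd rfl h
  | @cons _ z _ hadj q =>
    refine ⟨z, hadj, ?_⟩
    have h1 : G'.dist z u ≤ q.length := SimpleGraph.dist_le q
    have h2 : G'.dist y u ≤ G'.dist y z + G'.dist z u := hT.connected.dist_triangle
    have h3 : G'.dist y z = 1 := SimpleGraph.dist_eq_one_iff_adj.mpr hadj
    simp only [SimpleGraph.Walk.length_cons] at hp
    omega

theorem closer_unique (hT : G'.IsTree) {y z z' u : V} (hz : G'.Adj y z) (hz' : G'.Adj y z')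
    (h : G'.dist z u + 1 = G'.dist y u) (h' : G'.dist z' u + 1 = G'.dist y u) : z = z' := by
  obtain ⟨q, hq⟩ := hT.connected.exists_walk_length_eq_dist z u
  obtain ⟨q', hq'⟩ := hT.connected.exists_walk_length_eq_dist z' u
  have hp : (SimpleGraph.Walk.cons hz q).IsPath :=
    SimpleGraph.Walk.isPath_of_length_eq_dist _ (by simp [hq, h])
  have hp' : (SimpleGraph.Walk.cons hz' q').IsPath :=
    SimpleGraph.Walk.isPath_of_length_eq_dist _ (by simp [hq', h'])
  have := (hT.isAcyclic.subsingleton_path y u).elim (⟨_, hp⟩ : G'.Path y u) ⟨_, hp'⟩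
  have h2 : SimpleGraph.Walk.cons hz q = SimpleGraph.Walk.cons hz' q' := congrArg Subtype.val this
  have h3 := congrArg (fun w : G'.Walk y u => w.getVert 1) h2
  simpa using h3

/-- If the step `u → a` moves away from `o` and `a` is on the geodesic from `u` to `v`, then the
geodesic from `o` to `v` passes through `u`. -/
theorem dist_add_of_away (hT : G'.IsTree) {o v : V} :
    ∀ (n : ℕ) {u a : V}, G'.dist u v = n → G'.Adj u a → G'.dist o a = G'.dist o u + 1 →
      G'.dist a v + 1 = G'.dist u v → G'.dist o v = G'.dist o u + G'.dist u v := by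
  intro n
  induction n with
  | zero =>
    intro u a hn _ _ hav
    omega
  | succ n ih =>
    intro u a hn hua hoa hav
    by_cases hav0 : a = v
    · subst hav0
      have : G'.dist u a = 1 := SimpleGraph.dist_eq_one_iff_adj.mpr hua
      omega
    · obtain ⟨b, hab, hb⟩ := exists_closer hT hav0
      have hbu : b ≠ u := by
        rintro rfl
        omega
      have hob : G'.dist o b = G'.dist o a + 1 := by
        rcases hT.dist_eq_dist_add_one_of_adj o hab with h1 | h1
        · exfalso
          apply hbu
          refine closer_unique hT hab hua.symm ?_ ?_ (u := o)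
          · rw [SimpleGraph.dist_comm (u := b), SimpleGraph.dist_comm (u := a)]; omega
          · rw [SimpleGraph.dist_comm (u := u), SimpleGraph.dist_comm (u := a)]; omega
        · exact h1
      have := ih (u := a) (a := b) (by omega) hab hob hb
      omega

/-- Distance from a point is quasi-convex along geodesics of a tree. -/
theorem dist_le_max_of_geodesic (hT : G'.IsTree) (o v w : V) :
    ∀ (n : ℕ) {u : V}, G'.dist u v = n → G'.dist u w + G'.dist w v = G'.dist u v →
      G'.dist o w ≤ max (G'.dist o u) (G'.dist o v) := by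
  intro n
  induction n using Nat.strong_induction_on with
  | _ n ih =>
    intro u hn hw
    by_cases huw : u = w
    · subst huw; exact le_max_left _ _
    · obtain ⟨a, hua, ha⟩ := exists_closer hT huw
      have h1 : G'.dist a v ≤ G'.dist a w + G'.dist w v := hT.connected.dist_triangle
      have h2 : G'.dist u v ≤ G'.dist u a + G'.dist a v := hT.connected.dist_triangle
      have h3 : G'.dist u a = 1 := SimpleGraph.dist_eq_one_iff_adj.mpr hua
      have hav : G'.dist a v + 1 = G'.dist u v := by omega
      have := ih (G'.dist a v) (by omega) (u := a) rfl (by omega)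
      rcases hT.dist_eq_dist_add_one_of_adj o hua with h4 | h4
      · rcases le_max_iff.mp this with h5 | h5
        · exact le_max_of_le_left (by omega)
        · exact le_max_of_le_right h5
      · have h5 := dist_add_of_away hT (o := o) (v := v) _ rfl hua h4 hav
        rcases le_max_iff.mp this with h6 | h6
        · exact le_max_of_le_right (by omega)
        · exact le_max_of_le_right h6

/-- Crossing an edge: if `x` is on the `y`-side and `w` on the `p`-side of the edge `p y`. -/
theorem dist_cross (hT : G'.IsTree) {p y x w : V} (h : G'.Adj p y)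
    (hx : G'.dist y x + 1 = G'.dist p x) (hw : G'.dist p w + 1 = G'.dist y w) :
    G'.dist w x = G'.dist p w + G'.dist p x := by
  have := dist_add_of_away hT (o := w) (v := x) _ rfl h
    (by rw [SimpleGraph.dist_comm (u := w), SimpleGraph.dist_comm (u := w)]; omega) hx
  rw [this, SimpleGraph.dist_comm (u := w)]

end TreeFacts

theorem mem_ch {p y z : V} : z ∈ ch G p y ↔ G.Adj y z ∧ z ≠ p := by
  simp [ch, and_comm]

theorem RegTree.card_neighbor (hG : RegTree G D) (v : V) : (G.neighborFinset v).card = D + 1 := by
  rw [SimpleGraph.card_neighborFinset_eq_degree]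
  exact hG.reg v

theorem RegTree.card_ch (hG : RegTree G D) {p y : V} (h : G.Adj p y) : (ch G p y).card = D := by
  unfold ch
  rw [Finset.card_erase_of_mem (by simpa using h.symm), hG.card_neighbor]
  simp

theorem RegTree.mem_desc (hG : RegTree G D) {p y : V} (h : G.Adj p y) (r : ℕ) (u : V) :
    u ∈ desc G r p y ↔ G.dist y u = r ∧ G.dist p u = r + 1 := by
  have hT := hG.isTree
  induction r generalizing p y with
  | zero =>
    simp only [desc, Finset.mem_singleton]
    constructor
    · rintro rfl
      simp [SimpleGraph.dist_eq_one_iff_adj, h]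
    · rintro ⟨h1, _⟩
      exact (hT.connected.dist_eq_zero_iff.mp h1).symm
  | succ r ih =>
    simp only [desc, Finset.mem_biUnion, mem_ch]
    constructor
    · rintro ⟨z, ⟨hyz, hzp⟩, hu⟩
      obtain ⟨h1, h2⟩ := (ih hyz).mp hu
      refine ⟨h2, ?_⟩
      rcases hT.dist_eq_dist_add_one_of_adj u h with h3 | h3
      · rw [SimpleGraph.dist_comm (u := u), SimpleGraph.dist_comm (u := u)] at h3
        omega
      · rw [SimpleGraph.dist_comm (u := u), SimpleGraph.dist_comm (u := u)] at h3
        exfalso
        apply hzp
        apply closer_unique hT hyz h.symm (u := u)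
        · omega
        · omega
    · rintro ⟨h1, h2⟩
      have hyu : y ≠ u := by
        rintro rfl
        simp at h1
      obtain ⟨z, hz, hz'⟩ := exists_closer hT hyu
      refine ⟨z, ⟨hz, ?_⟩, (ih hz).mpr ⟨by omega, by omega⟩⟩
      rintro rfl
      omega

/-- Descendant sets of distinct children are disjoint. -/
theorem RegTree.disjoint_desc (hG : RegTree G D) {p y z z' : V} (h : G.Adj p y)
    (hz : z ∈ ch G p y) (hz' : z' ∈ ch G p y) (hne : z ≠ z') (r r' : ℕ) :
    Disjoint (desc G r y z) (desc G r' y z') := by
  rw [Finset.disjoint_left]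
  intro u hu hu'
  have hzz := (mem_ch.mp hz).1
  have hzz' := (mem_ch.mp hz').1
  obtain ⟨h1, h2⟩ := (hG.mem_desc hzz r u).mp hu
  obtain ⟨h1', h2'⟩ := (hG.mem_desc hzz' r' u).mp hu'
  exact hne (closer_unique hG.isTree (u := u) hzz hzz' (by omega) (by omega))

theorem RegTree.sum_desc_succ (hG : RegTree G D) {p y : V} (h : G.Adj p y) (r : ℕ)
    {M : Type*} [AddCommMonoid M] (f : V → M) :
    ∑ u ∈ desc G (r + 1) p y, f u = ∑ z ∈ ch G p y, ∑ u ∈ desc G r y z, f u := by
  simp only [desc]
  apply Finset.sum_biUnion
  intro z hz z' hz' hne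
  exact hG.disjoint_desc h hz hz' hne r r

theorem RegTree.card_desc (hG : RegTree G D) {p y : V} (h : G.Adj p y) (r : ℕ) :
    (desc G r p y).card = D ^ r := by
  induction r generalizing p y with
  | zero => simp [desc]
  | succ r ih =>
    have := hG.sum_desc_succ h r (fun _ => (1 : ℕ))
    simp only [Finset.sum_const, smul_eq_mul, mul_one, Nat.card_eq_fintype_card] at this
    rw [this]
    rw [Finset.sum_congr rfl (fun z hz => ih (mem_ch.mp hz).1)]
    simp [hG.card_ch h, pow_succ, mul_comm]

theorem RegTree.mem_sphere (hG : RegTree G D) (v : V) (r : ℕ) (u : V) :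
    u ∈ sphere G v r ↔ G.dist v u = r := by
  have hT := hG.isTree
  cases r with
  | zero =>
    simp only [sphere, Finset.mem_singleton]
    constructor
    · rintro rfl; simp
    · intro h; exact (hT.connected.dist_eq_zero_iff.mp h).symm
  | succ r =>
    simp only [sphere, Finset.mem_biUnion, SimpleGraph.mem_neighborFinset]
    constructor
    · rintro ⟨y, hy, hu⟩
      exact ((hG.mem_desc hy r u).mp hu).2
    · intro h
      have hvu : v ≠ u := by
        rintro rfl
        simp at h
      obtain ⟨y, hy, hy'⟩ := exists_closer hT hvu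
      exact ⟨y, hy, (hG.mem_desc hy r u).mpr ⟨by omega, h⟩⟩

theorem RegTree.sum_sphere_succ (hG : RegTree G D) (v : V) (r : ℕ)
    {M : Type*} [AddCommMonoid M] (f : V → M) :
    ∑ u ∈ sphere G v (r + 1), f u = ∑ y ∈ G.neighborFinset v, ∑ u ∈ desc G r v y, f u := by
  simp only [sphere]
  apply Finset.sum_biUnion
  intro y hy y' hy' hne
  simp only [Function.onFun]
  rw [Finset.disjoint_left]
  intro u hu hu'
  have h1 : G.Adj v y := by simpa using hy
  have h2 : G.Adj v y' := by simpa using hy'
  obtain ⟨a1, a2⟩ := (hG.mem_desc h1 r u).mp hu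
  obtain ⟨b1, b2⟩ := (hG.mem_desc h2 r u).mp hu'
  exact hne (closer_unique hG.isTree (u := u) h1 h2 (by omega) (by omega))

theorem RegTree.mem_ball (hG : RegTree G D) (v : V) (R : ℕ) (u : V) :
    u ∈ ball G v R ↔ G.dist v u ≤ R := by
  simp only [ball, Finset.mem_biUnion, Finset.mem_range, hG.mem_sphere]
  constructor
  · rintro ⟨r, hr, rfl⟩; omega
  · intro h; exact ⟨_, by omega, rfl⟩

theorem RegTree.isConvexSet_ball (hG : RegTree G D) (v : V) (R : ℕ) :
    IsConvexSet G (ball G v R) := by
  intro a ha b hb w hw
  rw [hG.mem_ball] at ha hb ⊢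
  have := dist_le_max_of_geodesic hG.isTree v b w _ rfl hw
  exact this.trans (max_le ha hb)

/-- `ball y R` is `sub R p y`, plus the rest of the ball; every edge of the ball leaving `sub R p y` is `(y,p)`. -/
theorem RegTree.sub_eq_ball_filter (hG : RegTree G D) {p y : V} (h : G.Adj p y) (R : ℕ) :
    sub G R p y = (ball G y R).filter fun u => G.dist y u < G.dist p u := by
  ext u
  simp only [sub, Finset.mem_biUnion, Finset.mem_range, hG.mem_desc h, Finset.mem_filter, hG.mem_ball]
  constructor
  · rintro ⟨r, hr, h1, h2⟩
    exact ⟨by omega, by omega⟩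
  · rintro ⟨h1, h2⟩
    refine ⟨G.dist y u, by omega, rfl, ?_⟩
    rcases hG.isTree.dist_eq_dist_add_one_of_adj u h with h3 | h3
    · rw [SimpleGraph.dist_comm (u := u), SimpleGraph.dist_comm (u := u)] at h3
      omega
    · rw [SimpleGraph.dist_comm (u := u), SimpleGraph.dist_comm (u := u)] at h3
      omega

theorem RegTree.isConvexSet_sub (hG : RegTree G D) {p y : V} (h : G.Adj p y) (R : ℕ) :
    IsConvexSet G (sub G R p y) := by
  have hT := hG.isTree
  rw [hG.sub_eq_ball_filter h]
  intro a ha b hb w hw
  simp only [Finset.mem_filter] at ha hb ⊢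
  refine ⟨hG.isConvexSet_ball y R a ha.1 b hb.1 w hw, ?_⟩
  by_contra hcon
  have h1 : G.dist p w + 1 = G.dist y w := by
    rcases hT.dist_eq_dist_add_one_of_adj w h with h3 | h3
    · rw [SimpleGraph.dist_comm (u := w), SimpleGraph.dist_comm (u := w)] at h3
      omega
    · rw [SimpleGraph.dist_comm (u := w), SimpleGraph.dist_comm (u := w)] at h3
      omega
  have side : ∀ x, G.dist y x < G.dist p x → G.dist y x + 1 = G.dist p x := by
    intro x hx
    rcases hT.dist_eq_dist_add_one_of_adj x h with h3 | h3
    · rw [SimpleGraph.dist_comm (u := x), SimpleGraph.dist_comm (u := x)] at h3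
      omega
    · rw [SimpleGraph.dist_comm (u := x), SimpleGraph.dist_comm (u := x)] at h3
      omega
  have h2 := dist_cross hT h (side a ha.2) h1
  have h3 := dist_cross hT h (side b hb.2) h1
  have h4 : G.dist a b ≤ G.dist a y + G.dist y b := hT.connected.dist_triangle
  have h5 := side a ha.2
  have h6 := side b hb.2
  have e1 : G.dist a w = G.dist p w + G.dist p a := by rw [SimpleGraph.dist_comm]; exact h2
  rw [SimpleGraph.dist_comm (u := a) (v := y)] at h4
  omega

/-- Decomposition of a regular subtree at the root. -/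
theorem RegTree.sub_succ (hG : RegTree G D) {p y : V} (h : G.Adj p y) (R : ℕ) :
    sub G (R + 1) p y = {y} ∪ (ch G p y).biUnion fun z => sub G R y z := by
  ext u
  simp only [sub, Finset.mem_biUnion, Finset.mem_range, Finset.mem_union, Finset.mem_singleton]
  constructor
  · rintro ⟨r, hr, hu⟩
    cases r with
    | zero => left; simpa [desc] using hu
    | succ r =>
      right
      simp only [desc, Finset.mem_biUnion] at hu
      obtain ⟨z, hz, hu⟩ := hu
      exact ⟨z, hz, r, by omega, hu⟩
  · rintro (rfl | ⟨z, hz, r, hr, hu⟩)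
    · exact ⟨0, by omega, by simp [desc]⟩
    · refine ⟨r + 1, by omega, ?_⟩
      simp only [desc, Finset.mem_biUnion]
      exact ⟨z, hz, hu⟩

theorem RegTree.stepTo_adj (hG : RegTree G D) {y u : V} (h : y ≠ u) : G.Adj y (stepTo G y u) := by
  have hex := exists_closer hG.isTree h
  unfold stepTo
  rw [dif_pos hex]
  exact hex.choose_spec.1

theorem RegTree.stepTo_dist (hG : RegTree G D) {y u : V} (h : y ≠ u) :
    G.dist (stepTo G y u) u + 1 = G.dist y u := by
  have hex := exists_closer hG.isTree h
  unfold stepTo
  rw [dif_pos hex]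
  exact hex.choose_spec.2

/-- If `u` is below the child `z` of `y` then the first step from `y` to `u` is `z`. -/
theorem RegTree.stepTo_of_mem_desc (hG : RegTree G D) {y z u : V} (h : G.Adj y z) {r : ℕ}
    (hu : u ∈ desc G r y z) : stepTo G y u = z := by
  obtain ⟨h1, h2⟩ := (hG.mem_desc h r u).mp hu
  have hyu : y ≠ u := by
    rintro rfl
    simp at h2
  exact closer_unique hG.isTree (hG.stepTo_adj hyu) h (hG.stepTo_dist hyu) (by omega)

/-! ### Automorphisms of the regular tree -/

section Aut

/-- The children of `v` in the tree rooted at `r`. -/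
noncomputable def kids (G : SimpleGraph V) [G.LocallyFinite] (r v : V) : Finset V :=
  (G.neighborFinset v).filter fun z => G.dist r z = G.dist r v + 1

/-- Number of children of a vertex. -/
noncomputable def nKids (D : ℕ) (r v : V) : ℕ := if v = r then D + 1 else D

theorem mem_kids {r v z : V} : z ∈ kids G r v ↔ G.Adj v z ∧ G.dist r z = G.dist r v + 1 := by
  simp [kids]

theorem parent_of_mem_kids (hG : RegTree G D) {r v z : V} (h : z ∈ kids G r v) :
    stepTo G z r = v := by
  obtain ⟨h1, h2⟩ := mem_kids.mp h
  have hne : z ≠ r := by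
    rintro rfl
    simp at h2
  apply closer_unique hG.isTree (hG.stepTo_adj hne) h1.symm (hG.stepTo_dist hne)
  rw [SimpleGraph.dist_comm (u := v), SimpleGraph.dist_comm (u := z)]
  omega

theorem mem_kids_parent (hG : RegTree G D) {r u : V} (h : u ≠ r) :
    u ∈ kids G r (stepTo G u r) := by
  rw [mem_kids]
  refine ⟨(hG.stepTo_adj h).symm, ?_⟩
  have := hG.stepTo_dist h
  rw [SimpleGraph.dist_comm (u := r), SimpleGraph.dist_comm (u := r)]
  omega

theorem card_kids (hG : RegTree G D) (r v : V) : (kids G r v).card = nKids D r v := by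
  unfold nKids
  by_cases hv : v = r
  · subst hv
    rw [if_pos rfl, ← hG.card_neighbor v]
    congr 1
    ext z
    simp only [mem_kids, SimpleGraph.mem_neighborFinset, SimpleGraph.dist_self, zero_add]
    constructor
    · exact fun h => h.1
    · exact fun h => ⟨h, SimpleGraph.dist_eq_one_iff_adj.mpr h⟩
  · rw [if_neg hv]
    have : kids G r v = ch G (stepTo G v r) v := by
      ext z
      rw [mem_kids, mem_ch]
      constructor
      · rintro ⟨h1, h2⟩
        refine ⟨h1, ?_⟩
        rintro rfl
        have := hG.stepTo_dist hv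
        rw [SimpleGraph.dist_comm (u := r), SimpleGraph.dist_comm (u := r) (v := v)] at h2
        omega
      · rintro ⟨h1, h2⟩
        refine ⟨h1, ?_⟩
        rcases hG.isTree.dist_eq_dist_add_one_of_adj r h1 with h3 | h3
        · exfalso
          apply h2
          apply closer_unique hG.isTree h1 (hG.stepTo_adj hv) (u := r)
          · rw [SimpleGraph.dist_comm (u := z), SimpleGraph.dist_comm (u := v)]; omega
          · exact hG.stepTo_dist hv
        · exact h3
    rw [this]
    exact hG.card_ch (hG.stepTo_adj hv).symm

/-- A local labelling of a finite set with `{0,…,c-1}`, with one prescribed element labelled `0`. -/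
theorem exists_local_label (S X : Finset V) (hX : (S ∩ X).card ≤ 1) :
    ∃ f : V → ℕ, Set.InjOn f S ∧ (∀ z ∈ S, f z < S.card) ∧
      (∀ n < S.card, ∃ z ∈ S, f z = n) ∧ (∀ a ∈ S, a ∈ X → f a = 0) := by
  by_cases hne : (S ∩ X).Nonempty
  · obtain ⟨a, ha⟩ := hne
    have haS : a ∈ S := (Finset.mem_inter.mp ha).1
    have hc : 0 < S.card := Finset.card_pos.mpr ⟨a, haS⟩
    let e := S.equivFin
    let i : Fin S.card := e ⟨a, haS⟩
    let o : Fin S.card := ⟨0, hc⟩
    let e' : S ≃ Fin S.card := e.trans (Equiv.swap i o)
    refine ⟨fun z => if hz : z ∈ S then (e' ⟨z, hz⟩).val else 0, ?_, ?_, ?_, ?_⟩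
    · intro x hx y hy hxy
      have hx' : x ∈ S := hx
      have hy' : y ∈ S := hy
      simp only [dif_pos hx', dif_pos hy'] at hxy
      have := e'.injective (Fin.ext hxy)
      exact congrArg Subtype.val this
    · intro z hz
      simp only [dif_pos hz]
      exact (e' ⟨z, hz⟩).isLt
    · intro n hn
      refine ⟨(e'.symm ⟨n, hn⟩).val, (e'.symm ⟨n, hn⟩).property, ?_⟩
      simp
    · intro b hb hbX
      have hb' : b ∈ S ∩ X := Finset.mem_inter.mpr ⟨hb, hbX⟩
      have hab : b = a := Finset.card_le_one.mp hX b hb' a ha
      subst hab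
      simp only [dif_pos hb]
      have : e' ⟨b, hb⟩ = o := by
        simp [e', i]
      rw [this]
  · refine ⟨fun z => if hz : z ∈ S then (S.equivFin ⟨z, hz⟩).val else 0, ?_, ?_, ?_, ?_⟩
    · intro x hx y hy hxy
      have hx' : x ∈ S := hx
      have hy' : y ∈ S := hy
      simp only [dif_pos hx', dif_pos hy'] at hxy
      have := S.equivFin.injective (Fin.ext hxy)
      exact congrArg Subtype.val this
    · intro z hz
      simp only [dif_pos hz]
      exact (S.equivFin ⟨z, hz⟩).isLt
    · intro n hn
      refine ⟨(S.equivFin.symm ⟨n, hn⟩).val, (S.equivFin.symm ⟨n, hn⟩).property, ?_⟩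
      simp
    · intro b hb hbX
      exact absurd ⟨b, Finset.mem_inter.mpr ⟨hb, hbX⟩⟩ hne

/-- A labelling of a rooted tree. -/
structure Labelling (G : SimpleGraph V) [G.LocallyFinite] (D : ℕ) (r : V) (lab : V → ℕ) : Prop where
  inj : ∀ v, Set.InjOn lab (kids G r v)
  lt : ∀ v, ∀ z ∈ kids G r v, lab z < nKids D r v
  surj : ∀ v, ∀ n < nKids D r v, ∃ z ∈ kids G r v, lab z = n

theorem exists_labelling (hG : RegTree G D) (r : V) (X : Finset V)
    (hX : ∀ v, (kids G r v ∩ X).card ≤ 1) :
    ∃ lab : V → ℕ, Labelling G D r lab ∧ ∀ a ∈ X, a ≠ r → lab a = 0 := by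
  choose f hf1 hf2 hf3 hf4 using fun v => exists_local_label (kids G r v) X (hX v)
  refine ⟨fun u => f (stepTo G u r) u, ⟨?_, ?_, ?_⟩, ?_⟩
  · intro v x hx y hy hxy
    have hx' : x ∈ kids G r v := hx
    have hy' : y ∈ kids G r v := hy
    simp only [parent_of_mem_kids hG hx', parent_of_mem_kids hG hy'] at hxy
    exact hf1 v hx hy hxy
  · intro v z hz
    simp only [parent_of_mem_kids hG hz]
    rw [← card_kids hG]
    exact hf2 v z hz
  · intro v n hn
    rw [← card_kids hG] at hn
    obtain ⟨z, hz, hzn⟩ := hf3 v n hn
    exact ⟨z, hz, by simp only [parent_of_mem_kids hG hz]; exact hzn⟩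
  · intro a ha har
    exact hf4 _ a (mem_kids_parent hG har) ha

variable (G) in
/-- Recursive definition of the label-preserving map. -/
noncomputable def autAux (r r' : V) (lab lab' : V → ℕ) : ℕ → V → V
  | 0, _ => r'
  | n + 1, u =>
      if h : ∃ z, z ∈ kids G r' (autAux r r' lab lab' n (stepTo G u r)) ∧ lab' z = lab u then
        h.choose else u

variable (G) in
/-- The label-preserving map. -/
noncomputable def autFun (r r' : V) (lab lab' : V → ℕ) (u : V) : V :=
  autAux G r r' lab lab' (G.dist r u) u

theorem autFun_root (r r' : V) (lab lab' : V → ℕ) : autFun G r r' lab lab' r = r' := by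
  simp [autFun, autAux]

theorem dist_parent (hG : RegTree G D) {r u : V} (h : u ≠ r) :
    G.dist r (stepTo G u r) + 1 = G.dist r u := by
  have := hG.stepTo_dist h
  rw [SimpleGraph.dist_comm (u := r), SimpleGraph.dist_comm (u := r) (v := u)]
  exact this

theorem autFun_spec (hG : RegTree G D) {r r' : V} {lab lab' : V → ℕ} (hl : Labelling G D r lab)
    (hl' : Labelling G D r' lab') :
    ∀ (n : ℕ) (u : V), G.dist r u = n →
      G.dist r' (autFun G r r' lab lab' u) = n ∧
      (u ≠ r → autFun G r r' lab lab' u ∈ kids G r' (autFun G r r' lab lab' (stepTo G u r)) ∧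
        lab' (autFun G r r' lab lab' u) = lab u) := by
  have hT := hG.isTree
  intro n
  induction n with
  | zero =>
    intro u hu
    have hur : r = u := hT.connected.dist_eq_zero_iff.mp hu
    subst hur
    simp [autFun_root]
  | succ n ih =>
    intro u hu
    have hur : u ≠ r := by
      rintro rfl
      simp at hu
    have hp := dist_parent hG hur
    have hpn : G.dist r (stepTo G u r) = n := by omega
    obtain ⟨hd, -⟩ := ih _ hpn
    set p := stepTo G u r with hpdef
    have hc : nKids D r' (autFun G r r' lab lab' p) = nKids D r p := by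
      unfold nKids
      by_cases h0 : p = r
      · rw [if_pos h0]
        have : autFun G r r' lab lab' p = r' := by rw [h0, autFun_root]
        rw [if_pos this]
      · rw [if_neg h0, if_neg]
        intro h1
        rw [h1] at hd
        simp only [SimpleGraph.dist_self] at hd
        have : G.dist r p = 0 := by omega
        exact h0 (hT.connected.dist_eq_zero_iff.mp this).symm
    have hex : ∃ z, z ∈ kids G r' (autFun G r r' lab lab' p) ∧ lab' z = lab u := by
      apply hl'.surj
      rw [hc]
      exact hl.lt p u (mem_kids_parent hG hur)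
    have he : autFun G r r' lab lab' p = autAux G r r' lab lab' n p := by
      unfold autFun; rw [hpn]
    have hex' : ∃ z, z ∈ kids G r' (autAux G r r' lab lab' n p) ∧ lab' z = lab u := by
      rw [← he]; exact hex
    have hunf : autFun G r r' lab lab' u = hex'.choose := by
      unfold autFun
      rw [hu]
      simp only [autAux]
      rw [dif_pos hex']
    have hspec : autFun G r r' lab lab' u ∈ kids G r' (autFun G r r' lab lab' p) ∧
        lab' (autFun G r r' lab lab' u) = lab u := by
      rw [hunf]
      have := hex'.choose_spec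
      refine ⟨?_, this.2⟩
      rw [he]
      exact this.1
    refine ⟨?_, fun _ => hspec⟩
    rw [(mem_kids.mp hspec.1).2, hd]

theorem autFun_left_inv (hG : RegTree G D) {r r' : V} {lab lab' : V → ℕ} (hl : Labelling G D r lab)
    (hl' : Labelling G D r' lab') :
    ∀ (n : ℕ) (u : V), G.dist r u = n →
      autFun G r' r lab' lab (autFun G r r' lab lab' u) = u := by
  have hT := hG.isTree
  intro n
  induction n with
  | zero =>
    intro u hu
    have hur : r = u := hT.connected.dist_eq_zero_iff.mp hu
    subst hur
    simp [autFun_root]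
  | succ n ih =>
    intro u hu
    have hur : u ≠ r := by
      rintro rfl
      simp at hu
    have hp := dist_parent hG hur
    have hpn : G.dist r (stepTo G u r) = n := by omega
    obtain ⟨hd, hk⟩ := autFun_spec hG hl hl' (n + 1) u hu
    obtain ⟨hk1, hk2⟩ := hk hur
    set u' := autFun G r r' lab lab' u with hu'def
    have hu'r : u' ≠ r' := by
      rintro h
      rw [h] at hd
      simp at hd
    obtain ⟨-, hk'⟩ := autFun_spec hG hl' hl (n + 1) u' hd
    obtain ⟨hk1', hk2'⟩ := hk' hu'r
    have hpar : stepTo G u' r' = autFun G r r' lab lab' (stepTo G u r) :=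
      parent_of_mem_kids hG hk1
    rw [hpar, ih _ hpn] at hk1'
    apply hl.inj (stepTo G u r) hk1' (mem_kids_parent hG hur)
    rw [hk2', hk2]

theorem autFun_adj (hG : RegTree G D) {r r' : V} {lab lab' : V → ℕ} (hl : Labelling G D r lab)
    (hl' : Labelling G D r' lab') {u w : V} (h : G.Adj u w) :
    G.Adj (autFun G r r' lab lab' u) (autFun G r r' lab lab' w) := by
  have key : ∀ {a b : V}, G.Adj a b → G.dist r a = G.dist r b + 1 →
      G.Adj (autFun G r r' lab lab' a) (autFun G r r' lab lab' b) := by
    intro a b hab hd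
    have har : a ≠ r := by
      rintro rfl
      simp at hd
    have hpar : stepTo G a r = b := by
      apply closer_unique hG.isTree (hG.stepTo_adj har) hab (hG.stepTo_dist har)
      rw [SimpleGraph.dist_comm (u := b), SimpleGraph.dist_comm (u := a)]
      omega
    obtain ⟨-, hk⟩ := autFun_spec hG hl hl' _ a rfl
    have := (hk har).1
    rw [hpar] at this
    exact (mem_kids.mp this).1.symm
  rcases hG.isTree.dist_eq_dist_add_one_of_adj r h with h1 | h1
  · exact key h h1
  · exact (key h.symm h1).symm

/-- Automorphism from two labellings. -/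
noncomputable def autOfLabellings (hG : RegTree G D) {r r' : V} {lab lab' : V → ℕ}
    (hl : Labelling G D r lab) (hl' : Labelling G D r' lab') : G ≃g G where
  toFun := autFun G r r' lab lab'
  invFun := autFun G r' r lab' lab
  left_inv := fun u => autFun_left_inv hG hl hl' _ u rfl
  right_inv := fun u => autFun_left_inv hG hl' hl _ u rfl
  map_rel_iff' := by
    intro a b
    constructor
    · intro h
      have := autFun_adj hG hl' hl h
      simpa [autFun_left_inv hG hl hl' _ _ rfl] using this
    · exact autFun_adj hG hl hl'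

theorem IsNB.adj_getElem {l : List V} (hl : IsNB G l) :
    ∀ i (hi : i + 1 < l.length), G.Adj (l[i]'(by omega)) (l[i + 1]) := by
  match l, hl with
  | [], _ => intro i hi; simp at hi
  | [_], _ => intro i hi; simp at hi
  | [x, y], h =>
    intro i hi
    have : i = 0 := by simpa using hi
    subst this
    simpa [IsNB] using h
  | x :: y :: z :: t, h =>
    intro i hi
    obtain ⟨h1, -, h3⟩ := h
    cases i with
    | zero => simpa using h1
    | succ i =>
      have := IsNB.adj_getElem h3 i (by simpa using hi)
      simpa using this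

theorem IsNB.ne_getElem {l : List V} (hl : IsNB G l) :
    ∀ i (hi : i + 2 < l.length), (l[i + 2]) ≠ (l[i]'(by omega)) := by
  match l, hl with
  | [], _ => intro i hi; simp at hi
  | [_], _ => intro i hi; simp at hi
  | [x, y], _ => intro i hi; simp at hi
  | x :: y :: z :: t, h =>
    intro i hi
    obtain ⟨-, h2, h3⟩ := h
    cases i with
    | zero => simpa using h2
    | succ i =>
      have := IsNB.ne_getElem h3 i (by simpa using hi)
      simpa using this

/-- Along a non-backtracking path, the distance from the start is the index. -/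
theorem IsNB.dist_getElem (hG : RegTree G D) {l : List V} (hl : IsNB G l) (h0 : 0 < l.length) :
    ∀ i (hi : i < l.length), G.dist (l[0]) (l[i]) = i := by
  have hT := hG.isTree
  intro i
  induction i using Nat.strong_induction_on with
  | _ i ih =>
    intro hi
    cases i with
    | zero => simp
    | succ i =>
      have hadj := IsNB.adj_getElem hl i hi
      have hi' := ih i (by omega) (by omega)
      rcases hT.dist_eq_dist_add_one_of_adj (l[0]) hadj with h1 | h1
      · exfalso
        cases i with
        | zero =>
          simp at h1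
        | succ j =>
          have hadj' := IsNB.adj_getElem hl j (by omega)
          have hj := ih j (by omega) (by omega)
          have hne := IsNB.ne_getElem hl j hi
          apply hne
          apply closer_unique hT hadj hadj'.symm (u := l[0])
          · rw [SimpleGraph.dist_comm (u := l[j + 1 + 1]), SimpleGraph.dist_comm (u := l[j + 1])]
            omega
          · rw [SimpleGraph.dist_comm (u := l[j]), SimpleGraph.dist_comm (u := l[j + 1])]
            omega
      · omega

/-- The vertices of a non-backtracking path other than the start are children in the tree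
rooted at the start; a labelling exists which gives them the label `0`. -/
theorem exists_labelling_of_isNB (hG : RegTree G D) {l : List V} (hl : IsNB G l) (h0 : 0 < l.length) :
    ∃ lab : V → ℕ, Labelling G D (l[0]) lab ∧ ∀ i (hi : i < l.length), 0 < i → lab (l[i]) = 0 := by
  have hd := IsNB.dist_getElem hG hl h0
  have hX : ∀ v, (kids G (l[0]) v ∩ l.toFinset).card ≤ 1 := by
    intro v
    rw [Finset.card_le_one]
    intro a ha b hb
    obtain ⟨ha1, ha2⟩ := Finset.mem_inter.mp ha
    obtain ⟨hb1, hb2⟩ := Finset.mem_inter.mp hb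
    obtain ⟨i, hi, rfl⟩ := List.getElem_of_mem (List.mem_toFinset.mp ha2)
    obtain ⟨j, hj, rfl⟩ := List.getElem_of_mem (List.mem_toFinset.mp hb2)
    have h1 := (mem_kids.mp ha1).2
    have h2 := (mem_kids.mp hb1).2
    rw [hd i hi] at h1
    rw [hd j hj] at h2
    have : i = j := by omega
    subst this
    rfl
  obtain ⟨lab, hlab, h⟩ := exists_labelling hG (l[0]) l.toFinset hX
  refine ⟨lab, hlab, ?_⟩
  intro i hi hi0
  apply h _ (List.mem_toFinset.mpr (List.getElem_mem hi))
  intro heq
  have := hd i hi
  rw [heq] at this
  simp at this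
  omega

/-- Automorphisms act transitively on non-backtracking paths of a given length. -/
theorem RegTree.exists_aut_of_isNB (hG : RegTree G D) {l l' : List V} (hl : IsNB G l) (hl' : IsNB G l')
    (hlen : l.length = l'.length) : ∃ g : G ≃g G, l.map g = l' := by
  by_cases h0 : 0 < l.length
  · have h0' : 0 < l'.length := by omega
    obtain ⟨lab, hlab, h⟩ := exists_labelling_of_isNB hG hl h0
    obtain ⟨lab', hlab', h'⟩ := exists_labelling_of_isNB hG hl' h0'
    refine ⟨autOfLabellings hG hlab hlab', ?_⟩
    have hd := IsNB.dist_getElem hG hl h0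
    have hd' := IsNB.dist_getElem hG hl' h0'
    have key : ∀ i (hi : i < l.length) (hi' : i < l'.length),
        autFun G (l[0]) (l'[0]) lab lab' (l[i]) = l'[i] := by
      intro i
      induction i with
      | zero => intro _ _; exact autFun_root _ _ _ _
      | succ i ih =>
        intro hi hi'
        have hadj := IsNB.adj_getElem hl i hi
        have hadj' := IsNB.adj_getElem hl' i hi'
        have hmem : l[i + 1] ∈ kids G (l[0]) (l[i]) := by
          rw [mem_kids]; exact ⟨hadj, by rw [hd _ hi, hd i (by omega)]⟩
        have hmem' : l'[i + 1] ∈ kids G (l'[0]) (l'[i]) := by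
          rw [mem_kids]; exact ⟨hadj', by rw [hd' _ hi', hd' i (by omega)]⟩
        have hne : l[i + 1] ≠ l[0] := by
          intro heq
          have := hd _ hi
          rw [heq] at this
          simp at this
        obtain ⟨-, hk⟩ := autFun_spec hG hlab hlab' _ (l[i + 1]) rfl
        obtain ⟨hk1, hk2⟩ := hk hne
        rw [parent_of_mem_kids hG hmem, ih (by omega) (by omega)] at hk1
        apply hlab'.inj (l'[i]) hk1 hmem'
        rw [hk2, h _ hi (by omega), h' _ hi' (by omega)]
    apply List.ext_getElem (by simp [hlen])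
    intro i hi hi'
    simp only [List.getElem_map]
    exact key i (by simpa using hi) hi'
  · have h1 : l = [] := List.eq_nil_of_length_eq_zero (by omega)
    have h2 : l' = [] := List.eq_nil_of_length_eq_zero (by omega)
    subst h1; subst h2
    exact ⟨SimpleGraph.Iso.refl, rfl⟩

end Aut

/-! Equivariance of the combinatorial definitions under automorphisms -/

theorem ch_map (g : G ≃g G) (p y : V) : ch G (g p) (g y) = (ch G p y).map g.toEquiv.toEmbedding := by
  ext z
  simp only [mem_ch, Finset.mem_map, Equiv.coe_toEmbedding]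
  constructor
  · rintro ⟨h1, h2⟩
    refine ⟨g.symm z, ⟨?_, ?_⟩, by simp⟩
    · have : G.Adj (g y) (g (g.symm z)) := by simpa using h1
      exact g.map_adj_iff.mp this
    · rintro rfl
      exact h2 (by simp)
  · rintro ⟨w, ⟨h1, h2⟩, rfl⟩
    refine ⟨g.map_adj_iff.mpr h1, ?_⟩
    intro h
    exact h2 (g.injective h)

theorem desc_map (g : G ≃g G) (r : ℕ) (p y : V) :
    desc G r (g p) (g y) = (desc G r p y).map g.toEquiv.toEmbedding := by
  induction r generalizing p y with
  | zero => simp [desc]
  | succ r ih =>
    ext u
    simp only [desc, ch_map, Finset.mem_biUnion, Finset.mem_map, Equiv.coe_toEmbedding]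
    constructor
    · rintro ⟨z, ⟨z', hz', rfl⟩, hu⟩
      have h := ih y z'
      have hu' : u ∈ desc G r (g y) (g z') := hu
      rw [h, Finset.mem_map] at hu'
      obtain ⟨w, hw, rfl⟩ := hu'
      exact ⟨w, ⟨z', hz', hw⟩, rfl⟩
    · rintro ⟨w, ⟨z', hz', hw⟩, rfl⟩
      refine ⟨g z', ⟨z', hz', rfl⟩, ?_⟩
      have h := ih y z'
      change g.toEquiv w ∈ desc G r (g y) (g z')
      rw [h, Finset.mem_map]
      exact ⟨w, hw, rfl⟩

theorem neighborFinset_map (g : G ≃g G) (v : V) :
    G.neighborFinset (g v) = (G.neighborFinset v).map g.toEquiv.toEmbedding := by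
  ext z
  simp only [SimpleGraph.mem_neighborFinset, Finset.mem_map, Equiv.coe_toEmbedding]
  constructor
  · intro h1
    refine ⟨g.symm z, ?_, by simp⟩
    have : G.Adj (g v) (g (g.symm z)) := by simpa using h1
    exact g.map_adj_iff.mp this
  · rintro ⟨w, h1, rfl⟩
    exact g.map_adj_iff.mpr h1

theorem sphere_map (g : G ≃g G) (v : V) (r : ℕ) :
    sphere G (g v) r = (sphere G v r).map g.toEquiv.toEmbedding := by
  cases r with
  | zero => simp [sphere]
  | succ r =>
    ext u
    simp only [sphere, neighborFinset_map, Finset.mem_biUnion, Finset.mem_map, Equiv.coe_toEmbedding]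
    constructor
    · rintro ⟨z, ⟨z', hz', rfl⟩, hu⟩
      have h := desc_map g r v z'
      have hu' : u ∈ desc G r (g v) (g z') := hu
      rw [h, Finset.mem_map] at hu'
      obtain ⟨w, hw, rfl⟩ := hu'
      exact ⟨w, ⟨z', hz', hw⟩, rfl⟩
    · rintro ⟨w, ⟨z', hz', hw⟩, rfl⟩
      refine ⟨g z', ⟨z', hz', rfl⟩, ?_⟩
      have h := desc_map g r v z'
      change g.toEquiv w ∈ desc G r (g v) (g z')
      rw [h, Finset.mem_map]
      exact ⟨w, hw, rfl⟩

theorem ball_map (g : G ≃g G) (v : V) (R : ℕ) :
    ball G (g v) R = (ball G v R).map g.toEquiv.toEmbedding := by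
  ext u
  simp only [ball, Finset.mem_biUnion, Finset.mem_map, sphere_map, Equiv.coe_toEmbedding]
  constructor
  · rintro ⟨r, hr, w, hw, rfl⟩
    exact ⟨w, ⟨r, hr, hw⟩, rfl⟩
  · rintro ⟨w, ⟨r, hr, hw⟩, rfl⟩
    exact ⟨r, hr, w, hw, rfl⟩

end Crest.Agent.Lib.IsingFIID
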