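/-
S0241 blueprint, Mod B (section 2): finite Ising algebra on convex subsets of the tree.
Definitions are final; statements may be adjusted only in agreement with helper14.
Key tool: edge-cut factorisation (every edge of W is inside one of the two sides or is the cut edge).
-/
import Crest.Agent.Lib.IsingFIID.Tree
import Crest.Prelude.Def_TreeIsing

set_option autoImplicit false
universe u

namespace Crest.Agent.Lib.IsingFIID

open scoped Classical

variable {V : Type u} (G : SimpleGraph V) [G.LocallyFinite]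

/-- spin of `v` in the configuration `A` (`A` = the set of `+` vertices). -/
noncomputable def spin (A : Finset V) (v : V) : ℝ := if v ∈ A then 1 else -1

/-- the edges of `G` inside `W`. -/
noncomputable def edgesIn (W : Finset V) : Finset (Sym2 V) := W.sym2.filter (· ∈ G.edgeSet)

/-- `1 + θ σ_v σ_w`. -/
noncomputable def edgeFactor (θ : ℝ) (A : Finset V) : Sym2 V → ℝ :=
  Sym2.lift ⟨fun v w => 1 + θ * spin A v * spin A w, fun v w => by ring⟩

/-- Normalised free Ising weight of the configuration `A ⊆ W`: `2^{-|W|} ∏_{e} (1 + θ σσ')`. -/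
noncomputable def isingNorm (θ : ℝ) (W A : Finset V) : ℝ :=
  (∏ e ∈ edgesIn G W, edgeFactor θ A e) / 2 ^ W.card

/-- site weights `w₊(v)` for `σ_v = +`, `w₋(v)` for `σ_v = -`. -/
noncomputable def siteW (wp wm : V → ℝ) (W A : Finset V) : ℝ :=
  ∏ v ∈ W, if v ∈ A then wp v else wm v

/-- Expectation functional with site weights (unnormalised): `Σ_σ Ising_W(σ) ∏ w_{σ_v}(v) f(σ)`. -/
noncomputable def expW (θ : ℝ) (wp wm : V → ℝ) (W : Finset V) (f : Finset V → ℝ) : ℝ :=
  ∑ A ∈ W.powerset, isingNorm G θ W A * siteW wp wm W A * f A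

/-- Partition function with site weights. -/
noncomputable def pfW (θ : ℝ) (wp wm : V → ℝ) (W : Finset V) : ℝ := expW G θ wp wm W fun _ => 1

/-- Gibbs expectation with site field `ℓ` (site weights `1 ± ℓ`). -/
noncomputable def gibbs (θ : ℝ) (ℓ : V → ℝ) (W : Finset V) (f : Finset V → ℝ) : ℝ :=
  expW G θ (fun v => 1 + ℓ v) (fun v => 1 - ℓ v) W f / pfW G θ (fun v => 1 + ℓ v) (fun v => 1 - ℓ v) W

/-- magnetisation -/
noncomputable def mag (θ : ℝ) (ℓ : V → ℝ) (W : Finset V) (v : V) : ℝ :=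
  gibbs G θ ℓ W fun A => spin A v

/-- two point function -/
noncomputable def tcor (θ : ℝ) (ℓ : V → ℝ) (W : Finset V) (v w : V) : ℝ :=
  gibbs G θ ℓ W fun A => spin A v * spin A w

/-- `1 - m²`. -/
noncomputable def cvar (θ : ℝ) (ℓ : V → ℝ) (W : Finset V) (v : V) : ℝ := 1 - mag G θ ℓ W v ^ 2

/-- `t - m m`. -/
noncomputable def acov (θ : ℝ) (ℓ : V → ℝ) (W : Finset V) (v w : V) : ℝ :=
  tcor G θ ℓ W v w - mag G θ ℓ W v * mag G θ ℓ W w

/-- covariance of two functions under the Gibbs measure -/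
noncomputable def covG (θ : ℝ) (ℓ : V → ℝ) (W : Finset V) (f g : Finset V → ℝ) : ℝ :=
  gibbs G θ ℓ W (fun A => f A * g A) - gibbs G θ ℓ W f * gibbs G θ ℓ W g

/-- `cavOf θ m_y m_p t_{py}`: the formula for the cavity magnetisation of `y` seen from `p`. -/
noncomputable def cavOf (θ my mp t : ℝ) : ℝ := (my - θ * mp) / (1 - θ * t)

/-- slope function `b_θ(x) = θ(1-x²)/(1-θ²x²)`. -/
noncomputable def bTheta (θ x : ℝ) : ℝ := θ * (1 - x ^ 2) / (1 - θ ^ 2 * x ^ 2)

/-- cavity magnetisation of `y` seen from `p` in the Gibbs measure on `W`. -/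
noncomputable def cav (θ : ℝ) (ℓ : V → ℝ) (W : Finset V) (p y : V) : ℝ :=
  cavOf θ (mag G θ ℓ W y) (mag G θ ℓ W p) (tcor G θ ℓ W p y)

/-- slope of `E[σ_y | σ_p]`, i.e. `b_{p→y}`. -/
noncomputable def slope (θ : ℝ) (ℓ : V → ℝ) (W : Finset V) (p y : V) : ℝ :=
  bTheta θ (cav G θ ℓ W p y)

/-- `n_{zw} = m_z - t_{zw} m_w = Cov(σ_zσ_w, σ_w)`. -/
noncomputable def nCoef (θ : ℝ) (ℓ : V → ℝ) (W : Finset V) (z w : V) : ℝ :=
  mag G θ ℓ W z - tcor G θ ℓ W z w * mag G θ ℓ W w

/-- path product `∏ b` along the geodesic from `v` to `u` (fuel version). -/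
noncomputable def pathProdF (b : V → V → ℝ) : ℕ → V → V → ℝ
  | 0, _, _ => 1
  | n + 1, v, u => b v (stepTo G v u) * pathProdF b n (stepTo G v u) u

/-- path product `∏ b` along the geodesic from `v` to `u`. -/
noncomputable def pathProd (b : V → V → ℝ) (v u : V) : ℝ := pathProdF G b (G.dist v u) v u

/-- sum of `f` over the directed edges of the geodesic from `v` to `u` (fuel version). -/
noncomputable def pathSumF (f : V → V → ℝ) : ℕ → V → V → ℝ
  | 0, _, _ => 0
  | n + 1, v, u => f v (stepTo G v u) + pathSumF f n (stepTo G v u) u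

/-- sum of `f` over the directed edges of the geodesic from `v` to `u`. -/
noncomputable def pathSum (f : V → V → ℝ) (v u : V) : ℝ := pathSumF G f (G.dist v u) v u

/-- tanh addition: `tanh (atanh l + atanh a)`. -/
noncomputable def tanhAdd (l a : ℝ) : ℝ := (l + a) / (1 + a * l)

/-- the part of `W` on the `y` side of the edge `(p,y)`. -/
noncomputable def sideOf (p y : V) (W : Finset V) : Finset V := W.filter fun u => G.dist y u < G.dist p u

/-- Belief propagation (Z,n) pair on directed edges, with site weights `wp, wm`, depth `R`. -/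
noncomputable def bpPair (θ : ℝ) (wp wm : V → ℝ) : ℕ → V → V → ℝ × ℝ
  | 0, _, y => ((wp y + wm y) / 2, (wp y - wm y) / 2)
  | R + 1, p, y =>
    let P := ∏ z ∈ ch G p y, ((bpPair θ wp wm R y z).1 + θ * (bpPair θ wp wm R y z).2)
    let M := ∏ z ∈ ch G p y, ((bpPair θ wp wm R y z).1 - θ * (bpPair θ wp wm R y z).2)
    ((wp y * P + wm y * M) / 2, (wp y * P - wm y * M) / 2)

/-- BP magnetisation. -/
noncomputable def bpNu (θ : ℝ) (wp wm : V → ℝ) (R : ℕ) (p y : V) : ℝ :=
  (bpPair G θ wp wm R p y).2 / (bpPair G θ wp wm R p y).1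

/-- BP level sums: `S_0 = 1`, `S_{r+1}^{R+1}(p,y) = Σ_z b_θ(ν^R_{(y,z)})² S_r^R(y,z)`. -/
noncomputable def bpS (θ : ℝ) (wp wm : V → ℝ) : ℕ → ℕ → V → V → ℝ
  | 0, _, _, _ => 1
  | _ + 1, 0, _, _ => 0
  | r + 1, R + 1, p, y => ∑ z ∈ ch G p y, bTheta θ (bpNu G θ wp wm R y z) ^ 2 * bpS θ wp wm r R y z

/-- Forces the auto-generated equation lemma `bpS.eq_def` to live in this module, so that sibling
modules do not each generate their own copy (a name collision in a common import closure). -/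
noncomputable def bpS_eq_def_forced := @bpS.eq_def

/-- The configuration of `η` on `S`. -/
noncomputable def cfgOf (S : Finset V) (η : V → Bool) : Finset V := S.filter fun v => η v = true

variable {G} {D : ℕ} {θ : ℝ} {ℓ : V → ℝ} {W : Finset V}

/-! ### Elementary facts on spins -/

theorem spin_mem {A : Finset V} {v : V} (h : v ∈ A) : spin A v = 1 := by simp [spin, h]

theorem spin_not_mem {A : Finset V} {v : V} (h : v ∉ A) : spin A v = -1 := by simp [spin, h]

theorem spin_eq (A : Finset V) (v : V) : spin A v = 1 ∨ spin A v = -1 := by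
  by_cases h : v ∈ A
  · left; exact spin_mem h
  · right; exact spin_not_mem h

theorem spin_mul_self (A : Finset V) (v : V) : spin A v * spin A v = 1 := by
  rcases spin_eq A v with h | h <;> rw [h] <;> norm_num

theorem abs_spin (A : Finset V) (v : V) : |spin A v| = 1 := by
  rcases spin_eq A v with h | h <;> rw [h] <;> norm_num

theorem spin_union_left {A B : Finset V} {v : V} (hv : v ∉ B) : spin (A ∪ B) v = spin A v := by
  simp [spin, Finset.mem_union, hv]

theorem spin_union_right {A B : Finset V} {v : V} (hv : v ∉ A) : spin (A ∪ B) v = spin B v := by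
  simp [spin, Finset.mem_union, hv]

/-- `f` only depends on the trace of the configuration on `T`. -/
def DepOn (T : Finset V) (f : Finset V → ℝ) : Prop := ∀ A B, A ∩ T = B ∩ T → f A = f B

theorem DepOn.const (T : Finset V) (c : ℝ) : DepOn T fun _ => c := fun _ _ _ => rfl

theorem DepOn.mul {T : Finset V} {f g : Finset V → ℝ} (hf : DepOn T f) (hg : DepOn T g) :
    DepOn T fun A => f A * g A := fun A B h => by
  show f A * g A = f B * g B
  rw [hf A B h, hg A B h]

theorem DepOn.spin {T : Finset V} {v : V} (hv : v ∈ T) : DepOn T fun A => spin A v := by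
  intro A B h
  have : v ∈ A ↔ v ∈ B := by
    have h1 : v ∈ A ∩ T ↔ v ∈ B ∩ T := by rw [h]
    simpa [hv] using h1
  simp [Crest.Agent.Lib.IsingFIID.spin, this]

theorem DepOn.mono {T T' : Finset V} {f : Finset V → ℝ} (h : T ⊆ T') (hf : DepOn T f) : DepOn T' f := by
  intro A B hAB
  apply hf
  have : A ∩ T = (A ∩ T') ∩ T := by
    ext x; simp only [Finset.mem_inter]; constructor
    · rintro ⟨h1, h2⟩; exact ⟨⟨h1, h h2⟩, h2⟩
    · rintro ⟨⟨h1, _⟩, h2⟩; exact ⟨h1, h2⟩
  have h2 : B ∩ T = (B ∩ T') ∩ T := by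
    ext x; simp only [Finset.mem_inter]; constructor
    · rintro ⟨h1, h2⟩; exact ⟨⟨h1, h h2⟩, h2⟩
    · rintro ⟨⟨h1, _⟩, h2⟩; exact ⟨h1, h2⟩
  rw [this, h2, hAB]

theorem mem_edgesIn {a b : V} : s(a, b) ∈ edgesIn G W ↔ a ∈ W ∧ b ∈ W ∧ G.Adj a b := by
  simp [edgesIn, Finset.mk_mem_sym2_iff, and_assoc]

@[simp] theorem edgeFactor_mk (A : Finset V) (a b : V) :
    edgeFactor θ A s(a, b) = 1 + θ * spin A a * spin A b := rfl

/-! ### Cuts -/

/-- `W` is cut into `W₁ ∋ p`, `W₂ ∋ y` and only the edge `p y` joins the two pieces. -/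
structure IsCut (G : SimpleGraph V) (W W₁ W₂ : Finset V) (p y : V) : Prop where
  union : W = W₁ ∪ W₂
  disj : Disjoint W₁ W₂
  hp : p ∈ W₁
  hy : y ∈ W₂
  adj : G.Adj p y
  only : ∀ x ∈ W₁, ∀ x' ∈ W₂, G.Adj x x' → x = p ∧ x' = y

theorem sum_powerset_cut {W₁ W₂ : Finset V} (hd : Disjoint W₁ W₂) (F : Finset V → ℝ) :
    ∑ A ∈ (W₁ ∪ W₂).powerset, F A =
      ∑ A₁ ∈ W₁.powerset, ∑ A₂ ∈ W₂.powerset, F (A₁ ∪ A₂) := by
  rw [← Finset.sum_product']
  refine Finset.sum_bij' (fun A _ => (A ∩ W₁, A ∩ W₂)) (fun q _ => q.1 ∪ q.2) ?_ ?_ ?_ ?_ ?_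
  · intro A _
    simp [Finset.inter_subset_right]
  · intro q hq
    simp only [Finset.mem_product, Finset.mem_powerset] at hq
    simp only [Finset.mem_powerset]
    exact Finset.union_subset_union hq.1 hq.2
  · intro A hA
    simp only [Finset.mem_powerset] at hA
    rw [← Finset.inter_union_distrib_left]
    exact Finset.inter_eq_left.mpr hA
  · intro q hq
    simp only [Finset.mem_product, Finset.mem_powerset] at hq
    have h1 : (q.1 ∪ q.2) ∩ W₁ = q.1 := by
      rw [Finset.union_inter_distrib_right, Finset.inter_eq_left.mpr hq.1]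
      have : q.2 ∩ W₁ = ∅ := by
        apply Finset.disjoint_iff_inter_eq_empty.mp
        exact (Finset.disjoint_of_subset_left hq.2 hd.symm)
      simp [this]
    have h2 : (q.1 ∪ q.2) ∩ W₂ = q.2 := by
      rw [Finset.union_inter_distrib_right, Finset.inter_eq_left.mpr hq.2]
      have : q.1 ∩ W₂ = ∅ := by
        apply Finset.disjoint_iff_inter_eq_empty.mp
        exact (Finset.disjoint_of_subset_left hq.1 hd)
      simp [this]
    exact Prod.ext h1 h2
  · intro A hA
    simp only [Finset.mem_powerset] at hA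
    rw [← Finset.inter_union_distrib_left, Finset.inter_eq_left.mpr hA]

theorem IsCut.edgesIn_eq {W₁ W₂ : Finset V} {p y : V} (hc : IsCut G W W₁ W₂ p y) :
    edgesIn G W = insert s(p, y) (edgesIn G W₁ ∪ edgesIn G W₂) := by
  ext e
  induction e using Sym2.ind with
  | _ a b =>
    simp only [Finset.mem_insert, Finset.mem_union, mem_edgesIn, hc.union, Sym2.eq, Sym2.rel_iff',
      Prod.mk.injEq, Prod.swap_prod_mk]
    constructor
    · rintro ⟨ha | ha, hb | hb, hab⟩
      · right; left; exact ⟨ha, hb, hab⟩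
      · left; left
        obtain ⟨h1, h2⟩ := hc.only a ha b hb hab
        exact ⟨h1, h2⟩
      · left; right
        obtain ⟨h1, h2⟩ := hc.only b hb a ha hab.symm
        exact ⟨h2, h1⟩
      · right; right; exact ⟨ha, hb, hab⟩
    · rintro ((⟨rfl, rfl⟩ | ⟨rfl, rfl⟩) | ⟨ha, hb, hab⟩ | ⟨ha, hb, hab⟩)
      · exact ⟨Or.inl hc.hp, Or.inr hc.hy, hc.adj⟩
      · exact ⟨Or.inr hc.hy, Or.inl hc.hp, hc.adj.symm⟩
      · exact ⟨Or.inl ha, Or.inl hb, hab⟩
      · exact ⟨Or.inr ha, Or.inr hb, hab⟩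

theorem IsCut.prod_edges {W₁ W₂ : Finset V} {p y : V} (hc : IsCut G W W₁ W₂ p y) (F : Sym2 V → ℝ) :
    ∏ e ∈ edgesIn G W, F e = (∏ e ∈ edgesIn G W₁, F e) * (∏ e ∈ edgesIn G W₂, F e) * F s(p, y) := by
  rw [hc.edgesIn_eq, Finset.prod_insert, Finset.prod_union]
  · ring
  · rw [Finset.disjoint_left]
    intro e he he'
    induction e using Sym2.ind with
    | _ a b =>
      have h1 := (mem_edgesIn.mp he).1
      have h2 := (mem_edgesIn.mp he').1
      exact (Finset.disjoint_left.mp hc.disj h1) h2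
  · simp only [Finset.mem_union, mem_edgesIn, not_or, not_and]
    constructor
    · intro _ hy1
      exact absurd hc.hy (Finset.disjoint_left.mp hc.disj hy1)
    · intro hp2
      exact absurd hp2 (Finset.disjoint_left.mp hc.disj hc.hp)

theorem edgeFactor_union_left {W₁ W₂ A₁ A₂ : Finset V} (hd : Disjoint W₁ W₂) (hA₂ : A₂ ⊆ W₂) {e : Sym2 V}
    (he : e ∈ edgesIn G W₁) : edgeFactor θ (A₁ ∪ A₂) e = edgeFactor θ A₁ e := by
  induction e using Sym2.ind with
  | _ a b =>
    obtain ⟨ha, hb, -⟩ := mem_edgesIn.mp he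
    have h1 : a ∉ A₂ := fun h => Finset.disjoint_left.mp hd ha (hA₂ h)
    have h2 : b ∉ A₂ := fun h => Finset.disjoint_left.mp hd hb (hA₂ h)
    simp [spin_union_left h1, spin_union_left h2]

theorem edgeFactor_union_right {W₁ W₂ A₁ A₂ : Finset V} (hd : Disjoint W₁ W₂) (hA₁ : A₁ ⊆ W₁) {e : Sym2 V}
    (he : e ∈ edgesIn G W₂) : edgeFactor θ (A₁ ∪ A₂) e = edgeFactor θ A₂ e := by
  induction e using Sym2.ind with
  | _ a b =>
    obtain ⟨ha, hb, -⟩ := mem_edgesIn.mp he
    have h1 : a ∉ A₁ := fun h => Finset.disjoint_left.mp hd (hA₁ h) ha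
    have h2 : b ∉ A₁ := fun h => Finset.disjoint_left.mp hd (hA₁ h) hb
    simp [spin_union_right h1, spin_union_right h2]

theorem IsCut.isingNorm {W₁ W₂ A₁ A₂ : Finset V} {p y : V} (hc : IsCut G W W₁ W₂ p y)
    (hA₁ : A₁ ⊆ W₁) (hA₂ : A₂ ⊆ W₂) :
    isingNorm G θ W (A₁ ∪ A₂) =
      isingNorm G θ W₁ A₁ * isingNorm G θ W₂ A₂ * (1 + θ * spin A₁ p * spin A₂ y) := by
  unfold Crest.Agent.Lib.IsingFIID.isingNorm
  rw [hc.prod_edges]
  have h1 : ∏ e ∈ edgesIn G W₁, edgeFactor θ (A₁ ∪ A₂) e = ∏ e ∈ edgesIn G W₁, edgeFactor θ A₁ e :=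
    Finset.prod_congr rfl fun e he => edgeFactor_union_left hc.disj hA₂ he
  have h2 : ∏ e ∈ edgesIn G W₂, edgeFactor θ (A₁ ∪ A₂) e = ∏ e ∈ edgesIn G W₂, edgeFactor θ A₂ e :=
    Finset.prod_congr rfl fun e he => edgeFactor_union_right hc.disj hA₁ he
  have h3 : edgeFactor θ (A₁ ∪ A₂) s(p, y) = 1 + θ * spin A₁ p * spin A₂ y := by
    have hp2 : p ∉ A₂ := fun h => Finset.disjoint_left.mp hc.disj hc.hp (hA₂ h)
    have hy1 : y ∉ A₁ := fun h => Finset.disjoint_left.mp hc.disj (hA₁ h) hc.hy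
    simp [spin_union_left hp2, spin_union_right hy1]
  rw [h1, h2, h3, hc.union, Finset.card_union_of_disjoint hc.disj, pow_add]
  field_simp

theorem IsCut.siteW {W₁ W₂ A₁ A₂ : Finset V} {p y : V} (hc : IsCut G W W₁ W₂ p y)
    (hA₁ : A₁ ⊆ W₁) (hA₂ : A₂ ⊆ W₂) (wp wm : V → ℝ) :
    Crest.Agent.Lib.IsingFIID.siteW wp wm W (A₁ ∪ A₂) =
      Crest.Agent.Lib.IsingFIID.siteW wp wm W₁ A₁ * Crest.Agent.Lib.IsingFIID.siteW wp wm W₂ A₂ := by
  unfold Crest.Agent.Lib.IsingFIID.siteW
  rw [hc.union, Finset.prod_union hc.disj]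
  congr 1
  · apply Finset.prod_congr rfl
    intro v hv
    have : v ∉ A₂ := fun h => Finset.disjoint_left.mp hc.disj hv (hA₂ h)
    simp [Finset.mem_union, this]
  · apply Finset.prod_congr rfl
    intro v hv
    have : v ∉ A₁ := fun h => Finset.disjoint_left.mp hc.disj (hA₁ h) hv
    simp [Finset.mem_union, this]

/-- Expansion of the expectation functional along a cut. -/
theorem IsCut.expW {W₁ W₂ : Finset V} {p y : V} (hc : IsCut G W W₁ W₂ p y) (wp wm : V → ℝ)
    {f₁ f₂ : Finset V → ℝ} (hf₁ : DepOn W₁ f₁) (hf₂ : DepOn W₂ f₂) :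
    expW G θ wp wm W (fun A => f₁ A * f₂ A) =
      expW G θ wp wm W₁ f₁ * expW G θ wp wm W₂ f₂ +
        θ * expW G θ wp wm W₁ (fun A => spin A p * f₁ A) * expW G θ wp wm W₂ (fun A => spin A y * f₂ A) := by
  unfold Crest.Agent.Lib.IsingFIID.expW
  rw [mul_assoc θ, Finset.sum_mul_sum, Finset.sum_mul_sum, Finset.mul_sum, ← Finset.sum_add_distrib]
  have hpw : W.powerset = (W₁ ∪ W₂).powerset := by rw [hc.union]
  rw [hpw, sum_powerset_cut hc.disj]
  apply Finset.sum_congr rfl
  intro A₁ hA₁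
  rw [Finset.mul_sum, ← Finset.sum_add_distrib]
  apply Finset.sum_congr rfl
  intro A₂ hA₂
  simp only [Finset.mem_powerset] at hA₁ hA₂
  have e1 : f₁ (A₁ ∪ A₂) = f₁ A₁ := by
    apply hf₁
    rw [Finset.union_inter_distrib_right]
    have : A₂ ∩ W₁ = ∅ :=
      Finset.disjoint_iff_inter_eq_empty.mp (Finset.disjoint_of_subset_left hA₂ hc.disj.symm)
    simp [this, Finset.inter_eq_left.mpr hA₁]
  have e2 : f₂ (A₁ ∪ A₂) = f₂ A₂ := by
    apply hf₂
    rw [Finset.union_inter_distrib_right]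
    have : A₁ ∩ W₂ = ∅ :=
      Finset.disjoint_iff_inter_eq_empty.mp (Finset.disjoint_of_subset_left hA₁ hc.disj)
    simp [this, Finset.inter_eq_left.mpr hA₂]
  rw [hc.isingNorm hA₁ hA₂, hc.siteW hA₁ hA₂]
  simp only [e1, e2]
  ring

/-! ### Cuts from edges of the tree -/

theorem isCut_sides (hT : G.IsTree) {p y : V} (hpy : G.Adj p y) (hp : p ∈ W) (hy : y ∈ W) :
    IsCut G W (sideOf G y p W) (sideOf G p y W) p y := by
  have side : ∀ x, G.dist p x < G.dist y x ∨ G.dist y x < G.dist p x := by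
    intro x
    rcases hT.dist_eq_dist_add_one_of_adj x hpy with h3 | h3
    · rw [SimpleGraph.dist_comm (u := x), SimpleGraph.dist_comm (u := x)] at h3
      omega
    · rw [SimpleGraph.dist_comm (u := x), SimpleGraph.dist_comm (u := x)] at h3
      omega
  have eqs : ∀ x, G.dist p x < G.dist y x → G.dist p x + 1 = G.dist y x := by
    intro x hx
    rcases hT.dist_eq_dist_add_one_of_adj x hpy with h3 | h3
    · rw [SimpleGraph.dist_comm (u := x), SimpleGraph.dist_comm (u := x)] at h3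
      omega
    · rw [SimpleGraph.dist_comm (u := x), SimpleGraph.dist_comm (u := x)] at h3
      omega
  have eqs' : ∀ x, G.dist y x < G.dist p x → G.dist y x + 1 = G.dist p x := by
    intro x hx
    rcases hT.dist_eq_dist_add_one_of_adj x hpy with h3 | h3
    · rw [SimpleGraph.dist_comm (u := x), SimpleGraph.dist_comm (u := x)] at h3
      omega
    · rw [SimpleGraph.dist_comm (u := x), SimpleGraph.dist_comm (u := x)] at h3
      omega
  refine ⟨?_, ?_, ?_, ?_, hpy, ?_⟩
  · ext x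
    simp only [sideOf, Finset.mem_union, Finset.mem_filter]
    constructor
    · intro hx
      rcases side x with h | h
      · left; exact ⟨hx, h⟩
      · right; exact ⟨hx, h⟩
    · rintro (h | h) <;> exact h.1
  · rw [Finset.disjoint_left]
    intro x hx hx'
    simp only [sideOf, Finset.mem_filter] at hx hx'
    omega
  · simp only [sideOf, Finset.mem_filter, SimpleGraph.dist_self]
    exact ⟨hp, by
      have : G.dist y p = 1 := SimpleGraph.dist_eq_one_iff_adj.mpr hpy.symm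
      omega⟩
  · simp only [sideOf, Finset.mem_filter, SimpleGraph.dist_self]
    exact ⟨hy, by
      have : G.dist p y = 1 := SimpleGraph.dist_eq_one_iff_adj.mpr hpy
      omega⟩
  · intro x hx x' hx' hadj
    simp only [sideOf, Finset.mem_filter] at hx hx'
    have h1 := eqs x hx.2
    have h2 := eqs' x' hx'.2
    have h3 := dist_cross hT hpy h2 h1
    have h4 : G.dist x x' = 1 := SimpleGraph.dist_eq_one_iff_adj.mpr hadj
    constructor
    · have : G.dist p x = 0 := by omega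
      exact (hT.connected.dist_eq_zero_iff.mp this).symm
    · have : G.dist y x' = 0 := by omega
      exact (hT.connected.dist_eq_zero_iff.mp this).symm

theorem sideOf_convex (hT : G.IsTree) {p y : V} (hpy : G.Adj p y) (hW : IsConvexSet G W) :
    IsConvexSet G (sideOf G p y W) := by
  intro a ha b hb w hw
  simp only [sideOf, Finset.mem_filter] at ha hb ⊢
  refine ⟨hW a ha.1 b hb.1 w hw, ?_⟩
  by_contra hcon
  have h1 : G.dist p w + 1 = G.dist y w := by
    rcases hT.dist_eq_dist_add_one_of_adj w hpy with h3 | h3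
    · rw [SimpleGraph.dist_comm (u := w), SimpleGraph.dist_comm (u := w)] at h3
      omega
    · rw [SimpleGraph.dist_comm (u := w), SimpleGraph.dist_comm (u := w)] at h3
      omega
  have side : ∀ x, G.dist y x < G.dist p x → G.dist y x + 1 = G.dist p x := by
    intro x hx
    rcases hT.dist_eq_dist_add_one_of_adj x hpy with h3 | h3
    · rw [SimpleGraph.dist_comm (u := x), SimpleGraph.dist_comm (u := x)] at h3
      omega
    · rw [SimpleGraph.dist_comm (u := x), SimpleGraph.dist_comm (u := x)] at h3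
      omega
  have h2 := dist_cross hT hpy (side a ha.2) h1
  have h3 := dist_cross hT hpy (side b hb.2) h1
  have h4 : G.dist a b ≤ G.dist a y + G.dist y b := hT.connected.dist_triangle
  have h5 := side a ha.2
  have h6 := side b hb.2
  have e1 : G.dist a w = G.dist p w + G.dist p a := by rw [SimpleGraph.dist_comm]; exact h2
  rw [SimpleGraph.dist_comm (u := a) (v := y)] at h4
  omega

/-- A convex set with at least two points contains an edge at any given point. -/
theorem exists_adj_of_convex (hT : G.IsTree) (hW : IsConvexSet G W) {u v : V} (hu : u ∈ W) (hv : v ∈ W)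
    (hne : u ≠ v) : ∃ a ∈ W, G.Adj u a ∧ G.dist a v + 1 = G.dist u v := by
  obtain ⟨a, ha, ha'⟩ := exists_closer hT hne
  refine ⟨a, hW u hu v hv a ?_, ha, ha'⟩
  have : G.dist u a = 1 := SimpleGraph.dist_eq_one_iff_adj.mpr ha
  omega

/-! ### Unit weights: the free measure -/

theorem siteW_unit (W A : Finset V) : siteW (fun _ => (1 : ℝ)) (fun _ => 1) W A = 1 := by
  simp [siteW]

theorem expW_unit (W : Finset V) (f : Finset V → ℝ) :
    expW G θ (fun _ => 1) (fun _ => 1) W f = ∑ A ∈ W.powerset, isingNorm G θ W A * f A := by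
  simp [expW, siteW_unit]

theorem spin_sdiff {W A : Finset V} {v : V} (hv : v ∈ W) : spin (W \ A) v = - spin A v := by
  by_cases h : v ∈ A
  · have : v ∉ W \ A := by simp [h]
    rw [spin_not_mem this, spin_mem h]
  · have : v ∈ W \ A := by simp [h, hv]
    rw [spin_mem this, spin_not_mem h]; norm_num

theorem isingNorm_sdiff (W A : Finset V) : isingNorm G θ W (W \ A) = isingNorm G θ W A := by
  unfold isingNorm
  congr 1
  apply Finset.prod_congr rfl
  intro e he
  induction e using Sym2.ind with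
  | _ a b =>
    obtain ⟨ha, hb, -⟩ := mem_edgesIn.mp he
    simp only [edgeFactor_mk, spin_sdiff ha, spin_sdiff hb]
    ring

/-- Flip symmetry: the free measure has zero magnetisation. -/
theorem sum_isingNorm_spin {v : V} (hv : v ∈ W) :
    ∑ A ∈ W.powerset, isingNorm G θ W A * spin A v = 0 := by
  have h : ∑ A ∈ W.powerset, isingNorm G θ W A * spin A v =
      ∑ A ∈ W.powerset, isingNorm G θ W (W \ A) * spin (W \ A) v := by
    refine Finset.sum_nbij' (fun A => W \ A) (fun A => W \ A) ?_ ?_ ?_ ?_ ?_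
    · intro A _; simp
    · intro A _; simp
    · intro A hA
      simp only [Finset.mem_powerset] at hA
      simp [Finset.sdiff_sdiff_eq_self hA]
    · intro A hA
      simp only [Finset.mem_powerset] at hA
      simp [Finset.sdiff_sdiff_eq_self hA]
    · intro A hA
      simp only [Finset.mem_powerset] at hA
      simp [Finset.sdiff_sdiff_eq_self hA]
  have h2 : ∑ A ∈ W.powerset, isingNorm G θ W (W \ A) * spin (W \ A) v =
      - ∑ A ∈ W.powerset, isingNorm G θ W A * spin A v := by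
    rw [← Finset.sum_neg_distrib]
    apply Finset.sum_congr rfl
    intro A _
    rw [isingNorm_sdiff, spin_sdiff hv]
    ring
  linarith

/-- The free weights sum to one on any finite subset of a tree. -/
theorem sum_isingNorm_gen (hT : G.IsTree) (θ : ℝ) :
    ∀ (n : ℕ) (W : Finset V), W.card = n → ∑ A ∈ W.powerset, isingNorm G θ W A = 1 := by
  intro n
  induction n using Nat.strong_induction_on with
  | _ n ih =>
    intro W hn
    by_cases hedge : ∃ p ∈ W, ∃ y ∈ W, G.Adj p y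
    · obtain ⟨p, hp, y, hy, hpy⟩ := hedge
      have hc := isCut_sides hT hpy hp hy
      have hcard : W.card = (sideOf G y p W).card + (sideOf G p y W).card := by
        conv_lhs => rw [hc.union]
        exact Finset.card_union_of_disjoint hc.disj
      have h1 : 0 < (sideOf G y p W).card := Finset.card_pos.mpr ⟨p, hc.hp⟩
      have h2 : 0 < (sideOf G p y W).card := Finset.card_pos.mpr ⟨y, hc.hy⟩
      have e := hc.expW (θ := θ) (fun _ => 1) (fun _ => 1) (DepOn.const _ 1) (DepOn.const _ 1)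
      simp only [expW_unit, mul_one] at e
      rw [e, ih _ (by omega) _ rfl, ih _ (by omega) _ rfl, sum_isingNorm_spin hc.hp, sum_isingNorm_spin hc.hy]
      ring
    · have hempty : edgesIn G W = ∅ := by
        rw [Finset.eq_empty_iff_forall_notMem]
        intro e he
        induction e using Sym2.ind with
        | _ a b =>
          obtain ⟨ha, hb, hab⟩ := mem_edgesIn.mp he
          exact hedge ⟨a, ha, b, hb, hab⟩
      simp only [isingNorm, hempty, Finset.prod_empty]
      rw [Finset.sum_const, Finset.card_powerset]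
      simp

/-- `(edgesIn W).card + 1 = W.card` on convex sets. -/
theorem card_edgesIn (hT : G.IsTree) :
    ∀ (n : ℕ) (W : Finset V), W.card = n → W.Nonempty → IsConvexSet G W →
      (edgesIn G W).card + 1 = W.card := by
  intro n
  induction n using Nat.strong_induction_on with
  | _ n ih =>
    intro W hn hne hW
    by_cases hedge : ∃ p ∈ W, ∃ y ∈ W, G.Adj p y
    · obtain ⟨p, hp, y, hy, hpy⟩ := hedge
      have hc := isCut_sides hT hpy hp hy
      have hcard : W.card = (sideOf G y p W).card + (sideOf G p y W).card := by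
        conv_lhs => rw [hc.union]
        exact Finset.card_union_of_disjoint hc.disj
      have h1 : 0 < (sideOf G y p W).card := Finset.card_pos.mpr ⟨p, hc.hp⟩
      have h2 : 0 < (sideOf G p y W).card := Finset.card_pos.mpr ⟨y, hc.hy⟩
      have i1 := ih _ (by omega) (sideOf G y p W) rfl ⟨p, hc.hp⟩ (sideOf_convex hT hpy.symm hW)
      have i2 := ih _ (by omega) (sideOf G p y W) rfl ⟨y, hc.hy⟩ (sideOf_convex hT hpy hW)
      rw [hc.edgesIn_eq, Finset.card_insert_of_notMem, Finset.card_union_of_disjoint]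
      · omega
      · rw [Finset.disjoint_left]
        intro e he he'
        induction e using Sym2.ind with
        | _ a b =>
          have h1 := (mem_edgesIn.mp he).1
          have h2 := (mem_edgesIn.mp he').1
          exact (Finset.disjoint_left.mp hc.disj h1) h2
      · simp only [Finset.mem_union, mem_edgesIn, not_or, not_and]
        constructor
        · intro _ hy1
          exact absurd hc.hy (Finset.disjoint_left.mp hc.disj hy1)
        · intro hp2
          exact absurd hp2 (Finset.disjoint_left.mp hc.disj hc.hp)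
    · have hempty : edgesIn G W = ∅ := by
        rw [Finset.eq_empty_iff_forall_notMem]
        intro e he
        induction e using Sym2.ind with
        | _ a b =>
          obtain ⟨ha, hb, hab⟩ := mem_edgesIn.mp he
          exact hedge ⟨a, ha, b, hb, hab⟩
      rw [hempty]
      simp only [Finset.card_empty, zero_add]
      obtain ⟨u, hu⟩ := hne
      symm
      rw [Finset.card_eq_one]
      refine ⟨u, ?_⟩
      ext v
      simp only [Finset.mem_singleton]
      constructor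
      · intro hv
        by_contra hvu
        obtain ⟨a, ha, hadj, -⟩ := exists_adj_of_convex hT hW hv hu hvu
        exact hedge ⟨v, hv, a, ha, hadj⟩
      · rintro rfl; exact hu

/-- Marginals of the free measure. -/
theorem marginal_gen (hT : G.IsTree) (θ : ℝ) {T : Finset V} (hTc : IsConvexSet G T) (hTne : T.Nonempty)
    (f : Finset V → ℝ) (hf : DepOn T f) :
    ∀ (n : ℕ) (W : Finset V), W.card = n → IsConvexSet G W → T ⊆ W →
      ∑ A ∈ W.powerset, isingNorm G θ W A * f A = ∑ A ∈ T.powerset, isingNorm G θ T A * f A := by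
  intro n
  induction n using Nat.strong_induction_on with
  | _ n ih =>
    intro W hn hW hTW
    by_cases hEq : W = T
    · rw [hEq]
    · -- find an edge leaving `T` inside `W`
      have hex : ∃ t ∈ T, ∃ x ∈ W, x ∉ T ∧ G.Adj t x := by
        have hex0 : ∃ u ∈ W, u ∉ T := by
          by_contra hcon
          have hcon' : W ⊆ T := fun u hu => by
            by_contra hu'
            exact hcon ⟨u, hu, hu'⟩
          exact hEq (Finset.Subset.antisymm hcon' hTW)
        obtain ⟨u, huW, huT⟩ := hex0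
        obtain ⟨t₀, ht₀⟩ := hTne
        -- walk from `u` towards `t₀`: induct on distance
        have key : ∀ (k : ℕ) (u : V), G.dist u t₀ = k → u ∈ W → u ∉ T →
            ∃ t ∈ T, ∃ x ∈ W, x ∉ T ∧ G.Adj t x := by
          intro k
          induction k with
          | zero =>
            intro u hk _ huT
            have : u = t₀ := hT.connected.dist_eq_zero_iff.mp hk
            exact absurd (this ▸ ht₀) huT
          | succ k ihk =>
            intro u hk huW huT
            have hne : u ≠ t₀ := by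
              rintro rfl
              exact huT ht₀
            obtain ⟨a, ha, hadj, hd⟩ := exists_adj_of_convex hT hW huW (hTW ht₀) hne
            by_cases haT : a ∈ T
            · exact ⟨a, haT, u, huW, huT, hadj.symm⟩
            · exact ihk a (by omega) ha haT
        exact key _ u rfl huW huT
      obtain ⟨t, ht, x, hx, hxT, hadj⟩ := hex
      have hc := isCut_sides hT hadj (hTW ht) hx
      have hTside : T ⊆ sideOf G x t W := by
        intro u hu
        simp only [sideOf, Finset.mem_filter]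
        refine ⟨hTW hu, ?_⟩
        by_contra hcon
        have h1 : G.dist x u + 1 = G.dist t u := by
          rcases hT.dist_eq_dist_add_one_of_adj u hadj with h3 | h3
          · rw [SimpleGraph.dist_comm (u := u), SimpleGraph.dist_comm (u := u)] at h3
            omega
          · rw [SimpleGraph.dist_comm (u := u), SimpleGraph.dist_comm (u := u)] at h3
            omega
        apply hxT
        apply hTc t ht u hu x
        have : G.dist t x = 1 := SimpleGraph.dist_eq_one_iff_adj.mpr hadj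
        omega
      have hcard : W.card = (sideOf G x t W).card + (sideOf G t x W).card := by
        conv_lhs => rw [hc.union]
        exact Finset.card_union_of_disjoint hc.disj
      have h2 : 0 < (sideOf G t x W).card := Finset.card_pos.mpr ⟨x, hc.hy⟩
      have e := hc.expW (θ := θ) (fun _ => 1) (fun _ => 1) (hf.mono hTside) (DepOn.const _ 1)
      simp only [expW_unit, mul_one] at e
      rw [e, sum_isingNorm_gen hT θ _ _ rfl, sum_isingNorm_spin hc.hy, mul_one, mul_zero, add_zero]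
      exact ih _ (by omega) _ rfl (sideOf_convex hT hadj.symm hW) hTside

/-- Connected induced subgraphs of a tree are convex. -/
theorem isConvexSet_of_connected_gen (hT : G.IsTree) {S : Finset V}
    (hS : (G.induce (S : Set V)).Connected) : IsConvexSet G S := by
  intro u hu v hv w hw
  obtain ⟨q⟩ := hS.preconnected ⟨u, hu⟩ ⟨v, hv⟩
  classical
  have hq := (q.bypass_isPath)
  set q' := q.bypass with hq'def
  let r : G.Walk u v := q'.map (SimpleGraph.Embedding.induce (G := G) (S : Set V)).toHom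
  have hr : r.IsPath := hq.map (SimpleGraph.Embedding.induce (G := G) (S : Set V)).injective
  obtain ⟨a, ha⟩ := hT.connected.exists_walk_length_eq_dist u w
  obtain ⟨b, hb⟩ := hT.connected.exists_walk_length_eq_dist w v
  have hab : (a.append b).IsPath :=
    SimpleGraph.Walk.isPath_of_length_eq_dist _ (by
      rw [SimpleGraph.Walk.length_append, ha, hb, hw])
  have hu' := (hT.isAcyclic.subsingleton_path u v).elim (⟨_, hab⟩ : G.Path u v) ⟨_, hr⟩
  have heq : a.append b = r := congrArg Subtype.val hu'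
  have hwmem : w ∈ r.support := by
    rw [← heq, SimpleGraph.Walk.mem_support_append_iff]
    left
    exact a.end_mem_support
  have hwmem' : w ∈ (q'.map (SimpleGraph.Embedding.induce (G := G) (S : Set V)).toHom).support := hwmem
  rw [SimpleGraph.Walk.support_map, List.mem_map] at hwmem'
  obtain ⟨z, -, hz⟩ := hwmem'
  have : (z : V) = w := hz
  rw [← this]
  exact z.property

/-! ### Positivity of the weights, basic Gibbs algebra (no convexity needed) -/

theorem edgeFactor_pos (hθ0 : 0 ≤ θ) (hθ1 : θ < 1) (A : Finset V) (e : Sym2 V) :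
    0 < edgeFactor θ A e := by
  induction e using Sym2.ind with
  | _ a b =>
    rw [edgeFactor_mk]
    rcases spin_eq A a with h | h <;> rcases spin_eq A b with h' | h' <;> rw [h, h'] <;> nlinarith

theorem isingNorm_pos' (hθ0 : 0 ≤ θ) (hθ1 : θ < 1) (W A : Finset V) : 0 < isingNorm G θ W A :=
  div_pos (Finset.prod_pos fun e _ => edgeFactor_pos hθ0 hθ1 A e) (by positivity)

theorem one_add_pos_of_abs {x : ℝ} (h : |x| < 1) : 0 < 1 + x := by
  have := (abs_lt.mp h).1; linarith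

theorem one_sub_pos_of_abs {x : ℝ} (h : |x| < 1) : 0 < 1 - x := by
  have := (abs_lt.mp h).2; linarith

theorem siteW_pos (hℓ : ∀ v, |ℓ v| < 1) (W A : Finset V) :
    0 < siteW (fun v => 1 + ℓ v) (fun v => 1 - ℓ v) W A := by
  apply Finset.prod_pos
  intro v _
  split_ifs
  · exact one_add_pos_of_abs (hℓ v)
  · exact one_sub_pos_of_abs (hℓ v)

theorem wt_pos (hθ0 : 0 ≤ θ) (hθ1 : θ < 1) (hℓ : ∀ v, |ℓ v| < 1) (W A : Finset V) :
    0 < isingNorm G θ W A * siteW (fun v => 1 + ℓ v) (fun v => 1 - ℓ v) W A :=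
  mul_pos (isingNorm_pos' hθ0 hθ1 W A) (siteW_pos hℓ W A)

theorem pfW_pos' (hθ0 : 0 ≤ θ) (hθ1 : θ < 1) (hℓ : ∀ v, |ℓ v| < 1) (W : Finset V) :
    0 < pfW G θ (fun v => 1 + ℓ v) (fun v => 1 - ℓ v) W := by
  unfold pfW expW
  apply Finset.sum_pos
  · intro A _
    rw [mul_one]
    exact wt_pos hθ0 hθ1 hℓ W A
  · exact ⟨∅, by simp⟩

theorem expW_const (wp wm : V → ℝ) (W : Finset V) (c : ℝ) :
    expW G θ wp wm W (fun _ => c) = c * pfW G θ wp wm W := by
  unfold pfW expW
  rw [Finset.mul_sum]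
  exact Finset.sum_congr rfl fun A _ => by ring

theorem expW_add (wp wm : V → ℝ) (W : Finset V) (f g : Finset V → ℝ) :
    expW G θ wp wm W (fun A => f A + g A) = expW G θ wp wm W f + expW G θ wp wm W g := by
  unfold expW
  rw [← Finset.sum_add_distrib]
  exact Finset.sum_congr rfl fun A _ => by ring

theorem expW_smul (wp wm : V → ℝ) (W : Finset V) (c : ℝ) (f : Finset V → ℝ) :
    expW G θ wp wm W (fun A => c * f A) = c * expW G θ wp wm W f := by
  unfold expW
  rw [Finset.mul_sum]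
  exact Finset.sum_congr rfl fun A _ => by ring

theorem expW_congr (wp wm : V → ℝ) (W : Finset V) {f g : Finset V → ℝ}
    (h : ∀ A ∈ W.powerset, f A = g A) : expW G θ wp wm W f = expW G θ wp wm W g := by
  unfold expW
  exact Finset.sum_congr rfl fun A hA => by rw [h A hA]

theorem gibbs_congr (W : Finset V) {f g : Finset V → ℝ} (h : ∀ A ∈ W.powerset, f A = g A) :
    gibbs G θ ℓ W f = gibbs G θ ℓ W g := by
  unfold gibbs
  rw [expW_congr _ _ W h]

theorem gibbs_const' (hθ0 : 0 ≤ θ) (hθ1 : θ < 1) (hℓ : ∀ v, |ℓ v| < 1) (W : Finset V) (c : ℝ) :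
    gibbs G θ ℓ W (fun _ => c) = c := by
  unfold gibbs
  rw [expW_const]
  exact mul_div_cancel_right₀ _ (pfW_pos' hθ0 hθ1 hℓ W).ne'

theorem gibbs_add' (W : Finset V) (f g : Finset V → ℝ) :
    gibbs G θ ℓ W (fun A => f A + g A) = gibbs G θ ℓ W f + gibbs G θ ℓ W g := by
  unfold gibbs
  rw [expW_add, add_div]

theorem gibbs_smul' (W : Finset V) (c : ℝ) (f : Finset V → ℝ) :
    gibbs G θ ℓ W (fun A => c * f A) = c * gibbs G θ ℓ W f := by
  unfold gibbs
  rw [expW_smul, mul_div_assoc]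

theorem gibbs_sub' (W : Finset V) (f g : Finset V → ℝ) :
    gibbs G θ ℓ W (fun A => f A - g A) = gibbs G θ ℓ W f - gibbs G θ ℓ W g := by
  have h : (fun A => f A - g A) = fun A => f A + (-1) * g A := by
    funext A; ring
  rw [h, gibbs_add', gibbs_smul']
  ring

theorem gibbs_mono' (hθ0 : 0 ≤ θ) (hθ1 : θ < 1) (hℓ : ∀ v, |ℓ v| < 1) (W : Finset V)
    {f g : Finset V → ℝ} (h : ∀ A ∈ W.powerset, f A ≤ g A) :
    gibbs G θ ℓ W f ≤ gibbs G θ ℓ W g := by
  unfold gibbs
  apply div_le_div_of_nonneg_right _ (pfW_pos' hθ0 hθ1 hℓ W).le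
  unfold expW
  apply Finset.sum_le_sum
  intro A hA
  exact mul_le_mul_of_nonneg_left (h A hA) (wt_pos hθ0 hθ1 hℓ W A).le

theorem abs_gibbs_le' (hθ0 : 0 ≤ θ) (hθ1 : θ < 1) (hℓ : ∀ v, |ℓ v| < 1) (W : Finset V)
    {f : Finset V → ℝ} {C : ℝ} (h : ∀ A ∈ W.powerset, |f A| ≤ C) :
    |gibbs G θ ℓ W f| ≤ C := by
  rw [abs_le]
  constructor
  · have := gibbs_mono' (G := G) (f := fun _ => -C) (g := f) hθ0 hθ1 hℓ W
      (fun A hA => by have := (abs_le.mp (h A hA)).1; linarith)
    rwa [gibbs_const' hθ0 hθ1 hℓ] at this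
  · have := gibbs_mono' (G := G) (f := f) (g := fun _ => C) hθ0 hθ1 hℓ W
      (fun A hA => by have := (abs_le.mp (h A hA)).2; linarith)
    rwa [gibbs_const' hθ0 hθ1 hℓ] at this

theorem gibbs_pos_of_pos' (hθ0 : 0 ≤ θ) (hθ1 : θ < 1) (hℓ : ∀ v, |ℓ v| < 1) (W : Finset V)
    {f : Finset V → ℝ} (h : ∀ A ∈ W.powerset, 0 ≤ f A) {A₀ : Finset V} (hA₀ : A₀ ∈ W.powerset)
    (hf : 0 < f A₀) : 0 < gibbs G θ ℓ W f := by
  unfold gibbs
  apply div_pos _ (pfW_pos' hθ0 hθ1 hℓ W)
  unfold expW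
  apply Finset.sum_pos'
  · intro A hA
    exact mul_nonneg (wt_pos hθ0 hθ1 hℓ W A).le (h A hA)
  · exact ⟨A₀, hA₀, mul_pos (wt_pos hθ0 hθ1 hℓ W A₀) hf⟩

theorem abs_spin_mul_le (A : Finset V) (v w : V) : |spin A v * spin A w| ≤ 1 := by
  rw [abs_mul, abs_spin, abs_spin]; norm_num

theorem abs_mag_le' (hθ0 : 0 ≤ θ) (hθ1 : θ < 1) (hℓ : ∀ v, |ℓ v| < 1) (W : Finset V) (v : V) :
    |mag G θ ℓ W v| ≤ 1 :=
  abs_gibbs_le' hθ0 hθ1 hℓ W fun A _ => (abs_spin A v).le

theorem abs_mag_lt' (hθ0 : 0 ≤ θ) (hθ1 : θ < 1) (hℓ : ∀ v, |ℓ v| < 1) {W : Finset V} {v : V}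
    (hv : v ∈ W) : |mag G θ ℓ W v| < 1 := by
  have h1 : 0 < gibbs G θ ℓ W (fun A => 1 + spin A v) := by
    apply gibbs_pos_of_pos' hθ0 hθ1 hℓ W (A₀ := {v})
    · intro A _
      rcases spin_eq A v with h | h <;> rw [h] <;> norm_num
    · simpa using hv
    · rw [spin_mem (by simp)]; norm_num
  have h2 : 0 < gibbs G θ ℓ W (fun A => 1 - spin A v) := by
    apply gibbs_pos_of_pos' hθ0 hθ1 hℓ W (A₀ := ∅)
    · intro A _
      rcases spin_eq A v with h | h <;> rw [h] <;> norm_num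
    · simp
    · rw [spin_not_mem (by simp)]; norm_num
  rw [gibbs_add', gibbs_const' hθ0 hθ1 hℓ] at h1
  rw [gibbs_sub', gibbs_const' hθ0 hθ1 hℓ] at h2
  rw [abs_lt]
  unfold mag
  constructor <;> linarith

theorem tcor_comm (v w : V) : tcor G θ ℓ W v w = tcor G θ ℓ W w v := by
  unfold tcor
  congr 1
  funext A
  ring

theorem covG_spin_self (hθ0 : 0 ≤ θ) (hθ1 : θ < 1) (hℓ : ∀ v, |ℓ v| < 1) (W : Finset V) (v : V) :
    covG G θ ℓ W (fun A => spin A v) (fun A => spin A v) = cvar G θ ℓ W v := by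
  unfold covG cvar mag
  simp only [spin_mul_self]
  rw [gibbs_const' hθ0 hθ1 hℓ]
  ring

/-- `|Cov(f,σ_w)| ≤ 1 - m_w²` for `|f| ≤ 1`. -/
theorem abs_covG_spin_le' (hθ0 : 0 ≤ θ) (hθ1 : θ < 1) (hℓ : ∀ v, |ℓ v| < 1) (W : Finset V)
    {f : Finset V → ℝ} (hf : ∀ A ∈ W.powerset, |f A| ≤ 1) (w : V) :
    |covG G θ ℓ W f (fun A => spin A w)| ≤ cvar G θ ℓ W w := by
  set m := mag G θ ℓ W w with hm
  have hm1 : |m| ≤ 1 := abs_mag_le' hθ0 hθ1 hℓ W w
  have hcov : covG G θ ℓ W f (fun A => spin A w) =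
      gibbs G θ ℓ W (fun A => f A * (spin A w - m)) := by
    have : (fun A => f A * (spin A w - m)) = fun A => f A * spin A w - m * f A := by
      funext A; ring
    rw [this, gibbs_sub', gibbs_smul']
    unfold covG
    rw [← hm.symm.trans rfl]
    have : gibbs G θ ℓ W (fun A => spin A w) = m := rfl
    rw [this]
    ring
  have hdom : gibbs G θ ℓ W (fun A => 1 - m * spin A w) = cvar G θ ℓ W w := by
    rw [gibbs_sub', gibbs_smul', gibbs_const' hθ0 hθ1 hℓ]
    unfold cvar
    have : gibbs G θ ℓ W (fun A => spin A w) = m := rfl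
    rw [this]
    ring
  have hpt : ∀ A, |spin A w - m| = 1 - m * spin A w := by
    intro A
    obtain ⟨h1, h2⟩ := abs_le.mp hm1
    rcases spin_eq A w with h | h <;> rw [h]
    · rw [abs_of_nonneg (by linarith)]; ring
    · rw [abs_of_nonpos (by linarith)]; ring
  rw [hcov, abs_le, ← hdom]
  constructor
  · have := gibbs_mono' (G := G) (f := fun A => -(1 - m * spin A w)) (g := fun A => f A * (spin A w - m))
      hθ0 hθ1 hℓ W (fun A hA => by
        have h1 : |f A * (spin A w - m)| ≤ 1 - m * spin A w := by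
          rw [abs_mul, hpt]
          have h0 : 0 ≤ 1 - m * spin A w := by rw [← hpt]; exact abs_nonneg _
          have := mul_le_mul_of_nonneg_right (hf A hA) h0
          linarith
        exact (abs_le.mp h1).1)
    have h2 : gibbs G θ ℓ W (fun A => -(1 - m * spin A w)) = - gibbs G θ ℓ W (fun A => 1 - m * spin A w) := by
      have h3 : (fun A => -(1 - m * spin A w)) = fun A => (-1) * (1 - m * spin A w) := by
        funext A; ring
      rw [h3, gibbs_smul']; ring
    linarith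
  · exact gibbs_mono' hθ0 hθ1 hℓ W fun A hA => by
      have h1 : |f A * (spin A w - m)| ≤ 1 - m * spin A w := by
        rw [abs_mul, hpt]
        have h0 : 0 ≤ 1 - m * spin A w := by rw [← hpt]; exact abs_nonneg _
        have := mul_le_mul_of_nonneg_right (hf A hA) h0
        linarith
      exact (abs_le.mp h1).2

/-- `(1 + a σ)` update rule on one site. -/
theorem tanhAdd_factor {l a s : ℝ} (hs : s = 1 ∨ s = -1) (h : 1 + a * l ≠ 0) :
    (1 + l * s) * (1 + a * s) = (1 + a * l) * (1 + tanhAdd l a * s) := by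
  have hs2 : s * s = 1 := by rcases hs with rfl | rfl <;> norm_num
  have e : (1 + a * l) * tanhAdd l a = l + a := by
    unfold tanhAdd
    field_simp
  linear_combination (a * l) * hs2 - s * e

theorem abs_tanhAdd_lt {l a : ℝ} (hl : |l| < 1) (ha : |a| < 1) : |tanhAdd l a| < 1 := by
  unfold tanhAdd
  obtain ⟨l1, l2⟩ := abs_lt.mp hl
  obtain ⟨a1, a2⟩ := abs_lt.mp ha
  have hpos : 0 < 1 + a * l := by nlinarith
  rw [abs_div, abs_of_pos hpos, div_lt_one hpos, abs_lt]
  constructor <;> nlinarith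

theorem siteW_update (hℓ : ∀ v, |ℓ v| < 1) {u : V} (hu : u ∈ W) {a : ℝ} (ha : |a| < 1) (A : Finset V) :
    (1 + a * ℓ u) * siteW (fun v => 1 + Function.update ℓ u (tanhAdd (ℓ u) a) v)
        (fun v => 1 - Function.update ℓ u (tanhAdd (ℓ u) a) v) W A =
      siteW (fun v => 1 + ℓ v) (fun v => 1 - ℓ v) W A * (1 + a * spin A u) := by
  unfold siteW
  rw [← Finset.mul_prod_erase W _ hu, ← Finset.mul_prod_erase W _ hu]
  have hrest : ∏ v ∈ W.erase u, (if v ∈ A then 1 + Function.update ℓ u (tanhAdd (ℓ u) a) v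
        else 1 - Function.update ℓ u (tanhAdd (ℓ u) a) v) =
      ∏ v ∈ W.erase u, (if v ∈ A then 1 + ℓ v else 1 - ℓ v) := by
    apply Finset.prod_congr rfl
    intro v hv
    rw [Function.update_of_ne (Finset.ne_of_mem_erase hv)]
  rw [hrest]
  simp only [Function.update_self]
  have hpos : 0 < 1 + a * ℓ u := by
    obtain ⟨l1, l2⟩ := abs_lt.mp (hℓ u)
    obtain ⟨a1, a2⟩ := abs_lt.mp ha
    nlinarith
  have key := tanhAdd_factor (l := ℓ u) (a := a) (s := spin A u) (spin_eq A u) hpos.ne'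
  by_cases hA : u ∈ A
  · rw [spin_mem hA] at key ⊢
    simp only [hA, if_true]
    have : (1 + a * ℓ u) * (1 + tanhAdd (ℓ u) a) = (1 + ℓ u) * (1 + a * 1) := by
      linear_combination -key
    linear_combination (∏ v ∈ W.erase u, (if v ∈ A then 1 + ℓ v else 1 - ℓ v)) * this
  · rw [spin_not_mem hA] at key ⊢
    simp only [hA, if_false]
    have : (1 + a * ℓ u) * (1 - tanhAdd (ℓ u) a) = (1 - ℓ u) * (1 + a * (-1)) := by
      linear_combination -key
    linear_combination (∏ v ∈ W.erase u, (if v ∈ A then 1 + ℓ v else 1 - ℓ v)) * this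

theorem one_add_mul_pos {a m : ℝ} (ha : |a| < 1) (hm : |m| ≤ 1) : 0 < 1 + a * m := by
  have h : |a * m| < 1 := by
    rw [abs_mul]
    calc |a| * |m| ≤ |a| * 1 := mul_le_mul_of_nonneg_left hm (abs_nonneg a)
      _ < 1 := by rw [mul_one]; exact ha
  have := (abs_lt.mp h).1
  linarith

theorem expW_eq_mul_gibbs (hθ0 : 0 ≤ θ) (hθ1 : θ < 1) (hℓ : ∀ v, |ℓ v| < 1) (W : Finset V)
    (f : Finset V → ℝ) :
    expW G θ (fun v => 1 + ℓ v) (fun v => 1 - ℓ v) W f =
      pfW G θ (fun v => 1 + ℓ v) (fun v => 1 - ℓ v) W * gibbs G θ ℓ W f := by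
  unfold gibbs
  exact (mul_div_cancel₀ _ (pfW_pos' hθ0 hθ1 hℓ W).ne').symm

/-- **Bayes update** (B1). -/
theorem gibbs_update' (hθ0 : 0 ≤ θ) (hθ1 : θ < 1) (hℓ : ∀ v, |ℓ v| < 1) {u : V} (hu : u ∈ W) {a : ℝ}
    (ha : |a| < 1) (f : Finset V → ℝ) :
    gibbs G θ (Function.update ℓ u (tanhAdd (ℓ u) a)) W f =
      gibbs G θ ℓ W f + a / (1 + a * mag G θ ℓ W u) * covG G θ ℓ W f (fun A => spin A u) := by
  have hpos : 0 < 1 + a * ℓ u := one_add_mul_pos ha (hℓ u).le
  have hexp : ∀ g : Finset V → ℝ,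
      (1 + a * ℓ u) * expW G θ (fun v => 1 + Function.update ℓ u (tanhAdd (ℓ u) a) v)
        (fun v => 1 - Function.update ℓ u (tanhAdd (ℓ u) a) v) W g =
      expW G θ (fun v => 1 + ℓ v) (fun v => 1 - ℓ v) W (fun A => g A * (1 + a * spin A u)) := by
    intro g
    unfold expW
    rw [Finset.mul_sum]
    apply Finset.sum_congr rfl
    intro A _
    have := siteW_update (W := W) hℓ hu ha A
    linear_combination (isingNorm G θ W A * g A) * this
  set Z := pfW G θ (fun v => 1 + ℓ v) (fun v => 1 - ℓ v) W with hZ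
  have hZpos : 0 < Z := pfW_pos' hθ0 hθ1 hℓ W
  have hm := abs_mag_le' (G := G) hθ0 hθ1 hℓ W u
  have hD : 0 < 1 + a * mag G θ ℓ W u := one_add_mul_pos ha hm
  have h1 : expW G θ (fun v => 1 + ℓ v) (fun v => 1 - ℓ v) W (fun A => f A * (1 + a * spin A u)) =
      Z * (gibbs G θ ℓ W f + a * gibbs G θ ℓ W (fun A => f A * spin A u)) := by
    have e : (fun A => f A * (1 + a * spin A u)) = fun A => f A + a * (f A * spin A u) := by
      funext A; ring
    rw [e, expW_add, expW_smul, expW_eq_mul_gibbs hθ0 hθ1 hℓ W f,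
      expW_eq_mul_gibbs hθ0 hθ1 hℓ W (fun A => f A * spin A u)]
    ring
  have h2 : expW G θ (fun v => 1 + ℓ v) (fun v => 1 - ℓ v) W (fun A => 1 * (1 + a * spin A u)) =
      Z * (1 + a * mag G θ ℓ W u) := by
    have e : (fun A : Finset V => 1 * (1 + a * spin A u)) = fun A => 1 + a * spin A u := by
      funext A; ring
    rw [e, expW_add, expW_smul, expW_const, expW_eq_mul_gibbs hθ0 hθ1 hℓ W (fun A => spin A u)]
    unfold mag
    ring
  have h3 := hexp f
  have h4 := hexp (fun _ => 1)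
  rw [h1] at h3
  rw [h2] at h4
  have h6 : gibbs G θ (Function.update ℓ u (tanhAdd (ℓ u) a)) W f =
      (gibbs G θ ℓ W f + a * gibbs G θ ℓ W (fun A => f A * spin A u)) / (1 + a * mag G θ ℓ W u) := by
    unfold gibbs
    unfold pfW
    rw [← mul_div_mul_left _ _ hpos.ne', h3, h4, mul_div_mul_left _ _ hZpos.ne']
    rfl
  rw [h6]
  unfold covG
  have : gibbs G θ ℓ W (fun A => spin A u) = mag G θ ℓ W u := rfl
  rw [this]
  field_simp
  ring


/-! ### Cuts at the level of Gibbs expectations -/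

section CutGibbs

variable {W₁ W₂ : Finset V} {p y : V}

/-- the cut denominator -/
theorem cut_denom_pos (hθ0 : 0 ≤ θ) (hθ1 : θ < 1) (hℓ : ∀ v, |ℓ v| < 1) (hc : IsCut G W W₁ W₂ p y) :
    0 < 1 + θ * mag G θ ℓ W₂ y * mag G θ ℓ W₁ p := by
  have ha := abs_mag_lt' (G := G) hθ0 hθ1 hℓ hc.hy
  have hb := abs_mag_lt' (G := G) hθ0 hθ1 hℓ hc.hp
  have hθa : |θ * mag G θ ℓ W₂ y| < 1 := by
    rw [abs_mul, abs_of_nonneg hθ0]
    calc θ * |mag G θ ℓ W₂ y| ≤ θ * 1 := mul_le_mul_of_nonneg_left ha.le hθ0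
      _ < 1 := by linarith
  exact one_add_mul_pos hθa hb.le

theorem IsCut.pfW_eq (hθ0 : 0 ≤ θ) (hθ1 : θ < 1) (hℓ : ∀ v, |ℓ v| < 1) (hc : IsCut G W W₁ W₂ p y) :
    pfW G θ (fun v => 1 + ℓ v) (fun v => 1 - ℓ v) W =
      pfW G θ (fun v => 1 + ℓ v) (fun v => 1 - ℓ v) W₁ * pfW G θ (fun v => 1 + ℓ v) (fun v => 1 - ℓ v) W₂ *
        (1 + θ * mag G θ ℓ W₂ y * mag G θ ℓ W₁ p) := by
  have e := hc.expW (θ := θ) (fun v => 1 + ℓ v) (fun v => 1 - ℓ v) (DepOn.const _ 1) (DepOn.const _ 1)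
  simp only [mul_one] at e
  unfold pfW
  rw [e]
  rw [expW_eq_mul_gibbs hθ0 hθ1 hℓ W₁ (fun A => spin A p),
    expW_eq_mul_gibbs hθ0 hθ1 hℓ W₂ (fun A => spin A y)]
  unfold mag pfW
  ring

/-- Expansion of the Gibbs expectation along a cut. -/
theorem IsCut.gibbs_eq (hθ0 : 0 ≤ θ) (hθ1 : θ < 1) (hℓ : ∀ v, |ℓ v| < 1) (hc : IsCut G W W₁ W₂ p y)
    {f₁ f₂ : Finset V → ℝ} (hf₁ : DepOn W₁ f₁) (hf₂ : DepOn W₂ f₂) :
    gibbs G θ ℓ W (fun A => f₁ A * f₂ A) =
      (gibbs G θ ℓ W₁ f₁ * gibbs G θ ℓ W₂ f₂ +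
        θ * gibbs G θ ℓ W₁ (fun A => spin A p * f₁ A) * gibbs G θ ℓ W₂ (fun A => spin A y * f₂ A)) /
      (1 + θ * mag G θ ℓ W₂ y * mag G θ ℓ W₁ p) := by
  have hD := cut_denom_pos (G := G) hθ0 hθ1 hℓ hc
  have h1 := pfW_pos' (G := G) hθ0 hθ1 hℓ W₁
  have h2 := pfW_pos' (G := G) hθ0 hθ1 hℓ W₂
  conv_lhs => unfold gibbs
  rw [hc.pfW_eq hθ0 hθ1 hℓ, hc.expW _ _ hf₁ hf₂, expW_eq_mul_gibbs hθ0 hθ1 hℓ W₁ f₁,
    expW_eq_mul_gibbs hθ0 hθ1 hℓ W₂ f₂, expW_eq_mul_gibbs hθ0 hθ1 hℓ W₁ (fun A => spin A p * f₁ A),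
    expW_eq_mul_gibbs hθ0 hθ1 hℓ W₂ (fun A => spin A y * f₂ A)]
  field_simp

theorem IsCut.gibbs_right (hθ0 : 0 ≤ θ) (hθ1 : θ < 1) (hℓ : ∀ v, |ℓ v| < 1) (hc : IsCut G W W₁ W₂ p y)
    {f : Finset V → ℝ} (hf : DepOn W₂ f) :
    gibbs G θ ℓ W f =
      (gibbs G θ ℓ W₂ f + θ * mag G θ ℓ W₁ p * gibbs G θ ℓ W₂ (fun A => spin A y * f A)) /
      (1 + θ * mag G θ ℓ W₂ y * mag G θ ℓ W₁ p) := by
  have := hc.gibbs_eq hθ0 hθ1 hℓ (DepOn.const _ 1) hf
  simp only [one_mul, mul_one] at this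
  rw [this, gibbs_const' hθ0 hθ1 hℓ, one_mul]
  rfl

theorem IsCut.gibbs_spin_right (hθ0 : 0 ≤ θ) (hθ1 : θ < 1) (hℓ : ∀ v, |ℓ v| < 1) (hc : IsCut G W W₁ W₂ p y)
    {f : Finset V → ℝ} (hf : DepOn W₂ f) :
    gibbs G θ ℓ W (fun A => spin A p * f A) =
      (mag G θ ℓ W₁ p * gibbs G θ ℓ W₂ f + θ * gibbs G θ ℓ W₂ (fun A => spin A y * f A)) /
      (1 + θ * mag G θ ℓ W₂ y * mag G θ ℓ W₁ p) := by
  have := hc.gibbs_eq hθ0 hθ1 hℓ (DepOn.spin hc.hp) hf
  rw [this]
  simp only [← mul_assoc, spin_mul_self]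
  rw [gibbs_const' hθ0 hθ1 hℓ, mul_one]
  rfl

theorem gibbs_spin_spin_self (hθ0 : 0 ≤ θ) (hθ1 : θ < 1) (hℓ : ∀ v, |ℓ v| < 1) (W : Finset V) (y : V) :
    gibbs G θ ℓ W (fun A => spin A y * spin A y) = 1 := by
  simp only [spin_mul_self]
  exact gibbs_const' hθ0 hθ1 hℓ W 1

theorem IsCut.mag_right (hθ0 : 0 ≤ θ) (hθ1 : θ < 1) (hℓ : ∀ v, |ℓ v| < 1) (hc : IsCut G W W₁ W₂ p y) :
    mag G θ ℓ W y = (mag G θ ℓ W₂ y + θ * mag G θ ℓ W₁ p) / (1 + θ * mag G θ ℓ W₂ y * mag G θ ℓ W₁ p) := by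
  have := hc.gibbs_right hθ0 hθ1 hℓ (DepOn.spin hc.hy)
  rw [gibbs_spin_spin_self hθ0 hθ1 hℓ, mul_one] at this
  exact this

theorem IsCut.mag_left (hθ0 : 0 ≤ θ) (hθ1 : θ < 1) (hℓ : ∀ v, |ℓ v| < 1) (hc : IsCut G W W₁ W₂ p y) :
    mag G θ ℓ W p = (mag G θ ℓ W₁ p + θ * mag G θ ℓ W₂ y) / (1 + θ * mag G θ ℓ W₂ y * mag G θ ℓ W₁ p) := by
  have := hc.gibbs_spin_right hθ0 hθ1 hℓ (DepOn.const _ 1)
  simp only [mul_one] at this
  rw [gibbs_const' hθ0 hθ1 hℓ, mul_one] at this
  exact this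

theorem IsCut.tcor_eq (hθ0 : 0 ≤ θ) (hθ1 : θ < 1) (hℓ : ∀ v, |ℓ v| < 1) (hc : IsCut G W W₁ W₂ p y) :
    tcor G θ ℓ W p y = (θ + mag G θ ℓ W₂ y * mag G θ ℓ W₁ p) /
      (1 + θ * mag G θ ℓ W₂ y * mag G θ ℓ W₁ p) := by
  have := hc.gibbs_spin_right hθ0 hθ1 hℓ (DepOn.spin hc.hy)
  rw [gibbs_spin_spin_self hθ0 hθ1 hℓ, mul_one] at this
  unfold tcor
  rw [this]
  unfold mag
  ring

/-- Everything the algebra below needs about a cut and a point `u` on the `y` side. -/
theorem IsCut.cov_data (hθ0 : 0 ≤ θ) (hθ1 : θ < 1) (hℓ : ∀ v, |ℓ v| < 1) (hc : IsCut G W W₁ W₂ p y)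
    {u : V} (hu : u ∈ W₂) :
    let a := mag G θ ℓ W₂ y
    let b := mag G θ ℓ W₁ p
    let e := mag G θ ℓ W₂ u
    let g := tcor G θ ℓ W₂ y u
    let D := 1 + θ * a * b
    mag G θ ℓ W u = (e + θ * b * g) / D ∧
    tcor G θ ℓ W y u = (g + θ * b * e) / D ∧
    tcor G θ ℓ W p u = (b * e + θ * g) / D ∧
    gibbs G θ ℓ W (fun A => spin A p * spin A y * spin A u) = (b * g + θ * e) / D := by
  intro a b e g D
  have h1 := hc.gibbs_right hθ0 hθ1 hℓ (DepOn.spin hu)
  have h2 := hc.gibbs_right hθ0 hθ1 hℓ ((DepOn.spin hc.hy).mul (DepOn.spin hu))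
  have h3 := hc.gibbs_spin_right hθ0 hθ1 hℓ (DepOn.spin hu)
  have h4 := hc.gibbs_spin_right hθ0 hθ1 hℓ ((DepOn.spin hc.hy).mul (DepOn.spin hu))
  have e1 : gibbs G θ ℓ W₂ (fun A => spin A y * (spin A y * spin A u)) = e := by
    simp only [← mul_assoc, spin_mul_self, one_mul]
    rfl
  rw [e1] at h2 h4
  refine ⟨?_, ?_, ?_, ?_⟩
  · unfold mag at *
    rw [h1]
    rfl
  · unfold tcor at *
    rw [h2]
    rfl
  · unfold tcor at *
    rw [h3]
    rfl
  · have e2 : (fun A => spin A p * spin A y * spin A u) = fun A => spin A p * (spin A y * spin A u) := by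
      funext A; ring
    rw [e2, h4]
    rfl

end CutGibbs

/-! Real algebra of the edge cut. -/

theorem cut_alg_pos {θ a b : ℝ} (hθ0 : 0 ≤ θ) (hθ1 : θ < 1) (ha : |a| < 1) (hb : |b| < 1) :
    0 < 1 + θ * a * b ∧ 0 < 1 - a ^ 2 ∧ 0 < 1 - b ^ 2 ∧ 0 < 1 - θ ^ 2 ∧ 0 < 1 - θ ^ 2 * a ^ 2 ∧
      0 < 1 - θ ^ 2 * b ^ 2 := by
  have h1 : a ^ 2 < 1 := by rwa [sq_lt_one_iff_abs_lt_one]
  have h2 : b ^ 2 < 1 := by rwa [sq_lt_one_iff_abs_lt_one]
  have h3 : θ ^ 2 < 1 := by nlinarith
  have h4 : 0 ≤ θ ^ 2 := sq_nonneg θ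
  have hθa : |θ * a| < 1 := by
    rw [abs_mul, abs_of_nonneg hθ0]
    calc θ * |a| ≤ θ * 1 := mul_le_mul_of_nonneg_left ha.le hθ0
      _ < 1 := by linarith
  refine ⟨one_add_mul_pos hθa hb.le, by linarith, by linarith, by linarith, ?_, ?_⟩
  · nlinarith [sq_nonneg a]
  · nlinarith [sq_nonneg b]

theorem bTheta_nonneg {θ x : ℝ} (hθ0 : 0 ≤ θ) (hθ1 : θ < 1) (hx : |x| < 1) : 0 ≤ bTheta θ x := by
  obtain ⟨-, h2, -, -, h5, -⟩ := cut_alg_pos hθ0 hθ1 hx hx
  exact div_nonneg (mul_nonneg hθ0 h2.le) h5.le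

theorem bTheta_le {θ x : ℝ} (hθ0 : 0 ≤ θ) (hθ1 : θ < 1) (hx : |x| < 1) : bTheta θ x ≤ θ := by
  obtain ⟨-, h2, -, h4, h5, -⟩ := cut_alg_pos hθ0 hθ1 hx hx
  unfold bTheta
  rw [div_le_iff₀ h5]
  have : θ ^ 2 * x ^ 2 ≤ x ^ 2 := by nlinarith [sq_nonneg x]
  nlinarith

section Stmts

variable {p y : V}

theorem cut_cav (hθ0 : 0 ≤ θ) (hθ1 : θ < 1) (hℓ : ∀ v, |ℓ v| < 1) {W₁ W₂ : Finset V}
    (hc : IsCut G W W₁ W₂ p y) : cav G θ ℓ W p y = mag G θ ℓ W₂ y := by
  have ha := abs_mag_lt' (G := G) hθ0 hθ1 hℓ hc.hy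
  have hb := abs_mag_lt' (G := G) hθ0 hθ1 hℓ hc.hp
  obtain ⟨h1, h2, h3, h4, h5, h6⟩ := cut_alg_pos hθ0 hθ1 ha hb
  unfold cav cavOf
  rw [hc.mag_right hθ0 hθ1 hℓ, hc.mag_left hθ0 hθ1 hℓ, hc.tcor_eq hθ0 hθ1 hℓ]
  generalize mag G θ ℓ W₂ y = a at *
  generalize mag G θ ℓ W₁ p = b at *
  have e1 : 1 - θ * ((θ + a * b) / (1 + θ * a * b)) = (1 - θ ^ 2) / (1 + θ * a * b) := by
    field_simp
    ring
  rw [e1, div_eq_iff (by positivity)]
  field_simp
  ring

theorem cut_acov (hθ0 : 0 ≤ θ) (hθ1 : θ < 1) (hℓ : ∀ v, |ℓ v| < 1) {W₁ W₂ : Finset V}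
    (hc : IsCut G W W₁ W₂ p y) :
    acov G θ ℓ W p y = cvar G θ ℓ W p * slope G θ ℓ W p y := by
  have ha := abs_mag_lt' (G := G) hθ0 hθ1 hℓ hc.hy
  have hb := abs_mag_lt' (G := G) hθ0 hθ1 hℓ hc.hp
  obtain ⟨h1, h2, h3, h4, h5, h6⟩ := cut_alg_pos hθ0 hθ1 ha hb
  unfold slope
  rw [cut_cav hθ0 hθ1 hℓ hc]
  unfold acov cvar bTheta
  rw [hc.mag_right hθ0 hθ1 hℓ, hc.mag_left hθ0 hθ1 hℓ, hc.tcor_eq hθ0 hθ1 hℓ]
  generalize mag G θ ℓ W₂ y = a at *
  generalize mag G θ ℓ W₁ p = b at *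
  field_simp
  ring

end Stmts


/-! ### The statements of the interface -/

theorem alg_cov_step {θ a b e g : ℝ} (hD : 1 + θ * a * b ≠ 0) :
    (1 - ((a + θ * b) / (1 + θ * a * b)) ^ 2) *
      ((b * e + θ * g) / (1 + θ * a * b) -
        (b + θ * a) / (1 + θ * a * b) * ((e + θ * b * g) / (1 + θ * a * b))) =
    ((θ + a * b) / (1 + θ * a * b) -
        (b + θ * a) / (1 + θ * a * b) * ((a + θ * b) / (1 + θ * a * b))) *
      ((g + θ * b * e) / (1 + θ * a * b) -
        (a + θ * b) / (1 + θ * a * b) * ((e + θ * b * g) / (1 + θ * a * b))) := by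
  generalize hDD : 1 + θ * a * b = D at *
  field_simp
  subst hDD
  ring

theorem alg_covPair {θ a b e g : ℝ} (hD : 1 + θ * a * b ≠ 0) :
    (1 - ((a + θ * b) / (1 + θ * a * b)) ^ 2) *
      ((b * g + θ * e) / (1 + θ * a * b) -
        (θ + a * b) / (1 + θ * a * b) * ((e + θ * b * g) / (1 + θ * a * b))) =
    ((b + θ * a) / (1 + θ * a * b) -
        (θ + a * b) / (1 + θ * a * b) * ((a + θ * b) / (1 + θ * a * b))) *
      ((g + θ * b * e) / (1 + θ * a * b) -
        (a + θ * b) / (1 + θ * a * b) * ((e + θ * b * g) / (1 + θ * a * b))) := by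
  generalize hDD : 1 + θ * a * b = D at *
  field_simp
  subst hDD
  ring

section Basic

variable (hG : RegTree G D) (hθ0 : 0 ≤ θ) (hθ1 : θ < 1) (hW : IsConvexSet G W) (hne : W.Nonempty)
include hG hθ0 hθ1 hW hne

/-- The free Ising weights sum to one on a convex set. -/
theorem sum_isingNorm : ∑ A ∈ W.powerset, isingNorm G θ W A = 1 :=
  sum_isingNorm_gen hG.isTree θ _ W rfl

theorem isingNorm_pos {A : Finset V} : 0 < isingNorm G θ W A :=
  isingNorm_pos' hθ0 hθ1 W A

/-- Marginal of the free Ising weight on a convex subset. -/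
theorem sum_isingNorm_marginal {T : Finset V} (hT : IsConvexSet G T) (hTne : T.Nonempty) (hTW : T ⊆ W)
    {B : Finset V} (hB : B ⊆ T) :
    ∑ A ∈ W.powerset.filter (fun A => A ∩ T = B), isingNorm G θ W A = isingNorm G θ T B := by
  have hdep : DepOn T (fun A => if A ∩ T = B then (1 : ℝ) else 0) := by
    intro A A' h
    show (if A ∩ T = B then (1 : ℝ) else 0) = if A' ∩ T = B then (1 : ℝ) else 0
    rw [h]
  have h := marginal_gen hG.isTree θ hT hTne _ hdep _ W rfl hW hTW
  have h1 : ∑ A ∈ W.powerset, isingNorm G θ W A * (if A ∩ T = B then (1 : ℝ) else 0) =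
      ∑ A ∈ W.powerset.filter (fun A => A ∩ T = B), isingNorm G θ W A := by
    rw [Finset.sum_filter]
    exact Finset.sum_congr rfl fun A _ => by split_ifs <;> simp
  have h2 : ∑ A ∈ T.powerset, isingNorm G θ T A * (if A ∩ T = B then (1 : ℝ) else 0) =
      isingNorm G θ T B := by
    rw [Finset.sum_eq_single B]
    · rw [if_pos (Finset.inter_eq_left.mpr hB), mul_one]
    · intro A hA hAB
      rw [Finset.mem_powerset] at hA
      rw [if_neg, mul_zero]
      rw [Finset.inter_eq_left.mpr hA]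
      exact hAB
    · intro hB'
      exact absurd (Finset.mem_powerset.mpr hB) hB'
  rw [← h1, h, h2]

/-- Connected induced subgraphs are convex. -/
theorem isConvexSet_of_connected {S : Finset V} (hS : (G.induce (S : Set V)).Connected) :
    IsConvexSet G S :=
  isConvexSet_of_connected_gen hG.isTree hS

/-- The statement's weight is the normalised Ising weight. -/
theorem isingWeight_eq_isingNorm {S : Finset V} (hS : (G.induce (S : Set V)).Connected) (η : V → Bool) :
    Crest.ProbabilityR.TreeIsing.isingWeight G θ S η = isingNorm G θ S (cfgOf S η) := by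
  have hSc : IsConvexSet G S := isConvexSet_of_connected_gen hG.isTree hS
  have hSne : S.Nonempty := by
    obtain ⟨x⟩ := hS.nonempty
    exact ⟨x.1, x.2⟩
  have hcard := card_edgesIn hG.isTree _ S rfl hSne hSc
  have hstep : Crest.ProbabilityR.TreeIsing.isingWeight G θ S η =
      (1 / 2) * ∏ e ∈ edgesIn G S, (if (Sym2.map η e).IsDiag then (1 + θ) / 2 else (1 - θ) / 2) := by
    unfold Crest.ProbabilityR.TreeIsing.isingWeight edgesIn
    congr!
  have hprod : ∏ e ∈ edgesIn G S, (if (Sym2.map η e).IsDiag then (1 + θ) / 2 else (1 - θ) / 2) =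
      ∏ e ∈ edgesIn G S, (edgeFactor θ (cfgOf S η) e / 2) := by
    apply Finset.prod_congr rfl
    intro e he
    induction e using Sym2.ind with
    | _ a b =>
      obtain ⟨ha, hb, -⟩ := mem_edgesIn.mp he
      have sa : spin (cfgOf S η) a = if η a = true then 1 else -1 := by
        unfold spin cfgOf
        simp [ha]
      have sb : spin (cfgOf S η) b = if η b = true then 1 else -1 := by
        unfold spin cfgOf
        simp [hb]
      simp only [edgeFactor_mk, Sym2.map_mk, Sym2.mk_isDiag_iff, sa, sb]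
      cases η a <;> cases η b <;> simp <;> ring
  unfold isingNorm
  rw [hstep, hprod, Finset.prod_div_distrib, Finset.prod_const, ← hcard, pow_succ]
  field_simp

end Basic

section Gibbs

variable (hG : RegTree G D) (hθ0 : 0 ≤ θ) (hθ1 : θ < 1) (hℓ : ∀ v, |ℓ v| < 1)
  (hW : IsConvexSet G W) (hne : W.Nonempty)
include hG hθ0 hθ1 hℓ hW hne

theorem pfW_pos : 0 < pfW G θ (fun v => 1 + ℓ v) (fun v => 1 - ℓ v) W :=
  pfW_pos' hθ0 hθ1 hℓ W

omit hW hne hG hθ0 hθ1 hℓ in
theorem gibbs_congr_field {ℓ' : V → ℝ} (h : ∀ v ∈ W, ℓ v = ℓ' v) (f : Finset V → ℝ) :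
    gibbs G θ ℓ W f = gibbs G θ ℓ' W f := by
  have hs : ∀ A, siteW (fun v => 1 + ℓ v) (fun v => 1 - ℓ v) W A =
      siteW (fun v => 1 + ℓ' v) (fun v => 1 - ℓ' v) W A := by
    intro A
    unfold siteW
    apply Finset.prod_congr rfl
    intro v hv
    simp only [h v hv]
  have he : ∀ g, expW G θ (fun v => 1 + ℓ v) (fun v => 1 - ℓ v) W g =
      expW G θ (fun v => 1 + ℓ' v) (fun v => 1 - ℓ' v) W g := by
    intro g
    unfold expW
    exact Finset.sum_congr rfl fun A _ => by rw [hs]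
  unfold gibbs pfW
  rw [he f, he]

theorem gibbs_const (c : ℝ) : gibbs G θ ℓ W (fun _ => c) = c :=
  gibbs_const' hθ0 hθ1 hℓ W c

theorem gibbs_add (f g : Finset V → ℝ) :
    gibbs G θ ℓ W (fun A => f A + g A) = gibbs G θ ℓ W f + gibbs G θ ℓ W g :=
  gibbs_add' W f g

theorem gibbs_smul (c : ℝ) (f : Finset V → ℝ) :
    gibbs G θ ℓ W (fun A => c * f A) = c * gibbs G θ ℓ W f :=
  gibbs_smul' W c f

theorem gibbs_mono {f g : Finset V → ℝ} (h : ∀ A ∈ W.powerset, f A ≤ g A) :
    gibbs G θ ℓ W f ≤ gibbs G θ ℓ W g :=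
  gibbs_mono' hθ0 hθ1 hℓ W h

theorem abs_gibbs_le {f : Finset V → ℝ} {C : ℝ} (h : ∀ A ∈ W.powerset, |f A| ≤ C) :
    |gibbs G θ ℓ W f| ≤ C :=
  abs_gibbs_le' hθ0 hθ1 hℓ W h

/-- `|m| < 1` strictly (finite volume, `|ℓ| < 1`). -/
theorem abs_mag_lt {v : V} (hv : v ∈ W) : |mag G θ ℓ W v| < 1 :=
  abs_mag_lt' hθ0 hθ1 hℓ hv

theorem cvar_pos {v : V} (hv : v ∈ W) : 0 < cvar G θ ℓ W v := by
  have := abs_mag_lt' (G := G) hθ0 hθ1 hℓ hv
  have h2 : mag G θ ℓ W v ^ 2 < 1 := by rwa [sq_lt_one_iff_abs_lt_one]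
  unfold cvar
  linarith

theorem cvar_le_one (v : V) : cvar G θ ℓ W v ≤ 1 := by
  unfold cvar
  nlinarith [sq_nonneg (mag G θ ℓ W v)]

theorem abs_tcor_le (v w : V) : |tcor G θ ℓ W v w| ≤ 1 :=
  abs_gibbs_le' hθ0 hθ1 hℓ W fun A _ => abs_spin_mul_le A v w

/-- **Bayes update** (B1). -/
theorem gibbs_update {u : V} (hu : u ∈ W) {a : ℝ} (ha : |a| < 1) (f : Finset V → ℝ) :
    gibbs G θ (Function.update ℓ u (tanhAdd (ℓ u) a)) W f =
      gibbs G θ ℓ W f + a / (1 + a * mag G θ ℓ W u) * covG G θ ℓ W f (fun A => spin A u) :=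
  gibbs_update' hθ0 hθ1 hℓ hu ha f

/-- `|Cov(f,σ_w)| ≤ 1 - m_w²` for `|f| ≤ 1`. -/
theorem abs_covG_spin_le {f : Finset V → ℝ} (hf : ∀ A ∈ W.powerset, |f A| ≤ 1) {w : V} (hw : w ∈ W) :
    |covG G θ ℓ W f (fun A => spin A w)| ≤ cvar G θ ℓ W w :=
  abs_covG_spin_le' hθ0 hθ1 hℓ W hf w

/-- Edge cut (B2). `a = cavity magnetisation of y`, `b = cavity magnetisation of p`. -/
theorem cut_formula {p y : V} (hpy : G.Adj p y) (hp : p ∈ W) (hy : y ∈ W) :
    let a := mag G θ ℓ (sideOf G p y W) y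
    let b := mag G θ ℓ (sideOf G y p W) p
    mag G θ ℓ W y = (a + θ * b) / (1 + θ * a * b) ∧
    mag G θ ℓ W p = (b + θ * a) / (1 + θ * a * b) ∧
    tcor G θ ℓ W p y = (θ + a * b) / (1 + θ * a * b) := by
  have hc := isCut_sides hG.isTree hpy hp hy
  exact ⟨hc.mag_right hθ0 hθ1 hℓ, hc.mag_left hθ0 hθ1 hℓ, hc.tcor_eq hθ0 hθ1 hℓ⟩

/-- The cavity formula: the message computed from `(m,m,t)` is the root magnetisation of the side. -/
theorem cav_eq_mag_side {p y : V} (hpy : G.Adj p y) (hp : p ∈ W) (hy : y ∈ W) :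
    cav G θ ℓ W p y = mag G θ ℓ (sideOf G p y W) y :=
  cut_cav hθ0 hθ1 hℓ (isCut_sides hG.isTree hpy hp hy)

theorem one_sub_theta_tcor_pos {p y : V} : 1 - θ ≤ 1 - θ * tcor G θ ℓ W p y := by
  have := (abs_le.mp (abs_gibbs_le' (G := G) hθ0 hθ1 hℓ W (f := fun A => spin A p * spin A y)
    fun A _ => abs_spin_mul_le A p y)).2
  have h2 : θ * tcor G θ ℓ W p y ≤ θ * 1 := mul_le_mul_of_nonneg_left this hθ0
  linarith

/-- (B3) -/
theorem acov_eq_slope {p y : V} (hpy : G.Adj p y) (hp : p ∈ W) (hy : y ∈ W) :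
    acov G θ ℓ W p y = cvar G θ ℓ W p * slope G θ ℓ W p y :=
  cut_acov hθ0 hθ1 hℓ (isCut_sides hG.isTree hpy hp hy)

theorem slope_nonneg {p y : V} (hpy : G.Adj p y) (hp : p ∈ W) (hy : y ∈ W) :
    0 ≤ slope G θ ℓ W p y := by
  unfold slope
  rw [cut_cav hθ0 hθ1 hℓ (isCut_sides hG.isTree hpy hp hy)]
  exact bTheta_nonneg hθ0 hθ1 (abs_mag_lt' hθ0 hθ1 hℓ (isCut_sides hG.isTree hpy hp hy).hy)

theorem slope_le {p y : V} (hpy : G.Adj p y) (hp : p ∈ W) (hy : y ∈ W) :
    slope G θ ℓ W p y ≤ θ := by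
  unfold slope
  rw [cut_cav hθ0 hθ1 hℓ (isCut_sides hG.isTree hpy hp hy)]
  exact bTheta_le hθ0 hθ1 (abs_mag_lt' hθ0 hθ1 hℓ (isCut_sides hG.isTree hpy hp hy).hy)

omit hne in
/-- One step of the Markov property along an edge. -/
theorem cov_step {p y u : V} (hpy : G.Adj p y) (hp : p ∈ W) (hy : y ∈ W) (hu : u ∈ W)
    (hside : G.dist y u < G.dist p u) :
    cvar G θ ℓ W y * covG G θ ℓ W (fun A => spin A p) (fun A => spin A u) =
      acov G θ ℓ W p y * covG G θ ℓ W (fun A => spin A y) (fun A => spin A u) := by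
  have hc := isCut_sides hG.isTree hpy hp hy
  have huW : u ∈ sideOf G p y W := by
    simp only [sideOf, Finset.mem_filter]
    exact ⟨hu, hside⟩
  obtain ⟨h1, h2, h3, -⟩ := hc.cov_data hθ0 hθ1 hℓ huW
  have ha := abs_mag_lt' (G := G) hθ0 hθ1 hℓ hc.hy
  have hb := abs_mag_lt' (G := G) hθ0 hθ1 hℓ hc.hp
  have hmy := hc.mag_right hθ0 hθ1 hℓ
  have hmp := hc.mag_left hθ0 hθ1 hℓ
  have ht := hc.tcor_eq hθ0 hθ1 hℓ
  obtain ⟨hD, -⟩ := cut_alg_pos hθ0 hθ1 ha hb
  have cp : covG G θ ℓ W (fun A => spin A p) (fun A => spin A u) =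
      tcor G θ ℓ W p u - mag G θ ℓ W p * mag G θ ℓ W u := rfl
  have cy : covG G θ ℓ W (fun A => spin A y) (fun A => spin A u) =
      tcor G θ ℓ W y u - mag G θ ℓ W y * mag G θ ℓ W u := rfl
  rw [cp, cy]
  unfold cvar acov
  rw [h1, h2, h3, hmy, hmp, ht]
  exact alg_cov_step hD.ne'

/-- (B4) path factorisation. -/
theorem cov_eq_pathProd {v u : V} (hv : v ∈ W) (hu : u ∈ W) :
    covG G θ ℓ W (fun A => spin A v) (fun A => spin A u) =
      cvar G θ ℓ W v * pathProd G (slope G θ ℓ W) v u := by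
  unfold pathProd
  generalize hn : G.dist v u = n
  induction n generalizing v with
  | zero =>
    have : v = u := hG.isTree.connected.dist_eq_zero_iff.mp hn
    subst this
    simp only [pathProdF, mul_one]
    exact covG_spin_self hθ0 hθ1 hℓ W v
  | succ n ih =>
    have hvu : v ≠ u := by
      rintro rfl
      simp at hn
    have hadj := hG.stepTo_adj hvu
    have hdist := hG.stepTo_dist hvu
    set y := stepTo G v u with hy
    have hyW : y ∈ W := by
      apply hW v hv u hu y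
      have : G.dist v y = 1 := SimpleGraph.dist_eq_one_iff_adj.mpr hadj
      omega
    have hn' : G.dist y u = n := by omega
    have i := ih hyW hn'
    have hs := cov_step hG hθ0 hθ1 hℓ hW hadj hv hyW hu (by omega)
    have hcy : 0 < cvar G θ ℓ W y := cvar_pos hG hθ0 hθ1 hℓ hW hne hyW
    rw [i, cut_acov hθ0 hθ1 hℓ (isCut_sides hG.isTree hadj hv hyW)] at hs
    simp only [pathProdF]
    rw [← hy]
    apply mul_left_cancel₀ hcy.ne'
    rw [hs]
    ring

/-- (B5) pair observable, `u` on the `w` side of the edge `(z,w)`. -/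
theorem covPair_eq_pathProd {z w u : V} (hzw : G.Adj z w) (hz : z ∈ W) (hw : w ∈ W) (hu : u ∈ W)
    (hside : G.dist w u < G.dist z u) :
    covG G θ ℓ W (fun A => spin A z * spin A w) (fun A => spin A u) =
      nCoef G θ ℓ W z w * pathProd G (slope G θ ℓ W) w u := by
  have hc := isCut_sides hG.isTree hzw hz hw
  have huW : u ∈ sideOf G z w W := by
    simp only [sideOf, Finset.mem_filter]
    exact ⟨hu, hside⟩
  obtain ⟨h1, h2, -, h4⟩ := hc.cov_data hθ0 hθ1 hℓ huW
  have ha := abs_mag_lt' (G := G) hθ0 hθ1 hℓ hc.hy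
  have hb := abs_mag_lt' (G := G) hθ0 hθ1 hℓ hc.hp
  have hmy := hc.mag_right hθ0 hθ1 hℓ
  have hmp := hc.mag_left hθ0 hθ1 hℓ
  have ht := hc.tcor_eq hθ0 hθ1 hℓ
  obtain ⟨hD, ha2, hb2, hθ2, hθa, hθb⟩ := cut_alg_pos hθ0 hθ1 ha hb
  have hcw : 0 < cvar G θ ℓ W w := cvar_pos hG hθ0 hθ1 hℓ hW hne hw
  have hP := cov_eq_pathProd hG hθ0 hθ1 hℓ hW hne hw hu
  have cp : covG G θ ℓ W (fun A => spin A z * spin A w) (fun A => spin A u) =
      gibbs G θ ℓ W (fun A => spin A z * spin A w * spin A u) - tcor G θ ℓ W z w * mag G θ ℓ W u := rfl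
  have cy : covG G θ ℓ W (fun A => spin A w) (fun A => spin A u) =
      tcor G θ ℓ W w u - mag G θ ℓ W w * mag G θ ℓ W u := rfl
  rw [cy] at hP
  apply mul_left_cancel₀ hcw.ne'
  have e : cvar G θ ℓ W w * (nCoef G θ ℓ W z w * pathProd G (slope G θ ℓ W) w u) =
      nCoef G θ ℓ W z w * (cvar G θ ℓ W w * pathProd G (slope G θ ℓ W) w u) := by ring
  rw [e, ← hP, cp, h4, h1, h2]
  unfold cvar nCoef
  rw [hmy, hmp, ht]
  exact alg_covPair hD.ne'

theorem abs_nCoef_le {z w : V} (hz : z ∈ W) (hw : w ∈ W) : |nCoef G θ ℓ W z w| ≤ cvar G θ ℓ W w := by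
  have h := abs_covG_spin_le' (G := G) hθ0 hθ1 hℓ W (f := fun A => spin A z * spin A w)
    (fun A _ => abs_spin_mul_le A z w) w
  have e : covG G θ ℓ W (fun A => spin A z * spin A w) (fun A => spin A w) = nCoef G θ ℓ W z w := by
    unfold covG nCoef mag tcor
    congr 1
    apply gibbs_congr
    intro A _
    rw [mul_assoc, spin_mul_self, mul_one]
  rwa [e] at h

end Gibbs

section ZeroField

variable (hG : RegTree G D) (hθ0 : 0 ≤ θ) (hθ1 : θ < 1) (hW : IsConvexSet G W)
include hG hθ0 hθ1 hW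

/-- `gibbs` at zero field. -/
theorem gibbs_zero_eq (f : Finset V → ℝ) :
    gibbs G θ 0 W f = ∑ A ∈ W.powerset, isingNorm G θ W A * f A := by
  have h1 : ∀ f : Finset V → ℝ, expW G θ (fun v => 1 + (0 : V → ℝ) v) (fun v => 1 - (0 : V → ℝ) v) W f =
      ∑ A ∈ W.powerset, isingNorm G θ W A * f A := by
    intro f
    simpa using expW_unit (G := G) (θ := θ) W f
  have h2 : pfW G θ (fun v => 1 + (0 : V → ℝ) v) (fun v => 1 - (0 : V → ℝ) v) W = 1 := by
    unfold pfW
    rw [h1]
    simpa using sum_isingNorm_gen hG.isTree θ _ W rfl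
  unfold gibbs
  rw [h1, h2, div_one]

/-- (B6) zero field. -/
theorem mag_zero {v : V} (hv : v ∈ W) : mag G θ 0 W v = 0 := by
  unfold mag
  rw [gibbs_zero_eq hG hθ0 hθ1 hW]
  exact sum_isingNorm_spin hv

theorem tcor_zero {v w : V} (hvw : G.Adj v w) (hv : v ∈ W) (hw : w ∈ W) : tcor G θ 0 W v w = θ := by
  have hc := isCut_sides hG.isTree hvw hv hw
  have h0 : ∀ v : V, |(0 : V → ℝ) v| < 1 := by simp
  rw [hc.tcor_eq hθ0 hθ1 h0, mag_zero hG hθ0 hθ1 (sideOf_convex hG.isTree hvw hW) hc.hy,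
    mag_zero hG hθ0 hθ1 (sideOf_convex hG.isTree hvw.symm hW) hc.hp]
  simp

/-- Zero field marginals are the statement's weight. -/
theorem gibbs_zero_indicator {S : Finset V} (hS : (G.induce (S : Set V)).Connected) (hSW : S ⊆ W)
    (η : V → Bool) :
    gibbs G θ 0 W (fun A => if ∀ v ∈ S, (v ∈ A ↔ η v = true) then 1 else 0) =
      Crest.ProbabilityR.TreeIsing.isingWeight G θ S η := by
  have hSc : IsConvexSet G S := isConvexSet_of_connected_gen hG.isTree hS
  have hSne : S.Nonempty := by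
    obtain ⟨x⟩ := hS.nonempty
    exact ⟨x.1, x.2⟩
  rw [gibbs_zero_eq hG hθ0 hθ1 hW, isingWeight_eq_isingNorm hG hθ0 hθ1 hSc hSne hS]
  have hdep : DepOn S (fun A => if ∀ v ∈ S, (v ∈ A ↔ η v = true) then (1 : ℝ) else 0) := by
    intro A B h
    have key : (∀ v ∈ S, (v ∈ A ↔ η v = true)) ↔ (∀ v ∈ S, (v ∈ B ↔ η v = true)) := by
      have h1 : ∀ v ∈ S, (v ∈ A ↔ v ∈ B) := by
        intro v hv
        have h1 : v ∈ A ∩ S ↔ v ∈ B ∩ S := by rw [h]
        simpa [hv] using h1
      constructor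
      · intro h2 v hv
        rw [← h1 v hv]; exact h2 v hv
      · intro h2 v hv
        rw [h1 v hv]; exact h2 v hv
    show (if ∀ v ∈ S, (v ∈ A ↔ η v = true) then (1 : ℝ) else 0) =
      if ∀ v ∈ S, (v ∈ B ↔ η v = true) then (1 : ℝ) else 0
    simp only [key]
  rw [marginal_gen hG.isTree θ hSc hSne _ hdep _ W rfl hW hSW]
  have hcfg : cfgOf S η ∈ S.powerset := by
    rw [Finset.mem_powerset]
    exact Finset.filter_subset _ _
  rw [Finset.sum_eq_single (cfgOf S η)]
  · rw [if_pos, mul_one]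
    intro v hv
    simp [cfgOf, hv]
  · intro A hA hne
    rw [Finset.mem_powerset] at hA
    rw [if_neg, mul_zero]
    intro h
    apply hne
    ext v
    simp only [cfgOf, Finset.mem_filter]
    constructor
    · intro hv
      exact ⟨hA hv, (h v (hA hv)).mp hv⟩
    · rintro ⟨hv, hv'⟩
      exact (h v hv).mpr hv'
  · intro h
    exact absurd hcfg h

end ZeroField

/-! (B8) Lipschitz estimate for ratio chains -/

/-- One step of the chain (no tree involved). -/
theorem ratio_chain_step {Φ Φ' a a' c c' κ θ θ' : ℝ} (hc : 0 < c) (hc' : 0 < c') (hκ : 0 ≤ κ)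
    (hΦ' : |Φ'| ≤ κ * c') (ha : 0 ≤ a) (ha2 : a ≤ θ * c) (hθ0 : 0 ≤ θ) :
    |Φ * (a / c) - Φ' * (a' / c')| ≤ θ * |Φ - Φ'| + κ * (|a - a'| + θ * |c - c'|) := by
  have hr0 : 0 ≤ a / c := div_nonneg ha hc.le
  have hr1 : a / c ≤ θ := by rwa [div_le_iff₀ hc]
  have e : Φ * (a / c) - Φ' * (a' / c') =
      (Φ - Φ') * (a / c) + (Φ' / c') * ((a - a') + (a / c) * (c' - c)) := by
    field_simp
    ring
  have hκ' : |Φ' / c'| ≤ κ := by
    rw [abs_div, abs_of_pos hc', div_le_iff₀ hc']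
    exact hΦ'
  rw [e]
  refine (abs_add_le _ _).trans ?_
  apply add_le_add
  · rw [abs_mul, abs_of_nonneg hr0, mul_comm]
    exact mul_le_mul_of_nonneg_right hr1 (abs_nonneg _)
  · rw [abs_mul]
    apply mul_le_mul hκ' _ (abs_nonneg _) hκ
    refine (abs_add_le _ _).trans ?_
    apply add_le_add le_rfl
    rw [abs_mul, abs_of_nonneg hr0, abs_sub_comm]
    exact mul_le_mul_of_nonneg_right hr1 (abs_nonneg _)


section BP

/-- Cutting along the edge `(y,z)`. -/
theorem isCut_of_sides (hT : G.IsTree) {y z : V} (hadj : G.Adj y z) {W₁ W₂ : Finset V}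
    (h₁ : ∀ x ∈ W₁, G.dist y x < G.dist z x) (h₂ : ∀ x ∈ W₂, G.dist z x < G.dist y x)
    (hy : y ∈ W₁) (hz : z ∈ W₂) : IsCut G (W₁ ∪ W₂) W₁ W₂ y z := by
  have hW1 : W₁ = sideOf G z y (W₁ ∪ W₂) := by
    ext x
    simp only [sideOf, Finset.mem_filter, Finset.mem_union]
    constructor
    · intro hx; exact ⟨Or.inl hx, h₁ x hx⟩
    · rintro ⟨hx | hx, h⟩
      · exact hx
      · have := h₂ x hx; omega
  have hW2 : W₂ = sideOf G y z (W₁ ∪ W₂) := by
    ext x
    simp only [sideOf, Finset.mem_filter, Finset.mem_union]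
    constructor
    · intro hx; exact ⟨Or.inr hx, h₂ x hx⟩
    · rintro ⟨hx | hx, h⟩
      · have := h₁ x hx; omega
      · exact hx
  have hc := isCut_sides (W := W₁ ∪ W₂) hT hadj (Finset.mem_union_left _ hy) (Finset.mem_union_right _ hz)
  rw [← hW1, ← hW2] at hc
  exact hc

theorem edgesIn_singleton (y : V) : edgesIn G {y} = ∅ := by
  rw [Finset.eq_empty_iff_forall_notMem]
  intro e he
  induction e using Sym2.ind with
  | _ a b =>
    obtain ⟨ha, hb, hab⟩ := mem_edgesIn.mp he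
    rw [Finset.mem_singleton] at ha hb
    subst ha; subst hb
    exact G.loopless.irrefl _ hab

theorem expW_singleton (wp wm : V → ℝ) (y : V) (f : Finset V → ℝ) :
    expW G θ wp wm {y} f = (wp y * f {y} + wm y * f ∅) / 2 := by
  unfold expW
  have hps : ({y} : Finset V).powerset = {∅, {y}} := by
    ext A
    simp [Finset.subset_singleton_iff]
  rw [hps, Finset.sum_pair (by simp)]
  simp [isingNorm, siteW, edgesIn_singleton]
  ring

theorem mem_sub_side (hG : RegTree G D) {p y u : V} (h : G.Adj p y) {R : ℕ} (hu : u ∈ sub G R p y) :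
    G.dist y u + 1 = G.dist p u := by
  simp only [sub, Finset.mem_biUnion, Finset.mem_range, hG.mem_desc h] at hu
  obtain ⟨r, -, h1, h2⟩ := hu
  omega

theorem self_mem_sub (R : ℕ) (p y : V) : y ∈ sub G R p y := by
  simp only [sub, Finset.mem_biUnion, Finset.mem_range]
  exact ⟨0, by omega, by simp [desc]⟩

theorem sub_zero (p y : V) : sub G 0 p y = {y} := by
  ext u
  simp [sub, desc]

/-- One step of the BP recursion: adding the subtrees below the children one at a time. -/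
theorem bp_step (hG : RegTree G D) (wp wm : V → ℝ) (R : ℕ) (y : V)
    (ih : ∀ z, G.Adj y z → pfW G θ wp wm (sub G R y z) = (bpPair G θ wp wm R y z).1 ∧
      expW G θ wp wm (sub G R y z) (fun A => spin A z) = (bpPair G θ wp wm R y z).2)
    (S : Finset V) (hS : ∀ z ∈ S, G.Adj y z) :
    pfW G θ wp wm ({y} ∪ S.biUnion fun z => sub G R y z) =
        (wp y * (∏ z ∈ S, ((bpPair G θ wp wm R y z).1 + θ * (bpPair G θ wp wm R y z).2)) +
          wm y * (∏ z ∈ S, ((bpPair G θ wp wm R y z).1 - θ * (bpPair G θ wp wm R y z).2))) / 2 ∧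
    expW G θ wp wm ({y} ∪ S.biUnion fun z => sub G R y z) (fun A => spin A y) =
        (wp y * (∏ z ∈ S, ((bpPair G θ wp wm R y z).1 + θ * (bpPair G θ wp wm R y z).2)) -
          wm y * (∏ z ∈ S, ((bpPair G θ wp wm R y z).1 - θ * (bpPair G θ wp wm R y z).2))) / 2 := by
  induction S using Finset.induction_on with
  | empty =>
    simp only [Finset.biUnion_empty, Finset.union_empty, Finset.prod_empty, mul_one]
    constructor
    · unfold pfW
      rw [expW_singleton]
      simp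
    · rw [expW_singleton]
      rw [spin_mem (Finset.mem_singleton_self y), spin_not_mem (by simp)]
      ring
  | insert z S hz ih' =>
    have hS' : ∀ z ∈ S, G.Adj y z := fun w hw => hS w (Finset.mem_insert_of_mem hw)
    have hyz : G.Adj y z := hS z (Finset.mem_insert_self z S)
    obtain ⟨i1, i2⟩ := ih' hS'
    obtain ⟨j1, j2⟩ := ih z hyz
    have hT := hG.isTree
    have hc : IsCut G (({y} ∪ S.biUnion fun z => sub G R y z) ∪ sub G R y z)
        ({y} ∪ S.biUnion fun z => sub G R y z) (sub G R y z) y z := by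
      apply isCut_of_sides hT hyz
      · intro x hx
        simp only [Finset.mem_union, Finset.mem_singleton, Finset.mem_biUnion] at hx
        rcases hx with rfl | ⟨w, hw, hx⟩
        · have : G.dist z x = 1 := SimpleGraph.dist_eq_one_iff_adj.mpr hyz.symm
          simp [this]
        · have h1 := mem_sub_side hG (hS' w hw) hx
          have hne : z ≠ w := by
            rintro rfl
            exact hz hw
          rcases hT.dist_eq_dist_add_one_of_adj x hyz with h3 | h3
          · rw [SimpleGraph.dist_comm (u := x), SimpleGraph.dist_comm (u := x)] at h3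
            by_contra hcon
            exact hne (closer_unique hT hyz (hS' w hw) (by omega) h1)
          · rw [SimpleGraph.dist_comm (u := x), SimpleGraph.dist_comm (u := x)] at h3
            by_contra hcon
            exact hne (closer_unique hT hyz (hS' w hw) (by omega) h1)
      · intro x hx
        have := mem_sub_side hG hyz hx
        omega
      · simp
      · exact self_mem_sub R y z
    have hWeq : ({y} ∪ (insert z S).biUnion fun z => sub G R y z) =
        ({y} ∪ S.biUnion fun z => sub G R y z) ∪ sub G R y z := by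
      rw [Finset.biUnion_insert]
      ext x
      simp only [Finset.mem_union]
      tauto
    rw [hWeq, Finset.prod_insert hz, Finset.prod_insert hz]
    have e1 := hc.expW (θ := θ) wp wm (DepOn.const _ 1) (DepOn.const _ 1)
    have e2 := hc.expW (θ := θ) wp wm (DepOn.spin hc.hp) (DepOn.const _ 1)
    simp only [mul_one, spin_mul_self] at e1 e2
    constructor
    · unfold pfW at i1 j1 ⊢
      rw [e1, i1, i2, j1, j2]
      ring
    · unfold pfW at i1 j1
      rw [e2, i2, i1, j1, j2]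
      ring

variable (hG : RegTree G D) (hθ0 : 0 ≤ θ) (hθ1 : θ < 1)
include hG

theorem bp_main (wp wm : V → ℝ) (R : ℕ) : ∀ (p y : V), G.Adj p y →
    pfW G θ wp wm (sub G R p y) = (bpPair G θ wp wm R p y).1 ∧
    expW G θ wp wm (sub G R p y) (fun A => spin A y) = (bpPair G θ wp wm R p y).2 := by
  induction R with
  | zero =>
    intro p y _
    rw [sub_zero]
    constructor
    · unfold pfW
      rw [expW_singleton]
      simp [bpPair]
    · rw [expW_singleton]
      rw [spin_mem (Finset.mem_singleton_self y), spin_not_mem (by simp)]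
      simp only [bpPair]
      ring
  | succ R ih =>
    intro p y hpy
    have h := bp_step (θ := θ) hG wp wm R y (fun z hz => ih y z hz) (ch G p y)
      (fun z hz => (mem_ch.mp hz).1)
    rw [hG.sub_succ hpy]
    exact h

include hθ0 hθ1

/-- (B7) belief propagation computes the partition function of a regular subtree. -/
theorem pfW_sub_eq_bp (wp wm : V → ℝ) {p y : V} (hpy : G.Adj p y) (R : ℕ) :
    pfW G θ wp wm (sub G R p y) = (bpPair G θ wp wm R p y).1 :=
  (bp_main hG wp wm R p y hpy).1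

theorem expW_sub_spin_eq_bp (wp wm : V → ℝ) {p y : V} (hpy : G.Adj p y) (R : ℕ) :
    expW G θ wp wm (sub G R p y) (fun A => spin A y) = (bpPair G θ wp wm R p y).2 :=
  (bp_main hG wp wm R p y hpy).2

/-- BP computes the root magnetisation of a regular subtree. -/
theorem mag_sub_eq_bpNu (ℓ : V → ℝ) (hℓ : ∀ v, |ℓ v| < 1) {p y : V} (hpy : G.Adj p y) (R : ℕ) :
    mag G θ ℓ (sub G R p y) y = bpNu G θ (fun v => 1 + ℓ v) (fun v => 1 - ℓ v) R p y := by
  unfold mag gibbs bpNu
  rw [(bp_main hG _ _ R p y hpy).1, (bp_main hG _ _ R p y hpy).2]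

/-- Site weights versus site field: `w_± = W₀ (1 ± ℓ)`. -/
theorem expW_eq_prod_mul (wp wm : V → ℝ) (hw : ∀ v, 0 < wp v + wm v) (W : Finset V) (f : Finset V → ℝ) :
    expW G θ wp wm W f =
      (∏ v ∈ W, (wp v + wm v) / 2) *
        expW G θ (fun v => 1 + (wp v - wm v) / (wp v + wm v))
          (fun v => 1 - (wp v - wm v) / (wp v + wm v)) W f := by
  unfold expW
  rw [Finset.mul_sum]
  apply Finset.sum_congr rfl
  intro A _
  have hs : siteW wp wm W A = (∏ v ∈ W, (wp v + wm v) / 2) *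
      siteW (fun v => 1 + (wp v - wm v) / (wp v + wm v))
        (fun v => 1 - (wp v - wm v) / (wp v + wm v)) W A := by
    unfold siteW
    rw [← Finset.prod_mul_distrib]
    apply Finset.prod_congr rfl
    intro v _
    have hv := (hw v).ne'
    split_ifs
    · field_simp
      ring
    · field_simp
      ring
  rw [hs]
  ring

/-- BP only sees the ratio of the site weights. -/
theorem bpNu_eq_of_ratio (wp wm : V → ℝ) (hwp : ∀ v, 0 < wp v) (hwm : ∀ v, 0 < wm v) {p y : V} (hpy : G.Adj p y)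
    (R : ℕ) :
    bpNu G θ wp wm R p y =
      bpNu G θ (fun v => 1 + (wp v - wm v) / (wp v + wm v)) (fun v => 1 - (wp v - wm v) / (wp v + wm v)) R p y := by
  have hw : ∀ v, 0 < wp v + wm v := fun v => add_pos (hwp v) (hwm v)
  have hC : 0 < ∏ v ∈ sub G R p y, (wp v + wm v) / 2 :=
    Finset.prod_pos fun v _ => by have := hw v; positivity
  unfold bpNu
  rw [← (bp_main hG _ _ R p y hpy).1, ← (bp_main hG _ _ R p y hpy).2,
    ← (bp_main hG _ _ R p y hpy).1, ← (bp_main hG _ _ R p y hpy).2]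
  unfold pfW
  rw [expW_eq_prod_mul hG hθ0 hθ1 wp wm hw (sub G R p y) (fun A => spin A y),
    expW_eq_prod_mul hG hθ0 hθ1 wp wm hw (sub G R p y) (fun _ => 1),
    mul_div_mul_left _ _ hC.ne']

end BP


end Crest.Agent.Lib.IsingFIID
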