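/-
S0241 blueprint, Mod J-b: the one-dimensional inequalities (J3), (J4).
Both come from the power series of `z ↦ z log((1+z)/(1-z))`.
-/
import Mathlib

set_option autoImplicit false

namespace Crest.Agent.Lib.IsingFIID.OneDim

open Real

/-- the series of `φ(z) = z log((1+z)/(1-z))` in powers of `y = z²`. -/
theorem hasSum_phi {z : ℝ} (hz : |z| < 1) :
    HasSum (fun k : ℕ => 2 * (z ^ 2) ^ (k + 1) / (2 * k + 1))
      (z * Real.log ((1 + z) / (1 - z))) := by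
  have h1 : 0 < 1 + z := by have := (abs_lt.mp hz).1; linarith
  have h2 : 0 < 1 - z := by have := (abs_lt.mp hz).2; linarith
  rw [Real.log_div h1.ne' h2.ne']
  have h := (Real.hasSum_log_sub_log_of_abs_lt_one hz).mul_left z
  have e0 : (fun k : ℕ => 2 * (z ^ 2) ^ (k + 1) / (2 * (k : ℝ) + 1)) =
      fun i : ℕ => z * (2 * (1 / (2 * (i : ℝ) + 1)) * z ^ (2 * i + 1)) := by
    funext k
    rw [← pow_mul]
    have e : 2 * (k + 1) = 2 * k + 1 + 1 := by ring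
    rw [e, pow_succ (z) (2 * k + 1)]
    have : (2 * (k : ℝ) + 1) ≠ 0 := by positivity
    field_simp
  rw [e0]
  exact h

/-- (J3) -/
theorem phi_sub_ge {D : ℕ} {θ x : ℝ} (hx : |x| < 1) (hθ0 : 0 ≤ θ) (hθ1 : θ < 1)
    (hθ : (D : ℝ) * θ ^ 2 ≤ 1) :
    (2 / 3) * (1 - θ ^ 2) * x ^ 4 ≤
      x * Real.log ((1 + x) / (1 - x)) - D * (θ * x * Real.log ((1 + θ * x) / (1 - θ * x))) := by
  have hθx : |θ * x| < 1 := by
    rw [abs_mul, abs_of_nonneg hθ0]
    have := abs_nonneg x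
    nlinarith
  have h1 := hasSum_phi hx
  have h2 := (hasSum_phi hθx).mul_left (D : ℝ)
  have h3 := h1.sub h2
  have hterm : ∀ k : ℕ, 0 ≤ 2 * (x ^ 2) ^ (k + 1) / (2 * k + 1) -
      D * (2 * ((θ * x) ^ 2) ^ (k + 1) / (2 * k + 1)) := by
    intro k
    have hpos : (0 : ℝ) < 2 * k + 1 := by positivity
    have e : 2 * (x ^ 2) ^ (k + 1) / (2 * k + 1) -
        D * (2 * ((θ * x) ^ 2) ^ (k + 1) / (2 * k + 1)) =
        2 * (x ^ 2) ^ (k + 1) * (1 - D * (θ ^ 2) ^ (k + 1)) / (2 * k + 1) := by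
      rw [mul_pow θ x 2, mul_pow (θ ^ 2) (x ^ 2) (k + 1)]
      ring
    rw [e]
    apply div_nonneg _ hpos.le
    apply mul_nonneg (by positivity)
    have h4 : (θ ^ 2) ^ (k + 1) ≤ θ ^ 2 := by
      have h5 : θ ^ 2 ≤ 1 := by nlinarith
      calc (θ ^ 2) ^ (k + 1) = (θ ^ 2) ^ k * θ ^ 2 := pow_succ _ _
        _ ≤ 1 * θ ^ 2 := by
            apply mul_le_mul_of_nonneg_right _ (by positivity)
            exact pow_le_one₀ (by positivity) h5
        _ = θ ^ 2 := one_mul _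
    have h6 : (D : ℝ) * (θ ^ 2) ^ (k + 1) ≤ D * θ ^ 2 :=
      mul_le_mul_of_nonneg_left h4 (Nat.cast_nonneg _)
    linarith
  have h7 := le_hasSum h3 1 (fun j _ => hterm j)
  refine le_trans ?_ h7
  have h8 : (θ ^ 2) ^ 2 ≤ θ ^ 2 := by
    have h5 : θ ^ 2 ≤ 1 := by nlinarith
    nlinarith [sq_nonneg θ]
  have h9 : (D : ℝ) * (θ ^ 2) ^ 2 ≤ θ ^ 2 := by
    have h5 : θ ^ 2 ≤ 1 := by nlinarith
    have : (D : ℝ) * (θ ^ 2) ^ 2 = (D * θ ^ 2) * θ ^ 2 := by ring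
    rw [this]
    nlinarith [sq_nonneg θ]
  have e : 2 * (x ^ 2) ^ (1 + 1) / (2 * ((1 : ℕ) : ℝ) + 1) -
      D * (2 * ((θ * x) ^ 2) ^ (1 + 1) / (2 * ((1 : ℕ) : ℝ) + 1)) =
      (2 / 3) * x ^ 4 * (1 - D * (θ ^ 2) ^ 2) := by
    push_cast
    ring
  rw [e]
  have hx4 : 0 ≤ x ^ 4 := by positivity
  have : (2 / 3) * (1 - θ ^ 2) * x ^ 4 = (2 / 3) * x ^ 4 * (1 - θ ^ 2) := by ring
  rw [this]
  apply mul_le_mul_of_nonneg_left _ (by positivity)
  linarith

/-- the antitone function behind (J4). -/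
theorem beta_ineq {w₁ w₂ : ℝ} (h0 : 0 < w₂) (h12 : w₂ ≤ w₁) :
    1 / (1 + w₂) - 1 / (1 + w₁) ≤ (4 / 15) * (Real.log w₁ - Real.log w₂) := by
  -- the function `β(w) = (4/15) log w + 1/(1+w)` is monotone on `(0,∞)`
  have hmono : MonotoneOn (fun w : ℝ => (4 / 15) * Real.log w + 1 / (1 + w)) (Set.Ioi 0) := by
    apply monotoneOn_of_deriv_nonneg (convex_Ioi 0)
    · apply ContinuousOn.add
      · apply ContinuousOn.mul continuousOn_const
        exact Real.continuousOn_log.mono (fun w hw => ne_of_gt hw)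
      · apply ContinuousOn.div continuousOn_const (by fun_prop)
        intro w hw
        have : (0 : ℝ) < w := hw
        positivity
    · intro w hw
      rw [interior_Ioi] at hw
      have hw' : (0 : ℝ) < w := hw
      have h1 : DifferentiableAt ℝ Real.log w := Real.differentiableAt_log hw'.ne'
      have h2 : (1 + w) ≠ 0 := by positivity
      apply DifferentiableAt.differentiableWithinAt
      apply DifferentiableAt.add
      · exact (differentiableAt_const _).mul h1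
      · apply DifferentiableAt.div (differentiableAt_const _) (by fun_prop) h2
    · intro w hw
      rw [interior_Ioi] at hw
      have hw' : (0 : ℝ) < w := hw
      have h2 : (1 + w) ≠ 0 := by positivity
      have hd : HasDerivAt (fun w : ℝ => (4 / 15) * Real.log w + 1 / (1 + w))
          ((4 / 15) * (1 / w) + (0 * (1 + w) - 1 * 1) / (1 + w) ^ 2) w := by
        have hd2 : HasDerivAt (fun w : ℝ => 1 + w) 1 w := by
          simpa using (hasDerivAt_id w).const_add 1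
        apply HasDerivAt.add
        · exact ((Real.hasDerivAt_log hw'.ne').const_mul (4 / 15 : ℝ)).congr_deriv (by simp)
        · exact HasDerivAt.div (hasDerivAt_const _ _) hd2 h2
      rw [hd.deriv]
      have h3 : (4 / 15) * (1 / w) + (0 * (1 + w) - 1 * 1) / (1 + w) ^ 2 =
          (4 * (1 + w) ^ 2 - 15 * w) / (15 * w * (1 + w) ^ 2) := by
        field_simp
        ring
      rw [h3]
      apply div_nonneg _ (by positivity)
      nlinarith [sq_nonneg (4 * w - 7 / 2 * 1 - 0), sq_nonneg (w - 1)]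
  have := hmono (Set.mem_Ioi.mpr h0) (Set.mem_Ioi.mpr (lt_of_lt_of_le h0 h12)) h12
  simp only at this
  linarith

/-- the key comparison of `φ(θx)` and `θ²φ(x)`: `u = θ²`, `y = x²`. -/
theorem phi_compare {θ x : ℝ} (hx : |x| < 1) (hθ0 : 0 ≤ θ) (hθ1 : θ ≤ 1) :
    θ * x * Real.log ((1 + θ * x) / (1 - θ * x)) + (2 / 3) * θ ^ 2 * x ^ 2 *
        (Real.log (1 - (θ * x) ^ 2) - Real.log (1 - x ^ 2)) ≤
      θ ^ 2 * (x * Real.log ((1 + x) / (1 - x))) := by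
  have hθx : |θ * x| < 1 := by
    rw [abs_mul, abs_of_nonneg hθ0]
    have := abs_nonneg x
    nlinarith
  have hy : |x ^ 2| < 1 := by
    rw [abs_of_nonneg (by positivity)]
    have := sq_abs x
    have h0 := abs_nonneg x
    nlinarith
  have hu : |(θ * x) ^ 2| < 1 := by
    rw [abs_of_nonneg (by positivity)]
    have := sq_abs (θ * x)
    have h0 := abs_nonneg (θ * x)
    nlinarith
  -- the series
  have hA := hasSum_phi hθx
  have hB := (hasSum_phi hx).mul_left (θ ^ 2)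
  have hC0 := Real.hasSum_pow_div_log_of_abs_lt_one hu
  have hC1 := Real.hasSum_pow_div_log_of_abs_lt_one hy
  have hC := (hC1.sub hC0).mul_left ((2 / 3) * θ ^ 2 * x ^ 2)
  -- shift to index from `1`
  have hA' := (hasSum_nat_add_iff' (f := fun k : ℕ => 2 * ((θ * x) ^ 2) ^ (k + 1) / (2 * k + 1)) 1).mpr hA
  have hB' := (hasSum_nat_add_iff' (f := fun k : ℕ => θ ^ 2 * (2 * (x ^ 2) ^ (k + 1) / (2 * k + 1))) 1).mpr hB
  have hle := hasSum_le (f := fun k : ℕ =>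
      2 * ((θ * x) ^ 2) ^ (k + 1 + 1) / (2 * ((k + 1 : ℕ) : ℝ) + 1) +
      (2 / 3) * θ ^ 2 * x ^ 2 * ((x ^ 2) ^ (k + 1) / (k + 1) - ((θ * x) ^ 2) ^ (k + 1) / (k + 1)))
    (g := fun k : ℕ => θ ^ 2 * (2 * (x ^ 2) ^ (k + 1 + 1) / (2 * ((k + 1 : ℕ) : ℝ) + 1)))
    ?_ (hA'.add hC) hB'
  · simp only [Finset.sum_range_one, Nat.cast_zero] at hle
    have e1 : -Real.log (1 - x ^ 2) - -Real.log (1 - (θ * x) ^ 2) =
        Real.log (1 - (θ * x) ^ 2) - Real.log (1 - x ^ 2) := by ring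
    rw [e1] at hle
    have e2 : 2 * ((θ * x) ^ 2) ^ (0 + 1) / (2 * 0 + 1) = θ ^ 2 * (2 * (x ^ 2) ^ (0 + 1) / (2 * 0 + 1)) := by
      ring
    rw [e2] at hle
    linarith
  · intro k
    have hk : (0 : ℝ) < (k : ℝ) + 1 := by positivity
    have hk2 : (0 : ℝ) < 2 * ((k + 1 : ℕ) : ℝ) + 1 := by positivity
    set u := θ ^ 2 with hu_def
    set y := x ^ 2 with hy_def
    have hu0 : 0 ≤ u := by positivity
    have hu1 : u ≤ 1 := by rw [hu_def]; nlinarith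
    have hy0 : 0 ≤ y := by positivity
    have e : (θ * x) ^ 2 = u * y := by rw [hu_def, hy_def]; ring
    rw [e]
    have hpow : u ^ (k + 1) ≤ 1 := pow_le_one₀ hu0 hu1
    have key : 0 ≤ (1 - u ^ (k + 1)) * (1 / (2 * ((k + 1 : ℕ) : ℝ) + 1) - 1 / (3 * ((k : ℝ) + 1))) := by
      apply mul_nonneg (by linarith)
      push_cast
      rw [sub_nonneg]
      apply one_div_le_one_div_of_le (by positivity)
      have : (0 : ℝ) ≤ k := Nat.cast_nonneg k
      linarith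
    have hfinal : θ ^ 2 * (2 * y ^ (k + 1 + 1) / (2 * ((k + 1 : ℕ) : ℝ) + 1)) -
        (2 * (u * y) ^ (k + 1 + 1) / (2 * ((k + 1 : ℕ) : ℝ) + 1) +
          (2 / 3) * θ ^ 2 * y * (y ^ (k + 1) / (k + 1) - (u * y) ^ (k + 1) / (k + 1))) =
        2 * u * y ^ (k + 2) * ((1 - u ^ (k + 1)) * (1 / (2 * ((k + 1 : ℕ) : ℝ) + 1) - 1 / (3 * ((k : ℝ) + 1)))) := by
      rw [← hu_def]
      rw [mul_pow u y (k + 1 + 1), mul_pow u y (k + 1)]
      have h3 : (3 * ((k : ℝ) + 1)) ≠ 0 := by positivity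
      have h4 : ((k : ℝ) + 1) ≠ 0 := by positivity
      field_simp
      ring
    have hnn : 0 ≤ 2 * u * y ^ (k + 2) * ((1 - u ^ (k + 1)) * (1 / (2 * ((k + 1 : ℕ) : ℝ) + 1) - 1 / (3 * ((k : ℝ) + 1)))) :=
      mul_nonneg (by positivity) key
    linarith

/-- `R(t) = t²/10 - F(t) ≥ 0` and `R(θx) ≤ θ²R(x)` with `F(t) = 1 - √(1-t²) - φ(t)/5`. -/
noncomputable def RR (t : ℝ) : ℝ :=
  t ^ 2 / 10 - (1 - Real.sqrt (1 - t ^ 2) - t * Real.log ((1 + t) / (1 - t)) / 5)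

theorem RR_zero : RR 0 = 0 := by
  simp [RR]

theorem RR_scale {θ x : ℝ} (hx : |x| < 1) (hθ0 : 0 ≤ θ) (hθ1 : θ ≤ 1) :
    RR (θ * x) ≤ θ ^ 2 * RR x := by
  have hx2 : x ^ 2 < 1 := by
    have := sq_abs x
    have h0 := abs_nonneg x
    nlinarith
  have hθ2 : θ ^ 2 ≤ 1 := by nlinarith
  have hu2 : (θ * x) ^ 2 ≤ x ^ 2 := by
    rw [mul_pow]
    nlinarith [sq_nonneg x]
  set w₂ := Real.sqrt (1 - x ^ 2) with hw₂
  set w₁ := Real.sqrt (1 - (θ * x) ^ 2) with hw₁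
  have hw₂pos : 0 < w₂ := Real.sqrt_pos.mpr (by linarith)
  have hw₁₂ : w₂ ≤ w₁ := Real.sqrt_le_sqrt (by linarith)
  have hw₂sq : w₂ ^ 2 = 1 - x ^ 2 := Real.sq_sqrt (by linarith)
  have hw₁sq : w₁ ^ 2 = 1 - (θ * x) ^ 2 := Real.sq_sqrt (by linarith)
  have hlog₂ : Real.log (1 - x ^ 2) = 2 * Real.log w₂ := by
    rw [← hw₂sq, Real.log_pow]; norm_num
  have hlog₁ : Real.log (1 - (θ * x) ^ 2) = 2 * Real.log w₁ := by
    rw [← hw₁sq, Real.log_pow]; norm_num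
  have hc := phi_compare hx hθ0 hθ1
  rw [hlog₁, hlog₂] at hc
  have hb := beta_ineq hw₂pos hw₁₂
  have hw₁pos : 0 < w₁ := lt_of_lt_of_le hw₂pos hw₁₂
  -- final computation, multiply `hb` by `θ²x²`
  have hnn : 0 ≤ θ ^ 2 * x ^ 2 := by positivity
  have hb' := mul_le_mul_of_nonneg_left hb hnn
  have h1w₁ : θ ^ 2 * x ^ 2 * (1 / (1 + w₁)) = 1 - w₁ := by
    have h1 : (1 + w₁) ≠ 0 := by positivity
    have : θ ^ 2 * x ^ 2 = (1 - w₁) * (1 + w₁) := by
      have : θ ^ 2 * x ^ 2 = (θ * x) ^ 2 := by ring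
      rw [this]
      nlinarith
    rw [this]
    field_simp
  have h1w₂ : θ ^ 2 * x ^ 2 * (1 / (1 + w₂)) = θ ^ 2 * (1 - w₂) := by
    have h1 : (1 + w₂) ≠ 0 := by positivity
    have : x ^ 2 = (1 - w₂) * (1 + w₂) := by nlinarith
    rw [this]
    field_simp
  have hb'' : θ ^ 2 * (1 - w₂) - (1 - w₁) ≤
      θ ^ 2 * x ^ 2 * ((4 / 15) * (Real.log w₁ - Real.log w₂)) := by
    rw [mul_sub, h1w₁, h1w₂] at hb'
    exact hb'
  unfold RR
  rw [← hw₁, ← hw₂]
  have e : (θ * x) ^ 2 / 10 = θ ^ 2 * (x ^ 2 / 10) := by ring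
  rw [e]
  nlinarith

theorem RR_nonneg {x : ℝ} (hx : |x| < 1) : 0 ≤ RR x := by
  -- use the comparison with `θ = 0`-limit: directly from the series and `beta_ineq` with `w₁ = 1`
  have hx2 : x ^ 2 < 1 := by
    have := sq_abs x
    have h0 := abs_nonneg x
    nlinarith
  have hy : |x ^ 2| < 1 := by
    rw [abs_of_nonneg (by positivity)]
    exact hx2
  set w := Real.sqrt (1 - x ^ 2) with hw
  have hwpos : 0 < w := Real.sqrt_pos.mpr (by linarith)
  have hw1 : w ≤ 1 := by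
    rw [hw]
    exact Real.sqrt_le_one.mpr (by nlinarith [sq_nonneg x])
  have hwsq : w ^ 2 = 1 - x ^ 2 := Real.sq_sqrt (by linarith)
  have hlog : Real.log (1 - x ^ 2) = 2 * Real.log w := by
    rw [← hwsq, Real.log_pow]; norm_num
  have hb := beta_ineq hwpos hw1
  rw [Real.log_one] at hb
  -- series comparison `φ(x) ≥ 2y + (2/3) y (-log(1-y))`
  have hA := hasSum_phi hx
  have hA' := (hasSum_nat_add_iff' (f := fun k : ℕ => 2 * (x ^ 2) ^ (k + 1) / (2 * k + 1)) 1).mpr hA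
  have hC := (Real.hasSum_pow_div_log_of_abs_lt_one hy).mul_left ((2 / 3) * x ^ 2)
  have hle := hasSum_le (f := fun k : ℕ => (2 / 3) * x ^ 2 * ((x ^ 2) ^ (k + 1) / (k + 1)))
    (g := fun k : ℕ => 2 * (x ^ 2) ^ (k + 1 + 1) / (2 * ((k + 1 : ℕ) : ℝ) + 1)) ?_ hC hA'
  · simp only [Finset.sum_range_one, Nat.cast_zero] at hle
    have hphi : 2 * x ^ 2 + (2 / 3) * x ^ 2 * (-(2 * Real.log w)) ≤
        x * Real.log ((1 + x) / (1 - x)) := by
      rw [hlog] at hle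
      have e : 2 * (x ^ 2) ^ (0 + 1) / (2 * 0 + 1) = 2 * x ^ 2 := by ring
      rw [e] at hle
      linarith
    -- conclude
    have hnn : 0 ≤ x ^ 2 := by positivity
    have hb' := mul_le_mul_of_nonneg_left hb hnn
    have h1 : x ^ 2 * (1 / (1 + w)) = 1 - w := by
      have h1 : (1 + w) ≠ 0 := by positivity
      have : x ^ 2 = (1 - w) * (1 + w) := by nlinarith
      rw [this]
      field_simp
    have h2 : x ^ 2 * (1 / (1 + w) - 1 / (1 + 1)) = (1 - w) - x ^ 2 / 2 := by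
      rw [mul_sub, h1]
      ring
    rw [h2] at hb'
    unfold RR
    rw [← hw]
    nlinarith
  · intro k
    have hk : (0 : ℝ) < (k : ℝ) + 1 := by positivity
    have hy0 : 0 ≤ x ^ 2 := by positivity
    have e1 : (2 / 3) * x ^ 2 * ((x ^ 2) ^ (k + 1) / (k + 1)) = 2 * (x ^ 2) ^ (k + 1 + 1) / (3 * ((k : ℝ) + 1)) := by
      rw [pow_succ (x ^ 2) (k + 1)]
      field_simp
    rw [e1]
    apply div_le_div_of_nonneg_left (by positivity) (by positivity)
    push_cast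
    have : (0 : ℝ) ≤ k := Nat.cast_nonneg k
    linarith

/-- (J4) pointwise -/
theorem bhatt_kl {D : ℕ} {θ x : ℝ} (hx : |x| < 1) (hθ0 : 0 ≤ θ) (hθ1 : θ ^ 2 ≤ 1 / 2)
    (hθ : (D : ℝ) * θ ^ 2 ≤ 1) :
    (1 - Real.sqrt (1 - x ^ 2) - x * Real.log ((1 + x) / (1 - x)) / 5) -
        D * (1 - Real.sqrt (1 - (θ * x) ^ 2) - θ * x * Real.log ((1 + θ * x) / (1 - θ * x)) / 5) ≤
      (1 - D * θ ^ 2) * x ^ 2 / 10 := by
  have hθ1' : θ ≤ 1 := by nlinarith
  have h1 := RR_scale hx hθ0 hθ1'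
  have h2 := RR_nonneg hx
  have hD : (0 : ℝ) ≤ D := Nat.cast_nonneg D
  have h3 := mul_le_mul_of_nonneg_left h1 hD
  unfold RR at h1 h2 h3
  have h4 : 0 ≤ (1 - (D : ℝ) * θ ^ 2) *
      (x ^ 2 / 10 - (1 - Real.sqrt (1 - x ^ 2) - x * Real.log ((1 + x) / (1 - x)) / 5)) :=
    mul_nonneg (by linarith) h2
  nlinarith

end Crest.Agent.Lib.IsingFIID.OneDim
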