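import Crest.Agent.Lib.IsingFIID.StaticMoments1

set_option autoImplicit false
namespace Crest.Agent.Lib.IsingFIID
universe u v
namespace SM

open MeasureTheory Filter
open scoped Classical Topology

/-! ### abstract moment sequences -/

section Seq

/-- The class of moment sequences: `A 0 = 1`, `|A j| ≤ K a^{⌈j/2⌉}` up to `2q-2`, `|A (2q-1)| ≤ K Y`. -/
structure MomCl (q : ℕ) (a K Y : ℝ) (A : ℕ → ℝ) : Prop where
  zero : A 0 = 1
  mid : ∀ j, 1 ≤ j → j ≤ 2 * q - 2 → |A j| ≤ K * a ^ ((j + 1) / 2)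
  top : |A (2 * q - 1)| ≤ K * Y

/-- binomial convolution -/
noncomputable def conv (A B : ℕ → ℝ) (m : ℕ) : ℝ :=
  ∑ j ∈ Finset.range (m + 1), (m.choose j : ℝ) * (A (m - j) * B j)

theorem conv_succ (A B : ℕ → ℝ) (m : ℕ) : conv A B (m + 1) =
    A (m + 1) * B 0 + A 0 * B (m + 1) +
      ∑ j ∈ Finset.range m, ((m + 1).choose (j + 1) : ℝ) * (A (m - j) * B (j + 1)) := by
  unfold conv
  rw [Finset.sum_range_succ', Finset.sum_range_succ]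
  simp only [Nat.choose_self, Nat.cast_one, one_mul, Nat.choose_zero_right, Nat.sub_zero,
    Nat.reduceSubDiff, Nat.sub_self]
  ring

theorem sum_choose_le (m : ℕ) :
    ∑ j ∈ Finset.range m, ((m + 1).choose (j + 1) : ℝ) ≤ 2 ^ (m + 1) := by
  have h := Nat.sum_range_choose (m + 1)
  rw [Finset.sum_range_succ', Finset.sum_range_succ] at h
  have h2 : ∑ j ∈ Finset.range m, (m + 1).choose (j + 1) ≤ 2 ^ (m + 1) := by omega
  exact_mod_cast h2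

theorem inner_le {A B : ℕ → ℝ} {m : ℕ} {b : ℝ} (hb0 : 0 ≤ b)
    (hb : ∀ j, j < m → |A (m - j) * B (j + 1)| ≤ b) :
    |∑ j ∈ Finset.range m, ((m + 1).choose (j + 1) : ℝ) * (A (m - j) * B (j + 1))| ≤ 2 ^ (m + 1) * b := by
  refine (Finset.abs_sum_le_sum_abs _ _).trans ?_
  calc _ ≤ ∑ j ∈ Finset.range m, ((m + 1).choose (j + 1) : ℝ) * b := by
        refine Finset.sum_le_sum fun j hj => ?_
        rw [abs_mul, Nat.abs_cast]
        exact mul_le_mul_of_nonneg_left (hb j (Finset.mem_range.mp hj)) (by positivity)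
    _ = (∑ j ∈ Finset.range m, ((m + 1).choose (j + 1) : ℝ)) * b := by rw [Finset.sum_mul]
    _ ≤ _ := mul_le_mul_of_nonneg_right (sum_choose_le m) hb0

variable {q : ℕ} {a K₁ K₂ Y : ℝ} {A B : ℕ → ℝ}

theorem two_pow_le {m : ℕ} (hm : m ≤ 2 * q) : (2 : ℝ) ^ m ≤ 4 ^ q := by
  have : (4 : ℝ) = 2 ^ 2 := by norm_num
  rw [this, ← pow_mul]
  exact pow_le_pow_right₀ (by norm_num) hm

theorem conv_class (hq : 2 ≤ q) (ha0 : 0 ≤ a) (ha1 : a ≤ 1) (hY : a ^ q ≤ Y) (hK₁ : 0 ≤ K₁) (hK₂ : 0 ≤ K₂)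
    (hA : MomCl q a K₁ Y A) (hB : MomCl q a K₂ Y B) :
    MomCl q a (K₁ + K₂ + 4 ^ q * K₁ * K₂) Y (conv A B) := by
  have hYn : 0 ≤ Y := (pow_nonneg ha0 q).trans hY
  have h4 : (0:ℝ) ≤ 4 ^ q := by positivity
  have hpr : ∀ s t e : ℕ, 1 ≤ s → s ≤ 2 * q - 2 → 1 ≤ t → t ≤ 2 * q - 2 → e ≤ (s + 1) / 2 + (t + 1) / 2 →
      |A s * B t| ≤ K₁ * K₂ * a ^ e := by
    intro s t e hs1 hs2 ht1 ht2 he
    rw [abs_mul]
    calc _ ≤ (K₁ * a ^ ((s + 1) / 2)) * (K₂ * a ^ ((t + 1) / 2)) :=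
          mul_le_mul (hA.mid s hs1 hs2) (hB.mid t ht1 ht2) (abs_nonneg _) (by positivity)
      _ = K₁ * K₂ * a ^ ((s + 1) / 2 + (t + 1) / 2) := by rw [pow_add]; ring
      _ ≤ _ := mul_le_mul_of_nonneg_left (pow_le_pow_of_le_one ha0 ha1 he) (by positivity)
  refine ⟨?_, ?_, ?_⟩
  · simp [conv, hA.zero, hB.zero]
  · intro j hj1 hj2
    obtain ⟨m, rfl⟩ : ∃ m, j = m + 1 := ⟨j - 1, by omega⟩
    rw [conv_succ, hA.zero, hB.zero, mul_one, one_mul]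
    have hin := inner_le (A := A) (B := B) (m := m) (b := K₁ * K₂ * a ^ ((m + 1 + 1) / 2)) (by positivity)
      (fun i hi => hpr _ _ _ (by omega) (by omega) (by omega) (by omega) (by omega))
    have h1 := hA.mid _ hj1 hj2
    have h2 := hB.mid _ hj1 hj2
    have h3 : (2 : ℝ) ^ (m + 1) ≤ 4 ^ q := two_pow_le (by omega)
    have hP : 0 ≤ K₁ * K₂ * a ^ ((m + 1 + 1) / 2) := by positivity
    calc _ ≤ |A (m + 1) + B (m + 1)| + _ := abs_add_le _ _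
      _ ≤ |A (m + 1)| + |B (m + 1)| + _ := add_le_add (abs_add_le _ _) le_rfl
      _ ≤ K₁ * a ^ ((m + 1 + 1) / 2) + K₂ * a ^ ((m + 1 + 1) / 2) +
          2 ^ (m + 1) * (K₁ * K₂ * a ^ ((m + 1 + 1) / 2)) := add_le_add (add_le_add h1 h2) hin
      _ ≤ K₁ * a ^ ((m + 1 + 1) / 2) + K₂ * a ^ ((m + 1 + 1) / 2) +
          4 ^ q * (K₁ * K₂ * a ^ ((m + 1 + 1) / 2)) := by
            have := mul_le_mul_of_nonneg_right h3 hP
            linarith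
      _ = _ := by ring
  · obtain ⟨m, hm⟩ : ∃ m, 2 * q - 1 = m + 1 := ⟨2 * q - 2, by omega⟩
    rw [hm, conv_succ, hA.zero, hB.zero, mul_one, one_mul]
    have hin := inner_le (A := A) (B := B) (m := m) (b := K₁ * K₂ * Y) (by positivity)
      (fun i hi => (hpr _ _ q (by omega) (by omega) (by omega) (by omega) (by omega)).trans
        (mul_le_mul_of_nonneg_left hY (by positivity)))
    have h1 := hA.top
    have h2 := hB.top
    rw [hm] at h1 h2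
    have h3 : (2 : ℝ) ^ (m + 1) ≤ 4 ^ q := two_pow_le (by omega)
    have hP : 0 ≤ K₁ * K₂ * Y := by positivity
    calc _ ≤ |A (m + 1) + B (m + 1)| + _ := abs_add_le _ _
      _ ≤ |A (m + 1)| + |B (m + 1)| + _ := add_le_add (abs_add_le _ _) le_rfl
      _ ≤ K₁ * Y + K₂ * Y + 2 ^ (m + 1) * (K₁ * K₂ * Y) := add_le_add (add_le_add h1 h2) hin
      _ ≤ K₁ * Y + K₂ * Y + 4 ^ q * (K₁ * K₂ * Y) := by
            have := mul_le_mul_of_nonneg_right h3 hP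
            linarith
      _ = _ := by ring

theorem conv_top (hq : 2 ≤ q) (ha0 : 0 ≤ a) (ha1 : a ≤ 1) (hY : a ^ q ≤ Y) (hK₁ : 0 ≤ K₁) (hK₂ : 0 ≤ K₂)
    (hA : MomCl q a K₁ Y A) (hB : MomCl q a K₂ Y B) :
    conv A B (2 * q) ≤ A (2 * q) + B (2 * q) + 4 ^ q * (K₁ * K₂) * (a * Y + a ^ q) := by
  have hYn : 0 ≤ Y := (pow_nonneg ha0 q).trans hY
  have haq : 0 ≤ a ^ q := pow_nonneg ha0 q
  have haY : 0 ≤ a * Y := mul_nonneg ha0 hYn
  have hKK : 0 ≤ K₁ * K₂ := mul_nonneg hK₁ hK₂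
  obtain ⟨m, hm⟩ : ∃ m, 2 * q = m + 1 := ⟨2 * q - 1, by omega⟩
  have hterm : ∀ i, i < m → |A (m - i) * B (i + 1)| ≤ K₁ * K₂ * (a * Y + a ^ q) := by
    intro i hi
    by_cases hi0 : i = 0
    · subst hi0
      have hm' : m - 0 = 2 * q - 1 := by omega
      rw [hm', abs_mul]
      have h1 := hA.top
      have h2 := hB.mid 1 le_rfl (by omega)
      norm_num at h2
      calc _ ≤ (K₁ * Y) * (K₂ * a) := mul_le_mul h1 h2 (abs_nonneg _) (by positivity)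
        _ = K₁ * K₂ * (a * Y) := by ring
        _ ≤ _ := mul_le_mul_of_nonneg_left (by linarith) hKK
    · by_cases hi1 : i + 1 = m
      · have hm' : m - i = 1 := by omega
        have hi2 : i + 1 = 2 * q - 1 := by omega
        rw [hm', hi2, abs_mul]
        have h1 := hB.top
        have h2 := hA.mid 1 le_rfl (by omega)
        norm_num at h2
        calc _ ≤ (K₁ * a) * (K₂ * Y) := mul_le_mul h2 h1 (abs_nonneg _) (by positivity)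
          _ = K₁ * K₂ * (a * Y) := by ring
          _ ≤ _ := mul_le_mul_of_nonneg_left (by linarith) hKK
      · rw [abs_mul]
        have h1 := hA.mid (m - i) (by omega) (by omega)
        have h2 := hB.mid (i + 1) (by omega) (by omega)
        calc _ ≤ (K₁ * a ^ ((m - i + 1) / 2)) * (K₂ * a ^ ((i + 1 + 1) / 2)) :=
              mul_le_mul h1 h2 (abs_nonneg _) (by positivity)
          _ = K₁ * K₂ * a ^ ((m - i + 1) / 2 + (i + 1 + 1) / 2) := by rw [pow_add]; ring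
          _ ≤ K₁ * K₂ * a ^ q := mul_le_mul_of_nonneg_left
              (pow_le_pow_of_le_one ha0 ha1 (by omega)) hKK
          _ ≤ _ := mul_le_mul_of_nonneg_left (by linarith) hKK
  have hin := inner_le (A := A) (B := B) (m := m) (b := K₁ * K₂ * (a * Y + a ^ q))
    (mul_nonneg hKK (by linarith)) hterm
  rw [hm, conv_succ, hA.zero, hB.zero, mul_one, one_mul]
  have h3 : (2 : ℝ) ^ (m + 1) ≤ 4 ^ q := two_pow_le (by omega)
  have hP : 0 ≤ K₁ * K₂ * (a * Y + a ^ q) := mul_nonneg hKK (by linarith)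
  have h5 := mul_le_mul_of_nonneg_right h3 hP
  have h6 := (le_abs_self _).trans hin
  nlinarith

/-- the constants -/
noncomputable def Kt (K₂ : ℝ) (q : ℕ) : ℕ → ℝ
  | 0 => 1
  | t + 1 => Kt K₂ q t + K₂ + 4 ^ q * Kt K₂ q t * K₂

/-- the constants -/
noncomputable def Lt (K₂ : ℝ) (q : ℕ) : ℕ → ℝ
  | 0 => 0
  | t + 1 => Lt K₂ q t + 4 ^ q * (Kt K₂ q t * K₂)

theorem Kt_nonneg {K₂ : ℝ} (h : 0 ≤ K₂) (q t : ℕ) : 0 ≤ Kt K₂ q t := by
  induction t with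
  | zero => simp [Kt]
  | succ t ih =>
    simp only [Kt]
    positivity

theorem Lt_nonneg {K₂ : ℝ} (h : 0 ≤ K₂) (q t : ℕ) : 0 ≤ Lt K₂ q t := by
  induction t with
  | zero => simp [Lt]
  | succ t ih =>
    simp only [Lt]
    have := Kt_nonneg h q t
    positivity

end Seq

/-! ### moments along the tree -/

section Mom

set_option linter.unusedSectionVars false

variable {V : Type u} {G : SimpleGraph V} [G.LocallyFinite] {D : ℕ}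
variable {E : Type v} [MeasurableSpace E] {κ : Measure E} [IsProbabilityMeasure κ]
variable (𝔟 : BlockData κ) {θ : ℝ}

/-- `X_z = atanh (θ ν_z)`. -/
noncomputable def Xz (G : SimpleGraph V) [G.LocallyFinite] (𝔟 : BlockData κ) (θ : ℝ) (R : ℕ) (y z : V) (x : V → E) : ℝ :=
  atanhL (θ * nuR G 𝔟 θ R y z x)

/-- `g_z = Z_z + θ n_z`. -/
noncomputable def gz (G : SimpleGraph V) [G.LocallyFinite] (𝔟 : BlockData κ) (θ : ℝ) (R : ℕ) (y z : V) (x : V → E) : ℝ :=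
  zR G 𝔟 θ R y z x + θ * nR G 𝔟 θ R y z x

/-- `S_T = h + Σ_{z ∈ T} X_z`. -/
noncomputable def SS (G : SimpleGraph V) [G.LocallyFinite] (𝔟 : BlockData κ) (θ : ℝ) (R : ℕ) (y : V) (T : Finset V)
    (x : V → E) : ℝ := hOf 𝔟 (x y) + ∑ z ∈ T, Xz G 𝔟 θ R y z x

/-- `W_T = w₊ ∏_{z ∈ T} g_z`. -/
noncomputable def WW (G : SimpleGraph V) [G.LocallyFinite] (𝔟 : BlockData κ) (θ : ℝ) (R : ℕ) (y : V) (T : Finset V)
    (x : V → E) : ℝ := 𝔟.wp (x y) * ∏ z ∈ T, gz G 𝔟 θ R y z x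

/-- `A_T(m) = ∫ S_T^m W_T`. -/
noncomputable def Am (G : SimpleGraph V) [G.LocallyFinite] (𝔟 : BlockData κ) (θ : ℝ) (R : ℕ) (y : V) (T : Finset V)
    (m : ℕ) : ℝ :=
  ∫ x, SS G 𝔟 θ R y T x ^ m * WW G 𝔟 θ R y T x ∂(Measure.infinitePi fun _ : V => κ)

/-- `B_z(j) = ∫ X_z^j g_z`. -/
noncomputable def Bm (G : SimpleGraph V) [G.LocallyFinite] (𝔟 : BlockData κ) (θ : ℝ) (R : ℕ) (y z : V) (j : ℕ) : ℝ :=
  ∫ x, Xz G 𝔟 θ R y z x ^ j * gz G 𝔟 θ R y z x ∂(Measure.infinitePi fun _ : V => κ)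

theorem BM_gz (R : ℕ) (y z : V) : BM (gz G 𝔟 θ R y z) :=
  (BM_zR_nR 𝔟 R y z).1.add ((BM.const θ).mul (BM_zR_nR 𝔟 R y z).2)

theorem Dep_gz (hG : RegTree G D) {y z : V} (h : G.Adj y z) (R : ℕ) :
    Dep (sub G R y z : Set V) (gz G 𝔟 θ R y z) :=
  (Dep_zR_nR 𝔟 hG R h).1.add ((Dep.const _ θ).mul (Dep_zR_nR 𝔟 hG R h).2)

theorem Dep_Xz (hG : RegTree G D) {y z : V} (h : G.Adj y z) (R : ℕ) :
    Dep (sub G R y z : Set V) (Xz G 𝔟 θ R y z) := fun x x' hx => by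
  unfold Xz
  rw [Dep_nuR 𝔟 hG h R x x' hx]

theorem not_mem_sub (hG : RegTree G D) {y z : V} (h : G.Adj y z) (R : ℕ) : y ∉ sub G R y z := by
  intro hy
  simp only [sub, Finset.mem_biUnion] at hy
  obtain ⟨r, _, hr⟩ := hy
  have := ((hG.mem_desc h r y).mp hr).2
  simp at this

theorem disjoint_sub (hG : RegTree G D) {p y z z' : V} (h : G.Adj p y) (hz : z ∈ ch G p y)
    (hz' : z' ∈ ch G p y) (hne : z ≠ z') (R : ℕ) : Disjoint (sub G R y z) (sub G R y z') := by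
  unfold sub
  rw [Finset.disjoint_biUnion_left]
  intro r _
  rw [Finset.disjoint_biUnion_right]
  intro r' _
  exact hG.disjoint_desc h hz hz' hne r r'

/-- The set of coordinates of `S_T, W_T`. -/
def AT (G : SimpleGraph V) [G.LocallyFinite] (R : ℕ) (y : V) (T : Finset V) : Set V :=
  {y} ∪ ⋃ z ∈ T, (sub G R y z : Set V)

theorem mem_AT_self (R : ℕ) (y : V) (T : Finset V) : y ∈ AT G R y T := Or.inl rfl

theorem sub_AT (R : ℕ) (y : V) {T : Finset V} {z : V} (hz : z ∈ T) :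
    (sub G R y z : Set V) ⊆ AT G R y T := fun _ hu =>
  Or.inr (Set.mem_biUnion hz hu)

theorem disjoint_AT (hG : RegTree G D) {p y z : V} (hpy : G.Adj p y) (R : ℕ) {T : Finset V} (hT : T ⊆ ch G p y)
    (hz : z ∈ ch G p y) (hzT : z ∉ T) : Disjoint (AT G R y T) (sub G R y z : Set V) := by
  rw [Set.disjoint_left]
  intro v hv hv'
  rcases hv with hv | hv
  · have : v = y := hv
    subst this
    exact not_mem_sub hG (mem_ch.mp hz).1 R hv'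
  · simp only [Set.mem_iUnion] at hv
    obtain ⟨z', hz', hv⟩ := hv
    have hne : z' ≠ z := fun h => hzT (h ▸ hz')
    exact Finset.disjoint_left.mp (disjoint_sub hG hpy (hT hz') hz hne R) hv hv'

section Hyp3

variable (hG : RegTree G D) (hθ0 : 0 ≤ θ) (hθ : (D : ℝ) * θ ^ 2 ≤ 1)
include hG hθ0 hθ

theorem abs_Xz_le {y z : V} (h : G.Adj y z) (R : ℕ) (x : V → E) :
    |Xz G 𝔟 θ R y z x| ≤ (5 / 4 * θ) * |nuR G 𝔟 θ R y z x| := by
  have hnu := nu_lt 𝔟 hG hθ0 hθ h R x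
  have := abs_atanhL_le (theta_mul_sq_le hG hθ hnu)
  rw [abs_mul, abs_of_nonneg hθ0] at this
  unfold Xz
  linarith

theorem tau_le_one : 5 / 4 * θ ≤ 1 := by
  have := theta_sq_le hG hθ
  nlinarith

theorem abs_Xz_le_nu {y z : V} (h : G.Adj y z) (R : ℕ) (x : V → E) :
    |Xz G 𝔟 θ R y z x| ≤ |nuR G 𝔟 θ R y z x| := by
  have h1 := abs_Xz_le 𝔟 hG hθ0 hθ h R x
  have h2 := tau_le_one hG hθ0 hθ
  have h3 := abs_nonneg (nuR G 𝔟 θ R y z x)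
  nlinarith

theorem BM_Xz {y z : V} (h : G.Adj y z) (R : ℕ) : BM (Xz G 𝔟 θ R y z) := by
  refine ⟨measurable_atanhL.comp ((measurable_nuR 𝔟 R y z).const_mul θ), 1, fun x => ?_⟩
  exact (abs_Xz_le_nu 𝔟 hG hθ0 hθ h R x).trans (nu_lt 𝔟 hG hθ0 hθ h R x).le

theorem Xz_flip {y z : V} (h : G.Adj y z) (R : ℕ) (x : V → E) :
    Xz G 𝔟 θ R y z (flip 𝔟 x) = - Xz G 𝔟 θ R y z x := by
  unfold Xz
  rw [nuR_flip, mul_neg, atanhL_neg (abs_theta_mul_lt hG hθ0 hθ (nu_lt 𝔟 hG hθ0 hθ h R x))]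

theorem BM_SS {p y : V} (hpy : G.Adj p y) (R : ℕ) {T : Finset V} (hT : T ⊆ ch G p y) :
    BM (SS G 𝔟 θ R y T) :=
  (BM_hOf 𝔟 y).add (BM.sum _ _ fun z hz => BM_Xz 𝔟 hG hθ0 hθ (mem_ch.mp (hT hz)).1 R)

omit hG hθ0 hθ in
theorem BM_WW (R : ℕ) (y : V) (T : Finset V) : BM (WW G 𝔟 θ R y T) :=
  (BM_wp 𝔟 y).mul (BM.prod _ _ fun z _ => BM_gz 𝔟 R y z)

theorem Dep_SS {p y : V} (R : ℕ) {T : Finset V} (hT : T ⊆ ch G p y) :
    Dep (AT G R y T) (SS G 𝔟 θ R y T) := by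
  intro x x' hx
  unfold SS
  rw [hx y (mem_AT_self R y T)]
  congr 1
  refine Finset.sum_congr rfl fun z hz => ?_
  exact Dep_Xz 𝔟 hG (mem_ch.mp (hT hz)).1 R x x' fun v hv => hx v (sub_AT R y hz hv)

theorem Dep_WW {p y : V} (R : ℕ) {T : Finset V} (hT : T ⊆ ch G p y) :
    Dep (AT G R y T) (WW G 𝔟 θ R y T) := by
  intro x x' hx
  unfold WW
  rw [hx y (mem_AT_self R y T)]
  congr 1
  refine Finset.prod_congr rfl fun z hz => ?_
  exact Dep_gz 𝔟 hG (mem_ch.mp (hT hz)).1 R x x' fun v hv => hx v (sub_AT R y hz hv)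

/-- The independence step. -/
theorem Am_insert {p y z : V} (hpy : G.Adj p y) (R : ℕ) {T : Finset V} (hT : T ⊆ ch G p y)
    (hz : z ∈ ch G p y) (hzT : z ∉ T) (m : ℕ) :
    Am G 𝔟 θ R y (insert z T) m = conv (Am G 𝔟 θ R y T) (Bm G 𝔟 θ R y z) m := by
  have hadj := (mem_ch.mp hz).1
  have hBS := BM_SS 𝔟 hG hθ0 hθ hpy R hT
  have hBW := BM_WW (G := G) (θ := θ) 𝔟 R y T
  have hBX := BM_Xz 𝔟 hG hθ0 hθ hadj R
  have hBg := BM_gz (G := G) (θ := θ) 𝔟 R y z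
  have hpt : ∀ x : V → E, SS G 𝔟 θ R y (insert z T) x ^ m * WW G 𝔟 θ R y (insert z T) x =
      ∑ j ∈ Finset.range (m + 1), (m.choose j : ℝ) * ((SS G 𝔟 θ R y T x ^ (m - j) * WW G 𝔟 θ R y T x) *
        (Xz G 𝔟 θ R y z x ^ j * gz G 𝔟 θ R y z x)) := by
    intro x
    have h1 : SS G 𝔟 θ R y (insert z T) x = Xz G 𝔟 θ R y z x + SS G 𝔟 θ R y T x := by
      unfold SS
      rw [Finset.sum_insert hzT]; ring
    have h2 : WW G 𝔟 θ R y (insert z T) x = WW G 𝔟 θ R y T x * gz G 𝔟 θ R y z x := by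
      unfold WW
      rw [Finset.prod_insert hzT]; ring
    rw [h1, h2, add_pow, Finset.sum_mul]
    refine Finset.sum_congr rfl fun j _ => ?_
    ring
  unfold Am conv
  simp only [hpt]
  rw [integral_finsetSum]
  · refine Finset.sum_congr rfl fun j _ => ?_
    rw [integral_const_mul]
    congr 1
    exact integral_mul_of_disjoint κ (disjoint_AT hG hpy R hT hz hzT)
      ((hBS.pow _).mul hBW).meas ((hBX.pow _).mul hBg).meas
      (((Dep_SS 𝔟 hG hθ0 hθ R hT).pow _).mul (Dep_WW 𝔟 hG hθ0 hθ R hT))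
      (((Dep_Xz 𝔟 hG hadj R).pow _).mul (Dep_gz 𝔟 hG hadj R))
  · intro j _
    exact (((((hBS.pow _).mul hBW).mul ((hBX.pow _).mul hBg))).integrable _).const_mul _

theorem Bm_zero {y z : V} (h : G.Adj y z) (R : ℕ) : Bm G 𝔟 θ R y z 0 = 1 := by
  unfold Bm gz
  simp only [pow_zero, one_mul]
  rw [integral_add ((BM_zR_nR 𝔟 R y z).1.integrable _) (((BM_zR_nR 𝔟 R y z).2.integrable _).const_mul _),
    integral_const_mul, integral_zR 𝔟 hG hθ0 hθ h, integral_nR 𝔟 hG hθ0 hθ h]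
  ring

theorem Bm_eq {y z : V} (h : G.Adj y z) (R j : ℕ) : Bm G 𝔟 θ R y z j =
    EsR G 𝔟 θ R y z (fun x => Xz G 𝔟 θ R y z x ^ j) +
      θ * EsR G 𝔟 θ R y z (fun x => Xz G 𝔟 θ R y z x ^ j * nuR G 𝔟 θ R y z x) := by
  have hBX := BM_Xz 𝔟 hG hθ0 hθ h R
  have hBn := BM_nu 𝔟 hG hθ0 hθ h R
  rw [← EsR_const_mul, ← EsR_add 𝔟 (hBX.pow j) ((BM.const θ).mul ((hBX.pow j).mul hBn))]
  unfold Bm EsR
  congr 1
  funext x
  unfold gz
  rw [n_eq 𝔟 hG hθ0 hθ h R x]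
  ring

theorem Bm_even {y z : V} (h : G.Adj y z) (R k : ℕ) : Bm G 𝔟 θ R y z (2 * k) =
    EsR G 𝔟 θ R y z (fun x => Xz G 𝔟 θ R y z x ^ (2 * k)) := by
  rw [Bm_eq 𝔟 hG hθ0 hθ h]
  have hBX := BM_Xz 𝔟 hG hθ0 hθ h R
  have hBn := BM_nu 𝔟 hG hθ0 hθ h R
  have := EsR_odd (G := G) (θ := θ) 𝔟 (f := fun x => Xz G 𝔟 θ R y z x ^ (2 * k) * nuR G 𝔟 θ R y z x)
    ((hBX.pow _).mul hBn).meas (fun x => by
      simp only [Xz_flip 𝔟 hG hθ0 hθ h, nuR_flip, Even.neg_pow (even_two_mul k)]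
      ring) R y z
  rw [this]
  ring

theorem Bm_odd {y z : V} (h : G.Adj y z) (R k : ℕ) : Bm G 𝔟 θ R y z (2 * k + 1) =
    θ * EsR G 𝔟 θ R y z (fun x => Xz G 𝔟 θ R y z x ^ (2 * k + 1) * nuR G 𝔟 θ R y z x) := by
  rw [Bm_eq 𝔟 hG hθ0 hθ h]
  have hBX := BM_Xz 𝔟 hG hθ0 hθ h R
  have := EsR_odd (G := G) (θ := θ) 𝔟 (f := fun x => Xz G 𝔟 θ R y z x ^ (2 * k + 1))
    (hBX.pow _).meas (fun x => by
      simp only [Xz_flip 𝔟 hG hθ0 hθ h, Odd.neg_pow (odd_two_mul_add_one k)]) R y z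
  rw [this]
  ring

/-- even moments, with the sharp constant. -/
theorem Bm_even_le {y z : V} (h : G.Adj y z) (R k : ℕ) : Bm G 𝔟 θ R y z (2 * k) ≤
    (5 / 4 * θ) ^ (2 * k) * EsR G 𝔟 θ R y z (fun x => nuR G 𝔟 θ R y z x ^ (2 * k)) := by
  rw [Bm_even 𝔟 hG hθ0 hθ h, ← EsR_const_mul]
  have hBX := BM_Xz 𝔟 hG hθ0 hθ h R
  have hBn := BM_nu 𝔟 hG hθ0 hθ h R
  refine EsR_mono 𝔟 hG hθ0 hθ h (hBX.pow _) ((BM.const _).mul (hBn.pow _)) (fun x => ?_) R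
  have h1 := abs_Xz_le 𝔟 hG hθ0 hθ h R x
  have h2 : Xz G 𝔟 θ R y z x ^ 2 ≤ (5 / 4 * θ) ^ 2 * nuR G 𝔟 θ R y z x ^ 2 := by
    rw [← sq_abs (Xz G 𝔟 θ R y z x), ← sq_abs (nuR G 𝔟 θ R y z x), ← mul_pow]
    exact pow_le_pow_left₀ (abs_nonneg _) h1 2
  rw [pow_mul, pow_mul, pow_mul, ← mul_pow]
  exact pow_le_pow_left₀ (sq_nonneg _) h2 k

theorem Bm_even_nonneg {y z : V} (h : G.Adj y z) (R k : ℕ) : 0 ≤ Bm G 𝔟 θ R y z (2 * k) := by
  rw [Bm_even 𝔟 hG hθ0 hθ h]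
  exact EsR_nonneg 𝔟 hG hθ0 hθ h (fun x => by rw [pow_mul]; positivity) R

theorem moment_nonneg {y z : V} (h : G.Adj y z) (R k : ℕ) :
    0 ≤ EsR G 𝔟 θ R y z (fun x => nuR G 𝔟 θ R y z x ^ (2 * k)) :=
  EsR_nonneg 𝔟 hG hθ0 hθ h (fun x => by rw [pow_mul]; positivity) R

theorem abs_Bm_even_le {y z : V} (h : G.Adj y z) (R k : ℕ) : |Bm G 𝔟 θ R y z (2 * k)| ≤
    EsR G 𝔟 θ R y z (fun x => nuR G 𝔟 θ R y z x ^ (2 * k)) := by
  rw [abs_of_nonneg (Bm_even_nonneg 𝔟 hG hθ0 hθ h R k)]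
  refine (Bm_even_le 𝔟 hG hθ0 hθ h R k).trans ?_
  have h1 := moment_nonneg 𝔟 hG hθ0 hθ h R k
  have h2 : (5 / 4 * θ) ^ (2 * k) ≤ 1 := pow_le_one₀ (by positivity) (tau_le_one hG hθ0 hθ)
  nlinarith

theorem abs_Bm_odd_le {y z : V} (h : G.Adj y z) (R k : ℕ) : |Bm G 𝔟 θ R y z (2 * k + 1)| ≤
    EsR G 𝔟 θ R y z (fun x => nuR G 𝔟 θ R y z x ^ (2 * (k + 1))) := by
  rw [Bm_odd 𝔟 hG hθ0 hθ h]
  have hBX := BM_Xz 𝔟 hG hθ0 hθ h R
  have hBn := BM_nu 𝔟 hG hθ0 hθ h R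
  have hθ1 := theta_lt_one hG hθ0 hθ
  have hpt : ∀ x : V → E, |Xz G 𝔟 θ R y z x ^ (2 * k + 1) * nuR G 𝔟 θ R y z x| ≤
      nuR G 𝔟 θ R y z x ^ (2 * (k + 1)) := by
    intro x
    have h1 := abs_Xz_le_nu 𝔟 hG hθ0 hθ h R x
    have h2 : nuR G 𝔟 θ R y z x ^ (2 * (k + 1)) = |nuR G 𝔟 θ R y z x| ^ (2 * k + 1) * |nuR G 𝔟 θ R y z x| := by
      rw [← pow_succ, show 2 * k + 1 + 1 = 2 * (k + 1) by ring, pow_mul, pow_mul, sq_abs]
    rw [h2, abs_mul, abs_pow]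
    exact mul_le_mul_of_nonneg_right (pow_le_pow_left₀ (abs_nonneg _) h1 _) (abs_nonneg _)
  have hB1 := (hBX.pow (2 * k + 1)).mul hBn
  have hB2 := hBn.pow (2 * (k + 1))
  have h1 : EsR G 𝔟 θ R y z (fun x => Xz G 𝔟 θ R y z x ^ (2 * k + 1) * nuR G 𝔟 θ R y z x) ≤
      EsR G 𝔟 θ R y z (fun x => nuR G 𝔟 θ R y z x ^ (2 * (k + 1))) :=
    EsR_mono 𝔟 hG hθ0 hθ h hB1 hB2 (fun x => (le_abs_self _).trans (hpt x)) R
  have h2 : EsR G 𝔟 θ R y z (fun x => (-1) * nuR G 𝔟 θ R y z x ^ (2 * (k + 1))) ≤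
      EsR G 𝔟 θ R y z (fun x => Xz G 𝔟 θ R y z x ^ (2 * k + 1) * nuR G 𝔟 θ R y z x) :=
    EsR_mono 𝔟 hG hθ0 hθ h ((BM.const (-1)).mul hB2) hB1 (fun x => by
      have := neg_abs_le (Xz G 𝔟 θ R y z x ^ (2 * k + 1) * nuR G 𝔟 θ R y z x)
      have h3 := hpt x
      linarith) R
  rw [EsR_const_mul] at h2
  have h0 := moment_nonneg 𝔟 hG hθ0 hθ h R (k + 1)
  rw [abs_mul, abs_of_nonneg hθ0]
  have h4 : |EsR G 𝔟 θ R y z (fun x => Xz G 𝔟 θ R y z x ^ (2 * k + 1) * nuR G 𝔟 θ R y z x)| ≤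
      EsR G 𝔟 θ R y z (fun x => nuR G 𝔟 θ R y z x ^ (2 * (k + 1))) := by
    rw [abs_le]; constructor <;> linarith
  nlinarith [abs_nonneg (EsR G 𝔟 θ R y z (fun x => Xz G 𝔟 θ R y z x ^ (2 * k + 1) * nuR G 𝔟 θ R y z x))]

/-- `B_z` belongs to the class. -/
theorem Bm_class {y z : V} (h : G.Adj y z) (R q : ℕ) {a K Y : ℝ} (hK : 1 ≤ K) (hY0 : 0 ≤ Y)
    (hlow : ∀ k, k < q → EsR G 𝔟 θ R y z (fun x => nuR G 𝔟 θ R y z x ^ (2 * k)) ≤ K * a ^ k)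
    (htop : EsR G 𝔟 θ R y z (fun x => nuR G 𝔟 θ R y z x ^ (2 * q)) ≤ Y) (hq : 1 ≤ q) :
    MomCl q a K Y (Bm G 𝔟 θ R y z) := by
  refine ⟨Bm_zero 𝔟 hG hθ0 hθ h R, ?_, ?_⟩
  · intro j hj1 hj2
    rcases Nat.even_or_odd' j with ⟨k, rfl | rfl⟩
    · have hk : (2 * k + 1) / 2 = k := by omega
      rw [hk]
      exact (abs_Bm_even_le 𝔟 hG hθ0 hθ h R k).trans (hlow k (by omega))
    · have hk : (2 * k + 1 + 1) / 2 = k + 1 := by omega
      rw [hk]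
      exact (abs_Bm_odd_le 𝔟 hG hθ0 hθ h R k).trans (hlow (k + 1) (by omega))
  · obtain ⟨k, hk⟩ : ∃ k, q = k + 1 := ⟨q - 1, by omega⟩
    subst hk
    have hk2 : 2 * (k + 1) - 1 = 2 * k + 1 := by omega
    rw [hk2]
    refine (abs_Bm_odd_le 𝔟 hG hθ0 hθ h R k).trans (htop.trans ?_)
    nlinarith

/-- the empty product. -/
theorem Am_empty_class (R : ℕ) (y : V) (q : ℕ) (hq : 1 ≤ q) {a Y : ℝ} (ha0 : 0 ≤ a) (ha1 : a ≤ 1)
    (hh : ∀ e, |hOf 𝔟 e| ≤ a) (hY : a ^ q ≤ Y) :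
    MomCl q a 1 Y (Am G 𝔟 θ R y ∅) ∧ Am G 𝔟 θ R y ∅ (2 * q) ≤ a ^ (2 * q) := by
  have hsimp : ∀ m, Am G 𝔟 θ R y ∅ m = ∫ e, hOf 𝔟 e ^ m * 𝔟.wp e ∂κ := by
    intro m
    unfold Am SS WW
    simp only [Finset.sum_empty, add_zero, Finset.prod_empty, mul_one]
    exact integral_eval_infinitePi κ y (f := fun e => hOf 𝔟 e ^ m * 𝔟.wp e)
      (((measurable_hOf 𝔟).pow_const m).mul 𝔟.meas_wp)
  have hwp_int : Integrable 𝔟.wp κ :=
    Integrable.of_bound 𝔟.meas_wp.aestronglyMeasurable (max |𝔟.lo| |𝔟.hi|)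
      (Eventually.of_forall fun e => by
        simpa using abs_le_max_abs_abs (𝔟.wp_ge e) (𝔟.wp_le e))
  have hbd : ∀ m, |Am G 𝔟 θ R y ∅ m| ≤ a ^ m := by
    intro m
    rw [hsimp]
    have h1 : ∀ e, ‖hOf 𝔟 e ^ m * 𝔟.wp e‖ ≤ a ^ m * 𝔟.wp e := by
      intro e
      rw [Real.norm_eq_abs, abs_mul, abs_pow, abs_of_pos (wp_pos 𝔟 e)]
      exact mul_le_mul_of_nonneg_right (pow_le_pow_left₀ (abs_nonneg _) (hh e) m) (wp_pos 𝔟 e).le
    have h2 := norm_integral_le_of_norm_le (hwp_int.const_mul (a ^ m)) (Eventually.of_forall h1)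
    rw [integral_const_mul, 𝔟.int_wp, mul_one, Real.norm_eq_abs] at h2
    exact h2
  refine ⟨⟨?_, ?_, ?_⟩, (le_abs_self _).trans (hbd _)⟩
  · rw [hsimp]
    simp [𝔟.int_wp]
  · intro j hj1 _
    rw [one_mul]
    exact (hbd j).trans (pow_le_pow_of_le_one ha0 ha1 (by omega))
  · rw [one_mul]
    exact ((hbd _).trans (pow_le_pow_of_le_one ha0 ha1 (by omega))).trans hY

/-- Iteration over the children. -/
theorem Am_bound {p y : V} (hpy : G.Adj p y) (R q : ℕ) (hq : 2 ≤ q) {a K Y Bd : ℝ} (ha0 : 0 ≤ a) (ha1 : a ≤ 1)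
    (hK : 0 ≤ K) (hh : ∀ e, |hOf 𝔟 e| ≤ a) (hY : a ^ q ≤ Y)
    (hB : ∀ z ∈ ch G p y, MomCl q a K Y (Bm G 𝔟 θ R y z))
    (hBt : ∀ z ∈ ch G p y, Bm G 𝔟 θ R y z (2 * q) ≤ Bd) (T : Finset V) (hT : T ⊆ ch G p y) :
    MomCl q a (Kt K q T.card) Y (Am G 𝔟 θ R y T) ∧
    Am G 𝔟 θ R y T (2 * q) ≤ a ^ (2 * q) + T.card * Bd + Lt K q T.card * (a * Y + a ^ q) := by
  induction T using Finset.induction_on with
  | empty =>
    have := Am_empty_class (G := G) (θ := θ) 𝔟 hG hθ0 hθ R y q (by omega) ha0 ha1 hh hY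
    simpa [Kt, Lt] using this
  | insert z T hzT ih =>
    have hz : z ∈ ch G p y := hT (Finset.mem_insert_self z T)
    have hT' : T ⊆ ch G p y := fun u hu => hT (Finset.mem_insert_of_mem hu)
    obtain ⟨ih1, ih2⟩ := ih hT'
    have hEq : Am G 𝔟 θ R y (insert z T) = conv (Am G 𝔟 θ R y T) (Bm G 𝔟 θ R y z) :=
      funext fun m => Am_insert 𝔟 hG hθ0 hθ hpy R hT' hz hzT m
    have hK1 := Kt_nonneg hK q T.card
    rw [hEq, Finset.card_insert_of_notMem hzT]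
    refine ⟨?_, ?_⟩
    · exact conv_class hq ha0 ha1 hY hK1 hK ih1 (hB z hz)
    · have h1 := conv_top hq ha0 ha1 hY hK1 hK ih1 (hB z hz)
      have h2 := hBt z hz
      simp only [Lt]
      push_cast
      nlinarith


theorem SS_flip {p y : V} (hpy : G.Adj p y) (R : ℕ) {T : Finset V} (hT : T ⊆ ch G p y) (x : V → E) :
    SS G 𝔟 θ R y T (flip 𝔟 x) = - SS G 𝔟 θ R y T x := by
  unfold SS
  rw [flip_apply, hOf_swap, neg_add]
  congr 1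
  rw [← Finset.sum_neg_distrib]
  exact Finset.sum_congr rfl fun z hz => Xz_flip 𝔟 hG hθ0 hθ (mem_ch.mp (hT hz)).1 R x

/-- One step of the moment recursion. -/
theorem moment_step {p y : V} (hpy : G.Adj p y) (R q : ℕ) (hq : 2 ≤ q) {a K Bd : ℝ} (ha0 : 0 ≤ a) (ha1 : a ≤ 1)
    (hK : 1 ≤ K) (hh : ∀ e, |hOf 𝔟 e| ≤ a) (hBd0 : 0 ≤ Bd)
    (hlow : ∀ z ∈ ch G p y, ∀ k, k < q → EsR G 𝔟 θ R y z (fun x => nuR G 𝔟 θ R y z x ^ (2 * k)) ≤ K * a ^ k)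
    (htop : ∀ z ∈ ch G p y, EsR G 𝔟 θ R y z (fun x => nuR G 𝔟 θ R y z x ^ (2 * q)) ≤ Bd) :
    EsR G 𝔟 θ (R + 1) p y (fun x => nuR G 𝔟 θ (R + 1) p y x ^ (2 * q)) ≤
      a ^ (2 * q) + D * ((5 / 4 * θ) ^ (2 * q) * Bd) + Lt K q D * (a * (Bd + a ^ q) + a ^ q) := by
  have hBn := BM_nu 𝔟 hG hθ0 hθ hpy (R + 1)
  have hBS := BM_SS 𝔟 hG hθ0 hθ hpy R (T := ch G p y) (Finset.Subset.refl _)
  have hA := pow_nonneg ha0 q
  -- pointwise bound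
  have hle : ∀ x : V → E, nuR G 𝔟 θ (R + 1) p y x ^ (2 * q) ≤ SS G 𝔟 θ R y (ch G p y) x ^ (2 * q) := by
    intro x
    have h1 := abs_le_abs_atanhL (nu_lt 𝔟 hG hθ0 hθ hpy (R + 1) x)
    rw [atanhL_nuR_succ 𝔟 hG hθ0 hθ hpy] at h1
    have h2 : nuR G 𝔟 θ (R + 1) p y x ^ 2 ≤ SS G 𝔟 θ R y (ch G p y) x ^ 2 := by
      rw [← sq_abs (nuR G 𝔟 θ (R + 1) p y x), ← sq_abs (SS G 𝔟 θ R y (ch G p y) x)]
      exact pow_le_pow_left₀ (abs_nonneg _) h1 2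
    rw [pow_mul, pow_mul]
    exact pow_le_pow_left₀ (sq_nonneg _) h2 q
  have h1 := EsR_mono 𝔟 hG hθ0 hθ hpy (hBn.pow (2 * q)) (hBS.pow (2 * q)) hle (R + 1)
  have h2 : EsR G 𝔟 θ (R + 1) p y (fun x => SS G 𝔟 θ R y (ch G p y) x ^ (2 * q)) =
      Am G 𝔟 θ R y (ch G p y) (2 * q) := by
    rw [EsR_succ_even 𝔟 (hBS.pow (2 * q)) (fun x => by
      rw [SS_flip 𝔟 hG hθ0 hθ hpy R (Finset.Subset.refl _), Even.neg_pow (even_two_mul q)])]
    rfl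
  have hY : a ^ q ≤ Bd + a ^ q := by linarith
  have hB : ∀ z ∈ ch G p y, MomCl q a K (Bd + a ^ q) (Bm G 𝔟 θ R y z) := fun z hz =>
    Bm_class 𝔟 hG hθ0 hθ (mem_ch.mp hz).1 R q hK (by linarith) (hlow z hz)
      ((htop z hz).trans (by linarith)) (by omega)
  have hBt : ∀ z ∈ ch G p y, Bm G 𝔟 θ R y z (2 * q) ≤ (5 / 4 * θ) ^ (2 * q) * Bd := fun z hz =>
    (Bm_even_le 𝔟 hG hθ0 hθ (mem_ch.mp hz).1 R q).trans
      (mul_le_mul_of_nonneg_left (htop z hz) (by positivity))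
  have h3 := (Am_bound 𝔟 hG hθ0 hθ hpy R q hq ha0 ha1 (by linarith) hh hY hB hBt (ch G p y)
    (Finset.Subset.refl _)).2
  rw [hG.card_ch hpy] at h3
  rw [h2] at h1
  exact h1.trans h3

theorem moment_zero {p y : V} (hpy : G.Adj p y) (q : ℕ) {a : ℝ} (hh : ∀ e, |hOf 𝔟 e| ≤ a) :
    EsR G 𝔟 θ 0 p y (fun x => nuR G 𝔟 θ 0 p y x ^ (2 * q)) ≤ a ^ (2 * q) := by
  have hBn := BM_nu 𝔟 hG hθ0 hθ hpy 0
  have h := EsR_mono 𝔟 hG hθ0 hθ hpy (hBn.pow (2 * q)) (BM.const (a ^ (2 * q))) (fun x => ?_) 0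
  · rwa [EsR_const 𝔟 hG hθ0 hθ hpy] at h
  · have h1 := abs_le_abs_atanhL (nu_lt 𝔟 hG hθ0 hθ hpy 0 x)
    rw [atanhL_nuR_zero 𝔟 hG hθ0 hθ hpy] at h1
    have h2 := h1.trans (hh (x y))
    rw [pow_mul, pow_mul, ← sq_abs (nuR G 𝔟 θ 0 p y x)]
    exact pow_le_pow_left₀ (sq_nonneg _) (pow_le_pow_left₀ (abs_nonneg _) h2 2) q

omit hG hθ0 hθ in
theorem D_tau_le (hG : RegTree G D) (hθ0 : 0 ≤ θ) (hθ : (D : ℝ) * θ ^ 2 ≤ 1) {q : ℕ} (hq : 3 ≤ q) :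
    (D : ℝ) * (5 / 4 * θ) ^ (2 * q) ≤ 15625 / 16384 := by
  have h1 : (5 / 4 * θ) ^ (2 * q) ≤ (5 / 4 * θ) ^ 6 :=
    pow_le_pow_of_le_one (by positivity) (tau_le_one hG hθ0 hθ) (by omega)
  have hD : (0 : ℝ) ≤ D := by positivity
  have h2 := mul_le_mul_of_nonneg_left h1 hD
  have h3 : θ ^ 2 ≤ 1 / 2 := theta_sq_le hG hθ
  have h4 : (θ ^ 2) ^ 2 ≤ 1 / 4 := by nlinarith [sq_nonneg θ]
  have h5 : (D : ℝ) * θ ^ 2 * (θ ^ 2) ^ 2 ≤ 1 * (1 / 4) := by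
    apply mul_le_mul hθ h4 (by positivity) (by norm_num)
  have h6 : (D : ℝ) * (5 / 4 * θ) ^ 6 = (15625 / 4096) * ((D : ℝ) * θ ^ 2 * (θ ^ 2) ^ 2) := by ring
  rw [h6] at h2
  nlinarith

/-- The induction on the depth. -/
theorem moment_all (q : ℕ) (hq : 3 ≤ q) {a K : ℝ} (ha0 : 0 ≤ a) (ha1 : a ≤ 1) (hK : 1 ≤ K)
    (haL : Lt K q D * a ≤ 23 / 1000) (hh : ∀ e, |hOf 𝔟 e| ≤ a)
    (hlow : ∀ (p y : V), G.Adj p y → ∀ R k, k < q →
      EsR G 𝔟 θ R p y (fun x => nuR G 𝔟 θ R p y x ^ (2 * k)) ≤ K * a ^ k) (R : ℕ) :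
    ∀ {p y : V}, G.Adj p y → EsR G 𝔟 θ R p y (fun x => nuR G 𝔟 θ R p y x ^ (2 * q)) ≤
      (50 * (1 + 2 * Lt K q D)) * a ^ q := by
  have hLn := Lt_nonneg (K₂ := K) (by linarith) q D
  set L := Lt K q D with hL
  set C := 50 * (1 + 2 * L) with hC
  have hA0 := pow_nonneg ha0 q
  have hA1 : a ^ q ≤ 1 := pow_le_one₀ ha0 ha1
  have hC1 : 1 ≤ C := by rw [hC]; nlinarith
  induction R with
  | zero =>
    intro p y hpy
    refine (moment_zero 𝔟 hG hθ0 hθ hpy q hh).trans ?_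
    have : a ^ (2 * q) ≤ a ^ q := pow_le_pow_of_le_one ha0 ha1 (by omega)
    nlinarith
  | succ R ih =>
    intro p y hpy
    have hBd0 : 0 ≤ C * a ^ q := by positivity
    have h1 := moment_step 𝔟 hG hθ0 hθ hpy R q (by omega) ha0 ha1 hK hh hBd0
      (fun z hz k hk => hlow y z (mem_ch.mp hz).1 R k hk)
      (fun z hz => ih (mem_ch.mp hz).1)
    refine h1.trans ?_
    have hd := D_tau_le hG hθ0 hθ hq
    rw [← hL]
    have e1 : a ^ (2 * q) = a ^ q * a ^ q := by rw [two_mul, pow_add]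
    rw [e1]
    set A := a ^ q with hA
    have h2 : (D : ℝ) * ((5 / 4 * θ) ^ (2 * q) * (C * A)) ≤ 15625 / 16384 * C * A := by
      have := mul_le_mul_of_nonneg_right hd hBd0
      calc _ = (D : ℝ) * (5 / 4 * θ) ^ (2 * q) * (C * A) := by ring
        _ ≤ _ := this
        _ = _ := by ring
    have h3 : L * (a * (C * A + A) + A) ≤ (23 / 1000) * (C * A + A) + L * A := by
      have := mul_le_mul_of_nonneg_right haL (by positivity : 0 ≤ C * A + A)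
      nlinarith
    have h4 : A * A ≤ A := by nlinarith
    have h5 : (1 + 23 / 1000 + L) * A ≤ (1 - 15625 / 16384 - 23 / 1000) * C * A := by
      apply mul_le_mul_of_nonneg_right _ hA0
      rw [hC]
      nlinarith
    nlinarith

end Hyp3

/-- The uniform statement. -/
theorem nu_moment_unif (D : ℕ) (q : ℕ) : ∃ K a₀ : ℝ, 1 ≤ K ∧ 0 < a₀ ∧ a₀ ≤ 1 ∧
    ∀ {V : Type u} {G : SimpleGraph V} [G.LocallyFinite] (_ : RegTree G D) {E : Type v} [MeasurableSpace E]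
      {κ : Measure E} [IsProbabilityMeasure κ] (𝔟 : BlockData κ) {θ a : ℝ} (_ : 0 ≤ θ)
      (_ : (D : ℝ) * θ ^ 2 ≤ 1) (_ : 0 ≤ a) (_ : a ≤ a₀)
      (_ : ∀ e, |Real.log (𝔟.wp e / 𝔟.wm e)| ≤ 2 * a) (_ : 𝔟.kl ≤ a ^ 2)
      {p y : V} (_ : G.Adj p y) (R k : ℕ), k < q + 3 →
      EsR G 𝔟 θ R p y (fun x => nuR G 𝔟 θ R p y x ^ (2 * k)) ≤ K * a ^ k := by
  induction q with
  | zero =>
    refine ⟨3, 1, by norm_num, by norm_num, le_rfl, ?_⟩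
    intro V G _ hG E _ κ _ 𝔟 θ a hθ0 hθ ha0 ha1 hh hkl p y hpy R k hk
    have h4 := nu4_aux 𝔟 hG hθ0 hθ hpy R
    have hBn := BM_nu 𝔟 hG hθ0 hθ hpy R
    obtain rfl | rfl | rfl : k = 0 ∨ k = 1 ∨ k = 2 := by omega
    · simp only [mul_zero, pow_zero, mul_one]
      rw [EsR_const 𝔟 hG hθ0 hθ hpy]
      norm_num
    · -- second moment
      have key : ∀ t : ℝ, 0 < t → EsR G 𝔟 θ R p y (fun x => nuR G 𝔟 θ R p y x ^ 2) ≤
          3 * a ^ 2 / (2 * t) + t / 2 := by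
        intro t ht
        have hle := EsR_mono 𝔟 hG hθ0 hθ hpy (hBn.pow 2)
          (((BM.const (1 / (2 * t))).mul (hBn.pow 4)).add (BM.const (t / 2))) (fun x => ?_) R
        · rw [EsR_add 𝔟 ((BM.const (1 / (2 * t))).mul (hBn.pow 4)) (BM.const (t / 2)), EsR_const_mul,
            EsR_const 𝔟 hG hθ0 hθ hpy] at hle
          refine hle.trans ?_
          have h5 : EsR G 𝔟 θ R p y (fun x => nuR G 𝔟 θ R p y x ^ 4) ≤ 3 * a ^ 2 := by linarith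
          have h6 : 1 / (2 * t) * EsR G 𝔟 θ R p y (fun x => nuR G 𝔟 θ R p y x ^ 4) ≤
              1 / (2 * t) * (3 * a ^ 2) := mul_le_mul_of_nonneg_left h5 (by positivity)
          have h7 : 1 / (2 * t) * (3 * a ^ 2) = 3 * a ^ 2 / (2 * t) := by ring
          linarith
        · have h8 : 1 / (2 * t) * nuR G 𝔟 θ R p y x ^ 4 + t / 2 - nuR G 𝔟 θ R p y x ^ 2 =
              (nuR G 𝔟 θ R p y x ^ 2 - t) ^ 2 / (2 * t) := by
            field_simp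
            ring
          have h9 : 0 ≤ (nuR G 𝔟 θ R p y x ^ 2 - t) ^ 2 / (2 * t) := by positivity
          linarith
      have h10 : EsR G 𝔟 θ R p y (fun x => nuR G 𝔟 θ R p y x ^ 2) ≤ 3 * a := by
        rcases ha0.eq_or_lt with h0 | h0
        · subst h0
          have h11 := moment_nonneg 𝔟 hG hθ0 hθ hpy R 1
          simp only [mul_one] at h11
          by_contra hc
          push Not at hc
          have hpos : 0 < EsR G 𝔟 θ R p y (fun x => nuR G 𝔟 θ R p y x ^ 2) := by simpa using hc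
          have h12 := key _ hpos
          norm_num at h12
          linarith
        · have h11 := key a h0
          have h12 : 3 * a ^ 2 / (2 * a) = 3 / 2 * a := by field_simp
          rw [h12] at h11
          linarith
      simpa using h10
    · simp only [Nat.reduceMul]
      nlinarith
  | succ q ih =>
    obtain ⟨K, a₀, hK, ha₀, ha₁, hmain⟩ := ih
    have hLn := Lt_nonneg (K₂ := K) (by linarith) (q + 3) D
    set L := Lt K (q + 3) D with hL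
    refine ⟨max K (50 * (1 + 2 * L)), min a₀ (23 / 1000 / (L + 1)), le_max_of_le_left hK, ?_, ?_, ?_⟩
    · exact lt_min ha₀ (by positivity)
    · exact (min_le_left _ _).trans ha₁
    intro V G _ hG E _ κ _ 𝔟 θ a hθ0 hθ ha0 ha1 hh hkl p y hpy R k hk
    have ha2 : a ≤ a₀ := ha1.trans (min_le_left _ _)
    have ha3 : a ≤ 23 / 1000 / (L + 1) := ha1.trans (min_le_right _ _)
    have ha4 : a ≤ 1 := ha2.trans ‹a₀ ≤ 1›
    have hLa : L * a ≤ 23 / 1000 := by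
      rw [le_div_iff₀ (by positivity)] at ha3
      nlinarith
    have hhO : ∀ e, |hOf 𝔟 e| ≤ a := by
      intro e
      rw [hOf, abs_mul]
      have := hh e
      rw [abs_of_pos (by norm_num : (0 : ℝ) < 1 / 2)]
      linarith
    have hApos := pow_nonneg ha0 k
    by_cases hkq : k < q + 3
    · exact (hmain hG 𝔟 hθ0 hθ ha0 ha2 hh hkl hpy R k hkq).trans
        (mul_le_mul_of_nonneg_right (le_max_left _ _) hApos)
    · have hk3 : k = q + 3 := by omega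
      subst hk3
      have := moment_all 𝔟 hG hθ0 hθ (q + 3) (by omega) ha0 ha4 hK hLa hhO
        (fun p y hpy R k hk => hmain hG 𝔟 hθ0 hθ ha0 ha2 hh hkl hpy R k hk) R hpy
      exact this.trans (mul_le_mul_of_nonneg_right (le_max_right _ _) hApos)

end Mom

end SM

open MeasureTheory
open scoped Classical

/-- (J7) all moments (same statement as `nu_moment` of Static.lean). -/
theorem nu_moment_proved (D q : ℕ) : ∃ C a₀ : ℝ, 0 < C ∧ 0 < a₀ ∧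
    ∀ {V : Type u} {G : SimpleGraph V} [G.LocallyFinite] (_ : RegTree G D) {E : Type v} [MeasurableSpace E]
      {κ : Measure E} [IsProbabilityMeasure κ] (𝔟 : BlockData κ) {θ a : ℝ} (_ : 0 ≤ θ)
      (_ : (D : ℝ) * θ ^ 2 ≤ 1) (_ : 0 ≤ a) (_ : a ≤ a₀)
      (_ : ∀ e, |Real.log (𝔟.wp e / 𝔟.wm e)| ≤ 2 * a) (_ : 𝔟.kl ≤ a ^ 2)
      {p y : V} (_ : G.Adj p y) (R : ℕ),
      EsR G 𝔟 θ R p y (fun x => nuR G 𝔟 θ R p y x ^ (2 * q)) ≤ C * a ^ q := by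
  obtain ⟨K, a₀, hK, ha₀, _, h⟩ := SM.nu_moment_unif.{u, v} D q
  refine ⟨K, a₀, by linarith, ha₀, ?_⟩
  intro V G _ hG E _ κ _ 𝔟 θ a hθ0 hθ ha0 ha1 hh hkl p y hpy R
  exact h hG 𝔟 hθ0 hθ ha0 ha1 hh hkl hpy R q (by omega)

end Crest.Agent.Lib.IsingFIID
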