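/-
S0241, Mod K: Hoeffding decomposition on an infinite product space, done with explicit partial integrals.
General: `V` any type.  Bounded measurable functions only.
-/
import Mathlib

set_option autoImplicit false
set_option linter.unusedSectionVars false
universe u v

namespace Crest.Agent.Lib.IsingFIID.Hoeffding

open MeasureTheory Finset Filter Topology
open scoped Classical

variable {V : Type u} {E : Type v} [MeasurableSpace E] (κ : Measure E) [IsProbabilityMeasure κ]

/-- `mix S x x'` agrees with `x` on `S` and with `x'` elsewhere. -/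
noncomputable def mix (S : Finset V) (x x' : V → E) : V → E := fun v => if v ∈ S then x v else x' v

theorem measurable_mix (S : Finset V) :
    Measurable (fun p : (V → E) × (V → E) => mix S p.1 p.2) := by
  refine measurable_pi_iff.2 fun v => ?_
  by_cases hv : v ∈ S
  · simp only [mix, hv, if_true]
    exact (measurable_pi_apply v).comp measurable_fst
  · simp only [mix, hv, if_false]
    exact (measurable_pi_apply v).comp measurable_snd

@[simp] theorem mix_empty (x x' : V → E) : mix ∅ x x' = x' := by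
  ext v; simp [mix]

theorem mix_mix_left (S : Finset V) (x x' x'' : V → E) : mix S (mix S x x') x'' = mix S x x'' := by
  ext v; by_cases hv : v ∈ S <;> simp [mix, hv]

theorem mix_mix_eq (S T : Finset V) (x x' x'' : V → E) :
    mix T (mix S x x') x'' = mix (S ∩ T) x (mix T x' x'') := by
  ext v; by_cases hv : v ∈ S <;> by_cases hw : v ∈ T <;> simp [mix, hv, hw]

theorem map_mix (S : Finset V) :
    ((Measure.infinitePi fun _ : V => κ).prod (Measure.infinitePi fun _ : V => κ)).map
      (fun p : (V → E) × (V → E) => mix S p.1 p.2) = Measure.infinitePi fun _ : V => κ := by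
  refine Measure.eq_infinitePi _ fun s t ht => ?_
  have hbox : MeasurableSet (Set.pi (s : Set V) t) :=
    MeasurableSet.pi (Finset.countable_toSet s) fun i _ => ht i
  rw [Measure.map_apply (measurable_mix S) hbox]
  have hpre : (fun p : (V → E) × (V → E) => mix S p.1 p.2) ⁻¹' (Set.pi (s : Set V) t) =
      (Set.pi ((s ∩ S : Finset V) : Set V) t) ×ˢ (Set.pi ((s \ S : Finset V) : Set V) t) := by
    ext ⟨x, x'⟩
    simp only [Set.mem_preimage, Set.mem_pi, Set.mem_prod, Finset.mem_coe, Finset.mem_inter,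
      Finset.mem_sdiff, mix]
    constructor
    · intro h
      refine ⟨fun i hi => ?_, fun i hi => ?_⟩
      · simpa [hi.2] using h i hi.1
      · simpa [hi.2] using h i hi.1
    · rintro ⟨h₁, h₂⟩ i hi
      by_cases hiS : i ∈ S
      · simpa [hiS] using h₁ i ⟨hi, hiS⟩
      · simpa [hiS] using h₂ i ⟨hi, hiS⟩
  rw [hpre, Measure.prod_prod, Measure.infinitePi_pi _ (fun i _ => ht i),
    Measure.infinitePi_pi _ (fun i _ => ht i)]
  rw [← Finset.prod_union (Finset.disjoint_sdiff_inter s S).symm,
    Finset.union_comm, Finset.sdiff_union_inter]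

/-- Integral identity from `map_mix`. -/
theorem integral_mix (S : Finset V) {f : (V → E) → ℝ}
    (hf : Integrable f (Measure.infinitePi fun _ : V => κ)) :
    ∫ x, ∫ x', f (mix S x x') ∂(Measure.infinitePi fun _ : V => κ)
        ∂(Measure.infinitePi fun _ : V => κ) =
      ∫ x, f x ∂(Measure.infinitePi fun _ : V => κ) := by
  have hm := measurable_mix (E := E) S
  have hmap := map_mix κ S
  have hf' : Integrable f (((Measure.infinitePi fun _ : V => κ).prod
      (Measure.infinitePi fun _ : V => κ)).map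
      (fun p : (V → E) × (V → E) => mix S p.1 p.2)) := by rw [hmap]; exact hf
  conv_rhs => rw [← hmap]
  rw [integral_map hm.aemeasurable hf'.aestronglyMeasurable]
  rw [integral_prod]
  exact (integrable_map_measure hf'.aestronglyMeasurable hm.aemeasurable).1 hf'

/-- bounded measurable functions on the product space -/
structure BM (f : (V → E) → ℝ) : Prop where
  meas : Measurable f
  bdd : ∃ C : ℝ, ∀ x, |f x| ≤ C

namespace BM
variable {f g : (V → E) → ℝ}

theorem integrable (hf : BM f) (ν : Measure (V → E)) [IsFiniteMeasure ν] : Integrable f ν := by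
  obtain ⟨C, hC⟩ := hf.bdd
  exact Integrable.of_bound hf.meas.aestronglyMeasurable C (Eventually.of_forall fun x => by
    simpa using hC x)

theorem const (c : ℝ) : BM (fun _ : V → E => c) := ⟨measurable_const, ⟨|c|, fun _ => le_rfl⟩⟩

theorem add (hf : BM f) (hg : BM g) : BM (fun x => f x + g x) := by
  obtain ⟨C, hC⟩ := hf.bdd
  obtain ⟨C', hC'⟩ := hg.bdd
  exact ⟨hf.meas.add hg.meas, C + C', fun x => (abs_add_le _ _).trans (add_le_add (hC x) (hC' x))⟩

theorem mul (hf : BM f) (hg : BM g) : BM (fun x => f x * g x) := by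
  obtain ⟨C, hC⟩ := hf.bdd
  obtain ⟨C', hC'⟩ := hg.bdd
  refine ⟨hf.meas.mul hg.meas, C * C', fun x => ?_⟩
  rw [abs_mul]
  exact mul_le_mul (hC x) (hC' x) (abs_nonneg _) ((abs_nonneg _).trans (hC x))

theorem const_mul (hf : BM f) (c : ℝ) : BM (fun x => c * f x) := (const c).mul hf

theorem neg (hf : BM f) : BM (fun x => - f x) := by
  simpa using hf.const_mul (-1)

theorem sub (hf : BM f) (hg : BM g) : BM (fun x => f x - g x) := by
  simpa [sub_eq_add_neg] using hf.add hg.neg

theorem finset_sum {ι : Type*} (s : Finset ι) {F : ι → (V → E) → ℝ} (hF : ∀ i ∈ s, BM (F i)) :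
    BM (fun x => ∑ i ∈ s, F i x) := by
  induction s using Finset.induction_on with
  | empty => simpa using const 0
  | insert a s ha ih =>
    simp only [Finset.sum_insert ha]
    exact (hF a (Finset.mem_insert_self _ _)).add
      (ih fun i hi => hF i (Finset.mem_insert_of_mem hi))

theorem comp (hf : BM f) {T : (V → E) → (V → E)} (hT : Measurable T) : BM (fun x => f (T x)) := by
  obtain ⟨C, hC⟩ := hf.bdd
  exact ⟨hf.meas.comp hT, C, fun x => hC _⟩

theorem indicator {B : Set (V → E)} (hB : MeasurableSet B) :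
    BM (B.indicator (fun _ => (1 : ℝ))) := by
  refine ⟨measurable_const.indicator hB, 1, fun x => ?_⟩
  by_cases hx : x ∈ B <;> simp [hx]

end BM

local notation "μ" => Measure.infinitePi (fun _ : V => κ)

/-- Partial integral: integrates out the coordinates outside of `S`. -/
noncomputable def EE (S : Finset V) (f : (V → E) → ℝ) (x : V → E) : ℝ := ∫ x', f (mix S x x') ∂μ

theorem integrable_mix_right {f : (V → E) → ℝ} (hf : BM f) (S : Finset V) (x : V → E) :
    Integrable (fun x' => f (mix S x x')) μ := by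
  have hm : Measurable (fun x' : V → E => mix S x x') :=
    (measurable_mix S).comp (measurable_const.prodMk measurable_id)
  exact (hf.comp hm).integrable _

theorem BM.ee {f : (V → E) → ℝ} (hf : BM f) (S : Finset V) : BM (EE κ S f) := by
  obtain ⟨C, hC⟩ := hf.bdd
  refine ⟨?_, C, fun x => ?_⟩
  · have h : StronglyMeasurable (fun p : (V → E) × (V → E) => f (mix S p.1 p.2)) :=
      (hf.meas.comp (measurable_mix S)).stronglyMeasurable
    exact h.integral_prod_right'.measurable
  · have : ‖∫ x', f (mix S x x') ∂μ‖ ≤ C * (μ).real Set.univ :=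
      norm_integral_le_of_norm_le_const (Eventually.of_forall fun x' => by simpa using hC _)
    simpa [Hoeffding.EE] using this

/-- `E_S` of a function: the value only depends on the coordinates in `S`. -/
theorem EE_mix (S : Finset V) (f : (V → E) → ℝ) (x x'' : V → E) :
    EE κ S f (mix S x x'') = EE κ S f x := by
  simp only [EE, mix_mix_left]

/-- `E_S E_T = E_{S ∩ T}` pointwise. -/
theorem EE_EE {f : (V → E) → ℝ} (hf : BM f) (S T : Finset V) (x : V → E) :
    EE κ S (EE κ T f) x = EE κ (S ∩ T) f x := by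
  simp only [EE]
  simp_rw [mix_mix_eq]
  have := integral_mix κ T (f := fun y => f (mix (S ∩ T) x y))
    (integrable_mix_right κ hf (S ∩ T) x)
  exact this

/-- inner product -/
noncomputable def ip (f g : (V → E) → ℝ) : ℝ := ∫ x, f x * g x ∂μ

theorem ip_comm (f g : (V → E) → ℝ) : ip κ f g = ip κ g f := by
  simp only [ip, mul_comm]

theorem ip_EE_left {f g : (V → E) → ℝ} (hf : BM f) (hg : BM g) (S : Finset V) :
    ip κ (EE κ S f) g = ip κ (EE κ S f) (EE κ S g) := by
  have hEf := hf.ee κ S
  have h := integral_mix κ S (f := fun x => EE κ S f x * g x) ((hEf.mul hg).integrable _)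
  simp only [ip]
  rw [← h]
  refine integral_congr_ae (Eventually.of_forall fun x => ?_)
  simp only [EE_mix]
  rw [integral_const_mul]
  rfl

theorem ip_EE_comm {f g : (V → E) → ℝ} (hf : BM f) (hg : BM g) (S : Finset V) :
    ip κ (EE κ S f) g = ip κ f (EE κ S g) := by
  rw [ip_EE_left κ hf hg, ip_comm κ f, ip_EE_left κ hg hf, ip_comm]

theorem ip_add_left {f f' g : (V → E) → ℝ} (hf : BM f) (hf' : BM f') (hg : BM g) :
    ip κ (fun x => f x + f' x) g = ip κ f g + ip κ f' g := by
  simp only [ip, add_mul]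
  exact integral_add ((hf.mul hg).integrable _) ((hf'.mul hg).integrable _)

theorem ip_const_mul_left (c : ℝ) (f g : (V → E) → ℝ) :
    ip κ (fun x => c * f x) g = c * ip κ f g := by
  simp only [ip, mul_assoc]
  exact integral_const_mul _ _

theorem ip_sum_left {ι : Type*} (s : Finset ι) {F : ι → (V → E) → ℝ} (hF : ∀ i ∈ s, BM (F i))
    {g : (V → E) → ℝ} (hg : BM g) :
    ip κ (fun x => ∑ i ∈ s, F i x) g = ∑ i ∈ s, ip κ (F i) g := by
  simp only [ip, Finset.sum_mul]
  exact integral_finsetSum _ fun i hi => ((hF i hi).mul hg).integrable _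

theorem ip_sum_right {ι : Type*} (s : Finset ι) {F : ι → (V → E) → ℝ} (hF : ∀ i ∈ s, BM (F i))
    {g : (V → E) → ℝ} (hg : BM g) :
    ip κ g (fun x => ∑ i ∈ s, F i x) = ∑ i ∈ s, ip κ g (F i) := by
  rw [ip_comm, ip_sum_left κ s hF hg]
  exact Finset.sum_congr rfl fun i _ => ip_comm _ _ _

/-! ### Alternating sums over subsets -/

/-- The alternating sum (Möbius transform on the subset lattice). -/
noncomputable def MM {α : Type*} [AddCommGroup α] [Module ℝ α] (A : Finset V) (G : Finset V → α) : α :=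
  ∑ B ∈ A.powerset, ((-1 : ℝ) ^ (A \ B).card) • G B

theorem MM_insert {α : Type*} [AddCommGroup α] [Module ℝ α] {A : Finset V} {r : V} (hr : r ∉ A)
    (G : Finset V → α) :
    MM (insert r A) G = MM A (fun B => G (insert r B)) - MM A G := by
  unfold MM
  rw [Finset.sum_powerset_insert hr, sub_eq_add_neg, add_comm, ← Finset.sum_neg_distrib]
  congr 1
  · refine Finset.sum_congr rfl fun B hB => ?_
    have hB' : B ⊆ A := Finset.mem_powerset.1 hB
    have : (insert r A \ insert r B) = A \ B := by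
      ext v; by_cases hv : v = r
      · subst hv; simp [hr]
      · simp [hv]
    rw [this]
  · refine Finset.sum_congr rfl fun B hB => ?_
    have hB' : B ⊆ A := Finset.mem_powerset.1 hB
    have hrB : r ∉ B := fun h => hr (hB' h)
    have : (insert r A \ B) = insert r (A \ B) := by
      ext v; by_cases hv : v = r
      · subst hv; simp [hrB]
      · simp [hv]
    rw [this, Finset.card_insert_of_notMem (by simp [hr]), pow_succ]
    simp

theorem MM_eq_zero {α : Type*} [AddCommGroup α] [Module ℝ α] {A : Finset V} {r : V} (hr : r ∈ A)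
    {G : Finset V → α} (hG : ∀ B, G (insert r B) = G B) : MM A G = 0 := by
  have h : insert r (A.erase r) = A := Finset.insert_erase hr
  rw [← h, MM_insert (by simp)]
  simp [hG]

theorem sum_MM {α : Type*} [AddCommGroup α] [Module ℝ α] (S : Finset V) (G : Finset V → α) :
    ∑ A ∈ S.powerset, MM A G = G S := by
  induction S using Finset.induction_on generalizing G with
  | empty => simp [MM]
  | insert r S hr ih =>
    rw [Finset.sum_powerset_insert hr]
    have : ∀ A ∈ S.powerset, MM (insert r A) G = MM A (fun B => G (insert r B)) - MM A G := by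
      intro A hA
      exact MM_insert (fun h => hr (Finset.mem_powerset.1 hA h)) G
    rw [Finset.sum_congr rfl this, Finset.sum_sub_distrib, ih, ih]
    abel

/-! ### Hoeffding components -/

/-- Hoeffding component of `f` at `A`. -/
noncomputable def HH (A : Finset V) (f : (V → E) → ℝ) (x : V → E) : ℝ :=
  MM A (fun B => EE κ B f x)

theorem HH_eq (A : Finset V) (f : (V → E) → ℝ) (x : V → E) :
    HH κ A f x = ∑ B ∈ A.powerset, (-1 : ℝ) ^ (A \ B).card * EE κ B f x := by
  simp [HH, MM]

theorem BM.hh {f : (V → E) → ℝ} (hf : BM f) (A : Finset V) : BM (HH κ A f) := by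
  have : HH κ A f = fun x => ∑ B ∈ A.powerset, (-1 : ℝ) ^ (A \ B).card * EE κ B f x := by
    ext x; exact HH_eq κ A f x
  rw [this]
  exact BM.finset_sum _ fun B _ => (hf.ee κ B).const_mul _

theorem sum_HH (S : Finset V) (f : (V → E) → ℝ) (x : V → E) :
    ∑ A ∈ S.powerset, HH κ A f x = EE κ S f x :=
  sum_MM S (fun B => EE κ B f x)

theorem EE_HH {f : (V → E) → ℝ} (hf : BM f) (T A : Finset V) (x : V → E) :
    EE κ T (HH κ A f) x = MM A (fun B => EE κ (T ∩ B) f x) := by
  have hsum : ∀ y, HH κ A f y = ∑ B ∈ A.powerset, (-1 : ℝ) ^ (A \ B).card * EE κ B f y :=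
    HH_eq κ A f
  simp only [EE, hsum, MM, smul_eq_mul]
  rw [integral_finsetSum]
  · refine Finset.sum_congr rfl fun B _ => ?_
    rw [integral_const_mul]
    congr 1
    exact EE_EE κ hf T B x
  · intro B _
    exact ((hf.ee κ B).const_mul _ |>.comp
      ((measurable_mix T).comp (measurable_const.prodMk measurable_id))).integrable _

theorem EE_HH_self {f : (V → E) → ℝ} (hf : BM f) {T A : Finset V} (h : A ⊆ T) (x : V → E) :
    EE κ T (HH κ A f) x = HH κ A f x := by
  rw [EE_HH κ hf]
  unfold MM HH MM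
  refine Finset.sum_congr rfl fun B hB => ?_
  simp only [Finset.inter_eq_right.2 ((Finset.mem_powerset.1 hB).trans h)]

theorem EE_HH_zero {f : (V → E) → ℝ} (hf : BM f) {T A : Finset V} (h : ¬ A ⊆ T) (x : V → E) :
    EE κ T (HH κ A f) x = 0 := by
  rw [EE_HH κ hf]
  obtain ⟨r, hrA, hrT⟩ := Finset.not_subset.1 h
  refine MM_eq_zero hrA fun B => ?_
  congr 1
  rw [Finset.inter_insert_of_notMem hrT]

theorem ip_HH_HH_zero_aux {f g : (V → E) → ℝ} (hf : BM f) (hg : BM g) {A A' : Finset V}
    (h : ¬ A ⊆ A') : ip κ (HH κ A f) (HH κ A' g) = 0 := by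
  have h1 : HH κ A' g = EE κ A' (HH κ A' g) := by
    ext x; exact (EE_HH_self κ hg subset_rfl x).symm
  rw [h1, ← ip_EE_comm κ (hf.hh κ A) (hg.hh κ A')]
  simp only [ip]
  refine integral_eq_zero_of_ae (Eventually.of_forall fun x => ?_)
  simp [EE_HH_zero κ hf h x]

/-- Orthogonality of Hoeffding components. -/
theorem ip_HH_HH_zero {f g : (V → E) → ℝ} (hf : BM f) (hg : BM g) {A A' : Finset V}
    (h : A ≠ A') : ip κ (HH κ A f) (HH κ A' g) = 0 := by
  by_cases hs : A ⊆ A'
  · have hs' : ¬ A' ⊆ A := fun h' => h (Finset.Subset.antisymm hs h')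
    rw [ip_comm]
    exact ip_HH_HH_zero_aux κ hg hf hs'
  · exact ip_HH_HH_zero_aux κ hf hg hs

/-- Parseval on `E_S f`, `E_S g`. -/
theorem ip_EE_EE_eq_sum {f g : (V → E) → ℝ} (hf : BM f) (hg : BM g) (S : Finset V) :
    ip κ (EE κ S f) (EE κ S g) = ∑ A ∈ S.powerset, ip κ (HH κ A f) (HH κ A g) := by
  have h1 : EE κ S f = fun x => ∑ A ∈ S.powerset, HH κ A f x := by
    ext x; exact (sum_HH κ S f x).symm
  have h2 : EE κ S g = fun x => ∑ A ∈ S.powerset, HH κ A g x := by
    ext x; exact (sum_HH κ S g x).symm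
  rw [h1, h2, ip_sum_left κ _ (fun A _ => hf.hh κ A) (BM.finset_sum _ fun A _ => hg.hh κ A)]
  refine Finset.sum_congr rfl fun A _ => ?_
  rw [ip_sum_right κ _ (fun A _ => hg.hh κ A) (hf.hh κ A)]
  rw [Finset.sum_eq_single A]
  · intro B _ hB
    exact ip_HH_HH_zero κ hf hg hB.symm
  · intro hA
    exact absurd ‹_› hA

theorem ip_self_nonneg (f : (V → E) → ℝ) : 0 ≤ ip κ f f := by
  simp only [ip]
  exact integral_nonneg fun x => mul_self_nonneg _

/-- Bessel: `‖E_S f‖² ≤ ‖f‖²`. -/
theorem ip_EE_self_le {f : (V → E) → ℝ} (hf : BM f) (S : Finset V) :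
    ip κ (EE κ S f) (EE κ S f) ≤ ip κ f f := by
  have hE := hf.ee κ S
  have h0 := ip_self_nonneg κ (fun x => f x - EE κ S f x)
  have h1 : ip κ (fun x => f x - EE κ S f x) (fun x => f x - EE κ S f x) =
      ip κ f f - ip κ (EE κ S f) f - ip κ f (EE κ S f) + ip κ (EE κ S f) (EE κ S f) := by
    simp only [ip]
    have : ∀ x, (f x - EE κ S f x) * (f x - EE κ S f x) =
        f x * f x - EE κ S f x * f x - f x * EE κ S f x + EE κ S f x * EE κ S f x := by
      intro x; ring
    simp_rw [this]
    rw [integral_add, integral_sub, integral_sub]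
    · exact (hf.mul hf).integrable _
    · exact (hE.mul hf).integrable _
    · exact ((hf.mul hf).sub (hE.mul hf)).integrable _
    · exact (hf.mul hE).integrable _
    · exact (((hf.mul hf).sub (hE.mul hf)).sub (hf.mul hE)).integrable _
    · exact (hE.mul hE).integrable _
  have h2 := ip_EE_left κ hf hf S
  have h3 : ip κ f (EE κ S f) = ip κ (EE κ S f) (EE κ S f) := by rw [ip_comm, h2]
  rw [h1, h2, h3] at h0
  linarith

theorem sum_ip_HH_self_le {f : (V → E) → ℝ} (hf : BM f) (S : Finset V) :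
    ∑ A ∈ S.powerset, ip κ (HH κ A f) (HH κ A f) ≤ ip κ f f := by
  rw [← ip_EE_EE_eq_sum κ hf hf]
  exact ip_EE_self_le κ hf S

/-- Bessel for arbitrary finite collections of subsets. -/
theorem sum_ip_HH_self_le' {f : (V → E) → ℝ} (hf : BM f) (C : Finset (Finset V)) :
    ∑ A ∈ C, ip κ (HH κ A f) (HH κ A f) ≤ ip κ f f := by
  refine le_trans ?_ (sum_ip_HH_self_le κ hf (C.biUnion id))
  refine Finset.sum_le_sum_of_subset_of_nonneg ?_ fun A _ _ => ip_self_nonneg κ _
  intro A hA
  exact Finset.mem_powerset.2 (Finset.subset_biUnion_of_mem id hA)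

theorem summable_ip_HH_self {f : (V → E) → ℝ} (hf : BM f) :
    Summable fun A : Finset V => ip κ (HH κ A f) (HH κ A f) :=
  summable_of_sum_le (fun A => ip_self_nonneg κ _) (sum_ip_HH_self_le' κ hf)

/-- `2⟨f, g⟩ ≤ ρ ‖f‖² + ρ⁻¹ ‖g‖²`. -/
theorem two_mul_ip_le {f g : (V → E) → ℝ} (hf : BM f) (hg : BM g) {ρ : ℝ} (hρ : 0 < ρ) :
    2 * ip κ f g ≤ ρ * ip κ f f + ρ⁻¹ * ip κ g g := by
  have h0 : ∀ x, 2 * (f x * g x) ≤ ρ * (f x * f x) + ρ⁻¹ * (g x * g x) := by
    intro x
    have hne : ρ ≠ 0 := hρ.ne'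
    have : ρ * (f x * f x) + ρ⁻¹ * (g x * g x) - 2 * (f x * g x) =
        ρ⁻¹ * (ρ * f x - g x) ^ 2 := by
      field_simp
      ring
    have h3 : 0 ≤ ρ⁻¹ * (ρ * f x - g x) ^ 2 := by positivity
    linarith
  simp only [ip]
  rw [← integral_const_mul, ← integral_const_mul, ← integral_const_mul, ← integral_add]
  · exact integral_mono (((hf.mul hg).const_mul _).integrable _)
      ((((hf.mul hf).const_mul _).add ((hg.mul hg).const_mul _)).integrable _) h0
  · exact ((hf.mul hf).const_mul _).integrable _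
  · exact ((hg.mul hg).const_mul _).integrable _

theorem summable_ip_HH {f g : (V → E) → ℝ} (hf : BM f) (hg : BM g) :
    Summable fun A : Finset V => ip κ (HH κ A f) (HH κ A g) := by
  have h1 := summable_ip_HH_self κ hf
  have h2 := summable_ip_HH_self κ hg
  refine Summable.of_norm_bounded (g := fun A => ip κ (HH κ A f) (HH κ A f) + ip κ (HH κ A g) (HH κ A g))
    (h1.add h2) fun A => ?_
  rw [Real.norm_eq_abs, abs_le]
  have hA := hf.hh κ A
  have hB := hg.hh κ A
  have h3 := two_mul_ip_le κ hA hB one_pos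
  have h4 := two_mul_ip_le κ hA hB.neg one_pos
  have h5 : ip κ (HH κ A f) (fun x => - HH κ A g x) = - ip κ (HH κ A f) (HH κ A g) := by
    simp only [ip, mul_neg]
    exact integral_neg _
  have h6 : ip κ (fun x => - HH κ A g x) (fun x => - HH κ A g x) = ip κ (HH κ A g) (HH κ A g) := by
    simp [ip]
  rw [h5, h6] at h4
  have h7 := ip_self_nonneg κ (HH κ A f)
  have h8 := ip_self_nonneg κ (HH κ A g)
  simp only [one_mul, inv_one] at h3 h4
  constructor <;> linarith

/-! ### Convergence `E_S f → f` -/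

/-- The sigma-algebra of events depending only on the coordinates in `S`. -/
theorem EE_indicator {S : Finset V} {B : Set (V → E)}
    (hB : MeasurableSet[Filtration.piFinset (X := fun _ : V => E) S] B) (x : V → E) :
    EE κ S (B.indicator (fun _ => (1 : ℝ))) x = B.indicator (fun _ => (1 : ℝ)) x := by
  obtain ⟨B', _, rfl⟩ := hB
  have h : ∀ x', (S.restrict ⁻¹' B').indicator (fun _ => (1 : ℝ)) (mix S x x') =
      (S.restrict ⁻¹' B').indicator (fun _ => (1 : ℝ)) x := by
    intro x'
    have : S.restrict (mix S x x') = S.restrict x := by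
      ext ⟨v, hv⟩
      simp [mix, hv]
    by_cases hx : S.restrict x ∈ B'
    · rw [Set.indicator_of_mem (by simpa [this] using hx), Set.indicator_of_mem (by simpa using hx)]
    · rw [Set.indicator_of_notMem (by simpa [this] using hx),
        Set.indicator_of_notMem (by simpa using hx)]
  simp only [EE, h]
  simp

theorem measurable_EE_piFinset {f : (V → E) → ℝ} (hf : BM f) (S : Finset V) :
    Measurable[Filtration.piFinset (X := fun _ : V => E) S] (EE κ S f) := by
  obtain ⟨e₀⟩ : Nonempty E := nonempty_of_isProbabilityMeasure κ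
  let x₀ : V → E := fun _ => e₀
  let ext : (S → E) → (V → E) := fun y v => if h : v ∈ S then y ⟨v, h⟩ else x₀ v
  have hext : Measurable ext := by
    refine measurable_pi_iff.2 fun v => ?_
    by_cases h : v ∈ S
    · simp only [ext, h, dif_pos]
      exact measurable_pi_apply _
    · simp only [ext, h, dif_neg, not_false_eq_true]
      exact measurable_const
  have heq : EE κ S f = (EE κ S f ∘ ext) ∘ S.restrict := by
    ext x
    have : ext (S.restrict x) = mix S x x₀ := by
      ext v
      by_cases h : v ∈ S <;> simp [ext, mix, h]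
    simp only [Function.comp, this, EE_mix]
  rw [heq]
  exact ((hf.ee κ S).meas.comp hext).comp (comap_measurable _)

theorem EE_ae_eq_condExp {f : (V → E) → ℝ} (hf : BM f) (S : Finset V) :
    EE κ S f =ᵐ[μ] (μ)[f | Filtration.piFinset (X := fun _ : V => E) S] := by
  have hle := (Filtration.piFinset (X := fun _ : V => E)).le S
  refine ae_eq_condExp_of_forall_setIntegral_eq hle (hf.integrable _) ?_ ?_ ?_
  · intro s _ _
    exact ((hf.ee κ S).integrable _).integrableOn
  · intro s hs _
    have hs' : MeasurableSet s := hle s hs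
    have hI := BM.indicator (E := E) (V := V) hs'
    have key := ip_EE_comm κ hI hf S
    have h1 : EE κ S (s.indicator fun _ => (1 : ℝ)) = s.indicator fun _ => (1 : ℝ) := by
      ext x; exact EE_indicator κ hs x
    rw [h1] at key
    have h2 : ∀ h : (V → E) → ℝ, ip κ (s.indicator fun _ => (1 : ℝ)) h = ∫ x in s, h x ∂μ := by
      intro h
      rw [← integral_indicator hs']
      simp only [ip]
      congr 1
      ext x
      by_cases hx : x ∈ s <;> simp [hx]
    have h3 : ip κ f (EE κ S (s.indicator fun _ => (1 : ℝ))) = ip κ (EE κ S f) (s.indicator fun _ => (1 : ℝ)) :=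
      (ip_EE_comm κ hf hI S).symm
    rw [← h2, ← h2, ip_comm, ip_EE_comm κ hf hI S, h1, ip_comm]
  · exact (measurable_EE_piFinset κ hf S).stronglyMeasurable.aestronglyMeasurable

/-- L¹ convergence along an exhausting increasing sequence of finite sets. -/
theorem tendsto_eLpNorm_EE {f : (V → E) → ℝ} (hf : BM f) (S : ℕ → Finset V) (hS : Monotone S)
    (hexh : ∀ v, ∃ n, v ∈ S n) :
    Tendsto (fun n => eLpNorm (EE κ (S n) f - f) 1 μ) atTop (𝓝 0) := by
  let ℱ : Filtration ℕ (MeasurableSpace.pi : MeasurableSpace (V → E)) :=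
    { seq := fun n => Filtration.piFinset (X := fun _ : V => E) (S n)
      mono' := fun i j hij => (Filtration.piFinset (X := fun _ : V => E)).mono (hS hij)
      le' := fun n => (Filtration.piFinset (X := fun _ : V => E)).le (S n) }
  have hsup : (MeasurableSpace.pi : MeasurableSpace (V → E)) ≤ ⨆ n, ℱ n := by
    refine iSup_le fun v => ?_
    obtain ⟨n, hn⟩ := hexh v
    refine le_trans ?_ (le_iSup _ n)
    -- coordinate `v` is `S n`-measurable
    have : Measurable[ℱ n] (fun x : V → E => x v) := by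
      have h1 : (fun x : V → E => x v) = (fun y : S n → E => y ⟨v, hn⟩) ∘ (S n).restrict := by
        ext x; rfl
      rw [h1]
      exact (measurable_pi_apply _).comp (comap_measurable _)
    exact this.comap_le
  have h := (hf.integrable (μ)).tendsto_eLpNorm_condExp (ℱ := ℱ)
    ((hf.meas.mono hsup le_rfl).stronglyMeasurable)
  refine h.congr fun n => ?_
  refine eLpNorm_congr_ae ?_
  exact ((EE_ae_eq_condExp κ hf (S n)).symm).sub (ae_eq_refl _)

theorem tendsto_ip_EE {f g : (V → E) → ℝ} (hf : BM f) (hg : BM g) (S : ℕ → Finset V)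
    (hS : Monotone S) (hexh : ∀ v, ∃ n, v ∈ S n) :
    Tendsto (fun n => ip κ (EE κ (S n) f) g) atTop (𝓝 (ip κ f g)) := by
  obtain ⟨C, hC⟩ := hg.bdd
  have hC0 : 0 ≤ C := (abs_nonneg _).trans (hC (fun _ => (nonempty_of_isProbabilityMeasure κ).some))
  refine tendsto_integral_of_L1' _ (((hf.mul hg).integrable _).aestronglyMeasurable)
    (Eventually.of_forall fun n => ((hf.ee κ (S n)).mul hg).integrable _) ?_
  have h := tendsto_eLpNorm_EE κ hf S hS hexh
  have h2 := ENNReal.Tendsto.const_mul (a := ENNReal.ofReal C) h (Or.inr ENNReal.ofReal_ne_top)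
  rw [mul_zero] at h2
  refine tendsto_of_tendsto_of_tendsto_of_le_of_le tendsto_const_nhds h2
    (fun _ => bot_le) fun n => ?_
  refine eLpNorm_le_mul_eLpNorm_of_ae_le_mul (Eventually.of_forall fun x => ?_) 1
  simp only [Pi.sub_apply, Real.norm_eq_abs]
  rw [← sub_mul, abs_mul, mul_comm]
  exact mul_le_mul_of_nonneg_right (hC x) (abs_nonneg _)

/-- Parseval for bounded measurable functions. -/
theorem hasSum_ip_HH {f g : (V → E) → ℝ} (hf : BM f) (hg : BM g) (S : ℕ → Finset V)
    (hS : Monotone S) (hexh : ∀ v, ∃ n, v ∈ S n) :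
    HasSum (fun A : Finset V => ip κ (HH κ A f) (HH κ A g)) (ip κ f g) := by
  have hsum := (summable_ip_HH κ hf hg).hasSum
  have hS' : Tendsto S atTop atTop := tendsto_atTop_finset_of_monotone hS hexh
  have hP : Tendsto (fun n => (S n).powerset) atTop atTop := by
    refine tendsto_atTop_finset_of_monotone (fun m n hmn => Finset.powerset_mono.2 (hS hmn)) ?_
    intro A
    obtain ⟨n, hn⟩ := (tendsto_atTop.1 hS' A).exists
    exact ⟨n, Finset.mem_powerset.2 hn⟩
  have h1 := hsum.comp hP
  have h2 := tendsto_ip_EE κ hf hg S hS hexh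
  have h3 : ∀ n, ip κ (EE κ (S n) f) g = ∑ A ∈ (S n).powerset, ip κ (HH κ A f) (HH κ A g) := by
    intro n
    rw [ip_EE_left κ hf hg, ip_EE_EE_eq_sum κ hf hg]
  simp only [h3] at h2
  rw [← tendsto_nhds_unique h1 h2]
  exact hsum

/-! ### Automorphism action -/

theorem map_comp_equiv (g : V ≃ V) : (μ).map (fun x : V → E => x ∘ g) = μ := by
  have hm : Measurable (fun x : V → E => x ∘ g) :=
    measurable_pi_iff.2 fun v => measurable_pi_apply (g v)
  refine Measure.eq_infinitePi _ fun s t ht => ?_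
  have hbox : MeasurableSet (Set.pi (s : Set V) t) :=
    MeasurableSet.pi (Finset.countable_toSet s) fun i _ => ht i
  rw [Measure.map_apply hm hbox]
  have hpre : (fun x : V → E => x ∘ g) ⁻¹' (Set.pi (s : Set V) t) =
      Set.pi ((s.map g.toEmbedding : Finset V) : Set V) (fun v => t (g.symm v)) := by
    ext x
    simp only [Set.mem_preimage, Set.mem_pi, Finset.coe_map, Equiv.coe_toEmbedding, Set.mem_image,
      Finset.mem_coe, forall_exists_index, and_imp, forall_apply_eq_imp_iff₂, Function.comp,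
      Equiv.symm_apply_apply]
  rw [hpre, Measure.infinitePi_pi _ (fun i _ => ht _)]
  simp

theorem integral_comp_equiv (g : V ≃ V) {f : (V → E) → ℝ} (hf : BM f) :
    ∫ x, f (x ∘ g) ∂μ = ∫ x, f x ∂μ := by
  have hm : Measurable (fun x : V → E => x ∘ g) :=
    measurable_pi_iff.2 fun v => measurable_pi_apply (g v)
  conv_rhs => rw [← map_comp_equiv κ g]
  rw [integral_map hm.aemeasurable hf.meas.aestronglyMeasurable]

theorem mix_map (g : V ≃ V) (S : Finset V) (x x' : V → E) :
    (mix (S.map g.toEmbedding) x x') ∘ g = mix S (x ∘ g) (x' ∘ g) := by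
  ext v
  by_cases hv : v ∈ S <;> simp [mix, hv]

theorem measurable_comp_equiv (g : V ≃ V) : Measurable (fun x : V → E => x ∘ g) :=
  measurable_pi_iff.2 fun v => measurable_pi_apply (g v)

theorem BM.comp_equiv {f : (V → E) → ℝ} (hf : BM f) (g : V ≃ V) : BM (fun x => f (x ∘ g)) :=
  hf.comp (measurable_comp_equiv g)

theorem EE_map {f : (V → E) → ℝ} (hf : BM f) (g : V ≃ V) (S : Finset V) (x : V → E) :
    EE κ (S.map g.toEmbedding) (fun y => f (y ∘ g)) x = EE κ S f (x ∘ g) := by
  simp only [EE, mix_map]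
  exact integral_comp_equiv κ g (f := fun y => f (mix S (x ∘ g) y))
    (hf.comp ((measurable_mix S).comp (measurable_const.prodMk measurable_id)))

theorem HH_map {f : (V → E) → ℝ} (hf : BM f) (g : V ≃ V) (A : Finset V) (x : V → E) :
    HH κ (A.map g.toEmbedding) (fun y => f (y ∘ g)) x = HH κ A f (x ∘ g) := by
  simp only [HH_eq]
  symm
  refine Finset.sum_bij' (fun C _ => C.map g.toEmbedding) (fun B _ => B.map g.symm.toEmbedding)
    ?_ ?_ ?_ ?_ ?_
  · intro C hC
    exact Finset.mem_powerset.2 (Finset.map_subset_map.2 (Finset.mem_powerset.1 hC))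
  · intro B hB
    refine Finset.mem_powerset.2 ?_
    have := Finset.map_subset_map (f := g.symm.toEmbedding).2 (Finset.mem_powerset.1 hB)
    simpa [Finset.map_map] using this
  · intro C _; simp [Finset.map_map]
  · intro B _; simp [Finset.map_map]
  · intro C _
    rw [EE_map κ hf, ← Finset.map_sdiff, Finset.card_map]

theorem ip_comp_equiv (g : V ≃ V) {f h : (V → E) → ℝ} (hf : BM f) (hh : BM h) :
    ip κ (fun x => f (x ∘ g)) (fun x => h (x ∘ g)) = ip κ f h := by
  simp only [ip]
  exact integral_comp_equiv κ g (f := fun x => f x * h x) (hf.mul hh)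

theorem ip_HH_map {f : (V → E) → ℝ} (hf : BM f) (g : V ≃ V) (A : Finset V) :
    ip κ (HH κ (A.map g.toEmbedding) (fun y => f (y ∘ g))) (HH κ (A.map g.toEmbedding) (fun y => f (y ∘ g))) =
      ip κ (HH κ A f) (HH κ A f) := by
  have h : HH κ (A.map g.toEmbedding) (fun y => f (y ∘ g)) = fun x => HH κ A f (x ∘ g) := by
    ext x; exact HH_map κ hf g A x
  rw [h]
  exact ip_comp_equiv κ g (hf.hh κ A) (hf.hh κ A)

/-! ### The Schur test -/

theorem HH_empty_eq {f : (V → E) → ℝ} (x : V → E) : HH κ ∅ f x = ∫ y, f y ∂μ := by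
  simp [HH_eq, EE]

/-- **Abstract Schur test.**  `f₀` centered; the family `f i` consists of translates of `f₀`
by the `g i`, each swapping the weights. -/
theorem schur_bound {ι : Type*} (s : Finset ι) {f₀ : (V → E) → ℝ} (hf₀ : BM f₀)
    (hcenter : ∫ x, f₀ x ∂μ = 0)
    (g : ι → V ≃ V) (φ₀ : Finset V → ℝ) (φ : ι → Finset V → ℝ)
    (hφ₀ : ∀ A, A ≠ ∅ → 0 < φ₀ A) (hφ : ∀ i ∈ s, ∀ A, A ≠ ∅ → 0 < φ i A)
    (Λ : ℝ) (hΛ : ∀ A, A ≠ ∅ → ∑ i ∈ s, φ i A ≤ Λ * φ₀ A)
    (hswap₁ : ∀ i ∈ s, ∀ A, φ i (A.map (g i).toEmbedding) = φ₀ A)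
    (hswap₂ : ∀ i ∈ s, ∀ A, φ₀ (A.map (g i).toEmbedding) = φ i A)
    (S : ℕ → Finset V) (hS : Monotone S) (hexh : ∀ v, ∃ n, v ∈ S n) :
    ∑ i ∈ s, ip κ f₀ (fun x => f₀ (x ∘ g i)) ≤ Λ * ip κ f₀ f₀ := by
  set w : Finset V → ℝ := fun A => ip κ (HH κ A f₀) (HH κ A f₀) with hw
  have hw0 : ∀ A, 0 ≤ w A := fun A => ip_self_nonneg κ _
  have hH0 : ∀ x, HH κ ∅ f₀ x = 0 := fun x => by rw [HH_empty_eq, hcenter]
  have hwempty : w ∅ = 0 := by
    simp [hw, ip, hH0]
  have hwsum : HasSum w (ip κ f₀ f₀) := hasSum_ip_HH κ hf₀ hf₀ S hS hexh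
  -- ratio
  set ρ : ι → Finset V → ℝ := fun i A => φ i A / φ₀ A with hρ
  have hρpos : ∀ i ∈ s, ∀ A, A ≠ ∅ → 0 < ρ i A := fun i hi A hA => div_pos (hφ i hi A hA) (hφ₀ A hA)
  have hρsum : ∀ A, A ≠ ∅ → ∑ i ∈ s, ρ i A ≤ Λ := by
    intro A hA
    rw [hρ]
    simp only
    rw [← Finset.sum_div, div_le_iff₀ (hφ₀ A hA)]
    exact hΛ A hA
  have hρle : ∀ i ∈ s, ∀ A, A ≠ ∅ → ρ i A ≤ Λ := by
    intro i hi A hA
    refine le_trans ?_ (hρsum A hA)
    exact Finset.single_le_sum (f := fun i => ρ i A) (fun j hj => (hρpos j hj A hA).le) hi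
  -- the quantity `X i`
  have hsummableX : ∀ i ∈ s, Summable fun A => ρ i A * w A := by
    intro i hi
    refine Summable.of_nonneg_of_le (fun A => ?_) (fun A => ?_) (hwsum.summable.mul_left Λ)
    · by_cases hA : A = ∅
      · simp [hA, hwempty]
      · exact mul_nonneg (hρpos i hi A hA).le (hw0 A)
    · by_cases hA : A = ∅
      · simp [hA, hwempty]
      · exact mul_le_mul_of_nonneg_right (hρle i hi A hA) (hw0 A)
  have hX : ∀ i ∈ s, ip κ f₀ (fun x => f₀ (x ∘ g i)) ≤ ∑' A, ρ i A * w A := by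
    intro i hi
    have hfi : BM (fun x => f₀ (x ∘ g i)) := hf₀.comp_equiv (g i)
    have hc := hasSum_ip_HH κ hf₀ hfi S hS hexh
    have hXs := (hsummableX i hi).hasSum
    -- the second term
    set Y : Finset V → ℝ := fun A => (ρ i A)⁻¹ *
      ip κ (HH κ A fun x => f₀ (x ∘ g i)) (HH κ A fun x => f₀ (x ∘ g i)) with hY
    have hYmap : ∀ A, Y ((g i).finsetCongr A) = ρ i A * w A := by
      intro A
      simp only [hY, Equiv.finsetCongr_apply]
      rw [ip_HH_map κ hf₀ (g i) A]
      simp only [hρ]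
      rw [hswap₁ i hi, hswap₂ i hi, inv_div]
    have hYs : HasSum Y (∑' A, ρ i A * w A) := by
      rw [← (g i).finsetCongr.hasSum_iff]
      have : Y ∘ (g i).finsetCongr = fun A => ρ i A * w A := by
        ext A; exact hYmap A
      rw [this]
      exact hXs
    have hpt : ∀ A, 2 * ip κ (HH κ A f₀) (HH κ A fun x => f₀ (x ∘ g i)) ≤ ρ i A * w A + Y A := by
      intro A
      by_cases hA : A = ∅
      · subst hA
        have h1 : ip κ (HH κ ∅ f₀) (HH κ ∅ fun x => f₀ (x ∘ g i)) = 0 := by
          simp [ip, hH0]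
        have h2 : Y ∅ = ρ i ∅ * w ∅ := by
          have := hYmap ∅
          simpa using this
        rw [h1, h2, hwempty]
        simp
      · exact two_mul_ip_le κ (hf₀.hh κ A) (hfi.hh κ A) (hρpos i hi A hA)
    have := hasSum_le hpt (hc.mul_left 2) (hXs.add hYs)
    linarith
  have hXsum : ∑ i ∈ s, ∑' A, ρ i A * w A ≤ Λ * ip κ f₀ f₀ := by
    have h1 : HasSum (fun A => ∑ i ∈ s, ρ i A * w A) (∑ i ∈ s, ∑' A, ρ i A * w A) :=
      hasSum_sum fun i hi => (hsummableX i hi).hasSum
    have h2 := hwsum.mul_left Λ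
    refine hasSum_le (fun A => ?_) h1 h2
    by_cases hA : A = ∅
    · simp [hA, hwempty]
    · rw [← Finset.sum_mul]
      exact mul_le_mul_of_nonneg_right (hρsum A hA) (hw0 A)
  exact (Finset.sum_le_sum hX).trans hXsum

end Crest.Agent.Lib.IsingFIID.Hoeffding
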