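/-
S0241 blueprint, Mod K (see blueprints/S0241/BLUEPRINT.md section 8): universal covariance bound for factors of iid
on the regular tree.  Independent of everything except Tree.lean.
Proof: Hoeffding decomposition over finite subsets of V + Schur test with the radial test function of the blueprint
(use Λ = D^3 - 1/2).  Statements to prove: `universal_cov`, `var_grandchildren`.
-/
import Crest.Agent.Lib.IsingFIID.Tree
import Crest.Agent.Lib.IsingFIID.Hoeffding
import Crest.Agent.Lib.IsingFIID.UniversalSchur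

set_option autoImplicit false
set_option linter.unusedSectionVars false
universe u v

namespace Crest.Agent.Lib.IsingFIID

open MeasureTheory
open scoped Classical

variable {V : Type u} {G : SimpleGraph V} [G.LocallyFinite] {D : ℕ}
variable {E : Type v} [MeasurableSpace E] (κ : Measure E) [IsProbabilityMeasure κ]

/-- A bounded measurable equivariant family on directed edges (a factor of iid on edges). -/
structure EdgeFamily (G : SimpleGraph V) (Z : V → V → (V → E) → ℝ) : Prop where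
  meas : ∀ p y, Measurable (Z p y)
  bdd : ∃ C : ℝ, ∀ p y x, |Z p y x| ≤ C
  equiv : ∀ (g : G ≃g G) (p y : V) (x : V → E), Z p y (x ∘ g) = Z (g p) (g y) x

/-- The constant of the universal bound. -/
noncomputable def psiD (D : ℕ) : ℝ := 1 - 1 / (2 * (D : ℝ) ^ 3)

/-- Automorphisms preserve the product measure. -/
theorem map_comp_aut_infinitePi (g : G ≃g G) :
    (Measure.infinitePi (fun _ : V => κ)).map (fun x : V → E => x ∘ g) =
      Measure.infinitePi (fun _ : V => κ) :=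
  Hoeffding.map_comp_equiv κ g.toEquiv

omit [G.LocallyFinite] in
theorem EdgeFamily.bm {Z : V → V → (V → E) → ℝ} (hZ : EdgeFamily G Z) (p y : V) :
    Hoeffding.BM (Z p y) := by
  obtain ⟨C, hC⟩ := hZ.bdd
  exact ⟨hZ.meas p y, C, hC p y⟩

/-- Mean of an edge family does not depend on the directed edge. -/
theorem EdgeFamily.integral_eq (hG : RegTree G D) {Z : V → V → (V → E) → ℝ} (hZ : EdgeFamily G Z)
    {p y p' y' : V} (h : G.Adj p y) (h' : G.Adj p' y') :
    ∫ x, Z p y x ∂(Measure.infinitePi fun _ : V => κ) = ∫ x, Z p' y' x ∂(Measure.infinitePi fun _ : V => κ) := by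
  obtain ⟨g, hg⟩ := hG.exists_aut_of_isNB (l := [p, y]) (l' := [p', y']) h h' rfl
  simp only [List.map_cons, List.map_nil, List.cons.injEq, and_true] at hg
  have h1 : ∀ x, Z p' y' x = Z p y (x ∘ g) := fun x => by
    rw [hZ.equiv g p y x, hg.1, hg.2]
  simp_rw [h1]
  exact (Hoeffding.integral_comp_equiv κ g.toEquiv (hZ.bm p y)).symm

omit [G.LocallyFinite] in
theorem isNB_five {z w y w' z' : V} (hp : IsNB G [z, w, y, w', z']) :
    G.Adj z w ∧ y ≠ z ∧ G.Adj w y ∧ w' ≠ w ∧ G.Adj y w' ∧ z' ≠ y ∧ G.Adj w' z' := by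
  simpa [IsNB] using hp

omit [G.LocallyFinite] in
theorem isNB_five_mk {z w y w' z' : V}
    (h : G.Adj z w ∧ y ≠ z ∧ G.Adj w y ∧ w' ≠ w ∧ G.Adj y w' ∧ z' ≠ y ∧ G.Adj w' z') :
    IsNB G [z, w, y, w', z'] := by
  simpa [IsNB] using h

omit [G.LocallyFinite] in
theorem isNB_five_reverse {z w y w' z' : V} (hp : IsNB G [z, w, y, w', z']) :
    IsNB G [z', w', y, w, z] := by
  obtain ⟨h1, h2, h3, h4, h5, h6, h7⟩ := isNB_five hp
  exact isNB_five_mk ⟨h7.symm, h6.symm, h5.symm, h4.symm, h3.symm, h2.symm, h1.symm⟩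

/-- The sequence of balls exhausts `V`. -/
theorem ball_mono (hG : RegTree G D) (o : V) : Monotone (fun n => ball G o n) := by
  intro m n hmn u hu
  rw [hG.mem_ball] at hu ⊢
  omega

theorem ball_exhaust (hG : RegTree G D) (o v : V) : ∃ n, v ∈ ball G o n :=
  ⟨G.dist o v, (hG.mem_ball _ _ _).2 le_rfl⟩

/-- The covariance along any two non-backtracking paths agree. -/
theorem cov_eq_of_isNB (hG : RegTree G D) {Z : V → V → (V → E) → ℝ} (hZ : EdgeFamily G Z)
    {z w y w' z' z₁ w₁ y₁ w₁' z₁' : V} (hp : IsNB G [z, w, y, w', z'])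
    (hp₁ : IsNB G [z₁, w₁, y₁, w₁', z₁']) (m : ℝ) :
    ∫ x, (Z w z x - m) * (Z w' z' x - m) ∂(Measure.infinitePi fun _ : V => κ) =
    ∫ x, (Z w₁ z₁ x - m) * (Z w₁' z₁' x - m) ∂(Measure.infinitePi fun _ : V => κ) := by
  obtain ⟨g, hg⟩ := hG.exists_aut_of_isNB hp hp₁ rfl
  simp only [List.map_cons, List.map_nil, List.cons.injEq, and_true] at hg
  obtain ⟨h1, h2, _, h4, h5⟩ := hg
  have hb1 := (hZ.bm w z).sub (Hoeffding.BM.const m)
  have hb2 := (hZ.bm w' z').sub (Hoeffding.BM.const m)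
  have := Hoeffding.integral_comp_equiv κ g.toEquiv (hb1.mul hb2)
  rw [← this]
  refine integral_congr_ae (Filter.Eventually.of_forall fun x => ?_)
  have e1 : Z w z (x ∘ g) = Z w₁ z₁ x := by rw [hZ.equiv g, h2, h1]
  have e2 : Z w' z' (x ∘ g) = Z w₁' z₁' x := by rw [hZ.equiv g, h4, h5]
  exact congrArg₂ (fun a b => (a - m) * (b - m)) e1 e2

/-- Equality of the variances. -/
theorem var_eq_of_adj (hG : RegTree G D) {Z : V → V → (V → E) → ℝ} (hZ : EdgeFamily G Z)
    {p y p' y' : V} (h : G.Adj p y) (h' : G.Adj p' y') (m : ℝ) :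
    ∫ x, (Z p y x - m) ^ 2 ∂(Measure.infinitePi fun _ : V => κ) =
      ∫ x, (Z p' y' x - m) ^ 2 ∂(Measure.infinitePi fun _ : V => κ) := by
  obtain ⟨g, hg⟩ := hG.exists_aut_of_isNB (l := [p, y]) (l' := [p', y']) h h' rfl
  simp only [List.map_cons, List.map_nil, List.cons.injEq, and_true] at hg
  have hb1 := (hZ.bm p y).sub (Hoeffding.BM.const m)
  have := Hoeffding.integral_comp_equiv κ g.toEquiv (hb1.mul hb1)
  simp only [pow_two]
  rw [← this]
  refine integral_congr_ae (Filter.Eventually.of_forall fun x => ?_)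
  have e1 : Z p y (x ∘ g) = Z p' y' x := by rw [hZ.equiv g, hg.1, hg.2]
  exact congrArg (fun a => (a - m) * (a - m)) e1

/-- **Universal covariance bound.** For a non-backtracking path `z,w,y,w',z'` the (centered) directed edge
variables at `(w→z)` and `(w'→z')` have correlation at most `psiD D < 1`. -/
theorem universal_cov (hG : RegTree G D) {Z : V → V → (V → E) → ℝ} (hZ : EdgeFamily G Z)
    {z w y w' z' : V} (hp : IsNB G [z, w, y, w', z']) (m : ℝ)
    (hm : m = ∫ x, Z w z x ∂(Measure.infinitePi fun _ : V => κ)) :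
    ∫ x, (Z w z x - m) * (Z w' z' x - m) ∂(Measure.infinitePi fun _ : V => κ) ≤
      psiD D * ∫ x, (Z w z x - m) ^ 2 ∂(Measure.infinitePi fun _ : V => κ) := by
  classical
  have hD : 2 ≤ D := hG.two_le
  have hDr : (2 : ℝ) ≤ D := by exact_mod_cast hD
  have hD0 : (0 : ℝ) < D := by linarith
  obtain ⟨hzw, -, -, -, -, -, -⟩ := isNB_five hp
  set f₀ : (V → E) → ℝ := fun x => Z w z x - m with hf₀def
  have hf₀ : Hoeffding.BM f₀ := (hZ.bm w z).sub (Hoeffding.BM.const m)
  have hcenter : ∫ x, f₀ x ∂(Measure.infinitePi fun _ : V => κ) = 0 := by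
    simp only [hf₀def]
    rw [integral_sub ((hZ.bm w z).integrable _) (integrable_const _)]
    simp [hm]
  -- the index set
  let s : Finset (Σ _ : V, Σ _ : V, V) :=
    (ch G z w).sigma fun y => (ch G w y).sigma fun w' => ch G y w'
  have hs : ∀ i ∈ s, IsNB G [z, w, i.1, i.2.1, i.2.2] := by
    rintro ⟨y₁, w₁, z₁⟩ hi
    simp only [s, Finset.mem_sigma, mem_ch] at hi
    obtain ⟨⟨h1, h2⟩, ⟨h3, h4⟩, h5, h6⟩ := hi
    exact isNB_five_mk ⟨hzw, h2, h1, h4, h3, h6, h5⟩
  have hg : ∀ i : (Σ _ : V, Σ _ : V, V), ∃ g : G ≃g G, i ∈ s →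
      g w = i.2.1 ∧ g z = i.2.2 ∧ g i.2.1 = w ∧ g i.2.2 = z := by
    intro i
    by_cases hi : i ∈ s
    · obtain ⟨g, hg⟩ := hG.exists_aut_of_isNB (hs i hi) (isNB_five_reverse (hs i hi)) rfl
      simp only [List.map_cons, List.map_nil, List.cons.injEq, and_true] at hg
      exact ⟨g, fun _ => ⟨hg.2.1, hg.1, hg.2.2.2.1, hg.2.2.2.2⟩⟩
    · exact ⟨RelIso.refl _, fun h => absurd h hi⟩
  choose g hg using hg
  let φ₀ : Finset V → ℝ := fun A => ∑ r ∈ A, phi G D r w z
  let φ : (Σ _ : V, Σ _ : V, V) → Finset V → ℝ := fun i A => ∑ r ∈ A, phi G D r i.2.1 i.2.2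
  have hT := hG.isTree
  have key := Hoeffding.schur_bound κ s hf₀ hcenter (fun i => (g i).toEquiv) φ₀ φ
    (fun A hA => Finset.sum_pos (fun r _ => phi_pos hD _ _ _) (Finset.nonempty_iff_ne_empty.2 hA))
    (fun i _ A hA => Finset.sum_pos (fun r _ => phi_pos hD _ _ _) (Finset.nonempty_iff_ne_empty.2 hA))
    (lamD D)
    (fun A _ => by
      simp only [φ, φ₀]
      rw [Finset.sum_comm, Finset.mul_sum]
      refine Finset.sum_le_sum fun r _ => ?_
      simp only [s]
      rw [Finset.sum_sigma]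
      simp only [Finset.sum_sigma]
      exact schur_phi hG r hzw)
    (fun i hi A => by
      simp only [φ, φ₀, Finset.sum_map]
      refine Finset.sum_congr rfl fun r _ => ?_
      obtain ⟨h1, h2, h3, h4⟩ := hg i hi
      simp only [Equiv.coe_toEmbedding, RelIso.coe_fn_toEquiv]
      rw [← h1, ← h2]
      exact phi_iso hT (g i) r w z)
    (fun i hi A => by
      simp only [φ, φ₀, Finset.sum_map]
      refine Finset.sum_congr rfl fun r _ => ?_
      obtain ⟨h1, h2, h3, h4⟩ := hg i hi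
      simp only [Equiv.coe_toEmbedding, RelIso.coe_fn_toEquiv]
      conv_lhs => rw [← h3, ← h4]
      exact phi_iso hT (g i) r i.2.1 i.2.2)
    (fun n => ball G z n) (ball_mono hG z) (ball_exhaust hG z)
  -- every term is the covariance
  set c := ∫ x, (Z w z x - m) * (Z w' z' x - m) ∂(Measure.infinitePi fun _ : V => κ) with hc
  set W := ∫ x, (Z w z x - m) ^ 2 ∂(Measure.infinitePi fun _ : V => κ) with hW
  have hterm : ∀ i ∈ s, Hoeffding.ip κ f₀ (fun x => f₀ (x ∘ (g i).toEquiv)) = c := by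
    intro i hi
    obtain ⟨h1, h2, h3, h4⟩ := hg i hi
    have e : ∀ x, f₀ (x ∘ (g i).toEquiv) = Z i.2.1 i.2.2 x - m := by
      intro x
      simp only [hf₀def]
      have := hZ.equiv (g i) w z x
      rw [h1, h2] at this
      exact congrArg (fun a => a - m) this
    simp only [Hoeffding.ip, e]
    exact cov_eq_of_isNB κ hG hZ (hs i hi) hp m
  rw [Finset.sum_congr rfl hterm] at key
  have hW' : Hoeffding.ip κ f₀ f₀ = W := by
    simp only [Hoeffding.ip, hf₀def, hW, pow_two]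
  rw [hW'] at key
  have hcard : (∑ _i ∈ s, c) = (D : ℝ) ^ 3 * c := by
    simp only [s]
    rw [Finset.sum_sigma]
    simp only [Finset.sum_sigma]
    rw [sum_ch_const hG hzw (c := (D : ℝ) * ((D : ℝ) * c))]
    · ring
    · intro y₁ hy₁
      rw [mem_ch] at hy₁
      rw [sum_ch_const hG hy₁.1 (c := (D : ℝ) * c)]
      intro w₁ hw₁
      rw [mem_ch] at hw₁
      rw [sum_ch_const hG hw₁.1 (fun _ _ => rfl)]
  rw [hcard] at key
  have hpsi : (D : ℝ) ^ 3 * psiD D = lamD D := by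
    unfold psiD lamD
    field_simp
  have hpos : (0 : ℝ) < (D : ℝ) ^ 3 := by positivity
  refine le_of_mul_le_mul_left ?_ hpos
  rw [← mul_assoc, hpsi]
  exact key

theorem sum_ch_le_const (hG : RegTree G D) {p y : V} (h : G.Adj p y) {F : V → ℝ} {c : ℝ}
    (hF : ∀ z ∈ ch G p y, F z ≤ c) : ∑ z ∈ ch G p y, F z ≤ (D : ℝ) * c := by
  have := Finset.sum_le_card_nsmul _ _ _ hF
  rwa [hG.card_ch h, nsmul_eq_mul] at this

theorem sum_ch_le_parent (hG : RegTree G D) {p y q : V} (h : G.Adj p y) (hq : q ∈ ch G p y)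
    {F : V → ℝ} {A B : ℝ} (hA : F q ≤ A) (hF : ∀ z ∈ ch G p y, z ≠ q → F z ≤ B) :
    ∑ z ∈ ch G p y, F z ≤ A + ((D : ℝ) - 1) * B := by
  rw [← Finset.add_sum_erase _ _ hq]
  refine add_le_add hA ?_
  have := Finset.sum_le_card_nsmul ((ch G p y).erase q) F B
    (fun z hz => hF z (Finset.mem_of_mem_erase hz) (Finset.ne_of_mem_erase hz))
  rw [Finset.card_erase_of_mem hq, hG.card_ch h, nsmul_eq_mul] at this
  have hD : 2 ≤ D := hG.two_le
  rwa [Nat.cast_sub (by omega), Nat.cast_one] at this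

/-- **Variance of the level-two sum** (blueprint section 8, corollary), with `C_D = 1 + (D-1) psiD`. -/
theorem var_grandchildren (hG : RegTree G D) {Z : V → V → (V → E) → ℝ} (hZ : EdgeFamily G Z)
    {p y p₀ y₀ : V} (h : G.Adj p y) (h₀ : G.Adj p₀ y₀) (m : ℝ)
    (hm : m = ∫ x, Z p₀ y₀ x ∂(Measure.infinitePi fun _ : V => κ)) :
    ∫ x, (∑ w ∈ ch G p y, ∑ z ∈ ch G y w, Z w z x - (D : ℝ) ^ 2 * m) ^ 2
        ∂(Measure.infinitePi fun _ : V => κ) ≤
      (D : ℝ) ^ 3 * (1 + ((D : ℝ) - 1) * psiD D) *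
        ∫ x, (Z p₀ y₀ x - m) ^ 2 ∂(Measure.infinitePi fun _ : V => κ) := by
  classical
  have hD : 2 ≤ D := hG.two_le
  set W := ∫ x, (Z p₀ y₀ x - m) ^ 2 ∂(Measure.infinitePi fun _ : V => κ) with hW
  let Y : V → V → (V → E) → ℝ := fun a b x => Z a b x - m
  have hYbm : ∀ a b, Hoeffding.BM (Y a b) := fun a b => (hZ.bm a b).sub (Hoeffding.BM.const m)
  let U : V → (V → E) → ℝ := fun w x => ∑ z ∈ ch G y w, Y w z x
  have hUbm : ∀ w, Hoeffding.BM (U w) := fun w =>
    Hoeffding.BM.finset_sum _ fun z _ => hYbm w z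
  have hsumeq : ∀ x, ∑ w ∈ ch G p y, ∑ z ∈ ch G y w, Z w z x - (D : ℝ) ^ 2 * m =
      ∑ w ∈ ch G p y, U w x := by
    intro x
    have h1 : ∀ w ∈ ch G p y, U w x = ∑ z ∈ ch G y w, Z w z x - (D : ℝ) * m := by
      intro w hw
      rw [mem_ch] at hw
      simp only [U, Y]
      rw [Finset.sum_sub_distrib, Finset.sum_const, hG.card_ch hw.1, nsmul_eq_mul]
    rw [Finset.sum_congr rfl h1, Finset.sum_sub_distrib, Finset.sum_const, hG.card_ch h,
      nsmul_eq_mul]
    ring
  have hLHS : ∫ x, (∑ w ∈ ch G p y, ∑ z ∈ ch G y w, Z w z x - (D : ℝ) ^ 2 * m) ^ 2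
        ∂(Measure.infinitePi fun _ : V => κ) =
      ∑ w ∈ ch G p y, ∑ w' ∈ ch G p y, Hoeffding.ip κ (U w) (U w') := by
    simp only [hsumeq]
    simp only [pow_two]
    have : Hoeffding.ip κ (fun x => ∑ w ∈ ch G p y, U w x) (fun x => ∑ w ∈ ch G p y, U w x) =
        ∫ x, (∑ w ∈ ch G p y, U w x) * (∑ w ∈ ch G p y, U w x)
          ∂(Measure.infinitePi fun _ : V => κ) := rfl
    rw [← this, Hoeffding.ip_sum_left κ _ (fun w _ => hUbm w)
      (Hoeffding.BM.finset_sum _ fun w _ => hUbm w)]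
    refine Finset.sum_congr rfl fun w _ => ?_
    rw [Hoeffding.ip_sum_right κ _ (fun w _ => hUbm w) (hUbm w)]
  rw [hLHS]
  -- the values on the edges
  have hmE : ∀ {a b}, G.Adj a b → m = ∫ x, Z a b x ∂(Measure.infinitePi fun _ : V => κ) := by
    intro a b hab
    rw [hm]
    exact EdgeFamily.integral_eq κ hG hZ h₀ hab
  have hVar : ∀ {a b}, G.Adj a b → Hoeffding.ip κ (Y a b) (Y a b) = W := by
    intro a b hab
    have := var_eq_of_adj κ hG hZ hab h₀ m
    rw [hW, ← this]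
    simp only [Hoeffding.ip, Y, pow_two]
  have hpair_same : ∀ {w z z'}, G.Adj w z → G.Adj w z' → Hoeffding.ip κ (Y w z) (Y w z') ≤ W := by
    intro w z z' hz hz'
    have := Hoeffding.two_mul_ip_le κ (hYbm w z) (hYbm w z') one_pos
    rw [hVar hz, hVar hz'] at this
    simp only [one_mul, inv_one] at this
    linarith
  have hpair_diff : ∀ {w w' z z'}, w ∈ ch G p y → w' ∈ ch G p y → w' ≠ w → z ∈ ch G y w →
      z' ∈ ch G y w' → Hoeffding.ip κ (Y w z) (Y w' z') ≤ psiD D * W := by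
    intro w w' z z' hw hw' hne hz hz'
    rw [mem_ch] at hw hw' hz hz'
    have hpath : IsNB G [z, w, y, w', z'] :=
      isNB_five_mk ⟨hz.1.symm, hz.2.symm, hw.1.symm, hne, hw'.1, hz'.2, hz'.1⟩
    have := universal_cov κ hG hZ hpath m (hmE hz.1)
    have e : ∫ x, (Z w z x - m) ^ 2 ∂(Measure.infinitePi fun _ : V => κ) = W := by
      rw [hW]
      exact var_eq_of_adj κ hG hZ hz.1 h₀ m
    rw [e] at this
    exact this
  have hU_same : ∀ w ∈ ch G p y, Hoeffding.ip κ (U w) (U w) ≤ (D : ℝ) * ((D : ℝ) * W) := by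
    intro w hw
    have hw' := mem_ch.1 hw
    have hwy : G.Adj y w := hw'.1
    simp only [U]
    rw [Hoeffding.ip_sum_left κ _ (fun z _ => hYbm w z)
      (Hoeffding.BM.finset_sum _ fun z _ => hYbm w z)]
    refine sum_ch_le_const hG hwy fun z hz => ?_
    rw [Hoeffding.ip_sum_right κ _ (fun z _ => hYbm w z) (hYbm w z)]
    refine sum_ch_le_const hG hwy fun z' hz' => ?_
    exact hpair_same (mem_ch.1 hz).1 (mem_ch.1 hz').1
  have hU_diff : ∀ w ∈ ch G p y, ∀ w' ∈ ch G p y, w' ≠ w →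
      Hoeffding.ip κ (U w) (U w') ≤ (D : ℝ) * ((D : ℝ) * (psiD D * W)) := by
    intro w hw w' hw' hne
    have hwy : G.Adj y w := (mem_ch.1 hw).1
    have hwy' : G.Adj y w' := (mem_ch.1 hw').1
    simp only [U]
    rw [Hoeffding.ip_sum_left κ _ (fun z _ => hYbm w z)
      (Hoeffding.BM.finset_sum _ fun z _ => hYbm w' z)]
    refine sum_ch_le_const hG hwy fun z hz => ?_
    rw [Hoeffding.ip_sum_right κ _ (fun z _ => hYbm w' z) (hYbm w z)]
    refine sum_ch_le_const hG hwy' fun z' hz' => ?_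
    exact hpair_diff hw hw' hne hz hz'
  have hfinal : ∑ w ∈ ch G p y, ∑ w' ∈ ch G p y, Hoeffding.ip κ (U w) (U w') ≤
      (D : ℝ) * ((D : ℝ) * ((D : ℝ) * W) + ((D : ℝ) - 1) * ((D : ℝ) * ((D : ℝ) * (psiD D * W)))) := by
    refine sum_ch_le_const hG h fun w hw => ?_
    exact sum_ch_le_parent hG h hw (hU_same w hw) fun w' hw' hne => hU_diff w hw w' hw' hne
  refine hfinal.trans (le_of_eq ?_)
  ring

end Crest.Agent.Lib.IsingFIID
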