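/-
S0241 blueprint, Mod J-a (section 7): definitions of the static model, the recursion, martingale property,
independence of disjoint blocks, and the exact identities (KL, Bhattacharyya, tilt).
Definitions moved here verbatim from Static.lean (helper80).
-/
import Crest.Agent.Lib.IsingFIID.Spin
import Crest.Agent.Lib.IsingFIID.Universal

set_option autoImplicit false
universe u v

namespace Crest.Agent.Lib.IsingFIID

open MeasureTheory Filter
open scoped Classical Topology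

variable {V : Type u} (G : SimpleGraph V) [G.LocallyFinite] {D : ℕ}
variable {E : Type v} [MeasurableSpace E]

/-- A block law with site weights: `κ` prob. on labels, `w_±` positive bounded densities (mean one),
exchanged by a measure preserving involution. -/
structure BlockData (κ : Measure E) where
  wp : E → ℝ
  wm : E → ℝ
  swap : E → E
  lo : ℝ
  hi : ℝ
  lo_pos : 0 < lo
  wp_ge : ∀ e, lo ≤ wp e
  wm_ge : ∀ e, lo ≤ wm e
  wp_le : ∀ e, wp e ≤ hi
  wm_le : ∀ e, wm e ≤ hi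
  meas_wp : Measurable wp
  meas_wm : Measurable wm
  swap_mp : MeasurePreserving swap κ κ
  wp_swap : ∀ e, wp (swap e) = wm e
  wm_swap : ∀ e, wm (swap e) = wp e
  int_wp : ∫ e, wp e ∂κ = 1

variable {κ : Measure E}

/-- `Λ = ∫ √(w₊ w₋)`. -/
noncomputable def BlockData.lam (𝔟 : BlockData κ) : ℝ := ∫ e, Real.sqrt (𝔟.wp e * 𝔟.wm e) ∂κ

/-- `I = ∫ (w₊-w₋)/2 log(w₊/w₋)`. -/
noncomputable def BlockData.kl (𝔟 : BlockData κ) : ℝ :=
  ∫ e, (𝔟.wp e - 𝔟.wm e) / 2 * Real.log (𝔟.wp e / 𝔟.wm e) ∂κ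

/-- `Z^R` -/
noncomputable def zR (𝔟 : BlockData κ) (θ : ℝ) (R : ℕ) (p y : V) (x : V → E) : ℝ :=
  (bpPair G θ (fun v => 𝔟.wp (x v)) (fun v => 𝔟.wm (x v)) R p y).1

/-- `n^R` -/
noncomputable def nR (𝔟 : BlockData κ) (θ : ℝ) (R : ℕ) (p y : V) (x : V → E) : ℝ :=
  (bpPair G θ (fun v => 𝔟.wp (x v)) (fun v => 𝔟.wm (x v)) R p y).2

/-- `ν^R = n^R/Z^R` -/
noncomputable def nuR (𝔟 : BlockData κ) (θ : ℝ) (R : ℕ) (p y : V) (x : V → E) : ℝ :=
  bpNu G θ (fun v => 𝔟.wp (x v)) (fun v => 𝔟.wm (x v)) R p y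

/-- level sums at depth `R`: `S_0 = 1`, `S_{r+1}^{R+1}(p,y) = Σ_z b_θ(ν^R_{(y,z)})² S_r^R(y,z)`. -/
noncomputable def SR (𝔟 : BlockData κ) (θ : ℝ) (r R : ℕ) (p y : V) (x : V → E) : ℝ :=
  bpS G θ (fun v => 𝔟.wp (x v)) (fun v => 𝔟.wm (x v)) r R p y

/-- the static expectation at depth `R` (all directed edges are equivalent). -/
noncomputable def EsR (𝔟 : BlockData κ) (θ : ℝ) (R : ℕ) (p y : V) (f : (V → E) → ℝ) : ℝ :=
  ∫ x, f x * zR G 𝔟 θ R p y x ∂(Measure.infinitePi fun _ : V => κ)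

/-- `φ(z) = z log((1+z)/(1-z))`. -/
noncomputable def phiKL (z : ℝ) : ℝ := z * Real.log ((1 + z) / (1 - z))

variable {G}

/-! ### Independence of disjoint blocks -/

section Indep
variable [IsProbabilityMeasure κ]

/-- Independence of disjoint blocks of vertices for the product of an arbitrary block law. -/
theorem integral_mul_of_disjoint {A B : Set V} (hAB : Disjoint A B)
    {f g : (V → E) → ℝ} (hf : Measurable f) (hg : Measurable g)
    (hfA : ∀ x y : V → E, (∀ v ∈ A, x v = y v) → f x = f y)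
    (hgB : ∀ x y : V → E, (∀ v ∈ B, x v = y v) → g x = g y) :
    ∫ x, f x * g x ∂(Measure.infinitePi fun _ : V => κ) =
      (∫ x, f x ∂(Measure.infinitePi fun _ : V => κ)) *
        ∫ x, g x ∂(Measure.infinitePi fun _ : V => κ) := by
  have : Nonempty E := nonempty_of_isProbabilityMeasure κ
  let m : V → MeasurableSpace (V → E) := fun v =>
    MeasurableSpace.comap (fun x : V → E => x v) inferInstance
  have hm_le : ∀ v, m v ≤ (inferInstance : MeasurableSpace (V → E)) := fun v =>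
    (measurable_pi_apply v).comap_le
  have hiIndep : ProbabilityTheory.iIndep m (Measure.infinitePi fun _ : V => κ) := by
    have := ProbabilityTheory.iIndepFun_infinitePi (P := fun _ : V => κ)
      (X := fun _ (b : E) => b) (fun _ => measurable_id)
    exact this
  have hInd := ProbabilityTheory.indep_iSup_of_disjoint hm_le hiIndep hAB
  have key : ∀ (S : Set V) (h : (V → E) → ℝ), Measurable h →
      (∀ x y : V → E, (∀ v ∈ S, x v = y v) → h x = h y) →
      MeasurableSpace.comap h inferInstance ≤ ⨆ v ∈ S, m v := by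
    intro S h hh hS
    let d : E := Classical.arbitrary E
    let r : (V → E) → (V → E) := fun x v => if v ∈ S then x v else d
    have hr : Measurable[⨆ v ∈ S, m v] r := by
      refine @measurable_pi_lambda _ _ _ (⨆ v ∈ S, m v) _ _ fun v => ?_
      by_cases hv : v ∈ S
      · simp only [r, hv, if_true]
        refine Measurable.mono (comap_measurable (fun x : V → E => x v)) ?_ le_rfl
        exact le_iSup₂_of_le v hv le_rfl
      · simp only [r, hv, if_false]
        exact @measurable_const _ _ _ (⨆ v ∈ S, m v) _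
    have heq : h = h ∘ r := by
      funext x
      apply hS
      intro v hv
      simp [r, hv]
    rw [heq, ← MeasurableSpace.comap_comp]
    have : MeasurableSpace.comap r (MeasurableSpace.comap h inferInstance) ≤
        MeasurableSpace.comap r inferInstance :=
      MeasurableSpace.comap_mono hh.comap_le
    exact this.trans hr.comap_le
  have hIF : ProbabilityTheory.IndepFun f g (Measure.infinitePi fun _ : V => κ) := by
    rw [ProbabilityTheory.IndepFun_iff_Indep]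
    exact ProbabilityTheory.indep_of_indep_of_le_left
      (ProbabilityTheory.indep_of_indep_of_le_right hInd (key B g hg hgB)) (key A f hf hfA)
  exact hIF.integral_mul_eq_mul_integral hf.aestronglyMeasurable hg.aestronglyMeasurable

/-- Product formula over a finite family of functions of pairwise disjoint blocks. -/
theorem integral_prod_of_disjoint {ι : Type*} (S : Finset ι) (B : ι → Set V)
    (hB : ∀ i ∈ S, ∀ j ∈ S, i ≠ j → Disjoint (B i) (B j))
    (F : ι → (V → E) → ℝ) (hF : ∀ i ∈ S, Measurable (F i))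
    (hdep : ∀ i ∈ S, ∀ x y : V → E, (∀ v ∈ B i, x v = y v) → F i x = F i y) :
    ∫ x, ∏ i ∈ S, F i x ∂(Measure.infinitePi fun _ : V => κ) =
      ∏ i ∈ S, ∫ x, F i x ∂(Measure.infinitePi fun _ : V => κ) := by
  induction S using Finset.induction_on with
  | empty => simp
  | insert a S ha ih =>
    have hS : ∀ i ∈ S, i ∈ insert a S := fun i hi => Finset.mem_insert_of_mem hi
    rw [Finset.prod_insert ha, ← ih (fun i hi j hj => hB i (hS i hi) j (hS j hj))
      (fun i hi => hF i (hS i hi)) (fun i hi => hdep i (hS i hi))]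
    have := integral_mul_of_disjoint (κ := κ) (A := B a) (B := ⋃ i ∈ S, B i)
      (f := F a) (g := fun x => ∏ i ∈ S, F i x) ?_ (hF a (Finset.mem_insert_self _ _)) ?_
      (hdep a (Finset.mem_insert_self _ _)) ?_
    · simpa [Finset.prod_insert ha] using this
    · rw [Set.disjoint_iUnion₂_right]
      intro i hi
      exact hB a (Finset.mem_insert_self _ _) i (hS i hi) (by rintro rfl; exact ha hi)
    · exact Finset.measurable_prod _ (fun i hi => hF i (hS i hi))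
    · intro x y hxy
      refine Finset.prod_congr rfl fun i hi => hdep i (hS i hi) x y fun v hv => hxy v ?_
      simp only [Set.mem_iUnion]
      exact ⟨i, hi, hv⟩

/-- The marginal of a single coordinate. -/
theorem integral_coord (y : V) {f : E → ℝ} (hf : Measurable f) :
    ∫ x, f (x y) ∂(Measure.infinitePi fun _ : V => κ) = ∫ e, f e ∂κ := by
  have h := measurePreserving_eval_infinitePi (fun _ : V => κ) y
  have h2 := integral_map (μ := Measure.infinitePi fun _ : V => κ) h.measurable.aemeasurable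
    (f := f) (by rw [h.map_eq]; exact hf.aestronglyMeasurable)
  rw [h.map_eq] at h2
  exact h2.symm

end Indep

/-! ### Bounded measurable functions -/

/-- Bounded measurable functions of the labels. -/
structure BM (f : (V → E) → ℝ) : Prop where
  meas : Measurable f
  bdd : ∃ C, ∀ x, |f x| ≤ C

theorem BM.const (c : ℝ) : BM (fun _ : V → E => c) := ⟨measurable_const, |c|, fun _ => le_rfl⟩

theorem BM.mul {f g : (V → E) → ℝ} (hf : BM f) (hg : BM g) : BM (fun x => f x * g x) := by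
  obtain ⟨C, hC⟩ := hf.bdd
  obtain ⟨C', hC'⟩ := hg.bdd
  refine ⟨hf.meas.mul hg.meas, C * C', fun x => ?_⟩
  rw [abs_mul]
  exact mul_le_mul (hC x) (hC' x) (abs_nonneg _) ((abs_nonneg _).trans (hC x))

theorem BM.add {f g : (V → E) → ℝ} (hf : BM f) (hg : BM g) : BM (fun x => f x + g x) := by
  obtain ⟨C, hC⟩ := hf.bdd
  obtain ⟨C', hC'⟩ := hg.bdd
  exact ⟨hf.meas.add hg.meas, C + C', fun x => (abs_add_le _ _).trans (add_le_add (hC x) (hC' x))⟩

theorem BM.sub {f g : (V → E) → ℝ} (hf : BM f) (hg : BM g) : BM (fun x => f x - g x) := by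
  obtain ⟨C, hC⟩ := hf.bdd
  obtain ⟨C', hC'⟩ := hg.bdd
  exact ⟨hf.meas.sub hg.meas, C + C', fun x => (abs_sub _ _).trans (add_le_add (hC x) (hC' x))⟩

theorem BM.prod {ι : Type*} (S : Finset ι) {F : ι → (V → E) → ℝ} (hF : ∀ i ∈ S, BM (F i)) :
    BM (fun x => ∏ i ∈ S, F i x) := by
  induction S using Finset.induction_on with
  | empty => simpa using BM.const (V := V) (E := E) 1
  | insert a S ha ih =>
    have h1 := hF a (Finset.mem_insert_self _ _)
    have h2 := ih (fun i hi => hF i (Finset.mem_insert_of_mem hi))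
    simpa [Finset.prod_insert ha] using h1.mul h2

theorem BM.integrable [IsProbabilityMeasure κ] {f : (V → E) → ℝ} (hf : BM f) :
    Integrable f (Measure.infinitePi fun _ : V => κ) := by
  obtain ⟨C, hC⟩ := hf.bdd
  exact Integrable.of_bound hf.meas.aestronglyMeasurable C
    (Eventually.of_forall fun x => by simpa using hC x)

/-- A function of a single coordinate. -/
theorem BM.coord {f : E → ℝ} (hf : Measurable f) {C : ℝ} (hC : ∀ e, |f e| ≤ C) (y : V) :
    BM (fun x : V → E => f (x y)) :=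
  ⟨hf.comp (measurable_pi_apply y), C, fun x => hC _⟩

/-- `f` does not depend on the coordinates in `L`. -/
def NoDep (L : Finset V) (f : (V → E) → ℝ) : Prop :=
  ∀ x x' : V → E, (∀ v, v ∉ L → x v = x' v) → f x = f x'

theorem NoDep.mul {L : Finset V} {f g : (V → E) → ℝ} (hf : NoDep L f) (hg : NoDep L g) :
    NoDep L (fun x => f x * g x) := fun x x' h => by
  simp only [hf x x' h, hg x x' h]

theorem NoDep.prod {ι : Type*} {L : Finset V} (S : Finset ι) {F : ι → (V → E) → ℝ}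
    (hF : ∀ i ∈ S, NoDep L (F i)) : NoDep L (fun x => ∏ i ∈ S, F i x) := fun x x' h =>
  Finset.prod_congr rfl fun i hi => hF i hi x x' h

/-- The telescoping principle: replacing factors one at a time. -/
theorem tele_prod [IsProbabilityMeasure κ] (S : Finset V) (L : V → Finset V)
    (A B : V → (V → E) → ℝ) (hA : ∀ z ∈ S, BM (A z)) (hB : ∀ z ∈ S, BM (B z))
    (hAB : ∀ z ∈ S, ∀ h', BM h' → NoDep (L z) h' →
      ∫ x, h' x * A z x ∂(Measure.infinitePi fun _ : V => κ) =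
        ∫ x, h' x * B z x ∂(Measure.infinitePi fun _ : V => κ))
    (hAn : ∀ z ∈ S, ∀ z' ∈ S, z ≠ z' → NoDep (L z) (A z'))
    (hBn : ∀ z ∈ S, ∀ z' ∈ S, z ≠ z' → NoDep (L z) (B z'))
    {h : (V → E) → ℝ} (hb : BM h) (hn : ∀ z ∈ S, NoDep (L z) h) :
    ∫ x, h x * ∏ z ∈ S, A z x ∂(Measure.infinitePi fun _ : V => κ) =
      ∫ x, h x * ∏ z ∈ S, B z x ∂(Measure.infinitePi fun _ : V => κ) := by
  induction S using Finset.induction_on generalizing h with
  | empty => simp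
  | insert a S ha ih =>
    have hS : ∀ i ∈ S, i ∈ insert a S := fun i hi => Finset.mem_insert_of_mem hi
    have ha' := Finset.mem_insert_self a S
    have hne : ∀ z ∈ S, a ≠ z := fun z hz => by rintro rfl; exact ha hz
    simp only [Finset.prod_insert ha]
    calc ∫ x, h x * (A a x * ∏ z ∈ S, A z x) ∂(Measure.infinitePi fun _ : V => κ)
        = ∫ x, (h x * A a x) * ∏ z ∈ S, A z x ∂(Measure.infinitePi fun _ : V => κ) := by
          simp only [mul_assoc]
      _ = ∫ x, (h x * A a x) * ∏ z ∈ S, B z x ∂(Measure.infinitePi fun _ : V => κ) := by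
          apply ih (fun z hz => hA z (hS z hz)) (fun z hz => hB z (hS z hz))
            (fun z hz => hAB z (hS z hz))
            (fun z hz z' hz' => hAn z (hS z hz) z' (hS z' hz'))
            (fun z hz z' hz' => hBn z (hS z hz) z' (hS z' hz'))
            (hb.mul (hA a ha'))
          intro z hz
          exact (hn z (hS z hz)).mul (hAn z (hS z hz) a ha' (hne z hz).symm)
      _ = ∫ x, (h x * ∏ z ∈ S, B z x) * A a x ∂(Measure.infinitePi fun _ : V => κ) := by
          congr 1; funext x; ring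
      _ = ∫ x, (h x * ∏ z ∈ S, B z x) * B a x ∂(Measure.infinitePi fun _ : V => κ) := by
          apply hAB a ha' _ (hb.mul (BM.prod S fun z hz => hB z (hS z hz)))
          exact (hn a ha').mul (NoDep.prod S fun z hz => hBn a ha' z (hS z hz) (hne z hz))
      _ = ∫ x, h x * (B a x * ∏ z ∈ S, B z x) ∂(Measure.infinitePi fun _ : V => κ) := by
          congr 1; funext x; ring

/-! ### Belief propagation: basic properties -/

section BP

variable {θ : ℝ}

theorem bpPair_zero' (a b : V → ℝ) (p y : V) :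
    bpPair G θ a b 0 p y = ((a y + b y) / 2, (a y - b y) / 2) := by
  simp [bpPair]

theorem bpPair_succ_fst (a b : V → ℝ) (R : ℕ) (p y : V) :
    (bpPair G θ a b (R + 1) p y).1 =
      (a y * ∏ z ∈ ch G p y, ((bpPair G θ a b R y z).1 + θ * (bpPair G θ a b R y z).2) +
        b y * ∏ z ∈ ch G p y, ((bpPair G θ a b R y z).1 - θ * (bpPair G θ a b R y z).2)) / 2 := by
  simp [bpPair]

theorem bpPair_succ_snd (a b : V → ℝ) (R : ℕ) (p y : V) :
    (bpPair G θ a b (R + 1) p y).2 =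
      (a y * ∏ z ∈ ch G p y, ((bpPair G θ a b R y z).1 + θ * (bpPair G θ a b R y z).2) -
        b y * ∏ z ∈ ch G p y, ((bpPair G θ a b R y z).1 - θ * (bpPair G θ a b R y z).2)) / 2 := by
  simp [bpPair]

/-- Positivity: `|n| < Z`. -/
theorem abs_bp_lt (hθ : |θ| ≤ 1) {a b : V → ℝ} (ha : ∀ v, 0 < a v) (hb : ∀ v, 0 < b v) (R : ℕ) (p y : V) :
    |(bpPair G θ a b R p y).2| < (bpPair G θ a b R p y).1 := by
  induction R generalizing p y with
  | zero =>
    rw [bpPair_zero']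
    have := ha y
    have := hb y
    simp only
    rw [abs_lt]
    constructor <;> linarith
  | succ R ih =>
    rw [bpPair_succ_fst, bpPair_succ_snd]
    have key : ∀ z, 0 < (bpPair G θ a b R y z).1 + θ * (bpPair G θ a b R y z).2 ∧
        0 < (bpPair G θ a b R y z).1 - θ * (bpPair G θ a b R y z).2 := by
      intro z
      have h1 := ih y z
      have h2 : |θ * (bpPair G θ a b R y z).2| < (bpPair G θ a b R y z).1 := by
        rw [abs_mul]
        calc |θ| * |(bpPair G θ a b R y z).2| ≤ 1 * |(bpPair G θ a b R y z).2| := by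
              exact mul_le_mul_of_nonneg_right hθ (abs_nonneg _)
          _ < _ := by simpa using h1
      rw [abs_lt] at h2
      constructor <;> linarith [h2.1, h2.2]
    have hP : 0 < a y * ∏ z ∈ ch G p y, ((bpPair G θ a b R y z).1 + θ * (bpPair G θ a b R y z).2) :=
      mul_pos (ha y) (Finset.prod_pos fun z _ => (key z).1)
    have hM : 0 < b y * ∏ z ∈ ch G p y, ((bpPair G θ a b R y z).1 - θ * (bpPair G θ a b R y z).2) :=
      mul_pos (hb y) (Finset.prod_pos fun z _ => (key z).2)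
    rw [abs_lt]
    constructor <;> linarith

theorem bp_fst_pos (hθ : |θ| ≤ 1) {a b : V → ℝ} (ha : ∀ v, 0 < a v) (hb : ∀ v, 0 < b v) (R : ℕ) (p y : V) :
    0 < (bpPair G θ a b R p y).1 :=
  (abs_nonneg _).trans_lt (abs_bp_lt hθ ha hb R p y)

/-- Measurability of the BP pair in the labels. -/
theorem measurable_bp {a b : E → ℝ} (ha : Measurable a) (hb : Measurable b) (R : ℕ) (p y : V) :
    Measurable (fun x : V → E => (bpPair G θ (fun v => a (x v)) (fun v => b (x v)) R p y).1) ∧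
      Measurable (fun x : V → E => (bpPair G θ (fun v => a (x v)) (fun v => b (x v)) R p y).2) := by
  induction R generalizing p y with
  | zero =>
    simp only [bpPair_zero']
    have h1 := ha.comp (measurable_pi_apply (X := fun _ : V => E) y)
    have h2 := hb.comp (measurable_pi_apply (X := fun _ : V => E) y)
    exact ⟨(h1.add h2).div_const 2, (h1.sub h2).div_const 2⟩
  | succ R ih =>
    simp only [bpPair_succ_fst, bpPair_succ_snd]
    have h1 := ha.comp (measurable_pi_apply (X := fun _ : V => E) y)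
    have h2 := hb.comp (measurable_pi_apply (X := fun _ : V => E) y)
    have hP : Measurable (fun x : V → E => ∏ z ∈ ch G p y,
        ((bpPair G θ (fun v => a (x v)) (fun v => b (x v)) R y z).1 +
          θ * (bpPair G θ (fun v => a (x v)) (fun v => b (x v)) R y z).2)) :=
      Finset.measurable_prod _ fun z _ => (ih y z).1.add ((ih y z).2.const_mul θ)
    have hM : Measurable (fun x : V → E => ∏ z ∈ ch G p y,
        ((bpPair G θ (fun v => a (x v)) (fun v => b (x v)) R y z).1 -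
          θ * (bpPair G θ (fun v => a (x v)) (fun v => b (x v)) R y z).2)) :=
      Finset.measurable_prod _ fun z _ => (ih y z).1.sub ((ih y z).2.const_mul θ)
    exact ⟨((h1.mul hP).add (h2.mul hM)).div_const 2, ((h1.mul hP).sub (h2.mul hM)).div_const 2⟩

/-- BP depends only on the weights in the subtree. -/
theorem bp_congr (hG : RegTree G D) {a b a' b' : V → ℝ} {p y : V} (hpy : G.Adj p y) (R : ℕ)
    (h : ∀ v ∈ sub G R p y, a v = a' v ∧ b v = b' v) :
    bpPair G θ a b R p y = bpPair G θ a' b' R p y := by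
  induction R generalizing p y with
  | zero =>
    have hy : y ∈ sub G 0 p y := by simp [sub, desc]
    rw [bpPair_zero', bpPair_zero', (h y hy).1, (h y hy).2]
  | succ R ih =>
    rw [hG.sub_succ hpy] at h
    have hy := h y (by simp)
    have hz : ∀ z ∈ ch G p y, bpPair G θ a b R y z = bpPair G θ a' b' R y z := fun z hz =>
      ih (mem_ch.mp hz).1 fun v hv =>
        h v (Finset.mem_union_right _ (Finset.mem_biUnion.mpr ⟨z, hz, hv⟩))
    apply Prod.ext
    · rw [bpPair_succ_fst, bpPair_succ_fst, hy.1, hy.2]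
      congr 2
      · apply congrArg
        exact Finset.prod_congr rfl fun z hzz => by rw [hz z hzz]
      · apply congrArg
        exact Finset.prod_congr rfl fun z hzz => by rw [hz z hzz]
    · rw [bpPair_succ_snd, bpPair_succ_snd, hy.1, hy.2]
      congr 2
      · apply congrArg
        exact Finset.prod_congr rfl fun z hzz => by rw [hz z hzz]
      · apply congrArg
        exact Finset.prod_congr rfl fun z hzz => by rw [hz z hzz]

/-- Equivariance of BP under automorphisms. -/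
theorem bp_map (g : G ≃g G) (a b : V → ℝ) (R : ℕ) (p y : V) :
    bpPair G θ a b R (g p) (g y) = bpPair G θ (a ∘ g) (b ∘ g) R p y := by
  induction R generalizing p y with
  | zero =>
    simp [bpPair_zero']
  | succ R ih =>
    apply Prod.ext
    · rw [bpPair_succ_fst, bpPair_succ_fst, ch_map, Finset.prod_map, Finset.prod_map]
      simp only [Equiv.coe_toEmbedding, Function.comp]
      congr 2
      · apply congrArg
        exact Finset.prod_congr rfl fun z _ => by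
          have := ih y z
          change (bpPair G θ a b R (g y) (g z)).1 + θ * (bpPair G θ a b R (g y) (g z)).2 = _
          rw [this]
      · apply congrArg
        exact Finset.prod_congr rfl fun z _ => by
          have := ih y z
          change (bpPair G θ a b R (g y) (g z)).1 - θ * (bpPair G θ a b R (g y) (g z)).2 = _
          rw [this]
    · rw [bpPair_succ_snd, bpPair_succ_snd, ch_map, Finset.prod_map, Finset.prod_map]
      simp only [Equiv.coe_toEmbedding, Function.comp]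
      congr 2
      · apply congrArg
        exact Finset.prod_congr rfl fun z _ => by
          have := ih y z
          change (bpPair G θ a b R (g y) (g z)).1 + θ * (bpPair G θ a b R (g y) (g z)).2 = _
          rw [this]
      · apply congrArg
        exact Finset.prod_congr rfl fun z _ => by
          have := ih y z
          change (bpPair G θ a b R (g y) (g z)).1 - θ * (bpPair G θ a b R (g y) (g z)).2 = _
          rw [this]

/-- Exchanging the two weights flips `n`. -/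
theorem bp_swap (a b : V → ℝ) (R : ℕ) (p y : V) :
    bpPair G θ b a R p y = ((bpPair G θ a b R p y).1, -(bpPair G θ a b R p y).2) := by
  induction R generalizing p y with
  | zero =>
    simp only [bpPair_zero']
    apply Prod.ext
    · simp only; ring
    · simp only; ring
  | succ R ih =>
    apply Prod.ext
    · simp only
      rw [bpPair_succ_fst, bpPair_succ_fst]
      have e1 : ∀ z, (bpPair G θ b a R y z).1 + θ * (bpPair G θ b a R y z).2 =
          (bpPair G θ a b R y z).1 - θ * (bpPair G θ a b R y z).2 := fun z => by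
        rw [ih y z]; simp only; ring
      have e2 : ∀ z, (bpPair G θ b a R y z).1 - θ * (bpPair G θ b a R y z).2 =
          (bpPair G θ a b R y z).1 + θ * (bpPair G θ a b R y z).2 := fun z => by
        rw [ih y z]; simp only; ring
      simp only [e1, e2]
      ring
    · simp only
      rw [bpPair_succ_snd, bpPair_succ_snd]
      have e1 : ∀ z, (bpPair G θ b a R y z).1 + θ * (bpPair G θ b a R y z).2 =
          (bpPair G θ a b R y z).1 - θ * (bpPair G θ a b R y z).2 := fun z => by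
        rw [ih y z]; simp only; ring
      have e2 : ∀ z, (bpPair G θ b a R y z).1 - θ * (bpPair G θ b a R y z).2 =
          (bpPair G θ a b R y z).1 + θ * (bpPair G θ a b R y z).2 := fun z => by
        rw [ih y z]; simp only; ring
      simp only [e1, e2]
      ring

end BP

/-! ### Tree disjointness -/

section TreeDisj

variable (hG : RegTree G D)
include hG

theorem not_mem_desc_root {y z : V} (hyz : G.Adj y z) (r : ℕ) : y ∉ desc G r y z := by
  intro h
  have := ((hG.mem_desc hyz r y).mp h).2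
  simp at this

theorem not_mem_sub_root {y z : V} (hyz : G.Adj y z) (R : ℕ) : y ∉ sub G R y z := by
  intro h
  simp only [sub, Finset.mem_biUnion] at h
  obtain ⟨r, _, hr⟩ := h
  exact not_mem_desc_root hG hyz r hr

theorem disjoint_desc_sub_root {p y : V} (hpy : G.Adj p y) {r R : ℕ} (h : R < r) :
    Disjoint (desc G r p y) (sub G R p y) := by
  rw [Finset.disjoint_left]
  intro u hu hu'
  simp only [sub, Finset.mem_biUnion, Finset.mem_range] at hu'
  obtain ⟨r', hr', hu'⟩ := hu'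
  have h1 := ((hG.mem_desc hpy r u).mp hu).1
  have h2 := ((hG.mem_desc hpy r' u).mp hu').1
  omega

theorem disjoint_sub_sub {p y z z' : V} (hpy : G.Adj p y) (hz : z ∈ ch G p y) (hz' : z' ∈ ch G p y)
    (hne : z ≠ z') (R R' : ℕ) : Disjoint (sub G R y z) (sub G R' y z') := by
  rw [Finset.disjoint_left]
  intro u hu hu'
  simp only [sub, Finset.mem_biUnion] at hu hu'
  obtain ⟨r, _, hr⟩ := hu
  obtain ⟨r', _, hr'⟩ := hu'
  exact Finset.disjoint_left.mp (hG.disjoint_desc hpy hz hz' hne r r') hr hr'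

theorem disjoint_desc_sub {p y z z' : V} (hpy : G.Adj p y) (hz : z ∈ ch G p y) (hz' : z' ∈ ch G p y)
    (hne : z ≠ z') (r R : ℕ) : Disjoint (desc G r y z) (sub G R y z') := by
  rw [Finset.disjoint_left]
  intro u hu hu'
  simp only [sub, Finset.mem_biUnion] at hu'
  obtain ⟨r', _, hr'⟩ := hu'
  exact Finset.disjoint_left.mp (hG.disjoint_desc hpy hz hz' hne r r') hu hr'

end TreeDisj

/-! ### The static objects: recursion and bounds -/

section Static

variable [IsProbabilityMeasure κ] (𝔟 : BlockData κ) {θ : ℝ}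

omit [IsProbabilityMeasure κ] in
theorem BlockData.wp_pos (e : E) : 0 < 𝔟.wp e := 𝔟.lo_pos.trans_le (𝔟.wp_ge e)

omit [IsProbabilityMeasure κ] in
theorem BlockData.wm_pos (e : E) : 0 < 𝔟.wm e := 𝔟.lo_pos.trans_le (𝔟.wm_ge e)

theorem BlockData.int_wm : ∫ e, 𝔟.wm e ∂κ = 1 := by
  have h := 𝔟.swap_mp
  have h2 := integral_map (μ := κ) h.measurable.aemeasurable
    (f := 𝔟.wp) (by rw [h.map_eq]; exact 𝔟.meas_wp.aestronglyMeasurable)
  rw [h.map_eq] at h2
  rw [𝔟.int_wp] at h2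
  rw [h2]
  exact integral_congr_ae (Eventually.of_forall fun e => (𝔟.wp_swap e).symm)

omit [IsProbabilityMeasure κ] in
theorem BlockData.abs_wp_le (e : E) : |𝔟.wp e| ≤ 𝔟.hi := by
  rw [abs_of_pos (𝔟.wp_pos e)]; exact 𝔟.wp_le e

omit [IsProbabilityMeasure κ] in
theorem BlockData.abs_wm_le (e : E) : |𝔟.wm e| ≤ 𝔟.hi := by
  rw [abs_of_pos (𝔟.wm_pos e)]; exact 𝔟.wm_le e

theorem BlockData.hi_pos : 0 < 𝔟.hi := by
  obtain ⟨e⟩ := nonempty_of_isProbabilityMeasure κ
  exact (𝔟.wp_pos e).trans_le (𝔟.wp_le e)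

/-- The message factor `Z + s θ n` (`s = ±1`). -/
noncomputable def msgR (G : SimpleGraph V) [G.LocallyFinite] (𝔟 : BlockData κ) (θ : ℝ) (R : ℕ) (s : ℝ) (y z : V)
    (x : V → E) : ℝ :=
  zR G 𝔟 θ R y z x + s * (θ * nR G 𝔟 θ R y z x)

omit [IsProbabilityMeasure κ] in
theorem zR_zero (p y : V) (x : V → E) :
    zR G 𝔟 θ 0 p y x = (𝔟.wp (x y) + 𝔟.wm (x y)) / 2 := by
  simp [zR, bpPair_zero']

omit [IsProbabilityMeasure κ] in
theorem nR_zero (p y : V) (x : V → E) :
    nR G 𝔟 θ 0 p y x = (𝔟.wp (x y) - 𝔟.wm (x y)) / 2 := by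
  simp [nR, bpPair_zero']

omit [IsProbabilityMeasure κ] in
theorem zR_succ (R : ℕ) (p y : V) (x : V → E) :
    zR G 𝔟 θ (R + 1) p y x =
      (𝔟.wp (x y) * ∏ z ∈ ch G p y, msgR G 𝔟 θ R 1 y z x +
        𝔟.wm (x y) * ∏ z ∈ ch G p y, msgR G 𝔟 θ R (-1) y z x) / 2 := by
  simp only [zR, bpPair_succ_fst, msgR, nR]
  congr 2
  · apply congrArg
    exact Finset.prod_congr rfl fun z _ => by ring
  · apply congrArg
    exact Finset.prod_congr rfl fun z _ => by ring

omit [IsProbabilityMeasure κ] in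
theorem nR_succ (R : ℕ) (p y : V) (x : V → E) :
    nR G 𝔟 θ (R + 1) p y x =
      (𝔟.wp (x y) * ∏ z ∈ ch G p y, msgR G 𝔟 θ R 1 y z x -
        𝔟.wm (x y) * ∏ z ∈ ch G p y, msgR G 𝔟 θ R (-1) y z x) / 2 := by
  simp only [nR, bpPair_succ_snd, msgR, zR]
  congr 2
  · apply congrArg
    exact Finset.prod_congr rfl fun z _ => by ring
  · apply congrArg
    exact Finset.prod_congr rfl fun z _ => by ring

section Bounds

variable (hθa : |θ| ≤ 1)
include hθa

omit [IsProbabilityMeasure κ] in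
theorem abs_nR_lt_zR (R : ℕ) (p y : V) (x : V → E) : |nR G 𝔟 θ R p y x| < zR G 𝔟 θ R p y x :=
  abs_bp_lt hθa (fun _ => 𝔟.wp_pos _) (fun _ => 𝔟.wm_pos _) R p y

omit [IsProbabilityMeasure κ] in
theorem zR_pos' (R : ℕ) (p y : V) (x : V → E) : 0 < zR G 𝔟 θ R p y x :=
  (abs_nonneg _).trans_lt (abs_nR_lt_zR 𝔟 hθa R p y x)

omit [IsProbabilityMeasure κ] in
theorem msgR_pos {s : ℝ} (hs : |s| ≤ 1) (R : ℕ) (y z : V) (x : V → E) : 0 < msgR G 𝔟 θ R s y z x := by
  have h1 : |nR G 𝔟 θ R y z x| < zR G 𝔟 θ R y z x := abs_nR_lt_zR 𝔟 hθa R y z x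
  have h2 : |s * (θ * nR G 𝔟 θ R y z x)| < zR G 𝔟 θ R y z x := by
    rw [abs_mul, abs_mul]
    calc |s| * (|θ| * |nR G 𝔟 θ R y z x|) ≤ 1 * (1 * |nR G 𝔟 θ R y z x|) := by gcongr
      _ < _ := by simpa using h1
  rw [abs_lt] at h2
  unfold msgR
  linarith [h2.1]

omit [IsProbabilityMeasure κ] in
theorem msgR_le {s : ℝ} (hs : |s| ≤ 1) (R : ℕ) (y z : V) (x : V → E) :
    msgR G 𝔟 θ R s y z x ≤ 2 * zR G 𝔟 θ R y z x := by
  have h1 : |nR G 𝔟 θ R y z x| < zR G 𝔟 θ R y z x := abs_nR_lt_zR 𝔟 hθa R y z x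
  have h2 : |s * (θ * nR G 𝔟 θ R y z x)| < zR G 𝔟 θ R y z x := by
    rw [abs_mul, abs_mul]
    calc |s| * (|θ| * |nR G 𝔟 θ R y z x|) ≤ 1 * (1 * |nR G 𝔟 θ R y z x|) := by gcongr
      _ < _ := by simpa using h1
  rw [abs_lt] at h2
  unfold msgR
  linarith [h2.2]

theorem zR_bdd (hG : RegTree G D) (R : ℕ) :
    ∃ C : ℝ, 0 < C ∧ ∀ {p y : V}, G.Adj p y → ∀ x : V → E, zR G 𝔟 θ R p y x ≤ C := by
  induction R with
  | zero =>
    refine ⟨𝔟.hi, 𝔟.hi_pos, fun {p y} _ x => ?_⟩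
    rw [zR_zero]
    linarith [𝔟.wp_le (x y), 𝔟.wm_le (x y)]
  | succ R ih =>
    obtain ⟨C, hC, h⟩ := ih
    have hP : ∀ {p y : V}, G.Adj p y → ∀ (s : ℝ), |s| ≤ 1 → ∀ x : V → E,
        ∏ z ∈ ch G p y, msgR G 𝔟 θ R s y z x ≤ (2 * C) ^ D := by
      intro p y hpy s hs x
      calc ∏ z ∈ ch G p y, msgR G 𝔟 θ R s y z x ≤ ∏ _z ∈ ch G p y, (2 * C) := by
            apply Finset.prod_le_prod
            · intro z _; exact le_of_lt (msgR_pos 𝔟 hθa hs R y z x)
            · intro z hz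
              have := h (mem_ch.mp hz).1 x
              have h2 : msgR G 𝔟 θ R s y z x ≤ 2 * zR G 𝔟 θ R y z x := msgR_le 𝔟 hθa hs R y z x
              linarith
        _ = (2 * C) ^ D := by rw [Finset.prod_const, hG.card_ch hpy]
    refine ⟨𝔟.hi * (2 * C) ^ D, mul_pos 𝔟.hi_pos (by positivity), fun {p y} hpy x => ?_⟩
    rw [zR_succ]
    have h1 := hP hpy 1 (by simp) x
    have h2 := hP hpy (-1) (by simp) x
    have p1 : 0 ≤ ∏ z ∈ ch G p y, msgR G 𝔟 θ R 1 y z x :=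
      Finset.prod_nonneg fun z _ => (msgR_pos (G := G) 𝔟 hθa (by simp) R y z x).le
    have p2 : 0 ≤ ∏ z ∈ ch G p y, msgR G 𝔟 θ R (-1) y z x :=
      Finset.prod_nonneg fun z _ => (msgR_pos (G := G) 𝔟 hθa (by simp) R y z x).le
    have e1 : 𝔟.wp (x y) * ∏ z ∈ ch G p y, msgR G 𝔟 θ R 1 y z x ≤ 𝔟.hi * (2 * C) ^ D :=
      mul_le_mul (𝔟.wp_le _) h1 p1 𝔟.hi_pos.le
    have e2 : 𝔟.wm (x y) * ∏ z ∈ ch G p y, msgR G 𝔟 θ R (-1) y z x ≤ 𝔟.hi * (2 * C) ^ D :=
      mul_le_mul (𝔟.wm_le _) h2 p2 𝔟.hi_pos.le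
    linarith

omit hθa in
theorem measurable_zR' (R : ℕ) (p y : V) : Measurable (zR G 𝔟 θ R p y) :=
  (measurable_bp (G := G) (θ := θ) 𝔟.meas_wp 𝔟.meas_wm R p y).1

omit hθa in
theorem measurable_nR' (R : ℕ) (p y : V) : Measurable (nR G 𝔟 θ R p y) :=
  (measurable_bp (G := G) (θ := θ) 𝔟.meas_wp 𝔟.meas_wm R p y).2

theorem zR_BM (hG : RegTree G D) {p y : V} (hpy : G.Adj p y) (R : ℕ) : BM (zR G 𝔟 θ R p y) := by
  obtain ⟨C, _, h⟩ := zR_bdd 𝔟 hθa hG R
  refine ⟨measurable_zR' 𝔟 R p y, C, fun x => ?_⟩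
  rw [abs_of_pos (zR_pos' 𝔟 hθa R p y x)]
  exact h hpy x

theorem nR_BM (hG : RegTree G D) {p y : V} (hpy : G.Adj p y) (R : ℕ) : BM (nR G 𝔟 θ R p y) := by
  obtain ⟨C, _, h⟩ := zR_bdd 𝔟 hθa hG R
  refine ⟨measurable_nR' 𝔟 R p y, C, fun x => ?_⟩
  exact (abs_nR_lt_zR 𝔟 hθa R p y x).le.trans (h hpy x)

theorem msgR_BM (hG : RegTree G D) {y z : V} (hyz : G.Adj y z) (R : ℕ) (s : ℝ) :
    BM (msgR G 𝔟 θ R s y z) :=
  (zR_BM 𝔟 hθa hG hyz R).add ((BM.const s).mul ((BM.const θ).mul (nR_BM 𝔟 hθa hG hyz R)))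

end Bounds

/-! dependence -/

omit [IsProbabilityMeasure κ] in
theorem zR_congr (hG : RegTree G D) {p y : V} (hpy : G.Adj p y) (R : ℕ) {x x' : V → E}
    (h : ∀ v ∈ sub G R p y, x v = x' v) : zR G 𝔟 θ R p y x = zR G 𝔟 θ R p y x' := by
  unfold zR
  rw [bp_congr hG hpy R (a' := fun v => 𝔟.wp (x' v)) (b' := fun v => 𝔟.wm (x' v))
    fun v hv => by simp [h v hv]]

omit [IsProbabilityMeasure κ] in
theorem nR_congr (hG : RegTree G D) {p y : V} (hpy : G.Adj p y) (R : ℕ) {x x' : V → E}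
    (h : ∀ v ∈ sub G R p y, x v = x' v) : nR G 𝔟 θ R p y x = nR G 𝔟 θ R p y x' := by
  unfold nR
  rw [bp_congr hG hpy R (a' := fun v => 𝔟.wp (x' v)) (b' := fun v => 𝔟.wm (x' v))
    fun v hv => by simp [h v hv]]

omit [IsProbabilityMeasure κ] in
theorem msgR_congr (hG : RegTree G D) {y z : V} (hyz : G.Adj y z) (R : ℕ) (s : ℝ) {x x' : V → E}
    (h : ∀ v ∈ sub G R y z, x v = x' v) : msgR G 𝔟 θ R s y z x = msgR G 𝔟 θ R s y z x' := by
  unfold msgR
  rw [zR_congr 𝔟 hG hyz R h, nR_congr 𝔟 hG hyz R h]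

omit [MeasurableSpace E] in
theorem NoDep.mono {L L' : Finset V} {f : (V → E) → ℝ} (hf : NoDep L f) (h : L' ⊆ L) : NoDep L' f :=
  fun x x' hx => hf x x' fun v hv => hx v fun hv' => hv (h hv')

omit [IsProbabilityMeasure κ] in
theorem msgR_noDep (hG : RegTree G D) {y z : V} (hyz : G.Adj y z) (R : ℕ) (s : ℝ) {L : Finset V}
    (hL : Disjoint L (sub G R y z)) : NoDep L (msgR G 𝔟 θ R s y z) := fun _ _ h =>
  msgR_congr 𝔟 hG hyz R s fun v hv => h v fun hv' => Finset.disjoint_left.mp hL hv' hv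

omit [IsProbabilityMeasure κ] [MeasurableSpace E] in
theorem noDep_coord (f : E → ℝ) {y : V} {L : Finset V} (hy : y ∉ L) :
    NoDep L (fun x : V → E => f (x y)) := fun _ _ h => by simp only [h y hy]

/-! ### The martingale property -/

section Mart

variable (hθa : |θ| ≤ 1) (hG : RegTree G D)
include hθa hG

/-- expansion of `∫ g Z^{R+1}`. -/
theorem int_mul_zR_succ {g : (V → E) → ℝ} (hg : BM g) {p y : V} (hpy : G.Adj p y) (R : ℕ) :
    ∫ x, g x * zR G 𝔟 θ (R + 1) p y x ∂(Measure.infinitePi fun _ : V => κ) =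
      ((∫ x, (g x * 𝔟.wp (x y)) * ∏ z ∈ ch G p y, msgR G 𝔟 θ R 1 y z x
          ∂(Measure.infinitePi fun _ : V => κ)) +
        ∫ x, (g x * 𝔟.wm (x y)) * ∏ z ∈ ch G p y, msgR G 𝔟 θ R (-1) y z x
          ∂(Measure.infinitePi fun _ : V => κ)) / 2 := by
  have hP : ∀ s : ℝ, BM (fun x : V → E => ∏ z ∈ ch G p y, msgR G 𝔟 θ R s y z x) := fun s =>
    BM.prod _ fun z hz => msgR_BM 𝔟 hθa hG (mem_ch.mp hz).1 R s
  have hwp := BM.coord 𝔟.meas_wp 𝔟.abs_wp_le y
  have hwm := BM.coord 𝔟.meas_wm 𝔟.abs_wm_le y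
  rw [← integral_add ((hg.mul hwp).mul (hP 1)).integrable ((hg.mul hwm).mul (hP (-1))).integrable,
    ← integral_div]
  congr 1; funext x
  rw [zR_succ]; ring

/-- expansion of `∫ g n^{R+1}`. -/
theorem int_mul_nR_succ {g : (V → E) → ℝ} (hg : BM g) {p y : V} (hpy : G.Adj p y) (R : ℕ) :
    ∫ x, g x * nR G 𝔟 θ (R + 1) p y x ∂(Measure.infinitePi fun _ : V => κ) =
      ((∫ x, (g x * 𝔟.wp (x y)) * ∏ z ∈ ch G p y, msgR G 𝔟 θ R 1 y z x
          ∂(Measure.infinitePi fun _ : V => κ)) -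
        ∫ x, (g x * 𝔟.wm (x y)) * ∏ z ∈ ch G p y, msgR G 𝔟 θ R (-1) y z x
          ∂(Measure.infinitePi fun _ : V => κ)) / 2 := by
  have hP : ∀ s : ℝ, BM (fun x : V → E => ∏ z ∈ ch G p y, msgR G 𝔟 θ R s y z x) := fun s =>
    BM.prod _ fun z hz => msgR_BM 𝔟 hθa hG (mem_ch.mp hz).1 R s
  have hwp := BM.coord 𝔟.meas_wp 𝔟.abs_wp_le y
  have hwm := BM.coord 𝔟.meas_wm 𝔟.abs_wm_le y
  rw [← integral_sub ((hg.mul hwp).mul (hP 1)).integrable ((hg.mul hwm).mul (hP (-1))).integrable,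
    ← integral_div]
  congr 1; funext x
  rw [nR_succ]; ring

/-- One site factor integrates out. -/
theorem int_mul_msg_zero {h : (V → E) → ℝ} (hb : BM h) {y z : V} (hn : NoDep {z} h) (s : ℝ) :
    ∫ x, h x * msgR G 𝔟 θ 0 s y z x ∂(Measure.infinitePi fun _ : V => κ) =
      ∫ x, h x * 1 ∂(Measure.infinitePi fun _ : V => κ) := by
  let β : E → ℝ := fun e => (𝔟.wp e + 𝔟.wm e) / 2 + s * (θ * ((𝔟.wp e - 𝔟.wm e) / 2))
  have hβ : Measurable β := by
    have h1 := 𝔟.meas_wp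
    have h2 := 𝔟.meas_wm
    exact ((h1.add h2).div_const 2).add (((h1.sub h2).div_const 2).const_mul θ |>.const_mul s)
  have e1 : ∀ x : V → E, msgR G 𝔟 θ 0 s y z x = β (x z) := fun x => by
    simp only [msgR, zR_zero, nR_zero, β]
  simp only [e1, mul_one]
  have hI : ∫ e, β e ∂κ = 1 := by
    have i1 : Integrable 𝔟.wp κ := Integrable.of_bound 𝔟.meas_wp.aestronglyMeasurable 𝔟.hi
      (Eventually.of_forall fun e => by simpa using 𝔟.abs_wp_le e)
    have i2 : Integrable 𝔟.wm κ := Integrable.of_bound 𝔟.meas_wm.aestronglyMeasurable 𝔟.hi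
      (Eventually.of_forall fun e => by simpa using 𝔟.abs_wm_le e)
    have e2 : ∀ e, β e = (1 / 2 + s * θ / 2) * 𝔟.wp e + (1 / 2 - s * θ / 2) * 𝔟.wm e := fun e => by
      simp only [β]; ring
    simp only [e2]
    rw [integral_add (i1.const_mul _) (i2.const_mul _), integral_const_mul, integral_const_mul,
      𝔟.int_wp, 𝔟.int_wm]
    ring
  have key := integral_mul_of_disjoint (κ := κ) (A := {z}ᶜ) (B := {z}) disjoint_compl_left
    (f := h) (g := fun x => β (x z)) hb.meas (hβ.comp (measurable_pi_apply z))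
    (fun x x' hx => hn x x' fun v hv => hx v (by simpa using hv))
    (fun x x' hx => by simp [hx z rfl])
  rw [key, integral_coord z hβ, hI, mul_one]

/-- The martingale property one depth at a time: `g` must not see the new leaves. -/
theorem martingale_step (R : ℕ) : ∀ {p y : V}, G.Adj p y → ∀ {g : (V → E) → ℝ}, BM g →
    NoDep (desc G (R + 1) p y) g →
    (∫ x, g x * zR G 𝔟 θ (R + 1) p y x ∂(Measure.infinitePi fun _ : V => κ) =
        ∫ x, g x * zR G 𝔟 θ R p y x ∂(Measure.infinitePi fun _ : V => κ)) ∧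
      (∫ x, g x * nR G 𝔟 θ (R + 1) p y x ∂(Measure.infinitePi fun _ : V => κ) =
        ∫ x, g x * nR G 𝔟 θ R p y x ∂(Measure.infinitePi fun _ : V => κ)) := by
  induction R with
  | zero =>
    intro p y hpy g hg hn
    have hwp := BM.coord 𝔟.meas_wp 𝔟.abs_wp_le (V := V) y
    have hwm := BM.coord 𝔟.meas_wm 𝔟.abs_wm_le (V := V) y
    -- the products integrate out
    have key : ∀ (s : ℝ) {h : (V → E) → ℝ}, BM h → (∀ z ∈ ch G p y, NoDep {z} h) →
        ∫ x, h x * ∏ z ∈ ch G p y, msgR G 𝔟 θ 0 s y z x ∂(Measure.infinitePi fun _ : V => κ) =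
          ∫ x, h x ∂(Measure.infinitePi fun _ : V => κ) := by
      intro s h hb hh
      have := tele_prod (κ := κ) (ch G p y) (fun z => {z}) (msgR G 𝔟 θ 0 s y)
        (fun _ _ => 1) (fun z hz => msgR_BM 𝔟 hθa hG (mem_ch.mp hz).1 0 s)
        (fun _ _ => BM.const 1)
        (fun z _ h' hb' hn' => int_mul_msg_zero 𝔟 hθa hG hb' hn' s)
        (fun z hz z' hz' hne => msgR_noDep 𝔟 hG (mem_ch.mp hz').1 0 s (by
          rw [Finset.disjoint_singleton_left]
          intro h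
          simp only [sub, Finset.mem_biUnion, Finset.mem_range] at h
          obtain ⟨r, hr, h⟩ := h
          obtain rfl : r = 0 := by omega
          simp only [desc, Finset.mem_singleton] at h
          exact hne h))
        (fun _ _ _ _ _ _ _ _ => rfl) hb hh
      simpa using this
    have hnz : ∀ z ∈ ch G p y, NoDep {z} g := fun z hz => hn.mono (by
      intro u hu
      rw [Finset.mem_singleton] at hu
      subst hu
      simp only [desc, Finset.mem_biUnion, Finset.mem_singleton]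
      exact ⟨u, hz, rfl⟩)
    have hyz : ∀ z ∈ ch G p y, y ∉ ({z} : Finset V) := fun z hz => by
      have := (mem_ch.mp hz).1.ne
      simpa using this
    have k1 := key 1 (hg.mul hwp) fun z hz => (hnz z hz).mul (noDep_coord _ (hyz z hz))
    have k2 := key (-1) (hg.mul hwm) fun z hz => (hnz z hz).mul (noDep_coord _ (hyz z hz))
    rw [int_mul_zR_succ 𝔟 hθa hG hg hpy, int_mul_nR_succ 𝔟 hθa hG hg hpy, k1, k2]
    constructor
    · rw [← integral_add (hg.mul hwp).integrable (hg.mul hwm).integrable, ← integral_div]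
      congr 1; funext x
      rw [zR_zero]; ring
    · rw [← integral_sub (hg.mul hwp).integrable (hg.mul hwm).integrable, ← integral_div]
      congr 1; funext x
      rw [nR_zero]; ring
  | succ R ih =>
    intro p y hpy g hg hn
    have hwp := BM.coord 𝔟.meas_wp 𝔟.abs_wp_le (V := V) y
    have hwm := BM.coord 𝔟.meas_wm 𝔟.abs_wm_le (V := V) y
    have key : ∀ (s : ℝ) {h : (V → E) → ℝ}, BM h → (∀ z ∈ ch G p y, NoDep (desc G (R + 1) y z) h) →
        ∫ x, h x * ∏ z ∈ ch G p y, msgR G 𝔟 θ (R + 1) s y z x ∂(Measure.infinitePi fun _ : V => κ) =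
          ∫ x, h x * ∏ z ∈ ch G p y, msgR G 𝔟 θ R s y z x ∂(Measure.infinitePi fun _ : V => κ) := by
      intro s h hb hh
      refine tele_prod (κ := κ) (ch G p y) (fun z => desc G (R + 1) y z) (msgR G 𝔟 θ (R + 1) s y)
        (msgR G 𝔟 θ R s y) (fun z hz => msgR_BM 𝔟 hθa hG (mem_ch.mp hz).1 _ s)
        (fun z hz => msgR_BM 𝔟 hθa hG (mem_ch.mp hz).1 _ s)
        (fun z hz h' hb' hn' => ?_)
        (fun z hz z' hz' hne => msgR_noDep 𝔟 hG (mem_ch.mp hz').1 _ s
          (disjoint_desc_sub hG hpy hz hz' hne _ _))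
        (fun z hz z' hz' hne => msgR_noDep 𝔟 hG (mem_ch.mp hz').1 _ s
          (disjoint_desc_sub hG hpy hz hz' hne _ _)) hb hh
      have hyz := (mem_ch.mp hz).1
      obtain ⟨i1, i2⟩ := ih hyz hb' hn'
      have a1 := hb'.mul (zR_BM 𝔟 hθa hG hyz (R + 1))
      have a2 := hb'.mul (nR_BM 𝔟 hθa hG hyz (R + 1))
      have a3 := hb'.mul (zR_BM 𝔟 hθa hG hyz R)
      have a4 := hb'.mul (nR_BM 𝔟 hθa hG hyz R)
      calc ∫ x, h' x * msgR G 𝔟 θ (R + 1) s y z x ∂(Measure.infinitePi fun _ : V => κ)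
          = (∫ x, h' x * zR G 𝔟 θ (R + 1) y z x ∂(Measure.infinitePi fun _ : V => κ)) +
              s * θ * ∫ x, h' x * nR G 𝔟 θ (R + 1) y z x ∂(Measure.infinitePi fun _ : V => κ) := by
            rw [← integral_const_mul, ← integral_add a1.integrable (a2.integrable.const_mul _)]
            congr 1; funext x; simp only [msgR]; ring
        _ = (∫ x, h' x * zR G 𝔟 θ R y z x ∂(Measure.infinitePi fun _ : V => κ)) +
              s * θ * ∫ x, h' x * nR G 𝔟 θ R y z x ∂(Measure.infinitePi fun _ : V => κ) := by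
            rw [i1, i2]
        _ = _ := by
            rw [← integral_const_mul, ← integral_add a3.integrable (a4.integrable.const_mul _)]
            congr 1; funext x; simp only [msgR]; ring
    have hnz : ∀ z ∈ ch G p y, NoDep (desc G (R + 1) y z) g := fun z hz => hn.mono (by
      intro u hu
      change u ∈ (ch G p y).biUnion fun z => desc G (R + 1) y z
      exact Finset.mem_biUnion.mpr ⟨z, hz, hu⟩)
    have hyz : ∀ z ∈ ch G p y, y ∉ desc G (R + 1) y z := fun z hz =>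
      not_mem_desc_root hG (mem_ch.mp hz).1 _
    have k1 := key 1 (hg.mul hwp) fun z hz => (hnz z hz).mul (noDep_coord _ (hyz z hz))
    have k2 := key (-1) (hg.mul hwm) fun z hz => (hnz z hz).mul (noDep_coord _ (hyz z hz))
    rw [int_mul_zR_succ 𝔟 hθa hG hg hpy, int_mul_nR_succ 𝔟 hθa hG hg hpy, k1, k2,
      int_mul_zR_succ 𝔟 hθa hG hg hpy, int_mul_nR_succ 𝔟 hθa hG hg hpy]
    exact ⟨rfl, rfl⟩

theorem integral_zR' {p y : V} (hpy : G.Adj p y) (R : ℕ) :
    ∫ x, zR G 𝔟 θ R p y x ∂(Measure.infinitePi fun _ : V => κ) = 1 := by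
  have hone : ∀ R, ∫ x, (1 : ℝ) * zR G 𝔟 θ (R + 1) p y x ∂(Measure.infinitePi fun _ : V => κ) =
      ∫ x, (1 : ℝ) * zR G 𝔟 θ R p y x ∂(Measure.infinitePi fun _ : V => κ) := fun R =>
    (martingale_step 𝔟 hθa hG R hpy (BM.const 1) (fun _ _ _ => rfl)).1
  simp only [one_mul] at hone
  induction R with
  | zero =>
    have i1 := (BM.coord 𝔟.meas_wp 𝔟.abs_wp_le (V := V) y).integrable (κ := κ)
    have i2 := (BM.coord 𝔟.meas_wm 𝔟.abs_wm_le (V := V) y).integrable (κ := κ)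
    simp only [zR_zero]
    rw [integral_div, integral_add i1 i2, integral_coord y 𝔟.meas_wp, integral_coord y 𝔟.meas_wm,
      𝔟.int_wp, 𝔟.int_wm]
    norm_num
  | succ R ih => rw [hone, ih]

theorem integral_nR' {p y : V} (hpy : G.Adj p y) (R : ℕ) :
    ∫ x, nR G 𝔟 θ R p y x ∂(Measure.infinitePi fun _ : V => κ) = 0 := by
  have hone : ∀ R, ∫ x, (1 : ℝ) * nR G 𝔟 θ (R + 1) p y x ∂(Measure.infinitePi fun _ : V => κ) =
      ∫ x, (1 : ℝ) * nR G 𝔟 θ R p y x ∂(Measure.infinitePi fun _ : V => κ) := fun R =>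
    (martingale_step 𝔟 hθa hG R hpy (BM.const 1) (fun _ _ _ => rfl)).2
  simp only [one_mul] at hone
  induction R with
  | zero =>
    have i1 := (BM.coord 𝔟.meas_wp 𝔟.abs_wp_le (V := V) y).integrable (κ := κ)
    have i2 := (BM.coord 𝔟.meas_wm 𝔟.abs_wm_le (V := V) y).integrable (κ := κ)
    simp only [nR_zero]
    rw [integral_div, integral_sub i1 i2, integral_coord y 𝔟.meas_wp, integral_coord y 𝔟.meas_wm,
      𝔟.int_wp, 𝔟.int_wm]
    norm_num
  | succ R ih => rw [hone, ih]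

/-- `∫ (Z + s θ n) = 1`. -/
theorem integral_msgR {y z : V} (hyz : G.Adj y z) (R : ℕ) (s : ℝ) :
    ∫ x, msgR G 𝔟 θ R s y z x ∂(Measure.infinitePi fun _ : V => κ) = 1 := by
  have i1 := (zR_BM 𝔟 hθa hG hyz R).integrable (κ := κ)
  have i2 := (nR_BM 𝔟 hθa hG hyz R).integrable (κ := κ)
  unfold msgR
  rw [integral_add i1 ((i2.const_mul θ).const_mul s), integral_const_mul, integral_const_mul,
    integral_zR' 𝔟 hθa hG hyz, integral_nR' 𝔟 hθa hG hyz]
  ring

omit hθa in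
/-- General factorisation at a site. -/
theorem int_site_prod {p y : V} (hpy : G.Adj p y) (R : ℕ) {w : E → ℝ} (hw : Measurable w)
    (F : V → (V → E) → ℝ) (hF : ∀ z ∈ ch G p y, Measurable (F z))
    (hdep : ∀ z ∈ ch G p y, ∀ x x' : V → E, (∀ v ∈ sub G R y z, x v = x' v) → F z x = F z x') :
    ∫ x, w (x y) * ∏ z ∈ ch G p y, F z x ∂(Measure.infinitePi fun _ : V => κ) =
      (∫ e, w e ∂κ) * ∏ z ∈ ch G p y, ∫ x, F z x ∂(Measure.infinitePi fun _ : V => κ) := by
  have key := integral_mul_of_disjoint (κ := κ) (A := {y})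
    (B := ⋃ z ∈ ch G p y, (sub G R y z : Set V)) ?_
    (f := fun x => w (x y)) (g := fun x => ∏ z ∈ ch G p y, F z x)
    (hw.comp (measurable_pi_apply y)) (Finset.measurable_prod _ hF)
    (fun x x' hx => by simp [hx y rfl]) ?_
  · rw [key, integral_coord y hw]
    congr 1
    exact integral_prod_of_disjoint (ch G p y) (fun z => (sub G R y z : Set V))
      (fun z hz z' hz' hne => by
        simpa using Finset.disjoint_coe.mpr (disjoint_sub_sub hG hpy hz hz' hne R R)) F hF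
      (fun z hz x x' hx => hdep z hz x x' fun v hv => hx v (by simpa using hv))
  · rw [Set.disjoint_singleton_left]
    simp only [Set.mem_iUnion, not_exists]
    intro z hz hy
    exact not_mem_sub_root hG (mem_ch.mp hz).1 R (by simpa using hy)
  · intro x x' hx
    refine Finset.prod_congr rfl fun z hz => hdep z hz x x' fun v hv => hx v ?_
    simp only [Set.mem_iUnion]
    exact ⟨z, hz, by simpa using hv⟩

/-- The flip: `n` changes sign, `Z` does not. -/
theorem zR_swap (R : ℕ) (p y : V) (x : V → E) : zR G 𝔟 θ R p y (𝔟.swap ∘ x) = zR G 𝔟 θ R p y x := by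
  have := bp_swap (G := G) (θ := θ) (fun v => 𝔟.wp (x v)) (fun v => 𝔟.wm (x v)) R p y
  simp only [zR, Function.comp, 𝔟.wp_swap, 𝔟.wm_swap]
  rw [this]

omit hθa hG [IsProbabilityMeasure κ] in
theorem nR_swap (R : ℕ) (p y : V) (x : V → E) : nR G 𝔟 θ R p y (𝔟.swap ∘ x) = -nR G 𝔟 θ R p y x := by
  have := bp_swap (G := G) (θ := θ) (fun v => 𝔟.wp (x v)) (fun v => 𝔟.wm (x v)) R p y
  simp only [nR, Function.comp, 𝔟.wp_swap, 𝔟.wm_swap]
  rw [this]

/-- The flip preserves the product measure. -/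
theorem map_swap_infinitePi :
    (Measure.infinitePi fun _ : V => κ).map (fun x : V → E => 𝔟.swap ∘ x) =
      Measure.infinitePi fun _ : V => κ := by
  have := Measure.infinitePi_map_pi (fun _ : V => κ) (f := fun _ => 𝔟.swap)
    (fun _ => 𝔟.swap_mp.measurable)
  simp only [𝔟.swap_mp.map_eq] at this
  exact this

/-- Even observables are orthogonal to `n`. -/
theorem int_even_mul_nR {f : (V → E) → ℝ} (hf : Measurable f) (heven : ∀ x, f (𝔟.swap ∘ x) = f x)
    {p y : V} (R : ℕ) :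
    ∫ x, f x * nR G 𝔟 θ R p y x ∂(Measure.infinitePi fun _ : V => κ) = 0 := by
  have hm : Measurable (fun x : V → E => 𝔟.swap ∘ x) :=
    measurable_pi_lambda _ fun v => 𝔟.swap_mp.measurable.comp (measurable_pi_apply v)
  have hI := integral_map (μ := Measure.infinitePi fun _ : V => κ) hm.aemeasurable
    (f := fun x => f x * nR G 𝔟 θ R p y x)
    (by rw [map_swap_infinitePi 𝔟 hθa hG]
        exact (hf.mul (measurable_nR' 𝔟 R p y)).aestronglyMeasurable)
  rw [map_swap_infinitePi 𝔟 hθa hG] at hI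
  simp only [heven, nR_swap, mul_neg] at hI
  rw [integral_neg] at hI
  linarith

end Mart

/-! ### Equivariance -/

omit [IsProbabilityMeasure κ] in
theorem zR_map (g : G ≃g G) (R : ℕ) (p y : V) (x : V → E) :
    zR G 𝔟 θ R (g p) (g y) x = zR G 𝔟 θ R p y (x ∘ g) := by
  unfold zR
  rw [bp_map]
  rfl

omit [IsProbabilityMeasure κ] in
theorem nR_map (g : G ≃g G) (R : ℕ) (p y : V) (x : V → E) :
    nR G 𝔟 θ R (g p) (g y) x = nR G 𝔟 θ R p y (x ∘ g) := by
  unfold nR
  rw [bp_map]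
  rfl

omit [IsProbabilityMeasure κ] in
theorem nuR_map (g : G ≃g G) (R : ℕ) (p y : V) (x : V → E) :
    nuR G 𝔟 θ R (g p) (g y) x = nuR G 𝔟 θ R p y (x ∘ g) := by
  unfold nuR bpNu
  rw [bp_map]
  rfl

omit [IsProbabilityMeasure κ] in
theorem nuR_eq (R : ℕ) (p y : V) (x : V → E) :
    nuR G 𝔟 θ R p y x = nR G 𝔟 θ R p y x / zR G 𝔟 θ R p y x := rfl

end Static

/-! ### The main statements of the recursion section -/

variable [IsProbabilityMeasure κ] (𝔟 : BlockData κ) {θ : ℝ}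

section Recursion
variable (hG : RegTree G D) (hθ0 : 0 ≤ θ) (hθ : (D : ℝ) * θ ^ 2 ≤ 1)
include hG hθ0 hθ

omit [IsProbabilityMeasure κ] in
theorem theta_sq_le : θ ^ 2 ≤ 1 / 2 := by
  have h2 : (2 : ℝ) ≤ D := by exact_mod_cast hG.two_le
  nlinarith [sq_nonneg θ]

omit [IsProbabilityMeasure κ] in
theorem abs_theta_le : |θ| ≤ 1 := by
  have := theta_sq_le hG hθ0 hθ
  rw [abs_of_nonneg hθ0]
  nlinarith [sq_nonneg (θ - 1)]

omit [IsProbabilityMeasure κ] in
theorem theta_lt_one : θ < 1 := by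
  have := theta_sq_le hG hθ0 hθ
  nlinarith [sq_nonneg (θ - 1)]

omit [IsProbabilityMeasure κ] in
theorem zR_pos {p y : V} (hpy : G.Adj p y) (R : ℕ) (x : V → E) : 0 < zR G 𝔟 θ R p y x :=
  zR_pos' 𝔟 (abs_theta_le hG hθ0 hθ) R p y x

omit [IsProbabilityMeasure κ] in
theorem abs_nuR_lt {p y : V} (hpy : G.Adj p y) (R : ℕ) (x : V → E) : |nuR G 𝔟 θ R p y x| < 1 := by
  have h1 := abs_nR_lt_zR (G := G) 𝔟 (abs_theta_le hG hθ0 hθ) R p y x
  have h2 := zR_pos 𝔟 hG hθ0 hθ hpy R x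
  rw [nuR_eq, abs_div, abs_of_pos h2, div_lt_one h2]
  exact h1

theorem measurable_zR {p y : V} (hpy : G.Adj p y) (R : ℕ) : Measurable (zR G 𝔟 θ R p y) :=
  measurable_zR' 𝔟 R p y

theorem measurable_nR {p y : V} (hpy : G.Adj p y) (R : ℕ) : Measurable (nR G 𝔟 θ R p y) :=
  measurable_nR' 𝔟 R p y

/-- `E^R[1] = 1` -/
theorem integral_zR {p y : V} (hpy : G.Adj p y) (R : ℕ) :
    ∫ x, zR G 𝔟 θ R p y x ∂(Measure.infinitePi fun _ : V => κ) = 1 :=
  integral_zR' 𝔟 (abs_theta_le hG hθ0 hθ) hG hpy R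

/-- `E^R[ν] = 0` -/
theorem integral_nR {p y : V} (hpy : G.Adj p y) (R : ℕ) :
    ∫ x, nR G 𝔟 θ R p y x ∂(Measure.infinitePi fun _ : V => κ) = 0 :=
  integral_nR' 𝔟 (abs_theta_le hG hθ0 hθ) hG hpy R

/-- Martingale property (J0): for `g` depending only on the blocks in `sub R p y`. -/
theorem EsR_shallow {p y : V} (hpy : G.Adj p y) {R R' : ℕ} (hRR' : R ≤ R') {g : (V → E) → ℝ}
    (hg : Measurable g) (hgb : ∃ C, ∀ x, |g x| ≤ C)
    (hdep : ∀ x x' : V → E, (∀ v ∈ sub G R p y, x v = x' v) → g x = g x') :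
    EsR G 𝔟 θ R' p y g = EsR G 𝔟 θ R p y g ∧
      EsR G 𝔟 θ R' p y (fun x => nuR G 𝔟 θ R' p y x * g x) =
        EsR G 𝔟 θ R p y (fun x => nuR G 𝔟 θ R p y x * g x) := by
  have hθa := abs_theta_le hG hθ0 hθ
  have hgB : BM g := ⟨hg, hgb⟩
  have hnu : ∀ R'' : ℕ, EsR G 𝔟 θ R'' p y (fun x => nuR G 𝔟 θ R'' p y x * g x) =
      ∫ x, g x * nR G 𝔟 θ R'' p y x ∂(Measure.infinitePi fun _ : V => κ) := by
    intro R''
    unfold EsR
    congr 1; funext x
    have h2 := zR_pos 𝔟 hG hθ0 hθ hpy R'' x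
    beta_reduce
    rw [nuR_eq]
    field_simp
  have hstep : ∀ R'' : ℕ, R ≤ R'' →
      (∫ x, g x * zR G 𝔟 θ (R'' + 1) p y x ∂(Measure.infinitePi fun _ : V => κ) =
        ∫ x, g x * zR G 𝔟 θ R'' p y x ∂(Measure.infinitePi fun _ : V => κ)) ∧
      (∫ x, g x * nR G 𝔟 θ (R'' + 1) p y x ∂(Measure.infinitePi fun _ : V => κ) =
        ∫ x, g x * nR G 𝔟 θ R'' p y x ∂(Measure.infinitePi fun _ : V => κ)) := by
    intro R'' hR''
    refine martingale_step 𝔟 hθa hG R'' hpy hgB ?_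
    intro x x' hx
    apply hdep
    intro v hv
    apply hx
    intro hv'
    have h3 : v ∈ sub G R'' p y := by
      simp only [sub, Finset.mem_biUnion, Finset.mem_range] at hv ⊢
      obtain ⟨r, hr, hv⟩ := hv
      exact ⟨r, by omega, hv⟩
    exact Finset.disjoint_left.mp (disjoint_desc_sub_root hG hpy (Nat.lt_succ_self R'')) hv' h3
  rw [hnu, hnu]
  unfold EsR
  induction R', hRR' using Nat.le_induction with
  | base => exact ⟨rfl, rfl⟩
  | succ R'' hR'' ih =>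
    obtain ⟨i1, i2⟩ := hstep R'' hR''
    exact ⟨i1.trans ih.1, i2.trans ih.2⟩

/-- (J0, disjoint subtrees) flip-even functions of the children subtrees are independent under `E^{R+1}`. -/
theorem EsR_prod_children {p y : V} (hpy : G.Adj p y) (R : ℕ) (f : V → (V → E) → ℝ)
    (hfm : ∀ z, Measurable (f z)) (hfb : ∃ C, ∀ z x, |f z x| ≤ C)
    (hdep : ∀ z ∈ ch G p y, ∀ x x' : V → E, (∀ v ∈ sub G R y z, x v = x' v) → f z x = f z x')
    (heven : ∀ z ∈ ch G p y, ∀ x, f z (𝔟.swap ∘ x) = f z x) :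
    EsR G 𝔟 θ (R + 1) p y (fun x => ∏ z ∈ ch G p y, f z x) =
      ∏ z ∈ ch G p y, EsR G 𝔟 θ R y z (f z) := by
  have hθa := abs_theta_le hG hθ0 hθ
  obtain ⟨C, hC⟩ := hfb
  have hfB : ∀ z, BM (f z) := fun z => ⟨hfm z, C, hC z⟩
  have hgB : BM (fun x => ∏ z ∈ ch G p y, f z x) := BM.prod _ fun z _ => hfB z
  unfold EsR
  rw [int_mul_zR_succ 𝔟 hθa hG hgB hpy]
  have key : ∀ (s : ℝ) {w : E → ℝ}, Measurable w →
      ∫ x, ((∏ z ∈ ch G p y, f z x) * w (x y)) * ∏ z ∈ ch G p y, msgR G 𝔟 θ R s y z x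
          ∂(Measure.infinitePi fun _ : V => κ) =
        (∫ e, w e ∂κ) * ∏ z ∈ ch G p y, ∫ x, f z x * zR G 𝔟 θ R y z x
          ∂(Measure.infinitePi fun _ : V => κ) := by
    intro s w hw
    have e1 : ∀ x : V → E, ((∏ z ∈ ch G p y, f z x) * w (x y)) * ∏ z ∈ ch G p y, msgR G 𝔟 θ R s y z x =
        w (x y) * ∏ z ∈ ch G p y, (f z x * msgR G 𝔟 θ R s y z x) := fun x => by
      rw [Finset.prod_mul_distrib]; ring
    simp only [e1]
    rw [int_site_prod hG hpy R hw (fun z x => f z x * msgR G 𝔟 θ R s y z x)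
      (fun z hz => (hfm z).mul (msgR_BM 𝔟 hθa hG (mem_ch.mp hz).1 R s).meas)
      (fun z hz x x' hx => by
        rw [hdep z hz x x' hx, msgR_congr 𝔟 hG (mem_ch.mp hz).1 R s hx])]
    congr 1
    refine Finset.prod_congr rfl fun z hz => ?_
    have hyz := (mem_ch.mp hz).1
    have a1 := (hfB z).mul (zR_BM 𝔟 hθa hG hyz R)
    have a2 := (hfB z).mul (nR_BM 𝔟 hθa hG hyz R)
    have h0 := int_even_mul_nR 𝔟 hθa hG (hfm z) (heven z hz) (p := y) (y := z) R
    calc ∫ x, f z x * msgR G 𝔟 θ R s y z x ∂(Measure.infinitePi fun _ : V => κ)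
        = (∫ x, f z x * zR G 𝔟 θ R y z x ∂(Measure.infinitePi fun _ : V => κ)) +
            s * θ * ∫ x, f z x * nR G 𝔟 θ R y z x ∂(Measure.infinitePi fun _ : V => κ) := by
          rw [← integral_const_mul, ← integral_add a1.integrable (a2.integrable.const_mul _)]
          congr 1; funext x; simp only [msgR]; ring
      _ = _ := by rw [h0]; ring
  rw [key 1 𝔟.meas_wp, key (-1) 𝔟.meas_wm, 𝔟.int_wp, 𝔟.int_wm]
  ring

/-- All directed edges have the same static expectations (for equivariant functionals use the automorphism). -/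
theorem EsR_comp_aut (g : G ≃g G) {p y : V} (R : ℕ) (f : (V → E) → ℝ) (hf : Measurable f)
    (hfb : ∃ C, ∀ x, |f x| ≤ C) :
    EsR G 𝔟 θ R (g p) (g y) f = EsR G 𝔟 θ R p y (fun x => f (x ∘ g.symm)) := by
  unfold EsR
  have hmap := map_comp_aut_infinitePi (G := G) κ g.symm
  have hm : Measurable (fun x : V → E => x ∘ g.symm) :=
    measurable_pi_lambda _ fun v => measurable_pi_apply (g.symm v)
  have hI := integral_map (μ := Measure.infinitePi fun _ : V => κ) hm.aemeasurable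
    (f := fun x => f x * zR G 𝔟 θ R (g p) (g y) x)
    (by rw [hmap]; exact (hf.mul (measurable_zR' 𝔟 R _ _)).aestronglyMeasurable)
  rw [hmap] at hI
  rw [hI]
  congr 1; funext x
  rw [zR_map]
  congr 2
  funext v
  simp

/-- Children of the same vertex have equal static expectations of the corresponding functional. -/
theorem EsR_child_eq {p y z z' : V} (hz : z ∈ ch G p y) (hz' : z' ∈ ch G p y) (R : ℕ)
    (F : ℝ → ℝ) (hF : Measurable F) (hFb : ∃ C, ∀ t, |t| < 1 → |F t| ≤ C) :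
    EsR G 𝔟 θ R y z (fun x => F (nuR G 𝔟 θ R y z x)) =
      EsR G 𝔟 θ R y z' (fun x => F (nuR G 𝔟 θ R y z' x)) := by
  have hyz := (mem_ch.mp hz).1
  have hyz' := (mem_ch.mp hz').1
  obtain ⟨g, hg⟩ := hG.exists_aut_of_isNB (l := [y, z]) (l' := [y, z']) hyz hyz' rfl
  simp only [List.map_cons, List.map_nil, List.cons.injEq, and_true] at hg
  obtain ⟨hgy, hgz⟩ := hg
  obtain ⟨C, hC⟩ := hFb
  have hnu : Measurable (nuR G 𝔟 θ R y z') := by
    have h1 := measurable_nR' 𝔟 (θ := θ) (G := G) R y z'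
    have h2 := measurable_zR' 𝔟 (θ := θ) (G := G) R y z'
    exact h1.div h2
  have key := EsR_comp_aut 𝔟 hG hθ0 hθ g (p := y) (y := z) R (fun x => F (nuR G 𝔟 θ R y z' x))
    (hF.comp hnu) ⟨C, fun x => hC _ (abs_nuR_lt 𝔟 hG hθ0 hθ hyz' R x)⟩
  rw [hgy, hgz] at key
  have e : ∀ x : V → E, nuR G 𝔟 θ R y z' (x ∘ g.symm) = nuR G 𝔟 θ R y z x := by
    intro x
    have h3 := nuR_map 𝔟 (G := G) (θ := θ) g R y z (x ∘ g.symm)
    rw [hgy, hgz] at h3
    rw [h3]
    congr 1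
    funext v
    simp
  rw [key]
  simp only [e]

end Recursion

/-! ### The exact identities -/

section Identities
variable (hG : RegTree G D) (hθ0 : 0 ≤ θ) (hθ : (D : ℝ) * θ ^ 2 ≤ 1)
include hG hθ0 hθ

/-- `(1+θν)/(1-θν)` as a ratio of message factors. -/
theorem msg_ratio {y z : V} (R : ℕ) (x : V → E) :
    msgR G 𝔟 θ R 1 y z x / msgR G 𝔟 θ R (-1) y z x =
      (1 + θ * nuR G 𝔟 θ R y z x) / (1 - θ * nuR G 𝔟 θ R y z x) := by
  have hZ : 0 < zR G 𝔟 θ R y z x := zR_pos' 𝔟 (abs_theta_le hG hθ0 hθ) R y z x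
  have hm : 0 < msgR G 𝔟 θ R (-1) y z x := msgR_pos 𝔟 (abs_theta_le hG hθ0 hθ) (by simp) R y z x
  have h1 : 1 - θ * nuR G 𝔟 θ R y z x = msgR G 𝔟 θ R (-1) y z x / zR G 𝔟 θ R y z x := by
    rw [nuR_eq]; unfold msgR; field_simp; ring
  have h2 : 1 + θ * nuR G 𝔟 θ R y z x = msgR G 𝔟 θ R 1 y z x / zR G 𝔟 θ R y z x := by
    rw [nuR_eq]; unfold msgR; field_simp
  rw [h1, h2]
  field_simp

/-- Product of the two message factors. -/
theorem msg_mul {y z : V} (R : ℕ) (x : V → E) :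
    Real.sqrt (msgR G 𝔟 θ R 1 y z x * msgR G 𝔟 θ R (-1) y z x) =
      zR G 𝔟 θ R y z x * Real.sqrt (1 - (θ * nuR G 𝔟 θ R y z x) ^ 2) := by
  have hZ : 0 < zR G 𝔟 θ R y z x := zR_pos' 𝔟 (abs_theta_le hG hθ0 hθ) R y z x
  have e : msgR G 𝔟 θ R 1 y z x * msgR G 𝔟 θ R (-1) y z x =
      zR G 𝔟 θ R y z x ^ 2 * (1 - (θ * nuR G 𝔟 θ R y z x) ^ 2) := by
    rw [nuR_eq]; unfold msgR; field_simp; ring
  rw [e, Real.sqrt_mul (by positivity), Real.sqrt_sq hZ.le]

/-- The root identity for `√(1-ν²) Z`. -/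
theorem sqrt_root_identity {p y : V} (hpy : G.Adj p y) (R : ℕ) (x : V → E) :
    Real.sqrt (1 - nuR G 𝔟 θ (R + 1) p y x ^ 2) * zR G 𝔟 θ (R + 1) p y x =
      Real.sqrt (𝔟.wp (x y) * 𝔟.wm (x y)) *
        ∏ z ∈ ch G p y, (zR G 𝔟 θ R y z x * Real.sqrt (1 - (θ * nuR G 𝔟 θ R y z x) ^ 2)) := by
  have hθa := abs_theta_le hG hθ0 hθ
  have hZ : 0 < zR G 𝔟 θ (R + 1) p y x := zR_pos' 𝔟 hθa _ p y x
  have hP : ∀ s : ℝ, |s| ≤ 1 → 0 ≤ ∏ z ∈ ch G p y, msgR G 𝔟 θ R s y z x := fun s hs =>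
    Finset.prod_nonneg fun z _ => le_of_lt (msgR_pos 𝔟 hθa hs R y z x)
  have e1 : (1 - nuR G 𝔟 θ (R + 1) p y x ^ 2) * zR G 𝔟 θ (R + 1) p y x ^ 2 =
      (𝔟.wp (x y) * 𝔟.wm (x y)) *
        ∏ z ∈ ch G p y, (msgR G 𝔟 θ R 1 y z x * msgR G 𝔟 θ R (-1) y z x) := by
    rw [Finset.prod_mul_distrib, nuR_eq]
    have : zR G 𝔟 θ (R + 1) p y x ≠ 0 := hZ.ne'
    field_simp
    rw [zR_succ, nR_succ]
    ring
  have e2 : Real.sqrt (1 - nuR G 𝔟 θ (R + 1) p y x ^ 2) * zR G 𝔟 θ (R + 1) p y x =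
      Real.sqrt ((1 - nuR G 𝔟 θ (R + 1) p y x ^ 2) * zR G 𝔟 θ (R + 1) p y x ^ 2) := by
    rw [Real.sqrt_mul' _ (by positivity), Real.sqrt_sq hZ.le]
  rw [e2, e1, Real.sqrt_mul (mul_pos (𝔟.wp_pos _) (𝔟.wm_pos _)).le]
  congr 1
  rw [Real.sqrt_prod]
  · exact Finset.prod_congr rfl fun z _ => msg_mul 𝔟 hG hθ0 hθ R x
  · intro z _
    exact mul_nonneg (le_of_lt (msgR_pos 𝔟 hθa (by simp) R y z x))
      (le_of_lt (msgR_pos 𝔟 hθa (by simp) R y z x))

omit hθ0 hθ in
/-- Factorisation with one extra observable on one child. -/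
theorem int_site_prod_single {p y z : V} (hpy : G.Adj p y) (hz : z ∈ ch G p y) (R : ℕ) {w : E → ℝ}
    (hw : Measurable w) (F : V → (V → E) → ℝ) (hF : ∀ z ∈ ch G p y, Measurable (F z))
    (hdep : ∀ z ∈ ch G p y, ∀ x x' : V → E, (∀ v ∈ sub G R y z, x v = x' v) → F z x = F z x')
    {g : (V → E) → ℝ} (hg : Measurable g)
    (hgd : ∀ x x' : V → E, (∀ v ∈ sub G R y z, x v = x' v) → g x = g x') :
    ∫ x, w (x y) * ((∏ z' ∈ ch G p y, F z' x) * g x) ∂(Measure.infinitePi fun _ : V => κ) =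
      (∫ e, w e ∂κ) * ((∫ x, F z x * g x ∂(Measure.infinitePi fun _ : V => κ)) *
        ∏ z' ∈ (ch G p y).erase z, ∫ x, F z' x ∂(Measure.infinitePi fun _ : V => κ)) := by
  let F' : V → (V → E) → ℝ := fun z' x => if z' = z then F z x * g x else F z' x
  have e1 : ∀ x, (∏ z' ∈ ch G p y, F z' x) * g x = ∏ z' ∈ ch G p y, F' z' x := by
    intro x
    rw [← Finset.mul_prod_erase _ _ hz, ← Finset.mul_prod_erase (ch G p y) (fun z' => F' z' x) hz]
    simp only [F', if_true]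
    have : ∏ z' ∈ (ch G p y).erase z, (if z' = z then F z x * g x else F z' x) =
        ∏ z' ∈ (ch G p y).erase z, F z' x :=
      Finset.prod_congr rfl fun z' hz' => by rw [if_neg (Finset.ne_of_mem_erase hz')]
    rw [this]; ring
  simp only [e1]
  rw [int_site_prod hG hpy R hw F' ?_ ?_, ← Finset.mul_prod_erase _ _ hz]
  · simp only [F', if_true]
    congr 2
    refine Finset.prod_congr rfl fun z' hz' => ?_
    simp only [if_neg (Finset.ne_of_mem_erase hz')]
  · intro z' hz'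
    by_cases h : z' = z
    · subst h
      simp only [F', if_true]
      exact (hF z' hz').mul hg
    · simp only [F', if_neg h]
      exact hF z' hz'
  · intro z' hz' x x' hx
    by_cases h : z' = z
    · subst h
      simp only [F', if_true]
      rw [hdep z' hz' x x' hx, hgd x x' hx]
    · simp only [F', if_neg h]
      exact hdep z' hz' x x' hx

omit hG hθ0 hθ [IsProbabilityMeasure κ] [MeasurableSpace E] in
/-- bound for `log((1+u)/(1-u))`. -/
theorem abs_logRatio_le {u t : ℝ} (hu : |u| ≤ t) (ht : t < 1) :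
    |Real.log ((1 + u) / (1 - u))| ≤ Real.log ((1 + t) / (1 - t)) := by
  obtain ⟨h1, h2⟩ := abs_le.mp hu
  have ht0 : 0 ≤ t := (abs_nonneg _).trans hu
  have p1 : 0 < 1 + u := by linarith
  have p2 : 0 < 1 - u := by linarith
  have p3 : 0 < 1 - t := by linarith
  have p4 : 0 < 1 + t := by linarith
  rw [abs_le]
  constructor
  · have : Real.log ((1 + u) / (1 - u)) = -Real.log ((1 - u) / (1 + u)) := by
      rw [← Real.log_inv, inv_div]
    rw [this, neg_le_neg_iff]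
    apply Real.log_le_log (by positivity)
    rw [div_le_div_iff₀ p1 p3]
    nlinarith
  · apply Real.log_le_log (by positivity)
    rw [div_le_div_iff₀ p2 p3]
    nlinarith

theorem measurable_nuR {p y : V} (R : ℕ) : Measurable (nuR G 𝔟 θ R p y) :=
  (measurable_nR' 𝔟 (θ := θ) (G := G) R p y).div (measurable_zR' 𝔟 (θ := θ) (G := G) R p y)

/-- `log((1+ν)/(1-ν))` at the root. -/
theorem log_root_identity {p y : V} (hpy : G.Adj p y) (R : ℕ) (x : V → E) :
    Real.log ((1 + nuR G 𝔟 θ (R + 1) p y x) / (1 - nuR G 𝔟 θ (R + 1) p y x)) =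
      Real.log (𝔟.wp (x y) / 𝔟.wm (x y)) +
        ∑ z ∈ ch G p y, Real.log ((1 + θ * nuR G 𝔟 θ R y z x) / (1 - θ * nuR G 𝔟 θ R y z x)) := by
  have hθa := abs_theta_le hG hθ0 hθ
  have hZ : 0 < zR G 𝔟 θ (R + 1) p y x := zR_pos' 𝔟 hθa _ p y x
  have hP : ∀ s : ℝ, |s| ≤ 1 → 0 < ∏ z ∈ ch G p y, msgR G 𝔟 θ R s y z x := fun s hs =>
    Finset.prod_pos fun z _ => msgR_pos 𝔟 hθa hs R y z x
  have ha := 𝔟.wp_pos (x y)
  have hb := 𝔟.wm_pos (x y)
  have hP1 := hP 1 (by simp)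
  have hP2 := hP (-1) (by simp)
  have e1 : 1 + nuR G 𝔟 θ (R + 1) p y x =
      𝔟.wp (x y) * (∏ z ∈ ch G p y, msgR G 𝔟 θ R 1 y z x) / zR G 𝔟 θ (R + 1) p y x := by
    rw [nuR_eq]; field_simp; rw [nR_succ, zR_succ]; ring
  have e2 : 1 - nuR G 𝔟 θ (R + 1) p y x =
      𝔟.wm (x y) * (∏ z ∈ ch G p y, msgR G 𝔟 θ R (-1) y z x) / zR G 𝔟 θ (R + 1) p y x := by
    rw [nuR_eq]; field_simp; rw [nR_succ, zR_succ]; ring
  have e3 : (1 + nuR G 𝔟 θ (R + 1) p y x) / (1 - nuR G 𝔟 θ (R + 1) p y x) =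
      (𝔟.wp (x y) / 𝔟.wm (x y)) *
        ∏ z ∈ ch G p y, ((1 + θ * nuR G 𝔟 θ R y z x) / (1 - θ * nuR G 𝔟 θ R y z x)) := by
    rw [e1, e2]
    have : ∏ z ∈ ch G p y, ((1 + θ * nuR G 𝔟 θ R y z x) / (1 - θ * nuR G 𝔟 θ R y z x)) =
        (∏ z ∈ ch G p y, msgR G 𝔟 θ R 1 y z x) / ∏ z ∈ ch G p y, msgR G 𝔟 θ R (-1) y z x := by
      rw [← Finset.prod_div_distrib]
      exact Finset.prod_congr rfl fun z _ => (msg_ratio 𝔟 hG hθ0 hθ R x).symm
    rw [this]
    field_simp
  have hpos : ∀ z ∈ ch G p y, (1 + θ * nuR G 𝔟 θ R y z x) / (1 - θ * nuR G 𝔟 θ R y z x) ≠ 0 := by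
    intro z _
    rw [← msg_ratio 𝔟 hG hθ0 hθ R x]
    exact (div_pos (msgR_pos 𝔟 hθa (by simp) R y z x) (msgR_pos 𝔟 hθa (by simp) R y z x)).ne'
  rw [e3, Real.log_mul (div_pos ha hb).ne' (Finset.prod_ne_zero_iff.mpr hpos), Real.log_prod hpos]

omit hG hθ0 hθ [IsProbabilityMeasure κ] in
theorem abs_nuR_lt' (hθa : |θ| ≤ 1) (R : ℕ) (p y : V) (x : V → E) : |nuR G 𝔟 θ R p y x| < 1 := by
  have h1 : |nR G 𝔟 θ R p y x| < zR G 𝔟 θ R p y x := abs_nR_lt_zR 𝔟 hθa R p y x
  have h2 : 0 < zR G 𝔟 θ R p y x := zR_pos' 𝔟 hθa R p y x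
  rw [nuR_eq, abs_div, abs_of_pos h2, div_lt_one h2]
  exact h1

omit hG hθ0 hθ [IsProbabilityMeasure κ] in
theorem nuR_congr (hG : RegTree G D) {p y : V} (hpy : G.Adj p y) (R : ℕ) {x x' : V → E}
    (h : ∀ v ∈ sub G R p y, x v = x' v) : nuR G 𝔟 θ R p y x = nuR G 𝔟 θ R p y x' := by
  rw [nuR_eq, nuR_eq, zR_congr 𝔟 hG hpy R h, nR_congr 𝔟 hG hpy R h]

omit hG hθ0 hθ [IsProbabilityMeasure κ] in
theorem BlockData.abs_logr_le (e : E) :
    |Real.log (𝔟.wp e / 𝔟.wm e)| ≤ Real.log 𝔟.hi - Real.log 𝔟.lo := by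
  have h1 := 𝔟.wp_pos e
  have h2 := 𝔟.wm_pos e
  rw [Real.log_div h1.ne' h2.ne', abs_le]
  have a1 := Real.log_le_log 𝔟.lo_pos (𝔟.wp_ge e)
  have a2 := Real.log_le_log 𝔟.lo_pos (𝔟.wm_ge e)
  have a3 := Real.log_le_log h1 (𝔟.wp_le e)
  have a4 := Real.log_le_log h2 (𝔟.wm_le e)
  constructor <;> linarith

/-- (J1) KL recursion. -/
theorem kl_recursion {p y z : V} (hpy : G.Adj p y) (hz : z ∈ ch G p y) (R : ℕ) :
    EsR G 𝔟 θ (R + 1) p y (fun x => phiKL (nuR G 𝔟 θ (R + 1) p y x)) =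
      𝔟.kl + D * EsR G 𝔟 θ R y z (fun x => phiKL (θ * nuR G 𝔟 θ R y z x)) := by
  have hθa := abs_theta_le hG hθ0 hθ
  have hθ1 := theta_lt_one hG hθ0 hθ
  let L : V → (V → E) → ℝ := fun z x =>
    Real.log ((1 + θ * nuR G 𝔟 θ R y z x) / (1 - θ * nuR G 𝔟 θ R y z x))
  have hC : ∀ z x, |L z x| ≤ Real.log ((1 + θ) / (1 - θ)) := by
    intro z x
    refine abs_logRatio_le ?_ hθ1
    rw [abs_mul, abs_of_nonneg hθ0]
    exact mul_le_of_le_one_right hθ0 (abs_nuR_lt' 𝔟 hθa R y z x).le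
  have hLm : ∀ z, Measurable (L z) := fun z => by
    have h1 := measurable_nuR 𝔟 hG hθ0 hθ (θ := θ) (p := y) (y := z) R
    exact Real.measurable_log.comp
      ((measurable_const.add (h1.const_mul θ)).div (measurable_const.sub (h1.const_mul θ)))
  have hLB : ∀ z, BM (L z) := fun z => ⟨hLm z, _, hC z⟩
  have hLd : ∀ z' ∈ ch G p y, ∀ x x' : V → E, (∀ v ∈ sub G R y z', x v = x' v) → L z' x = L z' x' := by
    intro z' hz' x x' hx
    simp only [L]
    rw [nuR_congr 𝔟 hG (mem_ch.mp hz').1 R hx]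
  have hmsg : ∀ (s : ℝ), ∀ z' ∈ ch G p y, BM (msgR G 𝔟 θ R s y z') := fun s z' hz' =>
    msgR_BM 𝔟 hθa hG (mem_ch.mp hz').1 R s
  have hP : ∀ s : ℝ, BM (fun x : V → E => ∏ z' ∈ ch G p y, msgR G 𝔟 θ R s y z' x) := fun s =>
    BM.prod _ (hmsg s)
  have hwp := BM.coord 𝔟.meas_wp 𝔟.abs_wp_le (V := V) y
  have hwm := BM.coord 𝔟.meas_wm 𝔟.abs_wm_le (V := V) y
  have hkm : Measurable fun e => Real.log (𝔟.wp e / 𝔟.wm e) :=
    Real.measurable_log.comp (𝔟.meas_wp.div 𝔟.meas_wm)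
  have hk := BM.coord hkm 𝔟.abs_logr_le (V := V) y
  -- pointwise identity
  have e : ∀ x : V → E, phiKL (nuR G 𝔟 θ (R + 1) p y x) * zR G 𝔟 θ (R + 1) p y x =
      (1 / 2) * (((𝔟.wp (x y) * Real.log (𝔟.wp (x y) / 𝔟.wm (x y))) *
            ∏ z' ∈ ch G p y, msgR G 𝔟 θ R 1 y z' x -
          (𝔟.wm (x y) * Real.log (𝔟.wp (x y) / 𝔟.wm (x y))) *
            ∏ z' ∈ ch G p y, msgR G 𝔟 θ R (-1) y z' x) +
        ∑ z' ∈ ch G p y, (𝔟.wp (x y) * ((∏ z'' ∈ ch G p y, msgR G 𝔟 θ R 1 y z'' x) * L z' x) -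
          𝔟.wm (x y) * ((∏ z'' ∈ ch G p y, msgR G 𝔟 θ R (-1) y z'' x) * L z' x))) := by
    intro x
    have hZ : zR G 𝔟 θ (R + 1) p y x ≠ 0 := (zR_pos' 𝔟 hθa _ p y x).ne'
    have e0 : nuR G 𝔟 θ (R + 1) p y x * zR G 𝔟 θ (R + 1) p y x = nR G 𝔟 θ (R + 1) p y x := by
      rw [nuR_eq]; field_simp
    have e1 : ∑ z' ∈ ch G p y, (𝔟.wp (x y) * ((∏ z'' ∈ ch G p y, msgR G 𝔟 θ R 1 y z'' x) * L z' x) -
          𝔟.wm (x y) * ((∏ z'' ∈ ch G p y, msgR G 𝔟 θ R (-1) y z'' x) * L z' x)) =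
        (𝔟.wp (x y) * (∏ z'' ∈ ch G p y, msgR G 𝔟 θ R 1 y z'' x) -
          𝔟.wm (x y) * (∏ z'' ∈ ch G p y, msgR G 𝔟 θ R (-1) y z'' x)) * ∑ z' ∈ ch G p y, L z' x := by
      rw [Finset.mul_sum]
      exact Finset.sum_congr rfl fun z' _ => by ring
    rw [e1]
    unfold phiKL
    rw [log_root_identity 𝔟 hG hθ0 hθ hpy R x]
    calc nuR G 𝔟 θ (R + 1) p y x * _ * zR G 𝔟 θ (R + 1) p y x
        = (nuR G 𝔟 θ (R + 1) p y x * zR G 𝔟 θ (R + 1) p y x) *
            (Real.log (𝔟.wp (x y) / 𝔟.wm (x y)) + ∑ z' ∈ ch G p y, L z' x) := by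
          simp only [L]; ring
      _ = _ := by rw [e0, nR_succ]; ring
  -- the integrals
  have I0 : ∀ (s : ℝ) {w : E → ℝ}, Measurable w →
      ∫ x, w (x y) * ∏ z' ∈ ch G p y, msgR G 𝔟 θ R s y z' x ∂(Measure.infinitePi fun _ : V => κ) =
        ∫ e, w e ∂κ := by
    intro s w hw
    rw [int_site_prod hG hpy R hw (msgR G 𝔟 θ R s y) (fun z' hz' => (hmsg s z' hz').meas)
      (fun z' hz' x x' hx => msgR_congr 𝔟 hG (mem_ch.mp hz').1 R s hx)]
    rw [Finset.prod_eq_one (fun z' hz' => integral_msgR 𝔟 hθa hG (mem_ch.mp hz').1 R s), mul_one]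
  have I1 : ∀ (s : ℝ) {w : E → ℝ}, Measurable w → ∫ e, w e ∂κ = 1 → ∀ z' ∈ ch G p y,
      ∫ x, w (x y) * ((∏ z'' ∈ ch G p y, msgR G 𝔟 θ R s y z'' x) * L z' x)
          ∂(Measure.infinitePi fun _ : V => κ) =
        ∫ x, msgR G 𝔟 θ R s y z' x * L z' x ∂(Measure.infinitePi fun _ : V => κ) := by
    intro s w hw hw1 z' hz'
    rw [int_site_prod_single hG hpy hz' R hw (msgR G 𝔟 θ R s y)
      (fun z' hz' => (hmsg s z' hz').meas)
      (fun z' hz' x x' hx => msgR_congr 𝔟 hG (mem_ch.mp hz').1 R s hx) (hLm z') (hLd z' hz')]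
    rw [hw1, one_mul, Finset.prod_eq_one, mul_one]
    intro z'' hz''
    exact integral_msgR 𝔟 hθa hG (mem_ch.mp (Finset.mem_of_mem_erase hz'')).1 R s
  -- child term
  have I2 : ∀ z' ∈ ch G p y,
      (∫ x, msgR G 𝔟 θ R 1 y z' x * L z' x ∂(Measure.infinitePi fun _ : V => κ)) -
        ∫ x, msgR G 𝔟 θ R (-1) y z' x * L z' x ∂(Measure.infinitePi fun _ : V => κ) =
      2 * EsR G 𝔟 θ R y z (fun x => phiKL (θ * nuR G 𝔟 θ R y z x)) := by
    intro z' hz'
    have hF : Measurable fun t : ℝ => phiKL (θ * t) := by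
      unfold phiKL
      have h1 : Measurable fun t : ℝ => θ * t := measurable_id.const_mul θ
      exact h1.mul (Real.measurable_log.comp
        ((measurable_const.add h1).div (measurable_const.sub h1)))
    have hFb : ∃ C, ∀ t : ℝ, |t| < 1 → |phiKL (θ * t)| ≤ C := by
      refine ⟨Real.log ((1 + θ) / (1 - θ)), fun t ht => ?_⟩
      have h1 : |θ * t| ≤ θ := by
        rw [abs_mul, abs_of_nonneg hθ0]
        exact mul_le_of_le_one_right hθ0 ht.le
      have h2 := abs_logRatio_le h1 hθ1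
      unfold phiKL
      rw [abs_mul]
      calc |θ * t| * _ ≤ 1 * Real.log ((1 + θ) / (1 - θ)) :=
            mul_le_mul (h1.trans hθ1.le) h2 (abs_nonneg _) zero_le_one
        _ = _ := one_mul _
    rw [← EsR_child_eq 𝔟 hG hθ0 hθ hz' hz R _ hF hFb]
    have a1 := (hmsg 1 z' hz').mul (hLB z')
    have a2 := (hmsg (-1) z' hz').mul (hLB z')
    rw [← integral_sub a1.integrable a2.integrable]
    unfold EsR
    rw [← integral_const_mul]
    congr 1; funext x
    have hZ : zR G 𝔟 θ R y z' x ≠ 0 := (zR_pos' 𝔟 hθa _ y z' x).ne'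
    unfold phiKL
    simp only [L, msgR, nuR_eq]
    field_simp
    ring
  unfold EsR
  simp only [e]
  have i1 := ((hwp.mul hk).mul (hP 1)).integrable (κ := κ)
  have i2 := ((hwm.mul hk).mul (hP (-1))).integrable (κ := κ)
  have i3 : ∀ z' ∈ ch G p y, Integrable (fun x : V → E =>
      𝔟.wp (x y) * ((∏ z'' ∈ ch G p y, msgR G 𝔟 θ R 1 y z'' x) * L z' x) -
          𝔟.wm (x y) * ((∏ z'' ∈ ch G p y, msgR G 𝔟 θ R (-1) y z'' x) * L z' x))
      (Measure.infinitePi fun _ : V => κ) := fun z' _ =>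
    ((hwp.mul ((hP 1).mul (hLB z'))).sub (hwm.mul ((hP (-1)).mul (hLB z')))).integrable
  have i12 : Integrable (fun x : V → E =>
      (𝔟.wp (x y) * Real.log (𝔟.wp (x y) / 𝔟.wm (x y))) * ∏ z' ∈ ch G p y, msgR G 𝔟 θ R 1 y z' x -
        (𝔟.wm (x y) * Real.log (𝔟.wp (x y) / 𝔟.wm (x y))) * ∏ z' ∈ ch G p y, msgR G 𝔟 θ R (-1) y z' x)
      (Measure.infinitePi fun _ : V => κ) := i1.sub i2
  have i5 : Integrable (fun x : V → E => ∑ z' ∈ ch G p y,
      (𝔟.wp (x y) * ((∏ z'' ∈ ch G p y, msgR G 𝔟 θ R 1 y z'' x) * L z' x) -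
          𝔟.wm (x y) * ((∏ z'' ∈ ch G p y, msgR G 𝔟 θ R (-1) y z'' x) * L z' x)))
      (Measure.infinitePi fun _ : V => κ) := integrable_finsetSum _ i3
  rw [integral_const_mul, integral_add i12 i5, integral_sub i1 i2, integral_finsetSum _ i3]
  rw [I0 1 (w := fun e => 𝔟.wp e * Real.log (𝔟.wp e / 𝔟.wm e)) (𝔟.meas_wp.mul hkm),
    I0 (-1) (w := fun e => 𝔟.wm e * Real.log (𝔟.wp e / 𝔟.wm e)) (𝔟.meas_wm.mul hkm)]
  have i4 : ∀ z' ∈ ch G p y,
      ∫ x, (𝔟.wp (x y) * ((∏ z'' ∈ ch G p y, msgR G 𝔟 θ R 1 y z'' x) * L z' x) -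
          𝔟.wm (x y) * ((∏ z'' ∈ ch G p y, msgR G 𝔟 θ R (-1) y z'' x) * L z' x))
          ∂(Measure.infinitePi fun _ : V => κ) =
        2 * EsR G 𝔟 θ R y z (fun x => phiKL (θ * nuR G 𝔟 θ R y z x)) := by
    intro z' hz'
    rw [integral_sub (hwp.mul ((hP 1).mul (hLB z'))).integrable
      (hwm.mul ((hP (-1)).mul (hLB z'))).integrable,
      I1 1 𝔟.meas_wp 𝔟.int_wp z' hz', I1 (-1) 𝔟.meas_wm 𝔟.int_wm z' hz', I2 z' hz']
  rw [Finset.sum_congr rfl i4, Finset.sum_const, hG.card_ch hpy, nsmul_eq_mul]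
  -- `kl`
  have hkl : 𝔟.kl = (1 / 2) * ((∫ e, 𝔟.wp e * Real.log (𝔟.wp e / 𝔟.wm e) ∂κ) -
      ∫ e, 𝔟.wm e * Real.log (𝔟.wp e / 𝔟.wm e) ∂κ) := by
    have j1 : Integrable (fun e => 𝔟.wp e * Real.log (𝔟.wp e / 𝔟.wm e)) κ :=
      Integrable.of_bound (𝔟.meas_wp.mul hkm).aestronglyMeasurable
        (𝔟.hi * (Real.log 𝔟.hi - Real.log 𝔟.lo)) (Eventually.of_forall fun e => by
          rw [Real.norm_eq_abs, abs_mul]
          exact mul_le_mul (𝔟.abs_wp_le e) (𝔟.abs_logr_le e) (abs_nonneg _) 𝔟.hi_pos.le)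
    have j2 : Integrable (fun e => 𝔟.wm e * Real.log (𝔟.wp e / 𝔟.wm e)) κ :=
      Integrable.of_bound (𝔟.meas_wm.mul hkm).aestronglyMeasurable
        (𝔟.hi * (Real.log 𝔟.hi - Real.log 𝔟.lo)) (Eventually.of_forall fun e => by
          rw [Real.norm_eq_abs, abs_mul]
          exact mul_le_mul (𝔟.abs_wm_le e) (𝔟.abs_logr_le e) (abs_nonneg _) 𝔟.hi_pos.le)
    rw [← integral_sub j1 j2, ← integral_const_mul]
    unfold BlockData.kl
    congr 1; funext e; ring
  rw [hkl]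
  unfold EsR
  ring

/-- (J2) Bhattacharyya recursion. -/
theorem bhatt_tilt {p y z : V} (hpy : G.Adj p y) (hz : z ∈ ch G p y) (R : ℕ) {g : (V → E) → ℝ}
    (hg : Measurable g) (hgb : ∃ C, ∀ x, |g x| ≤ C)
    (hdep : ∀ x x' : V → E, (∀ v ∈ sub G R y z, x v = x' v) → g x = g x') :
    EsR G 𝔟 θ (R + 1) p y (fun x => Real.sqrt (1 - nuR G 𝔟 θ (R + 1) p y x ^ 2) * g x) =
      𝔟.lam * (EsR G 𝔟 θ R y z (fun x => Real.sqrt (1 - (θ * nuR G 𝔟 θ R y z x) ^ 2))) ^ (D - 1) *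
        EsR G 𝔟 θ R y z (fun x => Real.sqrt (1 - (θ * nuR G 𝔟 θ R y z x) ^ 2) * g x) := by
  have hθa := abs_theta_le hG hθ0 hθ
  have hF : Measurable fun t : ℝ => Real.sqrt (1 - (θ * t) ^ 2) :=
    Real.continuous_sqrt.measurable.comp (measurable_const.sub ((measurable_id.const_mul θ).pow_const 2))
  have hFb : ∃ C, ∀ t : ℝ, |t| < 1 → |Real.sqrt (1 - (θ * t) ^ 2)| ≤ C := by
    refine ⟨1, fun t _ => ?_⟩
    rw [abs_of_nonneg (Real.sqrt_nonneg _)]
    exact Real.sqrt_le_one.mpr (by nlinarith [sq_nonneg (θ * t)])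
  let F : V → (V → E) → ℝ := fun z x => zR G 𝔟 θ R y z x * Real.sqrt (1 - (θ * nuR G 𝔟 θ R y z x) ^ 2)
  have hFm : ∀ z', Measurable (F z') := fun z' =>
    (measurable_zR' 𝔟 R y z').mul (hF.comp (measurable_nuR 𝔟 hG hθ0 hθ R))
  have hFd : ∀ z' ∈ ch G p y, ∀ x x' : V → E, (∀ v ∈ sub G R y z', x v = x' v) → F z' x = F z' x' := by
    intro z' hz' x x' hx
    simp only [F]
    rw [zR_congr 𝔟 hG (mem_ch.mp hz').1 R hx, nuR_congr 𝔟 hG (mem_ch.mp hz').1 R hx]
  have hw : Measurable fun e => Real.sqrt (𝔟.wp e * 𝔟.wm e) :=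
    Real.continuous_sqrt.measurable.comp (𝔟.meas_wp.mul 𝔟.meas_wm)
  unfold EsR
  have e : ∀ x : V → E, Real.sqrt (1 - nuR G 𝔟 θ (R + 1) p y x ^ 2) * g x * zR G 𝔟 θ (R + 1) p y x =
      Real.sqrt (𝔟.wp (x y) * 𝔟.wm (x y)) * ((∏ z' ∈ ch G p y, F z' x) * g x) := by
    intro x
    have := sqrt_root_identity 𝔟 hG hθ0 hθ hpy R x
    calc _ = (Real.sqrt (1 - nuR G 𝔟 θ (R + 1) p y x ^ 2) * zR G 𝔟 θ (R + 1) p y x) * g x := by ring
      _ = _ := by rw [this]; ring
  simp only [e]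
  rw [int_site_prod_single hG hpy hz R hw F (fun z' _ => hFm z') hFd hg hdep]
  have e2 : ∀ z' ∈ (ch G p y).erase z, ∫ x, F z' x ∂(Measure.infinitePi fun _ : V => κ) =
      EsR G 𝔟 θ R y z (fun x => Real.sqrt (1 - (θ * nuR G 𝔟 θ R y z x) ^ 2)) := by
    intro z' hz'
    rw [← EsR_child_eq 𝔟 hG hθ0 hθ (Finset.mem_of_mem_erase hz') hz R _ hF hFb]
    unfold EsR
    congr 1; funext x
    simp only [F]; ring
  rw [Finset.prod_congr rfl e2, Finset.prod_const, Finset.card_erase_of_mem hz, hG.card_ch hpy]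
  unfold BlockData.lam EsR
  have e3 : ∀ x : V → E, F z x * g x =
      Real.sqrt (1 - (θ * nuR G 𝔟 θ R y z x) ^ 2) * g x * zR G 𝔟 θ R y z x := fun x => by
    simp only [F]; ring
  simp only [e3]
  ring

/-- (J2) Bhattacharyya recursion. -/
theorem bhatt_recursion {p y z : V} (hpy : G.Adj p y) (hz : z ∈ ch G p y) (R : ℕ) :
    EsR G 𝔟 θ (R + 1) p y (fun x => Real.sqrt (1 - nuR G 𝔟 θ (R + 1) p y x ^ 2)) =
      𝔟.lam * (EsR G 𝔟 θ R y z (fun x => Real.sqrt (1 - (θ * nuR G 𝔟 θ R y z x) ^ 2))) ^ D := by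
  have h := bhatt_tilt 𝔟 hG hθ0 hθ hpy hz R (g := fun _ => 1) measurable_const ⟨1, fun _ => by simp⟩
    (fun _ _ _ => rfl)
  simp only [mul_one] at h
  rw [h, mul_assoc, ← pow_succ]
  congr 2
  have := hG.two_le
  omega

end Identities

end Crest.Agent.Lib.IsingFIID
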