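/-
S0241 blueprint, Mod J-d: damping of the level sums and moments of their partial sums
(`damped_of_lam`, `damped_of_zeta`, `Q_moment`); sections J4, J5, J6 of the blueprint.
All statements of J-a, J-b, J-c are used as black boxes.
-/
import Crest.Agent.Lib.IsingFIID.StaticRec
import Crest.Agent.Lib.IsingFIID.StaticMoments
import Crest.Agent.Lib.IsingFIID.OneDim

set_option autoImplicit false
universe u v

namespace Crest.Agent.Lib.IsingFIID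

open MeasureTheory Filter
open scoped Classical Topology

section DampedDef

variable {V : Type u} {G : SimpleGraph V} [G.LocallyFinite]
variable {E : Type v} [MeasurableSpace E] {κ : Measure E} [IsProbabilityMeasure κ]

/-- Definition of a damping rate: the level sums decay like `(1-γ)^r` at large depth. -/
def Damped (𝔟 : BlockData κ) (θ γ : ℝ) : Prop :=
  ∀ {p y : V}, G.Adj p y → ∀ r : ℕ, ∀ η > 0, ∀ᶠ R in atTop,
    EsR G 𝔟 θ R p y (fun x => SR G 𝔟 θ r R p y x) ≤ 2 * (1 - γ) ^ (r - 1 : ℕ) + η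

end DampedDef

namespace Damp

/-! ### One dimensional facts about the slope function -/

section OneDim

variable {θ x : ℝ}

private lemma one_sub_sq_pos (hx : |x| < 1) : 0 < 1 - x ^ 2 := by
  have := sq_lt_one_iff_abs_lt_one x |>.mpr hx
  linarith

private lemma theta_sq_le_one (hθ0 : 0 ≤ θ) (hθ1 : θ < 1) : θ ^ 2 ≤ 1 := by nlinarith

private lemma one_sub_theta_sq_pos (hθ0 : 0 ≤ θ) (hθ1 : θ < 1) (hx : |x| < 1) :
    0 < 1 - θ ^ 2 * x ^ 2 := by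
  have h1 := one_sub_sq_pos hx
  have h2 := theta_sq_le_one hθ0 hθ1
  have h3 : 0 ≤ x ^ 2 := sq_nonneg x
  nlinarith

theorem bTheta_nonneg' (hθ0 : 0 ≤ θ) (hθ1 : θ < 1) (hx : |x| < 1) : 0 ≤ bTheta θ x := by
  unfold bTheta
  exact div_nonneg (mul_nonneg hθ0 (one_sub_sq_pos hx).le) (one_sub_theta_sq_pos hθ0 hθ1 hx).le

theorem bTheta_le' (hθ0 : 0 ≤ θ) (hθ1 : θ < 1) (hx : |x| < 1) : bTheta θ x ≤ θ := by
  unfold bTheta
  have h1 := one_sub_sq_pos hx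
  have h2 := theta_sq_le_one hθ0 hθ1
  have h3 := one_sub_theta_sq_pos hθ0 hθ1 hx
  rw [div_le_iff₀ h3]
  have h4 : 0 ≤ x ^ 2 := sq_nonneg x
  have : 1 - x ^ 2 ≤ 1 - θ ^ 2 * x ^ 2 := by nlinarith
  exact mul_le_mul_of_nonneg_left this hθ0

theorem bTheta_sq_le (hθ0 : 0 ≤ θ) (hθ1 : θ < 1) (hx : |x| < 1) : bTheta θ x ^ 2 ≤ θ ^ 2 :=
  pow_le_pow_left₀ (bTheta_nonneg' hθ0 hθ1 hx) (bTheta_le' hθ0 hθ1 hx) 2

private lemma bTheta_sq_eq (hθ0 : 0 ≤ θ) (hθ1 : θ < 1) (hx : |x| < 1) :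
    bTheta θ x ^ 2 = θ ^ 2 * (Real.sqrt (1 - x ^ 2) ^ 4 / Real.sqrt (1 - θ ^ 2 * x ^ 2) ^ 4) := by
  unfold bTheta
  have h1 := one_sub_sq_pos hx
  have h3 := one_sub_theta_sq_pos hθ0 hθ1 hx
  have e1 : Real.sqrt (1 - x ^ 2) ^ 4 = (1 - x ^ 2) ^ 2 := by
    rw [show (4 : ℕ) = 2 * 2 by norm_num, pow_mul, Real.sq_sqrt h1.le]
  have e2 : Real.sqrt (1 - θ ^ 2 * x ^ 2) ^ 4 = (1 - θ ^ 2 * x ^ 2) ^ 2 := by
    rw [show (4 : ℕ) = 2 * 2 by norm_num, pow_mul, Real.sq_sqrt h3.le]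
  rw [e1, e2]
  field_simp

private lemma sqrt_le_sqrt_theta (hθ0 : 0 ≤ θ) (hθ1 : θ < 1) :
    Real.sqrt (1 - x ^ 2) ≤ Real.sqrt (1 - θ ^ 2 * x ^ 2) := by
  apply Real.sqrt_le_sqrt
  have h2 := theta_sq_le_one hθ0 hθ1
  have h4 : 0 ≤ x ^ 2 := sq_nonneg x
  nlinarith

/-- `√(1-θ²x²) b_θ(x)² ≤ θ² √(1-x²)`. -/
theorem tilt_one (hθ0 : 0 ≤ θ) (hθ1 : θ < 1) (hx : |x| < 1) :
    Real.sqrt (1 - θ ^ 2 * x ^ 2) * bTheta θ x ^ 2 ≤ θ ^ 2 * Real.sqrt (1 - x ^ 2) := by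
  rw [bTheta_sq_eq hθ0 hθ1 hx]
  set u := Real.sqrt (1 - x ^ 2) with hu
  set v := Real.sqrt (1 - θ ^ 2 * x ^ 2) with hv
  have hu0 : 0 < u := Real.sqrt_pos.mpr (one_sub_sq_pos hx)
  have hv0 : 0 < v := Real.sqrt_pos.mpr (one_sub_theta_sq_pos hθ0 hθ1 hx)
  have huv : u ≤ v := sqrt_le_sqrt_theta hθ0 hθ1
  have key : v * (u ^ 4 / v ^ 4) ≤ u := by
    have : v * (u ^ 4 / v ^ 4) = u * (u ^ 3 / v ^ 3) := by field_simp
    rw [this]
    have h3 : u ^ 3 / v ^ 3 ≤ 1 := by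
      rw [div_le_one (by positivity)]
      exact pow_le_pow_left₀ hu0.le huv 3
    nlinarith
  calc v * (θ ^ 2 * (u ^ 4 / v ^ 4)) = θ ^ 2 * (v * (u ^ 4 / v ^ 4)) := by ring
    _ ≤ θ ^ 2 * u := mul_le_mul_of_nonneg_left key (sq_nonneg θ)

/-- `b_θ(x)² ≤ 2 θ² √(1-x²)` if `θ² ≤ 1/2`. -/
theorem tilt_two (hθ0 : 0 ≤ θ) (hθ1 : θ < 1) (hθ2 : θ ^ 2 ≤ 1 / 2) (hx : |x| < 1) :
    bTheta θ x ^ 2 ≤ 2 * θ ^ 2 * Real.sqrt (1 - x ^ 2) := by
  rw [bTheta_sq_eq hθ0 hθ1 hx]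
  set u := Real.sqrt (1 - x ^ 2) with hu
  set v := Real.sqrt (1 - θ ^ 2 * x ^ 2) with hv
  have hu0 : 0 < u := Real.sqrt_pos.mpr (one_sub_sq_pos hx)
  have hv0 : 0 < v := Real.sqrt_pos.mpr (one_sub_theta_sq_pos hθ0 hθ1 hx)
  have huv : u ≤ v := sqrt_le_sqrt_theta hθ0 hθ1
  have hv1 : 1 / 2 ≤ v := by
    rw [hv]
    apply Real.le_sqrt_of_sq_le
    have h1 := one_sub_sq_pos hx
    have h4 : 0 ≤ x ^ 2 := sq_nonneg x
    nlinarith
  have key : u ^ 4 / v ^ 4 ≤ 2 * u := by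
    have e : u ^ 4 / v ^ 4 = u * (u ^ 3 / v ^ 3) * (1 / v) := by field_simp
    have h3 : u ^ 3 / v ^ 3 ≤ 1 := by
      rw [div_le_one (by positivity)]
      exact pow_le_pow_left₀ hu0.le huv 3
    have h4 : 1 / v ≤ 2 := by
      rw [div_le_iff₀ hv0]; linarith
    have h5 : 0 ≤ u ^ 3 / v ^ 3 := by positivity
    rw [e]
    calc u * (u ^ 3 / v ^ 3) * (1 / v) ≤ u * 1 * 2 := by gcongr
      _ = 2 * u := by ring
  calc θ ^ 2 * (u ^ 4 / v ^ 4) ≤ θ ^ 2 * (2 * u) := mul_le_mul_of_nonneg_left key (sq_nonneg θ)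
    _ = 2 * θ ^ 2 * u := by ring

end OneDim

/-! ### Algebra of belief propagation: flip, locality, automorphisms -/

section BPAlgebra

variable {V : Type u} {G : SimpleGraph V} [G.LocallyFinite] {D : ℕ} {θ : ℝ}

theorem bpPair_flip (wp wm : V → ℝ) (R : ℕ) (p y : V) :
    bpPair G θ wm wp R p y = ((bpPair G θ wp wm R p y).1, -(bpPair G θ wp wm R p y).2) := by
  induction R generalizing p y with
  | zero =>
    simp only [bpPair]
    ext <;> simp <;> ring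
  | succ R ih =>
    simp only [bpPair]
    have h1 : ∀ z, (bpPair G θ wm wp R y z).1 = (bpPair G θ wp wm R y z).1 := fun z => by rw [ih]
    have h2 : ∀ z, (bpPair G θ wm wp R y z).2 = -(bpPair G θ wp wm R y z).2 := fun z => by rw [ih]
    simp only [h1, h2]
    have e1 : ∀ z, (bpPair G θ wp wm R y z).1 + θ * -(bpPair G θ wp wm R y z).2 =
        (bpPair G θ wp wm R y z).1 - θ * (bpPair G θ wp wm R y z).2 := fun z => by ring
    have e2 : ∀ z, (bpPair G θ wp wm R y z).1 - θ * -(bpPair G θ wp wm R y z).2 =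
        (bpPair G θ wp wm R y z).1 + θ * (bpPair G θ wp wm R y z).2 := fun z => by ring
    simp only [e1, e2]
    ext <;> simp <;> ring

theorem bpNu_flip (wp wm : V → ℝ) (R : ℕ) (p y : V) :
    bpNu G θ wm wp R p y = -bpNu G θ wp wm R p y := by
  unfold bpNu
  rw [bpPair_flip]
  simp [neg_div]

theorem bTheta_neg (θ x : ℝ) : bTheta θ (-x) = bTheta θ x := by
  unfold bTheta; simp

theorem bpS_flip (wp wm : V → ℝ) (r R : ℕ) (p y : V) :
    bpS G θ wm wp r R p y = bpS G θ wp wm r R p y := by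
  induction r generalizing R p y with
  | zero => simp [bpS]
  | succ r ih =>
    cases R with
    | zero => simp [bpS]
    | succ R =>
      simp only [bpS, bpNu_flip wp wm, bTheta_neg, ih]

variable (hG : RegTree G D)
include hG

theorem bpPair_congr {wp wm wp' wm' : V → ℝ} (R : ℕ) {p y : V} (hpy : G.Adj p y)
    (h : ∀ v ∈ sub G R p y, wp v = wp' v ∧ wm v = wm' v) :
    bpPair G θ wp wm R p y = bpPair G θ wp' wm' R p y := by
  induction R generalizing p y with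
  | zero =>
    have : y ∈ sub G 0 p y := by simp [sub, desc]
    simp only [bpPair, (h y this).1, (h y this).2]
  | succ R ih =>
    have hsub := hG.sub_succ hpy R
    have hy : y ∈ sub G (R + 1) p y := by rw [hsub]; simp
    have hz : ∀ z ∈ ch G p y, bpPair G θ wp wm R y z = bpPair G θ wp' wm' R y z := by
      intro z hz
      refine ih (mem_ch.mp hz).1 fun v hv => h v ?_
      rw [hsub]
      exact Finset.mem_union_right _ (Finset.mem_biUnion.mpr ⟨z, hz, hv⟩)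
    simp only [bpPair]
    rw [(h y hy).1, (h y hy).2, Finset.prod_congr rfl (fun z hz' => by rw [hz z hz']),
      Finset.prod_congr (s₁ := ch G p y) (s₂ := ch G p y)
        (f := fun z => (bpPair G θ wp wm R y z).1 - θ * (bpPair G θ wp wm R y z).2)
        rfl (fun z hz' => by rw [hz z hz'])]

theorem bpNu_congr {wp wm wp' wm' : V → ℝ} (R : ℕ) {p y : V} (hpy : G.Adj p y)
    (h : ∀ v ∈ sub G R p y, wp v = wp' v ∧ wm v = wm' v) :
    bpNu G θ wp wm R p y = bpNu G θ wp' wm' R p y := by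
  unfold bpNu
  rw [bpPair_congr hG R hpy h]

theorem sub_subset_succ {p y z : V} (hpy : G.Adj p y) (hz : z ∈ ch G p y) (R : ℕ) :
    sub G R y z ⊆ sub G (R + 1) p y := by
  rw [hG.sub_succ hpy R]
  intro v hv
  exact Finset.mem_union_right _ (Finset.mem_biUnion.mpr ⟨z, hz, hv⟩)

theorem bpS_congr {wp wm wp' wm' : V → ℝ} (r R : ℕ) {p y : V} (hpy : G.Adj p y)
    (h : ∀ v ∈ sub G R p y, wp v = wp' v ∧ wm v = wm' v) :
    bpS G θ wp wm r R p y = bpS G θ wp' wm' r R p y := by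
  induction r generalizing R p y with
  | zero => simp [bpS]
  | succ r ih =>
    cases R with
    | zero => simp [bpS]
    | succ R =>
      simp only [bpS]
      refine Finset.sum_congr rfl fun z hz => ?_
      have h' : ∀ v ∈ sub G R y z, wp v = wp' v ∧ wm v = wm' v :=
        fun v hv => h v (sub_subset_succ hG hpy hz R hv)
      rw [bpNu_congr hG R (mem_ch.mp hz).1 h', ih R (mem_ch.mp hz).1 h']

omit hG in
theorem bpPair_aut (g : G ≃g G) (wp wm : V → ℝ) (R : ℕ) (p y : V) :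
    bpPair G θ wp wm R (g p) (g y) = bpPair G θ (wp ∘ g) (wm ∘ g) R p y := by
  induction R generalizing p y with
  | zero => simp [bpPair]
  | succ R ih =>
    simp only [bpPair, ch_map, Finset.prod_map, Equiv.coe_toEmbedding, Function.comp]
    have : ∀ z, bpPair G θ wp wm R (g y) (g.toEquiv z) = bpPair G θ (wp ∘ g) (wm ∘ g) R y z := fun z => ih y z
    simp only [this, Function.comp]

omit hG in
theorem bpNu_aut (g : G ≃g G) (wp wm : V → ℝ) (R : ℕ) (p y : V) :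
    bpNu G θ wp wm R (g p) (g y) = bpNu G θ (wp ∘ g) (wm ∘ g) R p y := by
  unfold bpNu
  rw [bpPair_aut]

omit hG in
theorem bpS_aut (g : G ≃g G) (wp wm : V → ℝ) (r R : ℕ) (p y : V) :
    bpS G θ wp wm r R (g p) (g y) = bpS G θ (wp ∘ g) (wm ∘ g) r R p y := by
  induction r generalizing R p y with
  | zero => simp [bpS]
  | succ r ih =>
    cases R with
    | zero => simp [bpS]
    | succ R =>
      simp only [bpS, ch_map, Finset.sum_map, Equiv.coe_toEmbedding]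
      refine Finset.sum_congr rfl fun z _ => ?_
      have h1 : bpS G θ wp wm r R (g y) (g.toEquiv z) = bpS G θ (wp ∘ g) (wm ∘ g) r R y z := ih R y z
      have h2 : bpNu G θ wp wm R (g y) (g.toEquiv z) = bpNu G θ (wp ∘ g) (wm ∘ g) R y z :=
        bpNu_aut (θ := θ) g wp wm R y z
      rw [h1, h2]

end BPAlgebra

/-! ### Bounded measurable functions -/

/-- bounded and measurable -/
def BM {Ω : Type*} [MeasurableSpace Ω] (f : Ω → ℝ) : Prop := Measurable f ∧ ∃ C, ∀ x, |f x| ≤ C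

namespace BM

variable {Ω : Type*} [MeasurableSpace Ω] {f g : Ω → ℝ}

theorem const (c : ℝ) : BM (fun _ : Ω => c) := ⟨measurable_const, |c|, fun _ => le_rfl⟩

theorem add (hf : BM f) (hg : BM g) : BM (fun x => f x + g x) := by
  obtain ⟨hf, C, hC⟩ := hf
  obtain ⟨hg, C', hC'⟩ := hg
  exact ⟨hf.add hg, C + C', fun x => (abs_add_le _ _).trans (add_le_add (hC x) (hC' x))⟩

theorem neg (hf : BM f) : BM (fun x => - f x) := by
  obtain ⟨hf, C, hC⟩ := hf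
  exact ⟨hf.neg, C, fun x => by simpa using hC x⟩

theorem sub (hf : BM f) (hg : BM g) : BM (fun x => f x - g x) := by
  simpa [sub_eq_add_neg] using hf.add hg.neg

theorem mul (hf : BM f) (hg : BM g) : BM (fun x => f x * g x) := by
  obtain ⟨hf, C, hC⟩ := hf
  obtain ⟨hg, C', hC'⟩ := hg
  refine ⟨hf.mul hg, C * C', fun x => ?_⟩
  rw [abs_mul]
  exact mul_le_mul (hC x) (hC' x) (abs_nonneg _) ((abs_nonneg _).trans (hC x))

theorem pow (hf : BM f) (n : ℕ) : BM (fun x => f x ^ n) := by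
  induction n with
  | zero => simpa using const (Ω := Ω) 1
  | succ n ih => simpa [pow_succ] using ih.mul hf

theorem sum {ι : Type*} (s : Finset ι) {F : ι → Ω → ℝ} (h : ∀ i ∈ s, BM (F i)) :
    BM (fun x => ∑ i ∈ s, F i x) := by
  induction s using Finset.induction_on with
  | empty => simpa using const (Ω := Ω) 0
  | insert a s ha ih =>
    simp only [Finset.sum_insert ha]
    exact (h a (Finset.mem_insert_self _ _)).add (ih fun i hi => h i (Finset.mem_insert_of_mem hi))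

theorem of_bound (hf : Measurable f) {C : ℝ} (h : ∀ x, |f x| ≤ C) : BM f := ⟨hf, C, h⟩

end BM

/-! ### Calculus of the static expectation -/

section Es

variable {V : Type u} {G : SimpleGraph V} [G.LocallyFinite] {D : ℕ}
variable {E : Type v} [MeasurableSpace E] {κ : Measure E} [IsProbabilityMeasure κ]
variable (𝔟 : BlockData κ) {θ : ℝ}

variable (hG : RegTree G D) (hθ0 : 0 ≤ θ) (hθ : (D : ℝ) * θ ^ 2 ≤ 1)
include hG hθ0 hθ

omit hθ0 in
theorem theta_sq_le_half : θ ^ 2 ≤ 1 / 2 := by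
  have h2 : (2 : ℝ) ≤ D := by exact_mod_cast hG.two_le
  nlinarith [sq_nonneg θ]

omit hθ0 in
theorem theta_lt_one : θ < 1 := by
  have := theta_sq_le_half hG hθ
  nlinarith [sq_nonneg θ, sq_nonneg (θ - 1)]

theorem D_pos_real : (0 : ℝ) < D := by
  have h2 : (2 : ℝ) ≤ D := by exact_mod_cast hG.two_le
  linarith

theorem integrable_zR {p y : V} (hpy : G.Adj p y) (R : ℕ) :
    Integrable (zR G 𝔟 θ R p y) (Measure.infinitePi fun _ : V => κ) := by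
  by_contra h
  have := integral_undef h
  rw [integral_zR 𝔟 hG hθ0 hθ hpy R] at this
  exact one_ne_zero this

theorem integrable_mul_zR {f : (V → E) → ℝ} (hf : BM f) {p y : V} (hpy : G.Adj p y) (R : ℕ) :
    Integrable (fun x => f x * zR G 𝔟 θ R p y x) (Measure.infinitePi fun _ : V => κ) := by
  obtain ⟨hm, C, hC⟩ := hf
  have := (integrable_zR 𝔟 hG hθ0 hθ hpy R).bdd_mul (c := C) hm.aestronglyMeasurable
    (Eventually.of_forall fun x => by simpa using hC x)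
  exact this

theorem EsR_add {f g : (V → E) → ℝ} (hf : BM f) (hg : BM g) {p y : V} (hpy : G.Adj p y) (R : ℕ) :
    EsR G 𝔟 θ R p y (fun x => f x + g x) = EsR G 𝔟 θ R p y f + EsR G 𝔟 θ R p y g := by
  unfold EsR
  rw [← integral_add (integrable_mul_zR 𝔟 hG hθ0 hθ hf hpy R) (integrable_mul_zR 𝔟 hG hθ0 hθ hg hpy R)]
  congr 1; funext x; ring

theorem EsR_sub {f g : (V → E) → ℝ} (hf : BM f) (hg : BM g) {p y : V} (hpy : G.Adj p y) (R : ℕ) :
    EsR G 𝔟 θ R p y (fun x => f x - g x) = EsR G 𝔟 θ R p y f - EsR G 𝔟 θ R p y g := by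
  unfold EsR
  rw [← integral_sub (integrable_mul_zR 𝔟 hG hθ0 hθ hf hpy R) (integrable_mul_zR 𝔟 hG hθ0 hθ hg hpy R)]
  congr 1; funext x; ring

omit hG hθ0 hθ in
theorem EsR_const_mul (c : ℝ) (f : (V → E) → ℝ) {p y : V} (R : ℕ) :
    EsR G 𝔟 θ R p y (fun x => c * f x) = c * EsR G 𝔟 θ R p y f := by
  unfold EsR
  rw [← integral_const_mul]
  congr 1; funext x; ring

theorem EsR_sum {ι : Type*} (s : Finset ι) {F : ι → (V → E) → ℝ} (h : ∀ i ∈ s, BM (F i))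
    {p y : V} (hpy : G.Adj p y) (R : ℕ) :
    EsR G 𝔟 θ R p y (fun x => ∑ i ∈ s, F i x) = ∑ i ∈ s, EsR G 𝔟 θ R p y (F i) := by
  unfold EsR
  rw [← integral_finsetSum _ (fun i hi => integrable_mul_zR 𝔟 hG hθ0 hθ (h i hi) hpy R)]
  congr 1; funext x; rw [Finset.sum_mul]

theorem EsR_const (c : ℝ) {p y : V} (hpy : G.Adj p y) (R : ℕ) :
    EsR G 𝔟 θ R p y (fun _ => c) = c := by
  have := EsR_const_mul (G := G) 𝔟 (θ := θ) c (fun _ => 1) (p := p) (y := y) R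
  simp only [mul_one] at this
  rw [this]
  unfold EsR
  simp only [one_mul]
  rw [integral_zR 𝔟 hG hθ0 hθ hpy R, mul_one]

theorem EsR_mono {f g : (V → E) → ℝ} (hf : BM f) (hg : BM g) (h : ∀ x, f x ≤ g x) {p y : V}
    (hpy : G.Adj p y) (R : ℕ) : EsR G 𝔟 θ R p y f ≤ EsR G 𝔟 θ R p y g := by
  unfold EsR
  refine integral_mono (integrable_mul_zR 𝔟 hG hθ0 hθ hf hpy R)
    (integrable_mul_zR 𝔟 hG hθ0 hθ hg hpy R) fun x => ?_
  exact mul_le_mul_of_nonneg_right (h x) (zR_pos 𝔟 hG hθ0 hθ hpy R x).le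

theorem EsR_nonneg {f : (V → E) → ℝ} (h : ∀ x, 0 ≤ f x) {p y : V}
    (hpy : G.Adj p y) (R : ℕ) : 0 ≤ EsR G 𝔟 θ R p y f := by
  unfold EsR
  exact integral_nonneg fun x => mul_nonneg (h x) (zR_pos 𝔟 hG hθ0 hθ hpy R x).le

theorem EsR_le_const {f : (V → E) → ℝ} (hf : BM f) {c : ℝ} (h : ∀ x, f x ≤ c) {p y : V}
    (hpy : G.Adj p y) (R : ℕ) : EsR G 𝔟 θ R p y f ≤ c := by
  have := EsR_mono 𝔟 hG hθ0 hθ hf (BM.const c) h hpy R
  rwa [EsR_const 𝔟 hG hθ0 hθ c hpy R] at this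

theorem measurable_nuR {p y : V} (hpy : G.Adj p y) (R : ℕ) : Measurable (nuR G 𝔟 θ R p y) :=
  (measurable_nR 𝔟 hG hθ0 hθ hpy R).div (measurable_zR 𝔟 hG hθ0 hθ hpy R)

/-- Compositions of bounded measurable functions on `(-1,1)` with the magnetisation. -/
theorem BM.comp_nuR {h : ℝ → ℝ} (hm : Measurable h) (hb : ∃ C, ∀ t, |t| < 1 → |h t| ≤ C) {p y : V}
    (hpy : G.Adj p y) (R : ℕ) : BM (fun x => h (nuR G 𝔟 θ R p y x)) := by
  obtain ⟨C, hC⟩ := hb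
  exact ⟨hm.comp (measurable_nuR 𝔟 hG hθ0 hθ hpy R), C, fun x => hC _ (abs_nuR_lt 𝔟 hG hθ0 hθ hpy R x)⟩

omit hG hθ0 hθ in
theorem nuR_flip (R : ℕ) (p y : V) (x : V → E) :
    nuR G 𝔟 θ R p y (𝔟.swap ∘ x) = - nuR G 𝔟 θ R p y x := by
  unfold nuR
  have e1 : (fun v => 𝔟.wp ((𝔟.swap ∘ x) v)) = fun v => 𝔟.wm (x v) := by
    funext v; simp [𝔟.wp_swap]
  have e2 : (fun v => 𝔟.wm ((𝔟.swap ∘ x) v)) = fun v => 𝔟.wp (x v) := by
    funext v; simp [𝔟.wm_swap]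
  rw [e1, e2, bpNu_flip]

omit hG hθ0 hθ in
theorem SR_flip (r R : ℕ) (p y : V) (x : V → E) :
    SR G 𝔟 θ r R p y (𝔟.swap ∘ x) = SR G 𝔟 θ r R p y x := by
  unfold SR
  have e1 : (fun v => 𝔟.wp ((𝔟.swap ∘ x) v)) = fun v => 𝔟.wm (x v) := by
    funext v; simp [𝔟.wp_swap]
  have e2 : (fun v => 𝔟.wm ((𝔟.swap ∘ x) v)) = fun v => 𝔟.wp (x v) := by
    funext v; simp [𝔟.wm_swap]
  rw [e1, e2, bpS_flip]

omit hθ0 hθ in
theorem nuR_congr (R : ℕ) {p y : V} (hpy : G.Adj p y) {x x' : V → E}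
    (h : ∀ v ∈ sub G R p y, x v = x' v) : nuR G 𝔟 θ R p y x = nuR G 𝔟 θ R p y x' := by
  unfold nuR
  exact bpNu_congr hG R hpy fun v hv => by simp [h v hv]

omit hθ0 hθ in
theorem SR_congr (r R : ℕ) {p y : V} (hpy : G.Adj p y) {x x' : V → E}
    (h : ∀ v ∈ sub G R p y, x v = x' v) : SR G 𝔟 θ r R p y x = SR G 𝔟 θ r R p y x' := by
  unfold SR
  exact bpS_congr hG r R hpy fun v hv => by simp [h v hv]

omit hG hθ0 hθ in
theorem nuR_aut (g : G ≃g G) (R : ℕ) (p y : V) (x : V → E) :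
    nuR G 𝔟 θ R (g p) (g y) (x ∘ g.symm) = nuR G 𝔟 θ R p y x := by
  unfold nuR
  rw [bpNu_aut]
  congr 1 <;> (funext v; simp)

omit hG hθ0 hθ in
theorem SR_aut (g : G ≃g G) (r R : ℕ) (p y : V) (x : V → E) :
    SR G 𝔟 θ r R (g p) (g y) (x ∘ g.symm) = SR G 𝔟 θ r R p y x := by
  unfold SR
  rw [bpS_aut]
  congr 1 <;> (funext v; simp)

omit hG hθ0 hθ in
theorem SR_zero (R : ℕ) (p y : V) (x : V → E) : SR G 𝔟 θ 0 R p y x = 1 := by
  simp [SR, bpS]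

omit hG hθ0 hθ in
theorem SR_succ_zero (r : ℕ) (p y : V) (x : V → E) : SR G 𝔟 θ (r + 1) 0 p y x = 0 := by
  simp [SR, bpS]

omit hG hθ0 hθ in
theorem SR_succ_succ (r R : ℕ) (p y : V) (x : V → E) :
    SR G 𝔟 θ (r + 1) (R + 1) p y x =
      ∑ z ∈ ch G p y, bTheta θ (nuR G 𝔟 θ R y z x) ^ 2 * SR G 𝔟 θ r R y z x := by
  simp [SR, bpS, nuR]

theorem SR_bounds (r R : ℕ) {p y : V} (hpy : G.Adj p y) (x : V → E) :
    0 ≤ SR G 𝔟 θ r R p y x ∧ SR G 𝔟 θ r R p y x ≤ 1 := by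
  induction r generalizing R p y with
  | zero => simp [SR_zero]
  | succ r ih =>
    cases R with
    | zero => simp [SR_succ_zero]
    | succ R =>
      rw [SR_succ_succ]
      have h1 := theta_lt_one hG hθ
      constructor
      · exact Finset.sum_nonneg fun z hz =>
          mul_nonneg (sq_nonneg _) (ih R (mem_ch.mp hz).1).1
      · calc ∑ z ∈ ch G p y, bTheta θ (nuR G 𝔟 θ R y z x) ^ 2 * SR G 𝔟 θ r R y z x
            ≤ ∑ z ∈ ch G p y, θ ^ 2 := by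
              refine Finset.sum_le_sum fun z hz => ?_
              have hz' := (mem_ch.mp hz).1
              have h2 := bTheta_sq_le hθ0 h1 (abs_nuR_lt 𝔟 hG hθ0 hθ hz' R x)
              have h3 := ih R hz'
              nlinarith [sq_nonneg (bTheta θ (nuR G 𝔟 θ R y z x))]
          _ = D * θ ^ 2 := by
              rw [Finset.sum_const, hG.card_ch hpy, nsmul_eq_mul]
          _ ≤ 1 := hθ

theorem measurable_SR (r R : ℕ) {p y : V} (hpy : G.Adj p y) : Measurable (SR G 𝔟 θ r R p y) := by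
  induction r generalizing R p y with
  | zero => simp only [funext (SR_zero 𝔟 R p y)]; exact measurable_const
  | succ r ih =>
    cases R with
    | zero => simp only [funext (SR_succ_zero 𝔟 r p y)]; exact measurable_const
    | succ R =>
      simp only [funext (SR_succ_succ 𝔟 r R p y)]
      refine Finset.measurable_fun_sum _ fun z hz => ?_
      have hz' := (mem_ch.mp hz).1
      have hb : Measurable (bTheta θ) := by
        unfold bTheta; fun_prop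
      exact ((hb.comp (measurable_nuR 𝔟 hG hθ0 hθ hz' R)).pow_const 2).mul (ih R hz')

theorem BM_SR (r R : ℕ) {p y : V} (hpy : G.Adj p y) : BM (SR G 𝔟 θ r R p y) := by
  refine BM.of_bound (C := 1) (measurable_SR 𝔟 hG hθ0 hθ r R hpy) fun x => ?_
  obtain ⟨h0, h1⟩ := SR_bounds 𝔟 hG hθ0 hθ r R hpy x
  rw [abs_of_nonneg h0]; exact h1

/-- Expectation of a flip-even local function of a child. -/
theorem EsR_child {p y z : V} (hpy : G.Adj p y) (hz : z ∈ ch G p y) (R : ℕ) {g : (V → E) → ℝ}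
    (hg : BM g)
    (hdep : ∀ x x' : V → E, (∀ v ∈ sub G R y z, x v = x' v) → g x = g x')
    (heven : ∀ x, g (𝔟.swap ∘ x) = g x) :
    EsR G 𝔟 θ (R + 1) p y g = EsR G 𝔟 θ R y z g := by
  obtain ⟨hgm, C, hC⟩ := hg
  have key := EsR_prod_children 𝔟 hG hθ0 hθ hpy R (fun w x => if w = z then g x else 1)
    (fun w => by
      by_cases h : w = z
      · simpa [h] using hgm
      · simpa [h] using measurable_const)
    ⟨max C 1, fun w x => by
      by_cases h : w = z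
      · simpa [h] using le_max_of_le_left (hC x)
      · simp [h]⟩
    (fun w _ x x' hx => by
      by_cases h : w = z
      · subst h; simpa using hdep x x' hx
      · simp [h])
    (fun w _ x => by
      by_cases h : w = z
      · simp [h, heven]
      · simp [h])
  have e1 : (fun x => ∏ w ∈ ch G p y, if w = z then g x else 1) = g := by
    funext x
    rw [Finset.prod_ite_eq' (ch G p y) z (fun _ => g x)]
    simp [hz]
  rw [e1] at key
  rw [key, Finset.prod_eq_single z]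
  · simp
  · intro w hw hwz
    have : (fun x => if w = z then g x else 1) = fun _ : V → E => (1 : ℝ) := by
      funext x; simp [hwz]
    rw [this]
    exact EsR_const 𝔟 hG hθ0 hθ 1 (mem_ch.mp hw).1 R
  · intro h; exact absurd hz h

/-- Transport between directed edges. -/
theorem EsR_nu_symm {h : ℝ → ℝ} (hm : Measurable h) (hb : ∃ C, ∀ t, |t| < 1 → |h t| ≤ C)
    {p y p' y' : V} (hpy : G.Adj p y) (hpy' : G.Adj p' y') (R : ℕ) :
    EsR G 𝔟 θ R p' y' (fun x => h (nuR G 𝔟 θ R p' y' x)) =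
      EsR G 𝔟 θ R p y (fun x => h (nuR G 𝔟 θ R p y x)) := by
  obtain ⟨g, hg⟩ := hG.exists_aut_of_isNB (l := [p, y]) (l' := [p', y']) hpy hpy' rfl
  simp only [List.map_cons, List.map_nil, List.cons.injEq, and_true] at hg
  obtain ⟨rfl, rfl⟩ := hg
  obtain ⟨hB⟩ := BM.comp_nuR 𝔟 hG hθ0 hθ hm hb hpy' R
  rw [EsR_comp_aut 𝔟 hG hθ0 hθ g R _ hB ‹_›]
  congr 1; funext x
  rw [nuR_aut]

/-- Transport between directed edges for level sums. -/
theorem EsR_SR_symm (r : ℕ) {p y p' y' : V} (hpy : G.Adj p y) (hpy' : G.Adj p' y') (R : ℕ) :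
    EsR G 𝔟 θ R p' y' (SR G 𝔟 θ r R p' y') = EsR G 𝔟 θ R p y (SR G 𝔟 θ r R p y) := by
  obtain ⟨g, hg⟩ := hG.exists_aut_of_isNB (l := [p, y]) (l' := [p', y']) hpy hpy' rfl
  simp only [List.map_cons, List.map_nil, List.cons.injEq, and_true] at hg
  obtain ⟨rfl, rfl⟩ := hg
  obtain ⟨hB, hC⟩ := BM_SR 𝔟 hG hθ0 hθ r R hpy'
  rw [EsR_comp_aut 𝔟 hG hθ0 hθ g R _ hB hC]
  congr 1; funext x
  rw [SR_aut]

end Es

/-! ### The tilted chain -/

section Chain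

variable {V : Type u} {G : SimpleGraph V} [G.LocallyFinite] {D : ℕ}
variable {E : Type v} [MeasurableSpace E] {κ : Measure E} [IsProbabilityMeasure κ]
variable (𝔟 : BlockData κ) {θ : ℝ}

/-- `A_R` -/
noncomputable def Atil (𝔟 : BlockData κ) (G : SimpleGraph V) [G.LocallyFinite] (θ : ℝ) (R : ℕ) (p y : V) : ℝ :=
  EsR G 𝔟 θ R p y (fun x => Real.sqrt (1 - (θ * nuR G 𝔟 θ R p y x) ^ 2))

/-- `e_r^R = E^R[√(1-ν²) S_r]` -/
noncomputable def eTil (𝔟 : BlockData κ) (G : SimpleGraph V) [G.LocallyFinite] (θ : ℝ) (r R : ℕ) (p y : V) : ℝ :=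
  EsR G 𝔟 θ R p y (fun x => Real.sqrt (1 - nuR G 𝔟 θ R p y x ^ 2) * SR G 𝔟 θ r R p y x)

theorem BlockData.lam_nonneg : 0 ≤ 𝔟.lam := integral_nonneg fun _ => Real.sqrt_nonneg _

variable (hG : RegTree G D) (hθ0 : 0 ≤ θ) (hθ : (D : ℝ) * θ ^ 2 ≤ 1)
include hG hθ0 hθ

theorem BM_sqrt_nu {p y : V} (hpy : G.Adj p y) (R : ℕ) :
    BM (fun x => Real.sqrt (1 - nuR G 𝔟 θ R p y x ^ 2)) := by
  refine BM.comp_nuR 𝔟 hG hθ0 hθ (h := fun t => Real.sqrt (1 - t ^ 2)) (by fun_prop) ⟨1, fun t ht => ?_⟩ hpy R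
  rw [abs_of_nonneg (Real.sqrt_nonneg _)]
  exact Real.sqrt_le_one.mpr (by nlinarith [sq_nonneg t])

theorem BM_sqrt_theta_nu {p y : V} (hpy : G.Adj p y) (R : ℕ) :
    BM (fun x => Real.sqrt (1 - (θ * nuR G 𝔟 θ R p y x) ^ 2)) := by
  refine BM.comp_nuR 𝔟 hG hθ0 hθ (h := fun t => Real.sqrt (1 - (θ * t) ^ 2)) (by fun_prop) ⟨1, fun t ht => ?_⟩ hpy R
  rw [abs_of_nonneg (Real.sqrt_nonneg _)]
  exact Real.sqrt_le_one.mpr (by nlinarith [sq_nonneg (θ * t)])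

theorem BM_bTheta_sq {p y : V} (hpy : G.Adj p y) (R : ℕ) :
    BM (fun x => bTheta θ (nuR G 𝔟 θ R p y x) ^ 2) := by
  have h1 := theta_lt_one hG hθ
  refine BM.comp_nuR 𝔟 hG hθ0 hθ (h := fun t => bTheta θ t ^ 2) (by unfold bTheta; fun_prop) ⟨θ ^ 2, fun t ht => ?_⟩ hpy R
  rw [abs_of_nonneg (sq_nonneg _)]
  exact bTheta_sq_le hθ0 h1 ht

theorem Atil_nonneg {p y : V} (hpy : G.Adj p y) (R : ℕ) : 0 ≤ Atil 𝔟 G θ R p y :=
  EsR_nonneg 𝔟 hG hθ0 hθ (fun _ => Real.sqrt_nonneg _) hpy R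

theorem Atil_le_one {p y : V} (hpy : G.Adj p y) (R : ℕ) : Atil 𝔟 G θ R p y ≤ 1 := by
  refine EsR_le_const 𝔟 hG hθ0 hθ (BM_sqrt_theta_nu 𝔟 hG hθ0 hθ hpy R) (fun x => ?_) hpy R
  exact Real.sqrt_le_one.mpr (by nlinarith [sq_nonneg (θ * nuR G 𝔟 θ R p y x)])

theorem eTil_nonneg (r R : ℕ) {p y : V} (hpy : G.Adj p y) : 0 ≤ eTil 𝔟 G θ r R p y :=
  EsR_nonneg 𝔟 hG hθ0 hθ (fun x => mul_nonneg (Real.sqrt_nonneg _) (SR_bounds 𝔟 hG hθ0 hθ r R hpy x).1) hpy R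

theorem eTil_zero_le (R : ℕ) {p y : V} (hpy : G.Adj p y) : eTil 𝔟 G θ 0 R p y ≤ 1 := by
  refine EsR_le_const 𝔟 hG hθ0 hθ ((BM_sqrt_nu 𝔟 hG hθ0 hθ hpy R).mul (BM_SR 𝔟 hG hθ0 hθ 0 R hpy)) (fun x => ?_) hpy R
  rw [SR_zero, mul_one]
  exact Real.sqrt_le_one.mpr (by nlinarith [sq_nonneg (nuR G 𝔟 θ R p y x)])

/-- the `g` of the tilt: `b_θ(ν)² S_r` -/
theorem BM_bSR {p y : V} (hpy : G.Adj p y) (r R : ℕ) :
    BM (fun x => bTheta θ (nuR G 𝔟 θ R p y x) ^ 2 * SR G 𝔟 θ r R p y x) :=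
  (BM_bTheta_sq 𝔟 hG hθ0 hθ hpy R).mul (BM_SR 𝔟 hG hθ0 hθ r R hpy)

omit hθ0 hθ in
theorem bSR_dep {p y : V} (hpy : G.Adj p y) (r R : ℕ) (x x' : V → E)
    (h : ∀ v ∈ sub G R p y, x v = x' v) :
    bTheta θ (nuR G 𝔟 θ R p y x) ^ 2 * SR G 𝔟 θ r R p y x =
      bTheta θ (nuR G 𝔟 θ R p y x') ^ 2 * SR G 𝔟 θ r R p y x' := by
  rw [nuR_congr 𝔟 hG R hpy h, SR_congr 𝔟 hG r R hpy h]

/-- One step of the tilted chain: `e_{r+1}^{R+1} ≤ ρ sup e_r^R`. -/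
theorem eTil_succ_le {ρ Eb : ℝ} (r R : ℕ) {p y : V} (hpy : G.Adj p y)
    (hρ : ∀ z ∈ ch G p y, (D : ℝ) * θ ^ 2 * 𝔟.lam * Atil 𝔟 G θ R y z ^ (D - 1) ≤ ρ)
    (hE : ∀ z ∈ ch G p y, eTil 𝔟 G θ r R y z ≤ Eb) (hEb : 0 ≤ Eb) :
    eTil 𝔟 G θ (r + 1) (R + 1) p y ≤ ρ * Eb := by
  have h1 := theta_lt_one hG hθ
  have hD := D_pos_real hG hθ0 hθ
  have hΛ := BlockData.lam_nonneg 𝔟
  unfold eTil
  have e1 : (fun x => Real.sqrt (1 - nuR G 𝔟 θ (R + 1) p y x ^ 2) * SR G 𝔟 θ (r + 1) (R + 1) p y x) =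
      fun x => ∑ z ∈ ch G p y, Real.sqrt (1 - nuR G 𝔟 θ (R + 1) p y x ^ 2) *
        (bTheta θ (nuR G 𝔟 θ R y z x) ^ 2 * SR G 𝔟 θ r R y z x) := by
    funext x
    rw [SR_succ_succ, Finset.mul_sum]
  rw [e1, EsR_sum 𝔟 hG hθ0 hθ _ (fun z hz =>
    (BM_sqrt_nu 𝔟 hG hθ0 hθ hpy (R + 1)).mul (BM_bSR 𝔟 hG hθ0 hθ (mem_ch.mp hz).1 r R)) hpy (R + 1)]
  calc ∑ z ∈ ch G p y, EsR G 𝔟 θ (R + 1) p y (fun x => Real.sqrt (1 - nuR G 𝔟 θ (R + 1) p y x ^ 2) *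
        (bTheta θ (nuR G 𝔟 θ R y z x) ^ 2 * SR G 𝔟 θ r R y z x))
      ≤ ∑ z ∈ ch G p y, ρ * Eb / D := by
        refine Finset.sum_le_sum fun z hz => ?_
        have hz' := (mem_ch.mp hz).1
        obtain ⟨hbm, hbb⟩ := BM_bSR 𝔟 hG hθ0 hθ hz' r R
        rw [bhatt_tilt 𝔟 hG hθ0 hθ hpy hz R hbm hbb (bSR_dep 𝔟 hG hz' r R)]
        have hA := Atil_nonneg 𝔟 hG hθ0 hθ hz' R
        have hA' : EsR G 𝔟 θ R y z (fun x => Real.sqrt (1 - (θ * nuR G 𝔟 θ R y z x) ^ 2)) = Atil 𝔟 G θ R y z := rfl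
        rw [hA']
        have hle : EsR G 𝔟 θ R y z (fun x => Real.sqrt (1 - (θ * nuR G 𝔟 θ R y z x) ^ 2) *
            (bTheta θ (nuR G 𝔟 θ R y z x) ^ 2 * SR G 𝔟 θ r R y z x)) ≤ θ ^ 2 * Eb := by
          have hm1 : BM (fun x => Real.sqrt (1 - (θ * nuR G 𝔟 θ R y z x) ^ 2) *
              (bTheta θ (nuR G 𝔟 θ R y z x) ^ 2 * SR G 𝔟 θ r R y z x)) :=
            (BM_sqrt_theta_nu 𝔟 hG hθ0 hθ hz' R).mul (BM_bSR 𝔟 hG hθ0 hθ hz' r R)
          have hm2 : BM (fun x => θ ^ 2 * (Real.sqrt (1 - nuR G 𝔟 θ R y z x ^ 2) * SR G 𝔟 θ r R y z x)) :=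
            (BM.const _).mul ((BM_sqrt_nu 𝔟 hG hθ0 hθ hz' R).mul (BM_SR 𝔟 hG hθ0 hθ r R hz'))
          have := EsR_mono 𝔟 hG hθ0 hθ hm1 hm2 (fun x => by
            have h2 := tilt_one hθ0 h1 (abs_nuR_lt 𝔟 hG hθ0 hθ hz' R x)
            have h3 := (SR_bounds 𝔟 hG hθ0 hθ r R hz' x).1
            rw [mul_pow]
            calc Real.sqrt (1 - θ ^ 2 * nuR G 𝔟 θ R y z x ^ 2) *
                  (bTheta θ (nuR G 𝔟 θ R y z x) ^ 2 * SR G 𝔟 θ r R y z x)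
                = (Real.sqrt (1 - θ ^ 2 * nuR G 𝔟 θ R y z x ^ 2) * bTheta θ (nuR G 𝔟 θ R y z x) ^ 2) *
                    SR G 𝔟 θ r R y z x := by ring
              _ ≤ (θ ^ 2 * Real.sqrt (1 - nuR G 𝔟 θ R y z x ^ 2)) * SR G 𝔟 θ r R y z x :=
                  mul_le_mul_of_nonneg_right h2 h3
              _ = _ := by ring) hz' R
          rw [EsR_const_mul] at this
          exact this.trans (mul_le_mul_of_nonneg_left (hE z hz) (sq_nonneg θ))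
        have h4 := hρ z hz
        have h5 : 0 ≤ 𝔟.lam * Atil 𝔟 G θ R y z ^ (D - 1) := mul_nonneg hΛ (pow_nonneg hA _)
        calc 𝔟.lam * Atil 𝔟 G θ R y z ^ (D - 1) * EsR G 𝔟 θ R y z (fun x => Real.sqrt (1 - (θ * nuR G 𝔟 θ R y z x) ^ 2) *
                (bTheta θ (nuR G 𝔟 θ R y z x) ^ 2 * SR G 𝔟 θ r R y z x))
            ≤ 𝔟.lam * Atil 𝔟 G θ R y z ^ (D - 1) * (θ ^ 2 * Eb) := mul_le_mul_of_nonneg_left hle h5
          _ = ((D : ℝ) * θ ^ 2 * 𝔟.lam * Atil 𝔟 G θ R y z ^ (D - 1)) * Eb / D := by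
              field_simp
          _ ≤ ρ * Eb / D := by
              gcongr
    _ = ρ * Eb := by
        rw [Finset.sum_const, hG.card_ch hpy, nsmul_eq_mul]
        field_simp

/-- `a_{r+1}^{R+1} ≤ 2 sup e_r^R`. -/
theorem aTil_succ_le {Eb : ℝ} (r R : ℕ) {p y : V} (hpy : G.Adj p y)
    (hE : ∀ z ∈ ch G p y, eTil 𝔟 G θ r R y z ≤ Eb) (hEb : 0 ≤ Eb) :
    EsR G 𝔟 θ (R + 1) p y (SR G 𝔟 θ (r + 1) (R + 1) p y) ≤ 2 * Eb := by
  have h1 := theta_lt_one hG hθ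
  have hD := D_pos_real hG hθ0 hθ
  have h12 := theta_sq_le_half hG hθ
  have e1 : SR G 𝔟 θ (r + 1) (R + 1) p y =
      fun x => ∑ z ∈ ch G p y, bTheta θ (nuR G 𝔟 θ R y z x) ^ 2 * SR G 𝔟 θ r R y z x := by
    funext x
    rw [SR_succ_succ]
  rw [e1, EsR_sum 𝔟 hG hθ0 hθ _ (fun z hz => BM_bSR 𝔟 hG hθ0 hθ (mem_ch.mp hz).1 r R) hpy (R + 1)]
  calc ∑ z ∈ ch G p y, EsR G 𝔟 θ (R + 1) p y (fun x => bTheta θ (nuR G 𝔟 θ R y z x) ^ 2 * SR G 𝔟 θ r R y z x)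
      ≤ ∑ z ∈ ch G p y, 2 * θ ^ 2 * Eb := by
        refine Finset.sum_le_sum fun z hz => ?_
        have hz' := (mem_ch.mp hz).1
        rw [EsR_child 𝔟 hG hθ0 hθ hpy hz R (BM_bSR 𝔟 hG hθ0 hθ hz' r R) (bSR_dep 𝔟 hG hz' r R)
          (fun x => by rw [nuR_flip, SR_flip, bTheta_neg])]
        have hm2 : BM (fun x => (2 * θ ^ 2) * (Real.sqrt (1 - nuR G 𝔟 θ R y z x ^ 2) * SR G 𝔟 θ r R y z x)) :=
          (BM.const _).mul ((BM_sqrt_nu 𝔟 hG hθ0 hθ hz' R).mul (BM_SR 𝔟 hG hθ0 hθ r R hz'))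
        have := EsR_mono 𝔟 hG hθ0 hθ (BM_bSR 𝔟 hG hθ0 hθ hz' r R) hm2 (fun x => by
          have h2 := tilt_two hθ0 h1 h12 (abs_nuR_lt 𝔟 hG hθ0 hθ hz' R x)
          have h3 := (SR_bounds 𝔟 hG hθ0 hθ r R hz' x).1
          calc bTheta θ (nuR G 𝔟 θ R y z x) ^ 2 * SR G 𝔟 θ r R y z x
              ≤ (2 * θ ^ 2 * Real.sqrt (1 - nuR G 𝔟 θ R y z x ^ 2)) * SR G 𝔟 θ r R y z x :=
                mul_le_mul_of_nonneg_right h2 h3
            _ = _ := by ring) hz' R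
        rw [EsR_const_mul] at this
        exact this.trans (mul_le_mul_of_nonneg_left (hE z hz) (by positivity))
    _ = (D * θ ^ 2) * (2 * Eb) := by
        rw [Finset.sum_const, hG.card_ch hpy, nsmul_eq_mul]; ring
    _ ≤ 1 * (2 * Eb) := mul_le_mul_of_nonneg_right hθ (by positivity)
    _ = 2 * Eb := one_mul _

/-- The whole chain: uniform bound on the tilted mass. -/
theorem eTil_le_pow {ρ : ℝ} {R₀ : ℕ} (hρ0 : 0 ≤ ρ)
    (hρ : ∀ R ≥ R₀, ∀ y z, G.Adj y z → (D : ℝ) * θ ^ 2 * 𝔟.lam * Atil 𝔟 G θ R y z ^ (D - 1) ≤ ρ)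
    (r R : ℕ) (hR : R₀ + r ≤ R) {p y : V} (hpy : G.Adj p y) :
    eTil 𝔟 G θ r R p y ≤ ρ ^ r := by
  induction r generalizing R p y with
  | zero => simpa using eTil_zero_le 𝔟 hG hθ0 hθ R hpy
  | succ r ih =>
    obtain ⟨R', rfl⟩ : ∃ R', R = R' + 1 := ⟨R - 1, by omega⟩
    have := eTil_succ_le 𝔟 hG hθ0 hθ (ρ := ρ) (Eb := ρ ^ r) r R' hpy
      (fun z hz => hρ R' (by omega) y z (mem_ch.mp hz).1)
      (fun z hz => ih R' (by omega) (mem_ch.mp hz).1) (pow_nonneg hρ0 r)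
    calc _ ≤ ρ * ρ ^ r := this
      _ = ρ ^ (r + 1) := by ring

/-- From a uniform bound on the rate to damping. -/
theorem damped_of_rho {ρ γ : ℝ} {R₀ : ℕ} (hρ0 : 0 ≤ ρ) (hργ : ρ ≤ 1 - γ)
    (hρ : ∀ R ≥ R₀, ∀ y z, G.Adj y z → (D : ℝ) * θ ^ 2 * 𝔟.lam * Atil 𝔟 G θ R y z ^ (D - 1) ≤ ρ) :
    Damped (G := G) 𝔟 θ γ := by
  intro p y hpy r η hη
  refine eventually_atTop.2 ⟨R₀ + r + 1, fun R hR => ?_⟩
  cases r with
  | zero =>
    have e : SR G 𝔟 θ 0 R p y = fun _ => 1 := funext (SR_zero 𝔟 R p y)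
    rw [e, EsR_const 𝔟 hG hθ0 hθ 1 hpy R]
    simp only [zero_tsub, pow_zero]
    linarith
  | succ r =>
    obtain ⟨R', rfl⟩ : ∃ R', R = R' + 1 := ⟨R - 1, by omega⟩
    have h1 := aTil_succ_le 𝔟 hG hθ0 hθ (Eb := ρ ^ r) r R' hpy
      (fun z hz => eTil_le_pow 𝔟 hG hθ0 hθ hρ0 hρ r R' (by omega) (mem_ch.mp hz).1) (pow_nonneg hρ0 r)
    simp only [Nat.add_sub_cancel]
    have h2 : ρ ^ r ≤ (1 - γ) ^ r := pow_le_pow_left₀ hρ0 hργ r
    linarith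

/-- (J5) damping from the own observation only. -/
theorem damped_of_lam_proved {γ : ℝ} (h0 : 0 < γ) (h1 : γ ≤ 1 - 𝔟.lam) : Damped (G := G) 𝔟 θ γ := by
  refine damped_of_rho 𝔟 hG hθ0 hθ (ρ := 𝔟.lam) (R₀ := 0) (BlockData.lam_nonneg 𝔟) (by linarith) ?_
  intro R _ y z hyz
  have hΛ := BlockData.lam_nonneg 𝔟
  have hA0 := Atil_nonneg 𝔟 hG hθ0 hθ hyz R
  have hA1 := Atil_le_one 𝔟 hG hθ0 hθ hyz R
  have h2 : Atil 𝔟 G θ R y z ^ (D - 1) ≤ 1 := pow_le_one₀ hA0 hA1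
  have h3 : 0 ≤ Atil 𝔟 G θ R y z ^ (D - 1) := pow_nonneg hA0 _
  calc (D : ℝ) * θ ^ 2 * 𝔟.lam * Atil 𝔟 G θ R y z ^ (D - 1)
      = ((D : ℝ) * θ ^ 2) * (𝔟.lam * Atil 𝔟 G θ R y z ^ (D - 1)) := by ring
    _ ≤ 1 * (𝔟.lam * 1) := by
        apply mul_le_mul hθ (mul_le_mul_of_nonneg_left h2 hΛ) (mul_nonneg hΛ h3) (by norm_num)
    _ = 𝔟.lam := by ring

end Chain

/-! ### Calculus of `φ` -/

section Phi

/-- derivative of `φ` -/
noncomputable def dphi (u : ℝ) : ℝ := Real.log ((1 + u) / (1 - u)) + u * (1 / (1 + u) + 1 / (1 - u))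

private lemma lt_of_abs {u : ℝ} (hu : |u| < 1) : 0 < 1 + u ∧ 0 < 1 - u := by
  have := abs_lt.mp hu
  constructor <;> linarith [this.1, this.2]

theorem hasDerivAt_phiKL {u : ℝ} (hu : |u| < 1) : HasDerivAt phiKL (dphi u) u := by
  obtain ⟨h1, h2⟩ := lt_of_abs hu
  have h3 : HasDerivAt (fun u => Real.log ((1 + u) / (1 - u))) (1 / (1 + u) + 1 / (1 - u)) u := by
    have e1 : HasDerivAt (fun u : ℝ => 1 + u) 1 u := by simpa using (hasDerivAt_id u).const_add 1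
    have e2 : HasDerivAt (fun u : ℝ => 1 - u) (-1) u := by simpa using (hasDerivAt_id u).const_sub 1
    have e3 : HasDerivAt (fun u => Real.log ((1 + u) / (1 - u)))
        (((1 * (1 - u) - (1 + u) * -1) / (1 - u) ^ 2) / ((1 + u) / (1 - u))) u :=
      (e1.div e2 h2.ne').log (div_pos h1 h2).ne'
    have e4 : ((1 * (1 - u) - (1 + u) * -1) / (1 - u) ^ 2) / ((1 + u) / (1 - u)) =
        1 / (1 + u) + 1 / (1 - u) := by
      field_simp
      ring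
    rwa [e4] at e3
  have h4 := (hasDerivAt_id' u).mul h3
  have e5 : 1 * Real.log ((1 + u) / (1 - u)) + u * (1 / (1 + u) + 1 / (1 - u)) = dphi u := by
    unfold dphi; ring
  rw [e5] at h4
  exact h4

theorem dphi_mono {u v : ℝ} (hu : |u| < 1) (hv : |v| < 1) (huv : u ≤ v) : dphi u ≤ dphi v := by
  obtain ⟨h1, h2⟩ := lt_of_abs hu
  obtain ⟨h3, h4⟩ := lt_of_abs hv
  unfold dphi
  have hlog : Real.log ((1 + u) / (1 - u)) ≤ Real.log ((1 + v) / (1 - v)) := by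
    apply Real.log_le_log (div_pos h1 h2)
    rw [div_le_div_iff₀ h2 h4]
    nlinarith
  have e : ∀ w : ℝ, 0 < 1 + w → 0 < 1 - w → w * (1 / (1 + w) + 1 / (1 - w)) = 2 * w / ((1 + w) * (1 - w)) := by
    intro w h h'
    field_simp
    ring
  rw [e u h1 h2, e v h3 h4]
  have : 2 * u / ((1 + u) * (1 - u)) ≤ 2 * v / ((1 + v) * (1 - v)) := by
    rw [div_le_div_iff₀ (by positivity) (by positivity)]
    have huv' : 0 ≤ v - u := by linarith
    have h5 : 0 ≤ 1 + u * v := by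
      have h6 := abs_mul u v
      have h7 : |u * v| < 1 := by
        rw [abs_mul]
        have := abs_nonneg u
        have := abs_nonneg v
        nlinarith
      have := (abs_lt.mp h7).1
      linarith
    nlinarith [mul_nonneg huv' h5]
  linarith

/-- The tangent inequality for `φ`. -/
theorem phiKL_tangent {u v : ℝ} (hu : |u| < 1) (hv : |v| < 1) :
    phiKL u + dphi u * (v - u) ≤ phiKL v := by
  have hd : ∀ w, |w| < 1 → HasDerivAt phiKL (dphi w) w := fun w hw => hasDerivAt_phiKL hw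
  rcases le_total u v with huv | huv
  · have hmem : ∀ w ∈ Set.Icc u v, |w| < 1 := fun w hw => by
      have h1 := abs_lt.mp hu
      have h2 := abs_lt.mp hv
      exact abs_lt.mpr ⟨by linarith [hw.1], by linarith [hw.2]⟩
    have key := (convex_Icc u v).mul_sub_le_image_sub_of_le_deriv (f := phiKL) (C := dphi u)
      (fun w hw => (hd w (hmem w hw)).continuousAt.continuousWithinAt)
      (fun w hw => (hd w (hmem w (interior_subset hw))).differentiableAt.differentiableWithinAt)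
      (fun w hw => by
        have hw' := interior_subset hw
        rw [(hd w (hmem w hw')).deriv]
        exact dphi_mono hu (hmem w hw') hw'.1) u (Set.left_mem_Icc.mpr huv) v (Set.right_mem_Icc.mpr huv) huv
    linarith
  · have hmem : ∀ w ∈ Set.Icc v u, |w| < 1 := fun w hw => by
      have h1 := abs_lt.mp hu
      have h2 := abs_lt.mp hv
      exact abs_lt.mpr ⟨by linarith [hw.1], by linarith [hw.2]⟩
    have key := (convex_Icc v u).image_sub_le_mul_sub_of_deriv_le (f := phiKL) (C := dphi u)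
      (fun w hw => (hd w (hmem w hw)).continuousAt.continuousWithinAt)
      (fun w hw => (hd w (hmem w (interior_subset hw))).differentiableAt.differentiableWithinAt)
      (fun w hw => by
        have hw' := interior_subset hw
        rw [(hd w (hmem w hw')).deriv]
        exact dphi_mono (hmem w hw') hu hw'.2) v (Set.left_mem_Icc.mpr huv) u (Set.right_mem_Icc.mpr huv) huv
    linarith

/-- `L(u) = log((1+u)/(1-u))` is bounded on `|u| ≤ s`. -/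
theorem abs_log_ratio_le {u s : ℝ} (hu : |u| ≤ s) (hs : s < 1) :
    |Real.log ((1 + u) / (1 - u))| ≤ Real.log ((1 + s) / (1 - s)) := by
  have hb := abs_le.mp hu
  have hs0 : 0 ≤ s := (abs_nonneg u).trans hu
  have h1 : 0 < 1 + u := by linarith [hb.1]
  have h2 : 0 < 1 - u := by linarith [hb.2]
  have h3 : 0 < 1 - s := by linarith
  have h4 : 0 < 1 + s := by linarith
  rw [abs_le]
  constructor
  · have e : -Real.log ((1 + s) / (1 - s)) = Real.log ((1 - s) / (1 + s)) := by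
      rw [← Real.log_inv, inv_div]
    rw [e]
    apply Real.log_le_log (div_pos h3 h4)
    rw [div_le_div_iff₀ h4 h2]
    nlinarith [hb.1]
  · apply Real.log_le_log (div_pos h1 h2)
    rw [div_le_div_iff₀ h2 h3]
    nlinarith [hb.2]

theorem abs_phiKL_le {u s : ℝ} (hu : |u| ≤ s) (hs : s < 1) :
    |phiKL u| ≤ Real.log ((1 + s) / (1 - s)) := by
  unfold phiKL
  rw [abs_mul]
  have h1 := abs_log_ratio_le hu hs
  have h2 : |u| ≤ 1 := by linarith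
  calc |u| * |Real.log ((1 + u) / (1 - u))| ≤ 1 * |Real.log ((1 + u) / (1 - u))| :=
        mul_le_mul_of_nonneg_right h2 (abs_nonneg _)
    _ ≤ _ := by rw [one_mul]; exact h1

theorem measurable_phiKL : Measurable phiKL := by
  unfold phiKL; fun_prop

theorem measurable_dphi : Measurable dphi := by
  unfold dphi; fun_prop

theorem abs_dphi_le {u s : ℝ} (hu : |u| ≤ s) (hs : s < 1) :
    |dphi u| ≤ Real.log ((1 + s) / (1 - s)) + (1 / (1 - s) + 1 / (1 - s)) := by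
  unfold dphi
  have hb := abs_le.mp hu
  have hs0 : 0 ≤ s := (abs_nonneg u).trans hu
  have h1 : 0 < 1 + u := by linarith [hb.1]
  have h2 : 0 < 1 - u := by linarith [hb.2]
  have h3 : 0 < 1 - s := by linarith
  refine (abs_add_le _ _).trans (add_le_add (abs_log_ratio_le hu hs) ?_)
  rw [abs_mul]
  have h4 : |u| ≤ 1 := by linarith
  have h5 : 1 / (1 + u) ≤ 1 / (1 - s) := one_div_le_one_div_of_le h3 (by linarith [hb.1])
  have h6 : 1 / (1 - u) ≤ 1 / (1 - s) := one_div_le_one_div_of_le h3 (by linarith [hb.2])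
  have h7 : 0 ≤ 1 / (1 + u) + 1 / (1 - u) := by positivity
  rw [abs_of_nonneg h7]
  calc |u| * (1 / (1 + u) + 1 / (1 - u)) ≤ 1 * (1 / (1 + u) + 1 / (1 - u)) :=
        mul_le_mul_of_nonneg_right h4 h7
    _ ≤ _ := by rw [one_mul]; linarith

end Phi

/-! ### Monotonicity in the depth -/

section Mono

variable {V : Type u} {G : SimpleGraph V} [G.LocallyFinite] {D : ℕ}
variable {E : Type v} [MeasurableSpace E] {κ : Measure E} [IsProbabilityMeasure κ]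
variable (𝔟 : BlockData κ) {θ : ℝ}

variable (hG : RegTree G D) (hθ0 : 0 ≤ θ) (hθ : (D : ℝ) * θ ^ 2 ≤ 1)
include hG hθ0 hθ

/-- Conditional Jensen: `E^R h(ν^R)` is nondecreasing for a function `h` with tangent lines of slope `g`. -/
theorem EsR_tangent_mono {h g : ℝ → ℝ} (hm : Measurable h) (gm : Measurable g)
    (hb : ∃ C, ∀ t, |t| < 1 → |h t| ≤ C) (gb : ∃ C, ∀ t, |t| < 1 → |g t| ≤ C)
    (ht : ∀ t t', |t| < 1 → |t'| < 1 → h t + g t * (t' - t) ≤ h t') {p y : V} (hpy : G.Adj p y) (R : ℕ) :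
    EsR G 𝔟 θ R p y (fun x => h (nuR G 𝔟 θ R p y x)) ≤
      EsR G 𝔟 θ (R + 1) p y (fun x => h (nuR G 𝔟 θ (R + 1) p y x)) := by
  have hBh := BM.comp_nuR 𝔟 hG hθ0 hθ hm hb hpy R
  have hBg := BM.comp_nuR 𝔟 hG hθ0 hθ gm gb hpy R
  have hBnu := BM.comp_nuR 𝔟 hG hθ0 hθ (h := id) measurable_id ⟨1, fun t ht => ht.le⟩ hpy R
  have hBnu' := BM.comp_nuR 𝔟 hG hθ0 hθ (h := id) measurable_id ⟨1, fun t ht => ht.le⟩ hpy (R + 1)
  simp only [id] at hBnu hBnu'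
  have hf1 : BM (fun x => h (nuR G 𝔟 θ R p y x) - nuR G 𝔟 θ R p y x * g (nuR G 𝔟 θ R p y x)) :=
    hBh.sub (hBnu.mul hBg)
  have hdep1 : ∀ x x' : V → E, (∀ v ∈ sub G R p y, x v = x' v) →
      h (nuR G 𝔟 θ R p y x) - nuR G 𝔟 θ R p y x * g (nuR G 𝔟 θ R p y x) =
      h (nuR G 𝔟 θ R p y x') - nuR G 𝔟 θ R p y x' * g (nuR G 𝔟 θ R p y x') := by
    intro x x' hx
    rw [nuR_congr 𝔟 hG R hpy hx]
  have hdep2 : ∀ x x' : V → E, (∀ v ∈ sub G R p y, x v = x' v) →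
      g (nuR G 𝔟 θ R p y x) = g (nuR G 𝔟 θ R p y x') := by
    intro x x' hx
    rw [nuR_congr 𝔟 hG R hpy hx]
  have s1 := (EsR_shallow 𝔟 hG hθ0 hθ hpy (Nat.le_succ R) hf1.1 hf1.2 hdep1).1
  have s2 := (EsR_shallow 𝔟 hG hθ0 hθ hpy (Nat.le_succ R) hBg.1 hBg.2 hdep2).2
  have e1 : (fun x => h (nuR G 𝔟 θ R p y x)) =
      fun x => (h (nuR G 𝔟 θ R p y x) - nuR G 𝔟 θ R p y x * g (nuR G 𝔟 θ R p y x)) +
        nuR G 𝔟 θ R p y x * g (nuR G 𝔟 θ R p y x) := by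
    funext x; ring
  rw [e1, EsR_add 𝔟 hG hθ0 hθ hf1 (hBnu.mul hBg) hpy R, ← s1, ← s2,
    ← EsR_add 𝔟 hG hθ0 hθ hf1 (hBnu'.mul hBg) hpy (R + 1)]
  refine EsR_mono 𝔟 hG hθ0 hθ (hf1.add (hBnu'.mul hBg)) (BM.comp_nuR 𝔟 hG hθ0 hθ hm hb hpy (R + 1))
    (fun x => ?_) hpy (R + 1)
  have := ht _ _ (abs_nuR_lt 𝔟 hG hθ0 hθ hpy R x) (abs_nuR_lt 𝔟 hG hθ0 hθ hpy (R + 1) x)
  nlinarith

/-- `A_R` decreases. -/
theorem Atil_succ_le {p y : V} (hpy : G.Adj p y) (R : ℕ) :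
    Atil 𝔟 G θ (R + 1) p y ≤ Atil 𝔟 G θ R p y := by
  have hθ12 := theta_sq_le_half hG hθ
  have hv : ∀ t : ℝ, |t| < 1 → 1 / 2 ≤ Real.sqrt (1 - (θ * t) ^ 2) := by
    intro t ht
    apply Real.le_sqrt_of_sq_le
    have h1 : t ^ 2 ≤ 1 := (sq_lt_one_iff_abs_lt_one t).mpr ht |>.le
    have h2 : (θ * t) ^ 2 = θ ^ 2 * t ^ 2 := by ring
    rw [h2]
    nlinarith [sq_nonneg t, sq_nonneg θ]
  have key := EsR_tangent_mono 𝔟 hG hθ0 hθ
    (h := fun t => -Real.sqrt (1 - (θ * t) ^ 2))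
    (g := fun t => θ ^ 2 * t / Real.sqrt (1 - (θ * t) ^ 2))
    (by fun_prop) (by fun_prop)
    ⟨1, fun t ht => by
      rw [abs_neg, abs_of_nonneg (Real.sqrt_nonneg _)]
      exact Real.sqrt_le_one.mpr (by nlinarith [sq_nonneg (θ * t)])⟩
    ⟨1, fun t ht => by
      have h1 := hv t ht
      have h2 : 0 < Real.sqrt (1 - (θ * t) ^ 2) := by linarith
      rw [abs_div, abs_of_pos h2, div_le_one h2, abs_mul, abs_of_nonneg (sq_nonneg θ)]
      have h3 := ht.le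
      have h4 : 0 ≤ |t| := abs_nonneg t
      nlinarith [sq_nonneg θ]⟩
    (fun t t' ht ht' => by
      have h1 := hv t ht
      have h2 : 0 < Real.sqrt (1 - (θ * t) ^ 2) := by linarith
      have h1' := hv t' ht'
      have h3 : Real.sqrt (1 - (θ * t) ^ 2) ^ 2 = 1 - (θ * t) ^ 2 :=
        Real.sq_sqrt (by
          have : (0 : ℝ) ≤ Real.sqrt (1 - (θ * t) ^ 2) := Real.sqrt_nonneg _
          by_contra hneg
          rw [Real.sqrt_eq_zero_of_nonpos (not_le.mp hneg).le] at h1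
          norm_num at h1)
      have h3' : Real.sqrt (1 - (θ * t') ^ 2) ^ 2 = 1 - (θ * t') ^ 2 :=
        Real.sq_sqrt (by
          by_contra hneg
          rw [Real.sqrt_eq_zero_of_nonpos (not_le.mp hneg).le] at h1'
          norm_num at h1')
      set v := Real.sqrt (1 - (θ * t) ^ 2)
      set v' := Real.sqrt (1 - (θ * t') ^ 2)
      have h4 : v * v' ≤ 1 - θ ^ 2 * (t * t') := by
        nlinarith [sq_nonneg (v - v'), sq_nonneg (θ * t - θ * t')]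
      have h5 : θ ^ 2 * t / v * (t' - t) = (θ ^ 2 * (t * t') - θ ^ 2 * t ^ 2) / v := by
        field_simp
      rw [h5]
      have h6 : -v + (θ ^ 2 * (t * t') - θ ^ 2 * t ^ 2) / v = (- (v ^ 2) + (θ ^ 2 * (t * t') - θ ^ 2 * t ^ 2)) / v := by
        field_simp
      rw [h6, div_le_iff₀ h2, h3]
      nlinarith) hpy R
  unfold Atil
  linarith [key, EsR_const_mul (G := G) 𝔟 (θ := θ) (-1)
      (fun x => Real.sqrt (1 - (θ * nuR G 𝔟 θ R p y x) ^ 2)) (p := p) (y := y) R,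
    EsR_const_mul (G := G) 𝔟 (θ := θ) (-1)
      (fun x => Real.sqrt (1 - (θ * nuR G 𝔟 θ (R + 1) p y x) ^ 2)) (p := p) (y := y) (R + 1),
    show EsR G 𝔟 θ R p y (fun x => (-1 : ℝ) * Real.sqrt (1 - (θ * nuR G 𝔟 θ R p y x) ^ 2)) =
      EsR G 𝔟 θ R p y (fun x => - Real.sqrt (1 - (θ * nuR G 𝔟 θ R p y x) ^ 2)) by simp,
    show EsR G 𝔟 θ (R + 1) p y (fun x => (-1 : ℝ) * Real.sqrt (1 - (θ * nuR G 𝔟 θ (R + 1) p y x) ^ 2)) =
      EsR G 𝔟 θ (R + 1) p y (fun x => - Real.sqrt (1 - (θ * nuR G 𝔟 θ (R + 1) p y x) ^ 2)) by simp]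

theorem abs_theta_mul_le {t : ℝ} (ht : |t| < 1) : |θ * t| ≤ θ := by
  rw [abs_mul, abs_of_nonneg hθ0]
  exact mul_le_of_le_one_right hθ0 ht.le

/-- `E^R φ(θν^R)` increases. -/
theorem Psi_le_succ {p y : V} (hpy : G.Adj p y) (R : ℕ) :
    EsR G 𝔟 θ R p y (fun x => phiKL (θ * nuR G 𝔟 θ R p y x)) ≤
      EsR G 𝔟 θ (R + 1) p y (fun x => phiKL (θ * nuR G 𝔟 θ (R + 1) p y x)) := by
  have h1 := theta_lt_one hG hθ
  have hlt : ∀ t : ℝ, |t| < 1 → |θ * t| < 1 := fun t ht =>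
    (abs_theta_mul_le hG hθ0 hθ ht).trans_lt h1
  refine EsR_tangent_mono 𝔟 hG hθ0 hθ
    (h := fun t => phiKL (θ * t)) (g := fun t => θ * dphi (θ * t))
    (measurable_phiKL.comp (by fun_prop)) (measurable_const.mul (measurable_dphi.comp (by fun_prop)))
    ⟨_, fun t ht => abs_phiKL_le (abs_theta_mul_le hG hθ0 hθ ht) h1⟩
    ⟨|θ| * (Real.log ((1 + θ) / (1 - θ)) + (1 / (1 - θ) + 1 / (1 - θ))), fun t ht => by
      rw [abs_mul]
      exact mul_le_mul_of_nonneg_left (abs_dphi_le (abs_theta_mul_le hG hθ0 hθ ht) h1) (abs_nonneg _)⟩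
    (fun t t' ht ht' => by
      have := phiKL_tangent (hlt t ht) (hlt t' ht')
      nlinarith) hpy R

end Mono

/-! ### Uniform bound on the magnetisation -/

section Unif

variable {V : Type u} {G : SimpleGraph V} [G.LocallyFinite] {D : ℕ}
variable {E : Type v} [MeasurableSpace E] {κ : Measure E} [IsProbabilityMeasure κ]
variable (𝔟 : BlockData κ) {θ : ℝ}

variable (hG : RegTree G D) (hθ0 : 0 ≤ θ) (hθ : (D : ℝ) * θ ^ 2 ≤ 1)
include hG hθ0 hθ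

/-- `|ν^R| ≤ s < 1` uniformly in `R`, the edge and the labels. -/
theorem exists_nu_bound : ∃ s : ℝ, 0 ≤ s ∧ s < 1 ∧ ∀ (R : ℕ) (p y : V), G.Adj p y → ∀ x : V → E,
    |nuR G 𝔟 θ R p y x| ≤ s := by
  have h1 := theta_lt_one hG hθ
  have hlo := 𝔟.lo_pos
  set r : ℝ := (1 + θ) / (1 - θ) with hr
  have hr0 : 0 < 1 - θ := by linarith
  have hr1 : 1 ≤ r := by
    rw [hr, le_div_iff₀ hr0]; linarith
  set c : ℝ := |𝔟.hi| / 𝔟.lo + 1 with hc
  have hc1 : 1 ≤ c := by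
    have : 0 ≤ |𝔟.hi| / 𝔟.lo := by positivity
    linarith
  set K : ℝ := c * r ^ D with hK
  have hK1 : 1 ≤ K := by
    have : 1 ≤ r ^ D := one_le_pow₀ hr1
    nlinarith
  -- the weights
  have hw : ∀ e : E, ∀ a b : ℝ, (a = 𝔟.wp e ∧ b = 𝔟.wm e) ∨ (a = 𝔟.wm e ∧ b = 𝔟.wp e) → a ≤ c * b := by
    intro e a b h
    have h1 : a ≤ 𝔟.hi := by
      rcases h with ⟨rfl, _⟩ | ⟨rfl, _⟩
      · exact 𝔟.wp_le e
      · exact 𝔟.wm_le e
    have h2 : 𝔟.lo ≤ b := by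
      rcases h with ⟨_, rfl⟩ | ⟨_, rfl⟩
      · exact 𝔟.wm_ge e
      · exact 𝔟.wp_ge e
    calc a ≤ |𝔟.hi| := h1.trans (le_abs_self _)
      _ = (|𝔟.hi| / 𝔟.lo) * 𝔟.lo := by field_simp
      _ ≤ (|𝔟.hi| / 𝔟.lo) * b := by gcongr
      _ ≤ c * b := by
          have hb : 0 ≤ b := hlo.le.trans h2
          rw [hc]; nlinarith
  -- the main claim
  have claim : ∀ (R : ℕ) (p y : V), G.Adj p y → ∀ x : V → E,
      zR G 𝔟 θ R p y x + nR G 𝔟 θ R p y x ≤ K * (zR G 𝔟 θ R p y x - nR G 𝔟 θ R p y x) ∧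
      zR G 𝔟 θ R p y x - nR G 𝔟 θ R p y x ≤ K * (zR G 𝔟 θ R p y x + nR G 𝔟 θ R p y x) := by
    intro R p y hpy x
    cases R with
    | zero =>
      have e1 : zR G 𝔟 θ 0 p y x + nR G 𝔟 θ 0 p y x = 𝔟.wp (x y) := by
        simp only [zR, nR, bpPair]; ring
      have e2 : zR G 𝔟 θ 0 p y x - nR G 𝔟 θ 0 p y x = 𝔟.wm (x y) := by
        simp only [zR, nR, bpPair]; ring
      rw [e1, e2]
      have hrD : 1 ≤ r ^ D := one_le_pow₀ hr1
      have a1 := hw (x y) (𝔟.wp (x y)) (𝔟.wm (x y)) (Or.inl ⟨rfl, rfl⟩)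
      have a2 := hw (x y) (𝔟.wm (x y)) (𝔟.wp (x y)) (Or.inr ⟨rfl, rfl⟩)
      have b1 : 0 ≤ 𝔟.wm (x y) := hlo.le.trans (𝔟.wm_ge _)
      have b2 : 0 ≤ 𝔟.wp (x y) := hlo.le.trans (𝔟.wp_ge _)
      constructor
      · calc 𝔟.wp (x y) ≤ c * 𝔟.wm (x y) := a1
          _ ≤ K * 𝔟.wm (x y) := by
              apply mul_le_mul_of_nonneg_right _ b1
              rw [hK]; nlinarith
      · calc 𝔟.wm (x y) ≤ c * 𝔟.wp (x y) := a2
          _ ≤ K * 𝔟.wp (x y) := by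
              apply mul_le_mul_of_nonneg_right _ b2
              rw [hK]; nlinarith
    | succ R =>
      set P := ∏ z ∈ ch G p y, (zR G 𝔟 θ R y z x + θ * nR G 𝔟 θ R y z x) with hP
      set M := ∏ z ∈ ch G p y, (zR G 𝔟 θ R y z x - θ * nR G 𝔟 θ R y z x) with hM
      have e1 : zR G 𝔟 θ (R + 1) p y x + nR G 𝔟 θ (R + 1) p y x = 𝔟.wp (x y) * P := by
        simp only [zR, nR, bpPair, hP]; ring
      have e2 : zR G 𝔟 θ (R + 1) p y x - nR G 𝔟 θ (R + 1) p y x = 𝔟.wm (x y) * M := by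
        simp only [zR, nR, bpPair, hM]; ring
      rw [e1, e2]
      have hbd : ∀ z ∈ ch G p y, 0 < zR G 𝔟 θ R y z x - θ * nR G 𝔟 θ R y z x ∧
          0 < zR G 𝔟 θ R y z x + θ * nR G 𝔟 θ R y z x ∧
          zR G 𝔟 θ R y z x + θ * nR G 𝔟 θ R y z x ≤ r * (zR G 𝔟 θ R y z x - θ * nR G 𝔟 θ R y z x) ∧
          zR G 𝔟 θ R y z x - θ * nR G 𝔟 θ R y z x ≤ r * (zR G 𝔟 θ R y z x + θ * nR G 𝔟 θ R y z x) := by
        intro z hz
        have hz' := (mem_ch.mp hz).1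
        have hZ := zR_pos 𝔟 hG hθ0 hθ hz' R x
        have hnu := abs_nuR_lt 𝔟 hG hθ0 hθ hz' R x
        have hn : nuR G 𝔟 θ R y z x = nR G 𝔟 θ R y z x / zR G 𝔟 θ R y z x := rfl
        rw [hn, abs_div, abs_of_pos hZ, div_lt_one hZ, abs_lt] at hnu
        set Z := zR G 𝔟 θ R y z x
        set n := nR G 𝔟 θ R y z x
        have a1 : θ * n < Z := by nlinarith [hnu.2]
        have a2 : -Z < θ * n := by nlinarith [hnu.1]
        refine ⟨by linarith, by linarith, ?_, ?_⟩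
        · rw [hr, div_mul_eq_mul_div, le_div_iff₀ hr0]
          nlinarith [hnu.2]
        · rw [hr, div_mul_eq_mul_div, le_div_iff₀ hr0]
          nlinarith [hnu.1]
      have hP0 : 0 < P := Finset.prod_pos fun z hz => (hbd z hz).2.1
      have hM0 : 0 < M := Finset.prod_pos fun z hz => (hbd z hz).1
      have hPM : P ≤ r ^ D * M := by
        calc P ≤ ∏ z ∈ ch G p y, (r * (zR G 𝔟 θ R y z x - θ * nR G 𝔟 θ R y z x)) :=
              Finset.prod_le_prod (fun z hz => (hbd z hz).2.1.le) (fun z hz => (hbd z hz).2.2.1)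
          _ = r ^ D * M := by
              rw [Finset.prod_mul_distrib, Finset.prod_const, hG.card_ch hpy]
      have hMP : M ≤ r ^ D * P := by
        calc M ≤ ∏ z ∈ ch G p y, (r * (zR G 𝔟 θ R y z x + θ * nR G 𝔟 θ R y z x)) :=
              Finset.prod_le_prod (fun z hz => (hbd z hz).1.le) (fun z hz => (hbd z hz).2.2.2)
          _ = r ^ D * P := by
              rw [Finset.prod_mul_distrib, Finset.prod_const, hG.card_ch hpy]
      have a1 := hw (x y) (𝔟.wp (x y)) (𝔟.wm (x y)) (Or.inl ⟨rfl, rfl⟩)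
      have a2 := hw (x y) (𝔟.wm (x y)) (𝔟.wp (x y)) (Or.inr ⟨rfl, rfl⟩)
      have b1 : 0 ≤ 𝔟.wm (x y) := hlo.le.trans (𝔟.wm_ge _)
      have b2 : 0 ≤ 𝔟.wp (x y) := hlo.le.trans (𝔟.wp_ge _)
      constructor
      · calc 𝔟.wp (x y) * P ≤ (c * 𝔟.wm (x y)) * (r ^ D * M) := by
              apply mul_le_mul a1 hPM hP0.le
              exact mul_nonneg (by linarith) b1
          _ = K * (𝔟.wm (x y) * M) := by rw [hK]; ring
      · calc 𝔟.wm (x y) * M ≤ (c * 𝔟.wp (x y)) * (r ^ D * P) := by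
              apply mul_le_mul a2 hMP hM0.le
              exact mul_nonneg (by linarith) b2
          _ = K * (𝔟.wp (x y) * P) := by rw [hK]; ring
  refine ⟨(K - 1) / (K + 1), div_nonneg (by linarith) (by linarith), ?_, ?_⟩
  · rw [div_lt_one (by linarith)]; linarith
  · intro R p y hpy x
    obtain ⟨c1, c2⟩ := claim R p y hpy x
    have hZ := zR_pos 𝔟 hG hθ0 hθ hpy R x
    have hn : nuR G 𝔟 θ R p y x = nR G 𝔟 θ R p y x / zR G 𝔟 θ R p y x := rfl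
    rw [hn, abs_div, abs_of_pos hZ, div_le_iff₀ hZ, div_mul_eq_mul_div, le_div_iff₀ (by linarith)]
    rcases abs_cases (nR G 𝔟 θ R p y x) with ⟨h, _⟩ | ⟨h, _⟩ <;> rw [h] <;> nlinarith

end Unif

/-! ### The critical damping rate -/

/-- The real-variable core of (J4) and (J5). -/
theorem zeta_algebra {D : ℕ} (hD : 2 ≤ D) {t Λ a a' b' q' Ph' ψ ψ' I ζ : ℝ}
    (ht0 : 0 ≤ t) (ht1 : t ≤ 1)
    (h1 : b' = Λ * a ^ D) (hΛ : 0 < Λ) (ha0 : 0 < a) (ha1 : a ≤ 1) (ha'0 : 0 < a') (haa' : a' ≤ a)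
    (h2 : Ph' = I + D * ψ)
    (h3 : (1 - b' - Ph' / 5) - D * (1 - a' - ψ' / 5) ≤ (1 - t) * q' / 10)
    (h4 : ψ ≤ ψ')
    (h6 : q' / 4 ≤ a' - b')
    (h7 : 0 ≤ q') (h7' : q' ≤ 1 / 2)
    (h8 : 1 - b' ≤ q')
    (h9 : D * (a - a') ≤ ζ / 10)
    (hζ : 0 < ζ) (hζ' : ζ ≤ - Real.log Λ - I / 5) :
    Real.sqrt ζ / 6 ≤ 1 ∧ t * Λ * a ^ (D - 1) ≤ 1 - Real.sqrt ζ / 6 := by
  have hD' : (0 : ℝ) ≤ D := Nat.cast_nonneg D
  have ha'1 : a' ≤ 1 := haa'.trans ha1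
  have hb'0 : 0 < b' := by rw [h1]; positivity
  have hb'1 : b' ≤ 1 := by linarith
  set w := 1 - b' with hw
  have hw0 : 0 ≤ w := by rw [hw]; linarith
  have hw1 : w ≤ q' := h8
  have hbhalf : 1 / 2 ≤ b' := by rw [hw] at hw1; linarith
  -- the logarithms
  have hlogb : Real.log b' = Real.log Λ + D * Real.log a := by
    rw [h1, Real.log_mul hΛ.ne' (pow_pos ha0 D).ne', Real.log_pow]
  have hloga : Real.log a ≤ a - 1 := Real.log_le_sub_one_of_pos ha0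
  have hlogb' : - Real.log b' ≤ w + 2 * w ^ 2 := by
    have e : - Real.log b' = Real.log (1 / b') := by
      rw [one_div, Real.log_inv]
    rw [e]
    have h5 := Real.log_le_sub_one_of_pos (show 0 < 1 / b' by positivity)
    have h6' : 1 / b' - 1 ≤ w + 2 * w ^ 2 := by
      have hb2 : b' = 1 - w := by rw [hw]; ring
      rw [div_sub_one hb'0.ne', div_le_iff₀ hb'0, hb2]
      have hw12 : w ≤ 1 / 2 := by linarith
      nlinarith [mul_nonneg hw0 hw0, mul_nonneg (mul_nonneg hw0 hw0) (sub_nonneg.mpr hw12)]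
    linarith
  -- (J4)
  have hmain : (9 / 10) * ζ ≤ 2 * q' ^ 2 + (1 - t) * q' / 10 := by
    have e1 : - Real.log Λ = D * Real.log a - Real.log b' := by rw [hlogb]; ring
    have e2 : D * Real.log a ≤ D * (a - 1) := mul_le_mul_of_nonneg_left hloga hD'
    have e3 : 2 * w ^ 2 ≤ 2 * q' ^ 2 := by
      have := pow_le_pow_left₀ hw0 hw1 2
      linarith
    have e4 : (D : ℝ) * ψ ≤ D * ψ' := mul_le_mul_of_nonneg_left h4 hD'
    rw [h2] at h3
    rw [e1] at hζ'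
    have e6 : (D : ℝ) * (1 - a' - ψ' / 5) = D - D * a' - D * ψ' / 5 := by ring
    rw [e6] at h3
    have e7 : (D : ℝ) * (a - 1) = D * a - D := by ring
    have e8 : (D : ℝ) * (a - a') = D * a - D * a' := by ring
    rw [e7] at e2
    rw [e8] at h9
    linarith
  set γ := Real.sqrt ζ / 6 with hγ
  have hγ0 : 0 < γ := by rw [hγ]; positivity
  have hγ2 : ζ = 36 * γ ^ 2 := by
    rw [hγ, div_pow, Real.sq_sqrt hζ.le]; ring
  have hq2 : q' ^ 2 ≤ 1 / 4 := by nlinarith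
  have ht2 : (1 - t) * q' ≤ 1 / 2 := by nlinarith
  have hγ1 : γ ≤ 1 := by
    by_contra hcon
    push Not at hcon
    nlinarith
  refine ⟨hγ1, ?_⟩
  -- the alternative
  have halt : γ ≤ 1 - t ∨ γ ≤ q' / 4 := by
    by_contra hcon
    push Not at hcon
    obtain ⟨c1, c2⟩ := hcon
    have c3 : q' < 4 * γ := by linarith
    have c4 : q' ^ 2 < 16 * γ ^ 2 := by nlinarith
    have c5 : (1 - t) * q' ≤ γ * (4 * γ) :=
      mul_le_mul c1.le c3.le h7 hγ0.le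
    rw [hγ2] at hmain
    nlinarith
  -- the rate
  have hDm : a ^ D = a ^ (D - 1) * a := by
    conv_lhs => rw [show D = (D - 1) + 1 by omega, pow_succ]
  have hbound : t * Λ * a ^ (D - 1) * a ≤ t * (1 - q' / 4) * a := by
    have e1 : t * Λ * a ^ (D - 1) * a = t * b' := by rw [h1, hDm]; ring
    rw [e1]
    have e2 : b' ≤ (1 - q' / 4) * a := by
      have e3 : a' * (q' / 4) ≤ 1 * (q' / 4) := mul_le_mul_of_nonneg_right ha'1 (by positivity)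
      have e4 : (1 - q' / 4) * a' ≤ (1 - q' / 4) * a :=
        mul_le_mul_of_nonneg_left haa' (by linarith)
      nlinarith
    calc t * b' ≤ t * ((1 - q' / 4) * a) := mul_le_mul_of_nonneg_left e2 ht0
      _ = t * (1 - q' / 4) * a := by ring
  have hrate : t * Λ * a ^ (D - 1) ≤ t * (1 - q' / 4) := le_of_mul_le_mul_right hbound ha0
  refine hrate.trans ?_
  rcases halt with h | h
  · have : t * (1 - q' / 4) ≤ t * 1 := mul_le_mul_of_nonneg_left (by linarith) ht0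
    linarith
  · have : t * (1 - q' / 4) ≤ 1 * (1 - q' / 4) := mul_le_mul_of_nonneg_right ht1 (by linarith)
    linarith

section Zeta

variable {V : Type u} {G : SimpleGraph V} [G.LocallyFinite] {D : ℕ}
variable {E : Type v} [MeasurableSpace E] {κ : Measure E} [IsProbabilityMeasure κ]
variable (𝔟 : BlockData κ) {θ : ℝ}

variable (hG : RegTree G D) (hθ0 : 0 ≤ θ) (hθ : (D : ℝ) * θ ^ 2 ≤ 1)
include hG hθ0 hθ

theorem Atil_symm {p y p' y' : V} (hpy : G.Adj p y) (hpy' : G.Adj p' y') (R : ℕ) :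
    Atil 𝔟 G θ R p' y' = Atil 𝔟 G θ R p y := by
  unfold Atil
  refine EsR_nu_symm 𝔟 hG hθ0 hθ (h := fun t => Real.sqrt (1 - (θ * t) ^ 2)) (by fun_prop)
    ⟨1, fun t ht => ?_⟩ hpy hpy' R
  rw [abs_of_nonneg (Real.sqrt_nonneg _)]
  exact Real.sqrt_le_one.mpr (by nlinarith [sq_nonneg (θ * t)])

theorem Psi_symm {p y p' y' : V} (hpy : G.Adj p y) (hpy' : G.Adj p' y') (R : ℕ) :
    EsR G 𝔟 θ R p' y' (fun x => phiKL (θ * nuR G 𝔟 θ R p' y' x)) =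
      EsR G 𝔟 θ R p y (fun x => phiKL (θ * nuR G 𝔟 θ R p y x)) := by
  have h1 := theta_lt_one hG hθ
  refine EsR_nu_symm 𝔟 hG hθ0 hθ (h := fun t => phiKL (θ * t)) (measurable_phiKL.comp (by fun_prop))
    ⟨_, fun t ht => abs_phiKL_le (abs_theta_mul_le hG hθ0 hθ ht) h1⟩ hpy hpy' R

theorem Atil_small {p y : V} (hpy : G.Adj p y) {ε : ℝ} (hε : 0 < ε) :
    ∃ R₀, ∀ R ≥ R₀, (D : ℝ) * (Atil 𝔟 G θ R p y - Atil 𝔟 G θ (R + 1) p y) ≤ ε := by
  have anti : Antitone (fun R => Atil 𝔟 G θ R p y) :=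
    antitone_nat_of_succ_le fun R => Atil_succ_le 𝔟 hG hθ0 hθ hpy R
  have bdd : BddBelow (Set.range fun R => Atil 𝔟 G θ R p y) :=
    ⟨0, by rintro _ ⟨R, rfl⟩; exact Atil_nonneg 𝔟 hG hθ0 hθ hpy R⟩
  have tend := tendsto_atTop_ciInf anti bdd
  have tend2 := (tendsto_add_atTop_iff_nat (f := fun R => Atil 𝔟 G θ R p y) 1).2 tend
  have tend3 := (tend.sub tend2).const_mul (D : ℝ)
  rw [sub_self, mul_zero] at tend3
  have hev := tend3.eventually (Iio_mem_nhds hε)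
  obtain ⟨R₀, h⟩ := eventually_atTop.1 hev
  exact ⟨R₀, fun R hR => (h R hR).le⟩

/-- Integrating the pointwise inequality (J4). -/
theorem integrated_pointwise {p y : V} (hpy : G.Adj p y) (R : ℕ) :
    (1 - EsR G 𝔟 θ R p y (fun x => Real.sqrt (1 - nuR G 𝔟 θ R p y x ^ 2))
        - EsR G 𝔟 θ R p y (fun x => phiKL (nuR G 𝔟 θ R p y x)) / 5)
      - D * (1 - Atil 𝔟 G θ R p y - EsR G 𝔟 θ R p y (fun x => phiKL (θ * nuR G 𝔟 θ R p y x)) / 5)
    ≤ (1 - D * θ ^ 2) * EsR G 𝔟 θ R p y (fun x => nuR G 𝔟 θ R p y x ^ 2) / 10 := by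
  have h1 := theta_lt_one hG hθ
  have h12 := theta_sq_le_half hG hθ
  obtain ⟨s, hs0, hs1, hs⟩ := exists_nu_bound 𝔟 hG hθ0 hθ
  have B1 := BM_sqrt_nu 𝔟 hG hθ0 hθ hpy R
  have B2 : BM (fun x => phiKL (nuR G 𝔟 θ R p y x)) :=
    BM.of_bound (measurable_phiKL.comp (measurable_nuR 𝔟 hG hθ0 hθ hpy R))
      fun x => abs_phiKL_le (hs R p y hpy x) hs1
  have B3 := BM_sqrt_theta_nu 𝔟 hG hθ0 hθ hpy R
  have B4 : BM (fun x => phiKL (θ * nuR G 𝔟 θ R p y x)) :=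
    BM.of_bound (measurable_phiKL.comp ((measurable_nuR 𝔟 hG hθ0 hθ hpy R).const_mul θ))
      fun x => abs_phiKL_le (abs_theta_mul_le hG hθ0 hθ (abs_nuR_lt 𝔟 hG hθ0 hθ hpy R x)) h1
  have B5 : BM (fun x => nuR G 𝔟 θ R p y x ^ 2) :=
    BM.comp_nuR 𝔟 hG hθ0 hθ (h := fun t => t ^ 2) (by fun_prop)
      ⟨1, fun t ht => by
        rw [abs_of_nonneg (sq_nonneg t)]
        exact ((sq_lt_one_iff_abs_lt_one t).mpr ht).le⟩ hpy R
  have hm := EsR_mono 𝔟 hG hθ0 hθ (f := fun x =>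
      (1 - D) + ((-1) * Real.sqrt (1 - nuR G 𝔟 θ R p y x ^ 2) +
        ((-1 / 5) * phiKL (nuR G 𝔟 θ R p y x) +
          ((D : ℝ) * Real.sqrt (1 - (θ * nuR G 𝔟 θ R p y x) ^ 2) +
            (D / 5 : ℝ) * phiKL (θ * nuR G 𝔟 θ R p y x)))))
    (g := fun x => ((1 - D * θ ^ 2) / 10) * nuR G 𝔟 θ R p y x ^ 2)
    ((BM.const _).add (((BM.const _).mul B1).add (((BM.const _).mul B2).add
      (((BM.const _).mul B3).add ((BM.const _).mul B4)))))
    ((BM.const _).mul B5)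
    (fun x => by
      have := OneDim.bhatt_kl (D := D) (abs_nuR_lt 𝔟 hG hθ0 hθ hpy R x) hθ0 h12 hθ
      simp only [phiKL]
      nlinarith) hpy R
  rw [EsR_add 𝔟 hG hθ0 hθ (BM.const _) (((BM.const _).mul B1).add (((BM.const _).mul B2).add
      (((BM.const _).mul B3).add ((BM.const _).mul B4)))) hpy R,
    EsR_add 𝔟 hG hθ0 hθ ((BM.const _).mul B1) (((BM.const _).mul B2).add
      (((BM.const _).mul B3).add ((BM.const _).mul B4))) hpy R,
    EsR_add 𝔟 hG hθ0 hθ ((BM.const _).mul B2)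
      (((BM.const _).mul B3).add ((BM.const _).mul B4)) hpy R,
    EsR_add 𝔟 hG hθ0 hθ ((BM.const _).mul B3) ((BM.const _).mul B4) hpy R,
    EsR_const 𝔟 hG hθ0 hθ _ hpy R, EsR_const_mul, EsR_const_mul, EsR_const_mul, EsR_const_mul,
    EsR_const_mul] at hm
  have hA : EsR G 𝔟 θ R p y (fun x => Real.sqrt (1 - (θ * nuR G 𝔟 θ R p y x) ^ 2)) = Atil 𝔟 G θ R p y := rfl
  rw [hA] at hm
  nlinarith

/-- Rate at a large depth. -/
theorem rho_step {ζ : ℝ} (hI : 𝔟.kl ≤ 1 / 12) (hζ : 0 < ζ) (hζ' : ζ ≤ -Real.log 𝔟.lam - 𝔟.kl / 5)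
    {p y : V} (hpy : G.Adj p y) (R : ℕ)
    (hsmall : (D : ℝ) * (Atil 𝔟 G θ R p y - Atil 𝔟 G θ (R + 1) p y) ≤ ζ / 10) :
    Real.sqrt ζ / 6 ≤ 1 ∧
      (D : ℝ) * θ ^ 2 * 𝔟.lam * Atil 𝔟 G θ R p y ^ (D - 1) ≤ 1 - Real.sqrt ζ / 6 := by
  have h1 := theta_lt_one hG hθ
  have h12 := theta_sq_le_half hG hθ
  have hDpos := D_pos_real hG hθ0 hθ
  have hD2 := hG.two_le
  obtain ⟨s, hs0, hs1, hs⟩ := exists_nu_bound 𝔟 hG hθ0 hθ
  -- a child
  have hch : (ch G p y).Nonempty := by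
    rw [← Finset.card_pos, hG.card_ch hpy]; omega
  obtain ⟨z, hz⟩ := hch
  have hz' := (mem_ch.mp hz).1
  -- positivity of A
  have hApos : ∀ R p y, G.Adj p y → 1 / 2 ≤ Atil 𝔟 G θ R p y := by
    intro R p y hpy
    have hB : BM (fun _ : V → E => (1 / 2 : ℝ)) := BM.const _
    have := EsR_mono 𝔟 hG hθ0 hθ hB (BM_sqrt_theta_nu 𝔟 hG hθ0 hθ hpy R) (fun x => by
      apply Real.le_sqrt_of_sq_le
      have h3 := ((sq_lt_one_iff_abs_lt_one _).mpr (abs_nuR_lt 𝔟 hG hθ0 hθ hpy R x)).le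
      have h4 : (θ * nuR G 𝔟 θ R p y x) ^ 2 = θ ^ 2 * nuR G 𝔟 θ R p y x ^ 2 := by ring
      rw [h4]
      nlinarith [sq_nonneg (nuR G 𝔟 θ R p y x), sq_nonneg θ]) hpy R
    rwa [EsR_const 𝔟 hG hθ0 hθ _ hpy R] at this
  -- the recursions
  have J1 := kl_recursion 𝔟 hG hθ0 hθ hpy hz R
  have J2 := bhatt_recursion 𝔟 hG hθ0 hθ hpy hz R
  rw [Psi_symm 𝔟 hG hθ0 hθ hpy hz' R] at J1
  have hAz : EsR G 𝔟 θ R y z (fun x => Real.sqrt (1 - (θ * nuR G 𝔟 θ R y z x) ^ 2)) = Atil 𝔟 G θ R p y :=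
    Atil_symm 𝔟 hG hθ0 hθ hpy hz' R
  rw [hAz] at J2
  have Jint := integrated_pointwise 𝔟 hG hθ0 hθ hpy (R + 1)
  have hPsi := Psi_le_succ 𝔟 hG hθ0 hθ hpy R
  have hAanti := Atil_succ_le 𝔟 hG hθ0 hθ hpy R
  -- moments of ν^(R+1)
  have B1 := BM_sqrt_nu 𝔟 hG hθ0 hθ hpy (R + 1)
  have B3 := BM_sqrt_theta_nu 𝔟 hG hθ0 hθ hpy (R + 1)
  have hsq : ∀ t : ℝ, |t| < 1 → |t ^ 2| ≤ 1 := fun t ht => by
    rw [abs_of_nonneg (sq_nonneg t)]
    exact ((sq_lt_one_iff_abs_lt_one t).mpr ht).le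
  have B5 : BM (fun x => nuR G 𝔟 θ (R + 1) p y x ^ 2) :=
    BM.comp_nuR 𝔟 hG hθ0 hθ (h := fun t => t ^ 2) (by fun_prop) ⟨1, hsq⟩ hpy (R + 1)
  have B6 : BM (fun x => nuR G 𝔟 θ (R + 1) p y x ^ 4) := by
    have := B5.mul B5
    simpa [← pow_add] using this
  set q' := EsR G 𝔟 θ (R + 1) p y (fun x => nuR G 𝔟 θ (R + 1) p y x ^ 2) with hq'
  have hq0 : 0 ≤ q' := EsR_nonneg 𝔟 hG hθ0 hθ (fun _ => sq_nonneg _) hpy (R + 1)
  have hq2 : q' ^ 2 ≤ 3 * 𝔟.kl := by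
    have h5 := nu4_le_proved 𝔟 hG hθ0 hθ hpy (R + 1)
    have h6 := EsR_mono 𝔟 hG hθ0 hθ (f := fun x => 2 * q' * nuR G 𝔟 θ (R + 1) p y x ^ 2 + (- q' ^ 2))
      ((BM.const _).mul B5 |>.add (BM.const _)) B6
      (fun x => by nlinarith [sq_nonneg (nuR G 𝔟 θ (R + 1) p y x ^ 2 - q')]) hpy (R + 1)
    rw [EsR_add 𝔟 hG hθ0 hθ ((BM.const _).mul B5) (BM.const _) hpy (R + 1), EsR_const_mul,
      EsR_const 𝔟 hG hθ0 hθ _ hpy (R + 1)] at h6
    nlinarith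
  have hq12 : q' ≤ 1 / 2 := by
    by_contra hcon
    push Not at hcon
    nlinarith
  have hAB : q' / 4 ≤ Atil 𝔟 G θ (R + 1) p y -
      EsR G 𝔟 θ (R + 1) p y (fun x => Real.sqrt (1 - nuR G 𝔟 θ (R + 1) p y x ^ 2)) := by
    unfold Atil
    rw [← EsR_sub 𝔟 hG hθ0 hθ B3 B1 hpy (R + 1), hq']
    have := EsR_mono 𝔟 hG hθ0 hθ (f := fun x => (1 / 4 : ℝ) * nuR G 𝔟 θ (R + 1) p y x ^ 2)
      ((BM.const _).mul B5) (B3.sub B1) (fun x => by
        have hx := abs_nuR_lt 𝔟 hG hθ0 hθ hpy (R + 1) x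
        set t := nuR G 𝔟 θ (R + 1) p y x
        have h7 : t ^ 2 < 1 := (sq_lt_one_iff_abs_lt_one t).mpr hx
        have h8 : 0 ≤ 1 - t ^ 2 := by linarith
        have h9 : 0 ≤ 1 - (θ * t) ^ 2 := by
          have : (θ * t) ^ 2 = θ ^ 2 * t ^ 2 := by ring
          rw [this]; nlinarith [sq_nonneg t, sq_nonneg θ]
        set u := Real.sqrt (1 - t ^ 2)
        set v := Real.sqrt (1 - (θ * t) ^ 2)
        have hu : u ^ 2 = 1 - t ^ 2 := Real.sq_sqrt h8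
        have hv : v ^ 2 = 1 - (θ * t) ^ 2 := Real.sq_sqrt h9
        have hu0 : 0 ≤ u := Real.sqrt_nonneg _
        have hv0 : 0 ≤ v := Real.sqrt_nonneg _
        have hu1 : u ≤ 1 := Real.sqrt_le_one.mpr (by linarith [sq_nonneg t])
        have hv1 : v ≤ 1 := Real.sqrt_le_one.mpr (by linarith [sq_nonneg (θ * t)])
        have huv : u ≤ v := Real.sqrt_le_sqrt (by
          have : (θ * t) ^ 2 = θ ^ 2 * t ^ 2 := by ring
          rw [this]; nlinarith [sq_nonneg t, sq_nonneg θ])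
        have e : (v - u) * (v + u) = (1 - θ ^ 2) * t ^ 2 := by
          have : (θ * t) ^ 2 = θ ^ 2 * t ^ 2 := by ring
          rw [this] at hv
          nlinarith
        have e2 : (v - u) * (v + u) ≤ (v - u) * 2 :=
          mul_le_mul_of_nonneg_left (by linarith) (by linarith)
        nlinarith [sq_nonneg t, sq_nonneg θ]) hpy (R + 1)
    rw [EsR_const_mul] at this
    linarith
  have hw : 1 - EsR G 𝔟 θ (R + 1) p y (fun x => Real.sqrt (1 - nuR G 𝔟 θ (R + 1) p y x ^ 2)) ≤ q' := by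
    have := EsR_mono 𝔟 hG hθ0 hθ (f := fun x => (1 : ℝ) + (-1) * nuR G 𝔟 θ (R + 1) p y x ^ 2)
      ((BM.const _).add ((BM.const _).mul B5)) B1 (fun x => by
        have hx := abs_nuR_lt 𝔟 hG hθ0 hθ hpy (R + 1) x
        set t := nuR G 𝔟 θ (R + 1) p y x
        have h7 : t ^ 2 < 1 := (sq_lt_one_iff_abs_lt_one t).mpr hx
        have h8 : 0 ≤ 1 - t ^ 2 := by linarith
        set u := Real.sqrt (1 - t ^ 2)
        have hu : u ^ 2 = 1 - t ^ 2 := Real.sq_sqrt h8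
        have hu0 : 0 ≤ u := Real.sqrt_nonneg _
        have hu1 : u ≤ 1 := Real.sqrt_le_one.mpr (by linarith [sq_nonneg t])
        nlinarith) hpy (R + 1)
    rw [EsR_add 𝔟 hG hθ0 hθ (BM.const _) ((BM.const _).mul B5) hpy (R + 1), EsR_const_mul,
      EsR_const 𝔟 hG hθ0 hθ _ hpy (R + 1)] at this
    linarith
  -- positivity of Λ
  have hApos0 := hApos R p y hpy
  have hb'pos : 0 < EsR G 𝔟 θ (R + 1) p y (fun x => Real.sqrt (1 - nuR G 𝔟 θ (R + 1) p y x ^ 2)) := by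
    have hs2 : 0 < 1 - s ^ 2 := by nlinarith
    have := EsR_mono 𝔟 hG hθ0 hθ (BM.const (Real.sqrt (1 - s ^ 2))) B1 (fun x => by
      apply Real.sqrt_le_sqrt
      have h6 := hs (R + 1) p y hpy x
      have := sq_le_sq' (neg_le_of_abs_le h6) (le_of_abs_le h6)
      linarith) hpy (R + 1)
    rw [EsR_const 𝔟 hG hθ0 hθ _ hpy (R + 1)] at this
    exact lt_of_lt_of_le (Real.sqrt_pos.mpr hs2) this
  have hΛ : 0 < 𝔟.lam := by
    rcases (BlockData.lam_nonneg 𝔟).lt_or_eq with h | h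
    · exact h
    · rw [J2, ← h] at hb'pos
      simp at hb'pos
  exact zeta_algebra hD2 (mul_nonneg hDpos.le (sq_nonneg θ)) hθ J2 hΛ (by linarith)
    (Atil_le_one 𝔟 hG hθ0 hθ hpy R) (by have := hApos (R + 1) p y hpy; linarith) hAanti J1 Jint hPsi hAB hq0 hq12 hw hsmall
    hζ hζ'

end Zeta

/-- (J4+J5) the critical damping rate `γ ≥ c√ζ`, `ζ = -log Λ - I/5`, if `I` is small. Universal constants. -/
theorem damped_of_zeta_proved (D : ℕ) : ∃ c I₀ : ℝ, 0 < c ∧ 0 < I₀ ∧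
    ∀ {V : Type u} {G : SimpleGraph V} [G.LocallyFinite] (_ : RegTree G D) {E : Type v} [MeasurableSpace E]
      {κ : Measure E} [IsProbabilityMeasure κ] (𝔟 : BlockData κ) {θ ζ : ℝ} (_ : 0 ≤ θ)
      (_ : (D : ℝ) * θ ^ 2 ≤ 1) (_ : 𝔟.kl ≤ I₀) (_ : 0 < ζ) (_ : ζ ≤ -Real.log 𝔟.lam - 𝔟.kl / 5),
      Damped (G := G) 𝔟 θ (c * Real.sqrt ζ) := by
  refine ⟨1 / 6, 1 / 12, by norm_num, by norm_num, ?_⟩
  intro V G _ hG E _ κ _ 𝔟 θ ζ hθ0 hθ hI hζ hζ' p y hpy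
  have hD := D_pos_real hG hθ0 hθ
  obtain ⟨R₀, hR₀⟩ := Atil_small 𝔟 hG hθ0 hθ hpy (ε := ζ / 10) (by positivity)
  have hγ : (1 / 6 : ℝ) * Real.sqrt ζ = Real.sqrt ζ / 6 := by ring
  rw [hγ]
  have h0 := rho_step 𝔟 hG hθ0 hθ hI hζ hζ' hpy R₀ (hR₀ R₀ le_rfl)
  refine damped_of_rho 𝔟 hG hθ0 hθ (ρ := 1 - Real.sqrt ζ / 6) (R₀ := R₀) (by linarith [h0.1]) le_rfl
    (fun R hR y' z' hyz => ?_) hpy
  rw [Atil_symm 𝔟 hG hθ0 hθ hpy hyz R]
  exact (rho_step 𝔟 hG hθ0 hθ hI hζ hζ' hpy R (hR₀ R hR)).2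

end Damp

section Final

variable {V : Type u} {G : SimpleGraph V} [G.LocallyFinite] {D : ℕ}
variable {E : Type v} [MeasurableSpace E] {κ : Measure E} [IsProbabilityMeasure κ]
variable (𝔟 : BlockData κ) {θ : ℝ}

/-- (J5) damping from the own observation only. -/
theorem damped_of_lam_proved (hG : RegTree G D) (hθ0 : 0 ≤ θ) (hθ : (D : ℝ) * θ ^ 2 ≤ 1)
    {γ : ℝ} (h0 : 0 < γ) (h1 : γ ≤ 1 - 𝔟.lam) : Damped (G := G) 𝔟 θ γ :=
  Damp.damped_of_lam_proved 𝔟 hG hθ0 hθ h0 h1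

end Final

/-- (J4+J5) the critical damping rate `γ ≥ c√ζ`, `ζ = -log Λ - I/5`, if `I` is small. Universal constants. -/
theorem damped_of_zeta_proved (D : ℕ) : ∃ c I₀ : ℝ, 0 < c ∧ 0 < I₀ ∧
    ∀ {V : Type u} {G : SimpleGraph V} [G.LocallyFinite] (_ : RegTree G D) {E : Type v} [MeasurableSpace E]
      {κ : Measure E} [IsProbabilityMeasure κ] (𝔟 : BlockData κ) {θ ζ : ℝ} (_ : 0 ≤ θ)
      (_ : (D : ℝ) * θ ^ 2 ≤ 1) (_ : 𝔟.kl ≤ I₀) (_ : 0 < ζ) (_ : ζ ≤ -Real.log 𝔟.lam - 𝔟.kl / 5),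
      Damped (G := G) 𝔟 θ (c * Real.sqrt ζ) :=
  Damp.damped_of_zeta_proved.{u, v} D

end Crest.Agent.Lib.IsingFIID
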