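/-
S0241 blueprint, Mod J-d (J6): moments of partial sums of level sums.
`S_r ≤ D^{-j} Σ_{|z|=j} S_{r-j}(z)`, the summands are flip-even, hence iid; exponential moments.
-/
import Crest.Agent.Lib.IsingFIID.StaticDamped

set_option autoImplicit false
universe u v

namespace Crest.Agent.Lib.IsingFIID

open MeasureTheory Filter
open scoped Classical Topology

namespace Damp

/-! ### Real-variable lemmas -/

/-- convexity of the exponential on `[0,1]` -/
theorem exp_mul_le {s l : ℝ} (hs0 : 0 ≤ s) (hs1 : s ≤ 1) :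
    Real.exp (l * s) ≤ 1 + s * (Real.exp l - 1) := by
  have := convexOn_exp.2 (Set.mem_univ l) (Set.mem_univ (0 : ℝ)) hs0 (by linarith : 0 ≤ 1 - s) (by ring)
  simp only [smul_eq_mul, mul_zero, add_zero, Real.exp_zero, mul_one] at this
  calc Real.exp (l * s) = Real.exp (s * l) := by rw [mul_comm]
    _ ≤ s * Real.exp l + (1 - s) := this
    _ = _ := by ring

theorem exp_sub_one_le {l : ℝ} (h0 : 0 ≤ l) (h1 : l ≤ 1) : Real.exp l - 1 ≤ 2 * l := by
  have h2 := exp_mul_le (l := 1) h0 h1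
  rw [one_mul] at h2
  have h3 := Real.exp_one_lt_d9
  nlinarith

/-- `t^q ≤ M^q exp(q t / M - q)` -/
theorem pow_le_exp {t M : ℝ} (ht : 0 ≤ t) (hM : 0 < M) (q : ℕ) :
    t ^ q ≤ M ^ q * Real.exp (-(q : ℝ)) * Real.exp ((q / M) * t) := by
  have h1 : t / M ≤ Real.exp (t / M - 1) := by
    have := Real.add_one_le_exp (t / M - 1)
    linarith
  have h2 : (t / M) ^ q ≤ Real.exp (t / M - 1) ^ q :=
    pow_le_pow_left₀ (by positivity) h1 q
  rw [← Real.exp_nat_mul] at h2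
  have e1 : t ^ q = M ^ q * (t / M) ^ q := by
    rw [div_pow]; field_simp
  rw [e1, mul_assoc]
  apply mul_le_mul_of_nonneg_left _ (by positivity)
  rw [← Real.exp_add]
  refine h2.trans (le_of_eq ?_)
  congr 1
  field_simp
  ring

/-- `Σ_{r<n} f(r/2) ≤ 2 Σ_{j<n} f(j)` -/
theorem sum_half_le {f : ℕ → ℝ} (hf : ∀ j, 0 ≤ f j) (n : ℕ) :
    ∑ r ∈ Finset.range n, f (r / 2) ≤ 2 * ∑ j ∈ Finset.range n, f j := by
  have h2 : ∀ m, ∑ r ∈ Finset.range (2 * m), f (r / 2) = 2 * ∑ j ∈ Finset.range m, f j := by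
    intro m
    induction m with
    | zero => simp
    | succ m ih =>
      rw [show 2 * (m + 1) = 2 * m + 1 + 1 by ring, Finset.sum_range_succ, Finset.sum_range_succ, ih,
        Finset.sum_range_succ]
      have e1 : (2 * m + 1) / 2 = m := by omega
      have e2 : (2 * m) / 2 = m := by omega
      rw [e1, e2]; ring
  rw [← h2]
  exact Finset.sum_le_sum_of_subset_of_nonneg
    (Finset.range_subset_range.mpr (by omega)) (fun _ _ _ => hf _)

/-- Geometric sum with the shifted exponent. -/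
theorem sum_pow_pred_le {γ : ℝ} (h0 : 0 < γ) (h1 : γ ≤ 1) (n : ℕ) :
    ∑ j ∈ Finset.range n, (1 - γ) ^ (j - 1) ≤ 1 + 1 / γ := by
  have hx0 : 0 ≤ 1 - γ := by linarith
  have geo : ∀ m, ∑ j ∈ Finset.range m, (1 - γ) ^ j ≤ 1 / γ := by
    intro m
    have hne : (1 - γ) ≠ 1 := by
      intro h; linarith
    rw [geom_sum_eq hne]
    have e : ((1 - γ) ^ m - 1) / (1 - γ - 1) = (1 - (1 - γ) ^ m) / γ := by
      have : (1 - γ - 1) = -γ := by ring
      rw [this, div_neg, ← neg_div]; ring_nf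
    rw [e]
    apply div_le_div_of_nonneg_right _ h0.le
    have := pow_nonneg hx0 m
    linarith
  cases n with
  | zero =>
    simp only [Finset.range_zero, Finset.sum_empty]
    positivity
  | succ n =>
    rw [Finset.sum_range_succ']
    simp only [Nat.add_sub_cancel, Nat.zero_sub, pow_zero]
    linarith [geo n]

/-- The saturated geometric sum. -/
theorem sum_min_le {a : ℝ} (ha : 0 ≤ a) {q k : ℕ} (hk : q ≤ 2 ^ k) (n : ℕ) :
    ∑ j ∈ Finset.range n, min 1 (a * q / 2 ^ j) ≤ k + 2 * a := by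
  have hnn : ∀ j : ℕ, 0 ≤ min 1 (a * q / 2 ^ j) := fun j => le_min zero_le_one (by positivity)
  calc ∑ j ∈ Finset.range n, min 1 (a * q / 2 ^ j)
      ≤ ∑ j ∈ Finset.range (k + n), min 1 (a * q / 2 ^ j) :=
        Finset.sum_le_sum_of_subset_of_nonneg
          (Finset.range_subset_range.mpr (by omega)) (fun j _ _ => hnn j)
    _ = ∑ j ∈ Finset.range k, min 1 (a * q / 2 ^ j) +
          ∑ j ∈ Finset.range n, min 1 (a * q / 2 ^ (k + j)) := Finset.sum_range_add _ _ _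
    _ ≤ k + 2 * a := by
        apply add_le_add
        · calc ∑ j ∈ Finset.range k, min 1 (a * q / 2 ^ j) ≤ ∑ j ∈ Finset.range k, (1 : ℝ) :=
                Finset.sum_le_sum fun j _ => min_le_left _ _
            _ = k := by simp
        · calc ∑ j ∈ Finset.range n, min 1 (a * q / 2 ^ (k + j))
              ≤ ∑ j ∈ Finset.range n, a * (1 / 2) ^ j := by
                refine Finset.sum_le_sum fun j _ => (min_le_right _ _).trans ?_
                have hq : (q : ℝ) ≤ 2 ^ k := by exact_mod_cast hk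
                rw [pow_add, one_div, inv_pow, div_le_iff₀ (by positivity)]
                have e : a * (2 ^ j)⁻¹ * (2 ^ k * 2 ^ j) = a * 2 ^ k := by field_simp
                rw [e]
                exact mul_le_mul_of_nonneg_left hq ha
            _ = a * ∑ j ∈ Finset.range n, (1 / 2) ^ j := by rw [Finset.mul_sum]
            _ ≤ a * 2 := mul_le_mul_of_nonneg_left (sum_geometric_two_le n) ha
            _ = 2 * a := by ring

theorem exists_log_bound {q : ℕ} (hq : 1 ≤ q) :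
    ∃ k : ℕ, q ≤ 2 ^ k ∧ (k : ℝ) ≤ 2 * Real.log (q + 1) + 1 := by
  refine ⟨Nat.clog 2 q, Nat.le_pow_clog (by norm_num) q, ?_⟩
  have hlog2 := Real.log_two_gt_d9
  have hlq : 0 ≤ Real.log (q + 1) := Real.log_nonneg (by
    have : (0 : ℝ) ≤ q := Nat.cast_nonneg q
    linarith)
  rcases Nat.lt_or_ge 1 q with h1 | h1
  · have h2 : 2 ^ (Nat.clog 2 q).pred < q := Nat.pow_pred_clog_lt_self (by norm_num) h1
    have h3 : (2 : ℝ) ^ (Nat.clog 2 q).pred ≤ q + 1 := by
      have : ((2 ^ (Nat.clog 2 q).pred : ℕ) : ℝ) ≤ (q : ℝ) := by exact_mod_cast h2.le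
      push_cast at this
      linarith
    have h4 := Real.log_le_log (by positivity) h3
    rw [Real.log_pow] at h4
    have h5 : (Nat.clog 2 q : ℝ) ≤ ((Nat.clog 2 q).pred : ℝ) + 1 := by
      have : Nat.clog 2 q ≤ (Nat.clog 2 q).pred + 1 := by
        simp only [Nat.pred_eq_sub_one]; omega
      exact_mod_cast this
    have h6 : ((Nat.clog 2 q).pred : ℝ) ≤ 2 * (((Nat.clog 2 q).pred : ℝ) * Real.log 2) := by
      have : (0 : ℝ) ≤ ((Nat.clog 2 q).pred : ℝ) := Nat.cast_nonneg _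
      nlinarith
    linarith
  · have : q = 1 := by omega
    subst this
    simp
    have : (0 : ℝ) ≤ Real.log (1 + 1) := Real.log_nonneg (by norm_num)
    linarith

theorem BM_exp {Ω : Type*} [MeasurableSpace Ω] {f : Ω → ℝ} (hf : BM f) : BM (fun x => Real.exp (f x)) := by
  obtain ⟨hm, C, hC⟩ := hf
  refine ⟨Real.measurable_exp.comp hm, Real.exp C, fun x => ?_⟩
  rw [abs_of_pos (Real.exp_pos _)]
  exact Real.exp_le_exp.mpr ((le_abs_self _).trans (hC x))

/-! ### The tree sums -/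

section Tlev

variable {V : Type u} {G : SimpleGraph V} [G.LocallyFinite] {D : ℕ}
variable {E : Type v} [MeasurableSpace E] {κ : Measure E} [IsProbabilityMeasure κ]
variable (𝔟 : BlockData κ) {θ : ℝ}

/-- Sum of the level sums over the generation `j` below a directed edge. -/
noncomputable def Tlev (G : SimpleGraph V) [G.LocallyFinite] (𝔟 : BlockData κ) (θ : ℝ) (r R : ℕ) :
    ℕ → V → V → (V → E) → ℝ
  | 0, p, y, x => SR G 𝔟 θ r R p y x
  | j + 1, p, y, x => ∑ z ∈ ch G p y, Tlev G 𝔟 θ r R j y z x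

variable (hG : RegTree G D) (hθ0 : 0 ≤ θ) (hθ : (D : ℝ) * θ ^ 2 ≤ 1)
include hG hθ0 hθ

theorem Tlev_bounds (r R j : ℕ) {p y : V} (hpy : G.Adj p y) (x : V → E) :
    0 ≤ Tlev G 𝔟 θ r R j p y x ∧ Tlev G 𝔟 θ r R j p y x ≤ (D : ℝ) ^ j := by
  induction j generalizing p y with
  | zero => simpa [Tlev] using SR_bounds 𝔟 hG hθ0 hθ r R hpy x
  | succ j ih =>
    simp only [Tlev]
    constructor
    · exact Finset.sum_nonneg fun z hz => (ih (mem_ch.mp hz).1).1
    · calc ∑ z ∈ ch G p y, Tlev G 𝔟 θ r R j y z x ≤ ∑ z ∈ ch G p y, (D : ℝ) ^ j :=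
            Finset.sum_le_sum fun z hz => (ih (mem_ch.mp hz).1).2
        _ = (D : ℝ) ^ (j + 1) := by
            rw [Finset.sum_const, hG.card_ch hpy, nsmul_eq_mul, pow_succ]; ring

theorem BM_Tlev (r R j : ℕ) {p y : V} (hpy : G.Adj p y) : BM (Tlev G 𝔟 θ r R j p y) := by
  induction j generalizing p y with
  | zero => exact BM_SR 𝔟 hG hθ0 hθ r R hpy
  | succ j ih =>
    have := BM.sum (ch G p y) (F := fun z => Tlev G 𝔟 θ r R j y z) (fun z hz => ih (mem_ch.mp hz).1)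
    exact this

omit hG hθ0 hθ in
theorem Tlev_flip (r R j : ℕ) (p y : V) (x : V → E) :
    Tlev G 𝔟 θ r R j p y (𝔟.swap ∘ x) = Tlev G 𝔟 θ r R j p y x := by
  induction j generalizing p y with
  | zero => exact SR_flip 𝔟 r R p y x
  | succ j ih =>
    simp only [Tlev]
    exact Finset.sum_congr rfl fun z _ => ih y z

omit hθ0 hθ in
theorem Tlev_congr (r R j : ℕ) {p y : V} (hpy : G.Adj p y) {x x' : V → E}
    (h : ∀ v ∈ sub G (R + j) p y, x v = x' v) : Tlev G 𝔟 θ r R j p y x = Tlev G 𝔟 θ r R j p y x' := by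
  induction j generalizing p y with
  | zero => exact SR_congr 𝔟 hG r R hpy h
  | succ j ih =>
    simp only [Tlev]
    refine Finset.sum_congr rfl fun z hz => ih (mem_ch.mp hz).1 fun v hv => h v ?_
    exact sub_subset_succ hG hpy hz (R + j) hv

theorem SR_le_Tlev (r R j : ℕ) {p y : V} (hpy : G.Adj p y) (x : V → E) :
    (D : ℝ) ^ j * SR G 𝔟 θ (r + j) (R + j) p y x ≤ Tlev G 𝔟 θ r R j p y x := by
  have h1 := theta_lt_one hG hθ
  induction j generalizing p y with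
  | zero => simp [Tlev]
  | succ j ih =>
    rw [show r + (j + 1) = r + j + 1 by ring, show R + (j + 1) = R + j + 1 by ring, SR_succ_succ]
    simp only [Tlev]
    rw [Finset.mul_sum]
    refine Finset.sum_le_sum fun z hz => ?_
    have hz' := (mem_ch.mp hz).1
    refine le_trans ?_ (ih hz')
    have h2 := bTheta_sq_le hθ0 h1 (abs_nuR_lt 𝔟 hG hθ0 hθ hz' (R + j) x)
    have h3 := (SR_bounds 𝔟 hG hθ0 hθ (r + j) (R + j) hz' x).1
    have hD : (0 : ℝ) ≤ D := Nat.cast_nonneg D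
    have h4 : (D : ℝ) * bTheta θ (nuR G 𝔟 θ (R + j) y z x) ^ 2 ≤ 1 :=
      (mul_le_mul_of_nonneg_left h2 hD).trans hθ
    have h5 : 0 ≤ (D : ℝ) ^ j * SR G 𝔟 θ (r + j) (R + j) y z x := by positivity
    calc (D : ℝ) ^ (j + 1) * (bTheta θ (nuR G 𝔟 θ (R + j) y z x) ^ 2 * SR G 𝔟 θ (r + j) (R + j) y z x)
        = ((D : ℝ) * bTheta θ (nuR G 𝔟 θ (R + j) y z x) ^ 2) * ((D : ℝ) ^ j * SR G 𝔟 θ (r + j) (R + j) y z x) := by
          rw [pow_succ]; ring
      _ ≤ 1 * ((D : ℝ) ^ j * SR G 𝔟 θ (r + j) (R + j) y z x) := mul_le_mul_of_nonneg_right h4 h5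
      _ = _ := one_mul _

/-- Version of independence of the children which asks for hypotheses only on the children. -/
theorem EsR_prod_children' {p y : V} (hpy : G.Adj p y) (R : ℕ) (f : V → (V → E) → ℝ)
    (hf : ∀ z ∈ ch G p y, BM (f z))
    (hdep : ∀ z ∈ ch G p y, ∀ x x' : V → E, (∀ v ∈ sub G R y z, x v = x' v) → f z x = f z x')
    (heven : ∀ z ∈ ch G p y, ∀ x, f z (𝔟.swap ∘ x) = f z x) :
    EsR G 𝔟 θ (R + 1) p y (fun x => ∏ z ∈ ch G p y, f z x) =
      ∏ z ∈ ch G p y, EsR G 𝔟 θ R y z (f z) := by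
  classical
  set f' : V → (V → E) → ℝ := fun z => if z ∈ ch G p y then f z else fun _ => 1 with hf'
  have hbd : ∃ C, ∀ z x, |f' z x| ≤ C := by
    have : ∀ z, ∃ C, ∀ x, |f' z x| ≤ C := by
      intro z
      by_cases hz : z ∈ ch G p y
      · obtain ⟨C, hC⟩ := (hf z hz).2
        exact ⟨C, fun x => by simpa [hf', hz] using hC x⟩
      · exact ⟨1, fun x => by simp [hf', hz]⟩
    choose C hC using this
    refine ⟨∑ z ∈ ch G p y, |C z| + 1, fun z x => ?_⟩
    by_cases hz : z ∈ ch G p y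
    · have h1 := hC z x
      have h2 : |C z| ≤ ∑ z ∈ ch G p y, |C z| :=
        Finset.single_le_sum (f := fun z => |C z|) (fun _ _ => abs_nonneg _) hz
      have h3 := le_abs_self (C z)
      linarith
    · have h2 : 0 ≤ ∑ z ∈ ch G p y, |C z| := Finset.sum_nonneg fun _ _ => abs_nonneg _
      simp [hf', hz]
      linarith
  have hmeas : ∀ z, Measurable (f' z) := by
    intro z
    by_cases hz : z ∈ ch G p y
    · simpa [hf', hz] using (hf z hz).1
    · simp only [hf', hz, if_false]; exact measurable_const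
  have key := EsR_prod_children 𝔟 hG hθ0 hθ hpy R f' hmeas hbd
    (fun z hz x x' hx => by simpa [hf', hz] using hdep z hz x x' hx)
    (fun z hz x => by simpa [hf', hz] using heven z hz x)
  have e1 : (fun x => ∏ z ∈ ch G p y, f' z x) = fun x => ∏ z ∈ ch G p y, f z x := by
    funext x
    exact Finset.prod_congr rfl fun z hz => by simp [hf', hz]
  rw [e1] at key
  rw [key]
  exact Finset.prod_congr rfl fun z hz => by simp [hf', hz]

/-- Exponential moment of the sum over generation `j`. -/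
theorem exp_moment_Tlev {r R : ℕ} {a l : ℝ} (hl : 0 ≤ l)
    (ha : ∀ p y, G.Adj p y → EsR G 𝔟 θ R p y (SR G 𝔟 θ r R p y) ≤ a) (j : ℕ) {p y : V} (hpy : G.Adj p y) :
    EsR G 𝔟 θ (R + j) p y (fun x => Real.exp (l * Tlev G 𝔟 θ r R j p y x)) ≤
      Real.exp ((D : ℝ) ^ j * a * (Real.exp l - 1)) := by
  have hel : 0 ≤ Real.exp l - 1 := by
    have := Real.add_one_le_exp l
    linarith
  induction j generalizing p y with
  | zero =>
    simp only [Tlev, add_zero, pow_zero, one_mul]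
    have hB := BM_SR 𝔟 hG hθ0 hθ r R hpy
    have hB2 : BM (fun x => Real.exp (l * SR G 𝔟 θ r R p y x)) := BM_exp ((BM.const _).mul hB)
    have h1 := EsR_mono 𝔟 hG hθ0 hθ hB2 ((BM.const 1).add ((BM.const (Real.exp l - 1)).mul hB))
      (fun x => by
        obtain ⟨h0, h1⟩ := SR_bounds 𝔟 hG hθ0 hθ r R hpy x
        have := exp_mul_le (l := l) h0 h1
        linarith) hpy R
    rw [EsR_add 𝔟 hG hθ0 hθ (BM.const 1) ((BM.const _).mul hB) hpy R,
      EsR_const 𝔟 hG hθ0 hθ 1 hpy R, EsR_const_mul] at h1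
    have h2 := ha p y hpy
    have h3 := Real.add_one_le_exp (a * (Real.exp l - 1))
    have h4 : (Real.exp l - 1) * EsR G 𝔟 θ R p y (SR G 𝔟 θ r R p y) ≤ a * (Real.exp l - 1) := by
      rw [mul_comm]
      exact mul_le_mul_of_nonneg_right h2 hel
    linarith
  | succ j ih =>
    have e1 : (fun x => Real.exp (l * Tlev G 𝔟 θ r R (j + 1) p y x)) =
        fun x => ∏ z ∈ ch G p y, Real.exp (l * Tlev G 𝔟 θ r R j y z x) := by
      funext x
      simp only [Tlev]
      rw [Finset.mul_sum, Real.exp_sum]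
    rw [e1]
    have e2 := EsR_prod_children' 𝔟 hG hθ0 hθ hpy (R + j)
      (fun z x => Real.exp (l * Tlev G 𝔟 θ r R j y z x))
      (fun z hz => BM_exp ((BM.const _).mul (BM_Tlev 𝔟 hG hθ0 hθ r R j (mem_ch.mp hz).1)))
      (fun z hz x x' hx => by
        rw [Tlev_congr 𝔟 hG r R j (mem_ch.mp hz).1 hx])
      (fun z hz x => by
        rw [Tlev_flip])
    have e3 : R + (j + 1) = R + j + 1 := by ring
    rw [e3, e2]
    calc ∏ z ∈ ch G p y, EsR G 𝔟 θ (R + j) y z (fun x => Real.exp (l * Tlev G 𝔟 θ r R j y z x))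
        ≤ ∏ z ∈ ch G p y, Real.exp ((D : ℝ) ^ j * a * (Real.exp l - 1)) :=
          Finset.prod_le_prod
            (fun z hz => EsR_nonneg 𝔟 hG hθ0 hθ (fun x => (Real.exp_pos _).le) (mem_ch.mp hz).1 _)
            (fun z hz => ih (mem_ch.mp hz).1)
      _ = Real.exp ((D : ℝ) ^ (j + 1) * a * (Real.exp l - 1)) := by
          rw [Finset.prod_const, hG.card_ch hpy, ← Real.exp_nat_mul]
          congr 1
          rw [pow_succ]; ring

/-- Moment of the normalised generation sum. -/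
theorem moment_Tlev {r R : ℕ} {a : ℝ} (ha0 : 0 ≤ a)
    (ha : ∀ p y, G.Adj p y → EsR G 𝔟 θ R p y (SR G 𝔟 θ r R p y) ≤ a) (j q : ℕ) (hq : 1 ≤ q)
    {p y : V} (hpy : G.Adj p y) :
    EsR G 𝔟 θ (R + j) p y (fun x => SR G 𝔟 θ (r + j) (R + j) p y x ^ q) ≤
      (Real.exp 1 * (a + q / (D : ℝ) ^ j)) ^ q := by
  have hD := D_pos_real hG hθ0 hθ
  have hDj : (0 : ℝ) < (D : ℝ) ^ j := by positivity
  have hq0 : (1 : ℝ) ≤ q := by exact_mod_cast hq
  set M : ℝ := (D : ℝ) ^ j * a + q with hM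
  have hM0 : 0 < M := by
    have : 0 ≤ (D : ℝ) ^ j * a := by positivity
    linarith
  set l : ℝ := q / M with hl
  have hl0 : 0 ≤ l := by positivity
  have hl1 : l ≤ 1 := by
    rw [hl, div_le_one hM0, hM]
    have : 0 ≤ (D : ℝ) ^ j * a := by positivity
    linarith
  have hBT := BM_Tlev 𝔟 hG hθ0 hθ r R j hpy
  have hBS := BM_SR 𝔟 hG hθ0 hθ (r + j) (R + j) hpy
  -- pointwise
  have hpt : ∀ x, SR G 𝔟 θ (r + j) (R + j) p y x ^ q ≤
      ((M / (D : ℝ) ^ j) ^ q * Real.exp (-(q : ℝ))) * Real.exp (l * Tlev G 𝔟 θ r R j p y x) := by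
    intro x
    have h1 := SR_le_Tlev 𝔟 hG hθ0 hθ r R j hpy x
    have h2 := (SR_bounds 𝔟 hG hθ0 hθ (r + j) (R + j) hpy x).1
    have h3 := (Tlev_bounds 𝔟 hG hθ0 hθ r R j hpy x).1
    have h4 := pow_le_exp h3 hM0 q
    rw [← hl] at h4
    have h5 : ((D : ℝ) ^ j * SR G 𝔟 θ (r + j) (R + j) p y x) ^ q ≤ Tlev G 𝔟 θ r R j p y x ^ q :=
      pow_le_pow_left₀ (by positivity) h1 q
    rw [mul_pow] at h5
    have h6 : SR G 𝔟 θ (r + j) (R + j) p y x ^ q ≤ Tlev G 𝔟 θ r R j p y x ^ q / ((D : ℝ) ^ j) ^ q := by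
      rw [le_div_iff₀ (by positivity)]; linarith
    refine h6.trans ?_
    rw [div_le_iff₀ (by positivity)]
    refine h4.trans (le_of_eq ?_)
    rw [div_pow]
    field_simp
  have hE := EsR_mono 𝔟 hG hθ0 hθ (hBS.pow q)
    ((BM.const ((M / (D : ℝ) ^ j) ^ q * Real.exp (-(q : ℝ)))).mul (BM_exp ((BM.const l).mul hBT)))
    hpt hpy (R + j)
  rw [EsR_const_mul] at hE
  refine hE.trans ?_
  have hexp := exp_moment_Tlev 𝔟 hG hθ0 hθ hl0 ha j hpy
  have hexp2 : Real.exp ((D : ℝ) ^ j * a * (Real.exp l - 1)) ≤ Real.exp (2 * q) := by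
    apply Real.exp_le_exp.mpr
    have h1 := exp_sub_one_le hl0 hl1
    have h2 : 0 ≤ Real.exp l - 1 := by
      have := Real.add_one_le_exp l
      linarith
    have h3 : (D : ℝ) ^ j * a ≤ M := by rw [hM]; linarith
    have h4 : 0 ≤ (D : ℝ) ^ j * a := by positivity
    calc (D : ℝ) ^ j * a * (Real.exp l - 1) ≤ M * (2 * l) :=
          mul_le_mul h3 h1 h2 hM0.le
      _ = 2 * q := by rw [hl]; field_simp
  have hfin : (M / (D : ℝ) ^ j) ^ q * Real.exp (-(q : ℝ)) * Real.exp (2 * q) =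
      (Real.exp 1 * (a + q / (D : ℝ) ^ j)) ^ q := by
    have e1 : M / (D : ℝ) ^ j = a + q / (D : ℝ) ^ j := by
      rw [hM]; field_simp
    rw [e1, mul_assoc, ← Real.exp_add]
    have e2 : -(q : ℝ) + 2 * q = q := by ring
    rw [e2, mul_pow, Real.exp_one_pow]
    ring
  rw [← hfin]
  apply mul_le_mul_of_nonneg_left (hexp.trans hexp2) (by positivity)

/-- Minkowski's inequality for the static expectation, by Jensen. -/
theorem EsR_sum_pow_le {ι : Type*} (s : Finset ι) (F : ι → (V → E) → ℝ) (m : ι → ℝ) (q : ℕ) (hq : 1 ≤ q)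
    (hF : ∀ i ∈ s, BM (F i)) (hF0 : ∀ i ∈ s, ∀ x, 0 ≤ F i x) (hm : ∀ i ∈ s, 0 < m i)
    {p y : V} (hpy : G.Adj p y) (R : ℕ)
    (hE : ∀ i ∈ s, EsR G 𝔟 θ R p y (fun x => F i x ^ q) ≤ m i ^ q) :
    EsR G 𝔟 θ R p y (fun x => (∑ i ∈ s, F i x) ^ q) ≤ (∑ i ∈ s, m i) ^ q := by
  classical
  rcases s.eq_empty_or_nonempty with rfl | hne
  · simp only [Finset.sum_empty, zero_pow (by omega : q ≠ 0)]
    rw [EsR_const 𝔟 hG hθ0 hθ 0 hpy R]
  set Sm := ∑ i ∈ s, m i with hS
  have hS0 : 0 < Sm := Finset.sum_pos hm hne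
  set w : ι → ℝ := fun i => m i / Sm with hw
  have hw0 : ∀ i ∈ s, 0 < w i := fun i hi => div_pos (hm i hi) hS0
  have hw1 : ∑ i ∈ s, w i = 1 := by
    rw [hw, ← Finset.sum_div, ← hS, div_self hS0.ne']
  have hpt : ∀ x, (∑ i ∈ s, F i x) ^ q ≤ ∑ i ∈ s, (w i * (1 / w i) ^ q) * F i x ^ q := by
    intro x
    have h1 := Real.pow_arith_mean_le_arith_mean_pow s w (fun i => F i x / w i)
      (fun i hi => (hw0 i hi).le) hw1 (fun i hi => div_nonneg (hF0 i hi x) (hw0 i hi).le) q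
    have e1 : ∑ i ∈ s, w i * (F i x / w i) = ∑ i ∈ s, F i x :=
      Finset.sum_congr rfl fun i hi => by
        have := (hw0 i hi).ne'
        field_simp
    rw [e1] at h1
    refine h1.trans (le_of_eq ?_)
    refine Finset.sum_congr rfl fun i hi => ?_
    rw [div_eq_mul_one_div, mul_pow]
    ring
  have hBsum : BM (fun x => (∑ i ∈ s, F i x) ^ q) := (BM.sum s hF).pow q
  have hBi : ∀ i ∈ s, BM (fun x => (w i * (1 / w i) ^ q) * F i x ^ q) := fun i hi =>
    (BM.const _).mul ((hF i hi).pow q)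
  have h2 := EsR_mono 𝔟 hG hθ0 hθ hBsum (BM.sum s hBi) hpt hpy R
  rw [EsR_sum 𝔟 hG hθ0 hθ s hBi hpy R] at h2
  refine h2.trans ?_
  calc ∑ i ∈ s, EsR G 𝔟 θ R p y (fun x => (w i * (1 / w i) ^ q) * F i x ^ q)
      ≤ ∑ i ∈ s, w i * Sm ^ q := by
        refine Finset.sum_le_sum fun i hi => ?_
        rw [EsR_const_mul]
        have h3 := hw0 i hi
        have h4 : (w i * (1 / w i) ^ q) * EsR G 𝔟 θ R p y (fun x => F i x ^ q) ≤
            (w i * (1 / w i) ^ q) * m i ^ q :=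
          mul_le_mul_of_nonneg_left (hE i hi) (by positivity)
        refine h4.trans (le_of_eq ?_)
        have h5 : m i = w i * Sm := by
          rw [hw]; field_simp
        rw [h5, mul_pow, mul_assoc]
        congr 1
        rw [← mul_assoc, ← mul_pow, one_div, inv_mul_cancel₀ h3.ne', one_pow, one_mul]
    _ = Sm ^ q := by
        rw [← Finset.sum_mul, hw1, one_mul]

theorem moment_Tlev' {r R j : ℕ} (hjr : j ≤ r) (hjR : j ≤ R) {a : ℝ} (ha0 : 0 ≤ a)
    (ha : ∀ p y, G.Adj p y → EsR G 𝔟 θ (R - j) p y (SR G 𝔟 θ (r - j) (R - j) p y) ≤ a) (q : ℕ) (hq : 1 ≤ q)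
    {p y : V} (hpy : G.Adj p y) :
    EsR G 𝔟 θ R p y (fun x => SR G 𝔟 θ r R p y x ^ q) ≤ (Real.exp 1 * (a + q / (D : ℝ) ^ j)) ^ q := by
  obtain ⟨i, rfl⟩ : ∃ i, r = i + j := ⟨r - j, by omega⟩
  obtain ⟨R', rfl⟩ : ∃ R', R = R' + j := ⟨R - j, by omega⟩
  simp only [Nat.add_sub_cancel] at ha
  exact moment_Tlev 𝔟 hG hθ0 hθ ha0 ha j q hq hpy

theorem Q_moment_aux {γ : ℝ} (h0 : 0 < γ) (h1 : γ ≤ 1) (hd : Damped (G := G) 𝔟 θ γ) {p y : V}
    (hpy : G.Adj p y) (q r₀ : ℕ) (hq : 1 ≤ q) (η : ℝ) (hη : 0 < η) :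
    ∀ᶠ R in atTop, EsR G 𝔟 θ R p y (fun x => (∑ r ∈ Finset.range r₀, SR G 𝔟 θ r R p y x) ^ q) ≤
      (26 * (1 / γ + Real.log (q + 1) + 1) + η) ^ q := by
  have hx0 : 0 ≤ 1 - γ := by linarith
  have hx1 : 1 - γ ≤ 1 := by linarith
  set η' : ℝ := η / (3 * r₀ + 1) with hη'
  have hη'0 : 0 < η' := by positivity
  obtain ⟨k, hk1, hk2⟩ := exists_log_bound hq
  set a : ℕ → ℝ := fun i => 2 * (1 - γ) ^ (i - 1) + η' with ha
  have ha0 : ∀ i, 0 < a i := fun i => by
    have := pow_nonneg hx0 (i - 1)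
    simp only [ha]; positivity
  have hev : ∀ᶠ R in atTop, ∀ r ∈ Finset.range r₀, r / 2 ≤ R ∧
      EsR G 𝔟 θ (R - r / 2) p y (SR G 𝔟 θ (r - r / 2) (R - r / 2) p y) ≤ a (r - r / 2) := by
    rw [Filter.eventually_all_finset]
    intro r _
    have h2 := (tendsto_sub_atTop_nat (r / 2)).eventually (hd hpy (r - r / 2) η' hη'0)
    filter_upwards [h2, eventually_ge_atTop (r / 2)] with R h3 h4
    exact ⟨h4, h3⟩
  filter_upwards [hev] with R hR
  have he : Real.exp 1 ≤ 3 := by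
    have := Real.exp_one_lt_d9; linarith
  have he0 : 0 < Real.exp 1 := Real.exp_pos 1
  set m : ℕ → ℝ := fun r => Real.exp 1 * a (r - r / 2) + min 1 (Real.exp 1 * q / 2 ^ (r / 2)) with hm
  have hmin0 : ∀ r : ℕ, 0 ≤ min 1 (Real.exp 1 * q / 2 ^ (r / 2)) := fun r =>
    le_min zero_le_one (by positivity)
  have hm0 : ∀ r, 0 < m r := fun r => by
    have := ha0 (r - r / 2)
    have := hmin0 r
    simp only [hm]; positivity
  have hD := D_pos_real hG hθ0 hθ
  have hD2 : (2 : ℝ) ≤ D := by exact_mod_cast hG.two_le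
  have key := EsR_sum_pow_le 𝔟 hG hθ0 hθ (Finset.range r₀) (fun r => SR G 𝔟 θ r R p y) m q hq
    (fun r _ => BM_SR 𝔟 hG hθ0 hθ r R hpy)
    (fun r _ x => (SR_bounds 𝔟 hG hθ0 hθ r R hpy x).1)
    (fun r _ => hm0 r) hpy R (fun r hr => by
      obtain ⟨hj, hS⟩ := hR r hr
      rcases le_total 1 (Real.exp 1 * q / 2 ^ (r / 2)) with hcase | hcase
      · -- the trivial bound
        have h2 : EsR G 𝔟 θ R p y (fun x => SR G 𝔟 θ r R p y x ^ q) ≤ 1 := by
          refine EsR_le_const 𝔟 hG hθ0 hθ ((BM_SR 𝔟 hG hθ0 hθ r R hpy).pow q) (fun x => ?_) hpy R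
          obtain ⟨b0, b1⟩ := SR_bounds 𝔟 hG hθ0 hθ r R hpy x
          exact pow_le_one₀ b0 b1
        refine h2.trans (one_le_pow₀ ?_)
        simp only [hm, min_eq_left hcase]
        have := ha0 (r - r / 2)
        have : 0 ≤ Real.exp 1 * a (r - r / 2) := by positivity
        linarith
      · have h2 := moment_Tlev' 𝔟 hG hθ0 hθ (Nat.div_le_self r 2) hj (a := a (r - r / 2)) (ha0 _).le
          (fun p' y' hpy' => by
            rw [EsR_SR_symm 𝔟 hG hθ0 hθ _ hpy hpy']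
            exact hS) q hq hpy
        refine h2.trans (pow_le_pow_left₀ (by have := ha0 (r - r / 2); positivity) ?_ q)
        simp only [hm, min_eq_right hcase]
        have h3 : (q : ℝ) / (D : ℝ) ^ (r / 2) ≤ q / 2 ^ (r / 2) := by
          apply div_le_div_of_nonneg_left (Nat.cast_nonneg q) (by positivity)
          exact pow_le_pow_left₀ (by norm_num) hD2 _
        have h4 : Real.exp 1 * ((q : ℝ) / (D : ℝ) ^ (r / 2)) ≤ Real.exp 1 * (q / 2 ^ (r / 2)) :=
          mul_le_mul_of_nonneg_left h3 he0.le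
        rw [mul_add]
        have h5 : Real.exp 1 * (q : ℝ) / 2 ^ (r / 2) = Real.exp 1 * (q / 2 ^ (r / 2)) := by ring
        rw [h5]
        linarith)
  refine key.trans (pow_le_pow_left₀ (Finset.sum_nonneg fun r _ => (hm0 r).le) ?_ q)
  -- the sum
  have s1 : ∑ r ∈ Finset.range r₀, a (r - r / 2) ≤ 4 * (1 + 1 / γ) + r₀ * η' := by
    calc ∑ r ∈ Finset.range r₀, a (r - r / 2)
        ≤ ∑ r ∈ Finset.range r₀, (2 * (1 - γ) ^ (r / 2 - 1) + η') := by
          refine Finset.sum_le_sum fun r _ => ?_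
          simp only [ha]
          have : (1 - γ) ^ (r - r / 2 - 1) ≤ (1 - γ) ^ (r / 2 - 1) :=
            pow_le_pow_of_le_one hx0 hx1 (by omega)
          linarith
      _ = 2 * ∑ r ∈ Finset.range r₀, (1 - γ) ^ (r / 2 - 1) + r₀ * η' := by
          rw [Finset.sum_add_distrib, ← Finset.mul_sum, Finset.sum_const, Finset.card_range, nsmul_eq_mul]
      _ ≤ 2 * (2 * (1 + 1 / γ)) + r₀ * η' := by
          have h3 := sum_half_le (f := fun j => (1 - γ) ^ (j - 1)) (fun j => pow_nonneg hx0 _) r₀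
          have h4 := sum_pow_pred_le h0 h1 r₀
          linarith
      _ = _ := by ring
  have s2 : ∑ r ∈ Finset.range r₀, min 1 (Real.exp 1 * q / 2 ^ (r / 2)) ≤ 2 * (k + 2 * Real.exp 1) := by
    have h3 := sum_half_le (f := fun j => min 1 (Real.exp 1 * q / 2 ^ j))
      (fun j => le_min zero_le_one (by positivity)) r₀
    have h4 := sum_min_le he0.le hk1 r₀
    linarith
  have hsum : ∑ r ∈ Finset.range r₀, m r ≤
      Real.exp 1 * (4 * (1 + 1 / γ) + r₀ * η') + 2 * (k + 2 * Real.exp 1) := by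
    simp only [hm]
    rw [Finset.sum_add_distrib, ← Finset.mul_sum]
    exact add_le_add (mul_le_mul_of_nonneg_left s1 he0.le) s2
  refine hsum.trans ?_
  have hg : 0 < 1 / γ := by positivity
  have hlq : 0 ≤ Real.log (q + 1) := Real.log_nonneg (by
    have : (0 : ℝ) ≤ q := Nat.cast_nonneg q
    linarith)
  have hr : (3 : ℝ) * (r₀ * η') ≤ η := by
    rw [hη']
    have hr0 : (0 : ℝ) ≤ r₀ := Nat.cast_nonneg r₀
    have : (3 : ℝ) * (r₀ * (η / (3 * r₀ + 1))) = η * (3 * r₀ / (3 * r₀ + 1)) := by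
      field_simp
    rw [this]
    have h5 : 3 * (r₀ : ℝ) / (3 * r₀ + 1) ≤ 1 := by
      rw [div_le_one (by positivity)]; linarith
    nlinarith
  have hb : Real.exp 1 * (4 * (1 + 1 / γ) + r₀ * η') ≤ 3 * (4 * (1 + 1 / γ) + r₀ * η') :=
    mul_le_mul_of_nonneg_right he (by positivity)
  nlinarith

end Tlev

end Damp

/-- (J6) moments of partial sums of level sums (`Q` truncated at `r₀`), all flip-even independence used here. -/
theorem Q_moment_proved (D : ℕ) : ∃ C : ℝ, 0 < C ∧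
    ∀ {V : Type u} {G : SimpleGraph V} [G.LocallyFinite] (_ : RegTree G D) {E : Type v} [MeasurableSpace E]
      {κ : Measure E} [IsProbabilityMeasure κ] (𝔟 : BlockData κ) {θ γ : ℝ} (_ : 0 ≤ θ)
      (_ : (D : ℝ) * θ ^ 2 ≤ 1) (_ : 0 < γ) (_ : γ ≤ 1) (_ : Damped (G := G) 𝔟 θ γ)
      {p y : V} (_ : G.Adj p y) (q r₀ : ℕ) (_ : 1 ≤ q) (η : ℝ) (_ : 0 < η),
      ∀ᶠ R in atTop,
        EsR G 𝔟 θ R p y (fun x => (∑ r ∈ Finset.range r₀, SR G 𝔟 θ r R p y x) ^ q) ≤
          (C * (1 / γ + Real.log (q + 1) + 1) + η) ^ q := by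
  refine ⟨26, by norm_num, ?_⟩
  intro V G _ hG E _ κ _ 𝔟 θ γ hθ0 hθ h0 h1 hd p y hpy q r₀ hq η hη
  exact Damp.Q_moment_aux 𝔟 hG hθ0 hθ h0 h1 hd hpy q r₀ hq η hη

end Crest.Agent.Lib.IsingFIID
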