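/-
S0241 blueprint, Mod J (section 7): the static model.  Blocks `x v` iid with law `κ`, site weights `w_±(x v)`.
Belief propagation `bpPair` (from Spin.lean) gives `Z^R`, `n^R`, `ν^R = n^R / Z^R` on directed edges.  `E^R[f] = ∫ f Z^R`.
No dynamics, no spin sums here: only the recursion, independence of disjoint blocks and one-dimensional inequalities.
-/
import Crest.Agent.Lib.IsingFIID.StaticRec
import Crest.Agent.Lib.IsingFIID.StaticTrunc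
import Crest.Agent.Lib.IsingFIID.OneDim
import Crest.Agent.Lib.IsingFIID.StaticMoments
import Crest.Agent.Lib.IsingFIID.StaticQMoment

set_option autoImplicit false
universe u v

namespace Crest.Agent.Lib.IsingFIID

open MeasureTheory Filter
open scoped Classical Topology

variable {V : Type u} (G : SimpleGraph V) [G.LocallyFinite] {D : ℕ}
variable {E : Type v} [MeasurableSpace E]

variable {κ : Measure E}

variable {G}
variable [IsProbabilityMeasure κ] (𝔟 : BlockData κ) {θ : ℝ}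


/-! One-dimensional inequalities -/


/-- `φ(x) - D φ(θx) ≥ (2/3)(1-θ²) x⁴` if `Dθ² ≤ 1`. -/
theorem phiKL_sub_ge {x : ℝ} (hx : |x| < 1) (hθ0 : 0 ≤ θ) (hθ1 : θ < 1) (hθ : (D : ℝ) * θ ^ 2 ≤ 1) :
    (2 / 3) * (1 - θ ^ 2) * x ^ 4 ≤ phiKL x - D * phiKL (θ * x) := by
  unfold phiKL
  exact OneDim.phi_sub_ge hx hθ0 hθ1 hθ

/-- The pointwise inequality behind (J4): `F(x) - D F(θx) ≤ (1 - Dθ²) x²/10`, `F(x) = 1 - √(1-x²) - φ(x)/5`. -/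
theorem bhatt_kl_pointwise {x : ℝ} (hx : |x| < 1) (hθ0 : 0 ≤ θ) (hθ1 : θ ^ 2 ≤ 1 / 2)
    (hθ : (D : ℝ) * θ ^ 2 ≤ 1) :
    (1 - Real.sqrt (1 - x ^ 2) - phiKL x / 5) - D * (1 - Real.sqrt (1 - (θ * x) ^ 2) - phiKL (θ * x) / 5) ≤
      (1 - D * θ ^ 2) * x ^ 2 / 10 := by
  unfold phiKL
  exact OneDim.bhatt_kl hx hθ0 hθ1 hθ

/-! The limit objects. `A_R`, `B_R` are decreasing in `R`. -/


/-! Main static estimates.  The constants depend only on `D` (and `p` where indicated). -/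

section Main
variable (hG : RegTree G D) (hθ0 : 0 ≤ θ) (hθ : (D : ℝ) * θ ^ 2 ≤ 1)
include hG hθ0 hθ

/-- (J3) fourth moment. -/
theorem nu4_le {p y : V} (hpy : G.Adj p y) (R : ℕ) :
    EsR G 𝔟 θ R p y (fun x => nuR G 𝔟 θ R p y x ^ 4) ≤ 3 * 𝔟.kl :=
  nu4_le_proved 𝔟 hG hθ0 hθ hpy R

omit hG hθ0 hθ in
/-- (J7) all moments: if the site fields are at most `a` and `kl ≤ a²`, then `E ν^{2q} ≤ C a^q`, all depths. -/
theorem nu_moment (D q : ℕ) : ∃ C a₀ : ℝ, 0 < C ∧ 0 < a₀ ∧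
    ∀ {V : Type u} {G : SimpleGraph V} [G.LocallyFinite] (_ : RegTree G D) {E : Type v} [MeasurableSpace E]
      {κ : Measure E} [IsProbabilityMeasure κ] (𝔟 : BlockData κ) {θ a : ℝ} (_ : 0 ≤ θ)
      (_ : (D : ℝ) * θ ^ 2 ≤ 1) (_ : 0 ≤ a) (_ : a ≤ a₀)
      (_ : ∀ e, |Real.log (𝔟.wp e / 𝔟.wm e)| ≤ 2 * a) (_ : 𝔟.kl ≤ a ^ 2)
      {p y : V} (_ : G.Adj p y) (R : ℕ),
      EsR G 𝔟 θ R p y (fun x => nuR G 𝔟 θ R p y x ^ (2 * q)) ≤ C * a ^ q :=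
  nu_moment_proved D q

/-- (J5) damping from the own observation only. -/
theorem damped_of_lam {γ : ℝ} (h0 : 0 < γ) (h1 : γ ≤ 1 - 𝔟.lam) : Damped (G := G) 𝔟 θ γ :=
  damped_of_lam_proved 𝔟 hG hθ0 hθ h0 h1

omit hG hθ0 hθ in
/-- (J4+J5) the critical damping rate `γ ≥ c√ζ`, `ζ = -log Λ - I/5`, if `I` is small. Universal constants. -/
theorem damped_of_zeta (D : ℕ) : ∃ c I₀ : ℝ, 0 < c ∧ 0 < I₀ ∧
    ∀ {V : Type u} {G : SimpleGraph V} [G.LocallyFinite] (_ : RegTree G D) {E : Type v} [MeasurableSpace E]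
      {κ : Measure E} [IsProbabilityMeasure κ] (𝔟 : BlockData κ) {θ ζ : ℝ} (_ : 0 ≤ θ)
      (_ : (D : ℝ) * θ ^ 2 ≤ 1) (_ : 𝔟.kl ≤ I₀) (_ : 0 < ζ) (_ : ζ ≤ -Real.log 𝔟.lam - 𝔟.kl / 5),
      Damped (G := G) 𝔟 θ (c * Real.sqrt ζ) :=
  damped_of_zeta_proved D

omit hG hθ0 hθ in
/-- (J6) moments of partial sums of level sums (`Q` truncated at `r₀`), all flip-even independence used here. -/
theorem Q_moment (D : ℕ) : ∃ C : ℝ, 0 < C ∧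
    ∀ {V : Type u} {G : SimpleGraph V} [G.LocallyFinite] (_ : RegTree G D) {E : Type v} [MeasurableSpace E]
      {κ : Measure E} [IsProbabilityMeasure κ] (𝔟 : BlockData κ) {θ γ : ℝ} (_ : 0 ≤ θ)
      (_ : (D : ℝ) * θ ^ 2 ≤ 1) (_ : 0 < γ) (_ : γ ≤ 1) (_ : Damped (G := G) 𝔟 θ γ)
      {p y : V} (_ : G.Adj p y) (q r₀ : ℕ) (_ : 1 ≤ q) (η : ℝ) (_ : 0 < η),
      ∀ᶠ R in atTop,
        EsR G 𝔟 θ R p y (fun x => (∑ r ∈ Finset.range r₀, SR G 𝔟 θ r R p y x) ^ q) ≤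
          (C * (1 / γ + Real.log (q + 1) + 1) + η) ^ q :=
  Q_moment_proved D

/-- (J8) uniform truncation: `E^R S_r` is Cauchy in `R`, uniformly in `θ`. -/
theorem ES_truncation (hlam : 𝔟.lam < 1) {p y : V} (hpy : G.Adj p y) (r R R' : ℕ) (hRR' : R ≤ R') (hr : r ≤ R) :
    |EsR G 𝔟 θ R' p y (fun x => SR G 𝔟 θ r R' p y x) - EsR G 𝔟 θ R p y (fun x => SR G 𝔟 θ r R p y x)| ≤
      (r + 1) * 16 * Real.sqrt (𝔟.lam ^ (R - r) / (1 - 𝔟.lam)) :=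
  ES_truncation_proved 𝔟 hG hθ0 hθ hlam hpy r R R' hRR' hr

end Main

/-- (J8, finite depth continuity) at fixed depth the static value of `S_r` is uniformly continuous in the
parameters: two block data on the same `κ`, uniformly close weights, close `θ`. -/
theorem ES_continuity (D R r : ℕ) (lo hi η : ℝ) (hlo : 0 < lo) (hη : 0 < η) : ∃ δ > 0,
    ∀ {V : Type u} {G : SimpleGraph V} [G.LocallyFinite] (_ : RegTree G D) {E : Type v} [MeasurableSpace E]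
      {κ : Measure E} [IsProbabilityMeasure κ] (𝔟 𝔟' : BlockData κ) {θ θ' : ℝ} (_ : 0 ≤ θ) (_ : 0 ≤ θ')
      (_ : (D : ℝ) * θ ^ 2 ≤ 1) (_ : (D : ℝ) * θ' ^ 2 ≤ 1)
      (_ : lo ≤ 𝔟.lo) (_ : 𝔟.hi ≤ hi) (_ : lo ≤ 𝔟'.lo) (_ : 𝔟'.hi ≤ hi)
      (_ : |θ - θ'| ≤ δ) (_ : ∀ e, |𝔟.wp e - 𝔟'.wp e| ≤ δ) (_ : ∀ e, |𝔟.wm e - 𝔟'.wm e| ≤ δ)
      {p y : V} (_ : G.Adj p y),
      |EsR G 𝔟 θ R p y (fun x => SR G 𝔟 θ r R p y x) - EsR G 𝔟' θ' R p y (fun x => SR G 𝔟' θ' r R p y x)| ≤ η :=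
  ES_continuity_proved D R r lo hi η hlo hη

end Crest.Agent.Lib.IsingFIID
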