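/-
S0241 blueprint, Mod E (section 4): definitions of the sequential dynamics on a finite convex set `W`.
Labels `x : Om V`; system = (θ, first sweep N : ℤ).  In sweep `j` the vertices `u ∈ W` with `t_{u,j} < s` act in increasing
order of `t_{u,j}` (a vertex whose time ties with another vertex of W does not act: this keeps everything
equivariant for every `x`, and ties have probability 0).  Full sweep: `s = 1/2`.
-/
import Crest.Agent.Lib.IsingFIID.Spin
import Crest.Agent.Lib.IsingFIID.Channel
import Crest.Agent.Lib.IsingFIID.Labels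
import Crest.Agent.Lib.IsingFIID.Static

set_option autoImplicit false
universe u

namespace Crest.Agent.Lib.IsingFIID

open MeasureTheory Filter
open scoped Classical Topology

variable {V : Type u} (G : SimpleGraph V) [G.LocallyFinite]

/-- The schedule: `ε_j² = 2^j/16` for `j ≤ 0`, `ε_j = 1/4` for `j ≥ 0`. -/
noncomputable def eps (j : ℤ) : ℝ := (1 / 4) * Real.sqrt (min 1 ((2 : ℝ) ^ j))

/-- order time of `v` in sweep `j` -/
noncomputable def tOf (x : Om V) (v : V) (j : ℤ) : ℝ := (x v (j, false) : ℝ)

/-- noise of `v` in sweep `j` -/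
noncomputable def uOf (x : Om V) (v : V) (j : ℤ) : ℝ := (x v (j, true) : ℝ)

/-- One action of `u` with channel strength `ε` and noise `U`. -/
noncomputable def actStep (θ : ℝ) (W : Finset V) (ε : ℝ) (ℓ : V → ℝ) (u : V) (U : ℝ) : V → ℝ :=
  Function.update ℓ u (tanhAdd (ℓ u) (ε * chanT (ε * mag G θ ℓ W u) U))

/-- acting vertices before time `s`, sorted by time; tied vertices do not act. -/
noncomputable def actList (W : Finset V) (t : V → ℝ) (s : ℝ) : List V :=
  ((W.filter fun u => t u < s ∧ ∀ u' ∈ W, u' ≠ u → t u' ≠ t u).toList).insertionSort fun a b => t a ≤ t b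

/-- Run a (partial) sweep. -/
noncomputable def runSweep (θ : ℝ) (W : Finset V) (ε : ℝ) (t U : V → ℝ) (s : ℝ) (ℓ₀ : V → ℝ) : V → ℝ :=
  (actList W t s).foldl (fun ℓ u => actStep G θ W ε ℓ u (U u)) ℓ₀

/-- Field at the beginning of sweep `N + n` for the system started at sweep `N`. -/
noncomputable def fieldStart (θ : ℝ) (W : Finset V) (N : ℤ) (x : Om V) : ℕ → V → ℝ
  | 0 => fun _ => 0
  | n + 1 =>
    runSweep G θ W (eps (N + n)) (fun v => tOf x v (N + n)) (fun v => uOf x v (N + n)) (1 / 2)
      (fieldStart θ W N x n)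

/-- Forces the auto-generated equation lemma `fieldStart.eq_def` to live in this module, so that
sibling modules do not each generate their own copy (a name collision in a common import closure). -/
noncomputable def fieldStart_eq_def_forced := @fieldStart.eq_def

/-- Field at time `s` of sweep `j` (`j ≥ N`). -/
noncomputable def fieldAt (θ : ℝ) (W : Finset V) (N : ℤ) (x : Om V) (j : ℤ) (s : ℝ) : V → ℝ :=
  runSweep G θ W (eps j) (fun v => tOf x v j) (fun v => uOf x v j) s (fieldStart G θ W N x (j - N).toNat)

/-- the integrand of the pair inequality `E3`: `(ρ Cov - ρ' Cov')²` -/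
noncomputable def psiU (θ θ' : ℝ) (W W' : Finset V) (ε : ℝ) (f f' : Finset V → ℝ) (ℓ ℓ' : V → ℝ) (u : V) (U : ℝ) : ℝ :=
  ((if u ∈ W then rhoFn ε (mag G θ ℓ W u) U * covG G θ ℓ W f (fun A => spin A u) else 0) -
    (if u ∈ W' then rhoFn ε (mag G θ' ℓ' W' u) U * covG G θ' ℓ' W' f' (fun A => spin A u) else 0)) ^ 2

/-- non-adaptive site weight of a block at time `s₀` of sweep `j`, system started at `N`;
`sgn = ±1` is the spin. -/
noncomputable def wSite (N j : ℤ) (s₀ sgn : ℝ) (e : Block) : ℝ :=
  (∏ i ∈ Finset.Ico N j, (1 + eps i * (if (e (i, false) : ℝ) < 1 / 2 then 2 * (e (i, true) : ℝ) - 1 else 0) * sgn)) *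
    (1 + eps j * (if (e (j, false) : ℝ) < s₀ then 2 * (e (j, true) : ℝ) - 1 else 0) * sgn)

/-- flip of all noises -/
noncomputable def blockSwap (e : Block) : Block := fun i =>
  if i.2 = true then unitInterval.symm (e i) else e i

end Crest.Agent.Lib.IsingFIID
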