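/-
S0241 blueprint, Mod E: basic facts on the dynamics (schedule, bounds, action lists, measurability, equivariance).
-/
import Crest.Agent.Lib.IsingFIID.DynDefs

set_option autoImplicit false
universe u

namespace Crest.Agent.Lib.IsingFIID

open MeasureTheory Filter
open scoped Classical Topology

variable {V : Type u} {G : SimpleGraph V} [G.LocallyFinite] {D : ℕ}

theorem eps_pos (j : ℤ) : 0 < eps j := by
  unfold eps
  have : 0 < min (1:ℝ) ((2 : ℝ) ^ j) := lt_min one_pos (by positivity)
  have := Real.sqrt_pos.mpr this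
  positivity

theorem eps_le (j : ℤ) : eps j ≤ 1 / 4 := by
  unfold eps
  have h1 : Real.sqrt (min (1:ℝ) ((2 : ℝ) ^ j)) ≤ 1 := Real.sqrt_le_one.mpr (min_le_left _ _)
  nlinarith

theorem eps_sq_of_nonpos {j : ℤ} (hj : j ≤ 0) : eps j ^ 2 = (2 : ℝ) ^ j / 16 := by
  unfold eps
  have h2 : (2 : ℝ) ^ j ≤ 1 := zpow_le_one_of_nonpos₀ (by norm_num) hj
  rw [min_eq_right h2, mul_pow, Real.sq_sqrt (by positivity)]
  ring

theorem eps_of_nonneg {j : ℤ} (hj : 0 ≤ j) : eps j = 1 / 4 := by
  unfold eps
  have h2 : (1 : ℝ) ≤ (2 : ℝ) ^ j := one_le_zpow₀ (by norm_num) hj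
  rw [min_eq_left h2]
  simp

namespace DynE

theorem tOf_mem (x : Om V) (v : V) (j : ℤ) : tOf x v j ∈ Set.Icc (0:ℝ) 1 := (x v (j, false)).2
theorem uOf_mem (x : Om V) (v : V) (j : ℤ) : uOf x v j ∈ Set.Icc (0:ℝ) 1 := (x v (j, true)).2

theorem measurable_tOf (v : V) (j : ℤ) : Measurable fun x : Om V => tOf x v j :=
  measurable_subtype_coe.comp ((measurable_pi_apply _).comp (measurable_pi_apply v))
theorem measurable_uOf (v : V) (j : ℤ) : Measurable fun x : Om V => uOf x v j :=
  measurable_subtype_coe.comp ((measurable_pi_apply _).comp (measurable_pi_apply v))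

/-! ### action lists -/

theorem mem_actList {W : Finset V} {t : V → ℝ} {s : ℝ} {u : V} :
    u ∈ actList W t s ↔ u ∈ W ∧ t u < s ∧ ∀ u' ∈ W, u' ≠ u → t u' ≠ t u := by
  unfold actList
  rw [List.mem_insertionSort, Finset.mem_toList, Finset.mem_filter]

theorem nodup_actList (W : Finset V) (t : V → ℝ) (s : ℝ) : (actList W t s).Nodup := by
  unfold actList
  exact (List.perm_insertionSort _ _).nodup_iff.mpr (Finset.nodup_toList _)

theorem perm_actList (W : Finset V) (t : V → ℝ) (s : ℝ) :
    (actList W t s).Perm (W.filter fun u => t u < s ∧ ∀ u' ∈ W, u' ≠ u → t u' ≠ t u).toList :=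
  List.perm_insertionSort _ _

private theorem orderedInsert_congr {α : Type*} {r r' : α → α → Prop} [DecidableRel r] [DecidableRel r']
    (a : α) (l : List α) (h : ∀ b ∈ l, r a b ↔ r' a b) :
    List.orderedInsert r a l = List.orderedInsert r' a l := by
  induction l with
  | nil => rfl
  | cons b l ih =>
    simp only [List.orderedInsert]
    by_cases hab : r a b
    · have := (h b (by simp)).mp hab
      simp [hab, this]
    · have : ¬ r' a b := fun h' => hab ((h b (by simp)).mpr h')
      simp only [hab, this, if_false]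
      rw [ih fun c hc => h c (by simp [hc])]

theorem insertionSort_congr {α : Type*} {r r' : α → α → Prop} [DecidableRel r] [DecidableRel r']
    (l : List α) (h : ∀ a ∈ l, ∀ b ∈ l, r a b ↔ r' a b) :
    l.insertionSort r = l.insertionSort r' := by
  induction l with
  | nil => rfl
  | cons a l ih =>
    simp only [List.insertionSort_cons]
    rw [ih fun c hc d hd => h c (by simp [hc]) d (by simp [hd])]
    apply orderedInsert_congr
    intro b hb
    exact h a (by simp) b (by simp [(List.mem_insertionSort r').mp hb])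

/-- The action list only depends on the order pattern of the times on `W`. -/
theorem actList_congr {W : Finset V} {t t' : V → ℝ} {s s' : ℝ}
    (h : ∀ a ∈ W, ∀ b ∈ W, t a ≤ t b ↔ t' a ≤ t' b) (hs : ∀ a ∈ W, t a < s ↔ t' a < s') :
    actList W t s = actList W t' s' := by
  unfold actList
  have hfilter : (W.filter fun u => t u < s ∧ ∀ u' ∈ W, u' ≠ u → t u' ≠ t u) =
      (W.filter fun u => t' u < s' ∧ ∀ u' ∈ W, u' ≠ u → t' u' ≠ t' u) := by
    apply Finset.filter_congr
    intro u hu
    rw [hs u hu]
    refine and_congr_right fun _ => ?_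
    refine forall₂_congr fun u' hu' => ?_
    refine imp_congr_right fun _ => ?_
    have h1 := h u hu u' hu'
    have h2 := h u' hu' u hu
    rw [ne_eq, ne_eq, not_iff_not]
    constructor
    · intro he
      exact le_antisymm (h2.mp he.le) (h1.mp he.ge)
    · intro he
      exact le_antisymm (h2.mpr he.le) (h1.mpr he.ge)
  rw [hfilter]
  apply insertionSort_congr
  intro a ha b hb
  have ha' : a ∈ W := (Finset.mem_filter.mp (Finset.mem_toList.mp ha)).1
  have hb' : b ∈ W := (Finset.mem_filter.mp (Finset.mem_toList.mp hb)).1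
  exact h a ha' b hb'

/-- Measurability of functions `x ↦ H (actList W (t x) s) x`: the action list is a finitely valued
measurable function of `x`. -/
theorem measurable_of_actList {Ω β : Type*} [MeasurableSpace Ω] [MeasurableSpace β] (W : Finset V)
    {t : Ω → V → ℝ} (ht : ∀ v ∈ W, Measurable fun x => t x v) {s : Ω → ℝ} (hs : Measurable s)
    {H : List V → Ω → β} (hH : ∀ L, Measurable (H L)) :
    Measurable fun x => H (actList W (t x) (s x)) x := by
  -- the pattern
  let P := (↥W → ↥W → Bool) × (↥W → Bool)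
  let _ : MeasurableSpace (↥W → ↥W → Bool) := ⊤
  let _ : MeasurableSpace (↥W → Bool) := ⊤
  have : DiscreteMeasurableSpace (↥W → ↥W → Bool) := ⟨fun _ => trivial⟩
  have : DiscreteMeasurableSpace (↥W → Bool) := ⟨fun _ => trivial⟩
  let pat : Ω → P := fun x =>
    (fun a b => decide (t x a ≤ t x b), fun a => decide (t x a < s x))
  -- choose a representative list for each pattern
  let Lof : P → List V := fun π =>
    if h : ∃ x, pat x = π then actList W (t h.choose) (s h.choose) else []
  have hL : ∀ x, actList W (t x) (s x) = Lof (pat x) := by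
    intro x
    have h : ∃ y, pat y = pat x := ⟨x, rfl⟩
    simp only [Lof, dif_pos h]
    have hc := h.choose_spec
    apply actList_congr
    · intro a ha b hb
      have := congrFun (congrFun (congrArg Prod.fst hc) ⟨a, ha⟩) ⟨b, hb⟩
      simp only [pat, decide_eq_decide] at this
      exact this.symm
    · intro a ha
      have := congrFun (congrArg Prod.snd hc) ⟨a, ha⟩
      simp only [pat, decide_eq_decide] at this
      exact this.symm
  simp_rw [hL]
  have hpat : Measurable pat := by
    refine Measurable.prodMk ?_ ?_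
    · refine measurable_to_countable' ?_
      intro π
      have : (fun x => fun a b : ↥W => decide (t x a ≤ t x b)) ⁻¹' {π} =
          ⋂ a : ↥W, ⋂ b : ↥W, {x | decide (t x a ≤ t x b) = π a b} := by
        ext x
        simp only [Set.mem_preimage, Set.mem_singleton_iff, Set.mem_iInter, Set.mem_setOf_eq]
        constructor
        · intro h a b; rw [← h]
        · intro h; funext a b; exact h a b
      rw [this]
      refine MeasurableSet.iInter fun a => MeasurableSet.iInter fun b => ?_
      have hm : MeasurableSet {x | t x a ≤ t x b} := measurableSet_le (ht a a.2) (ht b b.2)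
      cases hπ : π a b
      · convert hm.compl using 1
        ext x; simp
      · convert hm using 1
        ext x; simp
    · refine measurable_to_countable' ?_
      intro π
      have : (fun x => fun a : ↥W => decide (t x a < s x)) ⁻¹' {π} =
          ⋂ a : ↥W, {x | decide (t x a < s x) = π a} := by
        ext x
        simp only [Set.mem_preimage, Set.mem_singleton_iff, Set.mem_iInter, Set.mem_setOf_eq]
        constructor
        · intro h a; rw [← h]
        · intro h; funext a; exact h a
      rw [this]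
      refine MeasurableSet.iInter fun a => ?_
      have hm : MeasurableSet {x | t x a < s x} := measurableSet_lt (ht a a.2) hs
      cases hπ : π a
      · convert hm.compl using 1
        ext x; simp
      · convert hm using 1
        ext x; simp
  have hprod : Measurable fun q : Ω × P => H (Lof q.2) q.1 :=
    measurable_from_prod_countable_left fun π => hH (Lof π)
  exact hprod.comp (measurable_id.prodMk hpat)

/-! ### bounds on fields -/

section Bounds

variable {θ : ℝ} {W : Finset V}

theorem abs_eps_chanT_le {ε m U : ℝ} (hε0 : 0 ≤ ε) (hε : ε ≤ 1 / 4) (hm : |m| ≤ 1) (hU : U ∈ Set.Icc (0:ℝ) 1) :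
    |ε * chanT (ε * m) U| ≤ 1 / 4 := by
  have ha : |ε * m| ≤ 1 := by
    rw [abs_mul, abs_of_nonneg hε0]
    nlinarith [abs_nonneg m]
  have hy := chanT_mem ha hU
  have hy' : |chanT (ε * m) U| ≤ 1 := abs_le.mpr hy
  rw [abs_mul, abs_of_nonneg hε0]
  nlinarith [abs_nonneg (chanT (ε * m) U)]

theorem abs_actStep_lt (hG : RegTree G D) (hθ0 : 0 ≤ θ) (hθ1 : θ < 1) (hW : IsConvexSet G W) (hne : W.Nonempty)
    {ε : ℝ} (hε0 : 0 ≤ ε) (hε : ε ≤ 1 / 4) {ℓ : V → ℝ} (hℓ : ∀ v, |ℓ v| < 1) {u : V} (hu : u ∈ W)
    {U : ℝ} (hU : U ∈ Set.Icc (0:ℝ) 1) (v : V) : |actStep G θ W ε ℓ u U v| < 1 := by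
  unfold actStep
  by_cases hv : v = u
  · subst hv
    rw [Function.update_self]
    apply abs_tanhAdd_lt (hℓ v)
    have hm := abs_mag_lt hG hθ0 hθ1 hℓ hW hne hu
    have := abs_eps_chanT_le hε0 hε hm.le hU
    linarith
  · rw [Function.update_of_ne hv]
    exact hℓ v

theorem abs_foldl_lt (hG : RegTree G D) (hθ0 : 0 ≤ θ) (hθ1 : θ < 1) (hW : IsConvexSet G W) (hne : W.Nonempty)
    {ε : ℝ} (hε0 : 0 ≤ ε) (hε : ε ≤ 1 / 4) {U : V → ℝ} (hU : ∀ u, U u ∈ Set.Icc (0:ℝ) 1)
    (L : List V) (hL : ∀ u ∈ L, u ∈ W) {ℓ : V → ℝ} (hℓ : ∀ v, |ℓ v| < 1) (v : V) :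
    |L.foldl (fun ℓ u => actStep G θ W ε ℓ u (U u)) ℓ v| < 1 := by
  induction L generalizing ℓ with
  | nil => exact hℓ v
  | cons a L ih =>
    rw [List.foldl_cons]
    exact ih (fun u hu => hL u (by simp [hu]))
      (abs_actStep_lt hG hθ0 hθ1 hW hne hε0 hε hℓ (hL a (by simp)) (hU a))

theorem abs_runSweep_lt (hG : RegTree G D) (hθ0 : 0 ≤ θ) (hθ1 : θ < 1) (hW : IsConvexSet G W) (hne : W.Nonempty)
    {ε : ℝ} (hε0 : 0 ≤ ε) (hε : ε ≤ 1 / 4) {t U : V → ℝ} (hU : ∀ u, U u ∈ Set.Icc (0:ℝ) 1) (s : ℝ)
    {ℓ : V → ℝ} (hℓ : ∀ v, |ℓ v| < 1) (v : V) :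
    |runSweep G θ W ε t U s ℓ v| < 1 :=
  abs_foldl_lt hG hθ0 hθ1 hW hne hε0 hε hU _ (fun _ hu => (mem_actList.mp hu).1) hℓ v

theorem abs_fieldStart_lt (hG : RegTree G D) (hθ0 : 0 ≤ θ) (hθ1 : θ < 1) (hW : IsConvexSet G W) (hne : W.Nonempty)
    (N : ℤ) (x : Om V) (n : ℕ) (v : V) : |fieldStart G θ W N x n v| < 1 := by
  induction n generalizing v with
  | zero => simp [fieldStart]
  | succ n ih =>
    simp only [fieldStart]
    exact abs_runSweep_lt hG hθ0 hθ1 hW hne (eps_pos _).le (eps_le _) (fun u => uOf_mem x u _) _ ih v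

theorem abs_fieldAt_lt' (hG : RegTree G D) (hθ0 : 0 ≤ θ) (hθ1 : θ < 1) (hW : IsConvexSet G W) (hne : W.Nonempty)
    (N : ℤ) (x : Om V) (j : ℤ) (s : ℝ) (v : V) : |fieldAt G θ W N x j s v| < 1 :=
  abs_runSweep_lt hG hθ0 hθ1 hW hne (eps_pos _).le (eps_le _) (fun u => uOf_mem x u _) _
    (abs_fieldStart_lt hG hθ0 hθ1 hW hne N x _) v

end Bounds

/-! ### measurability -/

section Meas

variable {θ : ℝ} {W : Finset V}

theorem measurable_siteW_field (W A : Finset V) :
    Measurable fun ℓ : V → ℝ => siteW (fun v => 1 + ℓ v) (fun v => 1 - ℓ v) W A := by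
  unfold siteW
  refine Finset.measurable_prod _ fun v _ => ?_
  by_cases hv : v ∈ A
  · simp only [hv, if_true]
    exact measurable_const.add (measurable_pi_apply v)
  · simp only [hv, if_false]
    exact measurable_const.sub (measurable_pi_apply v)

theorem measurable_expW_field (W : Finset V) (f : Finset V → ℝ) :
    Measurable fun ℓ : V → ℝ => expW G θ (fun v => 1 + ℓ v) (fun v => 1 - ℓ v) W f := by
  unfold expW
  refine Finset.measurable_sum _ fun A _ => ?_
  exact (measurable_const.mul (measurable_siteW_field W A)).mul measurable_const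

theorem measurable_gibbs_field (W : Finset V) (f : Finset V → ℝ) :
    Measurable fun ℓ : V → ℝ => gibbs G θ ℓ W f := by
  unfold gibbs pfW
  exact (measurable_expW_field W f).div (measurable_expW_field W _)

theorem measurable_mag_field (W : Finset V) (u : V) :
    Measurable fun ℓ : V → ℝ => mag G θ ℓ W u :=
  measurable_gibbs_field W _

theorem measurable_covG_field (W : Finset V) (f g : Finset V → ℝ) :
    Measurable fun ℓ : V → ℝ => covG G θ ℓ W f g := by
  unfold covG
  exact (measurable_gibbs_field W _).sub ((measurable_gibbs_field W _).mul (measurable_gibbs_field W _))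

theorem measurable_tanhAdd : Measurable fun p : ℝ × ℝ => tanhAdd p.1 p.2 := by
  unfold tanhAdd
  fun_prop

theorem measurable_actStep (W : Finset V) (ε : ℝ) (u : V) :
    Measurable fun p : (V → ℝ) × ℝ => actStep G θ W ε p.1 u p.2 := by
  refine measurable_pi_lambda _ fun v => ?_
  unfold actStep
  by_cases hv : v = u
  · subst hv
    simp only [Function.update_self]
    have h1 : Measurable fun p : (V → ℝ) × ℝ => p.1 v := (measurable_pi_apply v).comp measurable_fst
    have h2 : Measurable fun p : (V → ℝ) × ℝ => mag G θ p.1 W v :=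
      (measurable_mag_field W v).comp measurable_fst
    have h3 : Measurable fun p : (V → ℝ) × ℝ => chanT (ε * mag G θ p.1 W v) p.2 :=
      measurable_chanT.comp ((measurable_const.mul h2).prodMk measurable_snd)
    exact measurable_tanhAdd.comp (h1.prodMk (measurable_const.mul h3))
  · simp only [Function.update_of_ne hv]
    exact (measurable_pi_apply v).comp measurable_fst

theorem measurable_foldl {Ω : Type*} [MeasurableSpace Ω] (W : Finset V) (ε : ℝ) {U : Ω → V → ℝ}
    (hU : ∀ u, Measurable fun x => U x u) (L : List V) {ℓ : Ω → V → ℝ} (hℓ : Measurable ℓ) :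
    Measurable fun x => L.foldl (fun ℓ' u => actStep G θ W ε ℓ' u (U x u)) (ℓ x) := by
  induction L generalizing ℓ with
  | nil => simpa using hℓ
  | cons a L ih =>
    simp only [List.foldl_cons]
    exact ih ((measurable_actStep W ε a).comp (hℓ.prodMk (hU a)))

theorem measurable_fieldStart (W : Finset V) (N : ℤ) (n : ℕ) :
    Measurable fun x : Om V => fieldStart G θ W N x n := by
  induction n with
  | zero => exact measurable_const
  | succ n ih =>
    simp only [fieldStart, runSweep]
    exact measurable_of_actList (t := fun x : Om V => fun v => tOf x v (N + n)) (s := fun _ => 1 / 2)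
      (H := fun L x => L.foldl (fun ℓ u => actStep G θ W (eps (N + n)) ℓ u (uOf x u (N + n)))
        (fieldStart G θ W N x n)) W
      (fun v _ => measurable_tOf v _) measurable_const
      (fun L => measurable_foldl W _ (fun u => measurable_uOf u _) L ih)

/-- joint measurability of the field in labels and time -/
theorem measurable_fieldAt_joint (W : Finset V) (N j : ℤ) :
    Measurable fun p : Om V × ℝ => fieldAt G θ W N p.1 j p.2 := by
  simp only [fieldAt, runSweep]
  exact measurable_of_actList (t := fun p : Om V × ℝ => fun v => tOf p.1 v j) (s := fun p => p.2)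
    (H := fun L p => L.foldl (fun ℓ u => actStep G θ W (eps j) ℓ u (uOf p.1 u j))
      (fieldStart G θ W N p.1 (j - N).toNat)) W
    (fun v _ => (measurable_tOf v _).comp measurable_fst) measurable_snd
    (fun L => measurable_foldl W _ (fun u => (measurable_uOf u _).comp measurable_fst) L
      ((measurable_fieldStart W N _).comp measurable_fst))

theorem measurable_fieldAt' (W : Finset V) (N j : ℤ) (s : ℝ) :
    Measurable fun x : Om V => fieldAt G θ W N x j s :=
  (measurable_fieldAt_joint W N j).comp (measurable_id.prodMk measurable_const)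

end Meas

/-! ### full sweep -/

theorem actList_zero (W : Finset V) {t : V → ℝ} (ht : ∀ v, 0 ≤ t v) : actList W t 0 = [] := by
  rw [List.eq_nil_iff_forall_not_mem]
  intro u hu
  exact absurd (mem_actList.mp hu).2.1 (not_lt.mpr (ht u))

theorem fieldAt_half' {θ : ℝ} {W : Finset V} {N j : ℤ} (x : Om V) (hN : N ≤ j) :
    fieldAt G θ W N x j (1 / 2) = fieldAt G θ W N x (j + 1) 0 := by
  have h1 : (j + 1 - N).toNat = (j - N).toNat + 1 := by omega
  have h2 : N + ((j - N).toNat : ℤ) = j := by omega
  unfold fieldAt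
  rw [h1]
  simp only [fieldStart, runSweep, h2]
  rw [actList_zero W (fun v => (tOf_mem x v _).1)]
  simp

end DynE

end Crest.Agent.Lib.IsingFIID
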