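/-
S0241 blueprint, Mod E: the block data of the site weights: `blockAt`, and the computation of `Λ`, `I` (J4 schedule input).
-/
import Crest.Agent.Lib.IsingFIID.DynBasic

set_option autoImplicit false

namespace Crest.Agent.Lib.IsingFIID

namespace DynE

open MeasureTheory Filter Set
open scoped Classical Topology

local notation "I₁" => unitInterval

/-! ### integrating over a block -/

/-- Integrating the value of one coordinate of a block. -/
theorem integral_block_coord {c : ℤ × Bool} {H : Block → I₁ → ℝ}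
    (hm : Measurable (Function.uncurry H)) (hb : ∃ C, ∀ e a, |H e a| ≤ C)
    (hdep : ∀ e b a, H (Function.update e c b) a = H e a) :
    ∫ e, H e (e c) ∂blockP = ∫ e, ∫ a : I₁, H e a ∂volume ∂blockP := by
  obtain ⟨C, hC⟩ := hb
  have hmp : MeasurePreserving (fun p : Block × I₁ => Function.update p.1 c p.2)
      (blockP.prod (volume : Measure I₁)) blockP :=
    measurePreserving_update_infinitePi (volume : Measure I₁) c
  have hG : Measurable fun e : Block => H e (e c) :=
    hm.comp (measurable_id.prodMk (measurable_pi_apply c))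
  have hint : Integrable (fun e : Block => H e (e c)) blockP :=
    Integrable.of_bound hG.aestronglyMeasurable C (Eventually.of_forall fun x => by simpa using hC x _)
  have hint2 : Integrable (fun p : Block × I₁ => (fun e : Block => H e (e c)) (Function.update p.1 c p.2))
      (blockP.prod (volume : Measure I₁)) :=
    (hmp.integrable_comp hint.aestronglyMeasurable).2 hint
  have h1 : ∫ e, H e (e c) ∂blockP = ∫ e, ∫ a : I₁, (fun e : Block => H e (e c)) (Function.update e c a) ∂volume ∂blockP := by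
    rw [← integral_prod _ hint2]
    conv_lhs => rw [← hmp.map_eq]
    rw [integral_map hmp.measurable.aemeasurable]
    rw [hmp.map_eq]
    exact hint.aestronglyMeasurable
  rw [h1]
  refine integral_congr_ae (Eventually.of_forall fun x => ?_)
  refine integral_congr_ae (Eventually.of_forall fun a => ?_)
  simp only [Function.update_self, hdep]

theorem integrable_block_of_bdd {F : Block → ℝ} (hF : Measurable F) {C : ℝ} (hC : ∀ x, |F x| ≤ C) :
    Integrable F blockP :=
  Integrable.of_bound hF.aestronglyMeasurable C (Eventually.of_forall fun x => by simpa using hC x)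

/-- A pair of coordinates `(i,false),(i,true)` is independent of the rest. -/
theorem integral_block_pair_mul (i : ℤ) {G : I₁ → I₁ → ℝ} {F : Block → ℝ}
    (hG : Measurable (Function.uncurry G)) (hGb : ∃ C, ∀ a b, |G a b| ≤ C) (hF : Measurable F)
    (hFb : ∃ C, ∀ e, |F e| ≤ C) (hdep1 : ∀ e a, F (Function.update e (i, false) a) = F e)
    (hdep2 : ∀ e a, F (Function.update e (i, true) a) = F e) :
    ∫ e, G (e (i, false)) (e (i, true)) * F e ∂blockP =
      (∫ a : I₁, ∫ b : I₁, G a b ∂volume ∂volume) * ∫ e, F e ∂blockP := by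
  obtain ⟨CG, hCG⟩ := hGb
  obtain ⟨CF, hCF⟩ := hFb
  have hne : ((i, false) : ℤ × Bool) ≠ (i, true) := by simp
  have hCF0 : 0 ≤ CF := (abs_nonneg _).trans (hCF (fun _ => 0))
  have hCG0 : 0 ≤ CG := (abs_nonneg _).trans (hCG 0 0)
  -- the inner integral is a function of the time coordinate
  have hint : Measurable fun a : I₁ => ∫ b : I₁, G a b ∂volume :=
    (hG.stronglyMeasurable.integral_prod_right' (ν := (volume : Measure I₁))).measurable
  have hbound : ∀ a : I₁, |∫ b : I₁, G a b ∂volume| ≤ CG := by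
    intro a
    have := norm_integral_le_of_norm_le_const (μ := (volume : Measure I₁)) (f := fun b => G a b) (C := CG)
      (Eventually.of_forall fun b => by simpa using hCG a b)
    simpa using this
  -- first the noise coordinate
  have h1 := integral_block_coord (c := (i, true))
    (H := fun e b => G (e (i, false)) b * F e)
    (by
      refine Measurable.mul ?_ (hF.comp measurable_fst)
      have h1 : Measurable fun p : Block × I₁ => (p.1 (i, false), p.2) := by fun_prop
      exact hG.comp h1)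
    ⟨CG * CF, fun e a => by
      rw [abs_mul]
      exact mul_le_mul (hCG _ _) (hCF _) (abs_nonneg _) hCG0⟩
    (fun e b a => by
      rw [hdep2, Function.update_of_ne hne])
  rw [h1]
  have h2 : ∀ e : Block, ∫ b : I₁, G (e (i, false)) b * F e ∂volume = (∫ b : I₁, G (e (i, false)) b ∂volume) * F e := by
    intro e
    rw [integral_mul_const]
  simp only [h2]
  have h3 := integral_block_coord (c := (i, false))
    (H := fun e a => (∫ b : I₁, G a b ∂volume) * F e)
    (by
      exact (hint.comp measurable_snd).mul (hF.comp measurable_fst))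
    ⟨CG * CF, fun e a => by
      rw [abs_mul]
      exact mul_le_mul (hbound _) (hCF _) (abs_nonneg _) hCG0⟩
    (fun e b a => by
      rw [hdep1])
  rw [h3]
  have h4 : ∀ e : Block, ∫ a : I₁, (∫ b : I₁, G a b ∂volume) * F e ∂volume =
      (∫ a : I₁, ∫ b : I₁, G a b ∂volume ∂volume) * F e := by
    intro e
    rw [integral_mul_const]
  simp only [h4]
  rw [integral_const_mul]

/-- Independence in a block. -/
theorem integral_block_prod (S : Finset ℤ) {G : ℤ → I₁ → I₁ → ℝ}
    (hG : ∀ i, Measurable (Function.uncurry (G i))) (hGb : ∀ i, ∃ C, ∀ a b, |G i a b| ≤ C) :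
    ∫ e : Block, ∏ i ∈ S, G i (e (i, false)) (e (i, true)) ∂blockP =
      ∏ i ∈ S, ∫ a : I₁, ∫ b : I₁, G i a b ∂volume ∂volume := by
  induction S using Finset.induction_on with
  | empty => simp
  | insert i S hi ih =>
    simp only [Finset.prod_insert hi]
    rw [integral_block_pair_mul i (hG i) (hGb i), ih]
    · refine Finset.measurable_prod _ fun k _ => ?_
      have h1 : Measurable fun e : Block => (e (k, false), e (k, true)) := by fun_prop
      exact (hG k).comp h1
    · choose C hC using hGb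
      refine ⟨∏ k ∈ S, C k, fun e => ?_⟩
      rw [Finset.abs_prod]
      exact Finset.prod_le_prod (fun _ _ => abs_nonneg _) fun k _ => hC k _ _
    · intro e a
      refine Finset.prod_congr rfl fun k hk => ?_
      have hk' : k ≠ i := fun h => hi (h ▸ hk)
      rw [Function.update_of_ne (by simp [hk']), Function.update_of_ne (by simp [hk'])]
    · intro e a
      refine Finset.prod_congr rfl fun k hk => ?_
      have hk' : k ≠ i := fun h => hi (h ▸ hk)
      rw [Function.update_of_ne (by simp [hk']), Function.update_of_ne (by simp [hk'])]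

/-! ### one-dimensional integrals -/

theorem integral_unit_ite {τ : ℝ} (hτ0 : 0 ≤ τ) (hτ1 : τ ≤ 1) (A B : ℝ) :
    ∫ a : I₁, (if (a : ℝ) < τ then A else B) ∂volume = τ * A + (1 - τ) * B := by
  have hmeas : Measurable fun U : ℝ => if U < τ then A else B :=
    Measurable.ite measurableSet_Iio measurable_const measurable_const
  rw [integral_unitInterval (g := fun U : ℝ => if U < τ then A else B)]
  have hbd : ∀ U : ℝ, ‖(if U < τ then A else B : ℝ)‖ ≤ |A| + |B| := by
    intro U
    rw [Real.norm_eq_abs]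
    split_ifs
    · linarith [abs_nonneg B]
    · linarith [abs_nonneg A]
  have hI : ∀ a b : ℝ, IntervalIntegrable (fun U : ℝ => if U < τ then A else B) volume a b := by
    intro a b
    rw [intervalIntegrable_iff]
    exact Measure.integrableOn_of_bounded (M := |A| + |B|) (by simp) hmeas.aestronglyMeasurable
      (Eventually.of_forall hbd)
  rw [← intervalIntegral.integral_add_adjacent_intervals (hI 0 τ) (hI τ 1)]
  have h1 : ∫ U in (0 : ℝ)..τ, (if U < τ then A else B) = ∫ U in (0 : ℝ)..τ, A := by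
    refine intervalIntegral.integral_congr_ae ?_
    have : ∀ᵐ U : ℝ, U ≠ τ := by
      have := compl_mem_ae_iff.mpr (measure_singleton (μ := (volume : Measure ℝ)) τ)
      filter_upwards [this] with U hU
      exact hU
    filter_upwards [this] with U hU hU2
    rw [Set.uIoc_of_le hτ0] at hU2
    have : U < τ := lt_of_le_of_ne hU2.2 hU
    rw [if_pos this]
  have h2 : ∫ U in τ..1, (if U < τ then A else B) = ∫ U in τ..1, B := by
    refine intervalIntegral.integral_congr_ae (Eventually.of_forall fun U hU2 => ?_)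
    rw [Set.uIoc_of_le hτ1] at hU2
    have : ¬ U < τ := not_lt.mpr hU2.1.le
    rw [if_neg this]
  rw [h1, h2, intervalIntegral.integral_const, intervalIntegral.integral_const]
  simp

theorem integral_unit_noise : ∫ b : I₁, (2 * (b : ℝ) - 1) ∂volume = 0 := by
  rw [integral_unitInterval (g := fun U : ℝ => 2 * U - 1)]
  have hd : ∀ U ∈ uIcc (0:ℝ) 1, HasDerivAt (fun U : ℝ => U ^ 2 - U) (2 * U - 1) U := by
    intro U _
    exact ((hasDerivAt_pow 2 U).fun_sub (hasDerivAt_id' U)).congr_deriv (by norm_num)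
  rw [intervalIntegral.integral_eq_sub_of_hasDerivAt hd
    ((by fun_prop : Continuous fun U : ℝ => 2 * U - 1).intervalIntegrable _ _)]
  norm_num

theorem integral_unit_noise_sq : ∫ b : I₁, (2 * (b : ℝ) - 1) ^ 2 ∂volume = 1 / 3 := by
  rw [integral_unitInterval (g := fun U : ℝ => (2 * U - 1) ^ 2)]
  have hd : ∀ U ∈ uIcc (0:ℝ) 1, HasDerivAt (fun U : ℝ => (2 * U - 1) ^ 3 / 6) ((2 * U - 1) ^ 2) U := by
    intro U _
    have h1 : HasDerivAt (fun U : ℝ => 2 * U - 1) 2 U := by
      exact (((hasDerivAt_id' U).const_mul 2).sub_const 1).congr_deriv (by norm_num)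
    exact ((h1.fun_pow 3).div_const 6).congr_deriv (by norm_num; ring)
  rw [intervalIntegral.integral_eq_sub_of_hasDerivAt hd
    ((by fun_prop : Continuous fun U : ℝ => (2 * U - 1) ^ 2).intervalIntegrable _ _)]
  norm_num

theorem integrable_unit_bdd {F : I₁ → ℝ} (hF : Measurable F) {C : ℝ} (hC : ∀ x, |F x| ≤ C) :
    Integrable F (volume : Measure I₁) :=
  Integrable.of_bound hF.aestronglyMeasurable C (Eventually.of_forall fun x => by simpa using hC x)

/-! ### the channel variable -/

/-- the channel variable -/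
noncomputable def chX (τ a b : ℝ) : ℝ := if a < τ then 2 * b - 1 else 0

theorem abs_noise_le (b : I₁) : |2 * (b : ℝ) - 1| ≤ 1 := by
  rw [abs_le]
  constructor <;> linarith [b.2.1, b.2.2]

theorem abs_chX_le (τ a : ℝ) (b : I₁) : |chX τ a b| ≤ 1 := by
  unfold chX
  split_ifs
  · exact abs_noise_le b
  · simp

theorem measurable_chX (τ : ℝ) : Measurable fun p : ℝ × ℝ => chX τ p.1 p.2 := by
  unfold chX
  refine Measurable.ite (measurableSet_lt measurable_fst measurable_const) ?_ measurable_const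
  exact (measurable_snd.const_mul 2).sub_const 1

theorem measurable_hChX {h : ℝ → ℝ} (hh : Measurable h) (τ : ℝ) :
    Measurable (Function.uncurry fun a b : I₁ => h (chX τ a b)) :=
  hh.comp ((measurable_chX τ).comp (measurable_subtype_coe.prodMap measurable_subtype_coe))

/-- the inner integral -/
theorem integral_noise_chX (τ : ℝ) (a : I₁) (h : ℝ → ℝ) :
    ∫ b : I₁, h (chX τ a b) ∂volume = if (a : ℝ) < τ then ∫ b : I₁, h (2 * b - 1) ∂volume else h 0 := by
  unfold chX
  split_ifs <;> simp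

/-- double integral -/
theorem integral_dbl_chX {τ : ℝ} (hτ0 : 0 ≤ τ) (hτ1 : τ ≤ 1) (h : ℝ → ℝ) :
    ∫ a : I₁, ∫ b : I₁, h (chX τ a b) ∂volume ∂volume =
      τ * (∫ b : I₁, h (2 * b - 1) ∂volume) + (1 - τ) * h 0 := by
  simp only [integral_noise_chX]
  exact integral_unit_ite hτ0 hτ1 _ _

/-- Independence, in the form used here. -/
theorem integral_ch_mul (i : ℤ) {h : ℝ → ℝ} (hh : Measurable h) {C : ℝ} (hC : ∀ x, |x| ≤ 1 → |h x| ≤ C) {τ : ℝ}
    {F : Block → ℝ} (hF : Measurable F) (hFb : ∃ C, ∀ e, |F e| ≤ C)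
    (hdep1 : ∀ e a, F (Function.update e (i, false) a) = F e)
    (hdep2 : ∀ e a, F (Function.update e (i, true) a) = F e) :
    ∫ e : Block, h (chX τ (e (i, false)) (e (i, true))) * F e ∂blockP =
      (∫ a : I₁, ∫ b : I₁, h (chX τ a b) ∂volume ∂volume) * ∫ e, F e ∂blockP :=
  integral_block_pair_mul i (G := fun a b : I₁ => h (chX τ a b)) (measurable_hChX hh τ)
    ⟨C, fun a b => hC _ (abs_chX_le τ a b)⟩ hF hFb hdep1 hdep2

/-- the factor of channel `k` in a site weight -/
noncomputable def chF (τ : ℤ → ℝ) (s : ℝ) (e : Block) (k : ℤ) : ℝ :=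
  1 + eps k * chX (τ k) (e (k, false)) (e (k, true)) * s

theorem measurable_chF (τ : ℤ → ℝ) (s : ℝ) (k : ℤ) : Measurable fun e : Block => chF τ s e k := by
  unfold chF
  have h1 : Measurable fun e : Block => ((e (k, false) : ℝ), (e (k, true) : ℝ)) := by fun_prop
  exact (((measurable_chX (τ k)).comp h1).const_mul (eps k) |>.mul_const s).const_add 1

theorem abs_z_le (k : ℤ) (τ a : ℝ) (b : I₁) {s : ℝ} (hs : |s| ≤ 1) : |eps k * chX τ a b * s| ≤ eps k := by
  rw [abs_mul, abs_mul, abs_of_pos (eps_pos k)]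
  have h := abs_chX_le τ a b
  have := eps_pos k
  calc eps k * |chX τ a b| * |s| ≤ eps k * 1 * 1 :=
        mul_le_mul (mul_le_mul_of_nonneg_left h this.le) hs (abs_nonneg _) (by simpa using this.le)
    _ = eps k := by ring

theorem chF_bounds (τ : ℤ → ℝ) {s : ℝ} (hs : |s| ≤ 1) (e : Block) (k : ℤ) :
    1 - eps k ≤ chF τ s e k ∧ chF τ s e k ≤ 1 + eps k := by
  have := abs_le.mp (abs_z_le k (τ k) (e (k, false)) (e (k, true)) hs)
  unfold chF
  constructor <;> linarith [this.1, this.2]

theorem one_sub_eps_pos (k : ℤ) : 0 < 1 - eps k := by linarith [eps_le k]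

theorem chF_pos (τ : ℤ → ℝ) {s : ℝ} (hs : |s| ≤ 1) (e : Block) (k : ℤ) : 0 < chF τ s e k :=
  (one_sub_eps_pos k).trans_le (chF_bounds τ hs e k).1

theorem chF_prod_update (τ : ℤ → ℝ) (s : ℝ) {T : Finset ℤ} {i : ℤ} (hi : i ∉ T) (b : Bool) (e : Block) (a : I₁) :
    ∏ k ∈ T, chF τ s (Function.update e (i, b) a) k = ∏ k ∈ T, chF τ s e k := by
  refine Finset.prod_congr rfl fun k hk => ?_
  have hk' : k ≠ i := fun h => hi (h ▸ hk)
  unfold chF
  rw [Function.update_of_ne (by simp [hk']), Function.update_of_ne (by simp [hk'])]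

theorem measurable_chF_prod (τ : ℤ → ℝ) (s : ℝ) (T : Finset ℤ) : Measurable fun e : Block => ∏ k ∈ T, chF τ s e k :=
  Finset.measurable_prod _ fun k _ => measurable_chF τ s k

theorem abs_chF_prod_le (τ : ℤ → ℝ) {s : ℝ} (hs : |s| ≤ 1) (T : Finset ℤ) (e : Block) :
    |∏ k ∈ T, chF τ s e k| ≤ ∏ k ∈ T, (1 + eps k) := by
  rw [Finset.abs_prod]
  refine Finset.prod_le_prod (fun _ _ => abs_nonneg _) fun k _ => ?_
  rw [abs_of_pos (chF_pos τ hs e k)]
  exact (chF_bounds τ hs e k).2

/-- Total mass of the products of channel factors -/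
theorem integral_chF_prod (τ : ℤ → ℝ) {s : ℝ} (hs : |s| ≤ 1) (T : Finset ℤ) :
    ∫ e : Block, ∏ k ∈ T, chF τ s e k ∂blockP = 1 := by
  have h := integral_block_prod T (G := fun k (a b : I₁) => 1 + eps k * chX (τ k) a b * s)
    (fun k => measurable_hChX (h := fun x => 1 + eps k * x * s)
      ((measurable_const_mul (eps k)).mul_const s |>.const_add 1) (τ k))
    (fun k => ⟨1 + eps k, fun a b => by
      have := abs_le.mp (abs_z_le k (τ k) a b hs)
      rw [abs_le]
      constructor <;> linarith [this.1, this.2, eps_pos k]⟩)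
  refine h.trans (Finset.prod_eq_one fun k _ => ?_)
  have hint : Integrable (fun b : I₁ => (2 * (b : ℝ) - 1)) (volume : Measure I₁) :=
    integrable_unit_bdd (by fun_prop) (C := 1) abs_noise_le
  have h1 : ∀ a : I₁, ∫ b : I₁, (1 + eps k * chX (τ k) a b * s) ∂volume = 1 := by
    intro a
    rw [integral_noise_chX (τ k) a (fun x => 1 + eps k * x * s)]
    split_ifs
    · have : ∀ b : I₁, 1 + eps k * (2 * (b : ℝ) - 1) * s = 1 + (eps k * s) * (2 * (b : ℝ) - 1) := fun b => by ring
      simp_rw [this]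
      rw [integral_add (integrable_const _) (hint.const_mul _), integral_const_mul, integral_unit_noise]
      simp
    · simp
  simp only [h1]
  simp

/-- the order time threshold in channel `i` -/
noncomputable def tauAt (j : ℤ) (s₀ : ℝ) (i : ℤ) : ℝ := if i = j then s₀ else 1 / 2

theorem tauAt_mem {s₀ : ℝ} (hs0 : 0 ≤ s₀) (hs : s₀ ≤ 1 / 2) (j i : ℤ) : 0 ≤ tauAt j s₀ i ∧ tauAt j s₀ i ≤ 1 := by
  unfold tauAt
  split_ifs
  · constructor <;> linarith
  · norm_num

/-- the channels of a site weight -/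
noncomputable def sIdx (N j : ℤ) : Finset ℤ := insert j (Finset.Ico N j)

theorem sIdx_eq {N j : ℤ} (hN : N ≤ j) : sIdx N j = Finset.Icc N j := by
  ext i
  simp only [sIdx, Finset.mem_insert, Finset.mem_Ico, Finset.mem_Icc]
  omega

theorem wSite_eq_prod (N j : ℤ) (s₀ sgn : ℝ) (e : Block) :
    wSite N j s₀ sgn e = ∏ k ∈ sIdx N j, chF (tauAt j s₀) sgn e k := by
  unfold wSite sIdx
  rw [Finset.prod_insert (by simp), mul_comm]
  congr 1
  · unfold chF tauAt chX
    simp
  · refine Finset.prod_congr rfl fun k hk => ?_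
    have : k ≠ j := by
      simp only [Finset.mem_Ico] at hk
      omega
    unfold chF tauAt chX
    simp [this]

theorem abs_pm_one {s : ℝ} (hs : s = 1 ∨ s = -1) : |s| ≤ 1 := by
  rcases hs with rfl | rfl <;> simp

/-! ### the swap -/

theorem measurable_blockSwap : Measurable blockSwap := by
  refine measurable_pi_lambda _ fun i => ?_
  unfold blockSwap
  by_cases h : i.2 = true
  · simp only [h, if_true]
    exact unitInterval.measurable_symm.comp (measurable_pi_apply i)
  · simp only [h, if_false]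
    exact measurable_pi_apply i

theorem measurePreserving_blockSwap : MeasurePreserving blockSwap blockP blockP := by
  refine ⟨measurable_blockSwap, ?_⟩
  let f : ℤ × Bool → I₁ → I₁ := fun i => if i.2 = true then unitInterval.symm else id
  have hf : ∀ i, MeasurePreserving (f i) (volume : Measure I₁) (volume : Measure I₁) := by
    intro i
    by_cases h : i.2 = true
    · simp only [f, h, if_true]
      exact unitInterval.measurePreserving_symm
    · simp only [f, h, if_false]
      exact MeasurePreserving.id _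
  have := Measure.infinitePi_map_pi (fun _ : ℤ × Bool => (volume : Measure I₁))
    (f := f) (fun i => (hf i).measurable)
  simp only [(hf _).map_eq] at this
  have e : blockSwap = fun e : Block => fun i => f i (e i) := by
    funext e i
    unfold blockSwap
    by_cases h : i.2 = true <;> simp [f, h]
  rw [e]
  exact this

theorem chX_swap {τ a : ℝ} {b : I₁} : chX τ a (unitInterval.symm b) = - chX τ a b := by
  unfold chX
  split_ifs
  · simp only [unitInterval.coe_symm_eq]
    ring
  · simp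

theorem wSite_swap (N j : ℤ) (s₀ sgn : ℝ) (e : Block) : wSite N j s₀ sgn (blockSwap e) = wSite N j s₀ (-sgn) e := by
  rw [wSite_eq_prod, wSite_eq_prod]
  refine Finset.prod_congr rfl fun k _ => ?_
  unfold chF
  have h1 : blockSwap e (k, false) = e (k, false) := by simp [blockSwap]
  have h2 : blockSwap e (k, true) = unitInterval.symm (e (k, true)) := by simp [blockSwap]
  rw [h1, h2, chX_swap]
  ring

theorem measurable_wSite (N j : ℤ) (s₀ sgn : ℝ) : Measurable (wSite N j s₀ sgn) := by
  have : wSite N j s₀ sgn = fun e => ∏ k ∈ sIdx N j, chF (tauAt j s₀) sgn e k := funext (wSite_eq_prod N j s₀ sgn)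
  rw [this]
  exact measurable_chF_prod _ _ _

theorem wSite_bounds (N j : ℤ) (s₀ : ℝ) {sgn : ℝ} (hs : |sgn| ≤ 1) (e : Block) :
    ∏ k ∈ sIdx N j, (1 - eps k) ≤ wSite N j s₀ sgn e ∧ wSite N j s₀ sgn e ≤ ∏ k ∈ sIdx N j, (1 + eps k) := by
  rw [wSite_eq_prod]
  constructor
  · exact Finset.prod_le_prod (fun k _ => (one_sub_eps_pos k).le) fun k _ => (chF_bounds _ hs e k).1
  · exact Finset.prod_le_prod (fun k _ => (chF_pos _ hs e k).le) fun k _ => (chF_bounds _ hs e k).2

/-- The block data at time `(j, s₀)` of a system started at `N`. -/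
noncomputable def _root_.Crest.Agent.Lib.IsingFIID.blockAt (N j : ℤ) (s₀ : ℝ) : BlockData blockP where
  wp := wSite N j s₀ 1
  wm := wSite N j s₀ (-1)
  swap := blockSwap
  lo := ∏ k ∈ sIdx N j, (1 - eps k)
  hi := ∏ k ∈ sIdx N j, (1 + eps k)
  lo_pos := Finset.prod_pos fun k _ => one_sub_eps_pos k
  wp_ge e := (wSite_bounds N j s₀ (by simp) e).1
  wm_ge e := (wSite_bounds N j s₀ (by simp) e).1
  wp_le e := (wSite_bounds N j s₀ (by simp) e).2
  wm_le e := (wSite_bounds N j s₀ (by simp) e).2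
  meas_wp := measurable_wSite N j s₀ 1
  meas_wm := measurable_wSite N j s₀ (-1)
  swap_mp := measurePreserving_blockSwap
  wp_swap e := wSite_swap N j s₀ 1 e
  wm_swap e := by
    have := wSite_swap N j s₀ (-1) e
    simpa using this
  int_wp := by
    have : (wSite N j s₀ 1) = fun e => ∏ k ∈ sIdx N j, chF (tauAt j s₀) 1 e k := funext (wSite_eq_prod N j s₀ 1)
    rw [this]
    exact integral_chF_prod _ (by simp) _

/-! ### `Λ` -/

/-- time parameter of the block at `(j,s)`: `𝔱 = Σ_i p_i ε_i²` -/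
noncomputable def _root_.Crest.Agent.Lib.IsingFIID.timeT (N j : ℤ) (s₀ : ℝ) : ℝ :=
  (∑ i ∈ Finset.Ico N j, eps i ^ 2 / 2) + s₀ * eps j ^ 2

theorem timeT_eq (N j : ℤ) (s₀ : ℝ) : timeT N j s₀ = ∑ k ∈ sIdx N j, tauAt j s₀ k * eps k ^ 2 := by
  unfold timeT sIdx
  rw [Finset.sum_insert (by simp), add_comm]
  congr 1
  · simp [tauAt]
  · refine Finset.sum_congr rfl fun k hk => ?_
    have : k ≠ j := by
      simp only [Finset.mem_Ico] at hk
      omega
    simp [tauAt, this]
    ring

theorem sqrt_wSite_le (N j : ℤ) (s₀ : ℝ) (e : Block) :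
    Real.sqrt (wSite N j s₀ 1 e * wSite N j s₀ (-1) e) ≤
      ∏ k ∈ sIdx N j, (1 - (eps k * chX (tauAt j s₀ k) (e (k, false)) (e (k, true))) ^ 2 / 2) := by
  rw [wSite_eq_prod, wSite_eq_prod, ← Finset.prod_mul_distrib]
  have hb : ∀ k, |eps k * chX (tauAt j s₀ k) (e (k, false)) (e (k, true))| ≤ 1 / 4 := fun k => by
    have := abs_z_le k (tauAt j s₀ k) (e (k, false)) (e (k, true)) (s := 1) (by simp)
    rw [mul_one] at this
    exact this.trans (eps_le k)
  have hb2 : ∀ k, (eps k * chX (tauAt j s₀ k) (e (k, false)) (e (k, true))) ^ 2 ≤ 1 / 16 := fun k => by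
    have := pow_le_pow_left₀ (abs_nonneg _) (hb k) 2
    rw [sq_abs] at this
    linarith
  refine Real.sqrt_le_iff.mpr ⟨Finset.prod_nonneg fun k _ => ?_, ?_⟩
  · linarith [hb2 k]
  · rw [← Finset.prod_pow]
    refine Finset.prod_le_prod (fun k _ => ?_) fun k _ => ?_
    · unfold chF
      nlinarith [hb2 k]
    · unfold chF
      nlinarith [sq_nonneg ((eps k * chX (tauAt j s₀ k) (e (k, false)) (e (k, true))) ^ 2)]

theorem lam_le_exp (N j : ℤ) {s₀ : ℝ} (hs0 : 0 ≤ s₀) (hs : s₀ ≤ 1 / 2) :
    (blockAt N j s₀).lam ≤ Real.exp (-(timeT N j s₀) / 6) := by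
  have hmeas : Measurable fun e : Block => Real.sqrt (wSite N j s₀ 1 e * wSite N j s₀ (-1) e) :=
    Real.continuous_sqrt.measurable.comp ((measurable_wSite N j s₀ 1).mul (measurable_wSite N j s₀ (-1)))
  -- the upper bound function is a product
  have hG : ∀ k : ℤ, Measurable fun x : ℝ => 1 - (eps k * x) ^ 2 / 2 := fun k => by fun_prop
  have hGb : ∀ k : ℤ, ∀ x : ℝ, |x| ≤ 1 → |1 - (eps k * x) ^ 2 / 2| ≤ 1 := by
    intro k x hx
    have h1 : |eps k * x| ≤ 1 / 4 := by
      rw [abs_mul, abs_of_pos (eps_pos k)]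
      calc eps k * |x| ≤ eps k * 1 := mul_le_mul_of_nonneg_left hx (eps_pos k).le
        _ ≤ 1 / 4 := by rw [mul_one]; exact eps_le k
    have h2 := pow_le_pow_left₀ (abs_nonneg _) h1 2
    rw [sq_abs] at h2
    rw [abs_le]
    constructor <;> nlinarith [sq_nonneg (eps k * x)]
  have hprod := integral_block_prod (sIdx N j) (G := fun k (a b : I₁) => 1 - (eps k * chX (tauAt j s₀ k) a b) ^ 2 / 2)
    (fun k => measurable_hChX (hG k) _) (fun k => ⟨1, fun a b => hGb k _ (abs_chX_le _ a b)⟩)
  have hPm : Measurable fun e : Block => ∏ k ∈ sIdx N j,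
      (1 - (eps k * chX (tauAt j s₀ k) (e (k, false)) (e (k, true))) ^ 2 / 2) := by
    refine Finset.measurable_prod _ fun k _ => ?_
    have h1 : Measurable fun e : Block => ((e (k, false) : ℝ), (e (k, true) : ℝ)) := by fun_prop
    exact (hG k).comp ((measurable_chX (tauAt j s₀ k)).comp h1)
  have hPb : ∀ e : Block, |∏ k ∈ sIdx N j,
      (1 - (eps k * chX (tauAt j s₀ k) (e (k, false)) (e (k, true))) ^ 2 / 2)| ≤ 1 := by
    intro e
    rw [Finset.abs_prod]
    refine Finset.prod_le_one (fun _ _ => abs_nonneg _) fun k _ => hGb k _ (abs_chX_le _ _ _)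
  have hsqb : ∀ e : Block, |Real.sqrt (wSite N j s₀ 1 e * wSite N j s₀ (-1) e)| ≤ 1 := by
    intro e
    rw [abs_of_nonneg (Real.sqrt_nonneg _)]
    exact (sqrt_wSite_le N j s₀ e).trans ((le_abs_self _).trans (hPb e))
  calc (blockAt N j s₀).lam
      = ∫ e, Real.sqrt (wSite N j s₀ 1 e * wSite N j s₀ (-1) e) ∂blockP := rfl
    _ ≤ ∫ e : Block, ∏ k ∈ sIdx N j,
          (1 - (eps k * chX (tauAt j s₀ k) (e (k, false)) (e (k, true))) ^ 2 / 2) ∂blockP :=
        integral_mono (integrable_block_of_bdd hmeas hsqb) (integrable_block_of_bdd hPm hPb) (sqrt_wSite_le N j s₀)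
    _ = ∏ k ∈ sIdx N j, ∫ a : I₁, ∫ b : I₁, (1 - (eps k * chX (tauAt j s₀ k) a b) ^ 2 / 2) ∂volume ∂volume := hprod
    _ ≤ ∏ k ∈ sIdx N j, Real.exp (-(tauAt j s₀ k * eps k ^ 2) / 6) := by
        refine Finset.prod_le_prod (fun k _ => ?_) fun k _ => ?_
        · obtain ⟨h0, h1⟩ := tauAt_mem hs0 hs j k
          refine integral_nonneg fun a => integral_nonneg fun b => ?_
          show (0:ℝ) ≤ 1 - (eps k * chX (tauAt j s₀ k) a b) ^ 2 / 2
          have h2 := abs_z_le k (tauAt j s₀ k) a b (s := 1) (by simp)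
          rw [mul_one] at h2
          have h3 := pow_le_pow_left₀ (abs_nonneg _) (h2.trans (eps_le k)) 2
          rw [sq_abs] at h3
          linarith
        · obtain ⟨h0, h1⟩ := tauAt_mem hs0 hs j k
          rw [integral_dbl_chX h0 h1 (fun x => 1 - (eps k * x) ^ 2 / 2)]
          have hi : ∫ b : I₁, (1 - (eps k * (2 * (b : ℝ) - 1)) ^ 2 / 2) ∂volume = 1 - eps k ^ 2 / 6 := by
            have e1 : ∀ b : I₁, 1 - (eps k * (2 * (b : ℝ) - 1)) ^ 2 / 2 =
                1 - (eps k ^ 2 / 2) * (2 * (b : ℝ) - 1) ^ 2 := fun b => by ring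
            simp_rw [e1]
            have hint : Integrable (fun b : I₁ => (2 * (b : ℝ) - 1) ^ 2) (volume : Measure I₁) :=
              integrable_unit_bdd (by fun_prop) (C := 1) fun b => by
                rw [abs_pow]
                exact pow_le_one₀ (abs_nonneg _) (abs_noise_le b)
            rw [integral_sub (integrable_const _) (hint.const_mul _), integral_const_mul,
              integral_unit_noise_sq]
            simp
            ring
          rw [hi]
          have h3 := Real.add_one_le_exp (-(tauAt j s₀ k * eps k ^ 2) / 6)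
          have e2 : tauAt j s₀ k * (1 - eps k ^ 2 / 6) + (1 - tauAt j s₀ k) * (1 - (eps k * 0) ^ 2 / 2) =
              -(tauAt j s₀ k * eps k ^ 2) / 6 + 1 := by ring
          rw [e2]
          exact h3
    _ = Real.exp (-(timeT N j s₀) / 6) := by
        rw [← Real.exp_sum, timeT_eq, neg_div, Finset.sum_div, ← Finset.sum_neg_distrib]
        congr 1
        refine Finset.sum_congr rfl fun k _ => ?_
        ring

/-! ### `log(1+z)/(1-z)` -/

theorem abs_log_ratio_le {z : ℝ} (hz : |z| ≤ 1 / 4) :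
    |Real.log ((1 + z) / (1 - z))| ≤ 9 / 4 * |z| := by
  have hz1 : |z| < 1 := by linarith
  have hz2 : |-z| < 1 := by rwa [abs_neg]
  have hb := abs_le.mp hz
  have h1 := Real.abs_log_sub_add_sum_range_le hz1 2
  have h2 := Real.abs_log_sub_add_sum_range_le hz2 2
  rw [abs_neg] at h2
  simp only [Finset.sum_range_succ, Finset.sum_range_zero, zero_add, sub_neg_eq_add] at h1 h2
  have hpos1 : 0 < 1 + z := by linarith [hb.1]
  have hpos2 : 0 < 1 - z := by linarith [hb.2]
  rw [Real.log_div hpos1.ne' hpos2.ne']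
  have hr : |z| ^ (2 + 1) / (1 - |z|) ≤ |z| / 12 := by
    rw [div_le_iff₀ (by linarith)]
    have h0 := abs_nonneg z
    have : |z| ^ 2 ≤ 1 / 16 := by nlinarith
    calc |z| ^ (2 + 1) = |z| * |z| ^ 2 := by ring
      _ ≤ |z| * (1 / 16) := mul_le_mul_of_nonneg_left this h0
      _ ≤ |z| / 12 * (1 - |z|) := by nlinarith
  have e1 := abs_le.mp (h1.trans hr)
  have e2 := abs_le.mp (h2.trans hr)
  norm_num at e1 e2
  rw [abs_le]
  have h0 := le_abs_self z
  have h0' := neg_abs_le z
  constructor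
  · have hsmall : 0 ≤ |z| := abs_nonneg z
    rcases le_total 0 z with hz0 | hz0
    · rw [abs_of_nonneg hz0] at *
      nlinarith
    · rw [abs_of_nonpos hz0] at *
      nlinarith
  · have hsmall : 0 ≤ |z| := abs_nonneg z
    rcases le_total 0 z with hz0 | hz0
    · rw [abs_of_nonneg hz0] at *
      nlinarith
    · rw [abs_of_nonpos hz0] at *
      nlinarith

/-- log ratio of a channel -/
noncomputable def logR (ε x : ℝ) : ℝ := Real.log ((1 + ε * x * 1) / (1 + ε * x * (-1)))

theorem measurable_logR (ε : ℝ) : Measurable (logR ε) := by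
  unfold logR
  exact Real.measurable_log.comp (by fun_prop)

theorem logR_zero (ε : ℝ) : logR ε 0 = 0 := by
  simp [logR]

theorem abs_eps_mul_le (k : ℤ) {x : ℝ} (hx : |x| ≤ 1) : |eps k * x| ≤ 1 / 4 := by
  rw [abs_mul, abs_of_pos (eps_pos k)]
  calc eps k * |x| ≤ eps k * 1 := mul_le_mul_of_nonneg_left hx (eps_pos k).le
    _ ≤ 1 / 4 := by rw [mul_one]; exact eps_le k

theorem abs_logR_le (k : ℤ) {x : ℝ} (hx : |x| ≤ 1) : |logR (eps k) x| ≤ 9 / 4 * |eps k * x| := by
  have := abs_log_ratio_le (abs_eps_mul_le k hx)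
  unfold logR
  convert this using 4 <;> ring

theorem abs_chMul_le (k : ℤ) {s : ℝ} (hs : |s| ≤ 1) {x : ℝ} (hx : |x| ≤ 1) :
    |(1 + eps k * x * s) * logR (eps k) x| ≤ 1 := by
  have h1 := abs_eps_mul_le k hx
  have h2 := abs_logR_le k hx
  have h3 : |eps k * x * s| ≤ 1 / 4 := by
    rw [abs_mul]
    calc |eps k * x| * |s| ≤ 1 / 4 * 1 := mul_le_mul h1 hs (abs_nonneg _) (by norm_num)
      _ = 1 / 4 := by ring
  have h4 : |1 + eps k * x * s| ≤ 5 / 4 := by
    refine (abs_add_le _ _).trans ?_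
    simp only [abs_one]
    linarith
  rw [abs_mul]
  calc |1 + eps k * x * s| * |logR (eps k) x| ≤ 5 / 4 * (9 / 4 * (1 / 4)) :=
        mul_le_mul h4 (h2.trans (mul_le_mul_of_nonneg_left h1 (by norm_num))) (abs_nonneg _) (by norm_num)
    _ ≤ 1 := by norm_num

theorem measurable_chMul (k : ℤ) (s : ℝ) : Measurable fun x : ℝ => (1 + eps k * x * s) * logR (eps k) x :=
  Measurable.mul (by fun_prop) (measurable_logR _)

theorem chF_pos' (τ : ℤ → ℝ) (e : Block) (k : ℤ) :
    0 < 1 + eps k * chX (τ k) (e (k, false)) (e (k, true)) * 1 ∧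
      0 < 1 + eps k * chX (τ k) (e (k, false)) (e (k, true)) * (-1) :=
  ⟨chF_pos τ (s := 1) (by simp) e k, chF_pos τ (s := -1) (by simp) e k⟩

theorem log_wSite_ratio (N j : ℤ) (s₀ : ℝ) (e : Block) :
    Real.log (wSite N j s₀ 1 e / wSite N j s₀ (-1) e) =
      ∑ k ∈ sIdx N j, logR (eps k) (chX (tauAt j s₀ k) (e (k, false)) (e (k, true))) := by
  rw [wSite_eq_prod, wSite_eq_prod, ← Finset.prod_div_distrib, Real.log_prod]
  · rfl
  · intro k _
    exact (div_pos (chF_pos _ (by simp) e k) (chF_pos _ (by simp) e k)).ne'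

theorem measurable_logR_block (k : ℤ) (τ : ℝ) :
    Measurable fun e : Block => logR (eps k) (chX τ (e (k, false)) (e (k, true))) := by
  have h1 : Measurable fun e : Block => ((e (k, false) : ℝ), (e (k, true) : ℝ)) := by fun_prop
  exact (measurable_logR _).comp ((measurable_chX τ).comp h1)

theorem abs_logR_block_le (k : ℤ) (τ : ℝ) (e : Block) : |logR (eps k) (chX τ (e (k, false)) (e (k, true)))| ≤ 1 := by
  have h0 := abs_chX_le τ (e (k, false)) (e (k, true))
  refine (abs_logR_le k h0).trans ?_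
  have := abs_eps_mul_le k h0
  linarith

theorem integral_wSite_mul_logR (N j : ℤ) (s₀ : ℝ) {sgn : ℝ} (hsgn : |sgn| ≤ 1) {k : ℤ} (hk : k ∈ sIdx N j) :
    ∫ e, wSite N j s₀ sgn e * logR (eps k) (chX (tauAt j s₀ k) (e (k, false)) (e (k, true))) ∂blockP =
      ∫ a : I₁, ∫ b : I₁, (1 + eps k * chX (tauAt j s₀ k) a b * sgn) * logR (eps k) (chX (tauAt j s₀ k) a b) ∂volume ∂volume := by
  have hT : k ∉ (sIdx N j).erase k := by simp
  have h1 : ∀ e : Block, wSite N j s₀ sgn e * logR (eps k) (chX (tauAt j s₀ k) (e (k, false)) (e (k, true))) =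
      (fun x => (1 + eps k * x * sgn) * logR (eps k) x) (chX (tauAt j s₀ k) (e (k, false)) (e (k, true))) *
        ∏ i ∈ (sIdx N j).erase k, chF (tauAt j s₀) sgn e i := by
    intro e
    rw [wSite_eq_prod, ← Finset.mul_prod_erase _ _ hk]
    simp only [chF]
    ring
  simp only [h1]
  rw [integral_ch_mul k (measurable_chMul k sgn) (fun x hx => abs_chMul_le k hsgn hx)
    (measurable_chF_prod _ _ _) ⟨_, abs_chF_prod_le _ hsgn _⟩ (fun e a => chF_prod_update _ _ hT _ e a)
    (fun e a => chF_prod_update _ _ hT _ e a), integral_chF_prod _ hsgn, mul_one]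

theorem kl_term_le (N j : ℤ) {s₀ : ℝ} (hs0 : 0 ≤ s₀) (hs : s₀ ≤ 1 / 2) {k : ℤ} (hk : k ∈ sIdx N j) :
    ∫ e, (wSite N j s₀ 1 e - wSite N j s₀ (-1) e) / 2 *
        logR (eps k) (chX (tauAt j s₀ k) (e (k, false)) (e (k, true))) ∂blockP ≤
      3 / 4 * (tauAt j s₀ k * eps k ^ 2) := by
  obtain ⟨h0, h1⟩ := tauAt_mem hs0 hs j k
  have hb : ∀ s : ℝ, |s| ≤ 1 → ∃ C, ∀ e : Block, |wSite N j s₀ s e| ≤ C := fun s hs' =>
    ⟨_, fun e => by
      rw [wSite_eq_prod]
      exact abs_chF_prod_le _ hs' _ e⟩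
  have hint : ∀ s : ℝ, |s| ≤ 1 → Integrable (fun e : Block => wSite N j s₀ s e *
      logR (eps k) (chX (tauAt j s₀ k) (e (k, false)) (e (k, true)))) blockP := by
    intro s hs'
    obtain ⟨C, hC⟩ := hb s hs'
    refine integrable_block_of_bdd (C := C * 1) ((measurable_wSite N j s₀ s).mul (measurable_logR_block k _)) fun e => ?_
    rw [abs_mul]
    exact mul_le_mul (hC e) (abs_logR_block_le k _ e) (abs_nonneg _) ((abs_nonneg _).trans (hC e))
  have e1 : ∀ e : Block, (wSite N j s₀ 1 e - wSite N j s₀ (-1) e) / 2 *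
        logR (eps k) (chX (tauAt j s₀ k) (e (k, false)) (e (k, true))) =
      (1 / 2) * (wSite N j s₀ 1 e * logR (eps k) (chX (tauAt j s₀ k) (e (k, false)) (e (k, true))) -
        wSite N j s₀ (-1) e * logR (eps k) (chX (tauAt j s₀ k) (e (k, false)) (e (k, true)))) := fun e => by ring
  simp only [e1]
  rw [integral_const_mul, integral_sub (hint 1 (by simp)) (hint (-1) (by simp)),
    integral_wSite_mul_logR N j s₀ (by simp) hk, integral_wSite_mul_logR N j s₀ (by simp) hk,
    integral_dbl_chX h0 h1 (fun x => (1 + eps k * x * 1) * logR (eps k) x),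
    integral_dbl_chX h0 h1 (fun x => (1 + eps k * x * (-1)) * logR (eps k) x)]
  simp only [logR_zero, mul_zero, add_zero]
  have hi : ∀ s : ℝ, |s| ≤ 1 → Integrable (fun b : I₁ => (1 + eps k * (2 * (b : ℝ) - 1) * s) *
      logR (eps k) (2 * (b : ℝ) - 1)) (volume : Measure I₁) := by
    intro s hs'
    refine integrable_unit_bdd (C := 1) ?_ fun b => abs_chMul_le k hs' (abs_noise_le b)
    exact (measurable_chMul k s).comp (by fun_prop)
  have hsq : Integrable (fun b : I₁ => (2 * (b : ℝ) - 1) ^ 2) (volume : Measure I₁) :=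
    integrable_unit_bdd (by fun_prop) (C := 1) fun b => by
      rw [abs_pow]
      exact pow_le_one₀ (abs_nonneg _) (abs_noise_le b)
  have key : (∫ b : I₁, (1 + eps k * (2 * (b : ℝ) - 1) * 1) * logR (eps k) (2 * (b : ℝ) - 1) ∂volume) -
      (∫ b : I₁, (1 + eps k * (2 * (b : ℝ) - 1) * (-1)) * logR (eps k) (2 * (b : ℝ) - 1) ∂volume) ≤
      3 / 2 * eps k ^ 2 := by
    rw [← integral_sub (hi 1 (by simp)) (hi (-1) (by simp))]
    have hle : ∀ b : I₁, (1 + eps k * (2 * (b : ℝ) - 1) * 1) * logR (eps k) (2 * (b : ℝ) - 1) -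
        (1 + eps k * (2 * (b : ℝ) - 1) * (-1)) * logR (eps k) (2 * (b : ℝ) - 1) ≤
        (9 / 2 * eps k ^ 2) * (2 * (b : ℝ) - 1) ^ 2 := by
      intro b
      have h3 := abs_logR_le k (abs_noise_le b)
      have h4 : (eps k * (2 * (b : ℝ) - 1)) * logR (eps k) (2 * (b : ℝ) - 1) ≤
          |eps k * (2 * (b : ℝ) - 1)| * (9 / 4 * |eps k * (2 * (b : ℝ) - 1)|) := by
        calc _ ≤ |(eps k * (2 * (b : ℝ) - 1)) * logR (eps k) (2 * (b : ℝ) - 1)| := le_abs_self _
          _ = |eps k * (2 * (b : ℝ) - 1)| * |logR (eps k) (2 * (b : ℝ) - 1)| := abs_mul _ _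
          _ ≤ _ := mul_le_mul_of_nonneg_left h3 (abs_nonneg _)
      have h5 : |eps k * (2 * (b : ℝ) - 1)| * (9 / 4 * |eps k * (2 * (b : ℝ) - 1)|) =
          9 / 4 * (eps k * (2 * (b : ℝ) - 1)) ^ 2 := by
        rw [← sq_abs (eps k * (2 * (b : ℝ) - 1))]
        ring
      rw [h5] at h4
      nlinarith
    refine (integral_mono ((hi 1 (by simp)).sub (hi (-1) (by simp))) (hsq.const_mul _) hle).trans (le_of_eq ?_)
    rw [integral_const_mul, integral_unit_noise_sq]
    ring
  have := mul_le_mul_of_nonneg_left key h0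
  nlinarith

theorem integral_kl_le (N j : ℤ) {s₀ : ℝ} (hs0 : 0 ≤ s₀) (hs : s₀ ≤ 1 / 2) :
    (blockAt N j s₀).kl ≤ 3 / 4 * timeT N j s₀ := by
  have hb : ∀ s : ℝ, |s| ≤ 1 → ∃ C, ∀ e : Block, |wSite N j s₀ s e| ≤ C := fun s hs' =>
    ⟨_, fun e => by
      rw [wSite_eq_prod]
      exact abs_chF_prod_le _ hs' _ e⟩
  obtain ⟨C1, hC1⟩ := hb 1 (by simp)
  obtain ⟨C2, hC2⟩ := hb (-1) (by simp)
  have hint : ∀ k, Integrable (fun e : Block => (wSite N j s₀ 1 e - wSite N j s₀ (-1) e) / 2 *
      logR (eps k) (chX (tauAt j s₀ k) (e (k, false)) (e (k, true)))) blockP := by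
    intro k
    refine integrable_block_of_bdd (C := (C1 + C2) * 1)
      ((((measurable_wSite N j s₀ 1).sub (measurable_wSite N j s₀ (-1))).div_const 2).mul (measurable_logR_block k _)) fun e => ?_
    rw [abs_mul]
    have hC10 := (abs_nonneg _).trans (hC1 e)
    have hC20 := (abs_nonneg _).trans (hC2 e)
    refine mul_le_mul ?_ (abs_logR_block_le k _ e) (abs_nonneg _) (by linarith)
    rw [abs_div, div_le_iff₀ (by simp)]
    have := abs_sub (wSite N j s₀ 1 e) (wSite N j s₀ (-1) e)
    have h1 := hC1 e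
    have h2 := hC2 e
    simp only [abs_two]
    linarith
  have e1 : (blockAt N j s₀).kl = ∫ e, ∑ k ∈ sIdx N j, (wSite N j s₀ 1 e - wSite N j s₀ (-1) e) / 2 *
      logR (eps k) (chX (tauAt j s₀ k) (e (k, false)) (e (k, true))) ∂blockP := by
    unfold BlockData.kl
    refine integral_congr_ae (Eventually.of_forall fun e => ?_)
    show (wSite N j s₀ 1 e - wSite N j s₀ (-1) e) / 2 * Real.log (wSite N j s₀ 1 e / wSite N j s₀ (-1) e) = _
    rw [log_wSite_ratio, Finset.mul_sum]
  rw [e1, integral_finsetSum _ fun k _ => hint k, timeT_eq, Finset.mul_sum]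
  exact Finset.sum_le_sum fun k hk => kl_term_le N j hs0 hs hk

theorem lam_pos' (N j : ℤ) (s₀ : ℝ) : 0 < (blockAt N j s₀).lam := by
  have hlo : 0 < (blockAt N j s₀).lo := (blockAt N j s₀).lo_pos
  have hhi : ∀ e, wSite N j s₀ 1 e ≤ (blockAt N j s₀).hi := (blockAt N j s₀).wp_le
  have hhi' : ∀ e, wSite N j s₀ (-1) e ≤ (blockAt N j s₀).hi := (blockAt N j s₀).wm_le
  have hlow : ∀ e, (blockAt N j s₀).lo ≤ wSite N j s₀ 1 e := (blockAt N j s₀).wp_ge
  have hlow' : ∀ e, (blockAt N j s₀).lo ≤ wSite N j s₀ (-1) e := (blockAt N j s₀).wm_ge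
  have hmeas : Measurable fun e : Block => Real.sqrt (wSite N j s₀ 1 e * wSite N j s₀ (-1) e) :=
    Real.continuous_sqrt.measurable.comp ((measurable_wSite N j s₀ 1).mul (measurable_wSite N j s₀ (-1)))
  have hsq : ∀ e, (blockAt N j s₀).lo ≤ Real.sqrt (wSite N j s₀ 1 e * wSite N j s₀ (-1) e) := by
    intro e
    refine Real.le_sqrt_of_sq_le ?_
    rw [sq]
    exact mul_le_mul (hlow e) (hlow' e) hlo.le (hlo.le.trans (hlow e))
  have hle : ∀ e, Real.sqrt (wSite N j s₀ 1 e * wSite N j s₀ (-1) e) ≤ (blockAt N j s₀).hi := by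
    intro e
    refine Real.sqrt_le_iff.mpr ⟨(hlo.le.trans (hlow e)).trans (hhi e), ?_⟩
    rw [sq]
    exact mul_le_mul (hhi e) (hhi' e) (hlo.le.trans (hlow' e)) ((hlo.le.trans (hlow e)).trans (hhi e))
  have hI : Integrable (fun e : Block => Real.sqrt (wSite N j s₀ 1 e * wSite N j s₀ (-1) e)) blockP :=
    integrable_block_of_bdd (C := (blockAt N j s₀).hi) hmeas fun e => by
      rw [abs_of_nonneg (Real.sqrt_nonneg _)]
      exact hle e
  have : ∫ _e : Block, (blockAt N j s₀).lo ∂blockP ≤ ∫ e, Real.sqrt (wSite N j s₀ 1 e * wSite N j s₀ (-1) e) ∂blockP :=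
    integral_mono (integrable_const _) hI hsq
  have h' : ∫ _e : Block, (blockAt N j s₀).lo ∂blockP = (blockAt N j s₀).lo := by simp
  rw [h'] at this
  exact hlo.trans_le this

/-- (J4 schedule input) -/
theorem blockAt_zeta_aux (N j : ℤ) (s₀ : ℝ) (hs0 : 0 ≤ s₀) (hs : s₀ ≤ 1 / 2) :
    timeT N j s₀ / 60 ≤ -Real.log (blockAt N j s₀).lam - (blockAt N j s₀).kl / 5 ∧
      (blockAt N j s₀).kl ≤ timeT N j s₀ := by
  have h1 := lam_le_exp N j hs0 hs
  have h2 := integral_kl_le N j hs0 hs
  have hpos := lam_pos' N j s₀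
  have h3 : Real.log (blockAt N j s₀).lam ≤ -(timeT N j s₀) / 6 := by
    rw [Real.log_le_iff_le_exp hpos]
    exact h1
  have hT : 0 ≤ timeT N j s₀ := by
    rw [timeT_eq]
    exact Finset.sum_nonneg fun k _ => mul_nonneg (tauAt_mem hs0 hs j k).1 (sq_nonneg _)
  constructor <;> linarith

/-- The site field is bounded by the sum of channel strengths. -/
theorem blockAt_log_bound_aux (N j : ℤ) (s₀ : ℝ) (e : Block) :
    |Real.log ((blockAt N j s₀).wp e / (blockAt N j s₀).wm e)| ≤ 2 * (2 * ∑ i ∈ sIdx N j, eps i) := by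
  show |Real.log (wSite N j s₀ 1 e / wSite N j s₀ (-1) e)| ≤ _
  rw [log_wSite_ratio]
  refine (Finset.abs_sum_le_sum_abs _ _).trans ?_
  rw [Finset.mul_sum, Finset.mul_sum]
  refine Finset.sum_le_sum fun k _ => ?_
  have h0 := abs_chX_le (tauAt j s₀ k) (e (k, false)) (e (k, true))
  refine (abs_logR_le k h0).trans ?_
  have h1 : |eps k * chX (tauAt j s₀ k) (e (k, false)) (e (k, true))| ≤ eps k := by
    have := abs_z_le k (tauAt j s₀ k) (e (k, false)) (e (k, true)) (s := 1) (by simp)
    simpa using this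
  have := eps_pos k
  linarith

end DynE

end Crest.Agent.Lib.IsingFIID
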