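/-
S0241 blueprint, Mod E: equivariance of the dynamics.
-/
import Crest.Agent.Lib.IsingFIID.DynBasic

set_option autoImplicit false
universe u

namespace Crest.Agent.Lib.IsingFIID

namespace DynE

open MeasureTheory Filter
open scoped Classical Topology

variable {V : Type u} {G : SimpleGraph V} [G.LocallyFinite] {D : ℕ}

/-! ### equivariance -/

section Equivariance

variable {θ : ℝ}

/-- the embedding of an automorphism -/
abbrev autE (g : G ≃g G) : V ↪ V := g.toEquiv.toEmbedding

@[simp] theorem autE_apply (g : G ≃g G) (v : V) : autE g v = g v := rfl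

@[simp] theorem autsymm1 (g : G ≃g G) (v : V) : g.symm (g v) = v := g.symm_apply_apply v
@[simp] theorem autsymm2 (g : G ≃g G) (v : V) : g (g.symm v) = v := g.apply_symm_apply v
@[simp] theorem autsymm3 (g : G ≃g G) (v : V) : g.symm.symm v = g v := rfl

theorem spin_map (g : G ≃g G) (A : Finset V) (v : V) : spin (A.map (autE g)) (g v) = spin A v := by
  unfold spin
  have : g v ∈ A.map (autE g) ↔ v ∈ A := by
    rw [Finset.mem_map]
    constructor
    · rintro ⟨a, ha, hav⟩
      have : a = v := g.injective hav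
      exact this ▸ ha
    · intro h
      exact ⟨v, h, rfl⟩
  simp only [this]

theorem edgeFactor_map (g : G ≃g G) (θ : ℝ) (A : Finset V) (e : Sym2 V) :
    edgeFactor θ (A.map (autE g)) (Sym2.map g e) = edgeFactor θ A e := by
  induction e using Sym2.ind with
  | _ v w =>
    simp only [Sym2.map_mk, edgeFactor, Sym2.lift_mk]
    rw [spin_map, spin_map]

theorem isingNorm_map (g : G ≃g G) (θ : ℝ) (W A : Finset V) :
    isingNorm G θ (W.map (autE g)) (A.map (autE g)) = isingNorm G θ W A := by
  unfold isingNorm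
  rw [Finset.card_map]
  congr 1
  refine Finset.prod_bij' (fun e _ => Sym2.map g.symm e) (fun e _ => Sym2.map g e) ?_ ?_ ?_ ?_ ?_
  · intro e he
    simp only [edgesIn, Finset.mem_filter, Finset.mem_sym2_iff] at he ⊢
    induction e using Sym2.ind with
    | _ v w =>
      simp only [Sym2.mem_iff, forall_eq_or_imp, forall_eq, SimpleGraph.mem_edgeSet] at he
      simp only [Sym2.map_mk, Sym2.mem_iff, forall_eq_or_imp, forall_eq, SimpleGraph.mem_edgeSet]
      obtain ⟨⟨hv, hw⟩, hadj⟩ := he
      rw [Finset.mem_map] at hv hw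
      obtain ⟨v', hv', rfl⟩ := hv
      obtain ⟨w', hw', rfl⟩ := hw
      refine ⟨⟨?_, ?_⟩, ?_⟩
      · simpa using hv'
      · simpa using hw'
      · simpa using g.map_adj_iff.mp hadj
  · intro e he
    simp only [edgesIn, Finset.mem_filter, Finset.mem_sym2_iff] at he ⊢
    induction e using Sym2.ind with
    | _ v w =>
      simp only [Sym2.mem_iff, forall_eq_or_imp, forall_eq, SimpleGraph.mem_edgeSet] at he
      simp only [Sym2.map_mk, Sym2.mem_iff, forall_eq_or_imp, forall_eq, SimpleGraph.mem_edgeSet]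
      obtain ⟨⟨hv, hw⟩, hadj⟩ := he
      refine ⟨⟨Finset.mem_map.mpr ⟨v, hv, rfl⟩, Finset.mem_map.mpr ⟨w, hw, rfl⟩⟩, ?_⟩
      exact g.map_rel_iff.mpr hadj
  · intro e _
    induction e using Sym2.ind with
    | _ v w => simp
  · intro e _
    induction e using Sym2.ind with
    | _ v w => simp
  · intro e _
    have : e = Sym2.map g (Sym2.map g.symm e) := by
      induction e using Sym2.ind with
      | _ v w => simp
    conv_lhs => rw [this]
    exact edgeFactor_map g θ A _

theorem siteW_map (g : G ≃g G) (wp wm : V → ℝ) (W A : Finset V) :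
    siteW wp wm (W.map (autE g)) (A.map (autE g)) = siteW (wp ∘ g) (wm ∘ g) W A := by
  unfold siteW
  rw [Finset.prod_map]
  refine Finset.prod_congr rfl fun v _ => ?_
  have : (autE g) v ∈ A.map (autE g) ↔ v ∈ A := Finset.mem_map' _
  simp only [this, Function.comp]
  rfl

/-- the embedding of the inverse -/
abbrev autEs (g : G ≃g G) : V ↪ V := g.toEquiv.symm.toEmbedding

theorem map_autEs_map (g : G ≃g G) (A : Finset V) : (A.map (autE g)).map (autEs g) = A := by
  rw [Finset.map_map]
  convert Finset.map_refl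
  ext a
  exact g.toEquiv.symm_apply_apply a

theorem map_map_autEs (g : G ≃g G) (A : Finset V) : (A.map (autEs g)).map (autE g) = A := by
  rw [Finset.map_map]
  convert Finset.map_refl
  ext a
  exact g.toEquiv.apply_symm_apply a

theorem expW_map (g : G ≃g G) (θ : ℝ) (wp wm : V → ℝ) (W : Finset V) (f : Finset V → ℝ) :
    expW G θ wp wm (W.map (autE g)) f = expW G θ (wp ∘ g) (wm ∘ g) W (fun A => f (A.map (autE g))) := by
  unfold expW
  refine Finset.sum_bij' (fun A _ => A.map (autEs g)) (fun A _ => A.map (autE g)) ?_ ?_ ?_ ?_ ?_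
  · intro A hA
    rw [Finset.mem_powerset] at hA ⊢
    have := Finset.map_subset_map (f := autEs g).mpr hA
    rwa [map_autEs_map] at this
  · intro A hA
    rw [Finset.mem_powerset] at hA ⊢
    exact Finset.map_subset_map.mpr hA
  · intro A hA
    exact map_map_autEs g A
  · intro A hA
    exact map_autEs_map g A
  · intro A hA
    have h := map_map_autEs g A
    have h1 := isingNorm_map g θ W (A.map (autEs g))
    have h2 := siteW_map g wp wm W (A.map (autEs g))
    rw [h] at h1 h2
    rw [h1, h2]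
    simp only [h]

theorem gibbs_map (g : G ≃g G) (θ : ℝ) (ℓ : V → ℝ) (W : Finset V) (f : Finset V → ℝ) :
    gibbs G θ ℓ (W.map (autE g)) f = gibbs G θ (ℓ ∘ g) W (fun A => f (A.map (autE g))) := by
  unfold gibbs pfW
  rw [expW_map, expW_map]
  rfl

theorem mag_map (g : G ≃g G) (θ : ℝ) (ℓ : V → ℝ) (W : Finset V) (u : V) :
    mag G θ ℓ (W.map (autE g)) (g u) = mag G θ (ℓ ∘ g) W u := by
  unfold mag
  rw [gibbs_map]
  simp only [spin_map]

theorem actStep_comp (g : G ≃g G) (θ : ℝ) (W : Finset V) (ε : ℝ) (ℓ : V → ℝ) (u : V) (U : ℝ) :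
    actStep G θ W ε (ℓ ∘ g) u U = actStep G θ (W.map (autE g)) ε ℓ (g u) U ∘ g := by
  funext v
  unfold actStep
  simp only [Function.comp]
  by_cases hv : v = u
  · subst hv
    rw [Function.update_self, Function.update_self, mag_map]
  · rw [Function.update_of_ne hv, Function.update_of_ne (fun h => hv (g.injective h))]
    rfl

theorem foldl_comp (g : G ≃g G) (θ : ℝ) (W : Finset V) (ε : ℝ) (U : V → ℝ) (L : List V) (ℓ : V → ℝ) :
    L.foldl (fun ℓ' u => actStep G θ W ε ℓ' u (U (g u))) (ℓ ∘ g) =
      ((L.map g).foldl (fun ℓ' u => actStep G θ (W.map (autE g)) ε ℓ' u (U u)) ℓ) ∘ g := by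
  induction L generalizing ℓ with
  | nil => rfl
  | cons a L ih =>
    simp only [List.foldl_cons, List.map_cons]
    rw [actStep_comp, ih]

theorem actList_map (g : G ≃g G) (W : Finset V) (t : V → ℝ) (s : ℝ) :
    actList (W.map (autE g)) t s = (actList W (t ∘ g) s).map g := by
  have hnodup2 : ((actList W (t ∘ g) s).map g).Nodup :=
    (nodup_actList _ _ _).map g.injective
  have hmem : ∀ u, u ∈ actList (W.map (autE g)) t s ↔ u ∈ (actList W (t ∘ g) s).map g := by
    intro u
    rw [mem_actList, List.mem_map]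
    constructor
    · rintro ⟨hu, hs, hnt⟩
      obtain ⟨v, hv, rfl⟩ := Finset.mem_map.mp hu
      refine ⟨v, ?_, rfl⟩
      rw [mem_actList]
      refine ⟨hv, hs, fun u' hu' hne => ?_⟩
      exact hnt (g u') (Finset.mem_map.mpr ⟨u', hu', rfl⟩) (fun h => hne (g.injective h))
    · rintro ⟨v, hv, rfl⟩
      obtain ⟨hv1, hs, hnt⟩ := mem_actList.mp hv
      refine ⟨Finset.mem_map.mpr ⟨v, hv1, rfl⟩, hs, ?_⟩
      intro u' hu' hne
      obtain ⟨w, hw, rfl⟩ := Finset.mem_map.mp hu'
      exact hnt w hw (fun h => hne (congrArg g h))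
  have hperm : (actList (W.map (autE g)) t s).Perm ((actList W (t ∘ g) s).map g) :=
    (List.perm_ext_iff_of_nodup (nodup_actList _ _ _) hnodup2).mpr hmem
  haveI : Std.Total (fun a b : V => t a ≤ t b) := ⟨fun a b => le_total _ _⟩
  haveI : IsTrans V (fun a b : V => t a ≤ t b) := ⟨fun _ _ _ => le_trans⟩
  haveI : Std.Total (fun a b : V => (t ∘ g) a ≤ (t ∘ g) b) := ⟨fun a b => le_total _ _⟩
  haveI : IsTrans V (fun a b : V => (t ∘ g) a ≤ (t ∘ g) b) := ⟨fun _ _ _ => le_trans⟩
  refine List.Perm.eq_of_pairwise (le := fun a b : V => t a ≤ t b) ?_ ?_ ?_ hperm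
  · intro a b ha hb hab hba
    by_contra hne
    obtain ⟨ha1, _, hnt⟩ := mem_actList.mp ha
    have hb' := (hmem b).mpr hb
    obtain ⟨hb1, _, _⟩ := mem_actList.mp hb'
    exact hnt b hb1 (fun h => hne h.symm) (le_antisymm hba hab)
  · exact List.pairwise_insertionSort _ _
  · rw [List.pairwise_map]
    exact List.pairwise_insertionSort (fun a b : V => (t ∘ g) a ≤ (t ∘ g) b) _

theorem fieldStart_comp_aut (g : G ≃g G) (θ : ℝ) (W : Finset V) (N : ℤ) (x : Om V) (n : ℕ) :
    fieldStart G θ W N (x ∘ g) n = fieldStart G θ (W.map (autE g)) N x n ∘ g := by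
  induction n with
  | zero => rfl
  | succ n ih =>
    simp only [fieldStart, runSweep]
    rw [actList_map, ih]
    exact foldl_comp g θ W (eps (N + n)) (fun v => uOf x v (N + n))
      (actList W ((fun v => tOf x v (N + n)) ∘ g) (1 / 2)) (fieldStart G θ (W.map (autE g)) N x n)

theorem fieldAt_comp_aut' (g : G ≃g G) (θ : ℝ) (W : Finset V) (N : ℤ) (x : Om V) (j : ℤ) (s : ℝ) :
    fieldAt G θ W N (x ∘ g) j s = fieldAt G θ (W.map (autE g)) N x j s ∘ g := by
  simp only [fieldAt, runSweep]
  rw [actList_map, fieldStart_comp_aut]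
  have h := foldl_comp g θ W (eps j) (fun v => uOf x v j)
    (actList W ((fun v => tOf x v j) ∘ g) s) (fieldStart G θ (W.map (autE g)) N x (j - N).toNat)
  exact h

end Equivariance

end DynE

end Crest.Agent.Lib.IsingFIID
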