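/-
S0241 blueprint, Mod E: resampling tools: noise/time coordinates, partition according to the action list, ties.
-/
import Crest.Agent.Lib.IsingFIID.DynEquiv

set_option autoImplicit false
universe u

namespace Crest.Agent.Lib.IsingFIID

namespace DynE

open MeasureTheory Filter Set
open scoped Classical Topology

variable {V : Type u} {G : SimpleGraph V} [G.LocallyFinite] {D : ℕ}

/-! ### the value of `updCoord` -/

theorem updCoord_self (x : Om V) (v : V) (i : ℤ × Bool) (a : unitInterval) :
    updCoord x v i a v i = a := by
  simp [updCoord]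

theorem updCoord_ne_vertex (x : Om V) {v w : V} (i k : ℤ × Bool) (a : unitInterval) (h : w ≠ v) :
    updCoord x v i a w k = x w k := by
  simp [updCoord, Function.update_of_ne h]

theorem updCoord_ne_coord (x : Om V) {v w : V} {i k : ℤ × Bool} (a : unitInterval) (h : k ≠ i) :
    updCoord x v i a w k = x w k := by
  by_cases hw : w = v
  · subst hw
    simp [updCoord, Function.update_of_ne h]
  · exact updCoord_ne_vertex x i k a hw

theorem tOf_updCoord_ne (x : Om V) {v w : V} {j k : ℤ} {b : Bool} (a : unitInterval)
    (h : (k, false) ≠ (j, b) ∨ w ≠ v) : tOf (updCoord x v (j, b) a) w k = tOf x w k := by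
  unfold tOf
  rcases h with h | h
  · rw [updCoord_ne_coord x a h]
  · rw [updCoord_ne_vertex x _ _ a h]

theorem uOf_updCoord_ne (x : Om V) {v w : V} {j k : ℤ} {b : Bool} (a : unitInterval)
    (h : (k, true) ≠ (j, b) ∨ w ≠ v) : uOf (updCoord x v (j, b) a) w k = uOf x w k := by
  unfold uOf
  rcases h with h | h
  · rw [updCoord_ne_coord x a h]
  · rw [updCoord_ne_vertex x _ _ a h]

/-! ### the resampling identity -/

/-- Integrating the value of one coordinate. -/
theorem integral_om_coord {u : V} {i : ℤ × Bool} {H : Om V → unitInterval → ℝ}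
    (hm : Measurable (Function.uncurry H)) (hb : ∃ C, ∀ x a, |H x a| ≤ C)
    (hdep : ∀ x b a, H (updCoord x u i b) a = H x a) :
    ∫ x, H x (x u i) ∂(omP V) = ∫ x, ∫ a : unitInterval, H x a ∂volume ∂(omP V) := by
  obtain ⟨C, hC⟩ := hb
  have hG : Measurable fun x : Om V => H x (x u i) :=
    hm.comp (measurable_id.prodMk ((measurable_pi_apply i).comp (measurable_pi_apply u)))
  have hint : Integrable (fun x : Om V => H x (x u i)) (omP V) :=
    Integrable.of_bound hG.aestronglyMeasurable C (Eventually.of_forall fun x => by simpa using hC x _)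
  rw [integral_updCoord u i hint]
  refine integral_congr_ae (Eventually.of_forall fun x => ?_)
  refine integral_congr_ae (Eventually.of_forall fun a => ?_)
  simp only [updCoord_self, hdep]

/-- Integrability of bounded measurable functions on the label space. -/
theorem integrable_of_bdd {F : Om V → ℝ} (hF : Measurable F) {C : ℝ} (hC : ∀ x, |F x| ≤ C) :
    Integrable F (omP V) :=
  Integrable.of_bound hF.aestronglyMeasurable C (Eventually.of_forall fun x => by simpa using hC x)

theorem integrable_unit_of_bdd {F : unitInterval → ℝ} (hF : Measurable F) {C : ℝ} (hC : ∀ x, |F x| ≤ C) :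
    Integrable F (volume : Measure unitInterval) :=
  Integrable.of_bound hF.aestronglyMeasurable C (Eventually.of_forall fun x => by simpa using hC x)

/-- The integral over the unit interval of a function of the coordinate. -/
theorem integral_unit_eq {g : ℝ → ℝ} :
    ∫ a : unitInterval, g (a : ℝ) ∂volume = ∫ U in (0 : ℝ)..1, g U := integral_unitInterval

/-! ### action lists: partition -/

/-- All lists of vertices of `W` without repetition, as a finite set. -/
noncomputable def listsOf (W : Finset V) : Finset (List V) :=
  W.powerset.biUnion fun A => A.toList.permutations.toFinset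

theorem actList_mem_listsOf (W : Finset V) (t : V → ℝ) (s : ℝ) : actList W t s ∈ listsOf W := by
  unfold listsOf
  rw [Finset.mem_biUnion]
  refine ⟨W.filter fun u => t u < s ∧ ∀ u' ∈ W, u' ≠ u → t u' ≠ t u, ?_, ?_⟩
  · exact Finset.mem_powerset.mpr (Finset.filter_subset _ _)
  · rw [List.mem_toFinset, List.mem_permutations]
    exact perm_actList W t s

theorem mem_listsOf_iff {W : Finset V} {L : List V} (hL : L ∈ listsOf W) : L.Nodup ∧ ∀ u ∈ L, u ∈ W := by
  unfold listsOf at hL
  rw [Finset.mem_biUnion] at hL
  obtain ⟨A, hA, hLA⟩ := hL
  rw [List.mem_toFinset, List.mem_permutations] at hLA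
  refine ⟨hLA.nodup_iff.mpr (Finset.nodup_toList _), fun u hu => ?_⟩
  have : u ∈ A := Finset.mem_toList.mp (hLA.mem_iff.mp hu)
  exact Finset.mem_powerset.mp hA this

theorem measurableSet_actList_eq {Ω : Type*} [MeasurableSpace Ω] (W : Finset V)
    {t : Ω → V → ℝ} (ht : ∀ v ∈ W, Measurable fun x => t x v) {s : Ω → ℝ} (hs : Measurable s) (L : List V) :
    MeasurableSet {x | actList W (t x) (s x) = L} := by
  have h : Measurable fun x => (if actList W (t x) (s x) = L then (1:ℝ) else 0) :=
    measurable_of_actList (H := fun L' _ => if L' = L then (1:ℝ) else 0) W ht hs (fun _ => measurable_const)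
  have : {x | actList W (t x) (s x) = L} = (fun x => (if actList W (t x) (s x) = L then (1:ℝ) else 0)) ⁻¹' {1} := by
    ext x
    by_cases hx : actList W (t x) (s x) = L <;> simp [hx]
  rw [this]
  exact h (measurableSet_singleton _)

/-- Splitting an integral according to the value of the action list. -/
theorem integral_split_actList (W : Finset V) {t : Om V → V → ℝ} (ht : ∀ v ∈ W, Measurable fun x => t x v)
    {s : ℝ} {F : List V → Om V → ℝ} (hF : ∀ L, Measurable (F L)) {C : ℝ} (hC : ∀ L ∈ listsOf W, ∀ x, |F L x| ≤ C) :
    ∫ x, F (actList W (t x) s) x ∂(omP V) =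
      ∑ L ∈ listsOf W, ∫ x, (if actList W (t x) s = L then (1:ℝ) else 0) * F L x ∂(omP V) := by
  rw [← integral_finset_sum]
  · refine integral_congr_ae (Eventually.of_forall fun x => ?_)
    simp only
    rw [Finset.sum_eq_single (actList W (t x) s)]
    · simp
    · intro L _ hL
      simp [Ne.symm hL]
    · intro h
      exact absurd (actList_mem_listsOf W _ _) h
  · intro L hL
    have hE : Measurable fun x => (if actList W (t x) s = L then (1:ℝ) else 0) :=
      measurable_of_actList (H := fun L' _ => if L' = L then (1:ℝ) else 0) W ht measurable_const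
        (fun _ => measurable_const)
    refine integrable_of_bdd (hE.mul (hF L)) (C := |C|) fun x => ?_
    by_cases h : actList W (t x) s = L
    · simpa [h] using (hC L hL x).trans (le_abs_self C)
    · simp [h]

/-! ### ties have probability zero -/

theorem ae_tOf_ne (j : ℤ) {u u' : V} (h : u' ≠ u) : ∀ᵐ x ∂(omP V), tOf x u' j ≠ tOf x u j := by
  have hmeas : MeasurableSet {x : Om V | tOf x u' j = tOf x u j} :=
    measurableSet_eq_fun (measurable_tOf u' j) (measurable_tOf u j)
  have hint : ∫ x, (if tOf x u' j = tOf x u j then (1:ℝ) else 0) ∂(omP V) = 0 := by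
    have key := integral_om_coord (u := u') (i := (j, false))
      (H := fun x a => if (a : ℝ) = tOf x u j then (1:ℝ) else 0) ?_ ⟨1, fun x a => ?_⟩ ?_
    · have e1 : (fun x : Om V => (if ((x u' (j, false) : unitInterval) : ℝ) = tOf x u j then (1:ℝ) else 0))
          = fun x => (if tOf x u' j = tOf x u j then (1:ℝ) else 0) := rfl
      rw [e1] at key
      rw [key]
      have : ∀ x : Om V, ∫ a : unitInterval, (if (a : ℝ) = tOf x u j then (1:ℝ) else 0) ∂volume = 0 := by
        intro x
        have hx : (fun a : unitInterval => if (a : ℝ) = tOf x u j then (1:ℝ) else 0) =ᵐ[volume] 0 := by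
          have hnull : (volume : Measure unitInterval) {a | (a : ℝ) = tOf x u j} = 0 := by
            by_cases hc : tOf x u j ∈ Set.Icc (0:ℝ) 1
            · have : {a : unitInterval | (a : ℝ) = tOf x u j} = {⟨tOf x u j, hc⟩} := by
                ext a
                simp [Subtype.ext_iff]
              rw [this]
              exact measure_singleton _
            · have : {a : unitInterval | (a : ℝ) = tOf x u j} = ∅ := by
                ext a
                simp only [mem_setOf_eq, mem_empty_iff_false, iff_false]
                intro ha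
                exact hc (ha ▸ a.2)
              rw [this]
              exact measure_empty
          filter_upwards [compl_mem_ae_iff.mpr hnull] with a ha
          have : (a : ℝ) ≠ tOf x u j := ha
          simp [this]
        rw [integral_congr_ae hx]
        simp
      simp [this]
    · have hm : Measurable fun p : Om V × unitInterval => ((p.2 : ℝ) : ℝ) :=
        measurable_subtype_coe.comp measurable_snd
      have hm2 : Measurable fun p : Om V × unitInterval => tOf p.1 u j :=
        (measurable_tOf u j).comp measurable_fst
      have hset : MeasurableSet {p : Om V × unitInterval | (p.2 : ℝ) = tOf p.1 u j} :=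
        measurableSet_eq_fun hm hm2
      exact Measurable.ite hset measurable_const measurable_const
    · by_cases h' : (a : ℝ) = tOf x u j <;> simp [h']
    · intro x b a
      rw [tOf_updCoord_ne x b (Or.inr h.symm)]
  have hnn : 0 ≤ᵐ[omP V] fun x : Om V => (if tOf x u' j = tOf x u j then (1:ℝ) else 0) :=
    Eventually.of_forall fun x => by
      by_cases h' : tOf x u' j = tOf x u j <;> simp [h']
  have hi : Integrable (fun x : Om V => (if tOf x u' j = tOf x u j then (1:ℝ) else 0)) (omP V) := by
    refine integrable_of_bdd (Measurable.ite hmeas measurable_const measurable_const) (C := 1) fun x => ?_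
    by_cases h' : tOf x u' j = tOf x u j <;> simp [h']
  have hz := (integral_eq_zero_iff_of_nonneg_ae hnn hi).mp hint
  filter_upwards [hz] with x hx
  intro he
  simp [he] at hx

/-- Almost surely, no ties on a finite set. -/
theorem ae_no_ties (W : Finset V) (j : ℤ) :
    ∀ᵐ x ∂(omP V), ∀ u ∈ W, ∀ u' ∈ W, u' ≠ u → tOf x u' j ≠ tOf x u j := by
  have : ∀ u ∈ W, ∀ᵐ x ∂(omP V), ∀ u' ∈ W, u' ≠ u → tOf x u' j ≠ tOf x u j := by
    intro u _
    rw [Finset.eventually_all]
    intro u' _
    by_cases h : u' = u
    · simp [h]
    · have := ae_tOf_ne (V := V) j h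
      filter_upwards [this] with x hx _
      exact hx
  exact (Finset.eventually_all W).mpr this

end DynE

end Crest.Agent.Lib.IsingFIID
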