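/-
S0241 blueprint, Mod E: martingale property (E1) and decay of `√(1-m²)` (E2).
-/
import Crest.Agent.Lib.IsingFIID.DynNoise

set_option autoImplicit false
universe u

namespace Crest.Agent.Lib.IsingFIID

namespace DynE

open MeasureTheory Filter Set
open scoped Classical Topology

variable {V : Type u} {G : SimpleGraph V} [G.LocallyFinite] {D : ℕ}

/-! ### no dependence on later labels -/

theorem foldl_updCoord_noise {L : List V} {j : ℤ} {u : V} (hu : u ∉ L) (θ : ℝ) (W : Finset V) (ε : ℝ)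
    (x : Om V) (a : unitInterval) (ℓ : V → ℝ) :
    L.foldl (fun ℓ' w => actStep G θ W ε ℓ' w (uOf (updCoord x u (j, true) a) w j)) ℓ =
      L.foldl (fun ℓ' w => actStep G θ W ε ℓ' w (uOf x w j)) ℓ := by
  induction L generalizing ℓ with
  | nil => rfl
  | cons w L ih =>
    simp only [List.foldl_cons]
    have hne : w ≠ u := fun h => hu (by simp [h])
    rw [uOf_updCoord_ne x a (Or.inr hne)]
    exact ih (fun h => hu (by simp [h])) _

theorem runSweep_labels_congr {θ : ℝ} {W : Finset V} {ε : ℝ} {t t' U U' : V → ℝ} {s : ℝ} {ℓ : V → ℝ}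
    (ht : t = t') (hU : U = U') :
    runSweep G θ W ε t U s ℓ = runSweep G θ W ε t' U' s ℓ := by
  subst ht hU; rfl

theorem fieldStart_updCoord {θ : ℝ} {W : Finset V} {N k : ℤ} {b : Bool} (u : V) (x : Om V) (a : unitInterval)
    (n : ℕ) (hn : N + n ≤ k) :
    fieldStart G θ W N (updCoord x u (k, b) a) n = fieldStart G θ W N x n := by
  induction n with
  | zero => rfl
  | succ n ih =>
    simp only [fieldStart]
    have hn' : N + (n : ℤ) < k := by push_cast at hn; omega
    rw [ih (by omega)]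
    have hne1 : ∀ w, tOf (updCoord x u (k, b) a) w (N + n) = tOf x w (N + n) := fun w =>
      tOf_updCoord_ne x a (Or.inl (by simp [hn'.ne]))
    have hne2 : ∀ w, uOf (updCoord x u (k, b) a) w (N + n) = uOf x w (N + n) := fun w =>
      uOf_updCoord_ne x a (Or.inl (by simp [hn'.ne]))
    simp only [hne1, hne2]

theorem actList_updCoord_noise (W : Finset V) (u : V) (j : ℤ) (x : Om V) (a : unitInterval) (s : ℝ) :
    actList W (fun v => tOf (updCoord x u (j, true) a) v j) s = actList W (fun v => tOf x v j) s := by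
  have : ∀ w, tOf (updCoord x u (j, true) a) w j = tOf x w j := fun w =>
    tOf_updCoord_ne x a (Or.inl (by simp))
  simp only [this]

/-! ### one step -/

section Step

variable {θ : ℝ} {W : Finset V} (hG : RegTree G D) (hθ0 : 0 ≤ θ) (hθ1 : θ < 1) (hW : IsConvexSet G W)
  (hne : W.Nonempty)
include hG hθ0 hθ1 hW hne

theorem gibbs_actStep {ε : ℝ} (hε0 : 0 ≤ ε) (hε : ε ≤ 1 / 4) {ℓ : V → ℝ} (hℓ : ∀ v, |ℓ v| < 1) {u : V}
    (hu : u ∈ W) {U : ℝ} (hU : U ∈ Icc (0:ℝ) 1) (f : Finset V → ℝ) :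
    gibbs G θ (actStep G θ W ε ℓ u U) W f =
      gibbs G θ ℓ W f + rhoFn ε (mag G θ ℓ W u) U * covG G θ ℓ W f (fun A => spin A u) := by
  have hm := abs_mag_lt hG hθ0 hθ1 hℓ hW hne hu
  have ha := abs_eps_chanT_le hε0 hε hm.le hU
  unfold actStep rhoFn
  exact gibbs_update hG hθ0 hθ1 hℓ hW hne hu (by linarith) f

end Step

/-- integrals of `ρ` over the unit interval -/
theorem integrable_unit_rho {ε m : ℝ} (hε0 : 0 ≤ ε) (hε : ε ≤ 1 / 4) (hm : |m| ≤ 1) :
    Integrable (fun a : unitInterval => rhoFn ε m a) volume := by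
  refine integrable_unit_of_bdd (C := 2 * ε) ?_ fun a => rhoFn_bound hε0 (by linarith) hm a.2
  exact measurable_rhoFn.comp (measurable_const.prodMk (measurable_const.prodMk measurable_subtype_coe))

theorem integral_unit_rho {ε m : ℝ} (hε0 : 0 ≤ ε) (hε : ε ≤ 1 / 4) (hm : |m| ≤ 1) :
    ∫ a : unitInterval, rhoFn ε m a ∂volume = 0 := by
  rw [integral_unit_eq (g := fun U => rhoFn ε m U)]
  exact integral_rhoFn hε0 (by linarith) hm

/-- boundedness of Gibbs expectations -/
theorem exists_bound_fun (W : Finset V) (f : Finset V → ℝ) : ∃ C, 0 ≤ C ∧ ∀ A ∈ W.powerset, |f A| ≤ C := by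
  refine ⟨∑ A ∈ W.powerset, |f A|, Finset.sum_nonneg fun _ _ => abs_nonneg _, fun A hA => ?_⟩
  exact Finset.single_le_sum (f := fun A => |f A|) (fun _ _ => abs_nonneg _) hA

/-! ### E1 -/

theorem fieldAt_zero' {θ : ℝ} {W : Finset V} {N j : ℤ} (x : Om V) :
    fieldAt G θ W N x j 0 = fieldStart G θ W N x (j - N).toNat := by
  simp only [fieldAt, runSweep]
  rw [actList_zero W (fun v => (tOf_mem x v j).1)]
  rfl

section E1

variable {θ : ℝ} {W : Finset V} (hG : RegTree G D) (hθ0 : 0 ≤ θ) (hθ1 : θ < 1) (hW : IsConvexSet G W)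
  (hne : W.Nonempty)
include hG hθ0 hθ1 hW hne

/-- noise integration along a fixed list of distinct vertices -/
theorem integral_foldl_gibbs (j : ℤ) {ε : ℝ} (hε0 : 0 ≤ ε) (hε : ε ≤ 1 / 4) (L : List V) (hnd : L.Nodup)
    (hL : ∀ u ∈ L, u ∈ W) {E : Om V → ℝ} (hEm : Measurable E) (hEb : ∃ C, ∀ x, |E x| ≤ C)
    (hEdep : ∀ u ∈ L, ∀ x a, E (updCoord x u (j, true) a) = E x) {ℓ₀ : Om V → V → ℝ} (hℓm : Measurable ℓ₀)
    (hℓb : ∀ x v, |ℓ₀ x v| < 1) (hℓdep : ∀ u ∈ L, ∀ x a, ℓ₀ (updCoord x u (j, true) a) = ℓ₀ x)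
    (f : Finset V → ℝ) :
    ∫ x, E x * gibbs G θ (L.foldl (fun ℓ' w => actStep G θ W ε ℓ' w (uOf x w j)) (ℓ₀ x)) W f ∂(omP V) =
      ∫ x, E x * gibbs G θ (ℓ₀ x) W f ∂(omP V) := by
  induction L using List.reverseRecOn with
  | nil => rfl
  | append_singleton L u ih =>
    have hnd' : L.Nodup := (List.nodup_append.mp hnd).1
    have hu : u ∉ L := fun h => by
      have := (List.nodup_append.mp hnd).2.2 u h u (by simp)
      exact this rfl
    have hL' : ∀ w ∈ L, w ∈ W := fun w hw => hL w (by simp [hw])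
    have huW : u ∈ W := hL u (by simp)
    rw [← ih hnd' hL' (fun w hw => hEdep w (by simp [hw])) (fun w hw => hℓdep w (by simp [hw]))]
    simp only [List.foldl_append, List.foldl_cons, List.foldl_nil]
    set F : Om V → V → ℝ := fun x => L.foldl (fun ℓ' w => actStep G θ W ε ℓ' w (uOf x w j)) (ℓ₀ x) with hF
    have hFm : Measurable F := measurable_foldl W ε (fun u => measurable_uOf u j) L hℓm
    have hFb : ∀ x v, |F x v| < 1 := fun x v =>
      abs_foldl_lt hG hθ0 hθ1 hW hne hε0 hε (fun w => uOf_mem x w j) L hL' (hℓb x) v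
    have hFdep : ∀ x a, F (updCoord x u (j, true) a) = F x := by
      intro x a
      simp only [hF]
      rw [hℓdep u (by simp) x a]
      exact foldl_updCoord_noise hu θ W ε x a _
    obtain ⟨CE, hCE⟩ := hEb
    obtain ⟨Cf, hCf0, hCf⟩ := exists_bound_fun W f
    have hcoord := integral_om_coord (u := u) (i := (j, true))
      (H := fun x a => E x * gibbs G θ (actStep G θ W ε (F x) u a) W f) ?_ ⟨CE * Cf, fun x a => ?_⟩ ?_
    · have e1 : ∀ x : Om V, uOf x u j = ((x u (j, true) : unitInterval) : ℝ) := fun x => rfl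
      simp only [e1]
      rw [hcoord]
      refine integral_congr_ae (Eventually.of_forall fun x => ?_)
      simp only
      have hFx := hFb x
      have hm : |mag G θ (F x) W u| ≤ 1 := (abs_mag_lt hG hθ0 hθ1 hFx hW hne huW).le
      have : ∀ a : unitInterval, E x * gibbs G θ (actStep G θ W ε (F x) u a) W f =
          E x * gibbs G θ (F x) W f +
            (E x * covG G θ (F x) W f (fun A => spin A u)) * rhoFn ε (mag G θ (F x) W u) a := by
        intro a
        rw [gibbs_actStep hG hθ0 hθ1 hW hne hε0 hε hFx huW a.2]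
        ring
      simp_rw [this]
      rw [integral_add (integrable_const _) ((integrable_unit_rho hε0 hε hm).const_mul _),
        integral_const, integral_const_mul (E x * covG G θ (F x) W f fun A => spin A u),
        integral_unit_rho hε0 hε hm]
      simp [hF]
    · refine Measurable.mul (hEm.comp measurable_fst) ?_
      refine (measurable_gibbs_field W f).comp ?_
      exact (measurable_actStep W ε u).comp
        ((hFm.comp measurable_fst).prodMk (measurable_subtype_coe.comp measurable_snd))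
    · rw [abs_mul]
      have h1 := hCE x
      have hb := abs_actStep_lt hG hθ0 hθ1 hW hne hε0 hε (hFb x) huW a.2
      have h2 := abs_gibbs_le hG hθ0 hθ1 hb hW hne hCf
      exact mul_le_mul h1 h2 (abs_nonneg _) ((abs_nonneg _).trans h1)
    · intro x b a
      rw [hEdep u (by simp) x b, hFdep x b]

/-- E1 for one sweep. -/
theorem integral_runSweep_gibbs (j : ℤ) (s : ℝ) {ε : ℝ} (hε0 : 0 ≤ ε) (hε : ε ≤ 1 / 4)
    {ℓ₀ : Om V → V → ℝ} (hℓm : Measurable ℓ₀) (hℓb : ∀ x v, |ℓ₀ x v| < 1)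
    (hℓdep : ∀ u x a, ℓ₀ (updCoord x u (j, true) a) = ℓ₀ x) (f : Finset V → ℝ) :
    ∫ x, gibbs G θ (runSweep G θ W ε (fun v => tOf x v j) (fun v => uOf x v j) s (ℓ₀ x)) W f ∂(omP V) =
      ∫ x, gibbs G θ (ℓ₀ x) W f ∂(omP V) := by
  obtain ⟨Cf, hCf0, hCf⟩ := exists_bound_fun W f
  have ht : ∀ v ∈ W, Measurable fun x : Om V => (fun v => tOf x v j) v := fun v _ => measurable_tOf v j
  have h1 := integral_split_actList (s := s) (C := Cf) W ht
    (F := fun L x => gibbs G θ (L.foldl (fun ℓ' w => actStep G θ W ε ℓ' w (uOf x w j)) (ℓ₀ x)) W f)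
    (fun L => (measurable_gibbs_field W f).comp (measurable_foldl W ε (fun u => measurable_uOf u j) L hℓm))
    (fun L hL x => abs_gibbs_le hG hθ0 hθ1
      (abs_foldl_lt hG hθ0 hθ1 hW hne hε0 hε (fun w => uOf_mem x w j) L (mem_listsOf_iff hL).2 (hℓb x))
      hW hne hCf)
  have h2 := integral_split_actList (s := s) (C := Cf) W ht
    (F := fun _ x => gibbs G θ (ℓ₀ x) W f)
    (fun _ => (measurable_gibbs_field W f).comp hℓm)
    (fun L _ x => abs_gibbs_le hG hθ0 hθ1 (hℓb x) hW hne hCf)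
  unfold runSweep
  rw [h1]
  refine Eq.trans ?_ h2.symm
  refine Finset.sum_congr rfl fun L hL => ?_
  refine integral_foldl_gibbs hG hθ0 hθ1 hW hne j hε0 hε L (mem_listsOf_iff hL).1 (mem_listsOf_iff hL).2 ?_
    ⟨1, fun x => ?_⟩ ?_ hℓm hℓb (fun u _ x a => hℓdep u x a) f
  · exact measurable_of_actList (H := fun L' _ => if L' = L then (1:ℝ) else 0) W ht measurable_const
      (fun _ => measurable_const)
  · by_cases h : actList W (fun v => tOf x v j) s = L <;> simp [h]
  · intro u _ x a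
    rw [actList_updCoord_noise]

/-- E1 at the beginning of a sweep -/
theorem integral_fieldStart_gibbs (N : ℤ) (n : ℕ) (f : Finset V → ℝ) :
    ∫ x, gibbs G θ (fieldStart G θ W N x n) W f ∂(omP V) = gibbs G θ (fun _ => 0) W f := by
  induction n with
  | zero => simp [fieldStart]
  | succ n ih =>
    simp only [fieldStart]
    rw [integral_runSweep_gibbs hG hθ0 hθ1 hW hne (N + n) (1 / 2) (eps_pos _).le (eps_le _)
      (measurable_fieldStart W N n) (fun x v => abs_fieldStart_lt hG hθ0 hθ1 hW hne N x n v)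
      (fun u x a => fieldStart_updCoord u x a n le_rfl) f]
    exact ih

/-- (E1) martingale property. -/
theorem integral_gibbs_fieldAt' {N j : ℤ} (hN : N ≤ j) (s : ℝ) (f : Finset V → ℝ) :
    ∫ x, gibbs G θ (fieldAt G θ W N x j s) W f ∂(omP V) = gibbs G θ (fun _ => 0) W f := by
  simp only [fieldAt]
  rw [integral_runSweep_gibbs hG hθ0 hθ1 hW hne j s (eps_pos _).le (eps_le _)
    (measurable_fieldStart W N _) (fun x v => abs_fieldStart_lt hG hθ0 hθ1 hW hne N x _ v)
    (fun u x a => fieldStart_updCoord u x a _ (by omega)) f]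
  exact integral_fieldStart_gibbs hG hθ0 hθ1 hW hne N _ f

/-- E1 for one sweep, with a test function. -/
theorem integral_mul_runSweep_gibbs (j : ℤ) (s : ℝ) {ε : ℝ} (hε0 : 0 ≤ ε) (hε : ε ≤ 1 / 4)
    {E : Om V → ℝ} (hEm : Measurable E) (hEb : ∃ C, ∀ x, |E x| ≤ C)
    (hEdep : ∀ u x a, E (updCoord x u (j, true) a) = E x)
    {ℓ₀ : Om V → V → ℝ} (hℓm : Measurable ℓ₀) (hℓb : ∀ x v, |ℓ₀ x v| < 1)
    (hℓdep : ∀ u x a, ℓ₀ (updCoord x u (j, true) a) = ℓ₀ x) (f : Finset V → ℝ) :
    ∫ x, E x * gibbs G θ (runSweep G θ W ε (fun v => tOf x v j) (fun v => uOf x v j) s (ℓ₀ x)) W f ∂(omP V) =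
      ∫ x, E x * gibbs G θ (ℓ₀ x) W f ∂(omP V) := by
  obtain ⟨Cf, hCf0, hCf⟩ := exists_bound_fun W f
  obtain ⟨CE, hCE⟩ := hEb
  have ht : ∀ v ∈ W, Measurable fun x : Om V => (fun v => tOf x v j) v := fun v _ => measurable_tOf v j
  have h1 := integral_split_actList (s := s) (C := CE * Cf) W ht
    (F := fun L x => E x * gibbs G θ (L.foldl (fun ℓ' w => actStep G θ W ε ℓ' w (uOf x w j)) (ℓ₀ x)) W f)
    (fun L => hEm.mul ((measurable_gibbs_field W f).comp (measurable_foldl W ε (fun u => measurable_uOf u j) L hℓm)))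
    (fun L hL x => by
      rw [abs_mul]
      exact mul_le_mul (hCE x) (abs_gibbs_le hG hθ0 hθ1
        (abs_foldl_lt hG hθ0 hθ1 hW hne hε0 hε (fun w => uOf_mem x w j) L (mem_listsOf_iff hL).2 (hℓb x))
        hW hne hCf) (abs_nonneg _) ((abs_nonneg _).trans (hCE x)))
  have h2 := integral_split_actList (s := s) (C := CE * Cf) W ht
    (F := fun _ x => E x * gibbs G θ (ℓ₀ x) W f)
    (fun _ => hEm.mul ((measurable_gibbs_field W f).comp hℓm))
    (fun L _ x => by
      rw [abs_mul]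
      exact mul_le_mul (hCE x) (abs_gibbs_le hG hθ0 hθ1 (hℓb x) hW hne hCf) (abs_nonneg _)
        ((abs_nonneg _).trans (hCE x)))
  unfold runSweep
  rw [h1]
  refine Eq.trans ?_ h2.symm
  refine Finset.sum_congr rfl fun L hL => ?_
  have e : ∀ G' : Om V → ℝ, (∫ x, (if actList W (fun v => tOf x v j) s = L then (1:ℝ) else 0) * (E x * G' x) ∂(omP V)) =
      ∫ x, ((if actList W (fun v => tOf x v j) s = L then (1:ℝ) else 0) * E x) * G' x ∂(omP V) :=
    fun G' => integral_congr_ae (Eventually.of_forall fun x => by simp only; ring)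
  rw [e, e]
  refine integral_foldl_gibbs hG hθ0 hθ1 hW hne j hε0 hε L (mem_listsOf_iff hL).1 (mem_listsOf_iff hL).2 ?_
    ⟨1 * CE, fun x => ?_⟩ ?_ hℓm hℓb (fun u _ x a => hℓdep u x a) f
  · exact (measurable_of_actList (H := fun L' _ => if L' = L then (1:ℝ) else 0) W ht measurable_const
      (fun _ => measurable_const)).mul hEm
  · rw [abs_mul]
    refine mul_le_mul ?_ (hCE x) (abs_nonneg _) zero_le_one
    by_cases h : actList W (fun v => tOf x v j) s = L <;> simp [h]
  · intro u _ x a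
    rw [actList_updCoord_noise, hEdep]

/-- tower property along sweeps. -/
theorem integral_mul_fieldAt_gibbs {N j j' : ℤ} (hN : N ≤ j) (hjj' : j ≤ j') {E : Om V → ℝ} (hEm : Measurable E)
    (hEb : ∃ C, ∀ x, |E x| ≤ C) (hEdep : ∀ k, j ≤ k → ∀ u x a, E (updCoord x u (k, true) a) = E x)
    (f : Finset V → ℝ) :
    ∫ x, E x * gibbs G θ (fieldAt G θ W N x j' 0) W f ∂(omP V) =
      ∫ x, E x * gibbs G θ (fieldAt G θ W N x j 0) W f ∂(omP V) := by
  obtain ⟨n, rfl⟩ : ∃ n : ℕ, j' = j + n := ⟨(j' - j).toNat, by omega⟩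
  induction n with
  | zero => simp
  | succ n ih =>
    have hij : j ≤ j + (n : ℤ) := by omega
    rw [← ih (by omega)]
    have e : j + ((n + 1 : ℕ) : ℤ) = (j + n) + 1 := by push_cast; ring
    rw [e]
    have hh : ∀ x, fieldAt G θ W N x (j + n + 1) 0 = fieldAt G θ W N x (j + n) (1 / 2) := fun x =>
      (fieldAt_half' x (by omega)).symm
    simp only [hh]
    simp only [fieldAt_zero']
    simp only [fieldAt]
    exact integral_mul_runSweep_gibbs hG hθ0 hθ1 hW hne (j + n) (1 / 2) (eps_pos _).le (eps_le _) hEm hEb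
      (hEdep _ hij) (measurable_fieldStart W N _) (fun x v => abs_fieldStart_lt hG hθ0 hθ1 hW hne N x _ v)
      (fun u x a => fieldStart_updCoord u x a _ (by omega)) f

/-- (E1') the martingale property, L² form. -/
theorem integral_sq_gibbs_sub' {N j : ℤ} (hN : N ≤ j) {j' : ℤ} (hjj' : j ≤ j') (f : Finset V → ℝ) :
    ∫ x, (gibbs G θ (fieldAt G θ W N x j' 0) W f - gibbs G θ (fieldAt G θ W N x j 0) W f) ^ 2 ∂(omP V) =
      ∫ x, gibbs G θ (fieldAt G θ W N x j' 0) W f ^ 2 ∂(omP V) -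
        ∫ x, gibbs G θ (fieldAt G θ W N x j 0) W f ^ 2 ∂(omP V) := by
  obtain ⟨Cf, hCf0, hCf⟩ := exists_bound_fun W f
  have hm : ∀ k : ℤ, Measurable fun x : Om V => gibbs G θ (fieldAt G θ W N x k 0) W f := fun k =>
    (measurable_gibbs_field W f).comp (measurable_fieldAt' W N k 0)
  have hb : ∀ (k : ℤ) (x : Om V), |gibbs G θ (fieldAt G θ W N x k 0) W f| ≤ Cf := fun k x =>
    abs_gibbs_le hG hθ0 hθ1 (fun v => abs_fieldAt_lt' hG hθ0 hθ1 hW hne N x k 0 v) hW hne hCf
  have hint : ∀ k k' : ℤ, Integrable (fun x : Om V => gibbs G θ (fieldAt G θ W N x k 0) W f *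
      gibbs G θ (fieldAt G θ W N x k' 0) W f) (omP V) := fun k k' =>
    integrable_of_bdd (C := Cf * Cf) ((hm k).mul (hm k')) fun x => by
      rw [abs_mul]
      exact mul_le_mul (hb k x) (hb k' x) (abs_nonneg _) hCf0
  have key := integral_mul_fieldAt_gibbs hG hθ0 hθ1 hW hne hN hjj' (E := fun x => gibbs G θ (fieldAt G θ W N x j 0) W f)
    (hm j) ⟨Cf, hb j⟩ (fun k hk u x a => by
      simp only [fieldAt_zero']
      rw [fieldStart_updCoord u x a _ (by omega)]) f
  have e1 : ∀ x, (gibbs G θ (fieldAt G θ W N x j' 0) W f - gibbs G θ (fieldAt G θ W N x j 0) W f) ^ 2 =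
      gibbs G θ (fieldAt G θ W N x j' 0) W f * gibbs G θ (fieldAt G θ W N x j' 0) W f -
        2 * (gibbs G θ (fieldAt G θ W N x j 0) W f * gibbs G θ (fieldAt G θ W N x j' 0) W f) +
        gibbs G θ (fieldAt G θ W N x j 0) W f * gibbs G θ (fieldAt G θ W N x j 0) W f := fun x => by ring
  simp only [e1]
  have i2 : Integrable (fun x : Om V => 2 * (gibbs G θ (fieldAt G θ W N x j 0) W f *
      gibbs G θ (fieldAt G θ W N x j' 0) W f)) (omP V) := (hint j j').const_mul 2
  have i12 : Integrable (fun x : Om V => gibbs G θ (fieldAt G θ W N x j' 0) W f *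
      gibbs G θ (fieldAt G θ W N x j' 0) W f - 2 * (gibbs G θ (fieldAt G θ W N x j 0) W f *
      gibbs G θ (fieldAt G θ W N x j' 0) W f)) (omP V) := (hint j' j').sub i2
  rw [integral_add i12 (hint j j), integral_sub (hint j' j') i2, integral_const_mul, key]
  simp only [sq]
  ring

end E1


/-! ### E2 -/

/-- the decay constant of `√(1-m²)` for an action at the vertex itself -/
noncomputable def kappaE (ε : ℝ) : ℝ := ∫ y in (-1 : ℝ)..1, Real.sqrt (1 - ε ^ 2 * y ^ 2) / 2

theorem kappaE_nonneg (ε : ℝ) : 0 ≤ kappaE ε := by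
  unfold kappaE
  refine intervalIntegral.integral_nonneg (by norm_num) fun y _ => ?_
  positivity

theorem kappaE_le_one (ε : ℝ) : kappaE ε ≤ 1 := by
  unfold kappaE
  have h : ∀ y ∈ Set.Icc (-1:ℝ) 1, Real.sqrt (1 - ε ^ 2 * y ^ 2) / 2 ≤ 1 / 2 := by
    intro y _
    have : Real.sqrt (1 - ε ^ 2 * y ^ 2) ≤ 1 := Real.sqrt_le_one.mpr (by nlinarith [sq_nonneg (ε * y)])
    linarith
  have hc : Continuous fun y : ℝ => Real.sqrt (1 - ε ^ 2 * y ^ 2) / 2 := by fun_prop
  have := intervalIntegral.integral_mono_on (μ := volume) (a := -1) (b := 1) (by norm_num)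
    (hc.intervalIntegrable _ _) (continuous_const.intervalIntegrable _ _) h
  simpa using this.trans (by simp; norm_num)

theorem kappaE_quarter_le : kappaE (1 / 4) ≤ 95 / 96 := by
  unfold kappaE
  have h : ∀ y ∈ Set.Icc (-1:ℝ) 1, Real.sqrt (1 - (1 / 4 : ℝ) ^ 2 * y ^ 2) / 2 ≤ (1 - y ^ 2 / 32) / 2 := by
    intro y hy
    have hy2 : y ^ 2 ≤ 1 := by
      have := abs_le.mpr hy
      nlinarith [sq_abs y, abs_nonneg y]
    have : Real.sqrt (1 - (1 / 4 : ℝ) ^ 2 * y ^ 2) ≤ 1 - y ^ 2 / 32 := by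
      refine Real.sqrt_le_iff.mpr ⟨by nlinarith, ?_⟩
      nlinarith [sq_nonneg (y ^ 2)]
    linarith
  have hc : Continuous fun y : ℝ => Real.sqrt (1 - (1 / 4 : ℝ) ^ 2 * y ^ 2) / 2 := by fun_prop
  have hc2 : Continuous fun y : ℝ => (1 - y ^ 2 / 32) / 2 := by fun_prop
  have h1 := intervalIntegral.integral_mono_on (μ := volume) (a := -1) (b := 1) (by norm_num)
    (hc.intervalIntegrable _ _) (hc2.intervalIntegrable _ _) h
  refine h1.trans (le_of_eq ?_)
  have : ∀ y : ℝ, (1 - y ^ 2 / 32) / 2 = 1 / 2 - (1 / 64) * y ^ 2 := fun y => by ring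
  simp_rw [this]
  rw [intervalIntegral.integral_sub (f := fun _ => (1 / 2 : ℝ)) (g := fun u => 1 / 64 * u ^ 2)
      intervalIntegrable_const ((continuous_const.mul (continuous_pow 2)).intervalIntegrable _ _),
    intervalIntegral.integral_const, intervalIntegral.integral_const_mul, integral_pow]
  norm_num

theorem sqrt_one_sub_sq_le {z m : ℝ} (hz : |z| ≤ 1) (hm : |m| < 1) :
    Real.sqrt (1 - z ^ 2) ≤ (1 - m * z) / Real.sqrt (1 - m ^ 2) := by
  have hm2 : m ^ 2 < 1 := by
    rw [← sq_abs]; nlinarith [abs_nonneg m]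
  have hz2 : z ^ 2 ≤ 1 := by
    rw [← sq_abs]; nlinarith [abs_nonneg z]
  have hpos : 0 < Real.sqrt (1 - m ^ 2) := Real.sqrt_pos.mpr (by linarith)
  rw [le_div_iff₀ hpos, ← Real.sqrt_mul (by linarith)]
  have hmz : 0 ≤ 1 - m * z := by
    have : |m * z| ≤ 1 := by
      rw [abs_mul]; nlinarith [abs_nonneg m, abs_nonneg z]
    linarith [(abs_le.mp this).2]
  refine Real.sqrt_le_iff.mpr ⟨hmz, ?_⟩
  nlinarith [sq_nonneg (z - m)]

theorem measurable_sqrt_cvar_field {θ : ℝ} (W : Finset V) (v : V) :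
    Measurable fun ℓ : V → ℝ => Real.sqrt (cvar G θ ℓ W v) := by
  refine Real.continuous_sqrt.measurable.comp ?_
  unfold cvar
  exact measurable_const.sub ((measurable_mag_field W v).pow_const 2)

theorem sqrt_cvar_bound {θ : ℝ} {W : Finset V} (ℓ : V → ℝ) (v : V) : |Real.sqrt (cvar G θ ℓ W v)| ≤ 1 := by
  rw [abs_of_nonneg (Real.sqrt_nonneg _)]
  refine Real.sqrt_le_one.mpr ?_
  simp only [cvar]
  nlinarith [sq_nonneg (mag G θ ℓ W v)]

section E2

variable {θ : ℝ} {W : Finset V} (hG : RegTree G D) (hθ0 : 0 ≤ θ) (hθ1 : θ < 1) (hW : IsConvexSet G W)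
  (hne : W.Nonempty)
include hG hθ0 hθ1 hW hne

theorem abs_mag_actStep_le {ε : ℝ} (hε0 : 0 ≤ ε) (hε : ε ≤ 1 / 4) {ℓ : V → ℝ} (hℓ : ∀ v, |ℓ v| < 1) {u : V}
    (hu : u ∈ W) {U : ℝ} (hU : U ∈ Icc (0:ℝ) 1) {v : V} (hv : v ∈ W) :
    |mag G θ (actStep G θ W ε ℓ u U) W v| ≤ 1 :=
  (abs_mag_lt hG hθ0 hθ1 (abs_actStep_lt hG hθ0 hθ1 hW hne hε0 hε hℓ hu hU) hW hne hv).le

theorem covG_spin_self_e {ℓ : V → ℝ} (hℓ : ∀ v, |ℓ v| < 1) (u : V) :
    covG G θ ℓ W (fun A => spin A u) (fun A => spin A u) = 1 - mag G θ ℓ W u ^ 2 := by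
  unfold covG mag
  have : (fun A : Finset V => spin A u * spin A u) = fun _ => 1 := by
    funext A
    unfold spin
    split_ifs <;> norm_num
  rw [this, gibbs_const hG hθ0 hθ1 hℓ hW hne]
  ring

theorem mag_actStep_self {ε : ℝ} (hε0 : 0 ≤ ε) (hε : ε ≤ 1 / 4) {ℓ : V → ℝ} (hℓ : ∀ v, |ℓ v| < 1) {u : V}
    (hu : u ∈ W) {U : ℝ} (hU : U ∈ Icc (0:ℝ) 1) :
    mag G θ (actStep G θ W ε ℓ u U) W u =
      (mag G θ ℓ W u + ε * chanT (ε * mag G θ ℓ W u) U) / (1 + ε * chanT (ε * mag G θ ℓ W u) U * mag G θ ℓ W u) := by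
  have hm := abs_mag_lt hG hθ0 hθ1 hℓ hW hne hu
  have ha := abs_eps_chanT_le hε0 hε hm.le hU
  have h0 : gibbs G θ (actStep G θ W ε ℓ u U) W (fun A => spin A u) =
      gibbs G θ ℓ W (fun A => spin A u) + rhoFn ε (mag G θ ℓ W u) U * (1 - mag G θ ℓ W u ^ 2) := by
    rw [gibbs_actStep hG hθ0 hθ1 hW hne hε0 hε hℓ hu hU, covG_spin_self_e hG hθ0 hθ1 hW hne hℓ]
  have h1 : mag G θ (actStep G θ W ε ℓ u U) W u =
      mag G θ ℓ W u + rhoFn ε (mag G θ ℓ W u) U * (1 - mag G θ ℓ W u ^ 2) := h0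
  rw [h1]
  unfold rhoFn
  generalize mag G θ ℓ W u = m at *
  generalize hadef : ε * chanT (ε * m) U = a at *
  have hd : 1 + a * m ≠ 0 := by
    have : |a * m| ≤ 1 / 4 := by
      rw [abs_mul]; nlinarith [abs_nonneg a, abs_nonneg m]
    have h2 := (abs_le.mp this).1
    intro h0
    linarith
  rw [eq_div_iff hd]
  have h3 : a / (1 + a * m) * (1 + a * m) = a := div_mul_cancel₀ a hd
  linear_combination (1 - m ^ 2) * h3

/-- the integrated decay at the acting vertex -/
theorem integral_sqrt_cvar_self {ε : ℝ} (hε0 : 0 ≤ ε) (hε : ε ≤ 1 / 4) {ℓ : V → ℝ} (hℓ : ∀ v, |ℓ v| < 1) {u : V}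
    (hu : u ∈ W) :
    ∫ a : unitInterval, Real.sqrt (cvar G θ (actStep G θ W ε ℓ u a) W u) ∂volume =
      Real.sqrt (cvar G θ ℓ W u) * kappaE ε := by
  have hm := abs_mag_lt hG hθ0 hθ1 hℓ hW hne hu
  have h1 : ∀ a : unitInterval, Real.sqrt (cvar G θ (actStep G θ W ε ℓ u a) W u) =
      (fun U : ℝ => Real.sqrt (1 - ((mag G θ ℓ W u + ε * chanT (ε * mag G θ ℓ W u) U) /
        (1 + ε * chanT (ε * mag G θ ℓ W u) U * mag G θ ℓ W u)) ^ 2)) a := by
    intro a
    simp only [cvar]
    rw [mag_actStep_self hG hθ0 hθ1 hW hne hε0 hε hℓ hu a.2]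
  simp_rw [h1]
  exact (integral_unit_eq (g := fun U : ℝ => Real.sqrt (1 - ((mag G θ ℓ W u + ε * chanT (ε * mag G θ ℓ W u) U) /
    (1 + ε * chanT (ε * mag G θ ℓ W u) U * mag G θ ℓ W u)) ^ 2))).trans
    (integral_sqrt_self hε0 (by linarith) hm)

/-- Jensen step -/
theorem integral_sqrt_cvar_le_step {ε : ℝ} (hε0 : 0 ≤ ε) (hε : ε ≤ 1 / 4) {ℓ : V → ℝ} (hℓ : ∀ v, |ℓ v| < 1) {u : V}
    (hu : u ∈ W) {v : V} (hv : v ∈ W) :
    ∫ a : unitInterval, Real.sqrt (cvar G θ (actStep G θ W ε ℓ u a) W v) ∂volume ≤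
      Real.sqrt (cvar G θ ℓ W v) := by
  have hmv := abs_mag_lt hG hθ0 hθ1 hℓ hW hne hv
  have hmu := abs_mag_lt hG hθ0 hθ1 hℓ hW hne hu
  set m := mag G θ ℓ W v with hm
  set C := covG G θ ℓ W (fun A => spin A v) (fun A => spin A u) with hC
  have hm2 : 0 < 1 - m ^ 2 := by
    have : m ^ 2 < 1 := by
      rw [← sq_abs]; nlinarith [abs_nonneg m]
    linarith
  have hr : 0 < Real.sqrt (1 - m ^ 2) := Real.sqrt_pos.mpr hm2
  have hpt : ∀ a : unitInterval, Real.sqrt (cvar G θ (actStep G θ W ε ℓ u a) W v) ≤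
      (1 - m * (m + rhoFn ε (mag G θ ℓ W u) a * C)) / Real.sqrt (1 - m ^ 2) := by
    intro a
    have h := abs_mag_actStep_le hG hθ0 hθ1 hW hne hε0 hε hℓ hu a.2 hv
    have := sqrt_one_sub_sq_le h hmv
    simp only [cvar]
    convert this using 3
    unfold mag
    rw [gibbs_actStep hG hθ0 hθ1 hW hne hε0 hε hℓ hu a.2]
    rfl
  have hρ := integrable_unit_rho hε0 hε hmu.le
  have hIR : Integrable (fun a : unitInterval =>
      (1 - m * (m + rhoFn ε (mag G θ ℓ W u) a * C)) / Real.sqrt (1 - m ^ 2)) volume := by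
    have : (fun a : unitInterval =>
        (1 - m * (m + rhoFn ε (mag G θ ℓ W u) a * C)) / Real.sqrt (1 - m ^ 2)) =
        fun a : unitInterval => (1 - m ^ 2) / Real.sqrt (1 - m ^ 2) +
          (- m * C / Real.sqrt (1 - m ^ 2)) * rhoFn ε (mag G θ ℓ W u) a := by
      funext a; ring
    rw [this]
    exact (integrable_const _).add (hρ.const_mul _)
  have hIL : Integrable (fun a : unitInterval => Real.sqrt (cvar G θ (actStep G θ W ε ℓ u a) W v)) volume := by
    refine integrable_unit_of_bdd (C := 1) ?_ fun a => ?_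
    · refine Real.continuous_sqrt.measurable.comp ?_
      have : Measurable fun ℓ' : V → ℝ => cvar G θ ℓ' W v := by
        unfold cvar
        exact measurable_const.sub ((measurable_mag_field W v).pow_const 2)
      exact this.comp ((measurable_actStep W ε u).comp (measurable_const.prodMk measurable_subtype_coe))
    · rw [abs_of_nonneg (Real.sqrt_nonneg _)]
      refine Real.sqrt_le_one.mpr ?_
      simp only [cvar]
      nlinarith [sq_nonneg (mag G θ (actStep G θ W ε ℓ u a) W v)]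
  refine (integral_mono hIL hIR hpt).trans (le_of_eq ?_)
  have : (fun a : unitInterval =>
      (1 - m * (m + rhoFn ε (mag G θ ℓ W u) a * C)) / Real.sqrt (1 - m ^ 2)) =
      fun a : unitInterval => (1 - m ^ 2) / Real.sqrt (1 - m ^ 2) +
        (- m * C / Real.sqrt (1 - m ^ 2)) * rhoFn ε (mag G θ ℓ W u) a := by
    funext a; ring
  rw [this, integral_add (integrable_const _) (hρ.const_mul _), integral_const, integral_const_mul,
    integral_unit_rho hε0 hε hmu.le]
  have hv : (volume : Measure unitInterval).real univ = 1 := by simp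
  rw [hv, one_smul, mul_zero, add_zero]
  simp only [cvar]
  rw [← hm]
  exact Real.div_sqrt

/-- noise integration along a fixed list of distinct vertices -/
theorem integral_foldl_sqrt (j : ℤ) {ε : ℝ} (hε0 : 0 ≤ ε) (hε : ε ≤ 1 / 4) (L : List V) (hnd : L.Nodup)
    (hL : ∀ u ∈ L, u ∈ W) {E : Om V → ℝ} (hEm : Measurable E) (hE0 : ∀ x, 0 ≤ E x) (hEb : ∃ C, ∀ x, |E x| ≤ C)
    (hEdep : ∀ u ∈ L, ∀ x a, E (updCoord x u (j, true) a) = E x) {ℓ₀ : Om V → V → ℝ} (hℓm : Measurable ℓ₀)
    (hℓb : ∀ x v, |ℓ₀ x v| < 1) (hℓdep : ∀ u ∈ L, ∀ x a, ℓ₀ (updCoord x u (j, true) a) = ℓ₀ x)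
    {v : V} (hv : v ∈ W) :
    ∫ x, E x * Real.sqrt (cvar G θ (L.foldl (fun ℓ' w => actStep G θ W ε ℓ' w (uOf x w j)) (ℓ₀ x)) W v) ∂(omP V) ≤
      (if v ∈ L then kappaE ε else 1) * ∫ x, E x * Real.sqrt (cvar G θ (ℓ₀ x) W v) ∂(omP V) := by
  induction L using List.reverseRecOn with
  | nil => simp
  | append_singleton L u ih =>
    have hnd' : L.Nodup := (List.nodup_append.mp hnd).1
    have hu : u ∉ L := fun h => by
      have := (List.nodup_append.mp hnd).2.2 u h u (by simp)
      exact this rfl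
    have hL' : ∀ w ∈ L, w ∈ W := fun w hw => hL w (by simp [hw])
    have huW : u ∈ W := hL u (by simp)
    have IH := ih hnd' hL' (fun w hw => hEdep w (by simp [hw])) (fun w hw => hℓdep w (by simp [hw]))
    simp only [List.foldl_append, List.foldl_cons, List.foldl_nil]
    set F : Om V → V → ℝ := fun x => L.foldl (fun ℓ' w => actStep G θ W ε ℓ' w (uOf x w j)) (ℓ₀ x) with hF
    have hFm : Measurable F := measurable_foldl W ε (fun u => measurable_uOf u j) L hℓm
    have hFb : ∀ x v, |F x v| < 1 := fun x v =>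
      abs_foldl_lt hG hθ0 hθ1 hW hne hε0 hε (fun w => uOf_mem x w j) L hL' (hℓb x) v
    have hFdep : ∀ x a, F (updCoord x u (j, true) a) = F x := by
      intro x a
      simp only [hF]
      rw [hℓdep u (by simp) x a]
      exact foldl_updCoord_noise hu θ W ε x a _
    obtain ⟨CE, hCE⟩ := hEb
    have hCE0 : 0 ≤ CE := (abs_nonneg _).trans (hCE (fun _ _ => 0))
    have hcoord := integral_om_coord (u := u) (i := (j, true))
      (H := fun x a => E x * Real.sqrt (cvar G θ (actStep G θ W ε (F x) u a) W v)) ?_ ⟨CE * 1, fun x a => ?_⟩ ?_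
    · have e1 : ∀ x : Om V, uOf x u j = ((x u (j, true) : unitInterval) : ℝ) := fun x => rfl
      simp only [e1]
      rw [hcoord]
      have hintF : Integrable (fun x => E x * Real.sqrt (cvar G θ (F x) W v)) (omP V) := by
        refine integrable_of_bdd (C := CE * 1) (hEm.mul ((measurable_sqrt_cvar_field W v).comp hFm)) fun x => ?_
        rw [abs_mul]
        exact mul_le_mul (hCE x) (sqrt_cvar_bound _ v) (abs_nonneg _) hCE0
      by_cases hvu : v = u
      · subst hvu
        have hvL : v ∉ L := hu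
        simp only [hvL, if_false, one_mul] at IH
        have e2 : ∀ x, ∫ a : unitInterval, E x * Real.sqrt (cvar G θ (actStep G θ W ε (F x) v a) W v) ∂volume =
            kappaE ε * (E x * Real.sqrt (cvar G θ (F x) W v)) := by
          intro x
          rw [integral_const_mul, integral_sqrt_cvar_self hG hθ0 hθ1 hW hne hε0 hε (hFb x) huW]
          ring
        simp_rw [e2]
        rw [integral_const_mul]
        simp only [List.mem_append, List.mem_singleton, or_true, if_true]
        exact mul_le_mul_of_nonneg_left IH (kappaE_nonneg ε)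
      · have hvL : (v ∈ L ++ [u]) ↔ v ∈ L := by simp [hvu]
        simp only [hvL]
        refine le_trans ?_ IH
        refine integral_mono ?_ hintF fun x => ?_
        · have : Measurable fun x : Om V => ∫ a : unitInterval,
              E x * Real.sqrt (cvar G θ (actStep G θ W ε (F x) u a) W v) ∂volume := by
            have hf : Measurable (fun p : Om V × unitInterval =>
                E p.1 * Real.sqrt (cvar G θ (actStep G θ W ε (F p.1) u p.2) W v)) := by
              refine Measurable.mul (hEm.comp measurable_fst) ?_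
              refine (measurable_sqrt_cvar_field W v).comp ?_
              exact (measurable_actStep W ε u).comp
                ((hFm.comp measurable_fst).prodMk (measurable_subtype_coe.comp measurable_snd))
            exact (hf.stronglyMeasurable.integral_prod_right' (ν := volume)).measurable
          refine integrable_of_bdd (C := CE * 1) this fun x => ?_
          refine (abs_integral_le_integral_abs).trans ?_
          have hb : ∀ a : unitInterval,
              |E x * Real.sqrt (cvar G θ (actStep G θ W ε (F x) u a) W v)| ≤ CE * 1 := fun a => by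
            rw [abs_mul]
            exact mul_le_mul (hCE x) (sqrt_cvar_bound _ v) (abs_nonneg _) hCE0
          calc _ ≤ ∫ a : unitInterval, CE * 1 ∂volume :=
                integral_mono_of_nonneg (Eventually.of_forall fun _ => abs_nonneg _) (integrable_const _)
                  (Eventually.of_forall hb)
            _ = CE * 1 := by simp
        · simp only
          rw [integral_const_mul]
          exact mul_le_mul_of_nonneg_left
            (integral_sqrt_cvar_le_step hG hθ0 hθ1 hW hne hε0 hε (hFb x) huW hv) (hE0 x)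
    · refine Measurable.mul (hEm.comp measurable_fst) ?_
      refine (measurable_sqrt_cvar_field W v).comp ?_
      exact (measurable_actStep W ε u).comp
        ((hFm.comp measurable_fst).prodMk (measurable_subtype_coe.comp measurable_snd))
    · rw [abs_mul]
      exact mul_le_mul (hCE x) (sqrt_cvar_bound _ v) (abs_nonneg _) hCE0
    · intro x b a
      rw [hEdep u (by simp) x b, hFdep x b]

end E2


section E2sweep

variable {θ : ℝ} {W : Finset V} (hG : RegTree G D) (hθ0 : 0 ≤ θ) (hθ1 : θ < 1) (hW : IsConvexSet G W)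
  (hne : W.Nonempty)
include hG hθ0 hθ1 hW hne

theorem integral_runSweep_sqrt_factor (j : ℤ) (s : ℝ) {ε : ℝ} (hε0 : 0 ≤ ε) (hε : ε ≤ 1 / 4)
    {ℓ₀ : Om V → V → ℝ} (hℓm : Measurable ℓ₀) (hℓb : ∀ x v, |ℓ₀ x v| < 1)
    (hℓdep : ∀ u x a, ℓ₀ (updCoord x u (j, true) a) = ℓ₀ x) {v : V} (hv : v ∈ W) :
    ∫ x, Real.sqrt (cvar G θ (runSweep G θ W ε (fun v => tOf x v j) (fun v => uOf x v j) s (ℓ₀ x)) W v) ∂(omP V) ≤
      ∫ x, (if v ∈ actList W (fun v => tOf x v j) s then kappaE ε else 1) * Real.sqrt (cvar G θ (ℓ₀ x) W v) ∂(omP V) := by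
  have ht : ∀ v ∈ W, Measurable fun x : Om V => (fun v => tOf x v j) v := fun v _ => measurable_tOf v j
  have hk0 := kappaE_nonneg ε
  have hk1 := kappaE_le_one ε
  have h1 := integral_split_actList (s := s) (C := 1) W ht
    (F := fun L x => Real.sqrt (cvar G θ (L.foldl (fun ℓ' w => actStep G θ W ε ℓ' w (uOf x w j)) (ℓ₀ x)) W v))
    (fun L => (measurable_sqrt_cvar_field W v).comp (measurable_foldl W ε (fun u => measurable_uOf u j) L hℓm))
    (fun L _ x => sqrt_cvar_bound _ v)
  have h2 := integral_split_actList (s := s) (C := 1) W ht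
    (F := fun L x => (if v ∈ L then kappaE ε else 1) * Real.sqrt (cvar G θ (ℓ₀ x) W v))
    (fun L => measurable_const.mul ((measurable_sqrt_cvar_field W v).comp hℓm))
    (fun L _ x => by
      rw [abs_mul]
      have h3 : |(if v ∈ L then kappaE ε else 1)| ≤ 1 := by
        split_ifs
        · rw [abs_of_nonneg hk0]; exact hk1
        · simp
      calc _ ≤ (1:ℝ) * 1 := mul_le_mul h3 (sqrt_cvar_bound _ v) (abs_nonneg _) zero_le_one
        _ = 1 := by norm_num)
  unfold runSweep
  rw [h1]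
  refine le_trans ?_ (le_of_eq h2.symm)
  refine Finset.sum_le_sum fun L hL => ?_
  have h3 := integral_foldl_sqrt hG hθ0 hθ1 hW hne j hε0 hε L (mem_listsOf_iff hL).1 (mem_listsOf_iff hL).2
    (E := fun x => if actList W (fun v => tOf x v j) s = L then (1:ℝ) else 0)
    (measurable_of_actList (H := fun L' _ => if L' = L then (1:ℝ) else 0) W ht measurable_const
      (fun _ => measurable_const))
    (fun x => by split_ifs <;> norm_num) ⟨1, fun x => by split_ifs <;> simp⟩
    (fun u _ x a => by rw [actList_updCoord_noise]) hℓm hℓb (fun u _ x a => hℓdep u x a) hv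
  refine h3.trans (le_of_eq ?_)
  rw [← integral_const_mul]
  refine integral_congr_ae (Eventually.of_forall fun x => ?_)
  simp only
  ring

/-- Jensen over a sweep. -/
theorem integral_runSweep_sqrt_le (j : ℤ) (s : ℝ) {ε : ℝ} (hε0 : 0 ≤ ε) (hε : ε ≤ 1 / 4)
    {ℓ₀ : Om V → V → ℝ} (hℓm : Measurable ℓ₀) (hℓb : ∀ x v, |ℓ₀ x v| < 1)
    (hℓdep : ∀ u x a, ℓ₀ (updCoord x u (j, true) a) = ℓ₀ x) {v : V} (hv : v ∈ W) :
    ∫ x, Real.sqrt (cvar G θ (runSweep G θ W ε (fun v => tOf x v j) (fun v => uOf x v j) s (ℓ₀ x)) W v) ∂(omP V) ≤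
      ∫ x, Real.sqrt (cvar G θ (ℓ₀ x) W v) ∂(omP V) := by
  refine (integral_runSweep_sqrt_factor hG hθ0 hθ1 hW hne j s hε0 hε hℓm hℓb hℓdep hv).trans ?_
  have ht : ∀ v ∈ W, Measurable fun x : Om V => (fun v => tOf x v j) v := fun v _ => measurable_tOf v j
  have hk0 := kappaE_nonneg ε
  have hk1 := kappaE_le_one ε
  have hm1 : Measurable fun x : Om V => (if v ∈ actList W (fun v => tOf x v j) s then kappaE ε else 1) :=
    measurable_of_actList (H := fun L' _ => if v ∈ L' then kappaE ε else 1) W ht measurable_const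
      (fun _ => measurable_const)
  have hg := (measurable_sqrt_cvar_field (G := G) (θ := θ) W v).comp hℓm
  refine integral_mono ?_ ?_ fun x => ?_
  · refine integrable_of_bdd (C := 1 * 1) (hm1.mul hg) fun x => ?_
    rw [abs_mul]
    refine mul_le_mul ?_ (sqrt_cvar_bound _ v) (abs_nonneg _) zero_le_one
    split_ifs
    · rw [abs_of_nonneg hk0]; exact hk1
    · simp
  · exact integrable_of_bdd (C := 1) hg fun x => sqrt_cvar_bound _ v
  · simp only
    have hs := Real.sqrt_nonneg (cvar G θ (ℓ₀ x) W v)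
    split_ifs
    · nlinarith
    · linarith

end E2sweep

theorem integral_unit_step (κ : ℝ) :
    ∫ a : unitInterval, (if (a : ℝ) < 1 / 2 then κ else 1) ∂volume = (κ + 1) / 2 := by
  have hmeas : Measurable fun U : ℝ => if U < 1 / 2 then κ else 1 :=
    Measurable.ite measurableSet_Iio measurable_const measurable_const
  rw [integral_unit_eq (g := fun U : ℝ => if U < 1 / 2 then κ else 1)]
  have hbd : ∀ U : ℝ, ‖(if U < 1 / 2 then κ else 1 : ℝ)‖ ≤ |κ| + 1 := by
    intro U
    rw [Real.norm_eq_abs]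
    split_ifs
    · linarith
    · simp [abs_nonneg]
  have hI : ∀ a b : ℝ, IntervalIntegrable (fun U : ℝ => if U < 1 / 2 then κ else 1) volume a b := by
    intro a b
    rw [intervalIntegrable_iff]
    exact Measure.integrableOn_of_bounded (M := |κ| + 1) (by simp) hmeas.aestronglyMeasurable
      (Eventually.of_forall hbd)
  rw [← intervalIntegral.integral_add_adjacent_intervals (hI 0 (1 / 2)) (hI (1 / 2) 1)]
  have h1 : ∫ U in (0 : ℝ)..(1 / 2), (if U < 1 / 2 then κ else 1) = ∫ U in (0 : ℝ)..(1 / 2), κ := by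
    refine intervalIntegral.integral_congr_ae ?_
    have : ∀ᵐ U : ℝ, U ≠ 1 / 2 := by
      have := compl_mem_ae_iff.mpr (measure_singleton (μ := (volume : Measure ℝ)) (1 / 2 : ℝ))
      filter_upwards [this] with U hU
      exact hU
    filter_upwards [this] with U hU hU2
    rw [Set.uIoc_of_le (by norm_num)] at hU2
    have : U < 1 / 2 := lt_of_le_of_ne hU2.2 hU
    rw [if_pos this]
  have h2 : ∫ U in (1 / 2 : ℝ)..1, (if U < 1 / 2 then κ else 1) = ∫ U in (1 / 2 : ℝ)..1, (1 : ℝ) := by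
    refine intervalIntegral.integral_congr_ae (Eventually.of_forall fun U hU2 => ?_)
    rw [Set.uIoc_of_le (by norm_num)] at hU2
    have : ¬ U < 1 / 2 := not_lt.mpr hU2.1.le
    rw [if_neg this]
  rw [h1, h2, intervalIntegral.integral_const, intervalIntegral.integral_const]
  simp
  ring

section E2final

variable {θ : ℝ} {W : Finset V} (hG : RegTree G D) (hθ0 : 0 ≤ θ) (hθ1 : θ < 1) (hW : IsConvexSet G W)
  (hne : W.Nonempty)
include hG hθ0 hθ1 hW hne

/-- decay in a full sweep -/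
theorem integral_runSweep_sqrt_half (j : ℤ) {ε : ℝ} (hε0 : 0 ≤ ε) (hε : ε ≤ 1 / 4)
    {ℓ₀ : Om V → V → ℝ} (hℓm : Measurable ℓ₀) (hℓb : ∀ x v, |ℓ₀ x v| < 1)
    (hℓdep : ∀ u x a, ℓ₀ (updCoord x u (j, true) a) = ℓ₀ x) {v : V} (hv : v ∈ W)
    (hℓdep' : ∀ x a, ℓ₀ (updCoord x v (j, false) a) = ℓ₀ x) :
    ∫ x, Real.sqrt (cvar G θ (runSweep G θ W ε (fun v => tOf x v j) (fun v => uOf x v j) (1 / 2) (ℓ₀ x)) W v) ∂(omP V) ≤
      ((kappaE ε + 1) / 2) * ∫ x, Real.sqrt (cvar G θ (ℓ₀ x) W v) ∂(omP V) := by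
  refine (integral_runSweep_sqrt_factor hG hθ0 hθ1 hW hne j (1 / 2) hε0 hε hℓm hℓb hℓdep hv).trans (le_of_eq ?_)
  have hg := (measurable_sqrt_cvar_field (G := G) (θ := θ) W v).comp hℓm
  have hae : (fun x : Om V => (if v ∈ actList W (fun v => tOf x v j) (1 / 2) then kappaE ε else 1) *
        Real.sqrt (cvar G θ (ℓ₀ x) W v)) =ᵐ[omP V]
      fun x => (if tOf x v j < 1 / 2 then kappaE ε else 1) * Real.sqrt (cvar G θ (ℓ₀ x) W v) := by
    filter_upwards [ae_no_ties (V := V) W j] with x hx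
    have : v ∈ actList W (fun v => tOf x v j) (1 / 2) ↔ tOf x v j < 1 / 2 := by
      rw [mem_actList]
      constructor
      · exact fun h => h.2.1
      · exact fun h => ⟨hv, h, fun u' hu' hne' => hx v hv u' hu' hne'⟩
    simp only [this]
  rw [integral_congr_ae hae]
  have hk0 := kappaE_nonneg ε
  have hk1 := kappaE_le_one ε
  have hcoord := integral_om_coord (u := v) (i := (j, false))
    (H := fun x a => (if (a : ℝ) < 1 / 2 then kappaE ε else 1) * Real.sqrt (cvar G θ (ℓ₀ x) W v)) ?_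
    ⟨1 * 1, fun x a => ?_⟩ ?_
  · have e1 : ∀ x : Om V, tOf x v j = ((x v (j, false) : unitInterval) : ℝ) := fun x => rfl
    simp only [e1]
    rw [hcoord, ← integral_const_mul]
    refine integral_congr_ae (Eventually.of_forall fun x => ?_)
    simp only
    rw [integral_mul_const, integral_unit_step]
  · refine Measurable.mul ?_ (hg.comp measurable_fst)
    exact Measurable.ite (measurableSet_lt (measurable_subtype_coe.comp measurable_snd) measurable_const)
      measurable_const measurable_const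
  · rw [abs_mul]
    refine mul_le_mul ?_ (sqrt_cvar_bound _ v) (abs_nonneg _) zero_le_one
    split_ifs
    · rw [abs_of_nonneg hk0]; exact hk1
    · simp
  · intro x b a
    rw [hℓdep' x b]

/-- (E2) decay of `√(1-m²)`: only sweeps `0 ≤ i < j` are used (`N ≤ 0 ≤ j`). -/
theorem integral_sqrt_cvar_le' {N j : ℤ} (hN0 : N ≤ 0) (hj : 0 ≤ j) (s : ℝ) {v : V} (hv : v ∈ W) :
    ∫ x, Real.sqrt (cvar G θ (fieldAt G θ W N x j s) W v) ∂(omP V) ≤ (191 / 192 : ℝ) ^ j.toNat := by
  have hstart : ∀ k : ℕ, ∫ x, Real.sqrt (cvar G θ (fieldStart G θ W N x ((-N).toNat + k)) W v) ∂(omP V) ≤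
      (191 / 192 : ℝ) ^ k := by
    intro k
    induction k with
    | zero =>
      simp only [add_zero, pow_zero]
      have hg := (measurable_sqrt_cvar_field (G := G) (θ := θ) W v).comp
        (measurable_fieldStart (G := G) (θ := θ) W N (-N).toNat)
      calc _ ≤ ∫ _ : Om V, (1:ℝ) ∂(omP V) := integral_mono
              (integrable_of_bdd (C := 1) hg fun x => sqrt_cvar_bound _ v) (integrable_const _)
              (fun x => (le_abs_self _).trans (sqrt_cvar_bound _ v))
        _ = 1 := by simp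
    | succ k ih =>
      have hidx : N + (((-N).toNat + k : ℕ) : ℤ) = k := by
        push_cast
        omega
      have hstep : ((-N).toNat + (k + 1)) = ((-N).toNat + k) + 1 := by omega
      rw [hstep]
      simp only [fieldStart]
      rw [hidx]
      have h1 := integral_runSweep_sqrt_half hG hθ0 hθ1 hW hne (k : ℤ) (ε := eps k) (eps_pos _).le (eps_le _)
        (measurable_fieldStart W N ((-N).toNat + k))
        (fun x v => abs_fieldStart_lt hG hθ0 hθ1 hW hne N x _ v)
        (fun u x a => fieldStart_updCoord u x a _ (by rw [hidx])) hv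
        (fun x a => fieldStart_updCoord v x a _ (by rw [hidx]))
      have hk : kappaE (eps k) ≤ 95 / 96 := by
        rw [eps_of_nonneg (by positivity)]
        exact kappaE_quarter_le
      have hnn : 0 ≤ ∫ x, Real.sqrt (cvar G θ (fieldStart G θ W N x ((-N).toNat + k)) W v) ∂(omP V) :=
        integral_nonneg fun x => Real.sqrt_nonneg _
      calc _ ≤ _ := h1
        _ ≤ (191 / 192 : ℝ) * ∫ x, Real.sqrt (cvar G θ (fieldStart G θ W N x ((-N).toNat + k)) W v) ∂(omP V) :=
            mul_le_mul_of_nonneg_right (by linarith) hnn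
        _ ≤ (191 / 192 : ℝ) * (191 / 192 : ℝ) ^ k := mul_le_mul_of_nonneg_left ih (by norm_num)
        _ = (191 / 192 : ℝ) ^ (k + 1) := by ring
  have hidx : (j - N).toNat = (-N).toNat + j.toNat := by omega
  simp only [fieldAt]
  refine (integral_runSweep_sqrt_le hG hθ0 hθ1 hW hne j s (eps_pos _).le (eps_le _)
    (measurable_fieldStart W N _) (fun x v => abs_fieldStart_lt hG hθ0 hθ1 hW hne N x _ v)
    (fun u x a => fieldStart_updCoord u x a _ (by omega)) hv).trans ?_
  rw [hidx]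
  exact hstart _

end E2final

end DynE

end Crest.Agent.Lib.IsingFIID
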