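/-
S0241 blueprint, Mod E: (E4) bounds on the integrand of the pair inequality.
-/
import Crest.Agent.Lib.IsingFIID.DynMart

set_option autoImplicit false
universe u

namespace Crest.Agent.Lib.IsingFIID

namespace DynE

open MeasureTheory Filter Set
open scoped Classical Topology

variable {V : Type u} {G : SimpleGraph V} [G.LocallyFinite] {D : ℕ}

/-- Bounded measurable functions on the unit interval are interval integrable. -/
theorem intervalIntegrable_unit_of_bdd {g : ℝ → ℝ} (hm : Measurable g) {C : ℝ}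
    (hb : ∀ U ∈ Icc (0:ℝ) 1, |g U| ≤ C) : IntervalIntegrable g volume 0 1 := by
  rw [intervalIntegrable_iff, uIoc_of_le zero_le_one]
  refine Measure.integrableOn_of_bounded (M := C) (by simp) hm.aestronglyMeasurable ?_
  rw [ae_restrict_iff' measurableSet_Ioc]
  exact Eventually.of_forall fun U hU => by
    rw [Real.norm_eq_abs]
    exact hb U ⟨hU.1.le, hU.2⟩

theorem measurable_rhoFn_U (ε m : ℝ) : Measurable fun U : ℝ => rhoFn ε m U :=
  measurable_rhoFn.comp (measurable_const.prodMk (measurable_const.prodMk measurable_id))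

theorem measurable_psiU_U (θ θ' : ℝ) (W W' : Finset V) (ε : ℝ) (f f' : Finset V → ℝ) (ℓ ℓ' : V → ℝ) (u : V) :
    Measurable fun U : ℝ => psiU G θ θ' W W' ε f f' ℓ ℓ' u U := by
  unfold psiU
  refine Measurable.pow_const (Measurable.sub ?_ ?_) 2
  · by_cases h : u ∈ W
    · simp only [if_pos h]
      exact (measurable_rhoFn_U ε _).mul_const _
    · simp only [if_neg h]
      exact measurable_const
  · by_cases h : u ∈ W'
    · simp only [if_pos h]
      exact (measurable_rhoFn_U ε _).mul_const _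
    · simp only [if_neg h]
      exact measurable_const

theorem intervalIntegrable_rhoFn_sq {ε m : ℝ} (hε0 : 0 ≤ ε) (hε : ε ≤ 1 / 4) (hm : |m| ≤ 1) :
    IntervalIntegrable (fun U => rhoFn ε m U ^ 2) volume 0 1 := by
  refine intervalIntegrable_unit_of_bdd (C := (2 * ε) ^ 2) ((measurable_rhoFn_U ε m).pow_const 2) fun U hU => ?_
  rw [abs_pow]
  exact pow_le_pow_left₀ (abs_nonneg _) (rhoFn_bound hε0 (by linarith) hm hU) 2

/-- (E4) bound on the integrand of the pair inequality. -/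
theorem integral_psiU_le' {θ θ' : ℝ} {W W' : Finset V} {ε : ℝ} (hε0 : 0 ≤ ε) (hε : ε ≤ 1 / 4) {f f' : Finset V → ℝ}
    {ℓ ℓ' : V → ℝ} {u : V}
    (hm : |mag G θ ℓ W u| ≤ 1) (hm' : |mag G θ' ℓ' W' u| ≤ 1) (huW : u ∈ W) (huW' : u ∈ W') :
    ∫ U in (0 : ℝ)..1, psiU G θ θ' W W' ε f f' ℓ ℓ' u U ≤
      2 * ε ^ 2 * (covG G θ ℓ W f (fun A => spin A u) - covG G θ' ℓ' W' f' (fun A => spin A u)) ^ 2 +
      512 * ε ^ 4 * (mag G θ ℓ W u - mag G θ' ℓ' W' u) ^ 2 * covG G θ' ℓ' W' f' (fun A => spin A u) ^ 2 := by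
  set C := covG G θ ℓ W f (fun A => spin A u) with hC
  set C' := covG G θ' ℓ' W' f' (fun A => spin A u) with hC'
  set m := mag G θ ℓ W u with hmdef
  set m' := mag G θ' ℓ' W' u with hm'def
  have hε2 : ε ≤ 1 / 2 := by linarith
  have hρ := fun U (hU : U ∈ Icc (0:ℝ) 1) => rhoFn_bound (m := m) (U := U) hε0 hε2 hm hU
  have hρ' := fun U (hU : U ∈ Icc (0:ℝ) 1) => rhoFn_bound (m := m') (U := U) hε0 hε2 hm' hU
  have hpsi : ∀ U, psiU G θ θ' W W' ε f f' ℓ ℓ' u U = (rhoFn ε m U * C - rhoFn ε m' U * C') ^ 2 := by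
    intro U
    unfold psiU
    rw [if_pos huW, if_pos huW']
  have hI1 : IntervalIntegrable (fun U => psiU G θ θ' W W' ε f f' ℓ ℓ' u U) volume 0 1 := by
    refine intervalIntegrable_unit_of_bdd (C := (2 * ε * |C| + 2 * ε * |C'|) ^ 2)
      (measurable_psiU_U θ θ' W W' ε f f' ℓ ℓ' u) fun U hU => ?_
    rw [hpsi, abs_pow]
    refine pow_le_pow_left₀ (abs_nonneg _) ?_ 2
    refine (abs_sub _ _).trans ?_
    rw [abs_mul, abs_mul]
    exact add_le_add (mul_le_mul_of_nonneg_right (hρ U hU) (abs_nonneg _))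
      (mul_le_mul_of_nonneg_right (hρ' U hU) (abs_nonneg _))
  have hI2 : IntervalIntegrable (fun U => 2 * (C - C') ^ 2 * rhoFn ε m U ^ 2 +
      512 * ε ^ 4 * (m - m') ^ 2 * C' ^ 2) volume 0 1 :=
    ((intervalIntegrable_rhoFn_sq hε0 hε hm).const_mul _).add intervalIntegrable_const
  have hle : ∀ U ∈ Icc (0:ℝ) 1, psiU G θ θ' W W' ε f f' ℓ ℓ' u U ≤
      2 * (C - C') ^ 2 * rhoFn ε m U ^ 2 + 512 * ε ^ 4 * (m - m') ^ 2 * C' ^ 2 := by
    intro U hU
    rw [hpsi]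
    have hlip := rhoFn_lipschitz hε0 hε2 hm hm' hU
    have h2 : (rhoFn ε m U - rhoFn ε m' U) ^ 2 ≤ (16 * ε ^ 2 * |m - m'|) ^ 2 := by
      rw [← sq_abs (rhoFn ε m U - rhoFn ε m' U)]
      exact pow_le_pow_left₀ (abs_nonneg _) hlip 2
    have h3 : (16 * ε ^ 2 * |m - m'|) ^ 2 = 256 * ε ^ 4 * (m - m') ^ 2 := by
      rw [mul_pow, sq_abs]; ring
    rw [h3] at h2
    have h4 : (rhoFn ε m U - rhoFn ε m' U) ^ 2 * C' ^ 2 ≤ 256 * ε ^ 4 * (m - m') ^ 2 * C' ^ 2 :=
      mul_le_mul_of_nonneg_right h2 (sq_nonneg _)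
    nlinarith [sq_nonneg (rhoFn ε m U * (C - C') - (rhoFn ε m U - rhoFn ε m' U) * C')]
  refine (intervalIntegral.integral_mono_on (by norm_num) hI1 hI2 hle).trans ?_
  rw [intervalIntegral.integral_add ((intervalIntegrable_rhoFn_sq hε0 hε hm).const_mul _) intervalIntegrable_const,
    intervalIntegral.integral_const_mul, intervalIntegral.integral_const]
  have h5 := integral_rhoFn_sq (m := m) hε0 hε2 hm
  have h6 : 2 * (C - C') ^ 2 * ∫ U in (0:ℝ)..1, rhoFn ε m U ^ 2 ≤ 2 * (C - C') ^ 2 * ε ^ 2 :=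
    mul_le_mul_of_nonneg_left h5 (by positivity)
  rw [_root_.sub_zero, one_smul]
  nlinarith

/-- (E4') vertices acting only in the larger system -/
theorem integral_psiU_le_of_not_mem' {θ θ' : ℝ} {W W' : Finset V} {ε : ℝ} (hε0 : 0 ≤ ε) (hε : ε ≤ 1 / 4)
    {f f' : Finset V → ℝ} {ℓ ℓ' : V → ℝ} {u : V}
    (hm' : |mag G θ' ℓ' W' u| ≤ 1) (huW : u ∉ W) (huW' : u ∈ W') :
    ∫ U in (0 : ℝ)..1, psiU G θ θ' W W' ε f f' ℓ ℓ' u U ≤
      ε ^ 2 * covG G θ' ℓ' W' f' (fun A => spin A u) ^ 2 := by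
  set C' := covG G θ' ℓ' W' f' (fun A => spin A u) with hC'
  set m' := mag G θ' ℓ' W' u with hm'def
  have hε2 : ε ≤ 1 / 2 := by linarith
  have hpsi : ∀ U, psiU G θ θ' W W' ε f f' ℓ ℓ' u U = C' ^ 2 * rhoFn ε m' U ^ 2 := by
    intro U
    unfold psiU
    rw [if_neg huW, if_pos huW']
    ring
  simp_rw [hpsi]
  rw [intervalIntegral.integral_const_mul, mul_comm]
  exact mul_le_mul_of_nonneg_right (integral_rhoFn_sq hε0 hε2 hm') (sq_nonneg _)

end DynE

end Crest.Agent.Lib.IsingFIID
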