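/-
S0241 blueprint, Mod E (section 4): the sequential dynamics on a finite convex set `W`; all of Mod E except (E3), (E5), (E5'):
see `Dynamics.lean`.
Labels `x : Om V`; system = (θ, first sweep N : ℤ).  In sweep `j` the vertices `u ∈ W` with `t_{u,j} < s` act in increasing
order of `t_{u,j}` (a vertex whose time ties with another vertex of W does not act: this keeps everything
equivariant for every `x`, and ties have probability 0).  Full sweep: `s = 1/2`.

The definitions (`eps`, `tOf`, `uOf`, `actStep`, `actList`, `runSweep`, `fieldStart`, `fieldAt`, `psiU`, `wSite`, `blockSwap`)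
are in `DynDefs`, proofs in `DynBasic`, `DynEquiv`, `DynNoise`, `DynMart`, ...
-/
import Crest.Agent.Lib.IsingFIID.DynMart
import Crest.Agent.Lib.IsingFIID.DynPsi
import Crest.Agent.Lib.IsingFIID.DynBlock

set_option autoImplicit false
universe u

namespace Crest.Agent.Lib.IsingFIID

open DynE

open MeasureTheory Filter
open scoped Classical Topology

variable {V : Type u} {G : SimpleGraph V} [G.LocallyFinite] {D : ℕ}

/-- The bounds of `blockAt` (needed uniformly in `N` for `ES_continuity`). -/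
theorem blockAt_lo (N j : ℤ) (s₀ : ℝ) (hN : N ≤ j) : (blockAt N j s₀).lo = ∏ i ∈ Finset.Icc N j, (1 - eps i) := by
  show ∏ k ∈ sIdx N j, (1 - eps k) = _
  rw [sIdx_eq hN]

theorem blockAt_hi (N j : ℤ) (s₀ : ℝ) (hN : N ≤ j) : (blockAt N j s₀).hi = ∏ i ∈ Finset.Icc N j, (1 + eps i) := by
  show ∏ k ∈ sIdx N j, (1 + eps k) = _
  rw [sIdx_eq hN]

theorem blockAt_wp (N j : ℤ) (s₀ : ℝ) (e : Block) : (blockAt N j s₀).wp e = wSite N j s₀ 1 e := rfl

theorem blockAt_wm (N j : ℤ) (s₀ : ℝ) (e : Block) : (blockAt N j s₀).wm e = wSite N j s₀ (-1) e := rfl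

section Dyn

variable (hG : RegTree G D) {θ θ' : ℝ} (hθ0 : 0 ≤ θ) (hθ1 : θ < 1) (hθ0' : 0 ≤ θ') (hθ1' : θ' < 1)
  {W W' : Finset V} (hW : IsConvexSet G W) (hne : W.Nonempty) (hW' : IsConvexSet G W') (hne' : W'.Nonempty)
  {N N' j : ℤ} (hN : N ≤ j) (hN' : N' ≤ j)
include hG hθ0 hθ1 hW hne

omit hN in
/-- fields stay in `(-1,1)` -/
theorem abs_fieldAt_lt (x : Om V) (j : ℤ) (s : ℝ) (v : V) : |fieldAt G θ W N x j s v| < 1 := by
  exact abs_fieldAt_lt' hG hθ0 hθ1 hW hne N x j s v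

/-- measurability (all fields are measurable functions of the labels) -/
theorem measurable_fieldAt (s : ℝ) (v : V) : Measurable fun x : Om V => fieldAt G θ W N x j s v := by
  exact (measurable_pi_apply v).comp (measurable_fieldAt' W N j s)

omit hW hne in
/-- Equivariance for EVERY `x`. -/
theorem fieldAt_comp_aut (g : G ≃g G) (x : Om V) (j : ℤ) (s : ℝ) :
    fieldAt G θ W N (x ∘ g) j s = fieldAt G θ (W.map g.toEquiv.toEmbedding) N x j s ∘ g := by
  exact fieldAt_comp_aut' g θ W N x j s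

omit hW hne in
/-- A full sweep is the start of the next one. -/
theorem fieldAt_half (x : Om V) (hN : N ≤ j) :
    fieldAt G θ W N x j (1 / 2) = fieldAt G θ W N x (j + 1) 0 := by
  exact fieldAt_half' x hN

/-- (E1) martingale property. -/
theorem integral_gibbs_fieldAt (hN : N ≤ j) (s : ℝ) (f : Finset V → ℝ) :
    ∫ x, gibbs G θ (fieldAt G θ W N x j s) W f ∂(omP V) = gibbs G θ (fun _ => 0) W f := by
  exact integral_gibbs_fieldAt' hG hθ0 hθ1 hW hne hN s f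

/-- (E1') the martingale property, L² form: increments are orthogonal to the past (condition on the labels of the
sweeps `< j`, `fieldAt .. j 0` depends only on these). -/
theorem integral_sq_gibbs_sub (hN : N ≤ j) {j' : ℤ} (hjj' : j ≤ j') (f : Finset V → ℝ) :
    ∫ x, (gibbs G θ (fieldAt G θ W N x j' 0) W f - gibbs G θ (fieldAt G θ W N x j 0) W f) ^ 2 ∂(omP V) =
      ∫ x, gibbs G θ (fieldAt G θ W N x j' 0) W f ^ 2 ∂(omP V) -
        ∫ x, gibbs G θ (fieldAt G θ W N x j 0) W f ^ 2 ∂(omP V) := by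
  exact integral_sq_gibbs_sub' hG hθ0 hθ1 hW hne hN hjj' f

/-- (E2) decay of `√(1-m²)`: only sweeps `0 ≤ i < j` are used (`N ≤ 0 ≤ j`). -/
theorem integral_sqrt_cvar_le (hN0 : N ≤ 0) (hj : 0 ≤ j) (s : ℝ) (hs : 0 ≤ s) {v : V} (hv : v ∈ W) :
    ∫ x, Real.sqrt (cvar G θ (fieldAt G θ W N x j s) W v) ∂(omP V) ≤ (191 / 192 : ℝ) ^ j.toNat := by
  exact integral_sqrt_cvar_le' hG hθ0 hθ1 hW hne hN0 hj s hv

omit hG hθ0 hθ1 hW hne in
/-- (E4) bound on the integrand of the pair inequality. -/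
theorem integral_psiU_le {ε : ℝ} (hε0 : 0 ≤ ε) (hε : ε ≤ 1 / 4) {f f' : Finset V → ℝ} {ℓ ℓ' : V → ℝ} {u : V}
    (hm : |mag G θ ℓ W u| ≤ 1) (hm' : |mag G θ' ℓ' W' u| ≤ 1) (huW : u ∈ W) (huW' : u ∈ W') :
    ∫ U in (0 : ℝ)..1, psiU G θ θ' W W' ε f f' ℓ ℓ' u U ≤
      2 * ε ^ 2 * (covG G θ ℓ W f (fun A => spin A u) - covG G θ' ℓ' W' f' (fun A => spin A u)) ^ 2 +
      512 * ε ^ 4 * (mag G θ ℓ W u - mag G θ' ℓ' W' u) ^ 2 * covG G θ' ℓ' W' f' (fun A => spin A u) ^ 2 := by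
  exact integral_psiU_le' hε0 hε hm hm' huW huW'

omit hG hθ0 hθ1 hW hne in
/-- (E4') vertices acting only in the larger system -/
theorem integral_psiU_le_of_not_mem {ε : ℝ} (hε0 : 0 ≤ ε) (hε : ε ≤ 1 / 4) {f f' : Finset V → ℝ} {ℓ ℓ' : V → ℝ} {u : V}
    (hm' : |mag G θ' ℓ' W' u| ≤ 1) (huW : u ∉ W) (huW' : u ∈ W') :
    ∫ U in (0 : ℝ)..1, psiU G θ θ' W W' ε f f' ℓ ℓ' u U ≤
      ε ^ 2 * covG G θ' ℓ' W' f' (fun A => spin A u) ^ 2 := by
  exact integral_psiU_le_of_not_mem' hε0 hε hm' huW huW'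

end Dyn


section BlockQuantities

/-- (J4 schedule input) lower bound of `ζ = -log Λ - I/5` and upper bound of `I`. -/
theorem blockAt_zeta (N j : ℤ) (s₀ : ℝ) (hs0 : 0 ≤ s₀) (hs : s₀ ≤ 1 / 2) :
    timeT N j s₀ / 60 ≤ -Real.log (blockAt N j s₀).lam - (blockAt N j s₀).kl / 5 ∧
      (blockAt N j s₀).kl ≤ timeT N j s₀ :=
  blockAt_zeta_aux N j s₀ hs0 hs

/-- The site field is bounded by the sum of channel strengths. -/
theorem blockAt_log_bound (N j : ℤ) (s₀ : ℝ) (hN : N ≤ j) (e : Block) :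
    |Real.log ((blockAt N j s₀).wp e / (blockAt N j s₀).wm e)| ≤
      2 * (2 * ∑ i ∈ Finset.Icc N j, eps i) := by
  rw [← sIdx_eq hN]
  exact blockAt_log_bound_aux N j s₀ e

/-- `1 - Λ ≥ 𝔱/6` -/
theorem blockAt_lam (N j : ℤ) (s₀ : ℝ) (hs0 : 0 ≤ s₀) (hs : s₀ ≤ 1 / 2) :
    (blockAt N j s₀).lam ≤ Real.exp (-(timeT N j s₀) / 6) :=
  lam_le_exp N j hs0 hs

end BlockQuantities

end Crest.Agent.Lib.IsingFIID
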