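/-
S0241, Mod E5 (blueprint section 4, E5): Girsanov for the sequential dynamics, helper52.
-/
import Crest.Agent.Lib.IsingFIID.DynCore

set_option autoImplicit false
set_option linter.unusedSectionVars false
set_option linter.unusedVariables false
universe u

namespace Crest.Agent.Lib.IsingFIID

namespace Gir

open MeasureTheory Filter
open scoped Classical Topology

variable {V : Type u} {G : SimpleGraph V} [G.LocallyFinite] {D : ℕ}

section OneDim

/-- The change of variables for the channel, on the unit interval. -/
theorem integral_chanT_unit {b : ℝ} (hb : |b| < 1) (g : ℝ → ℝ) :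
    ∫ a : unitInterval, g (chanT b a) =
      ∫ a : unitInterval, g (2 * (a : ℝ) - 1) * (1 + b * (2 * (a : ℝ) - 1)) := by
  rw [integral_unitInterval (g := fun a => g (chanT b a)),
    integral_unitInterval (g := fun a => g (2 * a - 1) * (1 + b * (2 * a - 1))),
    integral_chanT_gen hb]
  have := intervalIntegral.integral_comp_mul_add (a := 0) (b := 1)
    (fun y => g y * (1 + b * y)) (c := 2) (by norm_num) (-1)
  simp only [mul_zero, mul_one, zero_add] at this
  have e : ∀ a : ℝ, 2 * a + -1 = 2 * a - 1 := fun a => by ring
  simp only [e] at this
  rw [this]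
  have h2 : (2 : ℝ) + -1 = 1 := by norm_num
  rw [h2, smul_eq_mul, ← intervalIntegral.integral_const_mul]
  refine intervalIntegral.integral_congr fun y _ => ?_
  ring

end OneDim

section Fields

variable (G) (θ : ℝ) (W : Finset V)

/-- The adaptive dynamics along a fixed list of actions (vertex, sweep). -/
noncomputable def runL (L : List (V × ℤ)) (x : Om V) (ℓ : V → ℝ) : V → ℝ :=
  L.foldl (fun ℓ p => actStep G θ W (eps p.2) ℓ p.1 (uOf x p.1 p.2)) ℓ

/-- Non adaptive update. -/
noncomputable def hatStep (ε : ℝ) (ℓ : V → ℝ) (u : V) (U : ℝ) : V → ℝ :=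
  Function.update ℓ u (tanhAdd (ℓ u) (ε * (2 * U - 1)))

/-- The non adaptive field along a fixed list of actions. -/
noncomputable def hatL (L : List (V × ℤ)) (x : Om V) (ℓ : V → ℝ) : V → ℝ :=
  L.foldl (fun ℓ p => hatStep (eps p.2) ℓ p.1 (uOf x p.1 p.2)) ℓ

/-- The density along a fixed list of actions. -/
noncomputable def ratioL : List (V × ℤ) → Om V → (V → ℝ) → ℝ
  | [], _, _ => 1
  | p :: L, x, ℓ => (1 + eps p.2 * (2 * uOf x p.1 p.2 - 1) * mag G θ ℓ W p.1) *
      ratioL L x (hatStep (eps p.2) ℓ p.1 (uOf x p.1 p.2))

end Fields

section Measurable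

theorem measurable_uOf (v : V) (j : ℤ) : Measurable fun x : Om V => uOf x v j := by
  unfold uOf
  exact measurable_subtype_coe.comp
    ((measurable_pi_apply (j, true)).comp (measurable_pi_apply v))

theorem measurable_tanhAdd {α : Type*} [MeasurableSpace α] {f g : α → ℝ} (hf : Measurable f)
    (hg : Measurable g) : Measurable fun p => tanhAdd (f p) (g p) := by
  unfold tanhAdd
  exact (hf.add hg).div (measurable_const.add (hg.mul hf))

theorem measurable_expW_field (θ : ℝ) (W : Finset V) (f : Finset V → ℝ) :
    Measurable fun ℓ : V → ℝ => expW G θ (fun v => 1 + ℓ v) (fun v => 1 - ℓ v) W f := by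
  unfold expW siteW
  refine Finset.measurable_sum _ fun A _ => ?_
  refine Measurable.mul ?_ measurable_const
  refine Measurable.mul measurable_const ?_
  refine Finset.measurable_prod _ fun v _ => ?_
  by_cases hv : v ∈ A
  · simp only [hv, if_true]
    exact measurable_const.add (measurable_pi_apply v)
  · simp only [hv, if_false]
    exact measurable_const.sub (measurable_pi_apply v)

theorem measurable_mag_field (θ : ℝ) (W : Finset V) (u : V) :
    Measurable fun ℓ : V → ℝ => mag G θ ℓ W u := by
  unfold mag gibbs pfW
  exact (measurable_expW_field θ W _).div (measurable_expW_field θ W _)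

theorem measurable_actStep (θ : ℝ) (W : Finset V) (ε : ℝ) (u : V) :
    Measurable fun q : (V → ℝ) × ℝ => actStep G θ W ε q.1 u q.2 := by
  unfold actStep
  refine measurable_pi_iff.2 fun v => ?_
  by_cases hv : v = u
  · subst hv
    simp only [Function.update_self]
    refine measurable_tanhAdd ((measurable_pi_apply v).comp measurable_fst) ?_
    refine measurable_const.mul ?_
    exact measurable_chanT.comp
      ((measurable_const.mul ((measurable_mag_field θ W v).comp measurable_fst)).prodMk measurable_snd)
  · simp only [Function.update_of_ne hv]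
    exact (measurable_pi_apply v).comp measurable_fst

theorem measurable_hatStep (ε : ℝ) (u : V) :
    Measurable fun q : (V → ℝ) × ℝ => hatStep ε q.1 u q.2 := by
  unfold hatStep
  refine measurable_pi_iff.2 fun v => ?_
  by_cases hv : v = u
  · subst hv
    simp only [Function.update_self]
    refine measurable_tanhAdd ((measurable_pi_apply v).comp measurable_fst) ?_
    exact measurable_const.mul ((measurable_const.mul measurable_snd).sub measurable_const)
  · simp only [Function.update_of_ne hv]
    exact (measurable_pi_apply v).comp measurable_fst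

theorem measurable_runL (θ : ℝ) (W : Finset V) (L : List (V × ℤ)) :
    Measurable fun q : Om V × (V → ℝ) => runL G θ W L q.1 q.2 := by
  induction L with
  | nil => simpa [runL] using measurable_snd
  | cons p L ih =>
    have : (fun q : Om V × (V → ℝ) => runL G θ W (p :: L) q.1 q.2) =
        (fun q : Om V × (V → ℝ) => runL G θ W L q.1 q.2) ∘
          (fun q : Om V × (V → ℝ) =>
            (q.1, actStep G θ W (eps p.2) q.2 p.1 (uOf q.1 p.1 p.2))) := by
      ext q; rfl
    rw [this]
    refine ih.comp (measurable_fst.prodMk ?_)
    exact (measurable_actStep θ W _ _).comp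
      (measurable_snd.prodMk ((measurable_uOf _ _).comp measurable_fst))

theorem measurable_hatL (L : List (V × ℤ)) :
    Measurable fun q : Om V × (V → ℝ) => hatL L q.1 q.2 := by
  induction L with
  | nil => simpa [hatL] using measurable_snd
  | cons p L ih =>
    have : (fun q : Om V × (V → ℝ) => hatL (p :: L) q.1 q.2) =
        (fun q : Om V × (V → ℝ) => hatL L q.1 q.2) ∘
          (fun q : Om V × (V → ℝ) => (q.1, hatStep (eps p.2) q.2 p.1 (uOf q.1 p.1 p.2))) := by
      ext q; rfl
    rw [this]
    refine ih.comp (measurable_fst.prodMk ?_)
    exact (measurable_hatStep _ _).comp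
      (measurable_snd.prodMk ((measurable_uOf _ _).comp measurable_fst))

theorem measurable_ratioL (θ : ℝ) (W : Finset V) (L : List (V × ℤ)) :
    Measurable fun q : Om V × (V → ℝ) => ratioL G θ W L q.1 q.2 := by
  induction L with
  | nil => simp [ratioL]
  | cons p L ih =>
    simp only [ratioL]
    refine Measurable.mul ?_ ?_
    · refine measurable_const.add (Measurable.mul ?_ ?_)
      · refine measurable_const.mul ?_
        exact (measurable_const.mul ((measurable_uOf _ _).comp measurable_fst)).sub measurable_const
      · exact (measurable_mag_field θ W _).comp measurable_snd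
    · exact ih.comp (measurable_fst.prodMk ((measurable_hatStep _ _).comp
        (measurable_snd.prodMk ((measurable_uOf _ _).comp measurable_fst))))

end Measurable

end Gir

end Crest.Agent.Lib.IsingFIID
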