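/-
S0241, Mod E5 (blueprint section 4, E5): Girsanov for the sequential dynamics, helper52.
-/
import Crest.Agent.Lib.IsingFIID.DynGirsanovDefs

set_option autoImplicit false
set_option linter.unusedSectionVars false
set_option linter.unusedVariables false
universe u

namespace Crest.Agent.Lib.IsingFIID

namespace Gir

open MeasureTheory Filter
open scoped Classical Topology

variable {V : Type u} {G : SimpleGraph V} [G.LocallyFinite] {D : ℕ}

section Measurable

theorem measurable_runL_comp (θ : ℝ) (W : Finset V) (L : List (V × ℤ)) {α : Type*}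
    [MeasurableSpace α] {f : α → Om V} {g : α → V → ℝ} (hf : Measurable f) (hg : Measurable g) :
    Measurable fun a => runL G θ W L (f a) (g a) :=
  Measurable.comp (g := fun q : Om V × (V → ℝ) => runL G θ W L q.1 q.2)
    (f := fun a => (f a, g a)) (measurable_runL θ W L) (hf.prodMk hg)

theorem measurable_hatL_comp (L : List (V × ℤ)) {α : Type*}
    [MeasurableSpace α] {f : α → Om V} {g : α → V → ℝ} (hf : Measurable f) (hg : Measurable g) :
    Measurable fun a => hatL L (f a) (g a) :=
  Measurable.comp (g := fun q : Om V × (V → ℝ) => hatL L q.1 q.2)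
    (f := fun a => (f a, g a)) (measurable_hatL L) (hf.prodMk hg)

theorem measurable_ratioL_comp (θ : ℝ) (W : Finset V) (L : List (V × ℤ)) {α : Type*}
    [MeasurableSpace α] {f : α → Om V} {g : α → V → ℝ} (hf : Measurable f) (hg : Measurable g) :
    Measurable fun a => ratioL G θ W L (f a) (g a) :=
  Measurable.comp (g := fun q : Om V × (V → ℝ) => ratioL G θ W L q.1 q.2)
    (f := fun a => (f a, g a)) (measurable_ratioL θ W L) (hf.prodMk hg)

theorem measurable_actStep_unit (θ : ℝ) (W : Finset V) (ε : ℝ) (ℓ : V → ℝ) (u : V) :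
    Measurable fun q : Om V × unitInterval => actStep G θ W ε ℓ u (q.2 : ℝ) := by
  have h : Measurable fun q : Om V × unitInterval => (ℓ, (q.2 : ℝ)) :=
    Measurable.prodMk measurable_const (measurable_subtype_coe.comp measurable_snd)
  exact (measurable_actStep θ W ε u).comp h

theorem measurable_runL_left (θ : ℝ) (W : Finset V) (L : List (V × ℤ)) (ℓ : V → ℝ) :
    Measurable fun x : Om V => runL G θ W L x ℓ :=
  measurable_runL_comp θ W L measurable_id measurable_const

theorem measurable_hatL_left (L : List (V × ℤ)) (ℓ : V → ℝ) :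
    Measurable fun x : Om V => hatL L x ℓ :=
  measurable_hatL_comp L measurable_id measurable_const

theorem measurable_ratioL_left (θ : ℝ) (W : Finset V) (L : List (V × ℤ)) (ℓ : V → ℝ) :
    Measurable fun x : Om V => ratioL G θ W L x ℓ :=
  measurable_ratioL_comp θ W L measurable_id measurable_const

end Measurable

section Updates

theorem uOf_updCoord_self (x : Om V) (u : V) (i : ℤ) (a : unitInterval) :
    uOf (updCoord x u (i, true) a) u i = a := by
  simp [uOf, updCoord]

theorem uOf_updCoord_ne (x : Om V) {u v : V} {i j : ℤ} (a : unitInterval) (h : (v, j) ≠ (u, i)) :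
    uOf (updCoord x u (i, true) a) v j = uOf x v j := by
  unfold uOf updCoord
  by_cases hv : v = u
  · subst hv
    have hj : j ≠ i := fun hj => h (by rw [hj])
    have : (j, true) ≠ (i, true) := fun h' => hj (Prod.ext_iff.1 h').1
    simp [Function.update_of_ne this]
  · simp [Function.update_of_ne hv]

theorem runL_updCoord (θ : ℝ) (W : Finset V) {L : List (V × ℤ)} {u : V} {i : ℤ} (h : (u, i) ∉ L)
    (x : Om V) (a : unitInterval) (ℓ : V → ℝ) :
    runL G θ W L (updCoord x u (i, true) a) ℓ = runL G θ W L x ℓ := by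
  induction L generalizing ℓ with
  | nil => rfl
  | cons p L ih =>
    have hp : (p.1, p.2) ≠ (u, i) := fun h' => h (by rw [← h']; simp)
    have hL : (u, i) ∉ L := fun h' => h (List.mem_cons_of_mem _ h')
    have := ih hL (actStep G θ W (eps p.2) ℓ p.1 (uOf x p.1 p.2))
    simpa [runL, uOf_updCoord_ne x a hp] using this

theorem hatL_updCoord {L : List (V × ℤ)} {u : V} {i : ℤ} (h : (u, i) ∉ L)
    (x : Om V) (a : unitInterval) (ℓ : V → ℝ) :
    hatL L (updCoord x u (i, true) a) ℓ = hatL L x ℓ := by
  induction L generalizing ℓ with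
  | nil => rfl
  | cons p L ih =>
    have hp : (p.1, p.2) ≠ (u, i) := fun h' => h (by rw [← h']; simp)
    have hL : (u, i) ∉ L := fun h' => h (List.mem_cons_of_mem _ h')
    have := ih hL (hatStep (eps p.2) ℓ p.1 (uOf x p.1 p.2))
    simpa [hatL, uOf_updCoord_ne x a hp] using this

theorem ratioL_updCoord (θ : ℝ) (W : Finset V) {L : List (V × ℤ)} {u : V} {i : ℤ} (h : (u, i) ∉ L)
    (x : Om V) (a : unitInterval) (ℓ : V → ℝ) :
    ratioL G θ W L (updCoord x u (i, true) a) ℓ = ratioL G θ W L x ℓ := by
  induction L generalizing ℓ with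
  | nil => rfl
  | cons p L ih =>
    have hp : (p.1, p.2) ≠ (u, i) := fun h' => h (by rw [← h']; simp)
    have hL : (u, i) ∉ L := fun h' => h (List.mem_cons_of_mem _ h')
    simp only [ratioL, uOf_updCoord_ne x a hp, ih hL]

end Updates

section GirsanovList

variable (hG : RegTree G D) {θ : ℝ} (hθ0 : 0 ≤ θ) (hθ1 : θ < 1) {W : Finset V}
  (hW : IsConvexSet G W) (hne : W.Nonempty)
include hG hθ0 hθ1 hW hne

omit hG hθ0 hθ1 hW hne in
theorem uOf_mem (x : Om V) (v : V) (j : ℤ) : uOf x v j ∈ Set.Icc (0 : ℝ) 1 :=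
  (x v (j, true)).2

omit hG hθ0 hθ1 hW hne in
theorem abs_two_mul_sub_one_le {U : ℝ} (hU : U ∈ Set.Icc (0 : ℝ) 1) : |2 * U - 1| ≤ 1 := by
  rw [abs_le]
  constructor <;> linarith [hU.1, hU.2]

omit hG hθ0 hθ1 hW hne in
theorem abs_eps_le (j : ℤ) : |eps j| ≤ 1 / 4 := by
  rw [abs_of_pos (eps_pos j)]
  exact eps_le j

omit hG hθ0 hθ1 hW hne in
theorem abs_eps_mul_lt {j : ℤ} {y : ℝ} (hy : |y| ≤ 1) : |eps j * y| < 1 := by
  rw [abs_mul]
  have := abs_eps_le j
  nlinarith [abs_nonneg y, abs_nonneg (eps j)]

omit hG hθ0 hθ1 hW hne in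
theorem abs_update_lt {ℓ : V → ℝ} (hℓ : ∀ v, |ℓ v| < 1) (u : V) {a : ℝ} (ha : |a| < 1) (v : V) :
    |Function.update ℓ u (tanhAdd (ℓ u) a) v| < 1 := by
  by_cases hv : v = u
  · subst hv
    simpa using abs_tanhAdd_lt (hℓ v) ha
  · simpa [Function.update_of_ne hv] using hℓ v

omit hG hθ0 hθ1 hW hne in
theorem abs_hatStep_lt {ℓ : V → ℝ} (hℓ : ∀ v, |ℓ v| < 1) (u : V) (j : ℤ) {U : ℝ}
    (hU : U ∈ Set.Icc (0 : ℝ) 1) (v : V) : |hatStep (eps j) ℓ u U v| < 1 :=
  abs_update_lt hℓ u (abs_eps_mul_lt (abs_two_mul_sub_one_le hU)) v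

theorem abs_mag_le {ℓ : V → ℝ} (hℓ : ∀ v, |ℓ v| < 1) {u : V} (hu : u ∈ W) :
    |mag G θ ℓ W u| < 1 :=
  abs_mag_lt hG hθ0 hθ1 hℓ hW hne hu

theorem abs_eps_mul_mag_lt {ℓ : V → ℝ} (hℓ : ∀ v, |ℓ v| < 1) {u : V} (hu : u ∈ W) (j : ℤ) :
    |eps j * mag G θ ℓ W u| < 1 :=
  abs_eps_mul_lt (abs_mag_le hG hθ0 hθ1 hW hne hℓ hu).le

theorem abs_actStep_lt {ℓ : V → ℝ} (hℓ : ∀ v, |ℓ v| < 1) {u : V} (hu : u ∈ W) (j : ℤ) {U : ℝ}
    (hU : U ∈ Set.Icc (0 : ℝ) 1) (v : V) : |actStep G θ W (eps j) ℓ u U v| < 1 := by
  unfold actStep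
  refine abs_update_lt hℓ u (abs_eps_mul_lt ?_) v
  have := chanT_mem (abs_eps_mul_mag_lt hG hθ0 hθ1 hW hne hℓ hu j).le hU
  rw [abs_le]
  exact ⟨this.1, this.2⟩

/-- bound on the density -/
theorem abs_ratioL_le (L : List (V × ℤ)) (hLW : ∀ p ∈ L, p.1 ∈ W) (x : Om V) {ℓ : V → ℝ}
    (hℓ : ∀ v, |ℓ v| < 1) : |ratioL G θ W L x ℓ| ≤ 2 ^ L.length := by
  induction L generalizing ℓ with
  | nil => simp [ratioL]
  | cons p L ih =>
    simp only [ratioL, List.length_cons, abs_mul]
    have h1 : |1 + eps p.2 * (2 * uOf x p.1 p.2 - 1) * mag G θ ℓ W p.1| ≤ 2 := by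
      have h2 : |eps p.2 * (2 * uOf x p.1 p.2 - 1) * mag G θ ℓ W p.1| ≤ 1 := by
        rw [abs_mul]
        have h3 := (abs_eps_mul_lt (j := p.2) (abs_two_mul_sub_one_le (uOf_mem x p.1 p.2))).le
        have h4 := (abs_mag_le hG hθ0 hθ1 hW hne hℓ (hLW p (List.mem_cons_self ..))).le
        nlinarith [abs_nonneg (eps p.2 * (2 * uOf x p.1 p.2 - 1)), abs_nonneg (mag G θ ℓ W p.1)]
      have := abs_add_le (1 : ℝ) (eps p.2 * (2 * uOf x p.1 p.2 - 1) * mag G θ ℓ W p.1)
      simp only [abs_one] at this
      linarith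
    have h5 := ih (fun q hq => hLW q (List.mem_cons_of_mem _ hq))
      (ℓ := hatStep (eps p.2) ℓ p.1 (uOf x p.1 p.2))
      (abs_hatStep_lt hℓ _ _ (uOf_mem x p.1 p.2))
    rw [pow_succ, mul_comm]
    exact mul_le_mul h5 h1 (abs_nonneg _) (by positivity)

/-- **Girsanov along a fixed list.** -/
theorem girsanov_list (L : List (V × ℤ)) (hL : L.Nodup) (hLW : ∀ p ∈ L, p.1 ∈ W)
    {H : (V → ℝ) → ℝ} (hH : Measurable H) (hHb : ∃ C, ∀ ℓ, |H ℓ| ≤ C) {ℓ : V → ℝ}
    (hℓ : ∀ v, |ℓ v| < 1) :
    ∫ x, H (runL G θ W L x ℓ) ∂(omP V) =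
      ∫ x, H (hatL L x ℓ) * ratioL G θ W L x ℓ ∂(omP V) := by
  obtain ⟨C, hC⟩ := hHb
  have hC0 : 0 ≤ C := (abs_nonneg _).trans (hC 0)
  induction L generalizing ℓ with
  | nil => simp [runL, hatL, ratioL]
  | cons p L ih =>
    obtain ⟨u, i⟩ := p
    have hpL : (u, i) ∉ L := (List.nodup_cons.1 hL).1
    have hLnd : L.Nodup := (List.nodup_cons.1 hL).2
    have huW : u ∈ W := hLW (u, i) (List.mem_cons_self ..)
    have hLW' : ∀ q ∈ L, q.1 ∈ W := fun q hq => hLW q (List.mem_cons_of_mem _ hq)
    set m := mag G θ ℓ W u with hm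
    have hbm : |eps i * m| < 1 := abs_eps_mul_mag_lt hG hθ0 hθ1 hW hne hℓ huW i
    -- Left hand side
    have hmeasL : Measurable fun x : Om V => H (runL G θ W ((u, i) :: L) x ℓ) :=
      hH.comp (measurable_runL_left θ W _ ℓ)
    have hintL : Integrable (fun x : Om V => H (runL G θ W ((u, i) :: L) x ℓ)) (omP V) :=
      Integrable.of_bound hmeasL.aestronglyMeasurable C
        (Eventually.of_forall fun x => by simpa using hC _)
    -- Right hand side
    have hmeasR : Measurable fun x : Om V =>
        H (hatL ((u, i) :: L) x ℓ) * ratioL G θ W ((u, i) :: L) x ℓ :=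
      (hH.comp (measurable_hatL_left _ ℓ)).mul (measurable_ratioL_left θ W _ ℓ)
    have hintR : Integrable (fun x : Om V =>
        H (hatL ((u, i) :: L) x ℓ) * ratioL G θ W ((u, i) :: L) x ℓ) (omP V) := by
      refine Integrable.of_bound hmeasR.aestronglyMeasurable (C * 2 ^ ((u, i) :: L).length)
        (Eventually.of_forall fun x => ?_)
      rw [Real.norm_eq_abs, abs_mul]
      exact mul_le_mul (hC _) (abs_ratioL_le hG hθ0 hθ1 hW hne _ hLW x hℓ) (abs_nonneg _) hC0
    rw [integral_updCoord u (i, true) hintL, integral_updCoord u (i, true) hintR]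
    -- rewrite the inner integrands
    have hLHSin : ∀ x : Om V, ∀ a : unitInterval,
        H (runL G θ W ((u, i) :: L) (updCoord x u (i, true) a) ℓ) =
          H (runL G θ W L x (actStep G θ W (eps i) ℓ u a)) := by
      intro x a
      have : runL G θ W ((u, i) :: L) (updCoord x u (i, true) a) ℓ =
          runL G θ W L (updCoord x u (i, true) a)
            (actStep G θ W (eps i) ℓ u (uOf (updCoord x u (i, true) a) u i)) := rfl
      rw [this, uOf_updCoord_self, runL_updCoord θ W hpL]
    have hRHSin : ∀ x : Om V, ∀ a : unitInterval,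
        H (hatL ((u, i) :: L) (updCoord x u (i, true) a) ℓ) *
          ratioL G θ W ((u, i) :: L) (updCoord x u (i, true) a) ℓ =
        (fun y => H (hatL L x (Function.update ℓ u (tanhAdd (ℓ u) (eps i * y)))) *
            ratioL G θ W L x (Function.update ℓ u (tanhAdd (ℓ u) (eps i * y)))) (2 * (a : ℝ) - 1) *
          (1 + eps i * m * (2 * (a : ℝ) - 1)) := by
      intro x a
      have h1 : hatL ((u, i) :: L) (updCoord x u (i, true) a) ℓ =
          hatL L (updCoord x u (i, true) a)
            (hatStep (eps i) ℓ u (uOf (updCoord x u (i, true) a) u i)) := rfl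
      have h2 : ratioL G θ W ((u, i) :: L) (updCoord x u (i, true) a) ℓ =
          (1 + eps i * (2 * uOf (updCoord x u (i, true) a) u i - 1) * m) *
          ratioL G θ W L (updCoord x u (i, true) a)
            (hatStep (eps i) ℓ u (uOf (updCoord x u (i, true) a) u i)) := rfl
      rw [h1, h2, uOf_updCoord_self, hatL_updCoord hpL, ratioL_updCoord θ W hpL]
      simp only [hatStep]
      ring
    simp only [hLHSin, hRHSin]
    -- the measurable integrand on the product
    have hLact : ∀ a : unitInterval, ∀ v, |actStep G θ W (eps i) ℓ u (a : ℝ) v| < 1 := fun a v =>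
      abs_actStep_lt hG hθ0 hθ1 hW hne hℓ huW i a.2 v
    have hmeas2 : Measurable fun q : Om V × unitInterval =>
        H (runL G θ W L q.1 (actStep G θ W (eps i) ℓ u (q.2 : ℝ))) :=
      hH.comp (measurable_runL_comp θ W L measurable_fst (measurable_actStep_unit θ W _ ℓ u))
    have hint2 : Integrable (fun q : Om V × unitInterval =>
        H (runL G θ W L q.1 (actStep G θ W (eps i) ℓ u (q.2 : ℝ))))
        ((omP V).prod (volume : Measure unitInterval)) :=
      Integrable.of_bound hmeas2.aestronglyMeasurable C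
        (Eventually.of_forall fun q => by simpa using hC _)
    have hmeas3 : Measurable fun q : Om V × unitInterval =>
        H (hatL L q.1 (actStep G θ W (eps i) ℓ u (q.2 : ℝ))) *
          ratioL G θ W L q.1 (actStep G θ W (eps i) ℓ u (q.2 : ℝ)) :=
      (hH.comp (measurable_hatL_comp L measurable_fst (measurable_actStep_unit θ W _ ℓ u))).mul
        (measurable_ratioL_comp θ W L measurable_fst (measurable_actStep_unit θ W _ ℓ u))
    have hint3 : Integrable (fun q : Om V × unitInterval =>
        H (hatL L q.1 (actStep G θ W (eps i) ℓ u (q.2 : ℝ))) *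
          ratioL G θ W L q.1 (actStep G θ W (eps i) ℓ u (q.2 : ℝ)))
        ((omP V).prod (volume : Measure unitInterval)) := by
      refine Integrable.of_bound hmeas3.aestronglyMeasurable (C * 2 ^ L.length)
        (Eventually.of_forall fun q => ?_)
      rw [Real.norm_eq_abs, abs_mul]
      exact mul_le_mul (hC _) (abs_ratioL_le hG hθ0 hθ1 hW hne _ hLW' q.1 (hLact q.2))
        (abs_nonneg _) hC0
    rw [integral_integral_swap
      (f := fun (x : Om V) (a : unitInterval) => H (runL G θ W L x (actStep G θ W (eps i) ℓ u (a : ℝ))))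
      hint2]
    have hIH : ∀ a : unitInterval,
        ∫ x, H (runL G θ W L x (actStep G θ W (eps i) ℓ u (a : ℝ))) ∂(omP V) =
        ∫ x, H (hatL L x (actStep G θ W (eps i) ℓ u (a : ℝ))) *
          ratioL G θ W L x (actStep G θ W (eps i) ℓ u (a : ℝ)) ∂(omP V) :=
      fun a => ih hLnd hLW' (hLact a)
    simp only [hIH]
    rw [integral_integral_swap
      (f := fun (a : unitInterval) (x : Om V) => H (hatL L x (actStep G θ W (eps i) ℓ u (a : ℝ))) *
        ratioL G θ W L x (actStep G θ W (eps i) ℓ u (a : ℝ)))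
      (hint3.swap)]
    refine integral_congr_ae (Eventually.of_forall fun x => ?_)
    simp only
    have hact : ∀ a : unitInterval, actStep G θ W (eps i) ℓ u (a : ℝ) =
        Function.update ℓ u (tanhAdd (ℓ u) (eps i * chanT (eps i * m) a)) := fun a => rfl
    simp only [hact]
    exact integral_chanT_unit hbm (fun y =>
      H (hatL L x (Function.update ℓ u (tanhAdd (ℓ u) (eps i * y)))) *
        ratioL G θ W L x (Function.update ℓ u (tanhAdd (ℓ u) (eps i * y))))

end GirsanovList

section Weights

variable (G) (θ : ℝ) (W : Finset V)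

/-- Product of the channel factors of `v` along `L`, spin `s`. -/
noncomputable def prodL (L : List (V × ℤ)) (x : Om V) (s : ℝ) (v : V) : ℝ :=
  ((L.filter fun p => p.1 = v).map fun p => 1 + eps p.2 * (2 * uOf x p.1 p.2 - 1) * s).prod

/-- The field of a pair of site weights. -/
noncomputable def fieldOf (wp wm : V → ℝ) (v : V) : ℝ := (wp v - wm v) / (wp v + wm v)

variable {G θ W}

omit [G.LocallyFinite] in
theorem prodL_nil (x : Om V) (s : ℝ) (v : V) : prodL [] x s v = 1 := by
  simp [prodL]

theorem prodL_cons (p : V × ℤ) (L : List (V × ℤ)) (x : Om V) (s : ℝ) (v : V) :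
    prodL (p :: L) x s v =
      (if p.1 = v then 1 + eps p.2 * (2 * uOf x p.1 p.2 - 1) * s else 1) * prodL L x s v := by
  unfold prodL
  by_cases h : p.1 = v
  · simp [List.filter_cons, h]
  · simp [List.filter_cons, h]

theorem prodL_append (L₁ L₂ : List (V × ℤ)) (x : Om V) (s : ℝ) (v : V) :
    prodL (L₁ ++ L₂) x s v = prodL L₁ x s v * prodL L₂ x s v := by
  simp [prodL, List.filter_append, List.map_append, List.prod_append]

theorem abs_chanFactor_le (i : ℤ) {y s : ℝ} (hy : |y| ≤ 1) (hs : |s| ≤ 1) :
    |eps i * y * s| ≤ 1 / 4 := by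
  rw [abs_mul, abs_mul]
  have h := abs_eps_le i
  have h1 : |y| * |s| ≤ 1 := by nlinarith [abs_nonneg y, abs_nonneg s]
  nlinarith [abs_nonneg (eps i), mul_nonneg (abs_nonneg y) (abs_nonneg s)]

theorem chanFactor_pos (i : ℤ) {y s : ℝ} (hy : |y| ≤ 1) (hs : |s| ≤ 1) :
    0 < 1 + eps i * y * s := by
  have := abs_le.1 (abs_chanFactor_le i hy hs)
  linarith [this.1]

theorem prodL_pos (L : List (V × ℤ)) (x : Om V) {s : ℝ} (hs : |s| ≤ 1) (v : V) :
    0 < prodL L x s v := by
  induction L with
  | nil => simp [prodL_nil]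
  | cons p L ih =>
    rw [prodL_cons]
    refine mul_pos ?_ ih
    split_ifs
    · exact chanFactor_pos p.2 (abs_two_mul_sub_one_le (uOf_mem x _ _)) hs
    · exact one_pos

theorem abs_fieldOf_lt {wp wm : V → ℝ} (hp : ∀ v, 0 < wp v) (hm : ∀ v, 0 < wm v) (v : V) :
    |fieldOf wp wm v| < 1 := by
  unfold fieldOf
  have h := hp v
  have h' := hm v
  rw [abs_lt, lt_div_iff₀ (by linarith), div_lt_iff₀ (by linarith)]
  constructor <;> linarith

/-- One channel step in terms of weights. -/
theorem fieldOf_step {wp wm : V → ℝ} (hp : ∀ v, 0 < wp v) (hm : ∀ v, 0 < wm v) (u : V) {a : ℝ}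
    (ha : |a| < 1) :
    fieldOf (fun v => (if u = v then 1 + a else 1) * wp v)
        (fun v => (if u = v then 1 - a else 1) * wm v) =
      Function.update (fieldOf wp wm) u (tanhAdd (fieldOf wp wm u) a) := by
  ext v
  by_cases hv : v = u
  · subst hv
    simp only [Function.update_self, if_true, fieldOf, tanhAdd]
    have h := hp v
    have h' := hm v
    have h1 : 0 < wp v + wm v := by linarith
    have ha' := abs_lt.1 ha
    have h2 : 0 < (1 + a) * wp v + (1 - a) * wm v := by
      have : 0 < 1 + a := by linarith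
      have : 0 < 1 - a := by linarith
      positivity
    have h4 : (wp v + wm v) + a * (wp v - wm v) ≠ 0 := by
      have : (wp v + wm v) + a * (wp v - wm v) = (1 + a) * wp v + (1 - a) * wm v := by ring
      rw [this]
      exact h2.ne'
    have e1 : ((wp v - wm v) / (wp v + wm v) + a) / (1 + a * ((wp v - wm v) / (wp v + wm v))) =
        ((wp v - wm v) + a * (wp v + wm v)) / ((wp v + wm v) + a * (wp v - wm v)) := by
      have h5 : 1 + a * ((wp v - wm v) / (wp v + wm v)) =
          ((wp v + wm v) + a * (wp v - wm v)) / (wp v + wm v) := by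
        field_simp
      rw [h5]
      field_simp
    rw [e1]
    congr 1 <;> ring
  · have hv' : u ≠ v := fun h => hv h.symm
    simp [fieldOf, Function.update_of_ne hv, hv']

theorem fieldOf_one : fieldOf (fun _ : V => (1 : ℝ)) (fun _ => 1) = fun _ => 0 := by
  ext v; simp [fieldOf]

theorem expW_add_G (wp wm : V → ℝ) (f g : Finset V → ℝ) :
    expW G θ wp wm W (fun A => f A + g A) = expW G θ wp wm W f + expW G θ wp wm W g := by
  simp only [expW, mul_add, Finset.sum_add_distrib]

theorem expW_const_mul (wp wm : V → ℝ) (c : ℝ) (f : Finset V → ℝ) :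
    expW G θ wp wm W (fun A => c * f A) = c * expW G θ wp wm W f := by
  simp only [expW, Finset.mul_sum]
  exact Finset.sum_congr rfl fun A _ => by ring

/-- Site weights after a channel action. -/
theorem siteW_step (wp wm : V → ℝ) {u : V} (hu : u ∈ W) (a : ℝ) (A : Finset V) :
    siteW (fun v => (if u = v then 1 + a else 1) * wp v)
        (fun v => (if u = v then 1 - a else 1) * wm v) W A =
      siteW wp wm W A * (1 + a * spin A u) := by
  unfold siteW
  rw [← Finset.mul_prod_erase _ _ hu, ← Finset.mul_prod_erase W (fun v => if v ∈ A then wp v else wm v) hu]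
  have h1 : ∏ v ∈ W.erase u, (if v ∈ A then (if u = v then 1 + a else 1) * wp v
      else (if u = v then 1 - a else 1) * wm v) = ∏ v ∈ W.erase u, if v ∈ A then wp v else wm v := by
    refine Finset.prod_congr rfl fun v hv => ?_
    have : u ≠ v := fun h => (Finset.ne_of_mem_erase hv) h.symm
    simp [this]
  rw [h1]
  by_cases hA : u ∈ A
  · simp [hA, spin]; ring
  · simp [hA, spin]; ring

theorem pfW_step (wp wm : V → ℝ) {u : V} (hu : u ∈ W) (a : ℝ) :
    pfW G θ (fun v => (if u = v then 1 + a else 1) * wp v)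
        (fun v => (if u = v then 1 - a else 1) * wm v) W =
      pfW G θ wp wm W + a * expW G θ wp wm W (fun A => spin A u) := by
  unfold pfW
  rw [← expW_const_mul, ← expW_add_G]
  unfold expW
  refine Finset.sum_congr rfl fun A _ => ?_
  rw [siteW_step wp wm hu]
  ring

theorem pfW_congr {wp wm wp' wm' : V → ℝ} (hp : ∀ v ∈ W, wp v = wp' v) (hm : ∀ v ∈ W, wm v = wm' v) :
    pfW G θ wp wm W = pfW G θ wp' wm' W := by
  unfold pfW expW siteW
  refine Finset.sum_congr rfl fun A _ => ?_
  congr 2
  refine Finset.prod_congr rfl fun v hv => ?_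
  rw [hp v hv, hm v hv]

section Core

variable (hG : RegTree G D) (hθ0 : 0 ≤ θ) (hθ1 : θ < 1) (hW : IsConvexSet G W) (hne : W.Nonempty)
include hG hθ0 hθ1 hW hne

theorem pfW_weights_pos {wp wm : V → ℝ} (hp : ∀ v, 0 < wp v) (hm : ∀ v, 0 < wm v) :
    0 < pfW G θ wp wm W := by
  have h := expW_eq_prod_mul hG hθ0 hθ1 wp wm (fun v => add_pos (hp v) (hm v)) W (fun _ => 1)
  unfold pfW
  rw [h]
  refine mul_pos (Finset.prod_pos fun v _ => div_pos (add_pos (hp v) (hm v)) two_pos) ?_
  exact pfW_pos hG hθ0 hθ1 (ℓ := fieldOf wp wm) (abs_fieldOf_lt hp hm) hW hne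

/-- the magnetisation is the normalised spin expectation with the weights -/
theorem mag_fieldOf {wp wm : V → ℝ} (hp : ∀ v, 0 < wp v) (hm : ∀ v, 0 < wm v) (u : V) :
    expW G θ wp wm W (fun A => spin A u) = mag G θ (fieldOf wp wm) W u * pfW G θ wp wm W := by
  have hsum := fun v => add_pos (hp v) (hm v)
  have h1 := expW_eq_prod_mul hG hθ0 hθ1 wp wm hsum W (fun A => spin A u)
  have h2 := expW_eq_prod_mul hG hθ0 hθ1 wp wm hsum W (fun _ => 1)
  have hpos := pfW_pos hG hθ0 hθ1 (ℓ := fieldOf wp wm) (abs_fieldOf_lt hp hm) hW hne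
  unfold mag gibbs pfW
  unfold pfW at hpos
  rw [h1, h2]
  unfold fieldOf
  unfold fieldOf at hpos
  field_simp

/-- Weights after one action: the partition function. -/
theorem pfW_step' {wp wm : V → ℝ} (hp : ∀ v, 0 < wp v) (hm : ∀ v, 0 < wm v) {u : V} (hu : u ∈ W)
    (a : ℝ) :
    pfW G θ (fun v => (if u = v then 1 + a else 1) * wp v)
        (fun v => (if u = v then 1 - a else 1) * wm v) W =
      (1 + a * mag G θ (fieldOf wp wm) W u) * pfW G θ wp wm W := by
  rw [pfW_step wp wm hu, mag_fieldOf hG hθ0 hθ1 hW hne hp hm]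
  ring

/-- `hatL` and `ratioL` in terms of weights. -/
theorem hatL_ratioL_weights (L : List (V × ℤ)) (hLW : ∀ p ∈ L, p.1 ∈ W) (x : Om V) {wp wm : V → ℝ}
    (hp : ∀ v, 0 < wp v) (hm : ∀ v, 0 < wm v) :
    hatL L x (fieldOf wp wm) =
        fieldOf (fun v => prodL L x 1 v * wp v) (fun v => prodL L x (-1) v * wm v) ∧
      ratioL G θ W L x (fieldOf wp wm) * pfW G θ wp wm W =
        pfW G θ (fun v => prodL L x 1 v * wp v) (fun v => prodL L x (-1) v * wm v) W := by
  induction L generalizing wp wm with
  | nil => simp [hatL, ratioL, prodL_nil]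
  | cons p L ih =>
    obtain ⟨u, i⟩ := p
    set a := eps i * (2 * uOf x u i - 1) with ha
    have ha1 : |a| < 1 := abs_eps_mul_lt (abs_two_mul_sub_one_le (uOf_mem x u i))
    have ha2 := abs_lt.1 ha1
    have huW : u ∈ W := hLW (u, i) (List.mem_cons_self ..)
    set wp' : V → ℝ := fun v => (if u = v then 1 + a else 1) * wp v with hwp'
    set wm' : V → ℝ := fun v => (if u = v then 1 - a else 1) * wm v with hwm'
    have hp' : ∀ v, 0 < wp' v := by
      intro v
      refine mul_pos ?_ (hp v)
      split_ifs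
      · linarith [ha2.1]
      · exact one_pos
    have hm' : ∀ v, 0 < wm' v := by
      intro v
      refine mul_pos ?_ (hm v)
      split_ifs
      · linarith [ha2.2]
      · exact one_pos
    have hf : hatStep (eps i) (fieldOf wp wm) u (uOf x u i) = fieldOf wp' wm' := by
      rw [hwp', hwm', fieldOf_step hp hm u ha1]
      rfl
    obtain ⟨ih1, ih2⟩ := ih (fun q hq => hLW q (List.mem_cons_of_mem _ hq)) hp' hm'
    have hw1 : (fun v => prodL ((u, i) :: L) x 1 v * wp v) = fun v => prodL L x 1 v * wp' v := by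
      ext v
      rw [prodL_cons]
      simp only [hwp']
      have : (if u = v then 1 + eps i * (2 * uOf x u i - 1) * 1 else 1) = if u = v then 1 + a else 1 := by
        simp [ha]
      rw [this]
      ring
    have hw2 : (fun v => prodL ((u, i) :: L) x (-1) v * wm v) = fun v => prodL L x (-1) v * wm' v := by
      ext v
      rw [prodL_cons]
      simp only [hwm']
      have : (if u = v then 1 + eps i * (2 * uOf x u i - 1) * (-1) else 1) = if u = v then 1 - a else 1 := by
        simp only [ha]
        split_ifs <;> ring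
      rw [this]
      ring
    constructor
    · have : hatL ((u, i) :: L) x (fieldOf wp wm) =
          hatL L x (hatStep (eps i) (fieldOf wp wm) u (uOf x u i)) := rfl
      rw [this, hf, ih1, hw1, hw2]
    · have : ratioL G θ W ((u, i) :: L) x (fieldOf wp wm) =
          (1 + eps i * (2 * uOf x u i - 1) * mag G θ (fieldOf wp wm) W u) *
            ratioL G θ W L x (hatStep (eps i) (fieldOf wp wm) u (uOf x u i)) := rfl
      rw [this, hf, hw1, hw2, ← ih2]
      rw [pfW_step' hG hθ0 hθ1 hW hne hp hm huW]
      ring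

/-- From zero field. -/
theorem hatL_ratioL_zero (L : List (V × ℤ)) (hLW : ∀ p ∈ L, p.1 ∈ W) (x : Om V) :
    hatL L x (fun _ => 0) = fieldOf (prodL L x 1) (prodL L x (-1)) ∧
      ratioL G θ W L x (fun _ => 0) = pfW G θ (prodL L x 1) (prodL L x (-1)) W := by
  have h := hatL_ratioL_weights (wp := fun _ => 1) (wm := fun _ => 1)
    hG hθ0 hθ1 hW hne L hLW x (fun _ => one_pos) (fun _ => one_pos)
  rw [fieldOf_one] at h
  have h1 : pfW G θ (fun _ : V => (1 : ℝ)) (fun _ => 1) W = 1 := by
    unfold pfW expW siteW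
    simp only [Finset.prod_ite_eq', ite_self, Finset.prod_const_one, mul_one]
    exact sum_isingNorm hG hθ0 hθ1 hW hne
  rw [h1, mul_one] at h
  simpa using h

end Core

end Weights

section Combine

/-- Times from `x`, noises from `x'`. -/
def combine (x x' : Om V) : Om V := fun v c => if c.2 = true then x' v c else x v c

omit [G.LocallyFinite] in
@[simp] theorem tOf_combine (x x' : Om V) (v : V) (i : ℤ) : tOf (combine x x') v i = tOf x v i := by
  simp [tOf, combine]

omit [G.LocallyFinite] in
@[simp] theorem uOf_combine (x x' : Om V) (v : V) (i : ℤ) : uOf (combine x x') v i = uOf x' v i := by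
  simp [uOf, combine]

theorem measurable_combine : Measurable fun q : Om V × Om V => combine q.1 q.2 := by
  refine measurable_pi_lambda _ fun v => measurable_pi_lambda _ fun c => ?_
  by_cases h : c.2 = true
  · simp only [combine, h, if_true]
    exact (measurable_pi_apply c).comp ((measurable_pi_apply v).comp measurable_snd)
  · simp only [combine, h, if_false]
    exact (measurable_pi_apply c).comp ((measurable_pi_apply v).comp measurable_fst)

/-- flat version of the mixing lemma -/
theorem map_mixP {ι : Type*} {X : Type*} [MeasurableSpace X] (κ : Measure X) [IsProbabilityMeasure κ]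
    (P : ι → Prop) [DecidablePred P] :
    ((Measure.infinitePi fun _ : ι => κ).prod (Measure.infinitePi fun _ : ι => κ)).map
      (fun q : (ι → X) × (ι → X) => fun i => if P i then q.2 i else q.1 i) =
      Measure.infinitePi fun _ : ι => κ := by
  have hm : Measurable (fun q : (ι → X) × (ι → X) => fun i => if P i then q.2 i else q.1 i) := by
    refine measurable_pi_lambda _ fun i => ?_
    by_cases h : P i
    · simp only [h, if_true]
      exact (measurable_pi_apply i).comp measurable_snd
    · simp only [h, if_false]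
      exact (measurable_pi_apply i).comp measurable_fst
  refine Measure.eq_infinitePi _ fun s t ht => ?_
  have hbox : MeasurableSet (Set.pi (s : Set ι) t) :=
    MeasurableSet.pi (Finset.countable_toSet s) fun i _ => ht i
  rw [Measure.map_apply hm hbox]
  have hpre : (fun q : (ι → X) × (ι → X) => fun i => if P i then q.2 i else q.1 i) ⁻¹'
      (Set.pi (s : Set ι) t) =
      (Set.pi ((s.filter fun i => ¬ P i : Finset ι) : Set ι) t) ×ˢ
        (Set.pi ((s.filter P : Finset ι) : Set ι) t) := by
    ext ⟨x, x'⟩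
    simp only [Set.mem_preimage, Set.mem_pi, Set.mem_prod, Finset.mem_coe, Finset.mem_filter]
    constructor
    · intro h
      refine ⟨fun i hi => ?_, fun i hi => ?_⟩
      · simpa [hi.2] using h i hi.1
      · simpa [hi.2] using h i hi.1
    · rintro ⟨h₁, h₂⟩ i hi
      by_cases hiP : P i
      · simpa [hiP] using h₂ i ⟨hi, hiP⟩
      · simpa [hiP] using h₁ i ⟨hi, hiP⟩
  rw [hpre, Measure.prod_prod, Measure.infinitePi_pi _ (fun i _ => ht i),
    Measure.infinitePi_pi _ (fun i _ => ht i), mul_comm]
  exact Finset.prod_filter_mul_prod_filter_not s P _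

theorem measurePreserving_combine :
    MeasurePreserving (fun q : Om V × Om V => combine q.1 q.2) ((omP V).prod (omP V)) (omP V) := by
  let flat : Measure (V × (ℤ × Bool) → unitInterval) :=
    Measure.infinitePi fun _ : V × (ℤ × Bool) => (volume : Measure unitInterval)
  let C := MeasurableEquiv.curry V (ℤ × Bool) unitInterval
  have hC : MeasurePreserving C flat (omP V) := by
    refine ⟨C.measurable, ?_⟩
    exact Measure.infinitePi_map_curry (fun (_ : V) (_ : ℤ × Bool) => (volume : Measure unitInterval))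
  have hm := map_mixP (ι := V × (ℤ × Bool)) (volume : Measure unitInterval) (fun k => k.2.2 = true)
  have hmeasM : Measurable (fun q : (V × (ℤ × Bool) → unitInterval) × (V × (ℤ × Bool) → unitInterval) =>
      fun k => if k.2.2 = true then q.2 k else q.1 k) := by
    refine measurable_pi_lambda _ fun i => ?_
    by_cases h : i.2.2 = true
    · simp only [h, if_true]
      exact (measurable_pi_apply i).comp measurable_snd
    · simp only [h, if_false]
      exact (measurable_pi_apply i).comp measurable_fst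
  have hprod : MeasurePreserving (Prod.map C C) (flat.prod flat) ((omP V).prod (omP V)) :=
    hC.prod hC
  have hcomp : (fun q : Om V × Om V => combine q.1 q.2) ∘ Prod.map C C =
      C ∘ (fun q : (V × (ℤ × Bool) → unitInterval) × (V × (ℤ × Bool) → unitInterval) =>
        fun k => if k.2.2 = true then q.2 k else q.1 k) := by
    funext q
    funext v c
    simp [combine, C, MeasurableEquiv.curry_apply]
  refine ⟨measurable_combine, ?_⟩
  rw [← hprod.map_eq, Measure.map_map measurable_combine hprod.measurable, hcomp,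
    ← Measure.map_map C.measurable hmeasM]
  have hm' : Measure.map (fun q : (V × (ℤ × Bool) → unitInterval) × (V × (ℤ × Bool) → unitInterval) =>
      fun k => if k.2.2 = true then q.2 k else q.1 k) (flat.prod flat) = flat := hm
  change Measure.map (⇑C) (Measure.map _ (flat.prod flat)) = omP V
  rw [hm', hC.map_eq]

theorem integral_combine {H : Om V → ℝ} (hH : Integrable H (omP V)) :
    ∫ x, H x ∂(omP V) = ∫ x, ∫ x', H (combine x x') ∂(omP V) ∂(omP V) := by
  have hmp := measurePreserving_combine (V := V)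
  have hint : Integrable (fun q : Om V × Om V => H (combine q.1 q.2)) ((omP V).prod (omP V)) :=
    (hmp.integrable_comp hH.aestronglyMeasurable).2 hH
  rw [← integral_prod _ hint]
  conv_lhs => rw [← hmp.map_eq]
  exact integral_map measurable_combine.aemeasurable
    (by rw [hmp.map_eq]; exact hH.aestronglyMeasurable)

end Combine

section Lists

variable (W : Finset V)

/-- Actions of the sweep `i`. -/
noncomputable def sweepL (x : Om V) (i : ℤ) (s : ℝ) : List (V × ℤ) :=
  (actList W (fun v => tOf x v i) s).map fun u => (u, i)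

/-- Actions of the first `n` full sweeps. -/
noncomputable def startL (x : Om V) (N : ℤ) : ℕ → List (V × ℤ)
  | 0 => []
  | n + 1 => startL x N n ++ sweepL W x (N + n) (1 / 2)

/-- All actions up to time `s` of sweep `j`. -/
noncomputable def fullL (x : Om V) (N j : ℤ) (s : ℝ) : List (V × ℤ) :=
  startL W x N (j - N).toNat ++ sweepL W x j s

variable {W}

omit [G.LocallyFinite] in
theorem mem_actList {t : V → ℝ} {s : ℝ} {u : V} :
    u ∈ actList W t s ↔ u ∈ W ∧ t u < s ∧ ∀ u' ∈ W, u' ≠ u → t u' ≠ t u := by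
  simp [actList]

omit [G.LocallyFinite] in
theorem nodup_actList (t : V → ℝ) (s : ℝ) : (actList W t s).Nodup := by
  unfold actList
  exact (List.perm_insertionSort _ _).nodup_iff.2 (Finset.nodup_toList _)

omit [G.LocallyFinite] in
theorem mem_sweepL {x : Om V} {i : ℤ} {s : ℝ} {p : V × ℤ} :
    p ∈ sweepL W x i s ↔ p.2 = i ∧ p.1 ∈ actList W (fun v => tOf x v i) s := by
  unfold sweepL
  rcases p with ⟨u, k⟩
  simp only [List.mem_map, Prod.mk.injEq]
  constructor
  · rintro ⟨a, ha, rfl, rfl⟩
    exact ⟨rfl, ha⟩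
  · rintro ⟨rfl, ha⟩
    exact ⟨u, ha, rfl, rfl⟩

omit [G.LocallyFinite] in
theorem nodup_sweepL (x : Om V) (i : ℤ) (s : ℝ) : (sweepL W x i s).Nodup := by
  unfold sweepL
  refine List.Nodup.map ?_ (nodup_actList _ _)
  intro a b h
  exact (Prod.ext_iff.1 h).1

omit [G.LocallyFinite] in
theorem mem_startL {x : Om V} {N : ℤ} {n : ℕ} {p : V × ℤ} (h : p ∈ startL W x N n) :
    p.1 ∈ W ∧ N ≤ p.2 ∧ p.2 < N + n := by
  induction n with
  | zero => simp [startL] at h
  | succ n ih =>
    simp only [startL, List.mem_append] at h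
    rcases h with h | h
    · obtain ⟨h1, h2, h3⟩ := ih h
      refine ⟨h1, h2, ?_⟩
      push_cast
      omega
    · obtain ⟨h1, h2⟩ := mem_sweepL.1 h
      refine ⟨(mem_actList.1 h2).1, ?_, ?_⟩
      · omega
      · push_cast
        omega

omit [G.LocallyFinite] in
theorem nodup_startL (x : Om V) (N : ℤ) (n : ℕ) : (startL W x N n).Nodup := by
  induction n with
  | zero => simp [startL]
  | succ n ih =>
    simp only [startL]
    refine List.nodup_append.2 ⟨ih, nodup_sweepL _ _ _, ?_⟩
    intro a ha b hb hab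
    subst hab
    have h1 := (mem_startL ha).2.2
    have h2 := (mem_sweepL.1 hb).1
    omega

omit [G.LocallyFinite] in
theorem mem_fullL_fst {x : Om V} {N j : ℤ} {s : ℝ} {p : V × ℤ} (h : p ∈ fullL W x N j s) :
    p.1 ∈ W := by
  simp only [fullL, List.mem_append] at h
  rcases h with h | h
  · exact (mem_startL h).1
  · exact (mem_actList.1 (mem_sweepL.1 h).2).1

omit [G.LocallyFinite] in
theorem nodup_fullL (x : Om V) {N j : ℤ} (hN : N ≤ j) (s : ℝ) : (fullL W x N j s).Nodup := by
  simp only [fullL]
  refine List.nodup_append.2 ⟨nodup_startL _ _ _, nodup_sweepL _ _ _, ?_⟩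
  intro a ha b hb hab
  subst hab
  have h1 := (mem_startL ha).2.2
  have h2 := (mem_sweepL.1 hb).1
  have h3 : ((j - N).toNat : ℤ) = j - N := Int.toNat_of_nonneg (by omega)
  omega

theorem runL_append (θ : ℝ) (L₁ L₂ : List (V × ℤ)) (y : Om V) (ℓ : V → ℝ) :
    runL G θ W (L₁ ++ L₂) y ℓ = runL G θ W L₂ y (runL G θ W L₁ y ℓ) := by
  simp [runL, List.foldl_append]

theorem runL_sweep (θ : ℝ) (x y : Om V) (i : ℤ) (s : ℝ) (ℓ : V → ℝ) :
    runL G θ W (sweepL W x i s) y ℓ =
      runSweep G θ W (eps i) (fun v => tOf x v i) (fun v => uOf y v i) s ℓ := by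
  simp [runL, sweepL, runSweep, List.foldl_map]

theorem fieldStart_combine (θ : ℝ) (x y : Om V) (N : ℤ) (n : ℕ) :
    fieldStart G θ W N (combine x y) n = runL G θ W (startL W x N n) y (fun _ => 0) := by
  induction n with
  | zero => rfl
  | succ n ih =>
    simp only [fieldStart, startL, runL_append, runL_sweep, ih, tOf_combine, uOf_combine]

theorem fieldAt_combine (θ : ℝ) (x y : Om V) (N j : ℤ) (s : ℝ) :
    fieldAt G θ W N (combine x y) j s = runL G θ W (fullL W x N j s) y (fun _ => 0) := by
  simp only [fieldAt, fullL, runL_append, runL_sweep, fieldStart_combine, tOf_combine, uOf_combine]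

/-- No ties between the order times of `W` during the sweeps `N..j`. -/
def NoTies (W : Finset V) (N j : ℤ) (x : Om V) : Prop :=
  ∀ i, N ≤ i → i ≤ j → ∀ u ∈ W, ∀ u' ∈ W, u' ≠ u → tOf x u' i ≠ tOf x u i

omit [G.LocallyFinite] in
theorem mem_actList_of_noTies {x : Om V} {N j : ℤ} (h : NoTies W N j x) {i : ℤ} (hi : N ≤ i)
    (hi' : i ≤ j) {v : V} (hv : v ∈ W) (s : ℝ) :
    v ∈ actList W (fun v => tOf x v i) s ↔ tOf x v i < s := by
  rw [mem_actList]
  exact ⟨fun h' => h'.2.1, fun h' => ⟨hv, h', fun u' hu' hne => h i hi hi' v hv u' hu' hne⟩⟩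

theorem prodL_map_single (l : List V) (hl : l.Nodup) (i : ℤ) (y : Om V) (sgn : ℝ) (v : V) :
    prodL (l.map fun u => (u, i)) y sgn v =
      if v ∈ l then 1 + eps i * (2 * uOf y v i - 1) * sgn else 1 := by
  induction l with
  | nil => simp [prodL_nil]
  | cons u l ih =>
    rw [List.map_cons, prodL_cons, ih (List.nodup_cons.1 hl).2]
    by_cases huv : u = v
    · subst huv
      simp [(List.nodup_cons.1 hl).1]
    · have : v ≠ u := fun h => huv h.symm
      simp [huv, this]

theorem prodL_sweep_noTies {x y : Om V} {N j : ℤ} (h : NoTies W N j x) {i : ℤ} (hi : N ≤ i)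
    (hi' : i ≤ j) {v : V} (hv : v ∈ W) (s sgn : ℝ) :
    prodL (sweepL W x i s) y sgn v =
      1 + eps i * (if tOf x v i < s then 2 * uOf y v i - 1 else 0) * sgn := by
  unfold sweepL
  rw [prodL_map_single _ (nodup_actList _ _)]
  by_cases hc : tOf x v i < s
  · simp [(mem_actList_of_noTies h hi hi' hv s).2 hc, hc]
  · have : v ∉ actList W (fun v => tOf x v i) s := fun h' =>
      hc ((mem_actList_of_noTies h hi hi' hv s).1 h')
    simp [this, hc]

theorem prodL_start_noTies {x y : Om V} {N j : ℤ} (h : NoTies W N j x) {n : ℕ}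
    (hn : N + n ≤ j + 1) {v : V} (hv : v ∈ W) (sgn : ℝ) :
    prodL (startL W x N n) y sgn v =
      ∏ i ∈ Finset.Ico N (N + n), (1 + eps i * (if tOf x v i < 1 / 2 then 2 * uOf y v i - 1 else 0) * sgn) := by
  induction n with
  | zero => simp [startL, prodL_nil]
  | succ n ih =>
    have hn' : N + n ≤ j + 1 := by push_cast at hn; omega
    have hI : Finset.Ico N (N + (n + 1 : ℕ)) = insert (N + n) (Finset.Ico N (N + n)) := by
      ext k
      simp only [Finset.mem_Ico, Finset.mem_insert]
      push_cast
      omega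
    have hnot : N + (n : ℤ) ∉ Finset.Ico N (N + n) := by simp
    rw [hI, Finset.prod_insert hnot, ← ih hn']
    simp only [startL]
    rw [prodL_append, mul_comm,
      prodL_sweep_noTies h (by omega) (by push_cast at hn; omega) hv]

theorem prodL_full_noTies {x y : Om V} {N j : ℤ} (hN : N ≤ j) (h : NoTies W N j x) {v : V}
    (hv : v ∈ W) (s sgn : ℝ) :
    prodL (fullL W x N j s) y sgn v = wSite N j s sgn (combine x y v) := by
  have h3 : N + ((j - N).toNat : ℤ) = j := by
    rw [Int.toNat_of_nonneg (by omega)]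
    omega
  simp only [fullL]
  rw [prodL_append, prodL_start_noTies h (by omega) hv, prodL_sweep_noTies h hN le_rfl hv, h3]
  simp [wSite, combine, tOf, uOf]

end Lists

section NoTiesAE

theorem ae_tOf_ne (i : ℤ) {u u' : V} (hne : u' ≠ u) :
    ∀ᵐ x ∂(omP V), tOf x u' i ≠ tOf x u i := by
  have hmp := measurePreserving_updCoord (V := V) u' (i, false)
  have hset : MeasurableSet {x : Om V | tOf x u' i = tOf x u i} := by
    refine measurableSet_eq_fun ?_ ?_
    · exact measurable_subtype_coe.comp ((measurable_pi_apply (i, false)).comp (measurable_pi_apply u'))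
    · exact measurable_subtype_coe.comp ((measurable_pi_apply (i, false)).comp (measurable_pi_apply u))
  have h1 : (omP V) {x : Om V | tOf x u' i = tOf x u i} = 0 := by
    rw [← hmp.map_eq, Measure.map_apply hmp.measurable hset]
    have hset' : MeasurableSet ((fun p : Om V × unitInterval => updCoord p.1 u' (i, false) p.2) ⁻¹'
        {x : Om V | tOf x u' i = tOf x u i}) := hmp.measurable hset
    rw [Measure.measure_prod_null hset']
    refine Eventually.of_forall fun x => ?_
    have : Prod.mk x ⁻¹' ((fun p : Om V × unitInterval => updCoord p.1 u' (i, false) p.2) ⁻¹'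
        {x : Om V | tOf x u' i = tOf x u i}) ⊆ {x u (i, false)} := by
      intro a ha
      simp only [Set.mem_preimage, Set.mem_ofPred_eq, tOf, updCoord, Function.update_self,
        Function.update_of_ne hne.symm] at ha
      exact Subtype.ext ha
    exact measure_mono_null this (measure_singleton _)
  rw [ae_iff]
  simpa using h1

theorem ae_noTies (W : Finset V) (N j : ℤ) : ∀ᵐ x ∂(omP V), NoTies W N j x := by
  have h : ∀ᵐ x ∂(omP V), ∀ i ∈ Finset.Icc N j, ∀ u ∈ W, ∀ u' ∈ W, u' ≠ u → tOf x u' i ≠ tOf x u i := by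
    rw [Filter.eventually_all_finset]
    intro i _
    rw [Filter.eventually_all_finset]
    intro u _
    rw [Filter.eventually_all_finset]
    intro u' _
    by_cases hne : u' = u
    · exact Eventually.of_forall fun _ h => absurd hne h
    · filter_upwards [ae_tOf_ne i hne] with x hx _ using hx
  filter_upwards [h] with x hx i hi hi' u hu u' hu' hne
  exact hx i (Finset.mem_Icc.2 ⟨hi, hi'⟩) u hu u' hu' hne

end NoTiesAE

section BlockWeights

theorem measurable_wSite (N j : ℤ) (s₀ sgn : ℝ) : Measurable (wSite N j s₀ sgn) := by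
  unfold wSite
  have hT : ∀ i : ℤ, Measurable fun e : Block => ((e (i, false) : unitInterval) : ℝ) := fun i =>
    measurable_subtype_coe.comp (measurable_pi_apply (i, false))
  have hU : ∀ i : ℤ, Measurable fun e : Block => ((e (i, true) : unitInterval) : ℝ) := fun i =>
    measurable_subtype_coe.comp (measurable_pi_apply (i, true))
  have key : ∀ (i : ℤ) (τ : ℝ), Measurable fun e : Block =>
      1 + eps i * (if (e (i, false) : ℝ) < τ then 2 * (e (i, true) : ℝ) - 1 else 0) * sgn := by
    intro i τ
    refine measurable_const.add (Measurable.mul (measurable_const.mul ?_) measurable_const)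
    exact Measurable.ite (measurableSet_lt (hT i) measurable_const)
      ((measurable_const.mul (hU i)).sub measurable_const) measurable_const
  exact (Finset.measurable_prod _ fun i _ => key i _).mul (key j s₀)

theorem abs_wFactor_le (i : ℤ) (τ : ℝ) {sgn : ℝ} (hs : |sgn| ≤ 1) (e : Block) :
    |1 + eps i * (if (e (i, false) : ℝ) < τ then 2 * (e (i, true) : ℝ) - 1 else 0) * sgn| ≤ 5 / 4 := by
  have hy : |(if (e (i, false) : ℝ) < τ then 2 * (e (i, true) : ℝ) - 1 else 0)| ≤ 1 := by
    split_ifs
    · exact abs_two_mul_sub_one_le (e (i, true)).2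
    · simp
  have h := abs_chanFactor_le i hy hs
  have := abs_add_le (1 : ℝ) (eps i * (if (e (i, false) : ℝ) < τ then 2 * (e (i, true) : ℝ) - 1 else 0) * sgn)
  simp only [abs_one] at this
  linarith

theorem wFactor_pos (i : ℤ) (τ : ℝ) {sgn : ℝ} (hs : |sgn| ≤ 1) (e : Block) :
    0 < 1 + eps i * (if (e (i, false) : ℝ) < τ then 2 * (e (i, true) : ℝ) - 1 else 0) * sgn := by
  refine chanFactor_pos i ?_ hs
  split_ifs
  · exact abs_two_mul_sub_one_le (e (i, true)).2
  · simp

theorem prod_le_pow_card_real {ι : Type*} (s : Finset ι) (f : ι → ℝ) (c : ℝ) (h0 : ∀ i ∈ s, 0 ≤ f i)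
    (h : ∀ i ∈ s, f i ≤ c) : ∏ i ∈ s, f i ≤ c ^ s.card := by
  have := Finset.prod_le_prod h0 h
  simpa using this

theorem abs_wSite_le (N j : ℤ) (s₀ : ℝ) {sgn : ℝ} (hs : |sgn| ≤ 1) (e : Block) :
    |wSite N j s₀ sgn e| ≤ (5 / 4 : ℝ) ^ (Finset.Ico N j).card * (5 / 4) := by
  unfold wSite
  rw [abs_mul, Finset.abs_prod]
  refine mul_le_mul ?_ (abs_wFactor_le j s₀ hs e) (abs_nonneg _) (by positivity)
  exact prod_le_pow_card_real (Finset.Ico N j) (fun i => |1 + eps i * (if (e (i, false) : ℝ) < 1 / 2 then 2 * (e (i, true) : ℝ) - 1 else 0) * sgn|)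
    (5 / 4) (fun i _ => abs_nonneg _) (fun i _ => abs_wFactor_le i _ hs e)

theorem wSite_pos (N j : ℤ) (s₀ : ℝ) {sgn : ℝ} (hs : |sgn| ≤ 1) (e : Block) :
    0 < wSite N j s₀ sgn e := by
  unfold wSite
  exact mul_pos (Finset.prod_pos fun i _ => wFactor_pos i _ hs e) (wFactor_pos j s₀ hs e)

theorem measurable_pfW_blocks (θ : ℝ) (W : Finset V) {f g : Block → ℝ} (hf : Measurable f)
    (hg : Measurable g) :
    Measurable fun x : Om V => pfW G θ (fun v => f (x v)) (fun v => g (x v)) W := by
  unfold pfW expW siteW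
  refine Finset.measurable_sum _ fun A _ => ?_
  refine Measurable.mul ?_ measurable_const
  refine Measurable.mul measurable_const ?_
  refine Finset.measurable_prod _ fun v _ => ?_
  by_cases hv : v ∈ A
  · simp only [hv, if_true]
    exact hf.comp (measurable_pi_apply v)
  · simp only [hv, if_false]
    exact hg.comp (measurable_pi_apply v)

theorem abs_pfW_le (θ : ℝ) (W : Finset V) {B : ℝ} (hB : 0 ≤ B) {wp wm : V → ℝ}
    (hp : ∀ v, |wp v| ≤ B) (hm : ∀ v, |wm v| ≤ B) :
    |pfW G θ wp wm W| ≤ ∑ A ∈ W.powerset, |isingNorm G θ W A| * B ^ W.card := by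
  unfold pfW expW
  refine (Finset.abs_sum_le_sum_abs _ _).trans (Finset.sum_le_sum fun A _ => ?_)
  rw [mul_one, abs_mul]
  refine mul_le_mul_of_nonneg_left ?_ (abs_nonneg _)
  unfold siteW
  rw [Finset.abs_prod]
  refine prod_le_pow_card_real _ _ _ (fun v _ => abs_nonneg _) fun v _ => ?_
  split_ifs
  · exact hp v
  · exact hm v

end BlockWeights

section Main

variable (hG : RegTree G D) {θ : ℝ} (hθ0 : 0 ≤ θ) (hθ1 : θ < 1) {W : Finset V}
  (hW : IsConvexSet G W) (hne : W.Nonempty) {N j : ℤ} (hN : N ≤ j)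
include hG hθ0 hθ1 hW hne hN

/-- **(E5) Girsanov.** -/
theorem integral_fieldAt_eq_proved {s : ℝ} (hs0 : 0 ≤ s) (hs : s ≤ 1 / 2) {F : (V → ℝ) → ℝ}
    (hF : Measurable F) (hFb : ∃ C, ∀ ℓ, |F ℓ| ≤ C)
    (hFW : ∀ ℓ ℓ' : V → ℝ, (∀ v ∈ W, ℓ v = ℓ' v) → F ℓ = F ℓ') :
    ∫ x, F (fieldAt G θ W N x j s) ∂(omP V) =
      ∫ x, F (fun v => (wSite N j s 1 (x v) - wSite N j s (-1) (x v)) /
          (wSite N j s 1 (x v) + wSite N j s (-1) (x v))) *
        pfW G θ (fun v => wSite N j s 1 (x v)) (fun v => wSite N j s (-1) (x v)) W ∂(omP V) := by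
  obtain ⟨C, hC⟩ := hFb
  have hC0 : 0 ≤ C := (abs_nonneg _).trans (hC 0)
  -- measurability of the left integrand
  have hmL : Measurable fun x : Om V => F (fieldAt G θ W N x j s) := by
    refine hF.comp (measurable_pi_iff.2 fun v => ?_)
    exact measurable_fieldAt hG hθ0 hθ1 hW hne s v
  have hiL : Integrable (fun x : Om V => F (fieldAt G θ W N x j s)) (omP V) :=
    Integrable.of_bound hmL.aestronglyMeasurable C (Eventually.of_forall fun x => by simpa using hC _)
  -- the right integrand
  set wP : Om V → V → ℝ := fun x v => wSite N j s 1 (x v) with hwP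
  set wM : Om V → V → ℝ := fun x v => wSite N j s (-1) (x v) with hwM
  have hmP := measurable_wSite N j s 1
  have hmM := measurable_wSite N j s (-1)
  have hmHat : Measurable fun x : Om V => (fun v => (wP x v - wM x v) / (wP x v + wM x v) : V → ℝ) := by
    refine measurable_pi_iff.2 fun v => ?_
    have h1 : Measurable fun x : Om V => wP x v := hmP.comp (measurable_pi_apply v)
    have h2 : Measurable fun x : Om V => wM x v := hmM.comp (measurable_pi_apply v)
    exact (h1.sub h2).div (h1.add h2)
  have hmPf : Measurable fun x : Om V => pfW G θ (wP x) (wM x) W :=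
    measurable_pfW_blocks θ W hmP hmM
  have hmR : Measurable fun x : Om V =>
      F (fun v => (wP x v - wM x v) / (wP x v + wM x v)) * pfW G θ (wP x) (wM x) W :=
    (hF.comp hmHat).mul hmPf
  set B : ℝ := (5 / 4 : ℝ) ^ (Finset.Ico N j).card * (5 / 4) with hB
  have hB0 : 0 ≤ B := by positivity
  have hboundP : ∀ x v, |wP x v| ≤ B := fun x v => abs_wSite_le N j s (by simp) _
  have hboundM : ∀ x v, |wM x v| ≤ B := fun x v => abs_wSite_le N j s (by simp) _
  have hiR : Integrable (fun x : Om V =>
      F (fun v => (wP x v - wM x v) / (wP x v + wM x v)) * pfW G θ (wP x) (wM x) W) (omP V) := by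
    refine Integrable.of_bound hmR.aestronglyMeasurable
      (C * ∑ A ∈ W.powerset, |isingNorm G θ W A| * B ^ W.card)
      (Eventually.of_forall fun x => ?_)
    rw [Real.norm_eq_abs, abs_mul]
    exact mul_le_mul (hC _) (abs_pfW_le θ W hB0 (hboundP x) (hboundM x)) (abs_nonneg _) hC0
  rw [integral_combine hiL, integral_combine hiR]
  refine integral_congr_ae ?_
  filter_upwards [ae_noTies W N j] with x hx
  have hL := nodup_fullL (W := W) x hN s
  have hLW : ∀ p ∈ fullL W x N j s, p.1 ∈ W := fun p hp => mem_fullL_fst hp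
  have hleft : ∀ y, F (fieldAt G θ W N (combine x y) j s) =
      F (runL G θ W (fullL W x N j s) y (fun _ => 0)) := fun y => by
    rw [fieldAt_combine]
  simp only [hleft]
  have hzero : ∀ v : V, |(fun _ : V => (0 : ℝ)) v| < 1 := fun v => by simp
  rw [girsanov_list hG hθ0 hθ1 hW hne _ hL hLW hF ⟨C, hC⟩ hzero]
  refine integral_congr_ae (Eventually.of_forall fun y => ?_)
  obtain ⟨h1, h2⟩ := hatL_ratioL_zero hG hθ0 hθ1 hW hne (fullL W x N j s) hLW y
  have hPeq : ∀ v ∈ W, prodL (fullL W x N j s) y 1 v = wP (combine x y) v := fun v hv =>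
    prodL_full_noTies hN hx hv s 1
  have hMeq : ∀ v ∈ W, prodL (fullL W x N j s) y (-1) v = wM (combine x y) v := fun v hv =>
    prodL_full_noTies hN hx hv s (-1)
  simp only
  rw [h1, h2, pfW_congr hPeq hMeq]
  congr 1
  apply hFW
  intro v hv
  simp only [fieldOf, hPeq v hv, hMeq v hv]

end Main

section MeanOne

theorem integral_update_general {ι : Type*} {X : Type*} [DecidableEq ι] [MeasurableSpace X]
    (μ' : Measure X) [IsProbabilityMeasure μ'] (i₀ : ι) {Φ : (ι → X) → ℝ}
    (hΦ : Integrable Φ (Measure.infinitePi fun _ : ι => μ')) :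
    ∫ x, Φ x ∂(Measure.infinitePi fun _ : ι => μ') =
      ∫ x, ∫ a, Φ (Function.update x i₀ a) ∂μ' ∂(Measure.infinitePi fun _ : ι => μ') := by
  have hmp := measurePreserving_update_infinitePi (ι := ι) μ' i₀
  have hint2 : Integrable (fun q : (ι → X) × X => Φ (Function.update q.1 i₀ q.2))
      ((Measure.infinitePi fun _ : ι => μ').prod μ') :=
    (hmp.integrable_comp hΦ.aestronglyMeasurable).2 hΦ
  rw [← integral_prod _ hint2]
  conv_lhs => rw [← hmp.map_eq]
  exact integral_map hmp.measurable.aemeasurable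
    (by rw [hmp.map_eq]; exact hΦ.aestronglyMeasurable)

/-- Finite product of channel factors, thresholds `τ`. -/
noncomputable def wProd (I : Finset ℤ) (τ : ℤ → ℝ) (sgn : ℝ) (e : Block) : ℝ :=
  ∏ i ∈ I, (1 + eps i * (if (e (i, false) : ℝ) < τ i then 2 * (e (i, true) : ℝ) - 1 else 0) * sgn)

theorem measurable_wProd (I : Finset ℤ) (τ : ℤ → ℝ) (sgn : ℝ) : Measurable (wProd I τ sgn) := by
  unfold wProd
  refine Finset.measurable_prod _ fun i _ => ?_
  have hT : Measurable fun e : Block => ((e (i, false) : unitInterval) : ℝ) :=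
    measurable_subtype_coe.comp (measurable_pi_apply (i, false))
  have hU : Measurable fun e : Block => ((e (i, true) : unitInterval) : ℝ) :=
    measurable_subtype_coe.comp (measurable_pi_apply (i, true))
  refine measurable_const.add (Measurable.mul (measurable_const.mul ?_) measurable_const)
  exact Measurable.ite (measurableSet_lt hT measurable_const)
    ((measurable_const.mul hU).sub measurable_const) measurable_const

theorem abs_wProd_le (I : Finset ℤ) (τ : ℤ → ℝ) {sgn : ℝ} (hs : |sgn| ≤ 1) (e : Block) :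
    |wProd I τ sgn e| ≤ (5 / 4 : ℝ) ^ I.card := by
  unfold wProd
  rw [Finset.abs_prod]
  exact prod_le_pow_card_real _ _ _ (fun i _ => abs_nonneg _) (fun i _ => abs_wFactor_le i _ hs e)

theorem integral_one_add_mul_unit (c : ℝ) :
    ∫ a : unitInterval, (1 + c * (2 * (a : ℝ) - 1)) = 1 := by
  rw [integral_unitInterval (g := fun a => 1 + c * (2 * a - 1))]
  have h : ∀ a : ℝ, 1 + c * (2 * a - 1) = (1 - c) + (2 * c) * a := fun a => by ring
  simp only [h]
  rw [intervalIntegral.integral_add (by simp)
    ((by fun_prop : Continuous fun U : ℝ => (2 * c) * U).intervalIntegrable _ _),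
    intervalIntegral.integral_const_mul, integral_id]
  simp
  ring

/-- One factor has mean one whatever the times are. -/
theorem integral_wProd (I : Finset ℤ) (τ : ℤ → ℝ) {sgn : ℝ} (hs : |sgn| ≤ 1) :
    ∫ e, wProd I τ sgn e ∂blockP = 1 := by
  induction I using Finset.induction_on with
  | empty => simp [wProd]
  | insert i I hi ih =>
    have hmeas := measurable_wProd (insert i I) τ sgn
    have hint : Integrable (wProd (insert i I) τ sgn) blockP :=
      Integrable.of_bound hmeas.aestronglyMeasurable _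
        (Eventually.of_forall fun e => by simpa using abs_wProd_le (insert i I) τ hs e)
    have h1 := integral_update_general (ι := ℤ × Bool) (volume : Measure unitInterval) (i, true) hint
    change ∫ e, wProd (insert i I) τ sgn e ∂blockP =
      ∫ e, (∫ a : unitInterval, wProd (insert i I) τ sgn (Function.update e (i, true) a)) ∂blockP at h1
    rw [h1]
    rw [← ih]
    refine integral_congr_ae (Eventually.of_forall fun e => ?_)
    have hup : ∀ a : unitInterval, wProd (insert i I) τ sgn (Function.update e (i, true) a) =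
        (1 + (if (e (i, false) : ℝ) < τ i then eps i * sgn else 0) * (2 * (a : ℝ) - 1)) *
          wProd I τ sgn e := by
      intro a
      unfold wProd
      rw [Finset.prod_insert hi]
      congr 1
      · have h1 : Function.update e (i, true) a (i, false) = e (i, false) :=
          Function.update_of_ne (by simp) _ _
        have h2 : Function.update e (i, true) a (i, true) = a := Function.update_self _ _ _
        rw [h1, h2]
        split_ifs <;> ring
      · refine Finset.prod_congr rfl fun k hk => ?_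
        have hne : k ≠ i := fun h => hi (h ▸ hk)
        have h1 : Function.update e (i, true) a (k, false) = e (k, false) :=
          Function.update_of_ne (by simp) _ _
        have h2 : Function.update e (i, true) a (k, true) = e (k, true) :=
          Function.update_of_ne (by simp [hne]) _ _
        rw [h1, h2]
    simp only [hup]
    rw [integral_mul_const, integral_one_add_mul_unit, one_mul]

/-- The site weights have mean one. -/
theorem integral_wSite (N j : ℤ) (s₀ : ℝ) {sgn : ℝ} (hs : |sgn| ≤ 1) :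
    ∫ e, wSite N j s₀ sgn e ∂blockP = 1 := by
  have hj : j ∉ Finset.Ico N j := by simp
  have h := integral_wProd (insert j (Finset.Ico N j)) (fun i => if i = j then s₀ else 1 / 2) hs
  rw [← h]
  refine integral_congr_ae (Eventually.of_forall fun e => ?_)
  simp only [wSite, wProd]
  rw [Finset.prod_insert hj, mul_comm]
  congr 1
  · simp
  · refine Finset.prod_congr rfl fun i hi => ?_
    have : i ≠ j := fun h => hj (h ▸ hi)
    simp [this]

end MeanOne

section Marginal

/-- Integrating out block variables with mean one. -/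
theorem integral_mul_prod_block (S : Finset V) {g : V → Block → ℝ} {Gg : Om V → ℝ}
    (hGg : Measurable Gg) (hGgb : ∃ C, ∀ x, |Gg x| ≤ C)
    (hg : ∀ v, Measurable (g v)) (hgb : ∃ C, ∀ v e, |g v e| ≤ C)
    (hg1 : ∀ v ∈ S, ∫ e, g v e ∂blockP = 1)
    (hGgS : ∀ x, ∀ v ∈ S, ∀ e, Gg (Function.update x v e) = Gg x) :
    ∫ x, Gg x * ∏ v ∈ S, g v (x v) ∂(omP V) = ∫ x, Gg x ∂(omP V) := by
  induction S using Finset.induction_on generalizing Gg with
  | empty => simp
  | insert v S hv ih =>
    obtain ⟨C, hC⟩ := hGgb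
    obtain ⟨C', hC'⟩ := hgb
    have hC0 : 0 ≤ C' := by
      obtain ⟨e₀⟩ : Nonempty Block := inferInstance
      exact (abs_nonneg _).trans (hC' v e₀)
    have hC00 : 0 ≤ C := (abs_nonneg _).trans (hC (fun _ _ => 0))
    have hprodm : Measurable fun x : Om V => ∏ u ∈ S, g u (x u) :=
      Finset.measurable_prod _ fun u _ => (hg u).comp (measurable_pi_apply u)
    have hprodb : ∀ x : Om V, |∏ u ∈ S, g u (x u)| ≤ C' ^ S.card := by
      intro x
      rw [Finset.abs_prod]
      exact prod_le_pow_card_real _ _ _ (fun i _ => abs_nonneg _) (fun u _ => hC' u _)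
    have h1 : Integrable (fun x : Om V => Gg x * ∏ u ∈ insert v S, g u (x u)) (omP V) := by
      have hm : Measurable (fun x : Om V => Gg x * ∏ u ∈ insert v S, g u (x u)) :=
        hGg.mul (Finset.measurable_prod _ fun u _ => (hg u).comp (measurable_pi_apply u))
      refine Integrable.of_bound hm.aestronglyMeasurable (C * C' ^ (insert v S).card)
        (Eventually.of_forall fun x => ?_)
      rw [Real.norm_eq_abs, abs_mul, Finset.abs_prod]
      exact mul_le_mul (hC x) (prod_le_pow_card_real _ _ _ (fun i _ => abs_nonneg _)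
        (fun u _ => hC' u _)) (Finset.prod_nonneg fun _ _ => abs_nonneg _) hC00
    have h2 := integral_update_general (ι := V) blockP v h1
    change ∫ x, Gg x * ∏ u ∈ insert v S, g u (x u) ∂(omP V) =
      ∫ x, ∫ e, Gg (Function.update x v e) * ∏ u ∈ insert v S, g u (Function.update x v e u) ∂blockP ∂(omP V)
      at h2
    rw [h2]
    have h3 : ∀ x : Om V, ∫ e, Gg (Function.update x v e) *
        ∏ u ∈ insert v S, g u (Function.update x v e u) ∂blockP =
        Gg x * ∏ u ∈ S, g u (x u) := by
      intro x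
      have h4 : ∀ e, Gg (Function.update x v e) * ∏ u ∈ insert v S, g u (Function.update x v e u) =
          (Gg x * ∏ u ∈ S, g u (x u)) * g v e := by
        intro e
        rw [hGgS x v (Finset.mem_insert_self _ _) e, Finset.prod_insert hv]
        have h5 : ∏ u ∈ S, g u (Function.update x v e u) = ∏ u ∈ S, g u (x u) := by
          refine Finset.prod_congr rfl fun u hu => ?_
          have : u ≠ v := fun h => hv (h ▸ hu)
          rw [Function.update_of_ne this]
        rw [h5, Function.update_self]
        ring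
      simp only [h4]
      rw [integral_const_mul, hg1 v (Finset.mem_insert_self _ _), mul_one]
    simp only [h3]
    refine ih hGg ⟨C, hC⟩ ?_ ?_
    · exact fun u hu => hg1 u (Finset.mem_insert_of_mem hu)
    · exact fun x u hu e => hGgS x u (Finset.mem_insert_of_mem hu) e

end Marginal

section MarginalMain

variable (hG : RegTree G D) {θ : ℝ} (hθ0 : 0 ≤ θ) (hθ1 : θ < 1) {W : Finset V}
  (hW : IsConvexSet G W) (hne : W.Nonempty) {N j : ℤ} (hN : N ≤ j)
include hG hθ0 hθ1 hW hne hN

/-- **(E5') marginal consistency.** -/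
theorem integral_pfW_marginal_proved {s : ℝ} (hs0 : 0 ≤ s) (hs : s ≤ 1 / 2) {T : Finset V}
    (hT : IsConvexSet G T) (hTne : T.Nonempty) (hTW : T ⊆ W) {F : Om V → ℝ} (hF : Measurable F)
    (hFb : ∃ C, ∀ x, |F x| ≤ C) (hFT : ∀ x x' : Om V, (∀ v ∈ T, x v = x' v) → F x = F x') :
    ∫ x, F x * pfW G θ (fun v => wSite N j s 1 (x v)) (fun v => wSite N j s (-1) (x v)) W ∂(omP V) =
      ∫ x, F x * pfW G θ (fun v => wSite N j s 1 (x v)) (fun v => wSite N j s (-1) (x v)) T ∂(omP V) := by
  obtain ⟨C, hC⟩ := hFb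
  have hC00 : 0 ≤ C := (abs_nonneg _).trans (hC (fun _ _ => 0))
  set B : ℝ := (5 / 4 : ℝ) ^ (Finset.Ico N j).card * (5 / 4) with hB
  have hB0 : 0 ≤ B := by positivity
  have hP : ∀ e, |wSite N j s 1 e| ≤ B := fun e => abs_wSite_le N j s (by simp) e
  have hM : ∀ e, |wSite N j s (-1) e| ≤ B := fun e => abs_wSite_le N j s (by simp) e
  -- the site factor of `A`
  let g : Finset V → V → Block → ℝ := fun A v e => if v ∈ A then wSite N j s 1 e else wSite N j s (-1) e
  have hgm : ∀ A v, Measurable (g A v) := by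
    intro A v
    by_cases hv : v ∈ A
    · simpa [g, hv] using measurable_wSite N j s 1
    · simpa [g, hv] using measurable_wSite N j s (-1)
  have hgb : ∀ A v e, |g A v e| ≤ B := by
    intro A v e
    by_cases hv : v ∈ A
    · simpa [g, hv] using hP e
    · simpa [g, hv] using hM e
  have hg1 : ∀ A v, ∫ e, g A v e ∂blockP = 1 := by
    intro A v
    by_cases hv : v ∈ A
    · simpa [g, hv] using integral_wSite N j s (sgn := 1) (by simp)
    · simpa [g, hv] using integral_wSite N j s (sgn := -1) (by simp)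
  -- site weight functional
  let site : Finset V → Finset V → Om V → ℝ := fun T' A x => ∏ v ∈ T', g A v (x v)
  have hsite : ∀ T' A x, siteW (fun v => wSite N j s 1 (x v)) (fun v => wSite N j s (-1) (x v)) T' A =
      site T' A x := by
    intro T' A x
    simp only [siteW, site, g]
  have hsitem : ∀ T' A, Measurable (site T' A) := fun T' A =>
    Finset.measurable_prod _ fun v _ => (hgm A v).comp (measurable_pi_apply v)
  have hsiteb : ∀ T' A x, |site T' A x| ≤ B ^ T'.card := by
    intro T' A x
    simp only [site]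
    rw [Finset.abs_prod]
    exact prod_le_pow_card_real _ _ _ (fun i _ => abs_nonneg _) (fun u _ => hgb A u _)
  have hint : ∀ T' A, Integrable (fun x => F x * site T' A x) (omP V) := by
    intro T' A
    refine Integrable.of_bound (hF.mul (hsitem T' A)).aestronglyMeasurable (C * B ^ T'.card)
      (Eventually.of_forall fun x => ?_)
    rw [Real.norm_eq_abs, abs_mul]
    exact mul_le_mul (hC x) (hsiteb T' A x) (abs_nonneg _) hC00
  -- expand both sides
  have hexp : ∀ T' : Finset V, ∫ x, F x * pfW G θ (fun v => wSite N j s 1 (x v))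
      (fun v => wSite N j s (-1) (x v)) T' ∂(omP V) =
      ∑ A ∈ T'.powerset, isingNorm G θ T' A * ∫ x, F x * site T' A x ∂(omP V) := by
    intro T'
    have : ∀ x, F x * pfW G θ (fun v => wSite N j s 1 (x v)) (fun v => wSite N j s (-1) (x v)) T' =
        ∑ A ∈ T'.powerset, isingNorm G θ T' A * (F x * site T' A x) := by
      intro x
      unfold pfW expW
      rw [Finset.mul_sum]
      refine Finset.sum_congr rfl fun A _ => ?_
      rw [hsite]
      ring
    simp only [this]
    rw [integral_finsetSum _ fun A _ => (hint T' A).const_mul _]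
    refine Finset.sum_congr rfl fun A _ => ?_
    rw [integral_const_mul]
  rw [hexp W, hexp T]
  -- integrate out the blocks outside of `T`
  have hout : ∀ A ∈ W.powerset, ∫ x, F x * site W A x ∂(omP V) = ∫ x, F x * site T (A ∩ T) x ∂(omP V) := by
    intro A _
    have h1 : ∀ x, F x * site W A x = (F x * site T (A ∩ T) x) * ∏ v ∈ W \ T, g A v (x v) := by
      intro x
      simp only [site]
      rw [← Finset.prod_sdiff hTW]
      have h2 : ∏ v ∈ T, g A v (x v) = ∏ v ∈ T, g (A ∩ T) v (x v) := by
        refine Finset.prod_congr rfl fun v hv => ?_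
        simp only [g, Finset.mem_inter, hv, and_true]
      rw [h2]
      ring
    simp only [h1]
    refine integral_mul_prod_block (W \ T) (hF.mul (hsitem T _)) ⟨C * B ^ T.card, fun x => ?_⟩
      (hgm A) ⟨B, hgb A⟩ (fun v _ => hg1 A v) ?_
    · rw [abs_mul]
      exact mul_le_mul (hC x) (hsiteb T _ x) (abs_nonneg _) hC00
    · intro x v hv e
      have hvT : v ∉ T := (Finset.mem_sdiff.1 hv).2
      have h3 : F (Function.update x v e) = F x := by
        refine hFT _ _ fun u hu => ?_
        have : u ≠ v := fun h => hvT (h ▸ hu)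
        rw [Function.update_of_ne this]
      have h4 : site T (A ∩ T) (Function.update x v e) = site T (A ∩ T) x := by
        simp only [site]
        refine Finset.prod_congr rfl fun u hu => ?_
        have : u ≠ v := fun h => hvT (h ▸ hu)
        rw [Function.update_of_ne this]
      rw [h3, h4]
  rw [Finset.sum_congr rfl fun A hA => by rw [hout A hA]]
  -- group according to `A ∩ T`
  have hmaps : ∀ A ∈ W.powerset, A ∩ T ∈ T.powerset := fun A _ =>
    Finset.mem_powerset.2 Finset.inter_subset_right
  rw [← Finset.sum_fiberwise_of_maps_to hmaps]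
  refine Finset.sum_congr rfl fun B' hB' => ?_
  have hB'T : B' ⊆ T := Finset.mem_powerset.1 hB'
  have h5 : ∑ A ∈ W.powerset with A ∩ T = B', isingNorm G θ W A * ∫ x, F x * site T (A ∩ T) x ∂(omP V) =
      ∑ A ∈ W.powerset with A ∩ T = B', isingNorm G θ W A * ∫ x, F x * site T B' x ∂(omP V) := by
    refine Finset.sum_congr rfl fun A hA => ?_
    rw [(Finset.mem_filter.1 hA).2]
  rw [h5, ← Finset.sum_mul, sum_isingNorm_marginal hG hθ0 hθ1 hW hne hT hTne hTW hB'T]

end MarginalMain

end Gir

end Crest.Agent.Lib.IsingFIID
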