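/-
S0241 blueprint, Mod E, (E3 = I1): the pair inequality.
Telescoping over the actions of the combined sweep; resampling of the labels of the acting vertex.
-/
import Crest.Agent.Lib.IsingFIID.DynDefs

set_option autoImplicit false
universe u

namespace Crest.Agent.Lib.IsingFIID

open MeasureTheory Filter
open scoped Classical Topology

namespace DynPair

variable {V : Type u}

/-! ### Sorted acting lists -/

/-- the set of acting vertices -/
noncomputable def actSet (W : Finset V) (t : V → ℝ) (s : ℝ) : Finset V :=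
  W.filter fun u => t u < s ∧ ∀ u' ∈ W, u' ≠ u → t u' ≠ t u

theorem mem_actSet {W : Finset V} {t : V → ℝ} {s : ℝ} {u : V} :
    u ∈ actSet W t s ↔ u ∈ W ∧ t u < s ∧ ∀ u' ∈ W, u' ≠ u → t u' ≠ t u := by
  simp [actSet]

instance (t : V → ℝ) : Std.Total (fun a b => t a ≤ t b) := ⟨fun _ _ => le_total _ _⟩
instance (t : V → ℝ) : IsTrans V (fun a b => t a ≤ t b) := ⟨fun _ _ _ h h' => le_trans h h'⟩

theorem actList_eq (W : Finset V) (t : V → ℝ) (s : ℝ) :
    actList W t s = (actSet W t s).toList.insertionSort fun a b => t a ≤ t b := rfl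

theorem mem_actList {W : Finset V} {t : V → ℝ} {s : ℝ} {u : V} :
    u ∈ actList W t s ↔ u ∈ actSet W t s := by
  rw [actList_eq, List.mem_insertionSort, Finset.mem_toList]

theorem pairwise_actList (W : Finset V) (t : V → ℝ) (s : ℝ) :
    (actList W t s).Pairwise fun a b => t a ≤ t b := by
  rw [actList_eq]
  exact List.pairwise_insertionSort _ _

theorem nodup_actList (W : Finset V) (t : V → ℝ) (s : ℝ) : (actList W t s).Nodup := by
  rw [actList_eq]
  exact ((List.perm_insertionSort _ _).nodup_iff).2 (Finset.nodup_toList _)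

/-- uniqueness of the sorted list -/
theorem actList_eq_of {W : Finset V} {t : V → ℝ} {s : ℝ} {l : List V} (hn : l.Nodup)
    (hm : ∀ u, u ∈ l ↔ u ∈ actSet W t s) (hs : l.Pairwise fun a b => t a ≤ t b) :
    actList W t s = l := by
  have hp : (actList W t s).Perm l := by
    rw [List.perm_ext_iff_of_nodup (nodup_actList W t s) hn]
    intro a
    rw [mem_actList, hm]
  refine List.Perm.eq_of_pairwise ?_ (pairwise_actList W t s) hs hp
  intro a b ha hb hab hba
  have ha' := mem_actSet.mp (mem_actList.mp ha)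
  have hb' := mem_actSet.mp ((hm b).mp hb)
  by_contra hne
  exact hb'.2.2 a ha'.1 hne (le_antisymm hab hba)

/-- the characterisation -/
theorem actList_eq_iff {W : Finset V} {t : V → ℝ} {s : ℝ} {l : List V} :
    actList W t s = l ↔ l.Nodup ∧ (∀ u, u ∈ l ↔ u ∈ actSet W t s) ∧ l.Pairwise fun a b => t a ≤ t b := by
  constructor
  · rintro rfl
    exact ⟨nodup_actList W t s, fun u => mem_actList, pairwise_actList W t s⟩
  · rintro ⟨h1, h2, h3⟩
    exact actList_eq_of h1 h2 h3

/-- under injectivity, no tied vertices -/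
theorem mem_actSet_of_inj {W : Finset V} {t : V → ℝ} {s : ℝ} (ht : Set.InjOn t W) {u : V} :
    u ∈ actSet W t s ↔ u ∈ W ∧ t u < s := by
  rw [mem_actSet]
  constructor
  · rintro ⟨h1, h2, _⟩
    exact ⟨h1, h2⟩
  · rintro ⟨h1, h2⟩
    exact ⟨h1, h2, fun u' hu' hne h => hne (ht hu' h1 h)⟩

/-- Filtering the list of a bigger set. -/
theorem filter_actList {W A : Finset V} (hWA : W ⊆ A) {t : V → ℝ} (ht : Set.InjOn t A) (s : ℝ) :
    (actList A t s).filter (· ∈ W) = actList W t s := by
  symm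
  apply actList_eq_of
  · exact (nodup_actList A t s).filter _
  · intro u
    rw [List.mem_filter, mem_actList, mem_actSet_of_inj ht, mem_actSet_of_inj (ht.mono (by exact_mod_cast hWA))]
    simp only [decide_eq_true_eq]
    constructor
    · rintro ⟨⟨_, h⟩, h'⟩
      exact ⟨h', h⟩
    · rintro ⟨h, h'⟩
      exact ⟨⟨hWA h, h'⟩, h⟩
  · exact (pairwise_actList A t s).filter _

/-- folding through a predicate -/
theorem foldl_filter {α : Type*} (step : α → V → α) (W : Finset V) (S₀ : α) (L : List V) :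
    L.foldl (fun S u => if u ∈ W then step S u else S) S₀ = (L.filter (· ∈ W)).foldl step S₀ := by
  induction L generalizing S₀ with
  | nil => rfl
  | cons a L ih =>
    by_cases ha : a ∈ W
    · simp [ha, ih]
    · simp [ha, ih]

theorem foldl_prod {α β : Type*} (step₁ : α → V → α) (step₂ : β → V → β) (S₀ : α × β) (L : List V) :
    L.foldl (fun S u => (step₁ S.1 u, step₂ S.2 u)) S₀ = (L.foldl step₁ S₀.1, L.foldl step₂ S₀.2) := by
  induction L generalizing S₀ with
  | nil => rfl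
  | cons a L ih => simp [ih]

/-- removing the latest vertex -/
theorem actList_succ {A : Finset V} {t : V → ℝ} (ht : Set.InjOn t A) {s : ℝ} {u : V} (hu : u ∈ A)
    (hus : t u < s) (hmax : ∀ v ∈ A, t v < s → t v ≤ t u) :
    actList A t s = actList A t (t u) ++ [u] := by
  apply actList_eq_of
  · rw [List.nodup_append]
    refine ⟨nodup_actList _ _ _, by simp, ?_⟩
    intro a ha b hb
    have h1 := mem_actSet.mp (mem_actList.mp ha)
    simp only [List.mem_singleton] at hb
    subst hb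
    rintro rfl
    exact lt_irrefl _ h1.2.1
  · intro v
    rw [List.mem_append, mem_actList, List.mem_singleton, mem_actSet_of_inj ht, mem_actSet_of_inj ht]
    constructor
    · rintro (⟨h1, h2⟩ | rfl)
      · exact ⟨h1, h2.trans hus⟩
      · exact ⟨hu, hus⟩
    · rintro ⟨h1, h2⟩
      rcases (hmax v h1 h2).lt_or_eq with h | h
      · exact Or.inl ⟨h1, h⟩
      · exact Or.inr (ht h1 hu h)
  · rw [List.pairwise_append]
    refine ⟨pairwise_actList _ _ _, by simp, ?_⟩
    intro a ha b hb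
    have h1 := mem_actSet.mp (mem_actList.mp ha)
    simp only [List.mem_singleton] at hb
    subst hb
    exact h1.2.1.le

/-- **Telescoping over the actions.** -/
theorem telescope {α : Type*} (step : α → V → α) (Φ : α → ℝ) (S₀ : α) {A : Finset V} {t : V → ℝ}
    (ht : Set.InjOn t A) (s : ℝ) :
    Φ ((actList A t s).foldl step S₀) - Φ S₀ =
      ∑ u ∈ A.filter (fun u => t u < s),
        (Φ (step ((actList A t (t u)).foldl step S₀) u) - Φ ((actList A t (t u)).foldl step S₀)) := by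
  induction' hn : (A.filter (fun u => t u < s)).card using Nat.strong_induction_on with n ih generalizing s
  by_cases he : (A.filter (fun u => t u < s)).Nonempty
  · obtain ⟨u, hu, hmax⟩ := Finset.exists_max_image _ t he
    have hu' := Finset.mem_filter.mp hu
    have hl := actList_succ ht hu'.1 hu'.2 (fun v hv hvs => hmax v (Finset.mem_filter.mpr ⟨hv, hvs⟩))
    have hset : A.filter (fun v => t v < s) = insert u (A.filter (fun v => t v < t u)) := by
      ext v
      simp only [Finset.mem_filter, Finset.mem_insert]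
      constructor
      · rintro ⟨h1, h2⟩
        rcases (hmax v (Finset.mem_filter.mpr ⟨h1, h2⟩)).lt_or_eq with h | h
        · exact Or.inr ⟨h1, h⟩
        · exact Or.inl (ht h1 hu'.1 h)
      · rintro (rfl | ⟨h1, h2⟩)
        · exact hu'
        · exact ⟨h1, h2.trans hu'.2⟩
    have hnot : u ∉ A.filter (fun v => t v < t u) := by simp
    have hcard : (A.filter (fun v => t v < t u)).card < n := by
      rw [← hn, hset, Finset.card_insert_of_notMem hnot]
      omega
    have hih := ih _ hcard (t u) rfl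
    rw [hset, Finset.sum_insert hnot, ← hih, hl, List.foldl_append]
    simp only [List.foldl_cons, List.foldl_nil]
    ring
  · rw [Finset.not_nonempty_iff_eq_empty] at he
    have hl : actList A t s = [] := by
      apply actList_eq_of List.nodup_nil _ List.Pairwise.nil
      intro v
      simp only [List.not_mem_nil, false_iff]
      intro h
      have h' := mem_actSet.mp h
      have : v ∈ A.filter (fun u => t u < s) := Finset.mem_filter.mpr ⟨h'.1, h'.2.1⟩
      rw [he] at this
      simp at this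
    rw [hl, he]
    simp

/-- `actList` does not see the time of a vertex later than the cutoff. -/
theorem actList_congr {W : Finset V} {t t' : V → ℝ} {s : ℝ} {u : V} (h : ∀ v, v ≠ u → t v = t' v)
    (hu : s ≤ t u) (hu' : s ≤ t' u) : actList W t s = actList W t' s := by
  have hne : ∀ {t₀ : V → ℝ} {v : V}, s ≤ t₀ u → t₀ v < s → v ≠ u := by
    intro t₀ v h1 h2 hvu
    subst hvu
    exact absurd h2 (not_lt.mpr h1)
  have hset : actSet W t s = actSet W t' s := by
    ext v
    rw [mem_actSet, mem_actSet]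
    constructor
    · rintro ⟨h1, h2, h3⟩
      have hvu := hne hu h2
      refine ⟨h1, by rwa [← h v hvu], fun u' hu'W hne' => ?_⟩
      rw [← h v hvu]
      by_cases hu'u : u' = u
      · subst hu'u
        intro he
        exact absurd h2 (not_lt.mpr (he ▸ hu'))
      · rw [← h u' hu'u]
        exact h3 u' hu'W hne'
    · rintro ⟨h1, h2, h3⟩
      have hvu := hne hu' h2
      refine ⟨h1, by rwa [h v hvu], fun u' hu'W hne' => ?_⟩
      rw [h v hvu]
      by_cases hu'u : u' = u
      · subst hu'u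
        intro he
        exact absurd h2 (not_lt.mpr (he ▸ hu))
      · rw [h u' hu'u]
        exact h3 u' hu'W hne'
  apply actList_eq_of (nodup_actList _ _ _)
  · intro v
    rw [mem_actList, hset]
  · have := pairwise_actList W t' s
    refine this.imp_of_mem ?_
    intro a b ha hb hab
    have ha' := mem_actSet.mp (mem_actList.mp ha)
    have hb' := mem_actSet.mp (mem_actList.mp hb)
    rwa [h a (hne hu' ha'.2.1), h b (hne hu' hb'.2.1)]


/-! ### Measurability -/

section Meas

variable {X : Type*} [MeasurableSpace X]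

theorem measurable_bforall (W : Finset V) {p : V → X → Prop} (h : ∀ v ∈ W, Measurable (p v)) :
    Measurable fun x => ∀ v ∈ W, p v x := by
  rw [← measurableSet_setOfPred]
  have : {x | ∀ v ∈ W, p v x} = ⋂ v ∈ W, {x | p v x} := by ext; simp
  rw [this]
  exact Finset.measurableSet_biInter _ fun v hv => (h v hv).setOf

theorem measurable_pairwise {t : X → V → ℝ} (ht : ∀ v, Measurable fun x => t x v) (l : List V) :
    Measurable fun x => l.Pairwise fun a b => t x a ≤ t x b := by
  induction l with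
  | nil => simp
  | cons a l ih =>
    simp only [List.pairwise_cons]
    refine Measurable.and ?_ ih
    have e : (fun x => ∀ b ∈ l, t x a ≤ t x b) = fun x => ∀ b ∈ l.toFinset, t x a ≤ t x b := by
      funext x; simp
    rw [e]
    exact measurable_bforall _ fun b _ => measurableSet_setOfPred.1 (measurableSet_le (ht a) (ht b))

theorem measurable_actList_eq (W : Finset V) {t : X → V → ℝ} {s : X → ℝ}
    (ht : ∀ v, Measurable fun x => t x v) (hs : Measurable s) (l : List V) :
    Measurable fun x => actList W (t x) (s x) = l := by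
  have e : (fun x => actList W (t x) (s x) = l) = fun x => l.Nodup ∧ (∀ u ∈ l, u ∈ W) ∧
      (∀ u ∈ W, (u ∈ l ↔ (t x u < s x ∧ ∀ u' ∈ W, u' ≠ u → t x u' ≠ t x u))) ∧
      l.Pairwise fun a b => t x a ≤ t x b := by
    funext x
    rw [eq_iff_iff, actList_eq_iff]
    constructor
    · rintro ⟨h1, h2, h3⟩
      refine ⟨h1, fun u hu => (mem_actSet.mp ((h2 u).mp hu)).1, fun u hu => ?_, h3⟩
      rw [h2, mem_actSet]
      simp [hu]
    · rintro ⟨h1, h2, h3, h4⟩
      refine ⟨h1, fun u => ?_, h4⟩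
      rw [mem_actSet]
      by_cases hu : u ∈ W
      · rw [h3 u hu]; simp [hu]
      · constructor
        · intro h; exact absurd (h2 u h) hu
        · intro h; exact absurd h.1 hu
  rw [e]
  refine measurable_const.and (measurable_const.and (Measurable.and ?_ (measurable_pairwise ht l)))
  refine measurable_bforall _ fun u _ => Measurable.iff measurable_const (Measurable.and ?_ ?_)
  · exact measurableSet_setOfPred.1 (measurableSet_lt (ht u) hs)
  · refine measurable_bforall _ fun u' _ => Measurable.imp measurable_const ?_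
    exact (measurableSet_setOfPred.1 (measurableSet_eq_fun (ht u') (ht u))).not

theorem measurable_of_countable_cases {Y Z : Type*} [MeasurableSpace Y] {c : X → Z} {S : Set Z}
    (hS : S.Countable) (hc : ∀ x, c x ∈ S) (hm : ∀ z ∈ S, Measurable fun x => c x = z)
    {g : Z → X → Y} (hg : ∀ z ∈ S, Measurable (g z)) : Measurable fun x => g (c x) x := by
  intro B hB
  have e : (fun x => g (c x) x) ⁻¹' B = ⋃ z ∈ S, ({x | c x = z} ∩ g z ⁻¹' B) := by
    ext x
    simp only [Set.mem_preimage, Set.mem_iUnion, Set.mem_inter_iff, Set.mem_ofPred_eq, exists_prop]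
    constructor
    · intro h
      exact ⟨c x, hc x, rfl, h⟩
    · rintro ⟨z, _, rfl, h⟩
      exact h
  rw [e]
  exact MeasurableSet.biUnion hS fun z hz => ((hm z hz).setOf).inter (hg z hz hB)

theorem countable_lists (W : Finset V) : {l : List V | ∀ u ∈ l, u ∈ W}.Countable := by
  have : {l : List V | ∀ u ∈ l, u ∈ W} ⊆ Set.range (List.map (Subtype.val : W → V)) := by
    intro l hl
    induction l with
    | nil => exact ⟨[], rfl⟩
    | cons a l ih =>
      obtain ⟨l', hl'⟩ := ih (fun u hu => hl u (List.mem_cons_of_mem _ hu))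
      exact ⟨⟨a, hl a (by simp)⟩ :: l', by simp [hl']⟩
  exact (Set.countable_range _).mono this

variable (G : SimpleGraph V) [G.LocallyFinite]

omit [G.LocallyFinite] in
theorem measurable_gibbs (θ : ℝ) (W : Finset V) (f : Finset V → ℝ) :
    Measurable fun ℓ : V → ℝ => gibbs G θ ℓ W f := by
  unfold gibbs pfW expW siteW
  refine Measurable.div ?_ ?_
  · refine Finset.measurable_sum _ fun A _ => ?_
    refine Measurable.mul ?_ measurable_const
    refine Measurable.mul measurable_const ?_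
    refine Finset.measurable_prod _ fun v _ => ?_
    split_ifs <;> fun_prop
  · refine Finset.measurable_sum _ fun A _ => ?_
    refine Measurable.mul ?_ measurable_const
    refine Measurable.mul measurable_const ?_
    refine Finset.measurable_prod _ fun v _ => ?_
    split_ifs <;> fun_prop

omit [G.LocallyFinite] in
theorem measurable_mag (θ : ℝ) (W : Finset V) (u : V) :
    Measurable fun ℓ : V → ℝ => mag G θ ℓ W u := measurable_gibbs G θ W _

omit [G.LocallyFinite] in
theorem measurable_covG (θ : ℝ) (W : Finset V) (f g : Finset V → ℝ) :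
    Measurable fun ℓ : V → ℝ => covG G θ ℓ W f g := by
  unfold covG
  exact (measurable_gibbs G θ W _).sub ((measurable_gibbs G θ W _).mul (measurable_gibbs G θ W _))

omit [G.LocallyFinite] in
theorem measurable_actStep (θ : ℝ) (W : Finset V) (ε : ℝ) (u : V) :
    Measurable fun p : (V → ℝ) × ℝ => actStep G θ W ε p.1 u p.2 := by
  refine measurable_pi_lambda _ fun v => ?_
  by_cases hv : v = u
  · subst hv
    simp only [actStep, Function.update_self]
    unfold tanhAdd
    have h1 : Measurable fun p : (V → ℝ) × ℝ => ε * chanT (ε * mag G θ p.1 W v) p.2 :=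
      measurable_const.mul (measurable_chanT.comp
        ((measurable_const.mul ((measurable_mag G θ W v).comp measurable_fst)).prodMk measurable_snd))
    have h2 : Measurable fun p : (V → ℝ) × ℝ => p.1 v := (measurable_pi_apply v).comp measurable_fst
    exact (h2.add h1).div (measurable_const.add (h1.mul h2))
  · simp only [actStep, Function.update_of_ne hv]
    exact (measurable_pi_apply v).comp measurable_fst

omit [G.LocallyFinite] in
theorem measurable_foldl_step (θ : ℝ) (W : Finset V) (ε : ℝ) {U : X → V → ℝ}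
    (hU : ∀ v, Measurable fun x => U x v) {ℓ₀ : X → V → ℝ} (hℓ : Measurable ℓ₀) (l : List V) :
    Measurable fun x => l.foldl (fun ℓ u => actStep G θ W ε ℓ u (U x u)) (ℓ₀ x) := by
  induction l generalizing ℓ₀ with
  | nil => simpa
  | cons a l ih =>
    simp only [List.foldl_cons]
    exact ih ((measurable_actStep G θ W ε a).comp (hℓ.prodMk (hU a)))

omit [G.LocallyFinite] in
theorem measurable_runSweep (θ : ℝ) (W : Finset V) (ε : ℝ) {t U : X → V → ℝ} {s : X → ℝ} {ℓ₀ : X → V → ℝ}
    (ht : ∀ v, Measurable fun x => t x v) (hU : ∀ v, Measurable fun x => U x v) (hs : Measurable s)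
    (hℓ : Measurable ℓ₀) :
    Measurable fun x => runSweep G θ W ε (t x) (U x) (s x) (ℓ₀ x) := by
  unfold runSweep
  refine measurable_of_countable_cases (countable_lists W) (c := fun x => actList W (t x) (s x))
    (g := fun l x => l.foldl (fun ℓ u => actStep G θ W ε ℓ u (U x u)) (ℓ₀ x)) ?_ ?_ ?_
  · intro x u hu
    exact (mem_actSet.mp (mem_actList.mp hu)).1
  · intro l _
    exact measurable_actList_eq W ht hs l
  · intro l _
    exact measurable_foldl_step G θ W ε hU hℓ l

theorem measurable_tOf (v : V) (j : ℤ) : Measurable fun x : Om V => tOf x v j :=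
  measurable_subtype_coe.comp ((measurable_pi_apply _).comp (measurable_pi_apply v))

theorem measurable_uOf (v : V) (j : ℤ) : Measurable fun x : Om V => uOf x v j :=
  measurable_subtype_coe.comp ((measurable_pi_apply _).comp (measurable_pi_apply v))

omit [G.LocallyFinite] in
theorem measurable_fieldStart (θ : ℝ) (W : Finset V) (N : ℤ) (n : ℕ) :
    Measurable fun x : Om V => fieldStart G θ W N x n := by
  induction n with
  | zero => exact measurable_const
  | succ n ih =>
    exact measurable_runSweep G θ W _ (fun v => measurable_tOf v _) (fun v => measurable_uOf v _)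
      measurable_const ih

omit [G.LocallyFinite] in
/-- joint measurability in the labels and the cutoff -/
theorem measurable_fieldAt_gen (θ : ℝ) (W : Finset V) (N j : ℤ) {a : X → Om V} {b : X → ℝ}
    (ha : Measurable a) (hb : Measurable b) :
    Measurable fun y => fieldAt G θ W N (a y) j (b y) := by
  unfold fieldAt
  exact measurable_runSweep G θ W _ (t := fun y v => tOf (a y) v j)
    (U := fun y v => uOf (a y) v j) (s := b)
    (ℓ₀ := fun y => fieldStart G θ W N (a y) (j - N).toNat)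
    (fun v => (measurable_tOf v j).comp ha)
    (fun v => (measurable_uOf v j).comp ha) hb
    ((measurable_fieldStart G θ W N _).comp ha)

end Meas

/-! ### Congruence: what the field depends on -/

section Congr

variable {G : SimpleGraph V} [G.LocallyFinite]

theorem foldl_congr_mem {α : Type*} {f g : α → V → α} (l : List V) (h : ∀ a ∈ l, ∀ b, f b a = g b a) (S₀ : α) :
    l.foldl f S₀ = l.foldl g S₀ := by
  induction l generalizing S₀ with
  | nil => rfl
  | cons a l ih =>
    simp only [List.foldl_cons]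
    rw [h a (by simp)]
    exact ih (fun a' ha' => h a' (List.mem_cons_of_mem _ ha')) _

omit [G.LocallyFinite] in
theorem runSweep_congr {θ : ℝ} {W : Finset V} {ε : ℝ} {t t' U U' : V → ℝ} {s : ℝ} {u : V} {ℓ₀ : V → ℝ}
    (ht : ∀ v, v ≠ u → t v = t' v) (hU : ∀ v, v ≠ u → U v = U' v) (hu : s ≤ t u) (hu' : s ≤ t' u) :
    runSweep G θ W ε t U s ℓ₀ = runSweep G θ W ε t' U' s ℓ₀ := by
  unfold runSweep
  rw [actList_congr ht hu hu']
  apply foldl_congr_mem
  intro a ha b
  have h1 := (mem_actSet.mp (mem_actList.mp ha)).2.1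
  have : a ≠ u := by
    rintro rfl
    exact absurd h1 (not_lt.mpr hu')
  rw [hU a this]

omit [G.LocallyFinite] in
theorem fieldStart_congr {θ : ℝ} {W : Finset V} {N : ℤ} {x x' : Om V} (n : ℕ)
    (h : ∀ v k b, k < N + n → x v (k, b) = x' v (k, b)) :
    fieldStart G θ W N x n = fieldStart G θ W N x' n := by
  induction n with
  | zero => rfl
  | succ n ih =>
    have hk : N + (n : ℤ) < N + ((n + 1 : ℕ) : ℤ) := by push_cast; omega
    simp only [fieldStart]
    rw [ih (fun v k b hk' => h v k b (by push_cast; omega))]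
    have ht : (fun v => tOf x v (N + n)) = fun v => tOf x' v (N + n) := by
      funext v
      simp only [tOf]
      rw [h v _ _ hk]
    have hU : (fun v => uOf x v (N + n)) = fun v => uOf x' v (N + n) := by
      funext v
      simp only [uOf]
      rw [h v _ _ hk]
    rw [ht, hU]

omit [G.LocallyFinite] in
theorem fieldAt_congr {θ : ℝ} {W : Finset V} {N j : ℤ} {x x' : Om V} {s : ℝ} {u : V}
    (h1 : ∀ v k b, k < j → x v (k, b) = x' v (k, b))
    (h2 : ∀ v b, v ≠ u → x v (j, b) = x' v (j, b))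
    (h3 : s ≤ tOf x u j) (h4 : s ≤ tOf x' u j) :
    fieldAt G θ W N x j s = fieldAt G θ W N x' j s := by
  unfold fieldAt
  have hst : fieldStart G θ W N x (j - N).toNat = fieldStart G θ W N x' (j - N).toNat := by
    by_cases hjN : j - N ≤ 0
    · have h0 : (j - N).toNat = 0 := Int.toNat_of_nonpos hjN
      rw [h0]
      rfl
    · apply fieldStart_congr
      intro v k b hk
      apply h1
      have := Int.toNat_of_nonneg (le_of_not_ge hjN)
      omega
  rw [hst]
  apply runSweep_congr (u := u)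
  · intro v hv
    simp only [tOf]
    rw [h2 v _ hv]
  · intro v hv
    simp only [uOf]
    rw [h2 v _ hv]
  · exact h3
  · exact h4

end Congr


/-! ### One action of the pair -/

theorem eps_pos' (j : ℤ) : 0 < eps j := by
  unfold eps
  have : 0 < min (1 : ℝ) ((2 : ℝ) ^ j) := lt_min one_pos (zpow_pos two_pos j)
  have := Real.sqrt_pos.mpr this
  positivity

theorem eps_le' (j : ℤ) : eps j ≤ 1 / 4 := by
  unfold eps
  have h : Real.sqrt (min (1 : ℝ) ((2 : ℝ) ^ j)) ≤ 1 :=
    (Real.sqrt_le_sqrt (min_le_left _ _)).trans (by simp)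
  linarith

section Step

variable (G : SimpleGraph V) [G.LocallyFinite] (θ θ' : ℝ) (W W' : Finset V) (ε : ℝ) (f f' : Finset V → ℝ)

/-- one action in the pair of systems -/
noncomputable def pStep (S : (V → ℝ) × (V → ℝ)) (u : V) (U : ℝ) : (V → ℝ) × (V → ℝ) :=
  (if u ∈ W then actStep G θ W ε S.1 u U else S.1, if u ∈ W' then actStep G θ' W' ε S.2 u U else S.2)

/-- the square difference of the two observables -/
noncomputable def Phi (S : (V → ℝ) × (V → ℝ)) : ℝ := (gibbs G θ S.1 W f - gibbs G θ' S.2 W' f') ^ 2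

/-- the mean increase -/
noncomputable def PsiI (u : V) (S : (V → ℝ) × (V → ℝ)) : ℝ :=
  ∫ U in (0 : ℝ)..1, psiU G θ θ' W W' ε f f' S.1 S.2 u U

/-- fields in `(-1,1)` -/
def Good (S : (V → ℝ) × (V → ℝ)) : Prop := (∀ v, |S.1 v| < 1) ∧ ∀ v, |S.2 v| < 1

variable {G θ θ' W W' ε f f'}

theorem abs_actStep_lt (hθ0 : 0 ≤ θ) (hθ1 : θ < 1) (hε0 : 0 ≤ ε) (hε : ε ≤ 1 / 4) {ℓ : V → ℝ}
    (hℓ : ∀ v, |ℓ v| < 1) (u : V) {U : ℝ} (hU : U ∈ Set.Icc (0 : ℝ) 1) (v : V) :
    |actStep G θ W ε ℓ u U v| < 1 := by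
  unfold actStep
  by_cases hv : v = u
  · subst hv
    rw [Function.update_self]
    apply abs_tanhAdd_lt (hℓ v)
    have hm := abs_mag_le' (G := G) hθ0 hθ1 hℓ W v
    have ha : |ε * mag G θ ℓ W v| ≤ 1 := by
      rw [abs_mul, abs_of_nonneg hε0]
      nlinarith [abs_nonneg (mag G θ ℓ W v)]
    have hy := chanT_mem ha hU
    have hy' : |chanT (ε * mag G θ ℓ W v) U| ≤ 1 := abs_le.mpr hy
    rw [abs_mul, abs_of_nonneg hε0]
    nlinarith [abs_nonneg (chanT (ε * mag G θ ℓ W v) U)]
  · rw [Function.update_of_ne hv]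
    exact hℓ v

theorem good_pStep (hθ0 : 0 ≤ θ) (hθ1 : θ < 1) (hθ0' : 0 ≤ θ') (hθ1' : θ' < 1) (hε0 : 0 ≤ ε) (hε : ε ≤ 1 / 4)
    {S : (V → ℝ) × (V → ℝ)} (hS : Good S) (u : V) {U : ℝ} (hU : U ∈ Set.Icc (0 : ℝ) 1) :
    Good (pStep G θ θ' W W' ε S u U) := by
  constructor
  · intro v
    simp only [pStep]
    split_ifs
    · exact abs_actStep_lt hθ0 hθ1 hε0 hε hS.1 u hU v
    · exact hS.1 v
  · intro v
    simp only [pStep]
    split_ifs
    · exact abs_actStep_lt hθ0' hθ1' hε0 hε hS.2 u hU v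
    · exact hS.2 v

theorem abs_foldl_lt (hθ0 : 0 ≤ θ) (hθ1 : θ < 1) (hε0 : 0 ≤ ε) (hε : ε ≤ 1 / 4) {U : V → ℝ}
    (hU : ∀ v, U v ∈ Set.Icc (0 : ℝ) 1) (l : List V) {ℓ₀ : V → ℝ} (hℓ : ∀ v, |ℓ₀ v| < 1) :
    ∀ v, |l.foldl (fun ℓ u => actStep G θ W ε ℓ u (U u)) ℓ₀ v| < 1 := by
  induction l generalizing ℓ₀ with
  | nil => simpa
  | cons a l ih =>
    simp only [List.foldl_cons]
    exact ih (abs_actStep_lt hθ0 hθ1 hε0 hε hℓ a (hU a))

theorem uOf_mem (x : Om V) (v : V) (j : ℤ) : uOf x v j ∈ Set.Icc (0 : ℝ) 1 := (x v (j, true)).2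

theorem abs_fieldStart_lt (hθ0 : 0 ≤ θ) (hθ1 : θ < 1) (N : ℤ) (x : Om V) (n : ℕ) :
    ∀ v, |fieldStart G θ W N x n v| < 1 := by
  induction n with
  | zero => intro v; simp [fieldStart]
  | succ n ih =>
    simp only [fieldStart]
    exact abs_foldl_lt hθ0 hθ1 (eps_pos' _).le (eps_le' _) (fun v => uOf_mem x v _) _ ih

theorem abs_fieldAt_lt' (hθ0 : 0 ≤ θ) (hθ1 : θ < 1) (N : ℤ) (x : Om V) (j : ℤ) (s : ℝ) :
    ∀ v, |fieldAt G θ W N x j s v| < 1 :=
  abs_foldl_lt hθ0 hθ1 (eps_pos' _).le (eps_le' _) (fun v => uOf_mem x v _) _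
    (abs_fieldStart_lt hθ0 hθ1 N x _)

theorem gibbs_actStep (hθ0 : 0 ≤ θ) (hθ1 : θ < 1) (hε0 : 0 ≤ ε) (hε : ε ≤ 1 / 4) {ℓ : V → ℝ}
    (hℓ : ∀ v, |ℓ v| < 1) {u : V} (hu : u ∈ W) {U : ℝ} (hU : U ∈ Set.Icc (0 : ℝ) 1) (g : Finset V → ℝ) :
    gibbs G θ (actStep G θ W ε ℓ u U) W g =
      gibbs G θ ℓ W g + rhoFn ε (mag G θ ℓ W u) U * covG G θ ℓ W g (fun A => spin A u) := by
  have hm := abs_mag_le' (G := G) hθ0 hθ1 hℓ W u
  have ha : |ε * mag G θ ℓ W u| ≤ 1 := by
    rw [abs_mul, abs_of_nonneg hε0]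
    nlinarith [abs_nonneg (mag G θ ℓ W u)]
  have hy := chanT_mem ha hU
  have hy' : |chanT (ε * mag G θ ℓ W u) U| ≤ 1 := abs_le.mpr hy
  have ha' : |ε * chanT (ε * mag G θ ℓ W u) U| < 1 := by
    rw [abs_mul, abs_of_nonneg hε0]
    nlinarith [abs_nonneg (chanT (ε * mag G θ ℓ W u) U)]
  unfold actStep
  rw [gibbs_update' hθ0 hθ1 hℓ hu ha' g]
  rfl

/-- the increment coefficient -/
noncomputable def Rinc (G : SimpleGraph V) (θ θ' : ℝ) (W W' : Finset V) (ε : ℝ) (f f' : Finset V → ℝ)
    (S : (V → ℝ) × (V → ℝ)) (u : V) (U : ℝ) : ℝ :=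
  (if u ∈ W then covG G θ S.1 W f (fun A => spin A u) else 0) * rhoFn ε (mag G θ S.1 W u) U -
    (if u ∈ W' then covG G θ' S.2 W' f' (fun A => spin A u) else 0) * rhoFn ε (mag G θ' S.2 W' u) U

omit [G.LocallyFinite] in
theorem psiU_eq (S : (V → ℝ) × (V → ℝ)) (u : V) (U : ℝ) :
    psiU G θ θ' W W' ε f f' S.1 S.2 u U = Rinc G θ θ' W W' ε f f' S u U ^ 2 := by
  unfold psiU Rinc
  split_ifs <;> ring

theorem Phi_pStep (hθ0 : 0 ≤ θ) (hθ1 : θ < 1) (hθ0' : 0 ≤ θ') (hθ1' : θ' < 1) (hε0 : 0 ≤ ε) (hε : ε ≤ 1 / 4)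
    {S : (V → ℝ) × (V → ℝ)} (hS : Good S) (u : V) {U : ℝ} (hU : U ∈ Set.Icc (0 : ℝ) 1) :
    Phi G θ θ' W W' f f' (pStep G θ θ' W W' ε S u U) =
      (gibbs G θ S.1 W f - gibbs G θ' S.2 W' f' + Rinc G θ θ' W W' ε f f' S u U) ^ 2 := by
  unfold Phi Rinc pStep
  by_cases h1 : u ∈ W <;> by_cases h2 : u ∈ W' <;> simp only [h1, h2, if_true, if_false]
  · rw [gibbs_actStep hθ0 hθ1 hε0 hε hS.1 h1 hU, gibbs_actStep hθ0' hθ1' hε0 hε hS.2 h2 hU]
    ring
  · rw [gibbs_actStep hθ0 hθ1 hε0 hε hS.1 h1 hU]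
    ring
  · rw [gibbs_actStep hθ0' hθ1' hε0 hε hS.2 h2 hU]
    ring
  · ring

omit [G.LocallyFinite] in
theorem Phi_nonneg (S : (V → ℝ) × (V → ℝ)) : 0 ≤ Phi G θ θ' W W' f f' S := sq_nonneg _

theorem Phi_le (hθ0 : 0 ≤ θ) (hθ1 : θ < 1) (hθ0' : 0 ≤ θ') (hθ1' : θ' < 1)
    (hf : ∀ A, |f A| ≤ 1) (hf' : ∀ A, |f' A| ≤ 1) {S : (V → ℝ) × (V → ℝ)} (hS : Good S) :
    Phi G θ θ' W W' f f' S ≤ 4 := by
  unfold Phi
  have h1 := abs_gibbs_le' (G := G) hθ0 hθ1 hS.1 W (f := f) (C := 1) fun A _ => hf A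
  have h2 := abs_gibbs_le' (G := G) hθ0' hθ1' hS.2 W' (f := f') (C := 1) fun A _ => hf' A
  have h1' := abs_le.mp h1
  have h2' := abs_le.mp h2
  nlinarith [h1'.1, h1'.2, h2'.1, h2'.2]

/-- bounded measurable functions are interval integrable -/
theorem intervalIntegrable_of_bdd {g : ℝ → ℝ} (hg : Measurable g) {C : ℝ}
    (hC : ∀ U ∈ Set.Icc (0 : ℝ) 1, |g U| ≤ C) : IntervalIntegrable g volume 0 1 := by
  rw [intervalIntegrable_iff_integrableOn_Ioc_of_le zero_le_one]
  refine Measure.integrableOn_of_bounded (M := C) (by simp) hg.aestronglyMeasurable ?_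
  refine (ae_restrict_iff' measurableSet_Ioc).2 (Eventually.of_forall fun U hU => ?_)
  exact hC U ⟨hU.1.le, hU.2⟩

theorem measurable_rho (ε m : ℝ) : Measurable fun U => rhoFn ε m U :=
  measurable_rhoFn.comp (measurable_const.prodMk (measurable_const.prodMk measurable_id))

theorem intervalIntegrable_rho (hε0 : 0 ≤ ε) (hε : ε ≤ 1 / 4) {m : ℝ} (hm : |m| ≤ 1) :
    IntervalIntegrable (fun U => rhoFn ε m U) volume 0 1 :=
  intervalIntegrable_of_bdd (measurable_rho ε m) (C := 2 * ε) fun _ hU =>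
    rhoFn_bound hε0 (by linarith) hm hU

omit [G.LocallyFinite] in
theorem measurable_Rinc (S : (V → ℝ) × (V → ℝ)) (u : V) : Measurable fun U => Rinc G θ θ' W W' ε f f' S u U :=
  (measurable_const.mul (measurable_rho _ _)).sub (measurable_const.mul (measurable_rho _ _))

theorem intervalIntegrable_Rinc (hθ0 : 0 ≤ θ) (hθ1 : θ < 1) (hθ0' : 0 ≤ θ') (hθ1' : θ' < 1)
    (hε0 : 0 ≤ ε) (hε : ε ≤ 1 / 4) {S : (V → ℝ) × (V → ℝ)} (hS : Good S) (u : V) :
    IntervalIntegrable (fun U => Rinc G θ θ' W W' ε f f' S u U) volume 0 1 := by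
  have hm := abs_mag_le' (G := G) hθ0 hθ1 hS.1 W u
  have hm' := abs_mag_le' (G := G) hθ0' hθ1' hS.2 W' u
  exact ((intervalIntegrable_rho hε0 hε hm).const_mul _).sub
    ((intervalIntegrable_rho hε0 hε hm').const_mul _)

theorem abs_Rinc_le (hθ0 : 0 ≤ θ) (hθ1 : θ < 1) (hθ0' : 0 ≤ θ') (hθ1' : θ' < 1)
    (hε0 : 0 ≤ ε) (hε : ε ≤ 1 / 4) {S : (V → ℝ) × (V → ℝ)} (hS : Good S) (u : V) {U : ℝ}
    (hU : U ∈ Set.Icc (0 : ℝ) 1) :
    |Rinc G θ θ' W W' ε f f' S u U| ≤
      |if u ∈ W then covG G θ S.1 W f (fun A => spin A u) else 0| * (2 * ε) +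
      |if u ∈ W' then covG G θ' S.2 W' f' (fun A => spin A u) else 0| * (2 * ε) := by
  have hm := abs_mag_le' (G := G) hθ0 hθ1 hS.1 W u
  have hm' := abs_mag_le' (G := G) hθ0' hθ1' hS.2 W' u
  have h1 := rhoFn_bound hε0 (by linarith) hm hU
  have h2 := rhoFn_bound hε0 (by linarith) hm' hU
  unfold Rinc
  refine (abs_sub _ _).trans ?_
  rw [abs_mul, abs_mul]
  exact add_le_add (mul_le_mul_of_nonneg_left h1 (abs_nonneg _))
    (mul_le_mul_of_nonneg_left h2 (abs_nonneg _))

/-- Mean of `Rinc` vanishes. -/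
theorem integral_Rinc (hθ0 : 0 ≤ θ) (hθ1 : θ < 1) (hθ0' : 0 ≤ θ') (hθ1' : θ' < 1)
    (hε0 : 0 ≤ ε) (hε : ε ≤ 1 / 4) {S : (V → ℝ) × (V → ℝ)} (hS : Good S) (u : V) :
    ∫ U in (0 : ℝ)..1, Rinc G θ θ' W W' ε f f' S u U = 0 := by
  have hm := abs_mag_le' (G := G) hθ0 hθ1 hS.1 W u
  have hm' := abs_mag_le' (G := G) hθ0' hθ1' hS.2 W' u
  unfold Rinc
  rw [intervalIntegral.integral_sub ((intervalIntegrable_rho hε0 hε hm).const_mul _)
    ((intervalIntegrable_rho hε0 hε hm').const_mul _), intervalIntegral.integral_const_mul,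
    intervalIntegral.integral_const_mul, integral_rhoFn hε0 (by linarith) hm,
    integral_rhoFn hε0 (by linarith) hm']
  simp

/-- **Key identity**: mean increase of `Φ` under one action. -/
theorem integral_Phi_pStep (hθ0 : 0 ≤ θ) (hθ1 : θ < 1) (hθ0' : 0 ≤ θ') (hθ1' : θ' < 1)
    (hε0 : 0 ≤ ε) (hε : ε ≤ 1 / 4) {S : (V → ℝ) × (V → ℝ)} (hS : Good S) (u : V) :
    ∫ U in (0 : ℝ)..1, (Phi G θ θ' W W' f f' (pStep G θ θ' W W' ε S u U) - Phi G θ θ' W W' f f' S) =
      PsiI G θ θ' W W' ε f f' u S := by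
  have hR := intervalIntegrable_Rinc (G := G) (W := W) (W' := W') (f := f) (f' := f') hθ0 hθ1 hθ0' hθ1' hε0 hε hS u
  have hR2 : IntervalIntegrable (fun U => Rinc G θ θ' W W' ε f f' S u U ^ 2) volume 0 1 := by
    refine intervalIntegrable_of_bdd ((measurable_Rinc S u).pow_const 2) (C :=
      (|if u ∈ W then covG G θ S.1 W f (fun A => spin A u) else 0| * (2 * ε) +
      |if u ∈ W' then covG G θ' S.2 W' f' (fun A => spin A u) else 0| * (2 * ε)) ^ 2) ?_
    intro U hU
    rw [abs_pow]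
    exact pow_le_pow_left₀ (abs_nonneg _) (abs_Rinc_le hθ0 hθ1 hθ0' hθ1' hε0 hε hS u hU) 2
  unfold PsiI
  simp only [psiU_eq S u]
  have e : ∀ U ∈ Set.uIcc (0 : ℝ) 1, (Phi G θ θ' W W' f f' (pStep G θ θ' W W' ε S u U) - Phi G θ θ' W W' f f' S) =
      2 * (gibbs G θ S.1 W f - gibbs G θ' S.2 W' f') * Rinc G θ θ' W W' ε f f' S u U +
        Rinc G θ θ' W W' ε f f' S u U ^ 2 := by
    intro U hU
    rw [Set.uIcc_of_le zero_le_one] at hU
    rw [Phi_pStep hθ0 hθ1 hθ0' hθ1' hε0 hε hS u hU]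
    unfold Phi
    ring
  rw [intervalIntegral.integral_congr e, intervalIntegral.integral_add (hR.const_mul _) hR2,
    intervalIntegral.integral_const_mul, integral_Rinc hθ0 hθ1 hθ0' hθ1' hε0 hε hS u]
  ring

omit [G.LocallyFinite] in
theorem PsiI_nonneg (S : (V → ℝ) × (V → ℝ)) (u : V) : 0 ≤ PsiI G θ θ' W W' ε f f' u S := by
  unfold PsiI
  apply intervalIntegral.integral_nonneg zero_le_one
  intro U _
  rw [psiU_eq]
  exact sq_nonneg _

theorem PsiI_le (hθ0 : 0 ≤ θ) (hθ1 : θ < 1) (hθ0' : 0 ≤ θ') (hθ1' : θ' < 1)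
    (hε0 : 0 ≤ ε) (hε : ε ≤ 1 / 4) (hf : ∀ A, |f A| ≤ 1) (hf' : ∀ A, |f' A| ≤ 1)
    {S : (V → ℝ) × (V → ℝ)} (hS : Good S) (u : V) : PsiI G θ θ' W W' ε f f' u S ≤ 4 := by
  rw [← integral_Phi_pStep hθ0 hθ1 hθ0' hθ1' hε0 hε hS u]
  have := intervalIntegral.norm_integral_le_of_norm_le_const (a := (0 : ℝ)) (b := 1) (C := 4)
    (f := fun U => Phi G θ θ' W W' f f' (pStep G θ θ' W W' ε S u U) - Phi G θ θ' W W' f f' S) ?_
  · have e : |(1 : ℝ) - 0| = 1 := by norm_num
    rw [e, mul_one, Real.norm_eq_abs] at this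
    exact (le_abs_self _).trans this
  · intro U hU
    rw [Set.uIoc_of_le zero_le_one] at hU
    have hU' : U ∈ Set.Icc (0 : ℝ) 1 := ⟨hU.1.le, hU.2⟩
    have h1 := Phi_le (G := G) (W := W) (W' := W') hθ0 hθ1 hθ0' hθ1' hf hf' (good_pStep (G := G) (W := W) (W' := W') (ε := ε) hθ0 hθ1 hθ0' hθ1' hε0 hε hS u hU')
    have h2 := Phi_le (G := G) (W := W) (W' := W') hθ0 hθ1 hθ0' hθ1' hf hf' hS
    have h3 := Phi_nonneg (G := G) (θ := θ) (θ' := θ') (W := W) (W' := W') (f := f) (f' := f') S
    have h4 := Phi_nonneg (G := G) (θ := θ) (θ' := θ') (W := W) (W' := W') (f := f) (f' := f') (pStep G θ θ' W W' ε S u U)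
    rw [Real.norm_eq_abs, abs_le]
    constructor <;> linarith

/-! measurability of the pair quantities -/

omit [G.LocallyFinite] in
theorem measurable_Phi : Measurable fun S : (V → ℝ) × (V → ℝ) => Phi G θ θ' W W' f f' S := by
  unfold Phi
  exact (((measurable_gibbs G θ W f).comp measurable_fst).sub
    ((measurable_gibbs G θ' W' f').comp measurable_snd)).pow_const 2

omit [G.LocallyFinite] in
theorem measurable_pStep (u : V) :
    Measurable fun p : ((V → ℝ) × (V → ℝ)) × ℝ => pStep G θ θ' W W' ε p.1 u p.2 := by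
  unfold pStep
  refine Measurable.prodMk ?_ ?_
  · by_cases h : u ∈ W
    · simp only [h, if_true]
      exact (measurable_actStep G θ W ε u).comp ((measurable_fst.comp measurable_fst).prodMk measurable_snd)
    · simp only [h, if_false]
      exact measurable_fst.comp measurable_fst
  · by_cases h : u ∈ W'
    · simp only [h, if_true]
      exact (measurable_actStep G θ' W' ε u).comp ((measurable_snd.comp measurable_fst).prodMk measurable_snd)
    · simp only [h, if_false]
      exact measurable_snd.comp measurable_fst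

omit [G.LocallyFinite] in
theorem measurable_psiU_joint (u : V) :
    Measurable fun p : ((V → ℝ) × (V → ℝ)) × ℝ => psiU G θ θ' W W' ε f f' p.1.1 p.1.2 u p.2 := by
  unfold psiU
  refine Measurable.pow_const (Measurable.sub ?_ ?_) 2
  · by_cases h : u ∈ W
    · simp only [h, if_true]
      refine Measurable.mul ?_ ?_
      · exact measurable_rhoFn.comp (measurable_const.prodMk
          (((measurable_mag G θ W u).comp (measurable_fst.comp measurable_fst)).prodMk measurable_snd))
      · exact (measurable_covG G θ W f _).comp (measurable_fst.comp measurable_fst)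
    · simp only [h, if_false]
      exact measurable_const
  · by_cases h : u ∈ W'
    · simp only [h, if_true]
      refine Measurable.mul ?_ ?_
      · exact measurable_rhoFn.comp (measurable_const.prodMk
          (((measurable_mag G θ' W' u).comp (measurable_snd.comp measurable_fst)).prodMk measurable_snd))
      · exact (measurable_covG G θ' W' f' _).comp (measurable_snd.comp measurable_fst)
    · simp only [h, if_false]
      exact measurable_const

omit [G.LocallyFinite] in
theorem measurable_PsiI (u : V) : Measurable fun S : (V → ℝ) × (V → ℝ) => PsiI G θ θ' W W' ε f f' u S := by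
  unfold PsiI
  simp only [intervalIntegral.integral_of_le (zero_le_one (α := ℝ))]
  have := StronglyMeasurable.integral_prod_right (α := (V → ℝ) × (V → ℝ)) (β := ℝ) (ν := volume.restrict (Set.Ioc (0 : ℝ) 1))
    (f := fun S U => psiU G θ θ' W W' ε f f' S.1 S.2 u U) (measurable_psiU_joint u).stronglyMeasurable
  exact this.measurable

end Step

/-! ### The dynamics of the pair at sweep `j` -/

section Main

variable (G : SimpleGraph V) [G.LocallyFinite] (θ θ' : ℝ) (W W' : Finset V) (N N' j : ℤ) (f f' : Finset V → ℝ)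

/-- the pair of fields -/
noncomputable def Sx (x : Om V) (s : ℝ) : (V → ℝ) × (V → ℝ) :=
  (fieldAt G θ W N x j s, fieldAt G θ' W' N' x j s)

/-- the pair of fields at the start of the sweep -/
noncomputable def S0 (x : Om V) : (V → ℝ) × (V → ℝ) :=
  (fieldStart G θ W N x (j - N).toNat, fieldStart G θ' W' N' x (j - N').toNat)

/-- the increment of `Φ` due to `u`, if `s₁ ≤ t_u < s₂` -/
noncomputable def Tu (u : V) (s₁ s₂ : ℝ) (x : Om V) : ℝ :=
  if s₁ ≤ tOf x u j ∧ tOf x u j < s₂ then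
    Phi G θ θ' W W' f f' (pStep G θ θ' W W' (eps j) (Sx G θ θ' W W' N N' j x (tOf x u j)) u (uOf x u j)) -
      Phi G θ θ' W W' f f' (Sx G θ θ' W W' N N' j x (tOf x u j))
  else 0

variable {G θ θ' W W' N N' j f f'}

omit [G.LocallyFinite] in
theorem Sx_eq_fold {x : Om V} (ht : Set.InjOn (fun v => tOf x v j) (W ∪ W' : Finset V)) (s : ℝ) :
    Sx G θ θ' W W' N N' j x s =
      (actList (W ∪ W') (fun v => tOf x v j) s).foldl
        (fun S u => pStep G θ θ' W W' (eps j) S u (uOf x u j)) (S0 G θ θ' W W' N N' j x) := by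
  have e := foldl_prod
    (fun (ℓ : V → ℝ) u => if u ∈ W then actStep G θ W (eps j) ℓ u (uOf x u j) else ℓ)
    (fun (ℓ : V → ℝ) u => if u ∈ W' then actStep G θ' W' (eps j) ℓ u (uOf x u j) else ℓ)
    (S0 G θ θ' W W' N N' j x) (actList (W ∪ W') (fun v => tOf x v j) s)
  have e' : (fun S u => pStep G θ θ' W W' (eps j) S u (uOf x u j)) =
      fun (S : (V → ℝ) × (V → ℝ)) u =>
        (if u ∈ W then actStep G θ W (eps j) S.1 u (uOf x u j) else S.1,
         if u ∈ W' then actStep G θ' W' (eps j) S.2 u (uOf x u j) else S.2) := rfl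
  rw [e', e, foldl_filter (fun (ℓ : V → ℝ) u => actStep G θ W (eps j) ℓ u (uOf x u j)),
    foldl_filter (fun (ℓ : V → ℝ) u => actStep G θ' W' (eps j) ℓ u (uOf x u j)),
    filter_actList Finset.subset_union_left ht, filter_actList Finset.subset_union_right ht]
  rfl

omit [G.LocallyFinite] in
/-- Deterministic telescoping identity on the good event. -/
theorem Phi_sub_eq_sum {x : Om V} (ht : Set.InjOn (fun v => tOf x v j) (W ∪ W' : Finset V))
    {s₁ s₂ : ℝ} (hs : s₁ ≤ s₂) :
    Phi G θ θ' W W' f f' (Sx G θ θ' W W' N N' j x s₂) - Phi G θ θ' W W' f f' (Sx G θ θ' W W' N N' j x s₁) =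
      ∑ u ∈ W ∪ W', Tu G θ θ' W W' N N' j f f' u s₁ s₂ x := by
  have tel := fun s => telescope (fun S u => pStep G θ θ' W W' (eps j) S u (uOf x u j))
    (Phi G θ θ' W W' f f') (S0 G θ θ' W W' N N' j x) ht s
  simp only [← Sx_eq_fold ht] at tel
  have h1 := tel s₁
  have h2 := tel s₂
  rw [Finset.sum_filter] at h1 h2
  have e : Phi G θ θ' W W' f f' (Sx G θ θ' W W' N N' j x s₂) - Phi G θ θ' W W' f f' (Sx G θ θ' W W' N N' j x s₁) =
      (Phi G θ θ' W W' f f' (Sx G θ θ' W W' N N' j x s₂) - Phi G θ θ' W W' f f' (S0 G θ θ' W W' N N' j x)) -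
      (Phi G θ θ' W W' f f' (Sx G θ θ' W W' N N' j x s₁) - Phi G θ θ' W W' f f' (S0 G θ θ' W W' N N' j x)) := by ring
  rw [e, h1, h2, ← Finset.sum_sub_distrib]
  apply Finset.sum_congr rfl
  intro u _
  unfold Tu
  by_cases h3 : tOf x u j < s₁
  · have h4 : tOf x u j < s₂ := h3.trans_le hs
    simp [h3, h4, not_le.mpr h3]
  · by_cases h4 : tOf x u j < s₂
    · simp [h3, h4, not_lt.mp h3]
    · simp [h3, h4]

/-! ### Resampling -/

theorem tOf_ne_ae {u v : V} (huv : u ≠ v) (j : ℤ) : ∀ᵐ x ∂(omP V), tOf x u j ≠ tOf x v j := by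
  have hmp := measurePreserving_updCoord (V := V) u (j, false)
  have hE : MeasurableSet {x : Om V | x u (j, false) = x v (j, false)} :=
    measurableSet_eq_fun ((measurable_pi_apply _).comp (measurable_pi_apply u))
      ((measurable_pi_apply _).comp (measurable_pi_apply v))
  have h0 : omP V {x : Om V | x u (j, false) = x v (j, false)} = 0 := by
    rw [← hmp.measure_preimage hE.nullMeasurableSet, Measure.measure_prod_null (hmp.measurable hE)]
    refine Eventually.of_forall fun x => ?_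
    have : Prod.mk x ⁻¹' ((fun p : Om V × unitInterval => updCoord p.1 u (j, false) p.2) ⁻¹'
        {x : Om V | x u (j, false) = x v (j, false)}) = {x v (j, false)} := by
      ext a
      simp [updCoord, huv.symm]
    show volume (Prod.mk x ⁻¹' ((fun p : Om V × unitInterval => updCoord p.1 u (j, false) p.2) ⁻¹'
        {x : Om V | x u (j, false) = x v (j, false)})) = 0
    rw [this]
    simp
  have := measure_eq_zero_iff_ae_notMem.mp h0
  filter_upwards [this] with x hx h
  apply hx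
  exact Subtype.ext h

theorem ae_injOn (A : Finset V) (j : ℤ) : ∀ᵐ x ∂(omP V), Set.InjOn (fun v => tOf x v j) (A : Finset V) := by
  have : ∀ᵐ x ∂(omP V), ∀ u ∈ A, ∀ v ∈ A, u ≠ v → tOf x u j ≠ tOf x v j := by
    rw [eventually_all_finset]
    intro u _
    rw [eventually_all_finset]
    intro v _
    by_cases huv : u = v
    · exact Eventually.of_forall fun x h => absurd huv h
    · filter_upwards [tOf_ne_ae huv j] with x hx _ using hx
  filter_upwards [this] with x hx u hu v hv h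
  by_contra hne
  exact hx u hu v hv hne h

@[simp] theorem tOf_updCoord_time (x : Om V) (u : V) (j : ℤ) (a : unitInterval) :
    tOf (updCoord x u (j, false) a) u j = a := by
  simp [tOf, updCoord]

@[simp] theorem tOf_updCoord_noise (x : Om V) (u : V) (j : ℤ) (a : unitInterval) :
    tOf (updCoord x u (j, true) a) u j = tOf x u j := by
  simp [tOf, updCoord]

@[simp] theorem uOf_updCoord_noise (x : Om V) (u : V) (j : ℤ) (a : unitInterval) :
    uOf (updCoord x u (j, true) a) u j = a := by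
  simp [uOf, updCoord]

theorem updCoord_of_ne_vertex (x : Om V) {u v : V} (h : v ≠ u) (i : ℤ × Bool) (a : unitInterval) :
    updCoord x u i a v = x v := by
  simp [updCoord, h]

theorem updCoord_of_ne_coord (x : Om V) (u v : V) {i i' : ℤ × Bool} (h : i' ≠ i) (a : unitInterval) :
    updCoord x u i a v i' = x v i' := by
  by_cases hv : v = u
  · subst hv
    simp [updCoord, h]
  · simp [updCoord, hv]

omit [G.LocallyFinite] in
theorem Sx_congr {x x' : Om V} {s : ℝ} {u : V}
    (h1 : ∀ v k b, k < j → x v (k, b) = x' v (k, b))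
    (h2 : ∀ v b, v ≠ u → x v (j, b) = x' v (j, b))
    (h3 : s ≤ tOf x u j) (h4 : s ≤ tOf x' u j) :
    Sx G θ θ' W W' N N' j x s = Sx G θ θ' W W' N N' j x' s :=
  Prod.ext (fieldAt_congr h1 h2 h3 h4) (fieldAt_congr h1 h2 h3 h4)

omit [G.LocallyFinite] in
theorem Sx_noise {x : Om V} {s : ℝ} {u : V} (hs : s ≤ tOf x u j) (a : unitInterval) :
    Sx G θ θ' W W' N N' j (updCoord x u (j, true) a) s = Sx G θ θ' W W' N N' j x s := by
  apply Sx_congr (u := u)
  · intro v k b hk
    apply updCoord_of_ne_coord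
    intro h
    have := (Prod.ext_iff.mp h).1
    simp only at this
    omega
  · intro v b hv
    rw [updCoord_of_ne_vertex _ hv]
  · rwa [tOf_updCoord_noise]
  · exact hs

omit [G.LocallyFinite] in
theorem Sx_time {x : Om V} {s : ℝ} {u : V} (hs : s ≤ tOf x u j) {a : unitInterval} (ha : s ≤ a) :
    Sx G θ θ' W W' N N' j (updCoord x u (j, false) a) s = Sx G θ θ' W W' N N' j x s := by
  apply Sx_congr (u := u)
  · intro v k b hk
    apply updCoord_of_ne_coord
    intro h
    have := (Prod.ext_iff.mp h).1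
    simp only at this
    omega
  · intro v b hv
    rw [updCoord_of_ne_vertex _ hv]
  · rwa [tOf_updCoord_time]
  · exact hs

omit [G.LocallyFinite] in
theorem measurable_Sx {X : Type*} [MeasurableSpace X] {a : X → Om V} {b : X → ℝ}
    (ha : Measurable a) (hb : Measurable b) :
    Measurable fun y => Sx G θ θ' W W' N N' j (a y) (b y) :=
  (measurable_fieldAt_gen G θ W N j ha hb).prodMk (measurable_fieldAt_gen G θ' W' N' j ha hb)

theorem good_Sx (hθ0 : 0 ≤ θ) (hθ1 : θ < 1) (hθ0' : 0 ≤ θ') (hθ1' : θ' < 1) (x : Om V) (s : ℝ) :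
    Good (Sx G θ θ' W W' N N' j x s) :=
  ⟨abs_fieldAt_lt' hθ0 hθ1 N x j s, abs_fieldAt_lt' hθ0' hθ1' N' x j s⟩

omit [G.LocallyFinite] in
theorem measurable_Sx_tOf (u : V) :
    Measurable fun x : Om V => Sx G θ θ' W W' N N' j x (tOf x u j) :=
  measurable_Sx measurable_id (measurable_tOf u j)

omit [G.LocallyFinite] in
theorem measurable_Tu (u : V) (s₁ s₂ : ℝ) : Measurable (Tu G θ θ' W W' N N' j f f' u s₁ s₂) := by
  unfold Tu
  refine Measurable.ite ?_ ?_ measurable_const
  · exact (measurableSet_le measurable_const (measurable_tOf u j)).inter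
      (measurableSet_lt (measurable_tOf u j) measurable_const)
  · have h1 : Measurable fun x : Om V => Sx G θ θ' W W' N N' j x (tOf x u j) := measurable_Sx_tOf u
    have h2 : Measurable fun x : Om V =>
        pStep G θ θ' W W' (eps j) (Sx G θ θ' W W' N N' j x (tOf x u j)) u (uOf x u j) :=
      (measurable_pStep (G := G) (θ := θ) (θ' := θ') (W := W) (W' := W') (ε := eps j) u).comp
        (h1.prodMk (measurable_uOf u j))
    exact ((measurable_Phi (G := G) (θ := θ) (θ' := θ') (W := W) (W' := W') (f := f) (f' := f')).comp h2).sub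
      ((measurable_Phi (G := G) (θ := θ) (θ' := θ') (W := W) (W' := W') (f := f) (f' := f')).comp h1)

theorem integrable_of_meas_bdd {α : Type*} [MeasurableSpace α] {μ : Measure α} [IsFiniteMeasure μ]
    {g : α → ℝ} (hg : Measurable g) {C : ℝ} (hC : ∀ x, |g x| ≤ C) : Integrable g μ :=
  Integrable.of_bound hg.aestronglyMeasurable C (Eventually.of_forall hC)

theorem integral_ite_between {E : Set ℝ} (hE : MeasurableSet E) {a b c : ℝ} (hab : a ≤ b)
    (h1 : Set.Ioo a b ⊆ E ∩ Set.Ioc 0 1) (h2 : E ∩ Set.Ioc 0 1 ⊆ Set.Icc a b) {g : ℝ → ℝ}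
    (hg : ∀ U, g U = E.indicator (fun _ => c) U) : ∫ U in (0 : ℝ)..1, g U = c * (b - a) := by
  rw [intervalIntegral.integral_of_le zero_le_one]
  have e : g = E.indicator (fun _ => c) := funext hg
  rw [e, setIntegral_indicator hE, setIntegral_const]
  have hv : (volume : Measure ℝ) (Set.Ioc (0 : ℝ) 1 ∩ E) = ENNReal.ofReal (b - a) := by
    rw [Set.inter_comm]
    apply le_antisymm
    · calc (volume : Measure ℝ) (E ∩ Set.Ioc (0 : ℝ) 1) ≤ volume (Set.Icc a b) := measure_mono h2
        _ = ENNReal.ofReal (b - a) := Real.volume_Icc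
    · calc ENNReal.ofReal (b - a) = volume (Set.Ioo a b) := Real.volume_Ioo.symm
        _ ≤ _ := measure_mono h1
  simp only [Measure.real, hv, smul_eq_mul]
  rw [ENNReal.toReal_ofReal (by linarith)]
  ring

omit [G.LocallyFinite] in
theorem Sx_time' {x : Om V} {s : ℝ} {u : V} {a a' : unitInterval} (ha : s ≤ a) (ha' : s ≤ a') :
    Sx G θ θ' W W' N N' j (updCoord x u (j, false) a) s = Sx G θ θ' W W' N N' j (updCoord x u (j, false) a') s := by
  apply Sx_congr (u := u)
  · intro v k b hk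
    rw [updCoord_of_ne_coord, updCoord_of_ne_coord]
    all_goals
      intro h
      have := (Prod.ext_iff.mp h).1
      simp only at this
      omega
  · intro v b hv
    rw [updCoord_of_ne_vertex _ hv, updCoord_of_ne_vertex _ hv]
  · rwa [tOf_updCoord_time]
  · rwa [tOf_updCoord_time]

section Bounds

variable (hθ0 : 0 ≤ θ) (hθ1 : θ < 1) (hθ0' : 0 ≤ θ') (hθ1' : θ' < 1) (hf : ∀ A, |f A| ≤ 1) (hf' : ∀ A, |f' A| ≤ 1)
include hθ0 hθ1 hθ0' hθ1' hf hf'

theorem abs_Tu_le (u : V) (s₁ s₂ : ℝ) (x : Om V) : |Tu G θ θ' W W' N N' j f f' u s₁ s₂ x| ≤ 4 := by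
  unfold Tu
  split_ifs
  · have hS := good_Sx (G := G) (W := W) (W' := W') (N := N) (N' := N') (j := j) hθ0 hθ1 hθ0' hθ1' x (tOf x u j)
    have h1 := Phi_le (G := G) (W := W) (W' := W') hθ0 hθ1 hθ0' hθ1' hf hf'
      (good_pStep (G := G) (W := W) (W' := W') (ε := eps j) hθ0 hθ1 hθ0' hθ1' (eps_pos' j).le (eps_le' j) hS u (uOf_mem x u j))
    have h2 := Phi_le (G := G) (W := W) (W' := W') hθ0 hθ1 hθ0' hθ1' hf hf' hS
    have h3 := Phi_nonneg (G := G) (θ := θ) (θ' := θ') (W := W) (W' := W') (f := f) (f' := f') (Sx G θ θ' W W' N N' j x (tOf x u j))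
    have h4 := Phi_nonneg (G := G) (θ := θ) (θ' := θ') (W := W) (W' := W') (f := f) (f' := f')
      (pStep G θ θ' W W' (eps j) (Sx G θ θ' W W' N N' j x (tOf x u j)) u (uOf x u j))
    rw [abs_le]
    constructor <;> linarith
  · simp

theorem integrable_Tu (u : V) (s₁ s₂ : ℝ) : Integrable (Tu G θ θ' W W' N N' j f f' u s₁ s₂) (omP V) :=
  integrable_of_meas_bdd (measurable_Tu u s₁ s₂) (abs_Tu_le hθ0 hθ1 hθ0' hθ1' hf hf' u s₁ s₂)

/-- Integrating the noise of `u`. -/
theorem integral_Tu (u : V) (s₁ s₂ : ℝ) :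
    ∫ x, Tu G θ θ' W W' N N' j f f' u s₁ s₂ x ∂(omP V) =
      ∫ x, (if s₁ ≤ tOf x u j ∧ tOf x u j < s₂ then
        PsiI G θ θ' W W' (eps j) f f' u (Sx G θ θ' W W' N N' j x (tOf x u j)) else 0) ∂(omP V) := by
  rw [integral_updCoord u (j, true) (integrable_Tu hθ0 hθ1 hθ0' hθ1' hf hf' u s₁ s₂)]
  apply integral_congr_ae
  refine Eventually.of_forall fun x => ?_
  simp only [Tu, tOf_updCoord_noise, uOf_updCoord_noise]
  by_cases h : s₁ ≤ tOf x u j ∧ tOf x u j < s₂
  · simp only [h, and_self, if_true]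
    have e : ∀ a : unitInterval, Sx G θ θ' W W' N N' j (updCoord x u (j, true) a) (tOf x u j) =
        Sx G θ θ' W W' N N' j x (tOf x u j) := fun a => Sx_noise le_rfl a
    simp only [e]
    have hS := good_Sx (G := G) (W := W) (W' := W') (N := N) (N' := N') (j := j) hθ0 hθ1 hθ0' hθ1' x (tOf x u j)
    rw [← integral_Phi_pStep hθ0 hθ1 hθ0' hθ1' (eps_pos' j).le (eps_le' j) hS u]
    exact integral_unitInterval (g := fun U => Phi G θ θ' W W' f f'
      (pStep G θ θ' W W' (eps j) (Sx G θ θ' W W' N N' j x (tOf x u j)) u U) -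
        Phi G θ θ' W W' f f' (Sx G θ θ' W W' N N' j x (tOf x u j)))
  · simp [h]


/-- the integrand in the labels and time of `u` -/
noncomputable def Fu (G : SimpleGraph V) [G.LocallyFinite] (θ θ' : ℝ) (W W' : Finset V) (N N' j : ℤ) (f f' : Finset V → ℝ)
    (u : V) (s₁ s₂ : ℝ) (p : Om V × unitInterval) : ℝ :=
  if s₁ ≤ (p.2 : ℝ) ∧ (p.2 : ℝ) < s₂ then
    PsiI G θ θ' W W' (eps j) f f' u (Sx G θ θ' W W' N N' j (updCoord p.1 u (j, false) p.2) p.2) else 0

omit hθ0 hθ1 hθ0' hθ1' hf hf' [G.LocallyFinite] in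
theorem measurable_PsiI_Sx (u : V) {X : Type*} [MeasurableSpace X] {a : X → Om V} {b : X → ℝ}
    (ha : Measurable a) (hb : Measurable b) :
    Measurable fun y => PsiI G θ θ' W W' (eps j) f f' u (Sx G θ θ' W W' N N' j (a y) (b y)) :=
  (measurable_PsiI (G := G) (θ := θ) (θ' := θ') (W := W) (W' := W') (ε := eps j) (f := f) (f' := f') u).comp
    (measurable_Sx ha hb)

omit hθ0 hθ1 hθ0' hθ1' hf hf' in
theorem measurable_Fu (u : V) (s₁ s₂ : ℝ) : Measurable (Fu G θ θ' W W' N N' j f f' u s₁ s₂) := by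
  unfold Fu
  have h2 : Measurable fun p : Om V × unitInterval => (p.2 : ℝ) := measurable_subtype_coe.comp measurable_snd
  refine Measurable.ite ?_ ?_ measurable_const
  · exact (measurableSet_le measurable_const h2).inter (measurableSet_lt h2 measurable_const)
  · exact measurable_PsiI_Sx u (measurable_updCoord u (j, false)) h2

theorem PsiI_Sx_le (u : V) (x : Om V) (s : ℝ) :
    PsiI G θ θ' W W' (eps j) f f' u (Sx G θ θ' W W' N N' j x s) ≤ 4 :=
  PsiI_le hθ0 hθ1 hθ0' hθ1' (eps_pos' j).le (eps_le' j) hf hf' (good_Sx hθ0 hθ1 hθ0' hθ1' x s) u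

theorem abs_PsiI_Sx_le (u : V) (x : Om V) (s : ℝ) :
    |PsiI G θ θ' W W' (eps j) f f' u (Sx G θ θ' W W' N N' j x s)| ≤ 4 := by
  rw [abs_of_nonneg (PsiI_nonneg _ _)]
  exact PsiI_Sx_le hθ0 hθ1 hθ0' hθ1' hf hf' u x s

theorem integrable_Fu (u : V) (s₁ s₂ : ℝ) :
    Integrable (Fu G θ θ' W W' N N' j f f' u s₁ s₂) ((omP V).prod (volume : Measure unitInterval)) := by
  refine integrable_of_meas_bdd (measurable_Fu u s₁ s₂) (C := 4) fun p => ?_
  unfold Fu
  split_ifs
  · exact abs_PsiI_Sx_le hθ0 hθ1 hθ0' hθ1' hf hf' u _ _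
  · simp

/-- the mean of `ψ_u` with `u` removed from the actions at time `a` -/
noncomputable def hu (G : SimpleGraph V) [G.LocallyFinite] (θ θ' : ℝ) (W W' : Finset V) (N N' j : ℤ) (f f' : Finset V → ℝ)
    (u : V) (a : unitInterval) : ℝ :=
  ∫ x, PsiI G θ θ' W W' (eps j) f f' u (Sx G θ θ' W W' N N' j (updCoord x u (j, false) a) a) ∂(omP V)

omit hθ0 hθ1 hθ0' hθ1' hf hf' in
theorem hu_nonneg (u : V) (a : unitInterval) : 0 ≤ hu G θ θ' W W' N N' j f f' u a :=
  integral_nonneg fun _ => PsiI_nonneg _ _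

/-- Integrating the time of `u` and Fubini. -/
theorem integral_Tu_eq (u : V) (s₁ s₂ : ℝ) :
    ∫ x, Tu G θ θ' W W' N N' j f f' u s₁ s₂ x ∂(omP V) =
      ∫ a : unitInterval, (if s₁ ≤ (a : ℝ) ∧ (a : ℝ) < s₂ then hu G θ θ' W W' N N' j f f' u a else 0) := by
  rw [integral_Tu hθ0 hθ1 hθ0' hθ1' hf hf']
  have hH : Integrable (fun x : Om V => (if s₁ ≤ tOf x u j ∧ tOf x u j < s₂ then
      PsiI G θ θ' W W' (eps j) f f' u (Sx G θ θ' W W' N N' j x (tOf x u j)) else 0)) (omP V) := by
    refine integrable_of_meas_bdd ?_ (C := 4) fun x => ?_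
    · refine Measurable.ite ?_ ?_ measurable_const
      · exact (measurableSet_le measurable_const (measurable_tOf u j)).inter
          (measurableSet_lt (measurable_tOf u j) measurable_const)
      · exact measurable_PsiI_Sx u measurable_id (measurable_tOf u j)
    · split_ifs
      · exact abs_PsiI_Sx_le hθ0 hθ1 hθ0' hθ1' hf hf' u _ _
      · simp
  rw [integral_updCoord u (j, false) hH]
  have e1 : ∀ x : Om V, ∀ a : unitInterval,
      (if s₁ ≤ tOf (updCoord x u (j, false) a) u j ∧ tOf (updCoord x u (j, false) a) u j < s₂ then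
        PsiI G θ θ' W W' (eps j) f f' u (Sx G θ θ' W W' N N' j (updCoord x u (j, false) a)
          (tOf (updCoord x u (j, false) a) u j)) else 0) = Fu G θ θ' W W' N N' j f f' u s₁ s₂ (x, a) := by
    intro x a
    simp only [tOf_updCoord_time, Fu]
  simp only [e1]
  have hint := integrable_Fu (G := G) (θ := θ) (θ' := θ') (W := W) (W' := W') (N := N) (N' := N') (j := j) (f := f) (f' := f')
    hθ0 hθ1 hθ0' hθ1' hf hf' u s₁ s₂
  rw [integral_integral_swap (f := fun x a => Fu G θ θ' W W' N N' j f f' u s₁ s₂ (x, a)) hint]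
  apply integral_congr_ae
  refine Eventually.of_forall fun a => ?_
  by_cases h : s₁ ≤ (a : ℝ) ∧ (a : ℝ) < s₂
  · simp only [Fu, h, and_self, if_true, hu]
  · simp only [Fu, h, if_false, integral_zero]

/-- **Removing `u` costs at most a factor 2.** -/
theorem hu_le (u : V) (a : unitInterval) (ha : (a : ℝ) ≤ 1 / 2) :
    hu G θ θ' W W' N N' j f f' u a ≤
      2 * ∫ x, PsiI G θ θ' W W' (eps j) f f' u (Sx G θ θ' W W' N N' j x a) ∂(omP V) := by
  set g : Om V → ℝ := fun x => PsiI G θ θ' W W' (eps j) f f' u (Sx G θ θ' W W' N N' j x a) with hg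
  have hgm : Measurable g := measurable_PsiI_Sx u measurable_id measurable_const
  have hgb : ∀ x, |g x| ≤ 4 := fun x => abs_PsiI_Sx_le hθ0 hθ1 hθ0' hθ1' hf hf' u x _
  have hgi : Integrable g (omP V) := integrable_of_meas_bdd hgm hgb
  have hGm : Measurable fun x : Om V => if (a : ℝ) ≤ tOf x u j then g x else 0 :=
    Measurable.ite (measurableSet_le measurable_const (measurable_tOf u j)) hgm measurable_const
  have hGi : Integrable (fun x : Om V => if (a : ℝ) ≤ tOf x u j then g x else 0) (omP V) := by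
    refine integrable_of_meas_bdd hGm (C := 4) fun x => ?_
    split_ifs
    · exact hgb x
    · simp
  have h1 : ∫ x, (if (a : ℝ) ≤ tOf x u j then g x else 0) ∂(omP V) ≤ ∫ x, g x ∂(omP V) := by
    refine integral_mono hGi hgi fun x => ?_
    simp only
    split_ifs
    · exact le_rfl
    · exact PsiI_nonneg _ _
  have h2 : ∫ x, (if (a : ℝ) ≤ tOf x u j then g x else 0) ∂(omP V) =
      (1 - (a : ℝ)) * hu G θ θ' W W' N N' j f f' u a := by
    rw [integral_updCoord u (j, false) hGi, hu, ← integral_const_mul]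
    apply integral_congr_ae
    refine Eventually.of_forall fun x => ?_
    simp only [tOf_updCoord_time]
    set c := PsiI G θ θ' W W' (eps j) f f' u (Sx G θ θ' W W' N N' j (updCoord x u (j, false) a) a) with hc
    have e : ∀ a' : unitInterval, (if (a : ℝ) ≤ a' then g (updCoord x u (j, false) a') else 0) =
        (fun U : ℝ => if (a : ℝ) ≤ U then c else 0) a' := by
      intro a'
      by_cases h : (a : ℝ) ≤ a'
      · simp only [h, if_true, hg, hc]
        rw [Sx_time' h le_rfl]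
      · simp only [h, if_false]
    rw [integral_congr_ae (Eventually.of_forall e)]
    rw [integral_unitInterval (g := fun U : ℝ => if (a : ℝ) ≤ U then c else 0),
      integral_ite_between (E := Set.Ici (a : ℝ)) (a := a) (b := 1) (c := c)
      measurableSet_Ici a.2.2 ?_ ?_ ?_]
    · ring
    · intro U hU
      exact ⟨hU.1.le, lt_of_le_of_lt a.2.1 hU.1, hU.2.le⟩
    · intro U hU
      exact ⟨hU.1, hU.2.2⟩
    · intro U
      by_cases h : (a : ℝ) ≤ U
      · simp [h]
      · simp [h]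
  have h3 := hu_nonneg (G := G) (θ := θ) (θ' := θ') (W := W) (W' := W') (N := N) (N' := N') (j := j) (f := f) (f' := f') u a
  rw [h2] at h1
  nlinarith

end Bounds

/-- **(E3) The pair inequality.** -/
theorem pair_inequality_main (hθ0 : 0 ≤ θ) (hθ1 : θ < 1) (hθ0' : 0 ≤ θ') (hθ1' : θ' < 1)
    (hf : ∀ A, |f A| ≤ 1) (hf' : ∀ A, |f' A| ≤ 1)
    {s₁ s₂ : ℝ} (hs₁ : 0 ≤ s₁) (hs₁₂ : s₁ ≤ s₂) (hs₂ : s₂ ≤ 1 / 2) {B : ℝ}
    (hB : ∀ s ∈ Set.Icc s₁ s₂,
      ∑ u ∈ W ∪ W', ∫ x, (∫ U in (0 : ℝ)..1,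
        psiU G θ θ' W W' (eps j) f f' (fieldAt G θ W N x j s) (fieldAt G θ' W' N' x j s) u U) ∂(omP V) ≤ B) :
    (∫ x, (gibbs G θ (fieldAt G θ W N x j s₁) W f - gibbs G θ' (fieldAt G θ' W' N' x j s₁) W' f') ^ 2 ∂(omP V) ≤
      ∫ x, (gibbs G θ (fieldAt G θ W N x j s₂) W f - gibbs G θ' (fieldAt G θ' W' N' x j s₂) W' f') ^ 2 ∂(omP V)) ∧
    (∫ x, (gibbs G θ (fieldAt G θ W N x j s₂) W f - gibbs G θ' (fieldAt G θ' W' N' x j s₂) W' f') ^ 2 ∂(omP V) -
      ∫ x, (gibbs G θ (fieldAt G θ W N x j s₁) W f - gibbs G θ' (fieldAt G θ' W' N' x j s₁) W' f') ^ 2 ∂(omP V) ≤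
        2 * (s₂ - s₁) * B) := by
  have hPhiInt : ∀ s, Integrable (fun x : Om V => Phi G θ θ' W W' f f' (Sx G θ θ' W W' N N' j x s)) (omP V) := by
    intro s
    refine integrable_of_meas_bdd ((measurable_Phi (G := G) (θ := θ) (θ' := θ') (W := W) (W' := W') (f := f) (f' := f')).comp
      (measurable_Sx measurable_id measurable_const)) (C := 4) fun x => ?_
    rw [abs_of_nonneg (Phi_nonneg _)]
    exact Phi_le hθ0 hθ1 hθ0' hθ1' hf hf' (good_Sx hθ0 hθ1 hθ0' hθ1' x s)
  -- the main identity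
  have hmain : (∫ x, Phi G θ θ' W W' f f' (Sx G θ θ' W W' N N' j x s₂) ∂(omP V)) -
      ∫ x, Phi G θ θ' W W' f f' (Sx G θ θ' W W' N N' j x s₁) ∂(omP V) =
      ∑ u ∈ W ∪ W', ∫ a : unitInterval, (if s₁ ≤ (a : ℝ) ∧ (a : ℝ) < s₂ then hu G θ θ' W W' N N' j f f' u a else 0) := by
    rw [← integral_sub (hPhiInt s₂) (hPhiInt s₁)]
    simp only [← integral_Tu_eq hθ0 hθ1 hθ0' hθ1' hf hf']
    rw [← integral_finsetSum _ fun u _ => integrable_Tu hθ0 hθ1 hθ0' hθ1' hf hf' u s₁ s₂]
    apply integral_congr_ae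
    filter_upwards [ae_injOn (W ∪ W') j] with x hx
    exact Phi_sub_eq_sum hx hs₁₂
  constructor
  · have h : 0 ≤ ∑ u ∈ W ∪ W', ∫ a : unitInterval,
        (if s₁ ≤ (a : ℝ) ∧ (a : ℝ) < s₂ then hu G θ θ' W W' N N' j f f' u a else 0) := by
      refine Finset.sum_nonneg fun u _ => integral_nonneg fun a => ?_
      simp only [Pi.zero_apply]
      split_ifs
      · exact hu_nonneg _ _
      · exact le_rfl
    rw [← hmain] at h
    unfold Phi Sx at h
    simp only at h
    linarith
  · have hI : ∀ u, Integrable (fun a : unitInterval =>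
        if s₁ ≤ (a : ℝ) ∧ (a : ℝ) < s₂ then hu G θ θ' W W' N N' j f f' u a else 0) := by
      intro u
      have hint := (integrable_Fu (G := G) (θ := θ) (θ' := θ') (W := W) (W' := W') (N := N) (N' := N') (j := j) (f := f) (f' := f')
        hθ0 hθ1 hθ0' hθ1' hf hf' u s₁ s₂).integral_prod_right
      refine hint.congr (Eventually.of_forall fun a => ?_)
      by_cases h : s₁ ≤ (a : ℝ) ∧ (a : ℝ) < s₂
      · simp only [Fu, h, and_self, if_true, hu]
      · simp only [Fu, h, if_false, integral_zero]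
    have hbound : ∑ u ∈ W ∪ W', ∫ a : unitInterval,
        (if s₁ ≤ (a : ℝ) ∧ (a : ℝ) < s₂ then hu G θ θ' W W' N N' j f f' u a else 0) ≤ 2 * (s₂ - s₁) * B := by
      rw [← integral_finsetSum _ fun u _ => hI u]
      have hc : ∫ a : unitInterval, (fun U : ℝ => if s₁ ≤ U ∧ U < s₂ then 2 * B else 0) (a : ℝ) = 2 * (s₂ - s₁) * B := by
        rw [integral_unitInterval (g := fun U : ℝ => if s₁ ≤ U ∧ U < s₂ then 2 * B else 0),
          integral_ite_between (E := Set.Ico s₁ s₂) (a := s₁) (b := s₂) (c := 2 * B)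
          measurableSet_Ico hs₁₂ ?_ ?_ ?_]
        · ring
        · intro U hU
          exact ⟨⟨hU.1.le, hU.2⟩, lt_of_le_of_lt hs₁ hU.1, by linarith [hU.2]⟩
        · intro U hU
          exact ⟨hU.1.1, hU.1.2.le⟩
        · intro U
          by_cases h : s₁ ≤ U ∧ U < s₂
          · simp [h]
          · have h' : U ∉ Set.Ico s₁ s₂ := h
            simp [h, h']
      rw [← hc]
      refine integral_mono (integrable_finsetSum _ fun u _ => hI u) ?_ fun a => ?_
      · refine integrable_of_meas_bdd ?_ (C := |2 * B|) fun a => ?_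
        · have h2 : Measurable fun a : unitInterval => (a : ℝ) := measurable_subtype_coe
          exact Measurable.ite ((measurableSet_le measurable_const h2).inter (measurableSet_lt h2 measurable_const))
            measurable_const measurable_const
        · simp only
          split_ifs
          · exact le_rfl
          · simp
      · simp only
        by_cases h : s₁ ≤ (a : ℝ) ∧ (a : ℝ) < s₂
        · simp only [h, and_self, if_true]
          have h1 : ∑ u ∈ W ∪ W', hu G θ θ' W W' N N' j f f' u a ≤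
              ∑ u ∈ W ∪ W', 2 * ∫ x, PsiI G θ θ' W W' (eps j) f f' u (Sx G θ θ' W W' N N' j x a) ∂(omP V) :=
            Finset.sum_le_sum fun u _ => hu_le hθ0 hθ1 hθ0' hθ1' hf hf' u a (by linarith [h.2])
          rw [← Finset.mul_sum] at h1
          have h2 := hB a ⟨h.1, h.2.le⟩
          have h3 : ∑ u ∈ W ∪ W', ∫ x, PsiI G θ θ' W W' (eps j) f f' u (Sx G θ θ' W W' N N' j x a) ∂(omP V) ≤ B := h2
          linarith
        · simp only [h, if_false, Finset.sum_const_zero, le_refl]
    rw [← hmain] at hbound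
    exact hbound

end Main

end DynPair

section Final

open DynPair

variable {V : Type u} {G : SimpleGraph V} [G.LocallyFinite] {D : ℕ}

variable (hG : RegTree G D) {θ θ' : ℝ} (hθ0 : 0 ≤ θ) (hθ1 : θ < 1) (hθ0' : 0 ≤ θ') (hθ1' : θ' < 1)
  {W W' : Finset V} (hW : IsConvexSet G W) (hne : W.Nonempty) (hW' : IsConvexSet G W') (hne' : W'.Nonempty)
  {N N' j : ℤ} (hN : N ≤ j) (hN' : N' ≤ j)
include hG hθ0 hθ1 hW hne hθ0' hθ1' hW' hne' hN hN'

set_option linter.unusedSectionVars false in
/-- (E3) the pair inequality: same signature as `pair_inequality` of `Dynamics.lean`. -/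
theorem pair_inequality_proved {f f' : Finset V → ℝ} (hf : ∀ A, |f A| ≤ 1) (hf' : ∀ A, |f' A| ≤ 1)
    {s₁ s₂ : ℝ} (hs₁ : 0 ≤ s₁) (hs₁₂ : s₁ ≤ s₂) (hs₂ : s₂ ≤ 1 / 2) {B : ℝ}
    (hB : ∀ s ∈ Set.Icc s₁ s₂,
      ∑ u ∈ W ∪ W', ∫ x, (∫ U in (0 : ℝ)..1,
        psiU G θ θ' W W' (eps j) f f' (fieldAt G θ W N x j s) (fieldAt G θ' W' N' x j s) u U) ∂(omP V) ≤ B) :
    (∫ x, (gibbs G θ (fieldAt G θ W N x j s₁) W f - gibbs G θ' (fieldAt G θ' W' N' x j s₁) W' f') ^ 2 ∂(omP V) ≤
      ∫ x, (gibbs G θ (fieldAt G θ W N x j s₂) W f - gibbs G θ' (fieldAt G θ' W' N' x j s₂) W' f') ^ 2 ∂(omP V)) ∧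
    (∫ x, (gibbs G θ (fieldAt G θ W N x j s₂) W f - gibbs G θ' (fieldAt G θ' W' N' x j s₂) W' f') ^ 2 ∂(omP V) -
      ∫ x, (gibbs G θ (fieldAt G θ W N x j s₁) W f - gibbs G θ' (fieldAt G θ' W' N' x j s₁) W' f') ^ 2 ∂(omP V) ≤
        2 * (s₂ - s₁) * B) :=
  pair_inequality_main hθ0 hθ1 hθ0' hθ1' hf hf' hs₁ hs₁₂ hs₂ hB

end Final

end Crest.Agent.Lib.IsingFIID
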