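/-
S0241 blueprint, Mod E (section 4): the sequential dynamics on a finite convex set `W`.
Labels `x : Om V`; system = (θ, first sweep N : ℤ).  In sweep `j` the vertices `u ∈ W` with `t_{u,j} < s` act in increasing
order of `t_{u,j}` (a vertex whose time ties with another vertex of W does not act: this keeps everything
equivariant for every `x`, and ties have probability 0).  Full sweep: `s = 1/2`.

The definitions (`eps`, `tOf`, `uOf`, `actStep`, `actList`, `runSweep`, `fieldStart`, `fieldAt`, `psiU`, `wSite`, `blockSwap`)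
are in `DynDefs`, most statements in `DynCore`; here: the pair inequality (E3) and Girsanov (E5, E5').
-/
import Crest.Agent.Lib.IsingFIID.DynCore
import Crest.Agent.Lib.IsingFIID.DynGirsanov
import Crest.Agent.Lib.IsingFIID.DynPair

set_option autoImplicit false
universe u

namespace Crest.Agent.Lib.IsingFIID

open MeasureTheory Filter
open scoped Classical Topology

variable {V : Type u} {G : SimpleGraph V} [G.LocallyFinite] {D : ℕ}

section Dyn

variable (hG : RegTree G D) {θ θ' : ℝ} (hθ0 : 0 ≤ θ) (hθ1 : θ < 1) (hθ0' : 0 ≤ θ') (hθ1' : θ' < 1)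
  {W W' : Finset V} (hW : IsConvexSet G W) (hne : W.Nonempty) (hW' : IsConvexSet G W') (hne' : W'.Nonempty)
  {N N' j : ℤ} (hN : N ≤ j) (hN' : N' ≤ j)
include hG hθ0 hθ1 hW hne

include hθ0' hθ1' hW' hne' hN hN'

/-- (E3) the pair inequality.  Two systems with common labels in sweep `j`; `f,f'` bounded by 1. -/
theorem pair_inequality {f f' : Finset V → ℝ} (hf : ∀ A, |f A| ≤ 1) (hf' : ∀ A, |f' A| ≤ 1)
    {s₁ s₂ : ℝ} (hs₁ : 0 ≤ s₁) (hs₁₂ : s₁ ≤ s₂) (hs₂ : s₂ ≤ 1 / 2) {B : ℝ}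
    (hB : ∀ s ∈ Set.Icc s₁ s₂,
      ∑ u ∈ W ∪ W', ∫ x, (∫ U in (0 : ℝ)..1,
        psiU G θ θ' W W' (eps j) f f' (fieldAt G θ W N x j s) (fieldAt G θ' W' N' x j s) u U) ∂(omP V) ≤ B) :
    (∫ x, (gibbs G θ (fieldAt G θ W N x j s₁) W f - gibbs G θ' (fieldAt G θ' W' N' x j s₁) W' f') ^ 2 ∂(omP V) ≤
      ∫ x, (gibbs G θ (fieldAt G θ W N x j s₂) W f - gibbs G θ' (fieldAt G θ' W' N' x j s₂) W' f') ^ 2 ∂(omP V)) ∧
    (∫ x, (gibbs G θ (fieldAt G θ W N x j s₂) W f - gibbs G θ' (fieldAt G θ' W' N' x j s₂) W' f') ^ 2 ∂(omP V) -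
      ∫ x, (gibbs G θ (fieldAt G θ W N x j s₁) W f - gibbs G θ' (fieldAt G θ' W' N' x j s₁) W' f') ^ 2 ∂(omP V) ≤
        2 * (s₂ - s₁) * B) :=
  pair_inequality_proved hG hθ0 hθ1 hθ0' hθ1' hW hne hW' hne' hN hN' hf hf' hs₁ hs₁₂ hs₂ hB

end Dyn

section Girsanov

variable (hG : RegTree G D) {θ : ℝ} (hθ0 : 0 ≤ θ) (hθ1 : θ < 1) {W : Finset V} (hW : IsConvexSet G W) (hne : W.Nonempty)
  {N j : ℤ} (hN : N ≤ j)
include hG hθ0 hθ1 hW hne hN

/-- (E5) Girsanov: the adaptive field has the law of the non-adaptive field reweighted by the partition function.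
`F` bounded measurable function of the field on `W`. -/
theorem integral_fieldAt_eq {s : ℝ} (hs0 : 0 ≤ s) (hs : s ≤ 1 / 2) {F : (V → ℝ) → ℝ}
    (hF : Measurable F) (hFb : ∃ C, ∀ ℓ, |F ℓ| ≤ C) (hFW : ∀ ℓ ℓ' : V → ℝ, (∀ v ∈ W, ℓ v = ℓ' v) → F ℓ = F ℓ') :
    ∫ x, F (fieldAt G θ W N x j s) ∂(omP V) =
      ∫ x, F (fun v => (wSite N j s 1 (x v) - wSite N j s (-1) (x v)) / (wSite N j s 1 (x v) + wSite N j s (-1) (x v))) *
        pfW G θ (fun v => wSite N j s 1 (x v)) (fun v => wSite N j s (-1) (x v)) W ∂(omP V) := by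
  exact Gir.integral_fieldAt_eq_proved hG hθ0 hθ1 hW hne hN hs0 hs hF hFb hFW

/-- (E5') marginal consistency: a functional of the field on a convex subset `T` only sees `pfW T`. -/
theorem integral_pfW_marginal {s : ℝ} (hs0 : 0 ≤ s) (hs : s ≤ 1 / 2) {T : Finset V} (hT : IsConvexSet G T)
    (hTne : T.Nonempty) (hTW : T ⊆ W) {F : Om V → ℝ} (hF : Measurable F) (hFb : ∃ C, ∀ x, |F x| ≤ C)
    (hFT : ∀ x x' : Om V, (∀ v ∈ T, x v = x' v) → F x = F x') :
    ∫ x, F x * pfW G θ (fun v => wSite N j s 1 (x v)) (fun v => wSite N j s (-1) (x v)) W ∂(omP V) =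
      ∫ x, F x * pfW G θ (fun v => wSite N j s 1 (x v)) (fun v => wSite N j s (-1) (x v)) T ∂(omP V) := by
  exact Gir.integral_pfW_marginal_proved hG hθ0 hθ1 hW hne hN hs0 hs hT hTne hTW hF hFb hFT

end Girsanov

end Crest.Agent.Lib.IsingFIID
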