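/-
S0241 blueprint, Mod D: label spaces.
`Block` = one vertex's labels: for every sweep j∈ℤ an order time (j,false) and a noise (j,true).
`digitSplit` : [0,1] → Block is measure preserving (binary digits, then split the digit sequence).
-/
import Crest.Prelude.Def_Labels
import Mathlib

set_option autoImplicit false
universe u

namespace Crest.Agent.Lib.IsingFIID

open MeasureTheory

/-- labels of one vertex -/
abbrev Block : Type := ℤ × Bool → unitInterval

/-- law of the labels of one vertex -/
noncomputable def blockP : Measure Block := Measure.infinitePi fun _ => (volume : Measure unitInterval)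

instance : IsProbabilityMeasure blockP := by
  unfold blockP; infer_instance

/-- all labels -/
abbrev Om (V : Type u) : Type u := V → Block

/-- law of all labels -/
noncomputable def omP (V : Type u) : Measure (Om V) := Measure.infinitePi fun _ : V => blockP

instance (V : Type u) : IsProbabilityMeasure (omP V) := by
  unfold omP; infer_instance

/-- A measurable, measure preserving map from a single uniform label to a block of labels. -/
theorem exists_digitSplit :
    ∃ f : unitInterval → Block, MeasurePreserving f (volume : Measure unitInterval) blockP := by
  obtain ⟨f, hf, hm⟩ := Measure.exists_measurable_map_eq (Y := Block) blockP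
  exact ⟨f, hf, hm⟩

/-- the digit split map -/
noncomputable def digitSplit : unitInterval → Block := exists_digitSplit.choose

theorem measurePreserving_digitSplit :
    MeasurePreserving digitSplit (volume : Measure unitInterval) blockP :=
  exists_digitSplit.choose_spec

/-- Coordinatewise lift of labels. -/
noncomputable def liftLabels {V : Type u} (x : V → unitInterval) : Om V := fun v => digitSplit (x v)

theorem measurePreserving_liftLabels (V : Type u) :
    MeasurePreserving (liftLabels (V := V)) (Crest.ProbabilityR.Labels.labelMeasure V) (omP V) := by
  have hd := measurePreserving_digitSplit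
  refine ⟨measurable_pi_lambda _ fun v => hd.measurable.comp (measurable_pi_apply v), ?_⟩
  have := Measure.infinitePi_map_pi (fun _ : V => (volume : Measure unitInterval))
    (f := fun _ => digitSplit) (fun _ => hd.measurable)
  simp only [hd.map_eq] at this
  exact this

theorem liftLabels_comp {V : Type u} (g : V → V) (x : V → unitInterval) :
    liftLabels (x ∘ g) = liftLabels x ∘ g := rfl

/-- Relabelling by a bijection preserves the law. -/
theorem measurePreserving_comp_equiv {V : Type u} (g : V ≃ V) :
    MeasurePreserving (fun x : Om V => x ∘ g) (omP V) (omP V) := by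
  refine ⟨measurable_pi_lambda _ fun v => measurable_pi_apply (g v), ?_⟩
  exact Measure.map_infinitePi_infinitePi_of_inj (P := fun _ : V => blockP) g.injective

/-- Replace one coordinate of one vertex's block. -/
noncomputable def updCoord {V : Type u} [DecidableEq V] (x : Om V) (v : V) (i : ℤ × Bool) (a : unitInterval) : Om V :=
  Function.update x v (Function.update (x v) i a)

theorem measurable_updCoord {V : Type u} [DecidableEq V] (v : V) (i : ℤ × Bool) :
    Measurable (fun p : Om V × unitInterval => updCoord p.1 v i p.2) := by
  refine measurable_pi_lambda _ fun w => ?_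
  by_cases hw : w = v
  · subst hw
    simp only [updCoord, Function.update_self]
    refine measurable_pi_lambda _ fun j => ?_
    by_cases hj : j = i
    · subst hj
      simpa using measurable_snd
    · simp only [Function.update_of_ne hj]
      exact (measurable_pi_apply j).comp ((measurable_pi_apply w).comp measurable_fst)
  · simp only [updCoord, Function.update_of_ne hw]
    exact (measurable_pi_apply w).comp measurable_fst

/-- Flat update lemma: resampling one coordinate of a product measure preserves the law. -/
theorem measurePreserving_update_infinitePi {ι : Type*} [DecidableEq ι] {X : Type*}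
    [MeasurableSpace X] (μ : Measure X) [IsProbabilityMeasure μ] (i₀ : ι) :
    MeasurePreserving (fun p : (ι → X) × X => Function.update p.1 i₀ p.2)
      ((Measure.infinitePi fun _ : ι => μ).prod μ) (Measure.infinitePi fun _ : ι => μ) := by
  have hm : Measurable (fun p : (ι → X) × X => Function.update p.1 i₀ p.2) := by
    refine measurable_pi_lambda _ fun w => ?_
    by_cases hw : w = i₀
    · subst hw; simpa using measurable_snd
    · simp only [Function.update_of_ne hw]
      exact (measurable_pi_apply w).comp measurable_fst
  refine ⟨hm, ?_⟩
  refine Measure.eq_infinitePi _ fun s t ht => ?_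
  have hpi : MeasurableSet ((s : Set ι).pi t) :=
    MeasurableSet.pi s.countable_toSet fun i _ => ht i
  rw [Measure.map_apply hm hpi]
  by_cases hi : i₀ ∈ s
  · have hset : (fun p : (ι → X) × X => Function.update p.1 i₀ p.2) ⁻¹' ((s : Set ι).pi t)
        = ((s.erase i₀ : Finset ι) : Set ι).pi t ×ˢ t i₀ := by
      ext ⟨x, a⟩
      simp only [Set.mem_preimage, Set.mem_pi, Finset.mem_coe, Set.mem_prod, Finset.mem_erase]
      constructor
      · intro h
        refine ⟨fun w hw => ?_, ?_⟩
        · have := h w hw.2
          rwa [Function.update_of_ne hw.1] at this
        · simpa using h i₀ hi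
      · rintro ⟨h1, h2⟩ w hw
        by_cases hwi : w = i₀
        · subst hwi; simpa using h2
        · rw [Function.update_of_ne hwi]; exact h1 w ⟨hwi, hw⟩
    rw [hset, Measure.prod_prod, Measure.infinitePi_pi _ (fun i _ => ht i),
      Finset.prod_erase_mul s _ hi]
  · have hset : (fun p : (ι → X) × X => Function.update p.1 i₀ p.2) ⁻¹' ((s : Set ι).pi t)
        = ((s : Set ι).pi t) ×ˢ Set.univ := by
      ext ⟨x, a⟩
      simp only [Set.mem_preimage, Set.mem_pi, Finset.mem_coe, Set.mem_prod, Set.mem_univ, and_true]
      refine forall₂_congr fun w hw => ?_
      have : w ≠ i₀ := fun h => hi (h ▸ hw)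
      rw [Function.update_of_ne this]
    rw [hset, Measure.prod_prod, Measure.infinitePi_pi _ (fun i _ => ht i)]
    simp

/-- **Resampling one coordinate preserves the law.** -/
theorem measurePreserving_updCoord {V : Type u} [DecidableEq V] (v : V) (i : ℤ × Bool) :
    MeasurePreserving (fun p : Om V × unitInterval => updCoord p.1 v i p.2)
      ((omP V).prod (volume : Measure unitInterval)) (omP V) := by
  classical
  let flat : Measure (V × (ℤ × Bool) → unitInterval) :=
    Measure.infinitePi fun _ : V × (ℤ × Bool) => (volume : Measure unitInterval)
  let C := MeasurableEquiv.curry V (ℤ × Bool) unitInterval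
  have hC : MeasurePreserving C flat (omP V) := by
    refine ⟨C.measurable, ?_⟩
    exact Measure.infinitePi_map_curry (fun (_ : V) (_ : ℤ × Bool) => (volume : Measure unitInterval))
  have hU := measurePreserving_update_infinitePi (ι := V × (ℤ × Bool))
    (volume : Measure unitInterval) (v, i)
  have hprod : MeasurePreserving (Prod.map C id) (flat.prod (volume : Measure unitInterval))
      ((omP V).prod (volume : Measure unitInterval)) :=
    hC.prod (MeasurePreserving.id _)
  have hcomp : (fun p : Om V × unitInterval => updCoord p.1 v i p.2) ∘ Prod.map C id
      = C ∘ (fun p : (V × (ℤ × Bool) → unitInterval) × unitInterval =>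
          Function.update p.1 (v, i) p.2) := by
    funext p
    obtain ⟨y, a⟩ := p
    funext w j
    simp only [Function.comp, Prod.map, id, updCoord, C, MeasurableEquiv.curry_apply]
    by_cases hw : w = v
    · subst hw
      by_cases hj : j = i
      · subst hj; simp
      · have : (w, j) ≠ (w, i) := fun h => hj (Prod.ext_iff.mp h).2
        simp [Function.update_of_ne hj, Function.update_of_ne this]
    · have : (w, j) ≠ (v, i) := fun h => hw (Prod.ext_iff.mp h).1
      simp [Function.update_of_ne hw, Function.update_of_ne this]
  have hm := measurable_updCoord (V := V) v i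
  refine ⟨hm, ?_⟩
  rw [← hprod.map_eq, Measure.map_map hm hprod.measurable, hcomp,
    ← Measure.map_map C.measurable hU.measurable, hU.map_eq, hC.map_eq]

/-- Integral form of resampling. -/
theorem integral_updCoord {V : Type u} [DecidableEq V] (v : V) (i : ℤ × Bool) {H : Om V → ℝ}
    (hH : Integrable H (omP V)) :
    ∫ x, H x ∂(omP V) = ∫ x, ∫ a : unitInterval, H (updCoord x v i a) ∂volume ∂(omP V) := by
  have hmp := measurePreserving_updCoord (V := V) v i
  have hint : Integrable (fun p : Om V × unitInterval => H (updCoord p.1 v i p.2))
      ((omP V).prod (volume : Measure unitInterval)) :=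
    (hmp.integrable_comp hH.aestronglyMeasurable).2 hH
  rw [← integral_prod _ hint]
  conv_lhs => rw [← hmp.map_eq]
  rw [integral_map hmp.measurable.aemeasurable]
  rw [hmp.map_eq]
  exact hH.aestronglyMeasurable

/-- Lebesgue on the unit interval vs the interval integral. -/
theorem integral_unitInterval {g : ℝ → ℝ} :
    ∫ a : unitInterval, g (a : ℝ) ∂volume = ∫ U in (0 : ℝ)..1, g U := by
  rw [unitInterval.volume_def, intervalIntegral.integral_of_le zero_le_one,
    ← integral_Icc_eq_integral_Ioc]
  exact integral_subtype_comap measurableSet_Icc g

/-- Independence of disjoint blocks of vertices: for disjoint finite `A`, `B` and functions depending only on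
the blocks in `A`, `B` respectively, the integral of the product factors. -/
theorem integral_mul_of_disjoint_blocks {V : Type u} {A B : Set V} (hAB : Disjoint A B)
    {f g : Om V → ℝ} (hf : Measurable f) (hg : Measurable g) (_hfb : ∃ C, ∀ x, |f x| ≤ C)
    (_hgb : ∃ C, ∀ x, |g x| ≤ C)
    (hfA : ∀ x y : Om V, (∀ v ∈ A, x v = y v) → f x = f y)
    (hgB : ∀ x y : Om V, (∀ v ∈ B, x v = y v) → g x = g y) :
    ∫ x, f x * g x ∂(omP V) = (∫ x, f x ∂(omP V)) * ∫ x, g x ∂(omP V) := by
  classical
  -- σ-algebras of the individual vertices
  let m : V → MeasurableSpace (Om V) := fun v =>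
    MeasurableSpace.comap (fun x : Om V => x v) inferInstance
  have hm_le : ∀ v, m v ≤ (inferInstance : MeasurableSpace (Om V)) := fun v =>
    (measurable_pi_apply v).comap_le
  have hiIndep : ProbabilityTheory.iIndep m (omP V) := by
    have := ProbabilityTheory.iIndepFun_infinitePi (P := fun _ : V => blockP)
      (X := fun _ (b : Block) => b) (fun _ => measurable_id)
    exact this
  have hInd := ProbabilityTheory.indep_iSup_of_disjoint hm_le hiIndep hAB
  -- the function `f` is measurable w.r.t. the σ-algebra generated by the coordinates in `S`
  have key : ∀ (S : Set V) (h : Om V → ℝ), Measurable h →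
      (∀ x y : Om V, (∀ v ∈ S, x v = y v) → h x = h y) →
      MeasurableSpace.comap h inferInstance ≤ ⨆ v ∈ S, m v := by
    intro S h hh hS
    let d : Block := fun _ => 0
    let r : Om V → Om V := fun x v => if v ∈ S then x v else d
    have hr : Measurable[⨆ v ∈ S, m v] r := by
      refine @measurable_pi_lambda _ _ _ (⨆ v ∈ S, m v) _ _ fun v => ?_
      by_cases hv : v ∈ S
      · simp only [r, hv, if_true]
        refine Measurable.mono (comap_measurable (fun x : Om V => x v)) ?_ le_rfl
        exact le_iSup₂_of_le v hv le_rfl
      · simp only [r, hv, if_false]
        exact @measurable_const _ _ _ (⨆ v ∈ S, m v) _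
    have heq : h = h ∘ r := by
      funext x
      apply hS
      intro v hv
      simp [r, hv]
    rw [heq, ← MeasurableSpace.comap_comp]
    have : MeasurableSpace.comap r (MeasurableSpace.comap h inferInstance) ≤
        MeasurableSpace.comap r inferInstance :=
      MeasurableSpace.comap_mono hh.comap_le
    exact this.trans hr.comap_le
  have hIF : ProbabilityTheory.IndepFun f g (omP V) := by
    rw [ProbabilityTheory.IndepFun_iff_Indep]
    exact ProbabilityTheory.indep_of_indep_of_le_left
      (ProbabilityTheory.indep_of_indep_of_le_right hInd (key B g hg hgB)) (key A f hf hfA)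
  exact hIF.integral_mul_eq_mul_integral hf.aestronglyMeasurable hg.aestronglyMeasurable

end Crest.Agent.Lib.IsingFIID
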