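/-
S0241 blueprint, Mod I (section 10, end): from a sequence of equivariant real fields to the factor map.
Independent of the dynamics except through the hypotheses of `factor_of_sequence`.
-/
import Crest.Agent.Lib.IsingFIID.Labels
import Crest.Prelude.Def_TreeIsing

set_option autoImplicit false
universe u

namespace Crest.Agent.Lib.IsingFIID

open MeasureTheory Filter
open scoped Classical Topology ENNReal

variable {V : Type u}

/-- sign of a real number as a spin. -/
noncomputable def signB (z : ℝ) : Bool := decide (0 ≤ z)

theorem signB_eq_true_iff {z : ℝ} : signB z = true ↔ 0 ≤ z := by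
  simp [signB]

theorem measurable_signB_comp {Ω : Type*} [MeasurableSpace Ω] {a : Ω → ℝ} (ha : Measurable a) :
    Measurable fun x => signB (a x) := by
  apply measurable_to_bool
  have : (fun x => signB (a x)) ⁻¹' {true} = {x | 0 ≤ a x} := by
    ext x; simp [signB_eq_true_iff]
  rw [this]
  exact measurableSet_le measurable_const ha

/-- elementary: `P(sign a ≠ sign b) ≤ 2 E(1-a²) + 4 E(a-b)²`. -/
theorem prob_sign_ne_le {Ω : Type*} [MeasurableSpace Ω] {P : Measure Ω} [IsProbabilityMeasure P] {a b : Ω → ℝ}
    (ha : Measurable a) (hb : Measurable b) (ha1 : ∀ x, |a x| ≤ 1) (hb1 : ∀ x, |b x| ≤ 1) :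
    (P {x | signB (a x) ≠ signB (b x)}).toReal ≤ 2 * ∫ x, (1 - a x ^ 2) ∂P + 4 * ∫ x, (a x - b x) ^ 2 ∂P := by
  have hmE : MeasurableSet {x | signB (a x) ≠ signB (b x)} :=
    (measurableSet_eq_fun (measurable_signB_comp ha) (measurable_signB_comp hb)).compl
  have hbdd : ∀ (f : Ω → ℝ) (C : ℝ), Measurable f → (∀ x, |f x| ≤ C) → Integrable f P := by
    intro f C hf hC
    exact Integrable.of_bound hf.aestronglyMeasurable C
      (Eventually.of_forall fun x => by simpa [Real.norm_eq_abs] using hC x)
  have hi1 : Integrable (fun x => 1 - a x ^ 2) P := by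
    refine hbdd _ 1 (by fun_prop) fun x => ?_
    have h := abs_le.1 (ha1 x)
    rw [abs_le]; constructor <;> nlinarith
  have hi2 : Integrable (fun x => (a x - b x) ^ 2) P := by
    refine hbdd _ 4 (by fun_prop) fun x => ?_
    have h := abs_le.1 (ha1 x)
    have h' := abs_le.1 (hb1 x)
    rw [abs_le]; constructor <;> nlinarith
  have hiE : Integrable (Set.indicator {x | signB (a x) ≠ signB (b x)} fun _ => (1 : ℝ)) P :=
    (integrable_const (1 : ℝ)).indicator hmE
  have hL : (P {x | signB (a x) ≠ signB (b x)}).toReal
      = ∫ x, Set.indicator {x | signB (a x) ≠ signB (b x)} (fun _ => (1 : ℝ)) x ∂P := by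
    rw [integral_indicator hmE]
    simp [Measure.real]
  rw [hL, ← integral_const_mul, ← integral_const_mul, ← integral_add (hi1.const_mul 2) (hi2.const_mul 4)]
  refine integral_mono hiE ((hi1.const_mul 2).add (hi2.const_mul 4)) fun x => ?_
  have h := abs_le.1 (ha1 x)
  have hpos1 : 0 ≤ 1 - a x ^ 2 := by nlinarith
  have hpos2 : 0 ≤ (a x - b x) ^ 2 := sq_nonneg _
  by_cases hx : signB (a x) ≠ signB (b x)
  · simp only [Set.indicator, Set.mem_ofPred_eq, hx, if_true, not_false_eq_true, ne_eq]
    -- the signs differ: `|a - b| ≥ |a|`
    have key : a x ^ 2 ≤ (a x - b x) ^ 2 := by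
      by_cases h0 : 0 ≤ a x
      · have hb0 : ¬ 0 ≤ b x := by
          intro hb0
          exact hx (by rw [signB_eq_true_iff.2 h0, signB_eq_true_iff.2 hb0])
        push Not at hb0
        nlinarith
      · have hb0 : 0 ≤ b x := by
          by_contra hb0
          have h1 : signB (a x) = false := by
            simpa [signB] using h0
          have h2 : signB (b x) = false := by
            simpa [signB] using hb0
          exact hx (by rw [h1, h2])
        push Not at h0
        nlinarith
    nlinarith
  · simp only [Set.indicator, Set.mem_ofPred_eq, hx, if_false]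
    positivity

/-- The eventual value of the sign sequence at `v`; `false` when the sequence does not stabilise at `true`. -/
noncomputable def limSign (F : ℕ → Om V → V → ℝ) (x : Om V) (v : V) : Bool :=
  decide (∀ᶠ n in atTop, signB (F n x v) = true)

theorem limSign_comp {G : SimpleGraph V} {F : ℕ → Om V → V → ℝ}
    (hequiv : ∀ (g : G ≃g G) (n : ℕ) (x : Om V) (v : V), F n (x ∘ g) v = F n x (g v))
    (g : G ≃g G) (x : Om V) : limSign F (x ∘ g) = limSign F x ∘ g := by
  funext v
  simp only [limSign, Function.comp, hequiv g]

theorem measurable_limSign {F : ℕ → Om V → V → ℝ} (hmeas : ∀ n v, Measurable fun x => F n x v) :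
    Measurable (limSign F) := by
  refine measurable_pi_lambda _ fun v => ?_
  apply measurable_to_bool
  have : (fun x => limSign F x v) ⁻¹' {true}
      = ⋃ N : ℕ, ⋂ n : ℕ, ⋂ _ : N ≤ n, (fun x => signB (F n x v)) ⁻¹' {true} := by
    ext x
    simp only [Set.mem_preimage, Set.mem_singleton_iff, limSign, decide_eq_true_eq, Set.mem_iUnion,
      Set.mem_iInter, eventually_atTop]
  rw [this]
  refine MeasurableSet.iUnion fun N => MeasurableSet.iInter fun n => MeasurableSet.iInter fun _ => ?_
  exact measurable_signB_comp (hmeas n v) (measurableSet_singleton _)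

/-- If consecutive signs eventually agree then the sign is eventually `limSign`. -/
theorem eventually_signB_eq_limSign {F : ℕ → Om V → V → ℝ} {x : Om V} {v : V}
    (h : ∀ᶠ n in atTop, signB (F n x v) = signB (F (n + 1) x v)) :
    ∀ᶠ n in atTop, signB (F n x v) = limSign F x v := by
  obtain ⟨N, hN⟩ := eventually_atTop.1 h
  have hconst : ∀ n, N ≤ n → signB (F n x v) = signB (F N x v) := by
    intro n hn
    induction n, hn using Nat.le_induction with
    | base => rfl
    | succ n hn ih => rw [← hN n hn, ih]
  cases hc : signB (F N x v) with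
  | true =>
    have hev : ∀ᶠ n in atTop, signB (F n x v) = true :=
      eventually_atTop.2 ⟨N, fun n hn => by rw [hconst n hn, hc]⟩
    have hl : limSign F x v = true := by simpa [limSign] using hev
    filter_upwards [hev] with n hn
    rw [hn, hl]
  | false =>
    have hev : ∀ᶠ n in atTop, signB (F n x v) = false :=
      eventually_atTop.2 ⟨N, fun n hn => by rw [hconst n hn, hc]⟩
    have hl : limSign F x v = false := by
      by_contra hne
      have hne' : limSign F x v = true := by simpa using hne
      have ht : ∀ᶠ n in atTop, signB (F n x v) = true := by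
        simpa [limSign] using hne'
      obtain ⟨n, h1, h2⟩ := (hev.and ht).exists
      rw [h1] at h2
      exact Bool.false_ne_true h2
    filter_upwards [hev] with n hn
    rw [hn, hl]

/-- **Assembly.** A sequence of measurable equivariant fields whose signs converge fast, with the right limiting law on
connected sets, yields the statement's factor map. -/
theorem factor_of_sequence (G : SimpleGraph V) (θ : ℝ) (F : ℕ → Om V → V → ℝ)
    (hmeas : ∀ n v, Measurable fun x => F n x v)
    (hequiv : ∀ (g : G ≃g G) (n : ℕ) (x : Om V) (v : V), F n (x ∘ g) v = F n x (g v))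
    (hsum : ∀ v, Summable fun n => ((omP V) {x | signB (F n x v) ≠ signB (F (n + 1) x v)}).toReal)
    (hlaw : ∀ (S : Finset V) (η : V → Bool), (G.induce (S : Set V)).Connected →
      Tendsto (fun n => ((omP V) {x | ∀ v ∈ S, signB (F n x v) = η v}).toReal) atTop
        (𝓝 (Crest.ProbabilityR.TreeIsing.isingWeight G θ S η)))
    (_hnn : ∀ (S : Finset V) (η : V → Bool), 0 ≤ Crest.ProbabilityR.TreeIsing.isingWeight G θ S η) :
    ∃ Φ : (V → unitInterval) → (V → Bool), Measurable Φ ∧
      (∀ (g : G ≃g G) (x : V → unitInterval), Φ (x ∘ ⇑g) = Φ x ∘ ⇑g) ∧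
      ∀ (S : Finset V) (η : V → Bool), (G.induce (S : Set V)).Connected →
        (Crest.ProbabilityR.Labels.labelMeasure V).map Φ {σ | ∀ v ∈ S, σ v = η v} =
          ENNReal.ofReal (Crest.ProbabilityR.TreeIsing.isingWeight G θ S η) := by
  have hmΨ := measurable_limSign hmeas
  have hlift := measurePreserving_liftLabels V
  refine ⟨fun x => limSign F (liftLabels x), hmΨ.comp hlift.measurable, ?_, ?_⟩
  · intro g x
    show limSign F (liftLabels (x ∘ g)) = limSign F (liftLabels x) ∘ g
    rw [liftLabels_comp]
    exact limSign_comp hequiv g (liftLabels x)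
  · intro S η hS
    -- the target set is measurable
    have hSet : MeasurableSet {σ : V → Bool | ∀ v ∈ S, σ v = η v} := by
      have : {σ : V → Bool | ∀ v ∈ S, σ v = η v} = ⋂ v ∈ S, (fun σ : V → Bool => σ v) ⁻¹' {η v} := by
        ext σ; simp
      rw [this]
      exact Finset.measurableSet_biInter S fun v _ =>
        measurable_pi_apply v (measurableSet_singleton _)
    have hmap : (Crest.ProbabilityR.Labels.labelMeasure V).map (fun x => limSign F (liftLabels x))
        = (omP V).map (limSign F) := by
      rw [← hlift.map_eq, Measure.map_map hmΨ hlift.measurable]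
      rfl
    rw [hmap, Measure.map_apply hmΨ hSet]
    set A : Set (Om V) := limSign F ⁻¹' {σ : V → Bool | ∀ v ∈ S, σ v = η v} with hA
    have hAm : MeasurableSet A := hmΨ hSet
    -- Borel–Cantelli
    have hBC : ∀ v, ∀ᵐ x ∂(omP V), ∀ᶠ n in atTop, signB (F n x v) = signB (F (n + 1) x v) := by
      intro v
      have hfin : ∑' n, (omP V) {x | signB (F n x v) ≠ signB (F (n + 1) x v)} ≠ ∞ := by
        have h := (hsum v).tsum_ofReal_ne_top
        refine ne_top_of_le_ne_top h (le_of_eq ?_)
        refine tsum_congr fun n => ?_
        rw [ENNReal.ofReal_toReal (measure_ne_top _ _)]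
      filter_upwards [ae_eventually_notMem hfin] with x hx
      filter_upwards [hx] with n hn
      simpa using hn
    have hae : ∀ᵐ x ∂(omP V), ∀ v ∈ S, ∀ᶠ n in atTop, signB (F n x v) = limSign F x v := by
      have : ∀ v ∈ S, ∀ᵐ x ∂(omP V), ∀ᶠ n in atTop, signB (F n x v) = limSign F x v := by
        intro v _
        filter_upwards [hBC v] with x hx
        exact eventually_signB_eq_limSign hx
      exact (ae_ball_iff S.countable_toSet).2 fun v hv => this v hv
    -- the events converge
    have hconv : Tendsto (fun n => (omP V) {x | ∀ v ∈ S, signB (F n x v) = η v}) atTop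
        (𝓝 ((omP V) A)) := by
      refine tendsto_measure_of_ae_tendsto_indicator_of_isFiniteMeasure atTop hAm ?_ ?_
      · intro n
        have : {x : Om V | ∀ v ∈ S, signB (F n x v) = η v}
            = ⋂ v ∈ S, (fun x => signB (F n x v)) ⁻¹' {η v} := by
          ext x; simp
        rw [this]
        exact Finset.measurableSet_biInter S fun v _ =>
          measurable_signB_comp (hmeas n v) (measurableSet_singleton _)
      · filter_upwards [hae] with x hx
        have hall : ∀ᶠ n in atTop, ∀ v ∈ S, signB (F n x v) = limSign F x v :=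
          (Filter.eventually_all_finset S).2 hx
        filter_upwards [hall] with n hn
        simp only [Set.mem_ofPred_eq, hA, Set.mem_preimage]
        constructor
        · intro h v hv
          rw [← hn v hv]; exact h v hv
        · intro h v hv
          rw [hn v hv]; exact h v hv
    have hconvR : Tendsto (fun n => ((omP V) {x | ∀ v ∈ S, signB (F n x v) = η v}).toReal) atTop
        (𝓝 ((omP V) A).toReal) :=
      (ENNReal.tendsto_toReal (measure_ne_top _ _)).comp hconv
    have huniq := tendsto_nhds_unique hconvR (hlaw S η hS)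
    rw [← huniq, ENNReal.ofReal_toReal (measure_ne_top _ _)]

end Crest.Agent.Lib.IsingFIID
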