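/-
S0241 blueprint, Mod H0, auxiliary lemmas: measurability of Gibbs expectations, relabelling of Gibbs expectations,
elementary facts on `limsup`, and the passage from `L²` rates to almost sure convergence.
-/
import Crest.Agent.Lib.IsingFIID.Spin
import Crest.Agent.Lib.IsingFIID.Labels

set_option autoImplicit false
universe u

namespace Crest.Agent.Lib.IsingFIID

open MeasureTheory Filter
open scoped Classical Topology ENNReal

/-! ### limsup of bounded sequences -/

theorem limsup_abs_le {u : ℕ → ℝ} {C : ℝ} (h : ∀ n, |u n| ≤ C) : |limsup u atTop| ≤ C := by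
  have hle : ∀ n, u n ≤ C := fun n => (abs_le.1 (h n)).2
  have hge : ∀ n, -C ≤ u n := fun n => (abs_le.1 (h n)).1
  have hbdd : IsBoundedUnder (· ≤ ·) atTop u := isBoundedUnder_of ⟨C, hle⟩
  have hcobdd : IsCoboundedUnder (· ≤ ·) atTop u :=
    (isBoundedUnder_of (f := atTop) (r := (· ≥ ·)) ⟨-C, hge⟩).isCoboundedUnder_flip
  rw [abs_le]
  constructor
  · exact le_limsup_of_frequently_le (Frequently.of_forall hge) hbdd
  · exact limsup_le_of_le hcobdd (Eventually.of_forall hle)

/-! ### From summable integrals to almost sure statements -/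

section AE

variable {Ω : Type*} [MeasurableSpace Ω] {P : Measure Ω}

theorem ae_summable_of_summable_integral {h : ℕ → Ω → ℝ} (hm : ∀ R, Measurable (h R))
    (h0 : ∀ R x, 0 ≤ h R x) (hint : ∀ R, Integrable (h R) P)
    (hs : Summable fun R => ∫ x, h R x ∂P) : ∀ᵐ x ∂P, Summable fun R => h R x := by
  have hlint : ∫⁻ x, ∑' R, ENNReal.ofReal (h R x) ∂P ≠ ∞ := by
    rw [lintegral_tsum fun R => (hm R).ennreal_ofReal.aemeasurable]
    have : ∀ R, ∫⁻ x, ENNReal.ofReal (h R x) ∂P = ENNReal.ofReal (∫ x, h R x ∂P) := fun R =>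
      (ofReal_integral_eq_lintegral_ofReal (hint R) (Eventually.of_forall (h0 R))).symm
    simp_rw [this]
    exact hs.tsum_ofReal_ne_top
  have hmeas : AEMeasurable (fun x => ∑' R, ENNReal.ofReal (h R x)) P :=
    (Measurable.tsum fun R => (hm R).ennreal_ofReal).aemeasurable
  filter_upwards [ae_lt_top' hmeas hlint] with x hx
  have hne : ∑' R, ENNReal.ofReal (h R x) ≠ ∞ := hx.ne
  have hsum := ENNReal.summable_toReal hne
  refine hsum.congr fun R => ?_
  rw [ENNReal.toReal_ofReal (h0 R x)]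

theorem ae_tendsto_zero_of_summable_integral {h : ℕ → Ω → ℝ} (hm : ∀ R, Measurable (h R))
    (h0 : ∀ R x, 0 ≤ h R x) (hint : ∀ R, Integrable (h R) P)
    (hs : Summable fun R => ∫ x, h R x ∂P) : ∀ᵐ x ∂P, Tendsto (fun R => h R x) atTop (𝓝 0) := by
  filter_upwards [ae_summable_of_summable_integral hm h0 hint hs] with x hx
  exact hx.tendsto_atTop_zero

variable [IsProbabilityMeasure P]

/-- bounded measurable functions are integrable -/
theorem integrable_of_abs_le {f : Ω → ℝ} {C : ℝ} (hf : Measurable f) (hb : ∀ x, |f x| ≤ C) :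
    Integrable f P :=
  Integrable.of_bound hf.aestronglyMeasurable C
    (Eventually.of_forall fun x => by simpa [Real.norm_eq_abs] using hb x)

/-- `L²` rate implies almost sure convergence: a sequence of uniformly bounded functions with summable square
norms of the increments along a geometric rate converges a.e. to its limsup. -/
theorem ae_tendsto_limsup_of_sq_rate {f : ℕ → Ω → ℝ} {B C ρ : ℝ} (hm : ∀ R, Measurable (f R))
    (hb : ∀ R x, |f R x| ≤ B) (hρ0 : 0 ≤ ρ) (hρ1 : ρ < 1)
    (hrate : ∀ R, ∫ x, (f R x - f (R + 1) x) ^ 2 ∂P ≤ C * ρ ^ R) :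
    ∀ᵐ x ∂P, Tendsto (fun R => f R x) atTop (𝓝 (limsup (fun R => f R x) atTop)) := by
  -- the rate `a = √ρ`; `|h| ≤ (a^R + h²/a^R)/2`
  by_cases hρ : ρ = 0
  · -- degenerate case
    subst hρ
    have hC0 : ∀ R, ∫ x, (f (R + 1) x - f (R + 2) x) ^ 2 ∂P ≤ 0 := fun R => by
      simpa using hrate (R + 1)
    have hae : ∀ R, ∀ᵐ x ∂P, f (R + 1) x = f (R + 2) x := by
      intro R
      have hi : Integrable (fun x => (f (R + 1) x - f (R + 2) x) ^ 2) P :=
        integrable_of_abs_le (C := (B + B) ^ 2) (((hm _).sub (hm _)).pow_const 2) fun x => by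
          have h1 := hb (R + 1) x
          have h2 := hb (R + 2) x
          rw [abs_of_nonneg (sq_nonneg _)]
          apply sq_le_sq'
          · have := abs_le.1 h1; have := abs_le.1 h2; linarith
          · have := abs_le.1 h1; have := abs_le.1 h2; linarith
      have h0 : ∫ x, (f (R + 1) x - f (R + 2) x) ^ 2 ∂P = 0 :=
        le_antisymm (hC0 R) (integral_nonneg fun x => sq_nonneg _)
      have := (integral_eq_zero_iff_of_nonneg (fun x => sq_nonneg _) hi).1 h0
      filter_upwards [this] with x hx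
      have h2 : (f (R + 1) x - f (R + 2) x) ^ 2 = 0 := hx
      have h3 : f (R + 1) x - f (R + 2) x = 0 := by simpa using h2
      linarith
    filter_upwards [ae_all_iff.2 hae] with x hx
    have hconst : ∀ R, f (R + 1) x = f 1 x := by
      intro R
      induction R with
      | zero => rfl
      | succ n ih => rw [← ih]; exact (hx n).symm
    have hev : (fun R => f R x) =ᶠ[atTop] fun _ => f 1 x := by
      filter_upwards [eventually_ge_atTop 1] with R hR
      obtain ⟨n, rfl⟩ : ∃ n, R = n + 1 := ⟨R - 1, by omega⟩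
      exact hconst n
    have ht : Tendsto (fun R => f R x) atTop (𝓝 (f 1 x)) :=
      (tendsto_const_nhds (x := f 1 x)).congr' hev.symm
    rw [ht.limsup_eq]
    exact ht
  have hρpos : 0 < ρ := lt_of_le_of_ne hρ0 (Ne.symm hρ)
  set a : ℝ := Real.sqrt ρ with ha
  have ha0 : 0 < a := Real.sqrt_pos.2 hρpos
  have ha1 : a < 1 := by
    rw [ha]
    exact (Real.sqrt_lt' one_pos).2 (by simpa using hρ1)
  have haa : a * a = ρ := Real.mul_self_sqrt hρ0
  -- integrable absolute differences
  have hm' : ∀ R, Measurable fun x => |f R x - f (R + 1) x| := fun R =>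
    ((hm R).sub (hm (R + 1))).abs
  have hbd' : ∀ R x, |f R x - f (R + 1) x| ≤ B + B := fun R x => by
    have h1 := abs_le.1 (hb R x)
    have h2 := abs_le.1 (hb (R + 1) x)
    rw [abs_le]; constructor <;> linarith
  have hint' : ∀ R, Integrable (fun x => |f R x - f (R + 1) x|) P := fun R =>
    integrable_of_abs_le (C := B + B) (hm' R) fun x => by
      rw [abs_abs]; exact hbd' R x
  have hint2 : ∀ R, Integrable (fun x => (f R x - f (R + 1) x) ^ 2) P := fun R =>
    integrable_of_abs_le (C := (B + B) ^ 2) (((hm _).sub (hm _)).pow_const 2) fun x => by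
      have h1 := abs_le.1 (hbd' R x)
      rw [abs_of_nonneg (sq_nonneg _), ← sq_abs]
      exact pow_le_pow_left₀ (abs_nonneg _) (hbd' R x) 2
  have hle : ∀ R, ∫ x, |f R x - f (R + 1) x| ∂P ≤ (1 + C) / 2 * a ^ R := by
    intro R
    have haR : 0 < a ^ R := pow_pos ha0 R
    have hpt : ∀ x, |f R x - f (R + 1) x| ≤ (a ^ R + (f R x - f (R + 1) x) ^ 2 / a ^ R) / 2 := by
      intro x
      have h1 : 0 ≤ (|f R x - f (R + 1) x| - a ^ R) ^ 2 := sq_nonneg _
      have h2 : (f R x - f (R + 1) x) ^ 2 = |f R x - f (R + 1) x| ^ 2 := (sq_abs _).symm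
      rw [h2, le_div_iff₀ (by norm_num : (0 : ℝ) < 2), ← sub_nonneg]
      have h3 : a ^ R + |f R x - f (R + 1) x| ^ 2 / a ^ R - |f R x - f (R + 1) x| * 2
          = (|f R x - f (R + 1) x| - a ^ R) ^ 2 / a ^ R := by
        field_simp
        ring
      rw [h3]
      positivity
    have hi3 : Integrable (fun x => (a ^ R + (f R x - f (R + 1) x) ^ 2 / a ^ R) / 2) P :=
      ((integrable_const _).add ((hint2 R).div_const _)).div_const _
    calc ∫ x, |f R x - f (R + 1) x| ∂P
        ≤ ∫ x, (a ^ R + (f R x - f (R + 1) x) ^ 2 / a ^ R) / 2 ∂P :=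
          integral_mono (hint' R) hi3 hpt
      _ = (a ^ R + (∫ x, (f R x - f (R + 1) x) ^ 2 ∂P) / a ^ R) / 2 := by
          rw [integral_div, integral_add (integrable_const _) ((hint2 R).div_const _),
            integral_div]
          simp
      _ ≤ (a ^ R + (C * ρ ^ R) / a ^ R) / 2 := by
          gcongr
          exact hrate R
      _ = (1 + C) / 2 * a ^ R := by
          have : ρ ^ R = a ^ R * a ^ R := by rw [← mul_pow, haa]
          rw [this]
          field_simp
  have hsummable : Summable fun R => ∫ x, |f R x - f (R + 1) x| ∂P := by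
    refine Summable.of_nonneg_of_le (fun R => integral_nonneg fun x => abs_nonneg _) hle ?_
    exact (summable_geometric_of_lt_one ha0.le ha1).mul_left _
  filter_upwards [ae_summable_of_summable_integral hm' (fun R x => abs_nonneg _) hint' hsummable]
    with x hx
  have hcau : CauchySeq fun R => f R x := by
    refine cauchySeq_of_summable_dist ?_
    refine hx.congr fun R => ?_
    rw [Real.dist_eq]
  obtain ⟨l, hl⟩ := cauchySeq_tendsto_of_complete hcau
  rw [hl.limsup_eq]
  exact hl

/-- Limit of an `L²` bound under a.e. convergence of uniformly bounded functions. -/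
theorem integral_sq_le_of_ae_tendsto {f : ℕ → Ω → ℝ} {g g' : Ω → ℝ} {B E : ℝ}
    (hm : ∀ R, Measurable (f R)) (hg : Measurable g') (hb : ∀ R x, |f R x| ≤ B)
    (hbg' : ∀ x, |g' x| ≤ B) (hbg : ∀ x, |g x| ≤ B)
    (hgm : Measurable g)
    (hlim : ∀ᵐ x ∂P, Tendsto (fun R => f R x) atTop (𝓝 (g x)))
    (hE : ∀ᶠ R in atTop, ∫ x, (f R x - g' x) ^ 2 ∂P ≤ E) :
    ∫ x, (g x - g' x) ^ 2 ∂P ≤ E := by
  have hT : Tendsto (fun R => ∫ x, (f R x - g' x) ^ 2 ∂P) atTop (𝓝 (∫ x, (g x - g' x) ^ 2 ∂P)) := by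
    refine tendsto_integral_of_dominated_convergence (fun _ => (B + B) ^ 2) ?_ (integrable_const _) ?_ ?_
    · intro R
      exact (((hm R).sub hg).pow_const 2).aestronglyMeasurable
    · intro R
      refine Eventually.of_forall fun x => ?_
      rw [Real.norm_eq_abs, abs_of_nonneg (sq_nonneg _)]
      have h1 := abs_le.1 (hb R x)
      have h2 := abs_le.1 (hbg' x)
      apply sq_le_sq' <;> linarith
    · filter_upwards [hlim] with x hx
      exact (hx.sub_const _).pow 2
  exact le_of_tendsto hT hE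

/-- Dominated convergence for uniformly bounded a.e. convergent sequences. -/
theorem tendsto_integral_of_ae_tendsto_bdd {f : ℕ → Ω → ℝ} {g : Ω → ℝ} {B : ℝ}
    (hm : ∀ R, Measurable (f R)) (hb : ∀ R x, |f R x| ≤ B)
    (hlim : ∀ᵐ x ∂P, Tendsto (fun R => f R x) atTop (𝓝 (g x))) :
    Tendsto (fun R => ∫ x, f R x ∂P) atTop (𝓝 (∫ x, g x ∂P)) := by
  refine tendsto_integral_of_dominated_convergence (fun _ => B) ?_ (integrable_const _) ?_ hlim
  · intro R
    exact (hm R).aestronglyMeasurable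
  · intro R
    exact Eventually.of_forall fun x => by simpa [Real.norm_eq_abs] using hb R x

end AE

/-! ### Measurability of Gibbs expectations -/

section Meas

variable {V : Type u} (G : SimpleGraph V) [G.LocallyFinite]
variable {Ω : Type*} [MeasurableSpace Ω]

theorem measurable_expW_field_sa (θ : ℝ) {ℓ : Ω → V → ℝ} (W : Finset V) (f : Finset V → ℝ)
    (hℓ : ∀ v ∈ W, Measurable fun x => ℓ x v) :
    Measurable fun x => expW G θ (fun v => 1 + ℓ x v) (fun v => 1 - ℓ x v) W f := by
  unfold expW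
  refine Finset.measurable_sum _ fun A _ => ?_
  refine Measurable.mul (Measurable.mul measurable_const ?_) measurable_const
  unfold siteW
  refine Finset.measurable_prod _ fun v hv => ?_
  by_cases hvA : v ∈ A
  · simp only [hvA, if_true]
    exact measurable_const.add (hℓ v hv)
  · simp only [hvA, if_false]
    exact measurable_const.sub (hℓ v hv)

theorem measurable_gibbs_field_H0 (θ : ℝ) {ℓ : Ω → V → ℝ} (W : Finset V) (f : Finset V → ℝ)
    (hℓ : ∀ v ∈ W, Measurable fun x => ℓ x v) :
    Measurable fun x => gibbs G θ (ℓ x) W f := by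
  unfold gibbs pfW
  exact (measurable_expW_field_sa G θ W f hℓ).div (measurable_expW_field_sa G θ W _ hℓ)

end Meas

/-! ### Relabelling -/

section Aut

variable {V : Type u} {G : SimpleGraph V} [G.LocallyFinite]

theorem spin_map_sa (g : V ≃ V) (A : Finset V) (v : V) : spin (A.map g.toEmbedding) (g v) = spin A v := by
  unfold spin
  simp

theorem prod_edgesIn_map (g : G ≃g G) (W : Finset V) (F : Sym2 V → ℝ) :
    ∏ e ∈ edgesIn G W, F (Sym2.map g e) = ∏ e ∈ edgesIn G (W.map g.toEquiv.toEmbedding), F e := by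
  refine Finset.prod_nbij (fun e => Sym2.map g e) ?_ ?_ ?_ fun _ _ => rfl
  · intro e he
    induction e using Sym2.ind with
    | _ a b =>
      obtain ⟨ha, hb, hab⟩ := mem_edgesIn.1 he
      simp only [Sym2.map_mk]
      refine mem_edgesIn.2 ⟨?_, ?_, g.map_adj_iff.2 hab⟩
      · exact Finset.mem_map_of_mem g.toEquiv.toEmbedding ha
      · exact Finset.mem_map_of_mem g.toEquiv.toEmbedding hb
  · exact (Sym2.map.injective g.injective).injOn
  · intro e he
    have he' : e ∈ edgesIn G (W.map g.toEquiv.toEmbedding) := he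
    induction e using Sym2.ind with
    | _ a b =>
      obtain ⟨ha, hb, hab⟩ := mem_edgesIn.1 he'
      obtain ⟨a', ha', rfl⟩ := Finset.mem_map.1 ha
      obtain ⟨b', hb', rfl⟩ := Finset.mem_map.1 hb
      refine ⟨s(a', b'), ?_, rfl⟩
      exact mem_edgesIn.2 ⟨ha', hb', g.map_adj_iff.1 hab⟩

theorem edgeFactor_map_sa (g : V ≃ V) (θ : ℝ) (A : Finset V) (e : Sym2 V) :
    edgeFactor θ (A.map g.toEmbedding) (Sym2.map g e) = edgeFactor θ A e := by
  induction e using Sym2.ind with
  | _ a b =>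
    simp only [Sym2.map_mk, edgeFactor, Sym2.lift_mk]
    rw [spin_map_sa, spin_map_sa]

theorem isingNorm_map_sa (g : G ≃g G) (θ : ℝ) (W A : Finset V) :
    isingNorm G θ (W.map g.toEquiv.toEmbedding) (A.map g.toEquiv.toEmbedding) = isingNorm G θ W A := by
  unfold isingNorm
  rw [Finset.card_map, ← prod_edgesIn_map]
  congr 1
  refine Finset.prod_congr rfl fun e _ => ?_
  exact edgeFactor_map_sa g.toEquiv θ A e

theorem siteW_map_sa (g : V ≃ V) (wp wm : V → ℝ) (W A : Finset V) :
    siteW wp wm (W.map g.toEmbedding) (A.map g.toEmbedding) = siteW (wp ∘ g) (wm ∘ g) W A := by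
  unfold siteW
  rw [Finset.prod_map]
  refine Finset.prod_congr rfl fun v _ => ?_
  simp

theorem expW_comp_aut (g : G ≃g G) (θ : ℝ) (wp wm : V → ℝ) (W : Finset V) (f : Finset V → ℝ) :
    expW G θ (wp ∘ g) (wm ∘ g) W f =
      expW G θ wp wm (W.map g.toEquiv.toEmbedding) (fun A => f (A.map g.symm.toEquiv.toEmbedding)) := by
  unfold expW
  refine Finset.sum_nbij (fun A => A.map g.toEquiv.toEmbedding) ?_ ?_ ?_ ?_
  · intro A hA
    rw [Finset.mem_powerset] at hA ⊢
    exact Finset.map_subset_map.2 hA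
  · exact (Finset.map_injective _).injOn
  · intro B hB
    have hB' : B ⊆ W.map g.toEquiv.toEmbedding := Finset.mem_powerset.1 hB
    refine ⟨B.map g.symm.toEquiv.toEmbedding, ?_, ?_⟩
    · have : B.map g.symm.toEquiv.toEmbedding ⊆ W := by
        intro u hu
        obtain ⟨u', hu', rfl⟩ := Finset.mem_map.1 hu
        obtain ⟨w, hw, rfl⟩ := Finset.mem_map.1 (hB' hu')
        simpa using hw
      exact Finset.mem_powerset.2 this
    · ext u
      simp only [Finset.mem_map, Equiv.coe_toEmbedding]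
      constructor
      · rintro ⟨a, ⟨b, hb, rfl⟩, rfl⟩
        simpa using hb
      · intro hu
        exact ⟨g.symm u, ⟨u, hu, rfl⟩, by simp⟩
  · intro A _
    rw [isingNorm_map_sa, siteW_map_sa g.toEquiv]
    have : (A.map g.toEquiv.toEmbedding).map g.symm.toEquiv.toEmbedding = A := by
      ext u
      simp only [Finset.mem_map, Equiv.coe_toEmbedding]
      constructor
      · rintro ⟨a, ⟨b, hb, rfl⟩, rfl⟩
        simpa using hb
      · intro hu
        exact ⟨g u, ⟨u, hu, rfl⟩, by simp⟩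
    show _ = isingNorm G θ W A * siteW (wp ∘ ⇑g.toEquiv) (wm ∘ ⇑g.toEquiv) W A *
      f (Finset.map g.symm.toEquiv.toEmbedding (Finset.map g.toEquiv.toEmbedding A))
    rw [this]
    rfl

theorem gibbs_comp_aut_aux (g : G ≃g G) (θ : ℝ) (ℓ : V → ℝ) (W : Finset V) (f : Finset V → ℝ) :
    gibbs G θ (ℓ ∘ g) W f =
      gibbs G θ ℓ (W.map g.toEquiv.toEmbedding) (fun A => f (A.map g.symm.toEquiv.toEmbedding)) := by
  unfold gibbs pfW
  have h1 := expW_comp_aut g θ (fun v => 1 + ℓ v) (fun v => 1 - ℓ v) W f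
  have h2 := expW_comp_aut g θ (fun v => 1 + ℓ v) (fun v => 1 - ℓ v) W (fun _ => 1)
  exact congrArg₂ (· / ·) h1 h2

theorem spin_map_symm (g : G ≃g G) (A : Finset V) (v : V) :
    spin (A.map g.symm.toEquiv.toEmbedding) v = spin A (g v) := by
  have := spin_map_sa g.symm.toEquiv A (g v)
  rw [← this]
  simp

theorem mag_comp_aut (g : G ≃g G) (θ : ℝ) (ℓ : V → ℝ) (W : Finset V) (v : V) :
    mag G θ (ℓ ∘ g) W v = mag G θ ℓ (W.map g.toEquiv.toEmbedding) (g v) := by
  unfold mag
  rw [gibbs_comp_aut_aux]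
  simp only [spin_map_symm]

theorem tcor_comp_aut (g : G ≃g G) (θ : ℝ) (ℓ : V → ℝ) (W : Finset V) (v w : V) :
    tcor G θ (ℓ ∘ g) W v w = tcor G θ ℓ (W.map g.toEquiv.toEmbedding) (g v) (g w) := by
  unfold tcor
  rw [gibbs_comp_aut_aux]
  simp only [spin_map_symm]

end Aut

section LawAux

variable {V : Type u} {G : SimpleGraph V} [G.LocallyFinite]

theorem gibbs_sum {θ : ℝ} {ℓ : V → ℝ} (hθ0 : 0 ≤ θ) (hθ1 : θ < 1) (hℓ : ∀ v, |ℓ v| < 1) (W : Finset V)
    {ι : Type*} (S : Finset ι) (h : ι → Finset V → ℝ) :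
    gibbs G θ ℓ W (fun A => ∑ i ∈ S, h i A) = ∑ i ∈ S, gibbs G θ ℓ W (h i) := by
  classical
  induction S using Finset.induction_on with
  | empty =>
    simpa using gibbs_const' (G := G) hθ0 hθ1 hℓ W 0
  | insert a S ha ih =>
    simp only [Finset.sum_insert ha]
    rw [gibbs_add', ih]

/-- The estimate behind the law of the output: the Gibbs probability of a pattern and the indicator that the signs
`σ` realise the pattern differ by at most the expected number of disagreements with `σ`. -/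
theorem abs_indicator_sub_gibbs_le {θ : ℝ} {ℓ : V → ℝ} (hθ0 : 0 ≤ θ) (hθ1 : θ < 1) (hℓ : ∀ v, |ℓ v| < 1)
    (W : Finset V) (S : Finset V) (σ : V → ℝ) (hσ : ∀ v, σ v = 1 ∨ σ v = -1) (η : V → Bool) :
    ((∀ v ∈ S, (σ v = 1 ↔ η v = true)) →
      |1 - gibbs G θ ℓ W (fun A => if ∀ v ∈ S, (v ∈ A ↔ η v = true) then 1 else 0)| ≤
        ∑ v ∈ S, (1 - σ v * mag G θ ℓ W v) / 2) ∧
    (¬ (∀ v ∈ S, (σ v = 1 ↔ η v = true)) →
      |0 - gibbs G θ ℓ W (fun A => if ∀ v ∈ S, (v ∈ A ↔ η v = true) then 1 else 0)| ≤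
        ∑ v ∈ S, (1 - σ v * mag G θ ℓ W v) / 2) := by
  set fη : Finset V → ℝ := fun A => if ∀ v ∈ S, (v ∈ A ↔ η v = true) then 1 else 0 with hfη
  set Dis : Finset V → ℝ := fun A => ∑ v ∈ S, (1 - σ v * spin A v) / 2 with hDis
  have hterm0 : ∀ v A, 0 ≤ (1 - σ v * spin A v) / 2 := by
    intro v A
    rcases hσ v with h | h <;> rcases spin_eq A v with h' | h' <;> rw [h, h'] <;> norm_num
  have hterm1 : ∀ v A, ¬ (σ v = 1 ↔ v ∈ A) → (1 - σ v * spin A v) / 2 = 1 := by
    intro v A h
    by_cases hv : v ∈ A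
    · rw [spin_mem hv]
      rcases hσ v with h' | h'
      · exact absurd (iff_of_true h' hv) h
      · rw [h']; norm_num
    · rw [spin_not_mem hv]
      rcases hσ v with h' | h'
      · rw [h']; norm_num
      · exact absurd (iff_of_false (by rw [h']; norm_num) hv) h
  have hDis0 : ∀ A, 0 ≤ Dis A := fun A => Finset.sum_nonneg fun v _ => hterm0 v A
  have hDis1 : ∀ v ∈ S, ∀ A, ¬ (σ v = 1 ↔ v ∈ A) → 1 ≤ Dis A := by
    intro v hv A h
    rw [← hterm1 v A h]
    exact Finset.single_le_sum (f := fun v => (1 - σ v * spin A v) / 2) (fun v _ => hterm0 v A) hv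
  have hgD : gibbs G θ ℓ W Dis = ∑ v ∈ S, (1 - σ v * mag G θ ℓ W v) / 2 := by
    simp only [hDis]
    rw [gibbs_sum hθ0 hθ1 hℓ]
    refine Finset.sum_congr rfl fun v _ => ?_
    have e1 : (fun A : Finset V => (1 - σ v * spin A v) / 2) =
        fun A => (1 / 2 : ℝ) * ((fun _ => (1 : ℝ)) A - (fun A => σ v * spin A v) A) := by
      funext A
      ring
    rw [e1, gibbs_smul', gibbs_sub', gibbs_const' hθ0 hθ1 hℓ, gibbs_smul']
    unfold mag
    ring
  have hg0 : 0 ≤ gibbs G θ ℓ W fη := by
    have := gibbs_mono' (G := G) hθ0 hθ1 hℓ W (f := fun _ => (0 : ℝ)) (g := fη) fun A _ => by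
      simp only [hfη]
      split_ifs <;> norm_num
    rwa [gibbs_const' hθ0 hθ1 hℓ] at this
  have hg1 : gibbs G θ ℓ W fη ≤ 1 := by
    have := gibbs_mono' (G := G) hθ0 hθ1 hℓ W (f := fη) (g := fun _ => (1 : ℝ)) fun A _ => by
      simp only [hfη]
      split_ifs <;> norm_num
    rwa [gibbs_const' hθ0 hθ1 hℓ] at this
  constructor
  · intro hall
    rw [abs_of_nonneg (by linarith), ← hgD]
    have := gibbs_mono' (G := G) hθ0 hθ1 hℓ W (f := fun A => (fun _ => (1 : ℝ)) A - fη A) (g := Dis) fun A _ => by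
      simp only [hfη]
      split_ifs with h
      · have := hDis0 A
        linarith
      · obtain ⟨v, hv, h'⟩ : ∃ v ∈ S, ¬ (v ∈ A ↔ η v = true) := by
          by_contra hc
          exact h fun v hv => by
            by_contra h3
            exact hc ⟨v, hv, h3⟩
        have := hDis1 v hv A (fun h2 => h' (by rw [← h2]; exact hall v hv))
        linarith
    rw [gibbs_sub', gibbs_const' hθ0 hθ1 hℓ] at this
    exact this
  · intro hnot
    rw [zero_sub, abs_neg, abs_of_nonneg hg0, ← hgD]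
    obtain ⟨v₀, hv₀, h₀⟩ : ∃ v ∈ S, ¬ (σ v = 1 ↔ η v = true) := by
      by_contra hc
      exact hnot fun v hv => by
        by_contra h3
        exact hc ⟨v, hv, h3⟩
    refine gibbs_mono' (G := G) hθ0 hθ1 hℓ W fun A _ => ?_
    simp only [hfη]
    split_ifs with h
    · exact hDis1 v₀ hv₀ A fun h2 => h₀ (by rw [h2]; exact h v₀ hv₀)
    · exact hDis0 A

end LawAux

end Crest.Agent.Lib.IsingFIID
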