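/-
S0241 blueprint, Mod G: weighted Gronwall for the comparison of the dynamics on `W ⊆ W'` (strict regime).
-/
import Crest.Agent.Lib.IsingFIID.Dynamics

set_option autoImplicit false
universe u

namespace Crest.Agent.Lib.IsingFIID

namespace StrictCmp

open MeasureTheory Filter
open scoped Classical Topology

variable {V : Type u} {G : SimpleGraph V} [G.LocallyFinite] {D : ℕ}

/-! ### Deterministic estimates at fixed fields -/

section Det

variable {θ : ℝ} {ℓ ℓ' : V → ℝ} {W W' : Finset V}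

theorem stepTo_mem_convex (hG : RegTree G D) (hW : IsConvexSet G W) {z u : V} (hz : z ∈ W) (hu : u ∈ W)
    (h : z ≠ u) : stepTo G z u ∈ W := by
  apply hW z hz u hu
  have h1 := hG.stepTo_dist h
  have h2 : G.dist z (stepTo G z u) = 1 := SimpleGraph.dist_eq_one_iff_adj.mpr (hG.stepTo_adj h)
  omega

theorem pathProdF_bounds (hG : RegTree G D) (hθ0 : 0 ≤ θ) (hθ1 : θ < 1) (hℓ : ∀ v, |ℓ v| < 1)
    (hW : IsConvexSet G W) (hne : W.Nonempty) {u : V} (hu : u ∈ W) :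
    ∀ (n : ℕ) (z : V), G.dist z u = n → z ∈ W →
      0 ≤ pathProdF G (slope G θ ℓ W) n z u ∧ pathProdF G (slope G θ ℓ W) n z u ≤ θ ^ n := by
  intro n
  induction n with
  | zero =>
    intro z _ _
    simp [pathProdF]
  | succ n ih =>
    intro z hn hz
    have hzu : z ≠ u := by
      rintro rfl
      simp at hn
    have hadj := hG.stepTo_adj hzu
    have hd := hG.stepTo_dist hzu
    have hy := stepTo_mem_convex hG hW hz hu hzu
    obtain ⟨h1, h2⟩ := ih (stepTo G z u) (by omega) hy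
    have h3 := slope_nonneg hG hθ0 hθ1 hℓ hW hne hadj hz hy
    have h4 := slope_le hG hθ0 hθ1 hℓ hW hne hadj hz hy
    simp only [pathProdF]
    constructor
    · exact mul_nonneg h3 h1
    · rw [pow_succ']
      exact mul_le_mul h4 h2 h1 hθ0

theorem pathProd_bounds (hG : RegTree G D) (hθ0 : 0 ≤ θ) (hθ1 : θ < 1) (hℓ : ∀ v, |ℓ v| < 1)
    (hW : IsConvexSet G W) (hne : W.Nonempty) {z u : V} (hz : z ∈ W) (hu : u ∈ W) :
    0 ≤ pathProd G (slope G θ ℓ W) z u ∧ pathProd G (slope G θ ℓ W) z u ≤ θ ^ G.dist z u :=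
  pathProdF_bounds hG hθ0 hθ1 hℓ hW hne hu _ z rfl hz

theorem cvar_nonneg' (hG : RegTree G D) (hθ0 : 0 ≤ θ) (hθ1 : θ < 1) (hℓ : ∀ v, |ℓ v| < 1)
    (hW : IsConvexSet G W) (hne : W.Nonempty) {v : V} (hv : v ∈ W) : 0 ≤ cvar G θ ℓ W v :=
  (cvar_pos hG hθ0 hθ1 hℓ hW hne hv).le

/-- `|Cov(σ_z,σ_u)| ≤ θ^dist`. -/
theorem abs_cov_le_pow (hG : RegTree G D) (hθ0 : 0 ≤ θ) (hθ1 : θ < 1) (hℓ : ∀ v, |ℓ v| < 1)
    (hW : IsConvexSet G W) (hne : W.Nonempty) {z u : V} (hz : z ∈ W) (hu : u ∈ W) :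
    |covG G θ ℓ W (fun A => spin A z) (fun A => spin A u)| ≤ θ ^ G.dist z u := by
  rw [cov_eq_pathProd hG hθ0 hθ1 hℓ hW hne hz hu]
  obtain ⟨h1, h2⟩ := pathProd_bounds hG hθ0 hθ1 hℓ hW hne hz hu
  have h3 := cvar_pos hG hθ0 hθ1 hℓ hW hne hz
  have h4 := cvar_le_one hG hθ0 hθ1 hℓ hW hne z
  rw [abs_of_nonneg (mul_nonneg h3.le h1)]
  calc cvar G θ ℓ W z * pathProd G (slope G θ ℓ W) z u ≤ 1 * pathProd G (slope G θ ℓ W) z u :=
        mul_le_mul_of_nonneg_right h4 h1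
    _ ≤ θ ^ G.dist z u := by rw [one_mul]; exact h2

/-- same for the covariance with the weight `c_y`. -/
theorem abs_cov_le_pow_mul (hG : RegTree G D) (hθ0 : 0 ≤ θ) (hθ1 : θ < 1) (hℓ : ∀ v, |ℓ v| < 1)
    (hW : IsConvexSet G W) (hne : W.Nonempty) {z u : V} (hz : z ∈ W) (hu : u ∈ W) :
    |covG G θ ℓ W (fun A => spin A z) (fun A => spin A u)| ≤ θ ^ G.dist z u * cvar G θ ℓ W z := by
  rw [cov_eq_pathProd hG hθ0 hθ1 hℓ hW hne hz hu]
  obtain ⟨h1, h2⟩ := pathProd_bounds hG hθ0 hθ1 hℓ hW hne hz hu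
  have h3 := cvar_pos hG hθ0 hθ1 hℓ hW hne hz
  rw [abs_of_nonneg (mul_nonneg h3.le h1), mul_comm]
  exact mul_le_mul_of_nonneg_right h2 h3.le

theorem acov_comm (p y : V) : acov G θ ℓ W p y = acov G θ ℓ W y p := by
  unfold acov
  rw [tcor_comm]
  ring

theorem acov_nonneg' (hG : RegTree G D) (hθ0 : 0 ≤ θ) (hθ1 : θ < 1) (hℓ : ∀ v, |ℓ v| < 1)
    (hW : IsConvexSet G W) (hne : W.Nonempty) {p y : V} (hpy : G.Adj p y) (hp : p ∈ W) (hy : y ∈ W) :
    0 ≤ acov G θ ℓ W p y := by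
  rw [acov_eq_slope hG hθ0 hθ1 hℓ hW hne hpy hp hy]
  exact mul_nonneg (cvar_pos hG hθ0 hθ1 hℓ hW hne hp).le (slope_nonneg hG hθ0 hθ1 hℓ hW hne hpy hp hy)

theorem acov_le_theta_mul (hG : RegTree G D) (hθ0 : 0 ≤ θ) (hθ1 : θ < 1) (hℓ : ∀ v, |ℓ v| < 1)
    (hW : IsConvexSet G W) (hne : W.Nonempty) {p y : V} (hpy : G.Adj p y) (hp : p ∈ W) (hy : y ∈ W) :
    acov G θ ℓ W p y ≤ θ * cvar G θ ℓ W y := by
  rw [acov_comm, acov_eq_slope hG hθ0 hθ1 hℓ hW hne hpy.symm hy hp, mul_comm]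
  exact mul_le_mul_of_nonneg_right (slope_le hG hθ0 hθ1 hℓ hW hne hpy.symm hy hp)
    (cvar_pos hG hθ0 hθ1 hℓ hW hne hy).le

/-- the local difference entering the chain -/
noncomputable def fE (G : SimpleGraph V) [G.LocallyFinite] (θ θ' : ℝ) (ℓ ℓ' : V → ℝ) (W W' : Finset V) (p y : V) : ℝ :=
  |acov G θ ℓ W p y - acov G θ' ℓ' W' p y| + θ * |cvar G θ ℓ W y - cvar G θ' ℓ' W' y|

/-- One step of the chain, in the two systems on `W`, `W'`. -/
theorem chain_step (hG : RegTree G D) (hθ0 : 0 ≤ θ) (hθ1 : θ < 1) (hℓ : ∀ v, |ℓ v| < 1) (hℓ' : ∀ v, |ℓ' v| < 1)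
    (hW : IsConvexSet G W) (hne : W.Nonempty) (hW' : IsConvexSet G W') (hne' : W'.Nonempty)
    {p y u : V} (hpy : G.Adj p y) (hp : p ∈ W) (hy : y ∈ W) (hu : u ∈ W)
    (hp' : p ∈ W') (hy' : y ∈ W') (hu' : u ∈ W') (hside : G.dist y u < G.dist p u) :
    |covG G θ ℓ W (fun A => spin A p) (fun A => spin A u) - covG G θ ℓ' W' (fun A => spin A p) (fun A => spin A u)| ≤
      θ * |covG G θ ℓ W (fun A => spin A y) (fun A => spin A u) - covG G θ ℓ' W' (fun A => spin A y) (fun A => spin A u)| +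
        θ ^ G.dist y u * fE G θ θ ℓ ℓ' W W' p y := by
  have hc := cvar_pos hG hθ0 hθ1 hℓ hW hne hy
  have hc' := cvar_pos hG hθ0 hθ1 hℓ' hW' hne' hy'
  have e1 := cov_step hG hθ0 hθ1 hℓ hW hpy hp hy hu hside
  have e2 := cov_step hG hθ0 hθ1 hℓ' hW' hpy hp' hy' hu' hside
  have e1' : covG G θ ℓ W (fun A => spin A p) (fun A => spin A u) =
      covG G θ ℓ W (fun A => spin A y) (fun A => spin A u) * (acov G θ ℓ W p y / cvar G θ ℓ W y) := by
    field_simp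
    linear_combination e1
  have e2' : covG G θ ℓ' W' (fun A => spin A p) (fun A => spin A u) =
      covG G θ ℓ' W' (fun A => spin A y) (fun A => spin A u) * (acov G θ ℓ' W' p y / cvar G θ ℓ' W' y) := by
    field_simp
    linear_combination e2
  rw [e1', e2']
  have := ratio_chain_step (θ' := 0) (Φ := covG G θ ℓ W (fun A => spin A y) (fun A => spin A u))
    (Φ' := covG G θ ℓ' W' (fun A => spin A y) (fun A => spin A u))
    (a := acov G θ ℓ W p y) (a' := acov G θ ℓ' W' p y) (c := cvar G θ ℓ W y) (c' := cvar G θ ℓ' W' y)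
    (κ := θ ^ G.dist y u) (θ := θ) hc hc' (pow_nonneg hθ0 _)
    (abs_cov_le_pow_mul hG hθ0 hθ1 hℓ' hW' hne' hy' hu')
    (acov_nonneg' hG hθ0 hθ1 hℓ hW hne hpy hp hy) (acov_le_theta_mul hG hθ0 hθ1 hℓ hW hne hpy hp hy) hθ0
  unfold fE
  exact this

theorem covG_spin_self' (hG : RegTree G D) (hθ0 : 0 ≤ θ) (hθ1 : θ < 1) (hℓ : ∀ v, |ℓ v| < 1) (v : V) :
    covG G θ ℓ W (fun A => spin A v) (fun A => spin A v) = cvar G θ ℓ W v :=
  covG_spin_self hθ0 hθ1 hℓ W v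

/-- Iterated chain: `|ΔCov(z,u)| ≤ θ^r |Δc_u| + θ^{r-1} Σ_{edges} fE`. -/
theorem chain_bound (hG : RegTree G D) (hθ0 : 0 ≤ θ) (hθ1 : θ < 1) (hℓ : ∀ v, |ℓ v| < 1) (hℓ' : ∀ v, |ℓ' v| < 1)
    (hW : IsConvexSet G W) (hne : W.Nonempty) (hW' : IsConvexSet G W') (hne' : W'.Nonempty) (hWW' : W ⊆ W')
    {u : V} (hu : u ∈ W) :
    ∀ (n : ℕ) (z : V), G.dist z u = n → z ∈ W →
      |covG G θ ℓ W (fun A => spin A z) (fun A => spin A u) - covG G θ ℓ' W' (fun A => spin A z) (fun A => spin A u)| ≤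
        θ ^ n * |cvar G θ ℓ W u - cvar G θ ℓ' W' u| +
          θ ^ (n - 1) * pathSumF G (fE G θ θ ℓ ℓ' W W') n z u := by
  intro n
  induction n with
  | zero =>
    intro z hz _
    have : z = u := hG.isTree.connected.dist_eq_zero_iff.mp hz
    subst this
    simp only [pathSumF, pow_zero, one_mul, mul_zero, add_zero]
    rw [covG_spin_self hθ0 hθ1 hℓ W z, covG_spin_self hθ0 hθ1 hℓ' W' z]
  | succ n ih =>
    intro z hn hz
    have hzu : z ≠ u := by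
      rintro rfl
      simp at hn
    have hadj := hG.stepTo_adj hzu
    have hd := hG.stepTo_dist hzu
    have hy := stepTo_mem_convex hG hW hz hu hzu
    have hdy : G.dist (stepTo G z u) u = n := by omega
    have i := ih (stepTo G z u) hdy hy
    have s := chain_step hG hθ0 hθ1 hℓ hℓ' hW hne hW' hne' hadj hz hy hu (hWW' hz) (hWW' hy) (hWW' hu) (by omega)
    rw [hdy] at s
    refine s.trans ?_
    simp only [pathSumF, Nat.add_sub_cancel]
    rw [pow_succ']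
    have hS : θ * (θ ^ (n - 1) * pathSumF G (fE G θ θ ℓ ℓ' W W') n (stepTo G z u) u) =
        θ ^ n * pathSumF G (fE G θ θ ℓ ℓ' W W') n (stepTo G z u) u := by
      cases n with
      | zero => simp [pathSumF]
      | succ n =>
        simp only [Nat.add_sub_cancel]
        rw [pow_succ']
        ring
    have := mul_le_mul_of_nonneg_left i hθ0
    rw [mul_add, hS] at this
    nlinarith [this]

theorem pathSumF_sq_le (f : V → V → ℝ) (u : V) :
    ∀ (n : ℕ) (z : V), (pathSumF G f n z u) ^ 2 ≤ n * pathSumF G (fun a b => f a b ^ 2) n z u := by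
  intro n
  induction n with
  | zero => intro z; simp [pathSumF]
  | succ n ih =>
    intro z
    simp only [pathSumF]
    set a := f z (stepTo G z u)
    set S := pathSumF G f n (stepTo G z u) u
    set T := pathSumF G (fun a b => f a b ^ 2) n (stepTo G z u) u
    have h := ih (stepTo G z u)
    have hT : S ^ 2 ≤ n * T := h
    push_cast
    rcases Nat.eq_zero_or_pos n with hn | hn
    · subst hn
      have hS : S = 0 := by simp [S, pathSumF]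
      have hT0 : T = 0 := by simp [T, pathSumF]
      rw [hS, hT0]
      simp
    · have hn' : (0 : ℝ) < n := by exact_mod_cast hn
      have key : 2 * a * S ≤ n * a ^ 2 + S ^ 2 / n := by
        have h2 : 0 ≤ (n * a - S) ^ 2 / n := by positivity
        have h3 : (n * a - S) ^ 2 / n = n * a ^ 2 - 2 * a * S + S ^ 2 / n := by
          field_simp
          ring
        linarith
      have h4 : S ^ 2 / n ≤ T := by
        rw [div_le_iff₀ hn']
        linarith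
      have h5 : 0 ≤ T := by
        have : 0 ≤ n * T := le_trans (sq_nonneg S) hT
        exact nonneg_of_mul_nonneg_right this hn'
      nlinarith

end Det


section Det2

variable {θ : ℝ} {ℓ ℓ' : V → ℝ} {W W' : Finset V}

theorem add_sq_le_of_sq_le {a S T : ℝ} {n : ℕ} (h : S ^ 2 ≤ n * T) (hT : 0 ≤ T) :
    (a + S) ^ 2 ≤ ((n : ℝ) + 1) * (a ^ 2 + T) := by
  rcases Nat.eq_zero_or_pos n with hn | hn
  · subst hn
    have hS : S = 0 := by
      have : S ^ 2 ≤ 0 := by simpa using h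
      have h2 : S ^ 2 = 0 := le_antisymm this (sq_nonneg S)
      simpa using h2
    rw [hS]
    simp only [Nat.cast_zero, zero_add, add_zero, one_mul]
    nlinarith
  · have hn' : (0 : ℝ) < n := by exact_mod_cast hn
    have key : 2 * a * S ≤ n * a ^ 2 + S ^ 2 / n := by
      have h2 : 0 ≤ (n * a - S) ^ 2 / n := by positivity
      have h3 : (n * a - S) ^ 2 / n = n * a ^ 2 - 2 * a * S + S ^ 2 / n := by
        field_simp
        ring
      linarith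
    have h4 : S ^ 2 / n ≤ T := by
      rw [div_le_iff₀ hn']
      linarith
    nlinarith

theorem pathSumF_sq_nonneg (f : V → V → ℝ) (u : V) :
    ∀ (n : ℕ) (z : V), 0 ≤ pathSumF G (fun a b => f a b ^ 2) n z u := by
  intro n
  induction n with
  | zero => intro z; simp [pathSumF]
  | succ n ih =>
    intro z
    simp only [pathSumF]
    exact add_nonneg (sq_nonneg _) (ih _)

/-- Squared version of the chain bound. -/
theorem chain_bound_sq (hG : RegTree G D) (hθ0 : 0 ≤ θ) (hθ1 : θ < 1) (hℓ : ∀ v, |ℓ v| < 1) (hℓ' : ∀ v, |ℓ' v| < 1)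
    (hW : IsConvexSet G W) (hne : W.Nonempty) (hW' : IsConvexSet G W') (hne' : W'.Nonempty) (hWW' : W ⊆ W')
    {z u : V} (hz : z ∈ W) (hu : u ∈ W) :
    (covG G θ ℓ W (fun A => spin A z) (fun A => spin A u) - covG G θ ℓ' W' (fun A => spin A z) (fun A => spin A u)) ^ 2 ≤
      ((G.dist z u : ℝ) + 1) * (θ ^ 2) ^ (G.dist z u - 1) * ((cvar G θ ℓ W u - cvar G θ ℓ' W' u) ^ 2 +
        pathSumF G (fun a b => fE G θ θ ℓ ℓ' W W' a b ^ 2) (G.dist z u) z u) := by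
  have hb := chain_bound hG hθ0 hθ1 hℓ hℓ' hW hne hW' hne' hWW' hu _ z rfl hz
  set n := G.dist z u with hn
  set Δ := covG G θ ℓ W (fun A => spin A z) (fun A => spin A u) - covG G θ ℓ' W' (fun A => spin A z) (fun A => spin A u)
  set dc := |cvar G θ ℓ W u - cvar G θ ℓ' W' u| with hdc
  set S := pathSumF G (fE G θ θ ℓ ℓ' W W') n z u with hS
  set T := pathSumF G (fun a b => fE G θ θ ℓ ℓ' W W' a b ^ 2) n z u with hT
  have hdcsq : (cvar G θ ℓ W u - cvar G θ ℓ' W' u) ^ 2 = dc ^ 2 := by rw [hdc, sq_abs]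
  rw [hdcsq]
  have hT0 : 0 ≤ T := pathSumF_sq_nonneg _ _ _ _
  have hST : S ^ 2 ≤ n * T := pathSumF_sq_le _ _ _ _
  have hS0 : 0 ≤ S := by
    have : ∀ (m : ℕ) (z : V), 0 ≤ pathSumF G (fE G θ θ ℓ ℓ' W W') m z u := by
      intro m
      induction m with
      | zero => intro z; simp [pathSumF]
      | succ m ih =>
        intro z
        simp only [pathSumF]
        refine add_nonneg ?_ (ih _)
        unfold fE
        positivity
    exact this _ _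
  have hdc0 : 0 ≤ dc := abs_nonneg _
  have hθ2 : θ ^ 2 ≤ 1 := by nlinarith
  have hθ20 : 0 ≤ θ ^ 2 := sq_nonneg θ
  cases hcase : n with
  | zero =>
    rw [hcase] at hb hST
    have hS00 : S = 0 := by rw [hS, hcase]; simp [pathSumF]
    rw [hS00] at hb
    simp only [pow_zero, one_mul, mul_zero, add_zero] at hb
    simp only [Nat.cast_zero, zero_add, Nat.zero_sub, pow_zero, mul_one, one_mul]
    have h1 : Δ ^ 2 ≤ dc ^ 2 := sq_le_sq.mpr (by rw [abs_of_nonneg hdc0]; exact hb)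
    linarith
  | succ m =>
    rw [hcase] at hb hST
    simp only [Nat.add_sub_cancel] at hb ⊢
    have hb2 : |Δ| ≤ θ ^ m * (θ * dc + S) := by
      calc |Δ| ≤ θ ^ (m + 1) * dc + θ ^ m * S := hb
        _ = θ ^ m * (θ * dc + S) := by rw [pow_succ]; ring
    have h0 : 0 ≤ θ ^ m * (θ * dc + S) := by positivity
    have h1 : Δ ^ 2 ≤ (θ ^ m * (θ * dc + S)) ^ 2 := sq_le_sq.mpr (by rwa [abs_of_nonneg h0])
    have h2 := add_sq_le_of_sq_le (a := θ * dc) (n := m + 1) (S := S) (T := T) hST hT0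
    have h3 : (θ ^ 2) ^ m * (θ * dc + S) ^ 2 ≤
        (θ ^ 2) ^ m * ((((m + 1 : ℕ) : ℝ) + 1) * ((θ * dc) ^ 2 + T)) :=
      mul_le_mul_of_nonneg_left h2 (by positivity)
    have h4 : (θ * dc) ^ 2 ≤ dc ^ 2 := by
      rw [mul_pow]
      nlinarith [sq_nonneg dc]
    have h5 : ((((m + 1 : ℕ) : ℝ) + 1) * ((θ * dc) ^ 2 + T)) ≤ ((((m + 1 : ℕ) : ℝ) + 1) * (dc ^ 2 + T)) := by
      apply mul_le_mul_of_nonneg_left _ (by positivity)
      linarith
    have h6 : (θ ^ m * (θ * dc + S)) ^ 2 = (θ ^ 2) ^ m * (θ * dc + S) ^ 2 := by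
      rw [mul_pow, ← pow_mul, ← pow_mul, mul_comm m 2]
    calc Δ ^ 2 ≤ (θ ^ 2) ^ m * (θ * dc + S) ^ 2 := by rw [← h6]; exact h1
      _ ≤ (θ ^ 2) ^ m * (((((m + 1 : ℕ) : ℝ) + 1) * ((θ * dc) ^ 2 + T))) := h3
      _ ≤ (θ ^ 2) ^ m * (((((m + 1 : ℕ) : ℝ) + 1) * (dc ^ 2 + T))) :=
        mul_le_mul_of_nonneg_left h5 (by positivity)
      _ = _ := by ring

/-- the pair observable, bound on the difference in terms of the vertex observable. -/
theorem pair_diff_bound (hG : RegTree G D) (hθ0 : 0 ≤ θ) (hθ1 : θ < 1) (hℓ : ∀ v, |ℓ v| < 1) (hℓ' : ∀ v, |ℓ' v| < 1)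
    (hW : IsConvexSet G W) (hne : W.Nonempty) (hW' : IsConvexSet G W') (hne' : W'.Nonempty) (hWW' : W ⊆ W')
    {z w u : V} (hzw : G.Adj z w) (hz : z ∈ W) (hw : w ∈ W) (hu : u ∈ W) (hside : G.dist w u < G.dist z u) :
    |covG G θ ℓ W (fun A => spin A z * spin A w) (fun A => spin A u) -
        covG G θ ℓ' W' (fun A => spin A z * spin A w) (fun A => spin A u)| ≤
      θ ^ G.dist w u * (|nCoef G θ ℓ W z w - nCoef G θ ℓ' W' z w| + |cvar G θ ℓ W w - cvar G θ ℓ' W' w|) +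
        |covG G θ ℓ W (fun A => spin A w) (fun A => spin A u) - covG G θ ℓ' W' (fun A => spin A w) (fun A => spin A u)| := by
  rw [covPair_eq_pathProd hG hθ0 hθ1 hℓ hW hne hzw hz hw hu hside,
    covPair_eq_pathProd hG hθ0 hθ1 hℓ' hW' hne' hzw (hWW' hz) (hWW' hw) (hWW' hu) hside,
    cov_eq_pathProd hG hθ0 hθ1 hℓ hW hne hw hu,
    cov_eq_pathProd hG hθ0 hθ1 hℓ' hW' hne' (hWW' hw) (hWW' hu)]
  set P := pathProd G (slope G θ ℓ W) w u
  set P' := pathProd G (slope G θ ℓ' W') w u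
  set n := nCoef G θ ℓ W z w
  set n' := nCoef G θ ℓ' W' z w
  set c := cvar G θ ℓ W w
  set c' := cvar G θ ℓ' W' w
  obtain ⟨hP0, hP1⟩ : 0 ≤ P ∧ P ≤ θ ^ G.dist w u := pathProd_bounds hG hθ0 hθ1 hℓ hW hne hw hu
  have hn' : |n'| ≤ c' := abs_nCoef_le hG hθ0 hθ1 hℓ' hW' hne' (hWW' hz) (hWW' hw)
  have e : n * P - n' * P' = (n - n') * P + n' * (P - P') := by ring
  rw [e]
  refine (abs_add_le _ _).trans ?_
  have h1 : |(n - n') * P| ≤ θ ^ G.dist w u * |n - n'| := by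
    rw [abs_mul, abs_of_nonneg hP0, mul_comm]
    exact mul_le_mul_of_nonneg_right hP1 (abs_nonneg _)
  have h2 : |n' * (P - P')| ≤ θ ^ G.dist w u * |c - c'| + |c * P - c' * P'| := by
    rw [abs_mul]
    have h3 : |n'| * |P - P'| ≤ c' * |P - P'| := mul_le_mul_of_nonneg_right hn' (abs_nonneg _)
    have hc0 : 0 ≤ c' := le_trans (abs_nonneg _) hn'
    have h4 : c' * |P - P'| = |c' * P - c' * P'| := by
      rw [← mul_sub, abs_mul, abs_of_nonneg hc0]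
    have h5 : c' * P - c' * P' = (c * P - c' * P') + (c' - c) * P := by ring
    have h6 : |c' * P - c' * P'| ≤ |c * P - c' * P'| + |(c' - c) * P| := by
      rw [h5]; exact abs_add_le _ _
    have h7 : |(c' - c) * P| ≤ θ ^ G.dist w u * |c - c'| := by
      rw [abs_mul, abs_of_nonneg hP0, abs_sub_comm, mul_comm]
      exact mul_le_mul_of_nonneg_right hP1 (abs_nonneg _)
    linarith
  linarith

/-- `|Cov'(σ_zσ_w,σ_u)| ≤ θ^r` -/
theorem abs_covPair_le_pow (hG : RegTree G D) (hθ0 : 0 ≤ θ) (hθ1 : θ < 1) (hℓ : ∀ v, |ℓ v| < 1)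
    (hW : IsConvexSet G W) (hne : W.Nonempty)
    {z w u : V} (hzw : G.Adj z w) (hz : z ∈ W) (hw : w ∈ W) (hu : u ∈ W) (hside : G.dist w u < G.dist z u) :
    |covG G θ ℓ W (fun A => spin A z * spin A w) (fun A => spin A u)| ≤ θ ^ G.dist w u := by
  rw [covPair_eq_pathProd hG hθ0 hθ1 hℓ hW hne hzw hz hw hu hside]
  obtain ⟨hP0, hP1⟩ := pathProd_bounds hG hθ0 hθ1 hℓ hW hne hw hu
  have hn := abs_nCoef_le hG hθ0 hθ1 hℓ hW hne hz hw
  have hc := cvar_le_one hG hθ0 hθ1 hℓ hW hne w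
  rw [abs_mul, abs_of_nonneg hP0]
  calc |nCoef G θ ℓ W z w| * pathProd G (slope G θ ℓ W) w u ≤ 1 * pathProd G (slope G θ ℓ W) w u :=
        mul_le_mul_of_nonneg_right (hn.trans hc) hP0
    _ ≤ _ := by rw [one_mul]; exact hP1

/-! Elementary difference bounds. -/

theorem abs_mag_le_of (hθ0 : 0 ≤ θ) (hθ1 : θ < 1) (hℓ : ∀ v, |ℓ v| < 1) (W : Finset V) (v : V) :
    |mag G θ ℓ W v| ≤ 1 := abs_mag_le' hθ0 hθ1 hℓ W v

theorem abs_tcor_le_of (hθ0 : 0 ≤ θ) (hθ1 : θ < 1) (hℓ : ∀ v, |ℓ v| < 1) (W : Finset V) (v w : V) :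
    |tcor G θ ℓ W v w| ≤ 1 :=
  abs_gibbs_le' hθ0 hθ1 hℓ W fun A _ => abs_spin_mul_le A v w

theorem abs_cvar_sub_le (hθ0 : 0 ≤ θ) (hθ1 : θ < 1) (hℓ : ∀ v, |ℓ v| < 1) (hℓ' : ∀ v, |ℓ' v| < 1) (y : V) :
    |cvar G θ ℓ W y - cvar G θ ℓ' W' y| ≤ 2 * |mag G θ ℓ W y - mag G θ ℓ' W' y| := by
  have h1 := abs_mag_le_of (G := G) hθ0 hθ1 hℓ W y
  have h2 := abs_mag_le_of (G := G) hθ0 hθ1 hℓ' W' y
  unfold cvar
  have e : 1 - mag G θ ℓ W y ^ 2 - (1 - mag G θ ℓ' W' y ^ 2) =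
      -(mag G θ ℓ W y - mag G θ ℓ' W' y) * (mag G θ ℓ W y + mag G θ ℓ' W' y) := by ring
  rw [e, abs_mul, abs_neg, mul_comm]
  apply mul_le_mul_of_nonneg_right _ (abs_nonneg _)
  have := abs_add_le (mag G θ ℓ W y) (mag G θ ℓ' W' y)
  linarith

theorem abs_mul_sub_le {a b a' b' : ℝ} (hb : |b| ≤ 1) (ha' : |a'| ≤ 1) :
    |a * b - a' * b'| ≤ |a - a'| + |b - b'| := by
  have e : a * b - a' * b' = (a - a') * b + a' * (b - b') := by ring
  rw [e]
  refine (abs_add_le _ _).trans ?_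
  rw [abs_mul, abs_mul]
  have h1 : |a - a'| * |b| ≤ |a - a'| * 1 := mul_le_mul_of_nonneg_left hb (abs_nonneg _)
  have h2 : |a'| * |b - b'| ≤ 1 * |b - b'| := mul_le_mul_of_nonneg_right ha' (abs_nonneg _)
  linarith

theorem abs_acov_sub_le (hθ0 : 0 ≤ θ) (hθ1 : θ < 1) (hℓ : ∀ v, |ℓ v| < 1) (hℓ' : ∀ v, |ℓ' v| < 1) (p y : V) :
    |acov G θ ℓ W p y - acov G θ ℓ' W' p y| ≤ |tcor G θ ℓ W p y - tcor G θ ℓ' W' p y| +
      (|mag G θ ℓ W p - mag G θ ℓ' W' p| + |mag G θ ℓ W y - mag G θ ℓ' W' y|) := by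
  unfold acov
  have h1 := abs_mul_sub_le (a := mag G θ ℓ W p) (b := mag G θ ℓ W y) (a' := mag G θ ℓ' W' p)
    (b' := mag G θ ℓ' W' y) (abs_mag_le_of hθ0 hθ1 hℓ W y) (abs_mag_le_of hθ0 hθ1 hℓ' W' p)
  have e : tcor G θ ℓ W p y - mag G θ ℓ W p * mag G θ ℓ W y -
      (tcor G θ ℓ' W' p y - mag G θ ℓ' W' p * mag G θ ℓ' W' y) =
      (tcor G θ ℓ W p y - tcor G θ ℓ' W' p y) -
        (mag G θ ℓ W p * mag G θ ℓ W y - mag G θ ℓ' W' p * mag G θ ℓ' W' y) := by ring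
  rw [e]
  exact (abs_sub _ _).trans (by linarith)

theorem abs_nCoef_sub_le (hθ0 : 0 ≤ θ) (hθ1 : θ < 1) (hℓ : ∀ v, |ℓ v| < 1) (hℓ' : ∀ v, |ℓ' v| < 1) (z w : V) :
    |nCoef G θ ℓ W z w - nCoef G θ ℓ' W' z w| ≤ |mag G θ ℓ W z - mag G θ ℓ' W' z| +
      (|tcor G θ ℓ W z w - tcor G θ ℓ' W' z w| + |mag G θ ℓ W w - mag G θ ℓ' W' w|) := by
  unfold nCoef
  have h1 := abs_mul_sub_le (a := tcor G θ ℓ W z w) (b := mag G θ ℓ W w) (a' := tcor G θ ℓ' W' z w)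
    (b' := mag G θ ℓ' W' w) (abs_mag_le_of hθ0 hθ1 hℓ W w) (abs_tcor_le_of hθ0 hθ1 hℓ' W' z w)
  have e : mag G θ ℓ W z - tcor G θ ℓ W z w * mag G θ ℓ W w -
      (mag G θ ℓ' W' z - tcor G θ ℓ' W' z w * mag G θ ℓ' W' w) =
      (mag G θ ℓ W z - mag G θ ℓ' W' z) -
        (tcor G θ ℓ W z w * mag G θ ℓ W w - tcor G θ ℓ' W' z w * mag G θ ℓ' W' w) := by ring
  rw [e]
  exact (abs_sub _ _).trans (by linarith)

theorem fE_sq_le (hθ0 : 0 ≤ θ) (hθ1 : θ < 1) (hℓ : ∀ v, |ℓ v| < 1) (hℓ' : ∀ v, |ℓ' v| < 1) (p y : V) :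
    fE G θ θ ℓ ℓ' W W' p y ^ 2 ≤ 3 * (tcor G θ ℓ W p y - tcor G θ ℓ' W' p y) ^ 2 +
      3 * (mag G θ ℓ W p - mag G θ ℓ' W' p) ^ 2 + 27 * (mag G θ ℓ W y - mag G θ ℓ' W' y) ^ 2 := by
  have h1 := abs_acov_sub_le (G := G) (W := W) (W' := W') hθ0 hθ1 hℓ hℓ' p y
  have h2 := abs_cvar_sub_le (G := G) (W := W) (W' := W') hθ0 hθ1 hℓ hℓ' y
  set dt := |tcor G θ ℓ W p y - tcor G θ ℓ' W' p y| with hdt
  set dp := |mag G θ ℓ W p - mag G θ ℓ' W' p| with hdp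
  set dy := |mag G θ ℓ W y - mag G θ ℓ' W' y| with hdy
  have e1 : (tcor G θ ℓ W p y - tcor G θ ℓ' W' p y) ^ 2 = dt ^ 2 := by rw [hdt, sq_abs]
  have e2 : (mag G θ ℓ W p - mag G θ ℓ' W' p) ^ 2 = dp ^ 2 := by rw [hdp, sq_abs]
  have e3 : (mag G θ ℓ W y - mag G θ ℓ' W' y) ^ 2 = dy ^ 2 := by rw [hdy, sq_abs]
  rw [e1, e2, e3]
  have hdt0 : 0 ≤ dt := abs_nonneg _
  have hdp0 : 0 ≤ dp := abs_nonneg _
  have hdy0 : 0 ≤ dy := abs_nonneg _
  unfold fE
  have h3 : θ * |cvar G θ ℓ W y - cvar G θ ℓ' W' y| ≤ 2 * dy := by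
    have h4 : θ * |cvar G θ ℓ W y - cvar G θ ℓ' W' y| ≤ 1 * |cvar G θ ℓ W y - cvar G θ ℓ' W' y| :=
      mul_le_mul_of_nonneg_right hθ1.le (abs_nonneg _)
    linarith
  have h5 : 0 ≤ |acov G θ ℓ W p y - acov G θ ℓ' W' p y| + θ * |cvar G θ ℓ W y - cvar G θ ℓ' W' y| := by
    positivity
  have h6 : |acov G θ ℓ W p y - acov G θ ℓ' W' p y| + θ * |cvar G θ ℓ W y - cvar G θ ℓ' W' y| ≤
      dt + dp + 3 * dy := by linarith
  have h7 := pow_le_pow_left₀ h5 h6 2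
  refine h7.trans ?_
  nlinarith [sq_nonneg (dt - dp), sq_nonneg (dt - 3 * dy), sq_nonneg (dp - 3 * dy)]

end Det2


/-! ### Random fields: measurability and integrals -/

section Rand

variable {Ω : Type*} [MeasurableSpace Ω] {P : Measure Ω} [IsProbabilityMeasure P]

/-- bounded measurable -/
def BdMeas (f : Ω → ℝ) : Prop := Measurable f ∧ ∃ C, ∀ x, |f x| ≤ C

theorem BdMeas.const (c : ℝ) : BdMeas (fun _ : Ω => c) := ⟨measurable_const, |c|, fun _ => le_rfl⟩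

theorem BdMeas.add {f g : Ω → ℝ} (hf : BdMeas f) (hg : BdMeas g) : BdMeas (fun x => f x + g x) := by
  obtain ⟨hf1, C, hC⟩ := hf
  obtain ⟨hg1, C', hC'⟩ := hg
  exact ⟨hf1.add hg1, C + C', fun x => (abs_add_le _ _).trans (add_le_add (hC x) (hC' x))⟩

theorem BdMeas.sub {f g : Ω → ℝ} (hf : BdMeas f) (hg : BdMeas g) : BdMeas (fun x => f x - g x) := by
  obtain ⟨hf1, C, hC⟩ := hf
  obtain ⟨hg1, C', hC'⟩ := hg
  exact ⟨hf1.sub hg1, C + C', fun x => (abs_sub _ _).trans (add_le_add (hC x) (hC' x))⟩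

theorem BdMeas.mul {f g : Ω → ℝ} (hf : BdMeas f) (hg : BdMeas g) : BdMeas (fun x => f x * g x) := by
  obtain ⟨hf1, C, hC⟩ := hf
  obtain ⟨hg1, C', hC'⟩ := hg
  refine ⟨hf1.mul hg1, C * C', fun x => ?_⟩
  rw [abs_mul]
  exact mul_le_mul (hC x) (hC' x) (abs_nonneg _) ((abs_nonneg _).trans (hC x))

theorem BdMeas.sq {f : Ω → ℝ} (hf : BdMeas f) : BdMeas (fun x => f x ^ 2) := by
  have := hf.mul hf
  simpa [pow_two] using this

theorem BdMeas.abs {f : Ω → ℝ} (hf : BdMeas f) : BdMeas (fun x => |f x|) := by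
  obtain ⟨hf1, C, hC⟩ := hf
  exact ⟨hf1.abs, C, fun x => by rw [abs_abs]; exact hC x⟩

theorem BdMeas.integrable {f : Ω → ℝ} (hf : BdMeas f) : Integrable f P := by
  obtain ⟨hf1, C, hC⟩ := hf
  exact Integrable.of_bound hf1.aestronglyMeasurable C (Filter.Eventually.of_forall fun x => by
    rw [Real.norm_eq_abs]; exact hC x)

theorem BdMeas.sum {ι : Type*} (s : Finset ι) {f : ι → Ω → ℝ} (hf : ∀ i ∈ s, BdMeas (f i)) :
    BdMeas (fun x => ∑ i ∈ s, f i x) := by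
  induction s using Finset.induction_on with
  | empty => simpa using BdMeas.const (0 : ℝ)
  | insert a s ha ih =>
    have : (fun x => ∑ i ∈ insert a s, f i x) = fun x => f a x + ∑ i ∈ s, f i x := by
      funext x
      rw [Finset.sum_insert ha]
    rw [this]
    exact (hf a (Finset.mem_insert_self a s)).add (ih fun i hi => hf i (Finset.mem_insert_of_mem hi))

variable {θ : ℝ} {W W' : Finset V} {ℓ ℓ' : Ω → V → ℝ}

theorem measurable_gibbs_rand (hm : ∀ v, Measurable fun x => ℓ x v) (f : Finset V → ℝ) :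
    Measurable fun x => gibbs G θ (ℓ x) W f := by
  unfold gibbs pfW expW
  apply Measurable.div
  · apply Finset.measurable_sum
    intro A _
    apply Measurable.mul _ measurable_const
    apply Measurable.mul measurable_const
    unfold siteW
    apply Finset.measurable_prod
    intro v _
    by_cases h : v ∈ A
    · simp only [h, if_true]
      exact measurable_const.add (hm v)
    · simp only [h, if_false]
      exact measurable_const.sub (hm v)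
  · apply Finset.measurable_sum
    intro A _
    apply Measurable.mul _ measurable_const
    apply Measurable.mul measurable_const
    unfold siteW
    apply Finset.measurable_prod
    intro v _
    by_cases h : v ∈ A
    · simp only [h, if_true]
      exact measurable_const.add (hm v)
    · simp only [h, if_false]
      exact measurable_const.sub (hm v)

variable (hθ0 : 0 ≤ θ) (hθ1 : θ < 1) (hm : ∀ v, Measurable fun x => ℓ x v) (hℓ : ∀ x v, |ℓ x v| < 1)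
include hθ0 hθ1 hm hℓ

theorem bm_gibbs {f : Finset V → ℝ} (hf : ∀ A, |f A| ≤ 1) (W : Finset V) :
    BdMeas (fun x => gibbs G θ (ℓ x) W f) :=
  ⟨measurable_gibbs_rand hm f, 1, fun x => abs_gibbs_le' hθ0 hθ1 (hℓ x) W fun A _ => hf A⟩

theorem bm_mag (W : Finset V) (v : V) : BdMeas (fun x => mag G θ (ℓ x) W v) :=
  bm_gibbs hθ0 hθ1 hm hℓ (fun A => (abs_spin A v).le) W

theorem bm_tcor (W : Finset V) (v w : V) : BdMeas (fun x => tcor G θ (ℓ x) W v w) :=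
  bm_gibbs hθ0 hθ1 hm hℓ (fun A => abs_spin_mul_le A v w) W

theorem bm_cvar (W : Finset V) (v : V) : BdMeas (fun x => cvar G θ (ℓ x) W v) :=
  (BdMeas.const 1).sub (bm_mag hθ0 hθ1 hm hℓ W v).sq

theorem bm_acov (W : Finset V) (v w : V) : BdMeas (fun x => acov G θ (ℓ x) W v w) :=
  (bm_tcor hθ0 hθ1 hm hℓ W v w).sub ((bm_mag hθ0 hθ1 hm hℓ W v).mul (bm_mag hθ0 hθ1 hm hℓ W w))

theorem bm_nCoef (W : Finset V) (v w : V) : BdMeas (fun x => nCoef G θ (ℓ x) W v w) :=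
  (bm_mag hθ0 hθ1 hm hℓ W v).sub ((bm_tcor hθ0 hθ1 hm hℓ W v w).mul (bm_mag hθ0 hθ1 hm hℓ W w))

theorem bm_cov {f g : Finset V → ℝ} (hf : ∀ A, |f A| ≤ 1) (hg : ∀ A, |g A| ≤ 1) (W : Finset V) :
    BdMeas (fun x => covG G θ (ℓ x) W f g) := by
  unfold covG
  refine (bm_gibbs hθ0 hθ1 hm hℓ (fun A => ?_) W).sub ((bm_gibbs hθ0 hθ1 hm hℓ hf W).mul (bm_gibbs hθ0 hθ1 hm hℓ hg W))
  rw [abs_mul]
  exact mul_le_one₀ (hf A) (abs_nonneg _) (hg A)

theorem sc_spin_abs_le (v : V) (A : Finset V) : |spin A v| ≤ 1 := (abs_spin A v).le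

end Rand

section Rand2

variable {Ω : Type*} [MeasurableSpace Ω] {P : Measure Ω} [IsProbabilityMeasure P]
variable {θ : ℝ} {W W' : Finset V} {ℓ ℓ' : Ω → V → ℝ}

theorem sc_spin_abs_le' (v : V) (A : Finset V) : |spin A v| ≤ 1 := (abs_spin A v).le

theorem spin_mul_abs_le (v w : V) (A : Finset V) : |spin A v * spin A w| ≤ 1 := abs_spin_mul_le A v w

variable (hθ0 : 0 ≤ θ) (hθ1 : θ < 1) (hm : ∀ v, Measurable fun x => ℓ x v) (hℓ : ∀ x v, |ℓ x v| < 1)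
  (hm' : ∀ v, Measurable fun x => ℓ' x v) (hℓ' : ∀ x v, |ℓ' x v| < 1)
include hθ0 hθ1 hm hℓ hm' hℓ'

theorem bm_fE (W W' : Finset V) (p y : V) :
    BdMeas (fun x => fE G θ θ (ℓ x) (ℓ' x) W W' p y) := by
  unfold fE
  exact ((bm_acov hθ0 hθ1 hm hℓ W p y).sub (bm_acov hθ0 hθ1 hm' hℓ' W' p y)).abs.add
    ((BdMeas.const θ).mul ((bm_cvar hθ0 hθ1 hm hℓ W y).sub (bm_cvar hθ0 hθ1 hm' hℓ' W' y)).abs)

end Rand2

theorem integrable_pathSumF {Ω : Type*} [MeasurableSpace Ω] {P : Measure Ω} (F : Ω → V → V → ℝ)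
    (hF : ∀ a b, Integrable (fun x => F x a b) P) (u : V) :
    ∀ (n : ℕ) (z : V), Integrable (fun x => pathSumF G (F x) n z u) P ∧
      ∫ x, pathSumF G (F x) n z u ∂P = pathSumF G (fun a b => ∫ x, F x a b ∂P) n z u := by
  intro n
  induction n with
  | zero => intro z; simp [pathSumF]
  | succ n ih =>
    intro z
    simp only [pathSumF]
    obtain ⟨h1, h2⟩ := ih (stepTo G z u)
    refine ⟨(hF _ _).add h1, ?_⟩
    rw [integral_add (hF _ _) h1, h2]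


/-! ### The weighted bounds -/

section Weighted

variable {Ω : Type*} [MeasurableSpace Ω] (P : Measure Ω) [IsProbabilityMeasure P]

/-- `E (Δm_z)²` -/
noncomputable def Em (G : SimpleGraph V) [G.LocallyFinite] (θ : ℝ) (ℓ ℓ' : Ω → V → ℝ) (W W' : Finset V) (z : V) : ℝ :=
  ∫ x, (mag G θ (ℓ x) W z - mag G θ (ℓ' x) W' z) ^ 2 ∂P

/-- `E (Δt_{zw})²` -/
noncomputable def Et (G : SimpleGraph V) [G.LocallyFinite] (θ : ℝ) (ℓ ℓ' : Ω → V → ℝ) (W W' : Finset V) (z w : V) : ℝ :=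
  ∫ x, (tcor G θ (ℓ x) W z w - tcor G θ (ℓ' x) W' z w) ^ 2 ∂P

variable {P}

theorem integral_lin3 {f g h : Ω → ℝ} (hf : Integrable f P) (hg : Integrable g P) (hh : Integrable h P) (a b c : ℝ) :
    ∫ x, (a * f x + b * g x + c * h x) ∂P = a * ∫ x, f x ∂P + b * ∫ x, g x ∂P + c * ∫ x, h x ∂P := by
  have e1 : ∫ x, (a * f x + b * g x + c * h x) ∂P = ∫ x, (a * f x + b * g x) ∂P + ∫ x, c * h x ∂P :=
    integral_add (f := fun x => a * f x + b * g x) (g := fun x => c * h x)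
      ((hf.const_mul a).add (hg.const_mul b)) (hh.const_mul c)
  have e2 : ∫ x, (a * f x + b * g x) ∂P = ∫ x, a * f x ∂P + ∫ x, b * g x ∂P :=
    integral_add (f := fun x => a * f x) (g := fun x => b * g x) (hf.const_mul a) (hg.const_mul b)
  rw [e1, e2, integral_const_mul, integral_const_mul, integral_const_mul]

variable {θ : ℝ} {W W' : Finset V} {ℓ ℓ' : Ω → V → ℝ}

/-- Hypothesis of the weighted estimate. -/
structure WtHyp (P : Measure Ω) (G : SimpleGraph V) [G.LocallyFinite] (θ : ℝ) (ℓ ℓ' : Ω → V → ℝ) (W W' : Finset V)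
    (ρ : V → ℕ) (κ Gb : ℝ) : Prop where
  hκ : 1 ≤ κ
  lip : ∀ a b, ρ a ≤ ρ b + G.dist a b
  out : ∀ z u, u ∉ W → ρ z ≤ G.dist z u
  em : ∀ z ∈ W, κ ^ ρ z * Em P G θ ℓ ℓ' W W' z ≤ Gb
  et : ∀ z ∈ W, ∀ w ∈ W, G.Adj z w → κ ^ ρ z * Et P G θ ℓ ℓ' W W' z w ≤ Gb
  hGb : 0 ≤ Gb

/-- The decay function. -/
noncomputable def W1 (θ κ : ℝ) (n : ℕ) : ℝ := ((n : ℝ) + 1) ^ 2 * (θ ^ 2) ^ (n - 1) * κ ^ n

theorem W1_nonneg {θ κ : ℝ} (hκ : 1 ≤ κ) (n : ℕ) : 0 ≤ W1 θ κ n := by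
  unfold W1
  have : 0 ≤ κ := by linarith
  positivity

theorem pow_mul_pow_le_W1 {θ κ : ℝ} (hθ0 : 0 ≤ θ) (hθ1 : θ < 1) (hκ : 1 ≤ κ) (n : ℕ) :
    (θ ^ 2) ^ n * κ ^ n ≤ W1 θ κ n := by
  unfold W1
  have hκ0 : 0 ≤ κ := by linarith
  have hθ2 : θ ^ 2 ≤ 1 := by nlinarith
  have hθ20 : 0 ≤ θ ^ 2 := sq_nonneg θ
  have h1 : (θ ^ 2) ^ n ≤ (θ ^ 2) ^ (n - 1) := pow_le_pow_of_le_one hθ20 hθ2 (Nat.sub_le _ _)
  have h2 : (1 : ℝ) ≤ ((n : ℝ) + 1) ^ 2 := by
    have : (0 : ℝ) ≤ n := Nat.cast_nonneg n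
    nlinarith
  have h3 : 0 ≤ (θ ^ 2) ^ (n - 1) * κ ^ n := by positivity
  calc (θ ^ 2) ^ n * κ ^ n ≤ (θ ^ 2) ^ (n - 1) * κ ^ n := mul_le_mul_of_nonneg_right h1 (by positivity)
    _ = 1 * ((θ ^ 2) ^ (n - 1) * κ ^ n) := by ring
    _ ≤ ((n : ℝ) + 1) ^ 2 * ((θ ^ 2) ^ (n - 1) * κ ^ n) := mul_le_mul_of_nonneg_right h2 h3
    _ = _ := by ring

variable (hθ0 : 0 ≤ θ) (hθ1 : θ < 1) (hm : ∀ v, Measurable fun x => ℓ x v) (hℓ : ∀ x v, |ℓ x v| < 1)
  (hm' : ∀ v, Measurable fun x => ℓ' x v) (hℓ' : ∀ x v, |ℓ' x v| < 1)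

include hθ0 hθ1 hm hℓ hm' hℓ'

theorem bm_dm (W W' : Finset V) (z : V) :
    BdMeas (fun x => (mag G θ (ℓ x) W z - mag G θ (ℓ' x) W' z) ^ 2) :=
  ((bm_mag hθ0 hθ1 hm hℓ W z).sub (bm_mag hθ0 hθ1 hm' hℓ' W' z)).sq

theorem bm_dt (W W' : Finset V) (z w : V) :
    BdMeas (fun x => (tcor G θ (ℓ x) W z w - tcor G θ (ℓ' x) W' z w) ^ 2) :=
  ((bm_tcor hθ0 hθ1 hm hℓ W z w).sub (bm_tcor hθ0 hθ1 hm' hℓ' W' z w)).sq

theorem integral_fE_sq_le (p y : V) :
    ∫ x, fE G θ θ (ℓ x) (ℓ' x) W W' p y ^ 2 ∂P ≤ 3 * Et P G θ ℓ ℓ' W W' p y + 3 * Em P G θ ℓ ℓ' W W' p +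
      27 * Em P G θ ℓ ℓ' W W' y := by
  have h1 := (bm_dt (G := G) hθ0 hθ1 hm hℓ hm' hℓ' W W' p y).integrable (P := P)
  have h2 := (bm_dm (G := G) hθ0 hθ1 hm hℓ hm' hℓ' W W' p).integrable (P := P)
  have h3 := (bm_dm (G := G) hθ0 hθ1 hm hℓ hm' hℓ' W W' y).integrable (P := P)
  unfold Et Em
  rw [← integral_lin3 h1 h2 h3]
  apply integral_mono
  · exact (bm_fE hθ0 hθ1 hm hℓ hm' hℓ' W W' p y).sq.integrable
  · exact ((h1.const_mul 3).add (h2.const_mul 3)).add (h3.const_mul 27)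
  · intro x
    exact fE_sq_le hθ0 hθ1 (hℓ x) (hℓ' x) p y

theorem integral_cvar_sq_le (y : V) :
    ∫ x, (cvar G θ (ℓ x) W y - cvar G θ (ℓ' x) W' y) ^ 2 ∂P ≤ 4 * Em P G θ ℓ ℓ' W W' y := by
  unfold Em
  rw [← integral_const_mul]
  apply integral_mono
  · exact ((bm_cvar hθ0 hθ1 hm hℓ W y).sub (bm_cvar hθ0 hθ1 hm' hℓ' W' y)).sq.integrable
  · exact (bm_dm hθ0 hθ1 hm hℓ hm' hℓ' W W' y).integrable.const_mul 4
  · intro x
    have h := abs_cvar_sub_le (G := G) (W := W) (W' := W') hθ0 hθ1 (hℓ x) (hℓ' x) y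
    have h2 := pow_le_pow_left₀ (abs_nonneg _) h 2
    rw [sq_abs, mul_pow, sq_abs] at h2
    simpa using (by nlinarith : (cvar G θ (ℓ x) W y - cvar G θ (ℓ' x) W' y) ^ 2 ≤
      4 * (mag G θ (ℓ x) W y - mag G θ (ℓ' x) W' y) ^ 2)

theorem integral_nCoef_sq_le (z w : V) :
    ∫ x, (nCoef G θ (ℓ x) W z w - nCoef G θ (ℓ' x) W' z w) ^ 2 ∂P ≤
      3 * Em P G θ ℓ ℓ' W W' z + 3 * Et P G θ ℓ ℓ' W W' z w + 3 * Em P G θ ℓ ℓ' W W' w := by
  have h1 := (bm_dt (G := G) hθ0 hθ1 hm hℓ hm' hℓ' W W' z w).integrable (P := P)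
  have h2 := (bm_dm (G := G) hθ0 hθ1 hm hℓ hm' hℓ' W W' z).integrable (P := P)
  have h3 := (bm_dm (G := G) hθ0 hθ1 hm hℓ hm' hℓ' W W' w).integrable (P := P)
  unfold Et Em
  rw [← integral_lin3 h2 h1 h3]
  apply integral_mono
  · exact ((bm_nCoef hθ0 hθ1 hm hℓ W z w).sub (bm_nCoef hθ0 hθ1 hm' hℓ' W' z w)).sq.integrable
  · exact ((h2.const_mul 3).add (h1.const_mul 3)).add (h3.const_mul 3)
  · intro x
    have h := abs_nCoef_sub_le (G := G) (W := W) (W' := W') hθ0 hθ1 (hℓ x) (hℓ' x) z w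
    have h0 : 0 ≤ |mag G θ (ℓ x) W z - mag G θ (ℓ' x) W' z| + (|tcor G θ (ℓ x) W z w - tcor G θ (ℓ' x) W' z w| + |mag G θ (ℓ x) W w - mag G θ (ℓ' x) W' w|) := by positivity
    have h2 := pow_le_pow_left₀ (abs_nonneg _) h 2
    rw [sq_abs] at h2
    refine h2.trans ?_
    have e1 := sq_abs (mag G θ (ℓ x) W z - mag G θ (ℓ' x) W' z)
    have e2 := sq_abs (tcor G θ (ℓ x) W z w - tcor G θ (ℓ' x) W' z w)
    have e3 := sq_abs (mag G θ (ℓ x) W w - mag G θ (ℓ' x) W' w)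
    beta_reduce
    rw [← e1, ← e2, ← e3]
    nlinarith [sq_nonneg (|mag G θ (ℓ x) W z - mag G θ (ℓ' x) W' z| - |tcor G θ (ℓ x) W z w - tcor G θ (ℓ' x) W' z w|),
      sq_nonneg (|mag G θ (ℓ x) W z - mag G θ (ℓ' x) W' z| - |mag G θ (ℓ x) W w - mag G θ (ℓ' x) W' w|),
      sq_nonneg (|tcor G θ (ℓ x) W z w - tcor G θ (ℓ' x) W' z w| - |mag G θ (ℓ x) W w - mag G θ (ℓ' x) W' w|)]

variable {ρ : V → ℕ} {κ Gb : ℝ} (hH : WtHyp P G θ ℓ ℓ' W W' ρ κ Gb)
include hH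

omit hθ0 hθ1 hm hℓ hm' hℓ' in
theorem WtHyp.weight_le {a b : V} : κ ^ ρ a ≤ κ ^ G.dist a b * κ ^ ρ b := by
  rw [← pow_add]
  apply pow_le_pow_right₀ hH.hκ
  have := hH.lip a b
  omega

omit hθ0 hθ1 hm hℓ hm' hℓ' in
theorem WtHyp.weight_adj {a b : V} (hab : G.Adj a b) : κ ^ ρ a ≤ κ * κ ^ ρ b := by
  have := hH.weight_le (a := a) (b := b)
  rwa [SimpleGraph.dist_eq_one_iff_adj.mpr hab, pow_one] at this

/-- bound on one edge of the chain -/
theorem weighted_I_le {p y : V} (hpy : G.Adj p y) (hp : p ∈ W) (hy : y ∈ W) :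
    κ ^ ρ p * ∫ x, fE G θ θ (ℓ x) (ℓ' x) W W' p y ^ 2 ∂P ≤ 33 * κ * Gb := by
  have hκ := hH.hκ
  have hκ0 : 0 ≤ κ := by linarith
  have hp0 : 0 ≤ κ ^ ρ p := by positivity
  have h := mul_le_mul_of_nonneg_left (integral_fE_sq_le (G := G) (W := W) (W' := W') (P := P) hθ0 hθ1 hm hℓ hm' hℓ' p y) hp0
  refine h.trans ?_
  have h1 := hH.et p hp y hy hpy
  have h2 := hH.em p hp
  have h3 := hH.em y hy
  have hEy : 0 ≤ Em P G θ ℓ ℓ' W W' y := integral_nonneg fun x => sq_nonneg _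
  have h4 : κ ^ ρ p * Em P G θ ℓ ℓ' W W' y ≤ κ * Gb := by
    calc κ ^ ρ p * Em P G θ ℓ ℓ' W W' y ≤ (κ * κ ^ ρ y) * Em P G θ ℓ ℓ' W W' y :=
          mul_le_mul_of_nonneg_right (hH.weight_adj hpy) hEy
      _ = κ * (κ ^ ρ y * Em P G θ ℓ ℓ' W W' y) := by ring
      _ ≤ κ * Gb := mul_le_mul_of_nonneg_left h3 hκ0
  have hG := hH.hGb
  nlinarith

/-- bound on the sum along the chain -/
theorem weighted_path_le (hG : RegTree G D) (hW : IsConvexSet G W) {u : V} (hu : u ∈ W) :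
    ∀ (n : ℕ) (z : V), G.dist z u = n → z ∈ W →
      κ ^ ρ z * pathSumF G (fun a b => ∫ x, fE G θ θ (ℓ x) (ℓ' x) W W' a b ^ 2 ∂P) n z u ≤
        n * (33 * κ * Gb) * κ ^ n := by
  have hκ := hH.hκ
  have hκ0 : 0 ≤ κ := by linarith
  have hGb := hH.hGb
  intro n
  induction n with
  | zero => intro z _ _; simp [pathSumF]
  | succ n ih =>
    intro z hn hz
    have hzu : z ≠ u := by
      rintro rfl
      simp at hn
    have hadj := hG.stepTo_adj hzu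
    have hd := hG.stepTo_dist hzu
    have hy := stepTo_mem_convex hG hW hz hu hzu
    have hdy : G.dist (stepTo G z u) u = n := by omega
    have i := ih (stepTo G z u) hdy hy
    simp only [pathSumF]
    set y := stepTo G z u
    set PS := pathSumF G (fun a b => ∫ x, fE G θ θ (ℓ x) (ℓ' x) W W' a b ^ 2 ∂P) n y u
    have hI := weighted_I_le hθ0 hθ1 hm hℓ hm' hℓ' hH hadj hz hy
    have hPS : 0 ≤ PS := by
      have : ∀ (m : ℕ) (z : V), 0 ≤ pathSumF G (fun a b => ∫ x, fE G θ θ (ℓ x) (ℓ' x) W W' a b ^ 2 ∂P) m z u := by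
        intro m
        induction m with
        | zero => intro z; simp [pathSumF]
        | succ m ihm =>
          intro z
          simp only [pathSumF]
          exact add_nonneg (integral_nonneg fun x => sq_nonneg _) (ihm _)
      exact this _ _
    have h1 : κ ^ ρ z * PS ≤ κ * (κ ^ ρ y * PS) := by
      calc κ ^ ρ z * PS ≤ (κ * κ ^ ρ y) * PS := mul_le_mul_of_nonneg_right (hH.weight_adj hadj) hPS
        _ = _ := by ring
    have h2 : κ * (κ ^ ρ y * PS) ≤ κ * (n * (33 * κ * Gb) * κ ^ n) := mul_le_mul_of_nonneg_left i hκ0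
    have h3 : (1 : ℝ) ≤ κ ^ (n + 1) := one_le_pow₀ hκ
    have h4 : 0 ≤ 33 * κ * Gb := by positivity
    rw [mul_add]
    push_cast
    have h5 : κ * (n * (33 * κ * Gb) * κ ^ n) = n * (33 * κ * Gb) * κ ^ (n + 1) := by
      rw [pow_succ]; ring
    have h6 : 33 * κ * Gb ≤ (33 * κ * Gb) * κ ^ (n + 1) := le_mul_of_one_le_right h4 h3
    rw [h5] at h2
    nlinarith

/-- **The main estimate for the vertex observable.** -/
theorem weighted_cov_le (hG : RegTree G D) (hW : IsConvexSet G W) (hne : W.Nonempty) (hW' : IsConvexSet G W')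
    (hne' : W'.Nonempty) (hWW' : W ⊆ W') {z u : V} (hz : z ∈ W) (hu : u ∈ W) :
    κ ^ ρ z * ∫ x, (covG G θ (ℓ x) W (fun A => spin A z) (fun A => spin A u) -
        covG G θ (ℓ' x) W' (fun A => spin A z) (fun A => spin A u)) ^ 2 ∂P ≤
      (4 + 33 * κ) * Gb * W1 θ κ (G.dist z u) := by
  have hκ := hH.hκ
  have hκ0 : 0 ≤ κ := by linarith
  have hGb := hH.hGb
  set n := G.dist z u with hn
  have hzp : 0 ≤ κ ^ ρ z := by positivity
  have hθ20 : 0 ≤ θ ^ 2 := sq_nonneg θ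
  -- integrate the pointwise bound
  have hF : ∀ a b, Integrable (fun x => fE G θ θ (ℓ x) (ℓ' x) W W' a b ^ 2) P := fun a b =>
    (bm_fE hθ0 hθ1 hm hℓ hm' hℓ' W W' a b).sq.integrable
  obtain ⟨hPS1, hPS2⟩ := integrable_pathSumF (G := G) (fun x a b => fE G θ θ (ℓ x) (ℓ' x) W W' a b ^ 2) hF u n z
  have hcv := ((bm_cvar (G := G) hθ0 hθ1 hm hℓ W u).sub (bm_cvar (G := G) hθ0 hθ1 hm' hℓ' W' u)).sq.integrable (P := P)
  have hint : ∫ x, (covG G θ (ℓ x) W (fun A => spin A z) (fun A => spin A u) -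
        covG G θ (ℓ' x) W' (fun A => spin A z) (fun A => spin A u)) ^ 2 ∂P ≤
      ((n : ℝ) + 1) * (θ ^ 2) ^ (n - 1) * (4 * Em P G θ ℓ ℓ' W W' u +
        pathSumF G (fun a b => ∫ x, fE G θ θ (ℓ x) (ℓ' x) W W' a b ^ 2 ∂P) n z u) := by
    have h1 : ∫ x, (covG G θ (ℓ x) W (fun A => spin A z) (fun A => spin A u) -
        covG G θ (ℓ' x) W' (fun A => spin A z) (fun A => spin A u)) ^ 2 ∂P ≤
        ∫ x, ((n : ℝ) + 1) * (θ ^ 2) ^ (n - 1) * ((cvar G θ (ℓ x) W u - cvar G θ (ℓ' x) W' u) ^ 2 +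
          pathSumF G (fun a b => fE G θ θ (ℓ x) (ℓ' x) W W' a b ^ 2) n z u) ∂P := by
      apply integral_mono
      · exact ((bm_cov hθ0 hθ1 hm hℓ (sc_spin_abs_le' z) (sc_spin_abs_le' u) W).sub
          (bm_cov hθ0 hθ1 hm' hℓ' (sc_spin_abs_le' z) (sc_spin_abs_le' u) W')).sq.integrable
      · exact (hcv.add hPS1).const_mul _
      · intro x
        exact chain_bound_sq hG hθ0 hθ1 (hℓ x) (hℓ' x) hW hne hW' hne' hWW' hz hu
    refine h1.trans ?_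
    rw [integral_const_mul, integral_add hcv hPS1, hPS2]
    apply mul_le_mul_of_nonneg_left _ (by positivity)
    have h2 := integral_cvar_sq_le (G := G) (W := W) (W' := W') (P := P) hθ0 hθ1 hm hℓ hm' hℓ' u
    linarith
  have hP := weighted_path_le hθ0 hθ1 hm hℓ hm' hℓ' hH hG hW hu n z hn.symm hz
  have hEu : κ ^ ρ z * Em P G θ ℓ ℓ' W W' u ≤ κ ^ n * Gb := by
    have hEu0 : 0 ≤ Em P G θ ℓ ℓ' W W' u := integral_nonneg fun x => sq_nonneg _
    calc κ ^ ρ z * Em P G θ ℓ ℓ' W W' u ≤ (κ ^ n * κ ^ ρ u) * Em P G θ ℓ ℓ' W W' u :=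
          mul_le_mul_of_nonneg_right hH.weight_le hEu0
      _ = κ ^ n * (κ ^ ρ u * Em P G θ ℓ ℓ' W W' u) := by ring
      _ ≤ κ ^ n * Gb := mul_le_mul_of_nonneg_left (hH.em u hu) (by positivity)
  have hκn : 0 ≤ κ ^ n := by positivity
  have hn0 : (0 : ℝ) ≤ n := Nat.cast_nonneg n
  have hfac : 0 ≤ ((n : ℝ) + 1) * (θ ^ 2) ^ (n - 1) := by positivity
  calc κ ^ ρ z * ∫ x, (covG G θ (ℓ x) W (fun A => spin A z) (fun A => spin A u) -
        covG G θ (ℓ' x) W' (fun A => spin A z) (fun A => spin A u)) ^ 2 ∂P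
      ≤ κ ^ ρ z * (((n : ℝ) + 1) * (θ ^ 2) ^ (n - 1) * (4 * Em P G θ ℓ ℓ' W W' u +
        pathSumF G (fun a b => ∫ x, fE G θ θ (ℓ x) (ℓ' x) W W' a b ^ 2 ∂P) n z u)) :=
        mul_le_mul_of_nonneg_left hint hzp
    _ = ((n : ℝ) + 1) * (θ ^ 2) ^ (n - 1) * (4 * (κ ^ ρ z * Em P G θ ℓ ℓ' W W' u) +
        κ ^ ρ z * pathSumF G (fun a b => ∫ x, fE G θ θ (ℓ x) (ℓ' x) W W' a b ^ 2 ∂P) n z u) := by ring
    _ ≤ ((n : ℝ) + 1) * (θ ^ 2) ^ (n - 1) * (4 * (κ ^ n * Gb) + n * (33 * κ * Gb) * κ ^ n) := by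
        apply mul_le_mul_of_nonneg_left _ hfac
        linarith
    _ ≤ ((n : ℝ) + 1) * (θ ^ 2) ^ (n - 1) * (((n : ℝ) + 1) * ((4 + 33 * κ) * Gb * κ ^ n)) := by
        apply mul_le_mul_of_nonneg_left _ hfac
        have h0 : 0 ≤ Gb * κ ^ n := by positivity
        have h1 : 0 ≤ κ * (Gb * κ ^ n) := by positivity
        nlinarith [mul_nonneg hn0 h0]
    _ = (4 + 33 * κ) * Gb * W1 θ κ n := by
        unfold W1
        ring

end Weighted


section Weighted2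

variable {Ω : Type*} [MeasurableSpace Ω] {P : Measure Ω} [IsProbabilityMeasure P]
variable {θ : ℝ} {W W' : Finset V} {ℓ ℓ' : Ω → V → ℝ}
variable (hθ0 : 0 ≤ θ) (hθ1 : θ < 1) (hm : ∀ v, Measurable fun x => ℓ x v) (hℓ : ∀ x v, |ℓ x v| < 1)
  (hm' : ∀ v, Measurable fun x => ℓ' x v) (hℓ' : ∀ x v, |ℓ' x v| < 1)
variable {ρ : V → ℕ} {κ Gb : ℝ} (hH : WtHyp P G θ ℓ ℓ' W W' ρ κ Gb)

include hθ0 hθ1 hm hℓ hm' hℓ' hH

/-- **The main estimate for the pair observable.** -/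
theorem weighted_pair_le (hG : RegTree G D) (hW : IsConvexSet G W) (hne : W.Nonempty) (hW' : IsConvexSet G W')
    (hne' : W'.Nonempty) (hWW' : W ⊆ W') {z w u o : V} (hzw : G.Adj z w) (hz : z ∈ W) (hw : w ∈ W) (hu : u ∈ W)
    (hside : G.dist w u < G.dist z u) (ho1 : ρ o ≤ ρ z + 1) (ho2 : ρ o ≤ ρ w + 1)
    (ho3 : κ ^ ρ o * Et P G θ ℓ ℓ' W W' z w ≤ κ * Gb) :
    κ ^ ρ o * ∫ x, (covG G θ (ℓ x) W (fun A => spin A z * spin A w) (fun A => spin A u) -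
        covG G θ (ℓ' x) W' (fun A => spin A z * spin A w) (fun A => spin A u)) ^ 2 ∂P ≤
      3 * κ * (17 + 33 * κ) * Gb * W1 θ κ (G.dist w u) := by
  have hκ := hH.hκ
  have hκ0 : 0 ≤ κ := by linarith
  have hGb := hH.hGb
  set r := G.dist w u with hr
  have hθ20 : 0 ≤ θ ^ 2 := sq_nonneg θ
  have hop : 0 ≤ κ ^ ρ o := by positivity
  have hcovw := ((bm_cov (G := G) hθ0 hθ1 hm hℓ (sc_spin_abs_le' w) (sc_spin_abs_le' u) W).sub
    (bm_cov (G := G) hθ0 hθ1 hm' hℓ' (sc_spin_abs_le' w) (sc_spin_abs_le' u) W')).sq.integrable (P := P)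
  have hn := ((bm_nCoef (G := G) hθ0 hθ1 hm hℓ W z w).sub (bm_nCoef (G := G) hθ0 hθ1 hm' hℓ' W' z w)).sq.integrable (P := P)
  have hc := ((bm_cvar (G := G) hθ0 hθ1 hm hℓ W w).sub (bm_cvar (G := G) hθ0 hθ1 hm' hℓ' W' w)).sq.integrable (P := P)
  have hint : ∫ x, (covG G θ (ℓ x) W (fun A => spin A z * spin A w) (fun A => spin A u) -
        covG G θ (ℓ' x) W' (fun A => spin A z * spin A w) (fun A => spin A u)) ^ 2 ∂P ≤
      3 * ((θ ^ 2) ^ r * ∫ x, (nCoef G θ (ℓ x) W z w - nCoef G θ (ℓ' x) W' z w) ^ 2 ∂P) +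
      3 * ((θ ^ 2) ^ r * ∫ x, (cvar G θ (ℓ x) W w - cvar G θ (ℓ' x) W' w) ^ 2 ∂P) +
      3 * ∫ x, (covG G θ (ℓ x) W (fun A => spin A w) (fun A => spin A u) -
        covG G θ (ℓ' x) W' (fun A => spin A w) (fun A => spin A u)) ^ 2 ∂P := by
    have e0 := integral_lin3 hn hc hcovw (3 * (θ ^ 2) ^ r) (3 * (θ ^ 2) ^ r) 3
    have e1 : 3 * ((θ ^ 2) ^ r * ∫ x, (nCoef G θ (ℓ x) W z w - nCoef G θ (ℓ' x) W' z w) ^ 2 ∂P) +
      3 * ((θ ^ 2) ^ r * ∫ x, (cvar G θ (ℓ x) W w - cvar G θ (ℓ' x) W' w) ^ 2 ∂P) +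
      3 * ∫ x, (covG G θ (ℓ x) W (fun A => spin A w) (fun A => spin A u) -
        covG G θ (ℓ' x) W' (fun A => spin A w) (fun A => spin A u)) ^ 2 ∂P =
      ∫ x, (3 * (θ ^ 2) ^ r * (nCoef G θ (ℓ x) W z w - nCoef G θ (ℓ' x) W' z w) ^ 2 +
        3 * (θ ^ 2) ^ r * (cvar G θ (ℓ x) W w - cvar G θ (ℓ' x) W' w) ^ 2 +
        3 * (covG G θ (ℓ x) W (fun A => spin A w) (fun A => spin A u) -
        covG G θ (ℓ' x) W' (fun A => spin A w) (fun A => spin A u)) ^ 2) ∂P := by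
      rw [e0]; ring
    rw [e1]
    apply integral_mono
    · exact ((bm_cov hθ0 hθ1 hm hℓ (fun A => abs_spin_mul_le A z w) (sc_spin_abs_le' u) W).sub
        (bm_cov hθ0 hθ1 hm' hℓ' (fun A => abs_spin_mul_le A z w) (sc_spin_abs_le' u) W')).sq.integrable
    · exact ((hn.const_mul _).add (hc.const_mul _)).add (hcovw.const_mul 3)
    · intro x
      have h := pair_diff_bound hG hθ0 hθ1 (hℓ x) (hℓ' x) hW hne hW' hne' hWW' hzw hz hw hu hside
      set A1 := nCoef G θ (ℓ x) W z w - nCoef G θ (ℓ' x) W' z w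
      set A2 := cvar G θ (ℓ x) W w - cvar G θ (ℓ' x) W' w
      set A3 := covG G θ (ℓ x) W (fun A => spin A w) (fun A => spin A u) -
        covG G θ (ℓ' x) W' (fun A => spin A w) (fun A => spin A u)
      have h2 := pow_le_pow_left₀ (abs_nonneg _) h 2
      rw [sq_abs] at h2
      refine h2.trans ?_
      beta_reduce
      rw [← sq_abs A1, ← sq_abs A2, ← sq_abs A3, ← hr]
      have e : (θ ^ 2) ^ r = (θ ^ r) ^ 2 := by rw [← pow_mul, ← pow_mul, mul_comm]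
      rw [e]
      have hp : 0 ≤ θ ^ r := pow_nonneg hθ0 _
      generalize θ ^ r = p at *
      generalize |A1| = a at *
      generalize |A2| = b at *
      generalize |A3| = c at *
      nlinarith [sq_nonneg (p * a - p * b), sq_nonneg (p * a - c), sq_nonneg (p * b - c)]
  have hEz : κ ^ ρ o * Em P G θ ℓ ℓ' W W' z ≤ κ * Gb := by
    have h0 : 0 ≤ Em P G θ ℓ ℓ' W W' z := integral_nonneg fun x => sq_nonneg _
    have h1 : κ ^ ρ o ≤ κ * κ ^ ρ z := by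
      rw [← pow_succ']
      exact pow_le_pow_right₀ hκ ho1
    calc κ ^ ρ o * Em P G θ ℓ ℓ' W W' z ≤ (κ * κ ^ ρ z) * Em P G θ ℓ ℓ' W W' z := mul_le_mul_of_nonneg_right h1 h0
      _ = κ * (κ ^ ρ z * Em P G θ ℓ ℓ' W W' z) := by ring
      _ ≤ κ * Gb := mul_le_mul_of_nonneg_left (hH.em z hz) hκ0
  have hEw : κ ^ ρ o * Em P G θ ℓ ℓ' W W' w ≤ κ * Gb := by
    have h0 : 0 ≤ Em P G θ ℓ ℓ' W W' w := integral_nonneg fun x => sq_nonneg _
    have h1 : κ ^ ρ o ≤ κ * κ ^ ρ w := by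
      rw [← pow_succ']
      exact pow_le_pow_right₀ hκ ho2
    calc κ ^ ρ o * Em P G θ ℓ ℓ' W W' w ≤ (κ * κ ^ ρ w) * Em P G θ ℓ ℓ' W W' w := mul_le_mul_of_nonneg_right h1 h0
      _ = κ * (κ ^ ρ w * Em P G θ ℓ ℓ' W W' w) := by ring
      _ ≤ κ * Gb := mul_le_mul_of_nonneg_left (hH.em w hw) hκ0
  have hIn : κ ^ ρ o * ∫ x, (nCoef G θ (ℓ x) W z w - nCoef G θ (ℓ' x) W' z w) ^ 2 ∂P ≤ 9 * (κ * Gb) := by
    have h := mul_le_mul_of_nonneg_left (integral_nCoef_sq_le (G := G) (W := W) (W' := W') (P := P) hθ0 hθ1 hm hℓ hm' hℓ' z w) hop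
    nlinarith
  have hIc : κ ^ ρ o * ∫ x, (cvar G θ (ℓ x) W w - cvar G θ (ℓ' x) W' w) ^ 2 ∂P ≤ 4 * (κ * Gb) := by
    have h := mul_le_mul_of_nonneg_left (integral_cvar_sq_le (G := G) (W := W) (W' := W') (P := P) hθ0 hθ1 hm hℓ hm' hℓ' w) hop
    nlinarith
  have hIcov : κ ^ ρ o * ∫ x, (covG G θ (ℓ x) W (fun A => spin A w) (fun A => spin A u) -
        covG G θ (ℓ' x) W' (fun A => spin A w) (fun A => spin A u)) ^ 2 ∂P ≤
      κ * ((4 + 33 * κ) * Gb * W1 θ κ r) := by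
    have h0 : 0 ≤ ∫ x, (covG G θ (ℓ x) W (fun A => spin A w) (fun A => spin A u) -
        covG G θ (ℓ' x) W' (fun A => spin A w) (fun A => spin A u)) ^ 2 ∂P := integral_nonneg fun x => sq_nonneg _
    have h1 : κ ^ ρ o ≤ κ * κ ^ ρ w := by
      rw [← pow_succ']
      exact pow_le_pow_right₀ hκ ho2
    have h2 := weighted_cov_le hθ0 hθ1 hm hℓ hm' hℓ' hH hG hW hne hW' hne' hWW' hw hu
    calc _ ≤ (κ * κ ^ ρ w) * _ := mul_le_mul_of_nonneg_right h1 h0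
      _ = κ * (κ ^ ρ w * _) := by ring
      _ ≤ _ := mul_le_mul_of_nonneg_left h2 hκ0
  have hW1 : (θ ^ 2) ^ r ≤ W1 θ κ r := by
    have h1 := pow_mul_pow_le_W1 hθ0 hθ1 hκ r
    have h2 : (1 : ℝ) ≤ κ ^ r := one_le_pow₀ hκ
    have h3 : 0 ≤ (θ ^ 2) ^ r := by positivity
    nlinarith
  have hW10 : 0 ≤ (θ ^ 2) ^ r := by positivity
  have hW1n := W1_nonneg (θ := θ) hκ r
  have hkG : 0 ≤ κ * Gb := by positivity
  have step1 := mul_le_mul_of_nonneg_left hint hop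
  refine step1.trans ?_
  have e : κ ^ ρ o * (3 * ((θ ^ 2) ^ r * ∫ x, (nCoef G θ (ℓ x) W z w - nCoef G θ (ℓ' x) W' z w) ^ 2 ∂P) +
      3 * ((θ ^ 2) ^ r * ∫ x, (cvar G θ (ℓ x) W w - cvar G θ (ℓ' x) W' w) ^ 2 ∂P) +
      3 * ∫ x, (covG G θ (ℓ x) W (fun A => spin A w) (fun A => spin A u) -
        covG G θ (ℓ' x) W' (fun A => spin A w) (fun A => spin A u)) ^ 2 ∂P) =
      3 * ((θ ^ 2) ^ r * (κ ^ ρ o * ∫ x, (nCoef G θ (ℓ x) W z w - nCoef G θ (ℓ' x) W' z w) ^ 2 ∂P)) +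
      3 * ((θ ^ 2) ^ r * (κ ^ ρ o * ∫ x, (cvar G θ (ℓ x) W w - cvar G θ (ℓ' x) W' w) ^ 2 ∂P)) +
      3 * (κ ^ ρ o * ∫ x, (covG G θ (ℓ x) W (fun A => spin A w) (fun A => spin A u) -
        covG G θ (ℓ' x) W' (fun A => spin A w) (fun A => spin A u)) ^ 2 ∂P) := by ring
  rw [e]
  have a1 : (θ ^ 2) ^ r * (κ ^ ρ o * ∫ x, (nCoef G θ (ℓ x) W z w - nCoef G θ (ℓ' x) W' z w) ^ 2 ∂P) ≤
      W1 θ κ r * (9 * (κ * Gb)) := by
    have h0 : 0 ≤ κ ^ ρ o * ∫ x, (nCoef G θ (ℓ x) W z w - nCoef G θ (ℓ' x) W' z w) ^ 2 ∂P :=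
      mul_nonneg hop (integral_nonneg fun x => sq_nonneg _)
    exact mul_le_mul hW1 hIn h0 hW1n
  have a2 : (θ ^ 2) ^ r * (κ ^ ρ o * ∫ x, (cvar G θ (ℓ x) W w - cvar G θ (ℓ' x) W' w) ^ 2 ∂P) ≤
      W1 θ κ r * (4 * (κ * Gb)) := by
    have h0 : 0 ≤ κ ^ ρ o * ∫ x, (cvar G θ (ℓ x) W w - cvar G θ (ℓ' x) W' w) ^ 2 ∂P :=
      mul_nonneg hop (integral_nonneg fun x => sq_nonneg _)
    exact mul_le_mul hW1 hIc h0 hW1n
  have : 3 * κ * (17 + 33 * κ) * Gb * W1 θ κ r =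
      3 * (W1 θ κ r * (9 * (κ * Gb))) + 3 * (W1 θ κ r * (4 * (κ * Gb))) + 3 * (κ * ((4 + 33 * κ) * Gb * W1 θ κ r)) := by
    ring
  rw [this]
  linarith

omit hθ0 hθ1 hm hℓ hm' hℓ' hH in
theorem integral_psi_nonneg (θ : ℝ) (W W' : Finset V) (ε : ℝ) (f f' : Finset V → ℝ) (ℓ ℓ' : V → ℝ) (u : V) :
    0 ≤ ∫ U in (0 : ℝ)..1, psiU G θ θ W W' ε f f' ℓ ℓ' u U := by
  apply intervalIntegral.integral_nonneg (by norm_num)
  intro U _
  unfold psiU
  exact sq_nonneg _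

/-- Summing the integrand of the pair inequality over the vertices. -/
theorem psi_sum {ε : ℝ} (hε0 : 0 ≤ ε) (hε : ε ≤ 1 / 4) (hWW' : W ⊆ W') {f : Finset V → ℝ} (hf : ∀ A, |f A| ≤ 1)
    {z : V} {Bnd b : V → ℝ} {A : ℝ} (hA : 0 ≤ A) (hBnd : ∀ u, 0 ≤ Bnd u)
    (h1 : ∀ u ∈ W, κ ^ ρ z * ∫ x, (covG G θ (ℓ x) W f (fun A => spin A u) -
        covG G θ (ℓ' x) W' f (fun A => spin A u)) ^ 2 ∂P ≤ A * Gb * Bnd u)
    (h2 : ∀ x, ∀ u ∈ W', covG G θ (ℓ' x) W' f (fun A => spin A u) ^ 2 ≤ b u)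
    (h3 : ∀ u ∈ W, κ ^ ρ z * (b u * Em P G θ ℓ ℓ' W W' u) ≤ A * Gb * Bnd u)
    (h4 : ∀ u ∈ W', u ∉ W → κ ^ ρ z * b u ≤ A * Bnd u) :
    κ ^ ρ z * ∑ u ∈ W', ∫ x, (∫ U in (0 : ℝ)..1, psiU G θ θ W W' ε f f (ℓ x) (ℓ' x) u U) ∂P ≤
      3 * A * (Gb + 1) * ∑ u ∈ W', Bnd u := by
  have hκ := hH.hκ
  have hκ0 : 0 ≤ κ := by linarith
  have hGb := hH.hGb
  have hzp : 0 ≤ κ ^ ρ z := by positivity
  rw [Finset.mul_sum, Finset.mul_sum]
  apply Finset.sum_le_sum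
  intro u huW'
  have hε2 : ε ^ 2 ≤ 1 / 16 := by nlinarith
  have hcov' := bm_cov (G := G) hθ0 hθ1 hm' hℓ' hf (sc_spin_abs_le' u) W'
  by_cases hu : u ∈ W
  · -- vertices of `W`
    have hcov := bm_cov (G := G) hθ0 hθ1 hm hℓ hf (sc_spin_abs_le' u) W
    have hdiff := (hcov.sub hcov').sq.integrable (P := P)
    have hbd : BdMeas fun x => (mag G θ (ℓ x) W u - mag G θ (ℓ' x) W' u) ^ 2 * covG G θ (ℓ' x) W' f (fun A => spin A u) ^ 2 :=
      (bm_dm hθ0 hθ1 hm hℓ hm' hℓ' W W' u).mul hcov'.sq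
    have hmono : ∫ x, (∫ U in (0 : ℝ)..1, psiU G θ θ W W' ε f f (ℓ x) (ℓ' x) u U) ∂P ≤
        ∫ x, (2 * ε ^ 2 * (covG G θ (ℓ x) W f (fun A => spin A u) - covG G θ (ℓ' x) W' f (fun A => spin A u)) ^ 2 +
          512 * ε ^ 4 * ((mag G θ (ℓ x) W u - mag G θ (ℓ' x) W' u) ^ 2 * covG G θ (ℓ' x) W' f (fun A => spin A u) ^ 2)) ∂P := by
      apply integral_mono_of_nonneg
      · exact Filter.Eventually.of_forall fun x => integral_psi_nonneg θ W W' ε f f (ℓ x) (ℓ' x) u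
      · exact (hdiff.const_mul _).add (hbd.integrable.const_mul _)
      · refine Filter.Eventually.of_forall fun x => ?_
        have := integral_psiU_le (G := G) (θ := θ) (θ' := θ) (W := W) (W' := W') hε0 hε (f := f) (f' := f) (ℓ := ℓ x) (ℓ' := ℓ' x) (u := u)
          (abs_mag_le' hθ0 hθ1 (hℓ x) W u) (abs_mag_le' hθ0 hθ1 (hℓ' x) W' u) hu huW'
        refine this.trans (le_of_eq ?_)
        ring
    have hsplit : ∫ x, (2 * ε ^ 2 * (covG G θ (ℓ x) W f (fun A => spin A u) - covG G θ (ℓ' x) W' f (fun A => spin A u)) ^ 2 +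
          512 * ε ^ 4 * ((mag G θ (ℓ x) W u - mag G θ (ℓ' x) W' u) ^ 2 * covG G θ (ℓ' x) W' f (fun A => spin A u) ^ 2)) ∂P =
        2 * ε ^ 2 * (∫ x, (covG G θ (ℓ x) W f (fun A => spin A u) - covG G θ (ℓ' x) W' f (fun A => spin A u)) ^ 2 ∂P) +
          512 * ε ^ 4 * ∫ x, ((mag G θ (ℓ x) W u - mag G θ (ℓ' x) W' u) ^ 2 * covG G θ (ℓ' x) W' f (fun A => spin A u) ^ 2) ∂P := by
      rw [integral_add (hdiff.const_mul _) (hbd.integrable.const_mul _), integral_const_mul, integral_const_mul]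
    have hsecond : ∫ x, ((mag G θ (ℓ x) W u - mag G θ (ℓ' x) W' u) ^ 2 * covG G θ (ℓ' x) W' f (fun A => spin A u) ^ 2) ∂P ≤
        b u * Em P G θ ℓ ℓ' W W' u := by
      unfold Em
      rw [← integral_const_mul]
      apply integral_mono hbd.integrable ((bm_dm hθ0 hθ1 hm hℓ hm' hℓ' W W' u).integrable.const_mul _)
      intro x
      beta_reduce
      rw [mul_comm]
      exact mul_le_mul_of_nonneg_right (h2 x u huW') (sq_nonneg _)
    have hfirst := h1 u hu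
    have hthird := h3 u hu
    have hb0 : 0 ≤ A * Gb * Bnd u := by
      have := hBnd u
      positivity
    have hfirst0 : 0 ≤ ∫ x, (covG G θ (ℓ x) W f (fun A => spin A u) - covG G θ (ℓ' x) W' f (fun A => spin A u)) ^ 2 ∂P :=
      integral_nonneg fun x => sq_nonneg _
    have hε4 : 512 * ε ^ 4 ≤ 2 := by
      have : ε ^ 4 = (ε ^ 2) ^ 2 := by ring
      rw [this]
      have := pow_le_pow_left₀ (sq_nonneg ε) hε2 2
      norm_num at this ⊢
      linarith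
    have hε40 : 0 ≤ 512 * ε ^ 4 := by positivity
    have hε20 : 0 ≤ 2 * ε ^ 2 := by positivity
    have key : κ ^ ρ z * ∫ x, (∫ U in (0 : ℝ)..1, psiU G θ θ W W' ε f f (ℓ x) (ℓ' x) u U) ∂P ≤
        2 * ε ^ 2 * (A * Gb * Bnd u) + 512 * ε ^ 4 * (A * Gb * Bnd u) := by
      have s1 := mul_le_mul_of_nonneg_left hmono hzp
      rw [hsplit] at s1
      refine s1.trans ?_
      have s2 : κ ^ ρ z * ∫ x, ((mag G θ (ℓ x) W u - mag G θ (ℓ' x) W' u) ^ 2 * covG G θ (ℓ' x) W' f (fun A => spin A u) ^ 2) ∂P ≤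
          A * Gb * Bnd u := (mul_le_mul_of_nonneg_left hsecond hzp).trans hthird
      have e : κ ^ ρ z * (2 * ε ^ 2 * (∫ x, (covG G θ (ℓ x) W f (fun A => spin A u) - covG G θ (ℓ' x) W' f (fun A => spin A u)) ^ 2 ∂P) +
          512 * ε ^ 4 * ∫ x, ((mag G θ (ℓ x) W u - mag G θ (ℓ' x) W' u) ^ 2 * covG G θ (ℓ' x) W' f (fun A => spin A u) ^ 2) ∂P) =
          2 * ε ^ 2 * (κ ^ ρ z * ∫ x, (covG G θ (ℓ x) W f (fun A => spin A u) - covG G θ (ℓ' x) W' f (fun A => spin A u)) ^ 2 ∂P) +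
          512 * ε ^ 4 * (κ ^ ρ z * ∫ x, ((mag G θ (ℓ x) W u - mag G θ (ℓ' x) W' u) ^ 2 * covG G θ (ℓ' x) W' f (fun A => spin A u) ^ 2) ∂P) := by ring
      rw [e]
      exact add_le_add (mul_le_mul_of_nonneg_left hfirst hε20) (mul_le_mul_of_nonneg_left s2 hε40)
    refine key.trans ?_
    have hBu := hBnd u
    have h3A : 0 ≤ A * Bnd u := by positivity
    have e2 : 3 * A * (Gb + 1) * Bnd u = 3 * (A * Gb * Bnd u) + 3 * (A * Bnd u) := by ring
    rw [e2]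
    nlinarith
  · -- vertices of `W' \ W`
    have hmono : ∫ x, (∫ U in (0 : ℝ)..1, psiU G θ θ W W' ε f f (ℓ x) (ℓ' x) u U) ∂P ≤ ∫ x, ε ^ 2 * b u ∂P := by
      apply integral_mono_of_nonneg
      · exact Filter.Eventually.of_forall fun x => integral_psi_nonneg θ W W' ε f f (ℓ x) (ℓ' x) u
      · exact integrable_const _
      · refine Filter.Eventually.of_forall fun x => ?_
        have := integral_psiU_le_of_not_mem (G := G) (θ := θ) (θ' := θ) (W := W) (W' := W') hε0 hε (f := f) (f' := f) (ℓ := ℓ x) (ℓ' := ℓ' x) (u := u)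
          (abs_mag_le' hθ0 hθ1 (hℓ' x) W' u) hu huW'
        refine this.trans ?_
        exact mul_le_mul_of_nonneg_left (h2 x u huW') (sq_nonneg _)
    rw [integral_const, probReal_univ, one_smul] at hmono
    have s1 := mul_le_mul_of_nonneg_left hmono hzp
    refine s1.trans ?_
    have s2 := h4 u huW' hu
    have e : κ ^ ρ z * (ε ^ 2 * b u) = ε ^ 2 * (κ ^ ρ z * b u) := by ring
    rw [e]
    have s3 : ε ^ 2 * (κ ^ ρ z * b u) ≤ ε ^ 2 * (A * Bnd u) := mul_le_mul_of_nonneg_left s2 (sq_nonneg _)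
    have hBu := hBnd u
    have h3A : 0 ≤ A * Bnd u := by positivity
    have e2 : 3 * A * (Gb + 1) * Bnd u = 3 * (A * Bnd u) * Gb + 3 * (A * Bnd u) := by ring
    rw [e2]
    have h5 : 0 ≤ 3 * (A * Bnd u) * Gb := by positivity
    nlinarith [sq_nonneg ε]

end Weighted2


/-! ### Summation over the tree -/

section TreeSum

/-- the radial sum -/
noncomputable def cS (D : ℕ) (θ κ : ℝ) : ℕ → ℝ
  | 0 => W1 θ κ 0
  | k + 1 => ((D : ℝ) + 1) * (D : ℝ) ^ k * W1 θ κ (k + 1)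

theorem cS_nonneg {θ κ : ℝ} (hκ : 1 ≤ κ) (k : ℕ) : 0 ≤ cS D θ κ k := by
  cases k with
  | zero => exact W1_nonneg hκ 0
  | succ k =>
    have := W1_nonneg (θ := θ) hκ (k + 1)
    simp only [cS]
    positivity

theorem summable_cS {θ κ : ℝ} (hκ : 1 ≤ κ) (hq : (D : ℝ) * θ ^ 2 * κ < 1) : Summable (cS D θ κ) := by
  have hκ0 : 0 ≤ κ := by linarith
  have hq0 : 0 ≤ (D : ℝ) * θ ^ 2 * κ := by positivity
  rw [← summable_nat_add_iff 1]
  set q := (D : ℝ) * θ ^ 2 * κ with hqdef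
  have hnorm : ‖q‖ < 1 := by rwa [Real.norm_of_nonneg hq0]
  have e : ∀ k : ℕ, cS D θ κ (k + 1) =
      ((D : ℝ) + 1) * κ * (((k : ℝ) ^ 2 * q ^ k) + 4 * ((k : ℝ) ^ 1 * q ^ k) + 4 * ((k : ℝ) ^ 0 * q ^ k)) := by
    intro k
    simp only [cS, W1]
    rw [hqdef, mul_pow, mul_pow]
    simp only [Nat.add_sub_cancel]
    push_cast
    ring
  simp_rw [e]
  apply Summable.mul_left
  apply Summable.add
  · apply Summable.add
    · exact summable_pow_mul_geometric_of_norm_lt_one 2 hnorm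
    · exact (summable_pow_mul_geometric_of_norm_lt_one 1 hnorm).mul_left 4
  · exact (summable_pow_mul_geometric_of_norm_lt_one 0 hnorm).mul_left 4

theorem card_sphere_succ (hG : RegTree G D) (z : V) (k : ℕ) :
    ((sphere G z (k + 1)).card : ℝ) = ((D : ℝ) + 1) * (D : ℝ) ^ k := by
  have h := hG.sum_sphere_succ z k (fun _ => (1 : ℕ))
  simp only [Finset.sum_const, smul_eq_mul, mul_one] at h
  rw [h]
  rw [Finset.sum_congr rfl (fun y hy => hG.card_desc (by simpa using hy) k)]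
  rw [Finset.sum_const, hG.card_neighbor]
  simp

theorem sum_W1_le (hG : RegTree G D) {θ κ : ℝ} (hκ : 1 ≤ κ) (hS : Summable (cS D θ κ)) (T : Finset V) (z : V) :
    ∑ u ∈ T, W1 θ κ (G.dist z u) ≤ ∑' k, cS D θ κ k := by
  have h1 : ∑ u ∈ T, W1 θ κ (G.dist z u) =
      ∑ k ∈ T.image (fun u => G.dist z u), ∑ u ∈ T.filter (fun u => G.dist z u = k), W1 θ κ (G.dist z u) :=
    (Finset.sum_fiberwise_of_maps_to (fun u hu => Finset.mem_image_of_mem _ hu) _).symm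
  rw [h1]
  refine le_trans ?_ (hS.sum_le_tsum (T.image fun u => G.dist z u) (fun k _ => cS_nonneg hκ k))
  apply Finset.sum_le_sum
  intro k _
  have hsub : T.filter (fun u => G.dist z u = k) ⊆ sphere G z k := by
    intro u hu
    rw [hG.mem_sphere]
    exact (Finset.mem_filter.mp hu).2
  have h2 : ∑ u ∈ T.filter (fun u => G.dist z u = k), W1 θ κ (G.dist z u) =
      ((T.filter (fun u => G.dist z u = k)).card : ℝ) * W1 θ κ k := by
    rw [Finset.sum_congr rfl (fun u hu => by rw [(Finset.mem_filter.mp hu).2]), Finset.sum_const, nsmul_eq_mul]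
  rw [h2]
  have h3 : ((T.filter (fun u => G.dist z u = k)).card : ℝ) ≤ ((sphere G z k).card : ℝ) := by
    exact_mod_cast Finset.card_le_card hsub
  have h4 := W1_nonneg (θ := θ) hκ k
  refine (mul_le_mul_of_nonneg_right h3 h4).trans (le_of_eq ?_)
  cases k with
  | zero => simp [sphere, cS]
  | succ k => simp only [cS]; rw [card_sphere_succ hG]

end TreeSum

section PsiBounds

variable {Ω : Type*} [MeasurableSpace Ω] {P : Measure Ω} [IsProbabilityMeasure P]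
variable {θ : ℝ} {W W' : Finset V} {ℓ ℓ' : Ω → V → ℝ}
variable (hθ0 : 0 ≤ θ) (hθ1 : θ < 1) (hm : ∀ v, Measurable fun x => ℓ x v) (hℓ : ∀ x v, |ℓ x v| < 1)
  (hm' : ∀ v, Measurable fun x => ℓ' x v) (hℓ' : ∀ x v, |ℓ' x v| < 1)
variable {ρ : V → ℕ} {κ Gb : ℝ} (hH : WtHyp P G θ ℓ ℓ' W W' ρ κ Gb)
  (hG : RegTree G D) (hW : IsConvexSet G W) (hne : W.Nonempty) (hW' : IsConvexSet G W')
    (hne' : W'.Nonempty) (hWW' : W ⊆ W') (hS : Summable (cS D θ κ)) {ε : ℝ} (hε0 : 0 ≤ ε) (hε : ε ≤ 1 / 4)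

include hθ0 hθ1 hm hℓ hm' hℓ' hH hG hW hne hW' hne' hWW' hS hε0 hε

theorem vertex_psi_bound {z : V} (hz : z ∈ W) :
    κ ^ ρ z * ∑ u ∈ W', ∫ x, (∫ U in (0 : ℝ)..1,
        psiU G θ θ W W' ε (fun A => spin A z) (fun A => spin A z) (ℓ x) (ℓ' x) u U) ∂P ≤
      3 * (4 + 33 * κ) * (Gb + 1) * ∑' k, cS D θ κ k := by
  have hκ := hH.hκ
  have hκ0 : 0 ≤ κ := by linarith
  have hGb := hH.hGb
  have hA : 0 ≤ 4 + 33 * κ := by positivity
  have hA1 : 1 ≤ 4 + 33 * κ := by linarith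
  have hb := psi_sum hθ0 hθ1 hm hℓ hm' hℓ' hH hε0 hε hWW' (f := fun A => spin A z) (sc_spin_abs_le' z) (z := z)
    (Bnd := fun u => W1 θ κ (G.dist z u)) (b := fun u => (θ ^ 2) ^ G.dist z u) hA (fun u => W1_nonneg hκ _)
    (fun u hu => weighted_cov_le hθ0 hθ1 hm hℓ hm' hℓ' hH hG hW hne hW' hne' hWW' hz hu)
    (fun x u hu => by
      have h := abs_cov_le_pow hG hθ0 hθ1 (hℓ' x) hW' hne' (hWW' hz) hu
      have h2 := pow_le_pow_left₀ (abs_nonneg _) h 2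
      rw [sq_abs] at h2
      refine h2.trans (le_of_eq ?_)
      rw [← pow_mul, ← pow_mul, mul_comm])
    (fun u hu => by
      have hEu0 : 0 ≤ Em P G θ ℓ ℓ' W W' u := integral_nonneg fun x => sq_nonneg _
      have h1 : κ ^ ρ z * Em P G θ ℓ ℓ' W W' u ≤ κ ^ G.dist z u * Gb := by
        calc κ ^ ρ z * Em P G θ ℓ ℓ' W W' u ≤ (κ ^ G.dist z u * κ ^ ρ u) * Em P G θ ℓ ℓ' W W' u :=
              mul_le_mul_of_nonneg_right hH.weight_le hEu0
          _ = κ ^ G.dist z u * (κ ^ ρ u * Em P G θ ℓ ℓ' W W' u) := by ring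
          _ ≤ _ := mul_le_mul_of_nonneg_left (hH.em u hu) (by positivity)
      have h2 := pow_mul_pow_le_W1 hθ0 hθ1 hκ (G.dist z u)
      have h3 : (0 : ℝ) ≤ (θ ^ 2) ^ G.dist z u := by positivity
      have h4 := W1_nonneg (θ := θ) hκ (G.dist z u)
      calc κ ^ ρ z * ((θ ^ 2) ^ G.dist z u * Em P G θ ℓ ℓ' W W' u)
          = (θ ^ 2) ^ G.dist z u * (κ ^ ρ z * Em P G θ ℓ ℓ' W W' u) := by ring
        _ ≤ (θ ^ 2) ^ G.dist z u * (κ ^ G.dist z u * Gb) := mul_le_mul_of_nonneg_left h1 h3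
        _ = ((θ ^ 2) ^ G.dist z u * κ ^ G.dist z u) * Gb := by ring
        _ ≤ W1 θ κ (G.dist z u) * Gb := mul_le_mul_of_nonneg_right h2 hGb
        _ ≤ (4 + 33 * κ) * Gb * W1 θ κ (G.dist z u) := by
            have : 0 ≤ Gb * W1 θ κ (G.dist z u) := by positivity
            nlinarith)
    (fun u _ hu => by
      have h1 : κ ^ ρ z ≤ κ ^ G.dist z u := pow_le_pow_right₀ hκ (hH.out z u hu)
      have h2 := pow_mul_pow_le_W1 hθ0 hθ1 hκ (G.dist z u)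
      have h3 : (0 : ℝ) ≤ (θ ^ 2) ^ G.dist z u := by positivity
      have h4 := W1_nonneg (θ := θ) hκ (G.dist z u)
      calc κ ^ ρ z * (θ ^ 2) ^ G.dist z u ≤ κ ^ G.dist z u * (θ ^ 2) ^ G.dist z u :=
            mul_le_mul_of_nonneg_right h1 h3
        _ = (θ ^ 2) ^ G.dist z u * κ ^ G.dist z u := by ring
        _ ≤ W1 θ κ (G.dist z u) := h2
        _ ≤ (4 + 33 * κ) * W1 θ κ (G.dist z u) := by nlinarith)
  refine hb.trans ?_
  apply mul_le_mul_of_nonneg_left (sum_W1_le hG hκ hS W' z)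
  positivity

omit hθ0 hθ1 hm hℓ hm' hℓ' hH hG hW hne hW' hne' hWW' hS hε0 hε in
theorem Et_comm (P : Measure Ω) (G : SimpleGraph V) [G.LocallyFinite] (θ : ℝ) (ℓ ℓ' : Ω → V → ℝ) (W W' : Finset V) (z w : V) :
    Et P G θ ℓ ℓ' W W' z w = Et P G θ ℓ ℓ' W W' w z := by
  unfold Et
  congr 1
  funext x
  rw [tcor_comm (v := z) (w := w) (W := W), tcor_comm (v := z) (w := w) (W := W')]

theorem pair_psi_bound {z w : V} (hzw : G.Adj z w) (hz : z ∈ W) (hw : w ∈ W) :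
    κ ^ ρ z * ∑ u ∈ W', ∫ x, (∫ U in (0 : ℝ)..1,
        psiU G θ θ W W' ε (fun A => spin A z * spin A w) (fun A => spin A z * spin A w) (ℓ x) (ℓ' x) u U) ∂P ≤
      3 * (3 * κ * (17 + 33 * κ)) * (Gb + 1) * (2 * ∑' k, cS D θ κ k) := by
  have hκ := hH.hκ
  have hκ0 : 0 ≤ κ := by linarith
  have hGb := hH.hGb
  have hT := hG.isTree
  have hA : 0 ≤ 3 * κ * (17 + 33 * κ) := by positivity
  have hAκ : κ ≤ 3 * κ * (17 + 33 * κ) := by nlinarith
  have hA1 : 1 ≤ 3 * κ * (17 + 33 * κ) := by nlinarith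
  have hside : ∀ u, G.dist w u < G.dist z u ∧ G.dist z u = G.dist w u + 1 ∨
      G.dist z u < G.dist w u ∧ G.dist w u = G.dist z u + 1 := by
    intro u
    rcases hT.dist_eq_dist_add_one_of_adj u hzw with h3 | h3
    · rw [SimpleGraph.dist_comm (u := u), SimpleGraph.dist_comm (u := u)] at h3
      omega
    · rw [SimpleGraph.dist_comm (u := u), SimpleGraph.dist_comm (u := u)] at h3
      omega
  have hdzw : G.dist z w = 1 := SimpleGraph.dist_eq_one_iff_adj.mpr hzw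
  have hdwz : G.dist w z = 1 := SimpleGraph.dist_eq_one_iff_adj.mpr hzw.symm
  have hρzw : ρ z ≤ ρ w + 1 := by
    have := hH.lip z w
    omega
  have hρwz : ρ w ≤ ρ z + 1 := by
    have := hH.lip w z
    omega
  have hswap : (fun A => spin A z * spin A w) = (fun A : Finset V => spin A w * spin A z) := by
    funext A; ring
  have hWnn : ∀ n, 0 ≤ W1 θ κ n := fun n => W1_nonneg hκ n
  have hb := psi_sum hθ0 hθ1 hm hℓ hm' hℓ' hH hε0 hε hWW' (f := fun A => spin A z * spin A w)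
    (fun A => abs_spin_mul_le A z w) (z := z)
    (Bnd := fun u => W1 θ κ (G.dist z u) + W1 θ κ (G.dist w u))
    (b := fun u => if G.dist w u < G.dist z u then (θ ^ 2) ^ G.dist w u else (θ ^ 2) ^ G.dist z u) hA
    (fun u => add_nonneg (hWnn _) (hWnn _))
    (fun u hu => by
      rcases hside u with ⟨hs, -⟩ | ⟨hs, -⟩
      · have h1 := weighted_pair_le hθ0 hθ1 hm hℓ hm' hℓ' hH hG hW hne hW' hne' hWW' (o := z) hzw hz hw hu hs
          (by omega) hρzw (by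
            have := hH.et z hz w hw hzw
            nlinarith)
        refine h1.trans ?_
        have := hWnn (G.dist z u)
        have h5 : 0 ≤ 3 * κ * (17 + 33 * κ) * Gb := by positivity
        nlinarith
      · rw [hswap]
        have h1 := weighted_pair_le hθ0 hθ1 hm hℓ hm' hℓ' hH hG hW hne hW' hne' hWW' (o := z) hzw.symm hw hz hu hs
          hρzw (by omega) (by
            rw [← Et_comm]
            have := hH.et z hz w hw hzw
            nlinarith)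
        refine h1.trans ?_
        have := hWnn (G.dist w u)
        have h5 : 0 ≤ 3 * κ * (17 + 33 * κ) * Gb := by positivity
        nlinarith)
    (fun x u hu => by
      rcases hside u with ⟨hs, -⟩ | ⟨hs, hs'⟩
      · have h := abs_covPair_le_pow hG hθ0 hθ1 (hℓ' x) hW' hne' hzw (hWW' hz) (hWW' hw) hu hs
        have h2 := pow_le_pow_left₀ (abs_nonneg _) h 2
        rw [sq_abs] at h2
        rw [if_pos hs]
        refine h2.trans (le_of_eq ?_)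
        rw [← pow_mul, ← pow_mul, mul_comm]
      · have h := abs_covPair_le_pow hG hθ0 hθ1 (hℓ' x) hW' hne' hzw.symm (hWW' hw) (hWW' hz) hu hs
        have h2 := pow_le_pow_left₀ (abs_nonneg _) h 2
        rw [sq_abs] at h2
        rw [if_neg (by omega), hswap]
        refine h2.trans (le_of_eq ?_)
        rw [← pow_mul, ← pow_mul, mul_comm])
    (fun u hu => by
      have hEu0 : 0 ≤ Em P G θ ℓ ℓ' W W' u := integral_nonneg fun x => sq_nonneg _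
      have hEu := hH.em u hu
      rcases hside u with ⟨hs, -⟩ | ⟨hs, hs'⟩
      · rw [if_pos hs]
        set r := G.dist w u
        have h1 : κ ^ ρ z * Em P G θ ℓ ℓ' W W' u ≤ κ * (κ ^ r * Gb) := by
          have h0 : κ ^ ρ z ≤ κ * (κ ^ r * κ ^ ρ u) := by
            have h2 : ρ z ≤ r + ρ u + 1 := by
              have := hH.lip w u
              omega
            rw [← pow_add, ← pow_succ']
            apply pow_le_pow_right₀ hκ
            omega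
          calc κ ^ ρ z * Em P G θ ℓ ℓ' W W' u ≤ (κ * (κ ^ r * κ ^ ρ u)) * Em P G θ ℓ ℓ' W W' u :=
                mul_le_mul_of_nonneg_right h0 hEu0
            _ = κ * (κ ^ r * (κ ^ ρ u * Em P G θ ℓ ℓ' W W' u)) := by ring
            _ ≤ _ := by
              apply mul_le_mul_of_nonneg_left _ hκ0
              exact mul_le_mul_of_nonneg_left hEu (by positivity)
        have h2 := pow_mul_pow_le_W1 hθ0 hθ1 hκ r
        have h3 : (0 : ℝ) ≤ (θ ^ 2) ^ r := by positivity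
        have h5 := hWnn r
        have h6 := hWnn (G.dist z u)
        calc κ ^ ρ z * ((θ ^ 2) ^ r * Em P G θ ℓ ℓ' W W' u)
            = (θ ^ 2) ^ r * (κ ^ ρ z * Em P G θ ℓ ℓ' W W' u) := by ring
          _ ≤ (θ ^ 2) ^ r * (κ * (κ ^ r * Gb)) := mul_le_mul_of_nonneg_left h1 h3
          _ = κ * (((θ ^ 2) ^ r * κ ^ r) * Gb) := by ring
          _ ≤ κ * (W1 θ κ r * Gb) := by
              apply mul_le_mul_of_nonneg_left _ hκ0
              exact mul_le_mul_of_nonneg_right h2 hGb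
          _ ≤ 3 * κ * (17 + 33 * κ) * Gb * (W1 θ κ (G.dist z u) + W1 θ κ r) := by
              have h7 : 0 ≤ Gb * W1 θ κ r := by positivity
              have h8 : 0 ≤ Gb * W1 θ κ (G.dist z u) := by positivity
              nlinarith
      · rw [if_neg (by omega)]
        set r := G.dist z u
        have h1 : κ ^ ρ z * Em P G θ ℓ ℓ' W W' u ≤ κ ^ r * Gb := by
          calc κ ^ ρ z * Em P G θ ℓ ℓ' W W' u ≤ (κ ^ r * κ ^ ρ u) * Em P G θ ℓ ℓ' W W' u :=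
                mul_le_mul_of_nonneg_right hH.weight_le hEu0
            _ = κ ^ r * (κ ^ ρ u * Em P G θ ℓ ℓ' W W' u) := by ring
            _ ≤ _ := mul_le_mul_of_nonneg_left hEu (by positivity)
        have h2 := pow_mul_pow_le_W1 hθ0 hθ1 hκ r
        have h3 : (0 : ℝ) ≤ (θ ^ 2) ^ r := by positivity
        have h5 := hWnn r
        have h6 := hWnn (G.dist w u)
        calc κ ^ ρ z * ((θ ^ 2) ^ r * Em P G θ ℓ ℓ' W W' u)
            = (θ ^ 2) ^ r * (κ ^ ρ z * Em P G θ ℓ ℓ' W W' u) := by ring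
          _ ≤ (θ ^ 2) ^ r * (κ ^ r * Gb) := mul_le_mul_of_nonneg_left h1 h3
          _ = ((θ ^ 2) ^ r * κ ^ r) * Gb := by ring
          _ ≤ W1 θ κ r * Gb := mul_le_mul_of_nonneg_right h2 hGb
          _ ≤ 3 * κ * (17 + 33 * κ) * Gb * (W1 θ κ r + W1 θ κ (G.dist w u)) := by
              have h7 : 0 ≤ Gb * W1 θ κ r := by positivity
              have h8 : 0 ≤ Gb * W1 θ κ (G.dist w u) := by positivity
              nlinarith)
    (fun u _ hu => by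
      have hout := hH.out z u hu
      rcases hside u with ⟨hs, hs'⟩ | ⟨hs, hs'⟩
      · rw [if_pos hs]
        set r := G.dist w u
        have h1 : κ ^ ρ z ≤ κ * κ ^ r := by
          rw [← pow_succ']
          apply pow_le_pow_right₀ hκ
          omega
        have h2 := pow_mul_pow_le_W1 hθ0 hθ1 hκ r
        have h3 : (0 : ℝ) ≤ (θ ^ 2) ^ r := by positivity
        have h5 := hWnn r
        have h6 := hWnn (G.dist z u)
        calc κ ^ ρ z * (θ ^ 2) ^ r ≤ (κ * κ ^ r) * (θ ^ 2) ^ r := mul_le_mul_of_nonneg_right h1 h3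
          _ = κ * ((θ ^ 2) ^ r * κ ^ r) := by ring
          _ ≤ κ * W1 θ κ r := mul_le_mul_of_nonneg_left h2 hκ0
          _ ≤ 3 * κ * (17 + 33 * κ) * (W1 θ κ (G.dist z u) + W1 θ κ r) := by nlinarith
      · rw [if_neg (by omega)]
        set r := G.dist z u
        have h1 : κ ^ ρ z ≤ κ ^ r := pow_le_pow_right₀ hκ hout
        have h2 := pow_mul_pow_le_W1 hθ0 hθ1 hκ r
        have h3 : (0 : ℝ) ≤ (θ ^ 2) ^ r := by positivity
        have h5 := hWnn r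
        have h6 := hWnn (G.dist w u)
        calc κ ^ ρ z * (θ ^ 2) ^ r ≤ κ ^ r * (θ ^ 2) ^ r := mul_le_mul_of_nonneg_right h1 h3
          _ = (θ ^ 2) ^ r * κ ^ r := by ring
          _ ≤ W1 θ κ r := h2
          _ ≤ 3 * κ * (17 + 33 * κ) * (W1 θ κ r + W1 θ κ (G.dist w u)) := by nlinarith)
  refine hb.trans ?_
  apply mul_le_mul_of_nonneg_left _ (by positivity)
  have h1 := sum_W1_le hG hκ hS W' z
  have h2 := sum_W1_le hG hκ hS W' w
  rw [Finset.sum_add_distrib]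
  linarith

end PsiBounds


/-! ### The distance to the complement -/

section RW

theorem exists_not_mem_tree (hG : RegTree G D) (W : Finset V) : ∃ u, u ∉ W := by
  by_contra hcon
  have hall : ∀ u, u ∈ W := by
    intro u
    by_contra hu
    exact hcon ⟨u, hu⟩
  obtain ⟨z⟩ := hG.isTree.connected.nonempty
  have hcard := hG.card_neighbor z
  have hpos : (G.neighborFinset z).Nonempty := by
    rw [← Finset.card_pos, hcard]
    omega
  obtain ⟨y, hy⟩ := hpos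
  have hzy : G.Adj z y := by simpa using hy
  have h1 := hG.card_desc hzy W.card
  have h2 : (desc G W.card z y).card ≤ W.card := Finset.card_le_card fun u _ => hall u
  rw [h1] at h2
  have h3 : W.card < 2 ^ W.card := Nat.lt_two_pow_self
  have h4 : 2 ^ W.card ≤ D ^ W.card := Nat.pow_le_pow_left hG.two_le _
  omega

/-- distance to the complement of `W` -/
noncomputable def rW (G : SimpleGraph V) [G.LocallyFinite] (W : Finset V) (z : V) : ℕ :=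
  sInf ((fun u => G.dist z u) '' {u | u ∉ W})

theorem rW_out (W : Finset V) (z u : V) (hu : u ∉ W) : rW G W z ≤ G.dist z u :=
  Nat.sInf_le ⟨u, hu, rfl⟩

theorem rW_attained (hG : RegTree G D) (W : Finset V) (z : V) : ∃ u, u ∉ W ∧ G.dist z u = rW G W z := by
  obtain ⟨u₀, hu₀⟩ := exists_not_mem_tree hG W
  have hne : ((fun u => G.dist z u) '' {u | u ∉ W}).Nonempty := ⟨_, u₀, hu₀, rfl⟩
  obtain ⟨u, hu, he⟩ := Nat.sInf_mem hne
  exact ⟨u, hu, he⟩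

theorem rW_lip (hG : RegTree G D) (W : Finset V) (a b : V) : rW G W a ≤ rW G W b + G.dist a b := by
  obtain ⟨u, hu, he⟩ := rW_attained hG W b
  have h1 := rW_out (G := G) W a u hu
  have h2 : G.dist a u ≤ G.dist a b + G.dist b u := hG.isTree.connected.dist_triangle
  omega

theorem le_rW (hG : RegTree G D) {W : Finset V} {v : V} {R : ℕ} (h : ball G v R ⊆ W) : R ≤ rW G W v := by
  obtain ⟨u, hu, he⟩ := rW_attained hG W v
  have h1 : u ∉ ball G v R := fun h' => hu (h h')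
  rw [hG.mem_ball] at h1
  omega

end RW

/-! ### Finite suprema -/

section Gsup

/-- finite set of values -/
noncomputable def valSet (G : SimpleGraph V) (W : Finset V) (a : V → ℝ) (b : V → V → ℝ) : Finset ℝ :=
  insert 0 (W.image a ∪ ((W ×ˢ W).filter fun p => G.Adj p.1 p.2).image fun p => b p.1 p.2)

/-- supremum of the finitely many weighted quantities -/
noncomputable def Gsup (G : SimpleGraph V) (W : Finset V) (a : V → ℝ) (b : V → V → ℝ) : ℝ :=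
  (valSet G W a b).max' ⟨0, by simp [valSet]⟩

theorem Gsup_nonneg (W : Finset V) (a : V → ℝ) (b : V → V → ℝ) : 0 ≤ Gsup G W a b :=
  Finset.le_max' _ _ (by simp [valSet])

theorem le_Gsup_a (W : Finset V) (a : V → ℝ) (b : V → V → ℝ) {z : V} (hz : z ∈ W) : a z ≤ Gsup G W a b := by
  apply Finset.le_max'
  simp only [valSet, Finset.mem_insert, Finset.mem_union, Finset.mem_image]
  right; left
  exact ⟨z, hz, rfl⟩

theorem le_Gsup_b (W : Finset V) (a : V → ℝ) (b : V → V → ℝ) {z w : V} (hz : z ∈ W) (hw : w ∈ W)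
    (hzw : G.Adj z w) : b z w ≤ Gsup G W a b := by
  apply Finset.le_max'
  simp only [valSet, Finset.mem_insert, Finset.mem_union, Finset.mem_image]
  right; right
  refine ⟨(z, w), ?_, rfl⟩
  simp [hz, hw, hzw]

theorem Gsup_le {W : Finset V} {a : V → ℝ} {b : V → V → ℝ} {B : ℝ} (hB : 0 ≤ B) (ha : ∀ z ∈ W, a z ≤ B)
    (hb : ∀ z ∈ W, ∀ w ∈ W, G.Adj z w → b z w ≤ B) : Gsup G W a b ≤ B := by
  apply Finset.max'_le
  intro y hy
  simp only [valSet, Finset.mem_insert, Finset.mem_union, Finset.mem_image, Finset.mem_filter,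
    Finset.mem_product] at hy
  rcases hy with rfl | ⟨z, hz, rfl⟩ | ⟨p, ⟨⟨h1, h2⟩, h3⟩, rfl⟩
  · exact hB
  · exact ha z hz
  · exact hb _ h1 _ h2 h3

end Gsup

/-- Gronwall on a partition; no regularity of `g` is needed. -/
theorem gronwall_partition {g : ℝ → ℝ} (hg0 : ∀ s, 0 ≤ s → s ≤ 1 / 2 → 0 ≤ g s) {c : ℝ}
    (hc : 0 ≤ c)
    (hstep : ∀ s₁ s₂, 0 ≤ s₁ → s₁ ≤ s₂ → s₂ ≤ 1 / 2 → g s₂ ≤ g s₁ + (s₂ - s₁) * c * (g s₂ + 1))
    {n : ℕ} (hn : c ≤ n) (hn0 : 0 < n) {s : ℝ} (hs0 : 0 ≤ s) (hs : s ≤ 1 / 2) :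
    g s + 1 ≤ 2 ^ n * (g 0 + 1) := by
  have hn' : (0 : ℝ) < n := by exact_mod_cast hn0
  have key : ∀ i : ℕ, i ≤ n → g (s * i / n) + 1 ≤ 2 ^ i * (g 0 + 1) := by
    intro i
    induction i with
    | zero =>
      intro _
      simp
    | succ i ih =>
      intro hi
      have hi' := ih (by omega)
      have hin : ((i : ℝ) + 1) ≤ n := by exact_mod_cast hi
      have hi0 : (0 : ℝ) ≤ i := Nat.cast_nonneg i
      set s₁ := s * i / n with hs₁
      set s₂ := s * ((i + 1 : ℕ) : ℝ) / n with hs₂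
      have hs₁0 : 0 ≤ s₁ := by positivity
      have hs₁₂ : s₁ ≤ s₂ := by
        rw [hs₁, hs₂]
        push_cast
        apply div_le_div_of_nonneg_right _ hn'.le
        nlinarith
      have hs₂1 : s₂ ≤ 1 / 2 := by
        rw [hs₂, div_le_iff₀ hn']
        push_cast
        nlinarith
      have hst := hstep s₁ s₂ hs₁0 hs₁₂ hs₂1
      have hg2 := hg0 s₂ (hs₁0.trans hs₁₂) hs₂1
      have hdiff : (s₂ - s₁) * c ≤ 1 / 2 := by
        have e : s₂ - s₁ = s / n := by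
          rw [hs₁, hs₂]
          push_cast
          field_simp
          ring
        rw [e]
        have h1 : s / n * c ≤ s / n * n := mul_le_mul_of_nonneg_left hn (by positivity)
        have h2 : s / n * n = s := by field_simp
        linarith
      have hdiff0 : 0 ≤ (s₂ - s₁) * c := mul_nonneg (by linarith) hc
      have h3 : (s₂ - s₁) * c * (g s₂ + 1) ≤ 1 / 2 * (g s₂ + 1) :=
        mul_le_mul_of_nonneg_right hdiff (by linarith)
      have h4 : g s₂ + 1 ≤ 2 * (g s₁ + 1) := by linarith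
      calc g s₂ + 1 ≤ 2 * (g s₁ + 1) := h4
        _ ≤ 2 * (2 ^ i * (g 0 + 1)) := by linarith
        _ = 2 ^ (i + 1) * (g 0 + 1) := by ring
  have := key n le_rfl
  rwa [mul_div_assoc, div_self hn'.ne', mul_one] at this


/-! ### The Gronwall argument for the dynamics -/

section Final

/-- the field as a function of the labels -/
noncomputable def Fl (G : SimpleGraph V) [G.LocallyFinite] (θ : ℝ) (W : Finset V) (N j : ℤ) (s : ℝ) : Om V → V → ℝ :=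
  fun x => fieldAt G θ W N x j s

/-- the weighted supremum at time `(j,s)`. -/
noncomputable def GG (G : SimpleGraph V) [G.LocallyFinite] (θ κ : ℝ) (W W' : Finset V) (N j : ℤ) (s : ℝ) : ℝ :=
  Gsup G W (fun z => κ ^ rW G W z * Em (omP V) G θ (Fl G θ W N j s) (Fl G θ W' N j s) W W' z)
    (fun z w => κ ^ rW G W z * Et (omP V) G θ (Fl G θ W N j s) (Fl G θ W' N j s) W W' z w)

variable (hG : RegTree G D) {θ : ℝ} (hθ0 : 0 ≤ θ) (hθ1 : θ < 1) {W W' : Finset V} (hW : IsConvexSet G W)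
  (hne : W.Nonempty) (hW' : IsConvexSet G W') (hne' : W'.Nonempty) (hWW' : W ⊆ W') {κ : ℝ} (hκ : 1 ≤ κ)
  (hS : Summable (cS D θ κ)) {N j : ℤ}

include hG hθ0 hθ1 hW hne hW' hne' hWW' hκ

omit hW' hne' hWW' hκ in
theorem hm_Fl (s : ℝ) (v : V) : Measurable fun x => Fl G θ W N j s x v :=
  measurable_fieldAt hG hθ0 hθ1 hW hne s v

omit hW' hne' hWW' hκ in
theorem hℓ_Fl (s : ℝ) (x : Om V) (v : V) : |Fl G θ W N j s x v| < 1 :=
  abs_fieldAt_lt hG hθ0 hθ1 hW hne x j s v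

theorem wtHyp_GG (s : ℝ) :
    WtHyp (omP V) G θ (Fl G θ W N j s) (Fl G θ W' N j s) W W' (rW G W) κ (GG G θ κ W W' N j s) where
  hκ := hκ
  lip := rW_lip hG W
  out := fun z u hu => rW_out W z u hu
  em := fun z hz => le_Gsup_a W (fun z => κ ^ rW G W z * Em (omP V) G θ (Fl G θ W N j s) (Fl G θ W' N j s) W W' z)
    (fun z w => κ ^ rW G W z * Et (omP V) G θ (Fl G θ W N j s) (Fl G θ W' N j s) W W' z w) hz
  et := fun z hz w hw hzw => le_Gsup_b W (fun z => κ ^ rW G W z * Em (omP V) G θ (Fl G θ W N j s) (Fl G θ W' N j s) W W' z)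
    (fun z w => κ ^ rW G W z * Et (omP V) G θ (Fl G θ W N j s) (Fl G θ W' N j s) W W' z w) hz hw hzw
  hGb := Gsup_nonneg W _ _

/-- a priori bounds -/
theorem Em_le_four (s : ℝ) (z : V) : Em (omP V) G θ (Fl G θ W N j s) (Fl G θ W' N j s) W W' z ≤ 4 := by
  unfold Em
  have hℓ := hℓ_Fl (N := N) (j := j) hG hθ0 hθ1 hW hne s
  have hℓ' := hℓ_Fl (N := N) (j := j) hG hθ0 hθ1 hW' hne' s
  calc _ ≤ ∫ _, (4 : ℝ) ∂(omP V) := by
        apply integral_mono_of_nonneg (Filter.Eventually.of_forall fun x => sq_nonneg _) (integrable_const _)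
        refine Filter.Eventually.of_forall fun x => ?_
        have h1 := abs_le.mp (abs_mag_le' (G := G) hθ0 hθ1 (hℓ x) W z)
        have h2 := abs_le.mp (abs_mag_le' (G := G) hθ0 hθ1 (hℓ' x) W' z)
        show (_ - _) ^ 2 ≤ (4 : ℝ)
        nlinarith [h1.1, h1.2, h2.1, h2.2]
    _ = 4 := by simp

theorem Et_le_four (s : ℝ) (z w : V) : Et (omP V) G θ (Fl G θ W N j s) (Fl G θ W' N j s) W W' z w ≤ 4 := by
  unfold Et
  have hℓ := hℓ_Fl (N := N) (j := j) hG hθ0 hθ1 hW hne s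
  have hℓ' := hℓ_Fl (N := N) (j := j) hG hθ0 hθ1 hW' hne' s
  calc _ ≤ ∫ _, (4 : ℝ) ∂(omP V) := by
        apply integral_mono_of_nonneg (Filter.Eventually.of_forall fun x => sq_nonneg _) (integrable_const _)
        refine Filter.Eventually.of_forall fun x => ?_
        have h1 := abs_le.mp (abs_tcor_le_of (G := G) hθ0 hθ1 (hℓ x) W z w)
        have h2 := abs_le.mp (abs_tcor_le_of (G := G) hθ0 hθ1 (hℓ' x) W' z w)
        show (_ - _) ^ 2 ≤ (4 : ℝ)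
        nlinarith [h1.1, h1.2, h2.1, h2.2]
    _ = 4 := by simp

theorem GG_le_apriori (s : ℝ) :
    GG G θ κ W W' N j s ≤ κ ^ (W.sup (rW G W)) * 4 := by
  have hκ0 : 0 ≤ κ := by linarith
  have hpos : 0 ≤ κ ^ (W.sup (rW G W)) * 4 := by positivity
  have hle : ∀ z ∈ W, κ ^ rW G W z ≤ κ ^ (W.sup (rW G W)) := fun z hz =>
    pow_le_pow_right₀ hκ (Finset.le_sup (f := rW G W) hz)
  apply Gsup_le hpos
  · intro z hz
    have h1 : 0 ≤ Em (omP V) G θ (Fl G θ W N j s) (Fl G θ W' N j s) W W' z := integral_nonneg fun x => sq_nonneg _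
    exact mul_le_mul (hle z hz) (Em_le_four hG hθ0 hθ1 hW hne hW' hne' hWW' hκ s z) h1 (by positivity)
  · intro z hz w _ _
    have h1 : 0 ≤ Et (omP V) G θ (Fl G θ W N j s) (Fl G θ W' N j s) W W' z w := integral_nonneg fun x => sq_nonneg _
    exact mul_le_mul (hle z hz) (Et_le_four hG hθ0 hθ1 hW hne hW' hne' hWW' hκ s z w) h1 (by positivity)

/-- The general form of the sum bound (one observable). -/
theorem obs_step (hN : N ≤ j) {f : Finset V → ℝ} (hf : ∀ A, |f A| ≤ 1) {z : V} {K : ℝ}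
    (hsum : ∀ s, κ ^ rW G W z * ∑ u ∈ W', ∫ x, (∫ U in (0 : ℝ)..1,
        psiU G θ θ W W' (eps j) f f (fieldAt G θ W N x j s) (fieldAt G θ W' N x j s) u U) ∂(omP V) ≤
        K * (GG G θ κ W W' N j s + 1)) (hK : 0 ≤ K)
    {s₁ s₂ : ℝ} (hs₁ : 0 ≤ s₁) (hs₁₂ : s₁ ≤ s₂) (hs₂ : s₂ ≤ 1 / 2) {Bd : ℝ}
    (hBd : ∀ s ∈ Set.Icc s₁ s₂, GG G θ κ W W' N j s ≤ Bd) :
    (∫ x, (gibbs G θ (fieldAt G θ W N x j s₁) W f - gibbs G θ (fieldAt G θ W' N x j s₁) W' f) ^ 2 ∂(omP V) ≤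
      ∫ x, (gibbs G θ (fieldAt G θ W N x j s₂) W f - gibbs G θ (fieldAt G θ W' N x j s₂) W' f) ^ 2 ∂(omP V)) ∧
    (κ ^ rW G W z * ∫ x, (gibbs G θ (fieldAt G θ W N x j s₂) W f - gibbs G θ (fieldAt G θ W' N x j s₂) W' f) ^ 2 ∂(omP V) ≤
      κ ^ rW G W z * ∫ x, (gibbs G θ (fieldAt G θ W N x j s₁) W f - gibbs G θ (fieldAt G θ W' N x j s₁) W' f) ^ 2 ∂(omP V) +
        2 * (s₂ - s₁) * (K * (Bd + 1))) := by
  have hκ0 : 0 < κ := by linarith
  have hκp : 0 < κ ^ rW G W z := by positivity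
  have hunion : W ∪ W' = W' := Finset.union_eq_right.mpr hWW'
  have hP := pair_inequality (j := j) (N := N) (N' := N) hG hθ0 hθ1 hθ0 hθ1 hW hne hW' hne' hN hN hf hf hs₁ hs₁₂ hs₂
    (B := K * (Bd + 1) / κ ^ rW G W z) (fun s hs => by
      rw [hunion, le_div_iff₀ hκp, mul_comm]
      refine (hsum s).trans ?_
      apply mul_le_mul_of_nonneg_left _ hK
      linarith [hBd s hs])
  refine ⟨hP.1, ?_⟩
  have h2 := hP.2
  have h3 : 2 * (s₂ - s₁) * (K * (Bd + 1) / κ ^ rW G W z) * κ ^ rW G W z = 2 * (s₂ - s₁) * (K * (Bd + 1)) := by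
    field_simp
  have h4 := mul_le_mul_of_nonneg_left h2 hκp.le
  rw [mul_comm (κ ^ rW G W z) (2 * (s₂ - s₁) * (K * (Bd + 1) / κ ^ rW G W z)), h3] at h4
  linarith

include hS

/-- The constant of the sum bound. -/
theorem sum_bounds (hj : True) (s : ℝ) :
    (∀ z ∈ W, κ ^ rW G W z * ∑ u ∈ W', ∫ x, (∫ U in (0 : ℝ)..1,
        psiU G θ θ W W' (eps j) (fun A => spin A z) (fun A => spin A z) (fieldAt G θ W N x j s)
          (fieldAt G θ W' N x j s) u U) ∂(omP V) ≤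
        (3 * (3 * κ * (17 + 33 * κ)) * (2 * ∑' k, cS D θ κ k)) * (GG G θ κ W W' N j s + 1)) ∧
    (∀ z ∈ W, ∀ w ∈ W, G.Adj z w → κ ^ rW G W z * ∑ u ∈ W', ∫ x, (∫ U in (0 : ℝ)..1,
        psiU G θ θ W W' (eps j) (fun A => spin A z * spin A w) (fun A => spin A z * spin A w) (fieldAt G θ W N x j s)
          (fieldAt G θ W' N x j s) u U) ∂(omP V) ≤
        (3 * (3 * κ * (17 + 33 * κ)) * (2 * ∑' k, cS D θ κ k)) * (GG G θ κ W W' N j s + 1)) := by
  have hH := wtHyp_GG (N := N) (j := j) hG hθ0 hθ1 hW hne hW' hne' hWW' hκ s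
  have hm := hm_Fl (N := N) (j := j) hG hθ0 hθ1 hW hne s
  have hm' := hm_Fl (N := N) (j := j) hG hθ0 hθ1 hW' hne' s
  have hℓ := hℓ_Fl (N := N) (j := j) hG hθ0 hθ1 hW hne s
  have hℓ' := hℓ_Fl (N := N) (j := j) hG hθ0 hθ1 hW' hne' s
  have hε0 := (eps_pos j).le
  have hε := eps_le j
  have hCS : 0 ≤ ∑' k, cS D θ κ k := tsum_nonneg fun k => cS_nonneg hκ k
  have hGG : 0 ≤ GG G θ κ W W' N j s := Gsup_nonneg W _ _
  constructor
  · intro z hz
    have h := vertex_psi_bound hθ0 hθ1 hm hℓ hm' hℓ' hH hG hW hne hW' hne' hWW' hS hε0 hε hz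
    refine h.trans ?_
    have h1 : 0 ≤ (GG G θ κ W W' N j s + 1) * ∑' k, cS D θ κ k := by positivity
    have h2 : 4 + 33 * κ ≤ 3 * κ * (17 + 33 * κ) * 2 := by nlinarith
    nlinarith
  · intro z hz w hw hzw
    have h := pair_psi_bound hθ0 hθ1 hm hℓ hm' hℓ' hH hG hW hne hW' hne' hWW' hS hε0 hε hzw hz hw
    refine h.trans (le_of_eq ?_)
    ring

/-- Monotonicity in `s`, in the same sweep. -/
theorem GG_mono (hN : N ≤ j) {s₁ s₂ : ℝ} (hs₁ : 0 ≤ s₁) (hs₁₂ : s₁ ≤ s₂) (hs₂ : s₂ ≤ 1 / 2) :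
    GG G θ κ W W' N j s₁ ≤ GG G θ κ W W' N j s₂ := by
  have hκ0 : 0 < κ := by linarith
  have hCS : 0 ≤ ∑' k, cS D θ κ k := tsum_nonneg fun k => cS_nonneg hκ k
  have hK : 0 ≤ 3 * (3 * κ * (17 + 33 * κ)) * (2 * ∑' k, cS D θ κ k) := by positivity
  have hBd : ∀ s ∈ Set.Icc s₁ s₂, GG G θ κ W W' N j s ≤ κ ^ (W.sup (rW G W)) * 4 := fun s _ =>
    GG_le_apriori hG hθ0 hθ1 hW hne hW' hne' hWW' hκ s
  apply Gsup_le (Gsup_nonneg W _ _)
  · intro z hz
    have h := (obs_step hG hθ0 hθ1 hW hne hW' hne' hWW' hκ hN (sc_spin_abs_le' z) (z := z)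
      (fun s => (sum_bounds hG hθ0 hθ1 hW hne hW' hne' hWW' hκ hS trivial s).1 z hz) hK hs₁ hs₁₂ hs₂ hBd).1
    refine le_trans (mul_le_mul_of_nonneg_left h (by positivity)) ?_
    exact le_Gsup_a (a := fun z => κ ^ rW G W z * Em (omP V) G θ (Fl G θ W N j s₂) (Fl G θ W' N j s₂) W W' z)
      W _ hz
  · intro z hz w hw hzw
    have h := (obs_step hG hθ0 hθ1 hW hne hW' hne' hWW' hκ hN (fun A => abs_spin_mul_le A z w) (z := z)
      (fun s => (sum_bounds hG hθ0 hθ1 hW hne hW' hne' hWW' hκ hS trivial s).2 z hz w hw hzw) hK hs₁ hs₁₂ hs₂ hBd).1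
    refine le_trans (mul_le_mul_of_nonneg_left h (by positivity)) ?_
    exact le_Gsup_b (b := fun z w => κ ^ rW G W z * Et (omP V) G θ (Fl G θ W N j s₂) (Fl G θ W' N j s₂) W W' z w)
      W _ hz hw hzw

/-- The implicit Gronwall inequality. -/
theorem GG_step (hN : N ≤ j) {s₁ s₂ : ℝ} (hs₁ : 0 ≤ s₁) (hs₁₂ : s₁ ≤ s₂) (hs₂ : s₂ ≤ 1 / 2) :
    GG G θ κ W W' N j s₂ ≤ GG G θ κ W W' N j s₁ +
      (s₂ - s₁) * (2 * (3 * (3 * κ * (17 + 33 * κ)) * (2 * ∑' k, cS D θ κ k))) * (GG G θ κ W W' N j s₂ + 1) := by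
  have hκ0 : 0 < κ := by linarith
  have hCS : 0 ≤ ∑' k, cS D θ κ k := tsum_nonneg fun k => cS_nonneg hκ k
  have hK : 0 ≤ 3 * (3 * κ * (17 + 33 * κ)) * (2 * ∑' k, cS D θ κ k) := by positivity
  have hBd : ∀ s ∈ Set.Icc s₁ s₂, GG G θ κ W W' N j s ≤ GG G θ κ W W' N j s₂ := fun s hs =>
    GG_mono hG hθ0 hθ1 hW hne hW' hne' hWW' hκ hS hN (hs₁.trans hs.1) hs.2 hs₂
  have hG2 : 0 ≤ GG G θ κ W W' N j s₂ := Gsup_nonneg W _ _
  have hG1 : 0 ≤ GG G θ κ W W' N j s₁ := Gsup_nonneg W _ _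
  have hd : 0 ≤ s₂ - s₁ := by linarith
  apply Gsup_le (by positivity)
  · intro z hz
    have h := (obs_step hG hθ0 hθ1 hW hne hW' hne' hWW' hκ hN (sc_spin_abs_le' z) (z := z)
      (fun s => (sum_bounds hG hθ0 hθ1 hW hne hW' hne' hWW' hκ hS trivial s).1 z hz) hK hs₁ hs₁₂ hs₂ hBd).2
    have h1 := le_Gsup_a (a := fun z => κ ^ rW G W z * Em (omP V) G θ (Fl G θ W N j s₁) (Fl G θ W' N j s₁) W W' z)
      (b := fun z w => κ ^ rW G W z * Et (omP V) G θ (Fl G θ W N j s₁) (Fl G θ W' N j s₁) W W' z w) (G := G) W hz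
    have e : (s₂ - s₁) * (2 * (3 * (3 * κ * (17 + 33 * κ)) * (2 * ∑' k, cS D θ κ k))) * (GG G θ κ W W' N j s₂ + 1) =
        2 * (s₂ - s₁) * ((3 * (3 * κ * (17 + 33 * κ)) * (2 * ∑' k, cS D θ κ k)) * (GG G θ κ W W' N j s₂ + 1)) := by ring
    rw [e]
    exact h.trans (add_le_add_left h1 _)
  · intro z hz w hw hzw
    have h := (obs_step hG hθ0 hθ1 hW hne hW' hne' hWW' hκ hN (fun A => abs_spin_mul_le A z w) (z := z)
      (fun s => (sum_bounds hG hθ0 hθ1 hW hne hW' hne' hWW' hκ hS trivial s).2 z hz w hw hzw) hK hs₁ hs₁₂ hs₂ hBd).2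
    have h1 := le_Gsup_b (a := fun z => κ ^ rW G W z * Em (omP V) G θ (Fl G θ W N j s₁) (Fl G θ W' N j s₁) W W' z)
      (b := fun z w => κ ^ rW G W z * Et (omP V) G θ (Fl G θ W N j s₁) (Fl G θ W' N j s₁) W W' z w) (G := G) W hz hw hzw
    have e : (s₂ - s₁) * (2 * (3 * (3 * κ * (17 + 33 * κ)) * (2 * ∑' k, cS D θ κ k))) * (GG G θ κ W W' N j s₂ + 1) =
        2 * (s₂ - s₁) * ((3 * (3 * κ * (17 + 33 * κ)) * (2 * ∑' k, cS D θ κ k)) * (GG G θ κ W W' N j s₂ + 1)) := by ring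
    rw [e]
    exact h.trans (add_le_add_left h1 _)

end Final

section Final2

theorem fieldAt_start {θ : ℝ} (W : Finset V) (N : ℤ) (x : Om V) : fieldAt G θ W N x N 0 = fun _ => 0 := by
  unfold fieldAt runSweep actList
  have hempty : (W.filter fun u => tOf x u N < 0 ∧ ∀ u' ∈ W, u' ≠ u → tOf x u' N ≠ tOf x u N) = ∅ := by
    rw [Finset.filter_eq_empty_iff]
    rintro u _ ⟨h, -⟩
    have : 0 ≤ tOf x u N := (x u (N, false)).2.1
    linarith
  simp only [hempty]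
  simp [fieldStart]

variable (hG : RegTree G D) {θ : ℝ} (hθ0 : 0 ≤ θ) (hθ1 : θ < 1) {W W' : Finset V} (hW : IsConvexSet G W)
  (hne : W.Nonempty) (hW' : IsConvexSet G W') (hne' : W'.Nonempty) (hWW' : W ⊆ W') {κ : ℝ} (hκ : 1 ≤ κ)
  (hS : Summable (cS D θ κ)) {N j : ℤ}

include hG hθ0 hθ1 hW hne hW' hne' hWW' hκ

theorem GG_start : GG G θ κ W W' N N 0 = 0 := by
  apply le_antisymm _ (Gsup_nonneg W _ _)
  have h0 : ∀ W : Finset V, ∀ x, Fl G θ W N N 0 x = (0 : V → ℝ) := fun W x => by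
    unfold Fl
    rw [fieldAt_start]
    rfl
  apply Gsup_le le_rfl
  · intro z hz
    have e : Em (omP V) G θ (Fl G θ W N N 0) (Fl G θ W' N N 0) W W' z = 0 := by
      unfold Em
      simp only [h0]
      rw [mag_zero hG hθ0 hθ1 hW hz, mag_zero hG hθ0 hθ1 hW' (hWW' hz)]
      simp
    rw [e, mul_zero]
  · intro z hz w hw hzw
    have e : Et (omP V) G θ (Fl G θ W N N 0) (Fl G θ W' N N 0) W W' z w = 0 := by
      unfold Et
      simp only [h0]
      rw [tcor_zero hG hθ0 hθ1 hW hzw hz hw, tcor_zero hG hθ0 hθ1 hW' hzw (hWW' hz) (hWW' hw)]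
      simp
    rw [e, mul_zero]

theorem GG_half (hN : N ≤ j) : GG G θ κ W W' N j (1 / 2) = GG G θ κ W W' N (j + 1) 0 := by
  have e : ∀ W : Finset V, Fl G θ W N j (1 / 2) = Fl G θ W N (j + 1) 0 := fun W => by
    funext x
    unfold Fl
    exact fieldAt_half hG hθ0 hθ1 x hN
  unfold GG
  rw [e W, e W']

include hS

theorem sweep_bound {n : ℕ} (hn : 2 * (3 * (3 * κ * (17 + 33 * κ)) * (2 * ∑' k, cS D θ κ k)) ≤ n) (hn0 : 0 < n) :
    ∀ (k : ℕ) {s : ℝ}, 0 ≤ s → s ≤ 1 / 2 → GG G θ κ W W' N (N + k) s + 1 ≤ (2 ^ n) ^ (k + 1) := by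
  have hκ0 : 0 < κ := by linarith
  have hCS : 0 ≤ ∑' k, cS D θ κ k := tsum_nonneg fun k => cS_nonneg hκ k
  have hc : 0 ≤ 2 * (3 * (3 * κ * (17 + 33 * κ)) * (2 * ∑' k, cS D θ κ k)) := by positivity
  have hgr : ∀ (j : ℤ), N ≤ j → ∀ {s : ℝ}, 0 ≤ s → s ≤ 1 / 2 →
      GG G θ κ W W' N j s + 1 ≤ 2 ^ n * (GG G θ κ W W' N j 0 + 1) := by
    intro j hj s hs0 hs
    exact gronwall_partition (g := fun s => GG G θ κ W W' N j s) (fun _ _ _ => Gsup_nonneg W _ _) hc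
      (fun s₁ s₂ h1 h2 h3 => GG_step hG hθ0 hθ1 hW hne hW' hne' hWW' hκ hS hj h1 h2 h3) hn hn0 hs0 hs
  intro k
  induction k with
  | zero =>
    intro s hs0 hs
    have h := hgr N le_rfl hs0 hs
    rw [GG_start hG hθ0 hθ1 hW hne hW' hne' hWW' hκ] at h
    simpa using h
  | succ k ih =>
    intro s hs0 hs
    have hj : N ≤ N + (k : ℤ) := by omega
    have h := hgr (N + ((k + 1 : ℕ) : ℤ)) (by omega) hs0 hs
    have e : N + ((k + 1 : ℕ) : ℤ) = N + (k : ℤ) + 1 := by push_cast; ring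
    rw [e] at h ⊢
    rw [← GG_half hG hθ0 hθ1 hW hne hW' hne' hWW' hκ hj] at h
    have h2 := ih (s := 1 / 2) (by norm_num) le_rfl
    have hpow : (0 : ℝ) ≤ 2 ^ n := by positivity
    refine h.trans ?_
    calc (2 : ℝ) ^ n * (GG G θ κ W W' N (N + (k : ℤ)) (1 / 2) + 1) ≤ 2 ^ n * (2 ^ n) ^ (k + 1) :=
          mul_le_mul_of_nonneg_left h2 hpow
      _ = (2 ^ n) ^ (k + 1 + 1) := by ring

end Final2

/-- **(Mod G) Weighted Gronwall.**  `κ > 1` with `D θ² κ < 1`.  The constant depends on `θ, κ, N, j, D` only. -/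
theorem strict_compare_proved (hG : RegTree G D) {θ : ℝ} (hθ0 : 0 ≤ θ) (hθ : (D : ℝ) * θ ^ 2 < 1)
    {κ : ℝ} (hκ : 1 < κ) (hκθ : (D : ℝ) * θ ^ 2 * κ < 1) (N j : ℤ) (hN : N ≤ j) :
    ∃ C : ℝ, 0 < C ∧ ∀ {W W' : Finset V}, IsConvexSet G W → IsConvexSet G W' → W ⊆ W' →
      ∀ {v : V} {R : ℕ}, ball G v R ⊆ W → ∀ {s : ℝ}, 0 ≤ s → s ≤ 1 / 2 →
        ∫ x, (mag G θ (fieldAt G θ W N x j s) W v - mag G θ (fieldAt G θ W' N x j s) W' v) ^ 2 ∂(omP V) ≤ C * κ⁻¹ ^ R ∧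
        ∀ w, G.Adj v w →
          ∫ x, (tcor G θ (fieldAt G θ W N x j s) W v w - tcor G θ (fieldAt G θ W' N x j s) W' v w) ^ 2 ∂(omP V) ≤
            C * κ⁻¹ ^ R := by
  have hD2 : (2 : ℝ) ≤ D := by exact_mod_cast hG.two_le
  have hθ1 : θ < 1 := by nlinarith [sq_nonneg θ]
  have hκ1 := hκ.le
  have hκ0 : 0 < κ := by linarith
  have hS : Summable (cS D θ κ) := summable_cS hκ1 hκθ
  set K := 2 * (3 * (3 * κ * (17 + 33 * κ)) * (2 * ∑' k, cS D θ κ k)) with hK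
  obtain ⟨n₀, hn₀⟩ := exists_nat_ge K
  set n := n₀ + 1 with hn
  have hnK : K ≤ n := by
    rw [hn]
    push_cast
    linarith
  set k := (j - N).toNat with hk
  have hjk : N + (k : ℤ) = j := by
    rw [hk, Int.toNat_of_nonneg (by omega)]
    ring
  refine ⟨(2 ^ n) ^ (k + 1) + 4, by positivity, ?_⟩
  intro W W' hW hW' hWW' v R hR s hs0 hs
  have hvW : v ∈ W := hR (by rw [hG.mem_ball]; simp)
  have hne : W.Nonempty := ⟨v, hvW⟩
  have hne' : W'.Nonempty := ⟨v, hWW' hvW⟩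
  have hb := sweep_bound hG hθ0 hθ1 hW hne hW' hne' hWW' hκ1 hS (N := N) (n := n) hnK (by omega) k hs0 hs
  rw [hjk] at hb
  have hRρ := le_rW hG hR
  have hinvpos : 0 < κ⁻¹ ^ R := by positivity
  have hκpos : 0 < κ ^ rW G W v := by positivity
  have hκR : κ⁻¹ ^ rW G W v ≤ κ⁻¹ ^ R := by
    apply pow_le_pow_of_le_one (by positivity) (inv_le_one_of_one_le₀ hκ1) hRρ
  have hGnn : 0 ≤ GG G θ κ W W' N j s := Gsup_nonneg W _ _
  have hC0 : (0 : ℝ) ≤ (2 ^ n) ^ (k + 1) := by positivity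
  have hfinal : ∀ E : ℝ, 0 ≤ E → κ ^ rW G W v * E ≤ GG G θ κ W W' N j s → E ≤ ((2 ^ n) ^ (k + 1) + 4) * κ⁻¹ ^ R := by
    intro E hE h
    have h1 : E ≤ GG G θ κ W W' N j s * κ⁻¹ ^ rW G W v := by
      rw [inv_pow, ← div_eq_mul_inv, le_div_iff₀ hκpos]
      linarith
    calc E ≤ GG G θ κ W W' N j s * κ⁻¹ ^ rW G W v := h1
      _ ≤ GG G θ κ W W' N j s * κ⁻¹ ^ R := mul_le_mul_of_nonneg_left hκR hGnn
      _ ≤ ((2 ^ n) ^ (k + 1) + 4) * κ⁻¹ ^ R := by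
        apply mul_le_mul_of_nonneg_right _ hinvpos.le
        linarith
  constructor
  · exact hfinal _ (integral_nonneg fun x => sq_nonneg _) (le_Gsup_a (a := fun z => κ ^ rW G W z * Em (omP V) G θ (Fl G θ W N j s) (Fl G θ W' N j s) W W' z)
      (b := fun z w => κ ^ rW G W z * Et (omP V) G θ (Fl G θ W N j s) (Fl G θ W' N j s) W W' z w) (G := G) W hvW)
  · intro w hvw
    by_cases hw : w ∈ W
    · exact hfinal _ (integral_nonneg fun x => sq_nonneg _) (le_Gsup_b (a := fun z => κ ^ rW G W z * Em (omP V) G θ (Fl G θ W N j s) (Fl G θ W' N j s) W W' z)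
        (b := fun z w => κ ^ rW G W z * Et (omP V) G θ (Fl G θ W N j s) (Fl G θ W' N j s) W W' z w) (G := G) W hvW hw hvw)
    · -- then `R = 0`
      have hR0 : R = 0 := by
        by_contra hne0
        apply hw
        apply hR
        rw [hG.mem_ball, SimpleGraph.dist_eq_one_iff_adj.mpr hvw]
        omega
      rw [hR0, pow_zero, mul_one]
      have := Et_le_four (N := N) (j := j) hG hθ0 hθ1 hW hne hW' hne' hWW' hκ1 s v w
      unfold Et at this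
      exact this.trans (by linarith)


end StrictCmp

export StrictCmp (strict_compare_proved)

end Crest.Agent.Lib.IsingFIID
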