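/-
S0241 blueprint, Mod L (section 9): two FIID states on the same label space.
Abstract: `c` on vertices, `b` on directed edges, in `[0,1]`, `[0,θ]`, reversal `c_p b_{p→y} = c_y b_{y→p}` (a.e.),
equivariance.  No Ising model, no dynamics here.  ALL CONSTANTS DEPEND ONLY ON `D`.
Proof outline (see the blueprint):
  P_e := Σ_u (Π - Π')² = Q + Q' - 2R; P_e = Σ_z [b b' P_z + Δb (Δb Q̄_z + b̄ G_z)], G = Q - Q'.
  (L3) G = B(MG + Θ), M = (b²+b'²)/2 ≤ 1/D, Θ = Δ(b²) Q̄, B = sum over children.  Multiplier trick and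
       `var_grandchildren` (Universal.lean).  (L2) mass transport by automorphisms + reversal.
-/
import Crest.Agent.Lib.IsingFIID.Universal
import Crest.Agent.Lib.IsingFIID.Spin

set_option autoImplicit false
set_option linter.unusedSectionVars false
universe u v

namespace Crest.Agent.Lib.IsingFIID

open MeasureTheory Filter
open scoped Classical Topology

/-- A FIID state: `G` the tree, `E` the label space of a vertex, `θ` the bound on the slopes. -/
structure FState {V : Type u} (G : SimpleGraph V) (E : Type v) [MeasurableSpace E] (θ : ℝ) where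
  c : V → (V → E) → ℝ
  b : V → V → (V → E) → ℝ
  meas_c : ∀ v, Measurable (c v)
  meas_b : ∀ p y, Measurable (b p y)
  c_nonneg : ∀ v x, 0 ≤ c v x
  c_le : ∀ v x, c v x ≤ 1
  b_nonneg : ∀ p y x, 0 ≤ b p y x
  b_le : ∀ p y x, b p y x ≤ θ
  equiv_c : ∀ (g : G ≃g G) (v : V) (x : V → E), c v (x ∘ g) = c (g v) x
  equiv_b : ∀ (g : G ≃g G) (p y : V) (x : V → E), b p y (x ∘ g) = b (g p) (g y) x

section Defs

variable {V : Type u} (G : SimpleGraph V) [G.LocallyFinite]

/-- level sums for a pair of slope families: `lev 0 = 1`, `lev (r+1) p y = Σ_z b_{y→z} b'_{y→z} lev r y z`. -/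
noncomputable def levMix (b b' : V → V → ℝ) : ℕ → V → V → ℝ
  | 0, _, _ => 1
  | r + 1, p, y => ∑ z ∈ ch G p y, b y z * b' y z * levMix b b' r y z

/-- `Q_e` (edge version, mixed). `Qmix b b = Q`, `Qmix b b' = R`. -/
noncomputable def Qmix (b b' : V → V → ℝ) (p y : V) : ℝ :=
  ∑' r, levMix G b b' r p y

/-- vertex version `Q_v = 1 + Σ_{y~v} b_{v→y} b'_{v→y} Q_{v→y}` -/
noncomputable def QmixV (b b' : V → V → ℝ) (v : V) : ℝ :=
  1 + ∑ y ∈ G.neighborFinset v, b v y * b' v y * Qmix G b b' v y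

/-- Total sum over all `u` around `v` of `(c Π - c' Π')²`. -/
noncomputable def totalDiff (c c' : ℝ) (b b' : V → V → ℝ) (v : V) : ℝ :=
  ∑' r, ∑ u ∈ sphere G v r, (c * pathProd G b v u - c' * pathProd G b' v u) ^ 2

/-- Same for the half tree of `w` seen from `z`, with prefactors `n,n'`. -/
noncomputable def sideDiff (n n' : ℝ) (b b' : V → V → ℝ) (z w : V) : ℝ :=
  ∑' r, ∑ u ∈ desc G r z w, (n * pathProd G b w u - n' * pathProd G b' w u) ^ 2

/-- Sum over all `u` of `h_u (c Π)²`. -/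
noncomputable def totalWeighted (h : V → ℝ) (c : ℝ) (b : V → V → ℝ) (v : V) : ℝ :=
  ∑' r, ∑ u ∈ sphere G v r, h u * (c * pathProd G b v u) ^ 2

variable {G} {E : Type v} [MeasurableSpace E] {θ θ' : ℝ}

/-- `Q` of a state -/
noncomputable def FState.Q (st : FState G E θ) (p y : V) (x : V → E) : ℝ :=
  Qmix G (fun a b => st.b a b x) (fun a b => st.b a b x) p y

/-- `Q_v` of a state -/
noncomputable def FState.QV (st : FState G E θ) (v : V) (x : V → E) : ℝ :=
  QmixV G (fun a b => st.b a b x) (fun a b => st.b a b x) v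

/-- `Q̄` on a directed edge -/
noncomputable def Qbar (st : FState G E θ) (st' : FState G E θ') (p y : V) (x : V → E) : ℝ :=
  (st.Q p y x + st'.Q p y x) / 2

/-- `G_e = Q_e - Q'_e` -/
noncomputable def Qdiff (st : FState G E θ) (st' : FState G E θ') (p y : V) (x : V → E) : ℝ :=
  st.Q p y x - st'.Q p y x

/-- `Q̄` at a vertex -/
noncomputable def QbarV (st : FState G E θ) (st' : FState G E θ') (v : V) (x : V → E) : ℝ :=
  (st.QV v x + st'.QV v x) / 2

end Defs

section Deterministic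

variable {V : Type u} {G : SimpleGraph V} [G.LocallyFinite] {D : ℕ} {θ θ' : ℝ}

theorem pathProd_self_tw (b : V → V → ℝ) (v : V) : pathProd G b v v = 1 := by
  simp [pathProd, pathProdF]

/-- First step of a path product. -/
theorem pathProd_step (hG : RegTree G D) (b : V → V → ℝ) {y z u : V} (h : G.Adj y z) {r : ℕ}
    (hu : u ∈ desc G r y z) : pathProd G b y u = b y z * pathProd G b z u := by
  obtain ⟨h1, h2⟩ := (hG.mem_desc h r u).mp hu
  unfold pathProd
  rw [h1, h2, pathProdF, hG.stepTo_of_mem_desc h hu]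

/-- The vector identity behind the recursion: level sums are sums of products of path products. -/
theorem sum_desc_pathProd (hG : RegTree G D) (b b' : V → V → ℝ) {p y : V} (hpy : G.Adj p y) (r : ℕ) :
    ∑ u ∈ desc G r p y, pathProd G b y u * pathProd G b' y u = levMix G b b' r p y := by
  induction r generalizing p y with
  | zero => simp [desc, levMix, pathProd_self_tw]
  | succ r ih =>
    rw [hG.sum_desc_succ hpy, levMix]
    refine Finset.sum_congr rfl fun z hz => ?_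
    have hyz : G.Adj y z := (mem_ch.mp hz).1
    rw [← ih hyz, Finset.mul_sum]
    refine Finset.sum_congr rfl fun u hu => ?_
    rw [pathProd_step hG b hyz hu, pathProd_step hG b' hyz hu]
    ring

theorem levMix_le (hG : RegTree G D) {b b' : V → V → ℝ} (hθ0 : 0 ≤ θ) (hθ0' : 0 ≤ θ')
    (hb0 : ∀ p y, 0 ≤ b p y) (hb : ∀ p y, b p y ≤ θ) (hb0' : ∀ p y, 0 ≤ b' p y) (hb' : ∀ p y, b' p y ≤ θ')
    {p y : V} (hpy : G.Adj p y) (r : ℕ) :
    0 ≤ levMix G b b' r p y ∧ levMix G b b' r p y ≤ ((D : ℝ) * θ * θ') ^ r := by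
  induction r generalizing p y with
  | zero => simp [levMix]
  | succ r ih =>
    rw [levMix]
    constructor
    · refine Finset.sum_nonneg fun z hz => ?_
      have hyz : G.Adj y z := (mem_ch.mp hz).1
      exact mul_nonneg (mul_nonneg (hb0 _ _) (hb0' _ _)) (ih hyz).1
    · have : ∀ z ∈ ch G p y, b y z * b' y z * levMix G b b' r y z ≤ θ * θ' * ((D : ℝ) * θ * θ') ^ r := by
        intro z hz
        have hyz : G.Adj y z := (mem_ch.mp hz).1
        have hpow : 0 ≤ ((D : ℝ) * θ * θ') ^ r := by positivity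
        have h1 : b y z * b' y z ≤ θ * θ' :=
          mul_le_mul (hb _ _) (hb' _ _) (hb0' _ _) hθ0
        exact mul_le_mul h1 (ih hyz).2 (ih hyz).1 (by positivity)
      refine (Finset.sum_le_card_nsmul _ _ _ this).trans ?_
      rw [hG.card_ch hpy, nsmul_eq_mul, pow_succ]
      apply le_of_eq
      ring

/-- summability of the level sums on adjacent pairs. -/
theorem levMix_summable (hG : RegTree G D) {b b' : V → V → ℝ} (hθ0 : 0 ≤ θ) (hθ0' : 0 ≤ θ') (hθθ' : (D : ℝ) * θ * θ' < 1)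
    (hb0 : ∀ p y, 0 ≤ b p y) (hb : ∀ p y, b p y ≤ θ) (hb0' : ∀ p y, 0 ≤ b' p y) (hb' : ∀ p y, b' p y ≤ θ')
    {p y : V} (hpy : G.Adj p y) : Summable (fun r => levMix G b b' r p y) := by
  refine Summable.of_nonneg_of_le (fun r => (levMix_le hG hθ0 hθ0' hb0 hb hb0' hb' hpy r).1)
    (fun r => (levMix_le hG hθ0 hθ0' hb0 hb hb0' hb' hpy r).2) ?_
  exact summable_geometric_of_lt_one (by positivity) hθθ'

theorem Qmix_le (hG : RegTree G D) {b b' : V → V → ℝ} (hθ0 : 0 ≤ θ) (hθ0' : 0 ≤ θ') (hθθ' : (D : ℝ) * θ * θ' < 1)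
    (hb0 : ∀ p y, 0 ≤ b p y) (hb : ∀ p y, b p y ≤ θ) (hb0' : ∀ p y, 0 ≤ b' p y) (hb' : ∀ p y, b' p y ≤ θ')
    {p y : V} (hpy : G.Adj p y) :
    Summable (fun r => levMix G b b' r p y) ∧ 1 ≤ Qmix G b b' p y ∧ Qmix G b b' p y ≤ 1 / (1 - (D : ℝ) * θ * θ') := by
  have hs := levMix_summable hG hθ0 hθ0' hθθ' hb0 hb hb0' hb' hpy
  refine ⟨hs, ?_, ?_⟩
  · have h0 : levMix G b b' 0 p y = 1 := rfl
    calc (1 : ℝ) = levMix G b b' 0 p y := h0.symm
      _ ≤ Qmix G b b' p y :=
        hs.le_tsum 0 (fun j _ => (levMix_le hG hθ0 hθ0' hb0 hb hb0' hb' hpy j).1)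
  · have hgeo : HasSum (fun r : ℕ => ((D : ℝ) * θ * θ') ^ r) (1 - (D : ℝ) * θ * θ')⁻¹ :=
      hasSum_geometric_of_lt_one (by positivity) hθθ'
    rw [one_div, ← hgeo.tsum_eq]
    exact hs.tsum_le_tsum (fun r => (levMix_le hG hθ0 hθ0' hb0 hb hb0' hb' hpy r).2) hgeo.summable

/-- The recursion of `Q`. -/
theorem Qmix_eq (hG : RegTree G D) {b b' : V → V → ℝ} (hθ0 : 0 ≤ θ) (hθ0' : 0 ≤ θ') (hθθ' : (D : ℝ) * θ * θ' < 1)
    (hb0 : ∀ p y, 0 ≤ b p y) (hb : ∀ p y, b p y ≤ θ) (hb0' : ∀ p y, 0 ≤ b' p y) (hb' : ∀ p y, b' p y ≤ θ')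
    {p y : V} (hpy : G.Adj p y) :
    Qmix G b b' p y = 1 + ∑ z ∈ ch G p y, b y z * b' y z * Qmix G b b' y z := by
  have hs := levMix_summable hG hθ0 hθ0' hθθ' hb0 hb hb0' hb' hpy
  unfold Qmix
  rw [hs.tsum_eq_zero_add]
  have hchild : ∀ z ∈ ch G p y, HasSum (fun r => b y z * b' y z * levMix G b b' r y z)
      (b y z * b' y z * ∑' r, levMix G b b' r y z) := fun z hz =>
    (levMix_summable hG hθ0 hθ0' hθθ' hb0 hb hb0' hb' (mem_ch.mp hz).1).hasSum.mul_left _
  have := hasSum_sum hchild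
  congr 1
  simp only [levMix]
  exact this.tsum_eq

end Deterministic

/-! ### Edge families, invariance under automorphisms, duality -/

section Families

variable {V : Type u} {G : SimpleGraph V} [G.LocallyFinite] {D : ℕ}
variable {E : Type v} [MeasurableSpace E]

/-- Bounded measurable equivariant functions on adjacent pairs. -/
structure EF (G : SimpleGraph V) (f : V → V → (V → E) → ℝ) : Prop where
  meas : ∀ p y, G.Adj p y → Measurable (f p y)
  bdd : ∃ C : ℝ, ∀ p y, G.Adj p y → ∀ x, |f p y x| ≤ C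
  equiv : ∀ (g : G ≃g G) (p y : V), G.Adj p y → ∀ x, f p y (x ∘ g) = f (g p) (g y) x

/-- Bounded measurable equivariant functions on vertices. -/
structure VF (G : SimpleGraph V) (f : V → (V → E) → ℝ) : Prop where
  meas : ∀ p, Measurable (f p)
  bdd : ∃ C : ℝ, ∀ p x, |f p x| ≤ C
  equiv : ∀ (g : G ≃g G) (p : V) (x : V → E), f p (x ∘ g) = f (g p) x

namespace EF
variable {f f' : V → V → (V → E) → ℝ}

omit [G.LocallyFinite] in
theorem bm (hf : EF G f) {p y : V} (h : G.Adj p y) : Hoeffding.BM (f p y) := by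
  obtain ⟨C, hC⟩ := hf.bdd
  exact ⟨hf.meas p y h, C, hC p y h⟩

omit [G.LocallyFinite] in
theorem add (hf : EF G f) (hf' : EF G f') : EF G (fun p y x => f p y x + f' p y x) := by
  obtain ⟨C, hC⟩ := hf.bdd
  obtain ⟨C', hC'⟩ := hf'.bdd
  refine ⟨fun p y h => (hf.meas p y h).add (hf'.meas p y h), ⟨C + C', fun p y h x =>
    (abs_add_le _ _).trans (add_le_add (hC p y h x) (hC' p y h x))⟩, fun g p y h x => ?_⟩
  rw [hf.equiv g p y h, hf'.equiv g p y h]

omit [G.LocallyFinite] in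
theorem mul (hf : EF G f) (hf' : EF G f') : EF G (fun p y x => f p y x * f' p y x) := by
  obtain ⟨C, hC⟩ := hf.bdd
  obtain ⟨C', hC'⟩ := hf'.bdd
  refine ⟨fun p y h => (hf.meas p y h).mul (hf'.meas p y h), ⟨C * C', fun p y h x => ?_⟩, fun g p y h x => ?_⟩
  · rw [abs_mul]
    exact mul_le_mul (hC p y h x) (hC' p y h x) (abs_nonneg _) ((abs_nonneg _).trans (hC p y h x))
  · rw [hf.equiv g p y h, hf'.equiv g p y h]

omit [G.LocallyFinite] in
theorem const (c : ℝ) : EF G (fun _ _ (_ : V → E) => c) :=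
  ⟨fun _ _ _ => measurable_const, ⟨|c|, fun _ _ _ _ => le_rfl⟩, fun _ _ _ _ _ => rfl⟩

omit [G.LocallyFinite] in
theorem sub (hf : EF G f) (hf' : EF G f') : EF G (fun p y x => f p y x - f' p y x) := by
  have := hf.add ((const (-1)).mul hf')
  convert this using 4
  ring

omit [G.LocallyFinite] in
theorem const_mul (hf : EF G f) (c : ℝ) : EF G (fun p y x => c * f p y x) := (const c).mul hf

omit [G.LocallyFinite] in
/-- Reverse the orientation. -/
theorem rev (hf : EF G f) : EF G (fun p y x => f y p x) := by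
  obtain ⟨C, hC⟩ := hf.bdd
  exact ⟨fun p y h => hf.meas y p h.symm, ⟨C, fun p y h x => hC y p h.symm x⟩,
    fun g p y h x => hf.equiv g y p h.symm x⟩

/-- Extension by zero: an honest `EdgeFamily`. -/
noncomputable def ext (G : SimpleGraph V) (f : V → V → (V → E) → ℝ) : V → V → (V → E) → ℝ :=
  fun p y x => if G.Adj p y then f p y x else 0

omit [G.LocallyFinite] in
theorem ext_of_adj {p y : V} (h : G.Adj p y) (x : V → E) : ext G f p y x = f p y x := by
  simp [ext, h]

omit [G.LocallyFinite] in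
theorem ext_measurable (hf : EF G f) (p y : V) : Measurable (ext G f p y) := by
  by_cases h : G.Adj p y
  · have : ext G f p y = f p y := funext fun x => ext_of_adj h x
    rw [this]; exact hf.meas p y h
  · have : ext G f p y = fun _ => 0 := funext fun x => by simp [ext, h]
    rw [this]; exact measurable_const

end EF

theorem EF.edgeFamily {f : V → V → (V → E) → ℝ} (hf : EF G f) : EdgeFamily G (EF.ext G f) := by
  obtain ⟨C, hC⟩ := hf.bdd
  refine ⟨hf.ext_measurable, ⟨max C 0, fun p y x => ?_⟩, fun g p y x => ?_⟩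
  · by_cases h : G.Adj p y
    · rw [EF.ext_of_adj h]; exact (hC p y h x).trans (le_max_left _ _)
    · simp [EF.ext, h]
  · by_cases h : G.Adj p y
    · rw [EF.ext_of_adj h, EF.ext_of_adj (g.map_adj_iff.mpr h), hf.equiv g p y h]
    · have h' : ¬ G.Adj (g p) (g y) := fun h2 => h (g.map_adj_iff.mp h2)
      simp [EF.ext, h, h']

namespace VF
variable {f f' : V → (V → E) → ℝ}

omit [G.LocallyFinite] in
theorem bm (hf : VF G f) (p : V) : Hoeffding.BM (f p) := by
  obtain ⟨C, hC⟩ := hf.bdd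
  exact ⟨hf.meas p, C, hC p⟩

omit [G.LocallyFinite] in
theorem mul (hf : VF G f) (hf' : VF G f') : VF G (fun p x => f p x * f' p x) := by
  obtain ⟨C, hC⟩ := hf.bdd
  obtain ⟨C', hC'⟩ := hf'.bdd
  refine ⟨fun p => (hf.meas p).mul (hf'.meas p), ⟨C * C', fun p x => ?_⟩, fun g p x => ?_⟩
  · rw [abs_mul]
    exact mul_le_mul (hC p x) (hC' p x) (abs_nonneg _) ((abs_nonneg _).trans (hC p x))
  · rw [hf.equiv g p, hf'.equiv g p]

end VF

variable {κ : Measure E} [IsProbabilityMeasure κ]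

local notation "μ" => Measure.infinitePi (fun _ : V => κ)

omit [G.LocallyFinite] in
theorem integral_comp_aut (g : G ≃g G) {f : (V → E) → ℝ} (hf : Hoeffding.BM f) :
    ∫ x, f (x ∘ g) ∂μ = ∫ x, f x ∂μ :=
  Hoeffding.integral_comp_equiv κ g.toEquiv hf

/-- Invariance of the integral on non-backtracking paths with three vertices. -/
theorem integral_path_invariant (hG : RegTree G D) (φ : V → V → V → (V → E) → ℝ)
    {a b c a' b' c' : V} (hp : IsNB G [a, b, c]) (hp' : IsNB G [a', b', c'])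
    (hbm : Hoeffding.BM (φ a b c))
    (heq : ∀ (g : G ≃g G) x, φ a b c (x ∘ g) = φ (g a) (g b) (g c) x) :
    ∫ x, φ a b c x ∂μ = ∫ x, φ a' b' c' x ∂μ := by
  obtain ⟨g, hg⟩ := hG.exists_aut_of_isNB hp hp' rfl
  simp only [List.map_cons, List.map_nil, List.cons.injEq, and_true] at hg
  obtain ⟨rfl, rfl, rfl⟩ := hg
  rw [← integral_comp_aut (κ := κ) g hbm]
  exact integral_congr_ae (Filter.Eventually.of_forall fun x => heq g x)

/-- Invariance of the integral on edges. -/
theorem integral_edge_invariant (hG : RegTree G D) (φ : V → V → (V → E) → ℝ)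
    {a b a' b' : V} (hp : G.Adj a b) (hp' : G.Adj a' b')
    (hbm : Hoeffding.BM (φ a b))
    (heq : ∀ (g : G ≃g G) x, φ a b (x ∘ g) = φ (g a) (g b) x) :
    ∫ x, φ a b x ∂μ = ∫ x, φ a' b' x ∂μ := by
  obtain ⟨g, hg⟩ := hG.exists_aut_of_isNB (l := [a, b]) (l' := [a', b']) hp hp' rfl
  simp only [List.map_cons, List.map_nil, List.cons.injEq, and_true] at hg
  obtain ⟨rfl, rfl⟩ := hg
  rw [← integral_comp_aut (κ := κ) g hbm]
  exact integral_congr_ae (Filter.Eventually.of_forall fun x => heq g x)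

omit [G.LocallyFinite] in
theorem isNB_three {a b c : V} (h1 : G.Adj a b) (h2 : G.Adj b c) (h3 : c ≠ a) : IsNB G [a, b, c] := by
  simpa [IsNB] using ⟨h1, h3, h2⟩

/-- **Duality**: the mass transport identity without any infinite sum.  `w` is a vertex weight, `s` the
edge multiplier, `P = B(sP + F)`, `R = 1 + B(sR)`. -/
theorem duality (hG : RegTree G D) {w : V → (V → E) → ℝ} {s P F R : V → V → (V → E) → ℝ}
    (hw : VF G w) (hs : EF G s) (hP : EF G P) (hF : EF G F) (hR : EF G R)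
    (hrev : ∀ p y, G.Adj p y → ∀ᵐ x ∂μ, w p x * s p y x = w y x * s y p x)
    (hrecP : ∀ p y, G.Adj p y → ∀ x, P p y x = ∑ z ∈ ch G p y, (s y z x * P y z x + F y z x))
    (hrecR : ∀ p y, G.Adj p y → ∀ x, R p y x = 1 + ∑ z ∈ ch G p y, s y z x * R y z x)
    {v y : V} (hvy : G.Adj v y) :
    ∫ x, w v x * (s v y x * P v y x + F v y x) ∂μ = ∫ x, w v x * R y v x * F v y x ∂μ := by
  classical
  have hD : 2 ≤ D := hG.two_le
  have hyv : G.Adj y v := hvy.symm
  have hcardyv : (ch G y v).card = D := hG.card_ch hyv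
  obtain ⟨z₀, hz₀⟩ : (ch G y v).Nonempty := by
    rw [← Finset.card_pos, hcardyv]; omega
  have hvz₀ : G.Adj v z₀ := (mem_ch.mp hz₀).1
  have hz₀y : z₀ ≠ y := (mem_ch.mp hz₀).2
  have hcardz₀ : (ch G z₀ v).card = D := hG.card_ch hvz₀.symm
  -- the integrands are all bounded and measurable
  have hwb := hw.bm
  have adjch : ∀ {p q z : V}, z ∈ ch G p q → G.Adj q z := fun h => (mem_ch.mp h).1
  -- T_F
  let TF : V → V → V → (V → E) → ℝ := fun a b c x => w b x * (s b c x * R b c x * F b a x)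
  let TS : V → V → V → (V → E) → ℝ := fun a b c x => w b x * (s b c x * R b c x * (s b a x * P b a x))
  have hTFbm : ∀ {a b c : V}, G.Adj a b → G.Adj b c → Hoeffding.BM (TF a b c) := fun h1 h2 =>
    (hwb _).mul (((hs.bm h2).mul (hR.bm h2)).mul (hF.bm h1.symm))
  have hTSbm : ∀ {a b c : V}, G.Adj a b → G.Adj b c → Hoeffding.BM (TS a b c) := fun h1 h2 =>
    (hwb _).mul (((hs.bm h2).mul (hR.bm h2)).mul ((hs.bm h1.symm).mul (hP.bm h1.symm)))
  have hTFinv : ∀ {a b c a' b' c' : V}, IsNB G [a, b, c] → IsNB G [a', b', c'] →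
      G.Adj a b → G.Adj b c → ∫ x, TF a b c x ∂μ = ∫ x, TF a' b' c' x ∂μ := by
    intro a b c a' b' c' hp hp' h1 h2
    refine integral_path_invariant hG TF hp hp' (hTFbm h1 h2) fun g x => ?_
    simp only [TF]
    rw [hw.equiv g, hs.equiv g _ _ h2, hR.equiv g _ _ h2, hF.equiv g _ _ h1.symm]
  have hTSinv : ∀ {a b c a' b' c' : V}, IsNB G [a, b, c] → IsNB G [a', b', c'] →
      G.Adj a b → G.Adj b c → ∫ x, TS a b c x ∂μ = ∫ x, TS a' b' c' x ∂μ := by
    intro a b c a' b' c' hp hp' h1 h2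
    refine integral_path_invariant hG TS hp hp' (hTSbm h1 h2) fun g x => ?_
    simp only [TS]
    rw [hw.equiv g, hs.equiv g _ _ h2, hR.equiv g _ _ h2, hs.equiv g _ _ h1.symm, hP.equiv g _ _ h1.symm]
  have hp₀ : IsNB G [y, v, z₀] := isNB_three hyv hvz₀ hz₀y
  -- Step A: expand `R y v` on the right
  have hA : ∫ x, w v x * R y v x * F v y x ∂μ =
      ∫ x, w v x * F v y x ∂μ + ∑ z ∈ ch G y v, ∫ x, TF y v z x ∂μ := by
    rw [← integral_finsetSum _ (fun z hz => (hTFbm hyv (adjch hz)).integrable _),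
      ← integral_add (((hwb v).mul (hF.bm hvy)).integrable _)
        ((Hoeffding.BM.finset_sum _ fun z hz => hTFbm hyv (adjch hz)).integrable _)]
    refine integral_congr_ae (Filter.Eventually.of_forall fun x => ?_)
    simp only [TF]
    rw [hrecR y v hyv x, mul_add, add_mul, mul_one]
    congr 1
    rw [Finset.mul_sum, Finset.sum_mul]
    refine Finset.sum_congr rfl fun z _ => ?_
    ring
  -- Step B: expand the constant `1` on the left
  have hB : ∫ x, w v x * (s v y x * P v y x) ∂μ =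
      ∫ x, w v x * (s v y x * R y v x * P v y x) ∂μ - ∑ z ∈ ch G y v, ∫ x, TS y v z x ∂μ := by
    have hbm1 : Hoeffding.BM (fun x => w v x * (s v y x * R y v x * P v y x)) :=
      (hwb v).mul (((hs.bm hvy).mul (hR.bm hyv)).mul (hP.bm hvy))
    rw [← integral_finsetSum _ (fun z hz => (hTSbm hyv (adjch hz)).integrable _),
      ← integral_sub (hbm1.integrable _)
        ((Hoeffding.BM.finset_sum _ fun z hz => hTSbm hyv (adjch hz)).integrable _)]
    refine integral_congr_ae (Filter.Eventually.of_forall fun x => ?_)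
    simp only [TS]
    rw [hrecR y v hyv x]
    have : ∑ z ∈ ch G y v, w v x * (s v z x * R v z x * (s v y x * P v y x)) =
        w v x * (s v y x * P v y x) * ∑ z ∈ ch G y v, s v z x * R v z x := by
      rw [Finset.mul_sum]
      refine Finset.sum_congr rfl fun z _ => ?_
      ring
    rw [this]
    ring
  -- all terms of the sums are equal
  have hsumTF : ∑ z ∈ ch G y v, ∫ x, TF y v z x ∂μ = (D : ℝ) * ∫ x, TF y v z₀ x ∂μ := by
    rw [Finset.sum_congr rfl (fun z hz => hTFinv (c' := z₀) (a' := y) (b' := v)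
      (isNB_three hyv (adjch hz) (mem_ch.mp hz).2) hp₀ hyv (adjch hz)),
      Finset.sum_const, hcardyv, nsmul_eq_mul]
  have hsumTF' : ∑ a ∈ ch G z₀ v, ∫ x, TF a v z₀ x ∂μ = (D : ℝ) * ∫ x, TF y v z₀ x ∂μ := by
    rw [Finset.sum_congr rfl (fun a ha => hTFinv (c' := z₀) (a' := y) (b' := v)
      (isNB_three (adjch ha).symm hvz₀ (mem_ch.mp ha).2.symm) hp₀ (adjch ha).symm hvz₀),
      Finset.sum_const, hcardz₀, nsmul_eq_mul]
  have hsumTS : ∑ z ∈ ch G y v, ∫ x, TS y v z x ∂μ = (D : ℝ) * ∫ x, TS y v z₀ x ∂μ := by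
    rw [Finset.sum_congr rfl (fun z hz => hTSinv (c' := z₀) (a' := y) (b' := v)
      (isNB_three hyv (adjch hz) (mem_ch.mp hz).2) hp₀ hyv (adjch hz)),
      Finset.sum_const, hcardyv, nsmul_eq_mul]
  have hsumTS' : ∑ a ∈ ch G z₀ v, ∫ x, TS a v z₀ x ∂μ = (D : ℝ) * ∫ x, TS y v z₀ x ∂μ := by
    rw [Finset.sum_congr rfl (fun a ha => hTSinv (c' := z₀) (a' := y) (b' := v)
      (isNB_three (adjch ha).symm hvz₀ (mem_ch.mp ha).2.symm) hp₀ (adjch ha).symm hvz₀),
      Finset.sum_const, hcardz₀, nsmul_eq_mul]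
  -- Step C: on the edge `(v, z₀)`, sum over the other neighbours
  have hC : ∑ a ∈ ch G z₀ v, ∫ x, TF a v z₀ x ∂μ =
      ∫ x, w v x * (s v z₀ x * R v z₀ x * P z₀ v x) ∂μ - ∑ a ∈ ch G z₀ v, ∫ x, TS a v z₀ x ∂μ := by
    have hbm1 : Hoeffding.BM (fun x => w v x * (s v z₀ x * R v z₀ x * P z₀ v x)) :=
      (hwb v).mul (((hs.bm hvz₀).mul (hR.bm hvz₀)).mul (hP.bm hvz₀.symm))
    rw [← integral_finsetSum _ (fun a ha => (hTFbm (adjch ha).symm hvz₀).integrable _),
      ← integral_finsetSum _ (fun a ha => (hTSbm (adjch ha).symm hvz₀).integrable _),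
      ← integral_sub (hbm1.integrable _)
        ((Hoeffding.BM.finset_sum _ fun a ha => hTSbm (adjch ha).symm hvz₀).integrable _)]
    refine integral_congr_ae (Filter.Eventually.of_forall fun x => ?_)
    simp only [TF, TS]
    rw [hrecP z₀ v hvz₀.symm x, Finset.mul_sum, Finset.mul_sum, ← Finset.sum_sub_distrib]
    refine Finset.sum_congr rfl fun a _ => ?_
    ring
  -- Step D: the edge term, by invariance and reversal
  have hD' : ∫ x, w v x * (s v z₀ x * R v z₀ x * P z₀ v x) ∂μ =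
      ∫ x, w v x * (s v y x * R y v x * P v y x) ∂μ := by
    have h1 : ∫ x, w v x * (s v z₀ x * R v z₀ x * P z₀ v x) ∂μ =
        ∫ x, w y x * (s y v x * R y v x * P v y x) ∂μ := by
      refine integral_edge_invariant hG
        (fun a b x => w a x * (s a b x * R a b x * P b a x)) hvz₀ hyv
        ((hwb v).mul (((hs.bm hvz₀).mul (hR.bm hvz₀)).mul (hP.bm hvz₀.symm))) fun g x => ?_
      rw [hw.equiv g, hs.equiv g _ _ hvz₀, hR.equiv g _ _ hvz₀, hP.equiv g _ _ hvz₀.symm]
    rw [h1]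
    refine integral_congr_ae ?_
    filter_upwards [hrev v y hvy] with x hx
    have : w y x * (s y v x * R y v x * P v y x) = (w y x * s y v x) * (R y v x * P v y x) := by ring
    rw [this, ← hx]
    ring
  -- conclude
  have hsplit : ∫ x, w v x * (s v y x * P v y x + F v y x) ∂μ =
      ∫ x, w v x * (s v y x * P v y x) ∂μ + ∫ x, w v x * F v y x ∂μ := by
    rw [← integral_add (((hwb v).mul ((hs.bm hvy).mul (hP.bm hvy))).integrable _)
      (((hwb v).mul (hF.bm hvy)).integrable _)]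
    refine integral_congr_ae (Filter.Eventually.of_forall fun x => ?_)
    simp only [mul_add]
  rw [hsplit, hA, hB, hsumTF, hsumTS]
  rw [hsumTF', hsumTS'] at hC
  have : (D : ℝ) * ∫ x, TF y v z₀ x ∂μ =
      ∫ x, w v x * (s v y x * R y v x * P v y x) ∂μ - (D : ℝ) * ∫ x, TS y v z₀ x ∂μ := by
    rw [hC, hD']
  rw [this]
  ring

end Families

/-! ### Deterministic identities: quadratic forms -/

section Quad

variable {V : Type u} {G : SimpleGraph V} [G.LocallyFinite] {D : ℕ}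

theorem levMix_comp (g : G ≃g G) (b b' : V → V → ℝ) (r : ℕ) (p y : V) :
    levMix G (fun a c => b (g a) (g c)) (fun a c => b' (g a) (g c)) r p y =
      levMix G b b' r (g p) (g y) := by
  induction r generalizing p y with
  | zero => rfl
  | succ r ih =>
    simp only [levMix]
    rw [ch_map, Finset.sum_map]
    refine Finset.sum_congr rfl fun z _ => ?_
    rw [ih]
    rfl

theorem Qmix_comp (g : G ≃g G) (b b' : V → V → ℝ) (p y : V) :
    Qmix G (fun a c => b (g a) (g c)) (fun a c => b' (g a) (g c)) p y = Qmix G b b' (g p) (g y) := by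
  unfold Qmix
  exact tsum_congr fun r => levMix_comp g b b' r p y

theorem sum_sphere_pathProd_succ (hG : RegTree G D) (b b' : V → V → ℝ) (v : V) (r : ℕ) :
    ∑ u ∈ sphere G v (r + 1), pathProd G b v u * pathProd G b' v u =
      ∑ y ∈ G.neighborFinset v, b v y * b' v y * levMix G b b' r v y := by
  rw [hG.sum_sphere_succ]
  refine Finset.sum_congr rfl fun y hy => ?_
  have hvy : G.Adj v y := by simpa using hy
  rw [← sum_desc_pathProd hG b b' hvy, Finset.mul_sum]
  refine Finset.sum_congr rfl fun u hu => ?_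
  rw [pathProd_step hG b hvy hu, pathProd_step hG b' hvy hu]
  ring

/-- Hypotheses on a pair of deterministic slope families. -/
structure SlopeHyp (b b' : V → V → ℝ) (θ θ' : ℝ) : Prop where
  θ0 : 0 ≤ θ
  θ0' : 0 ≤ θ'
  b0 : ∀ p y, 0 ≤ b p y
  bl : ∀ p y, b p y ≤ θ
  b0' : ∀ p y, 0 ≤ b' p y
  bl' : ∀ p y, b' p y ≤ θ'

theorem hasSum_lev (hG : RegTree G D) {b b' : V → V → ℝ} {θ θ' : ℝ} (h : SlopeHyp b b' θ θ')
    (hθθ' : (D : ℝ) * θ * θ' < 1) {p y : V} (hpy : G.Adj p y) :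
    HasSum (fun r => levMix G b b' r p y) (Qmix G b b' p y) :=
  (levMix_summable hG h.θ0 h.θ0' hθθ' h.b0 h.bl h.b0' h.bl' hpy).hasSum

theorem hasSum_sphere (hG : RegTree G D) {b b' : V → V → ℝ} {θ θ' : ℝ} (h : SlopeHyp b b' θ θ')
    (hθθ' : (D : ℝ) * θ * θ' < 1) (v : V) :
    HasSum (fun r => ∑ u ∈ sphere G v r, pathProd G b v u * pathProd G b' v u) (QmixV G b b' v) := by
  unfold QmixV
  have h1 : HasSum (fun r => ∑ y ∈ G.neighborFinset v, b v y * b' v y * levMix G b b' r v y)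
      (∑ y ∈ G.neighborFinset v, b v y * b' v y * Qmix G b b' v y) :=
    hasSum_sum fun y hy => (hasSum_lev hG h hθθ' (by simpa using hy)).mul_left _
  have h2 : HasSum (fun r => ∑ u ∈ sphere G v (r + 1), pathProd G b v u * pathProd G b' v u)
      (∑ y ∈ G.neighborFinset v, b v y * b' v y * Qmix G b b' v y) := by
    simpa only [sum_sphere_pathProd_succ hG] using h1
  refine (hasSum_nat_add_iff' 1).mp ?_
  have e : ∑ r ∈ Finset.range 1, ∑ u ∈ sphere G v r, pathProd G b v u * pathProd G b' v u = 1 := by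
    simp [sphere, pathProd_self_tw]
  rw [e, add_sub_cancel_left]
  exact h2

/-- Expansion of a square along a `HasSum`: descending version. -/
theorem hasSum_quad_desc (hG : RegTree G D) {b b' : V → V → ℝ} {θ θ' : ℝ}
    (h : SlopeHyp b b' θ θ') (hθ : (D : ℝ) * θ * θ < 1) (hθ' : (D : ℝ) * θ' * θ' < 1)
    (hθθ' : (D : ℝ) * θ * θ' < 1) {p y : V} (hpy : G.Adj p y) (α β : ℝ) :
    HasSum (fun r => ∑ u ∈ desc G r p y, (α * pathProd G b y u - β * pathProd G b' y u) ^ 2)
      (α ^ 2 * Qmix G b b p y + β ^ 2 * Qmix G b' b' p y - 2 * α * β * Qmix G b b' p y) := by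
  have h1 : SlopeHyp b b θ θ := ⟨h.θ0, h.θ0, h.b0, h.bl, h.b0, h.bl⟩
  have h2 : SlopeHyp b' b' θ' θ' := ⟨h.θ0', h.θ0', h.b0', h.bl', h.b0', h.bl'⟩
  have key := (((hasSum_lev hG h1 hθ hpy).mul_left (α ^ 2)).add
    ((hasSum_lev hG h2 hθ' hpy).mul_left (β ^ 2))).sub
      ((hasSum_lev hG h hθθ' hpy).mul_left (2 * α * β))
  have e : (fun r => ∑ u ∈ desc G r p y, (α * pathProd G b y u - β * pathProd G b' y u) ^ 2) =
      fun r => α ^ 2 * levMix G b b r p y + β ^ 2 * levMix G b' b' r p y - 2 * α * β * levMix G b b' r p y := by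
    funext r
    simp only [← sum_desc_pathProd hG _ _ hpy, Finset.mul_sum, ← Finset.sum_add_distrib,
      ← Finset.sum_sub_distrib]
    refine Finset.sum_congr rfl fun u _ => ?_
    ring
  rw [e]
  exact key

/-- Expansion of a square along a `HasSum`: sphere version. -/
theorem hasSum_quad_sphere (hG : RegTree G D) {b b' : V → V → ℝ} {θ θ' : ℝ}
    (h : SlopeHyp b b' θ θ') (hθ : (D : ℝ) * θ * θ < 1) (hθ' : (D : ℝ) * θ' * θ' < 1)
    (hθθ' : (D : ℝ) * θ * θ' < 1) (v : V) (α β : ℝ) :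
    HasSum (fun r => ∑ u ∈ sphere G v r, (α * pathProd G b v u - β * pathProd G b' v u) ^ 2)
      (α ^ 2 * QmixV G b b v + β ^ 2 * QmixV G b' b' v - 2 * α * β * QmixV G b b' v) := by
  have h1 : SlopeHyp b b θ θ := ⟨h.θ0, h.θ0, h.b0, h.bl, h.b0, h.bl⟩
  have h2 : SlopeHyp b' b' θ' θ' := ⟨h.θ0', h.θ0', h.b0', h.bl', h.b0', h.bl'⟩
  have key := (((hasSum_sphere hG h1 hθ v).mul_left (α ^ 2)).add
    ((hasSum_sphere hG h2 hθ' v).mul_left (β ^ 2))).sub
      ((hasSum_sphere hG h hθθ' v).mul_left (2 * α * β))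
  have e : (fun r => ∑ u ∈ sphere G v r, (α * pathProd G b v u - β * pathProd G b' v u) ^ 2) =
      fun r => α ^ 2 * ∑ u ∈ sphere G v r, pathProd G b v u * pathProd G b v u +
          β ^ 2 * ∑ u ∈ sphere G v r, pathProd G b' v u * pathProd G b' v u -
        2 * α * β * ∑ u ∈ sphere G v r, pathProd G b v u * pathProd G b' v u := by
    funext r
    simp only [Finset.mul_sum, ← Finset.sum_add_distrib, ← Finset.sum_sub_distrib]
    refine Finset.sum_congr rfl fun u _ => ?_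
    ring
  rw [e]
  exact key

/-- The quadratic form `α²Q + β²Q' - 2αβR` is non negative. -/
theorem quad_nonneg (hG : RegTree G D) {b b' : V → V → ℝ} {θ θ' : ℝ}
    (h : SlopeHyp b b' θ θ') (hθ : (D : ℝ) * θ * θ < 1) (hθ' : (D : ℝ) * θ' * θ' < 1)
    (hθθ' : (D : ℝ) * θ * θ' < 1) {p y : V} (hpy : G.Adj p y) (α β : ℝ) :
    0 ≤ α ^ 2 * Qmix G b b p y + β ^ 2 * Qmix G b' b' p y - 2 * α * β * Qmix G b b' p y :=
  (hasSum_quad_desc hG h hθ hθ' hθθ' hpy α β).nonneg fun _ =>
    Finset.sum_nonneg fun _ _ => sq_nonneg _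

theorem sideDiff_eq_tw (hG : RegTree G D) {b b' : V → V → ℝ} {θ θ' : ℝ}
    (h : SlopeHyp b b' θ θ') (hθ : (D : ℝ) * θ * θ < 1) (hθ' : (D : ℝ) * θ' * θ' < 1)
    (hθθ' : (D : ℝ) * θ * θ' < 1) {z w : V} (hzw : G.Adj z w) (n n' : ℝ) :
    sideDiff G n n' b b' z w =
      n ^ 2 * Qmix G b b z w + n' ^ 2 * Qmix G b' b' z w - 2 * n * n' * Qmix G b b' z w :=
  (hasSum_quad_desc hG h hθ hθ' hθθ' hzw n n').tsum_eq

theorem totalDiff_eq_tw (hG : RegTree G D) {b b' : V → V → ℝ} {θ θ' : ℝ}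
    (h : SlopeHyp b b' θ θ') (hθ : (D : ℝ) * θ * θ < 1) (hθ' : (D : ℝ) * θ' * θ' < 1)
    (hθθ' : (D : ℝ) * θ * θ' < 1) (v : V) (c c' : ℝ) :
    totalDiff G c c' b b' v =
      c ^ 2 * QmixV G b b v + c' ^ 2 * QmixV G b' b' v - 2 * c * c' * QmixV G b b' v :=
  (hasSum_quad_sphere hG h hθ hθ' hθθ' v c c').tsum_eq

end Quad

/-! ### The objects attached to two states -/

section States

variable {V : Type u} {G : SimpleGraph V} [G.LocallyFinite] {D : ℕ}
variable {E : Type v} [MeasurableSpace E] {θ θ' : ℝ}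

/-- The mixed `Q` of two states.  `Rr st st = st.Q`. -/
noncomputable def Rr (st : FState G E θ) (st' : FState G E θ') (p y : V) (x : V → E) : ℝ :=
  Qmix G (fun a b => st.b a b x) (fun a b => st'.b a b x) p y

/-- Mixed `Q` at a vertex. -/
noncomputable def RrV (st : FState G E θ) (st' : FState G E θ') (v : V) (x : V → E) : ℝ :=
  QmixV G (fun a b => st.b a b x) (fun a b => st'.b a b x) v

omit [MeasurableSpace E] in
theorem mul_lt_one_of_sq {d t t' : ℝ} (hd : 0 ≤ d)
    (h : d * t ^ 2 < 1) (h' : d * t' ^ 2 < 1) : d * t * t' < 1 := by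
  nlinarith [mul_nonneg hd (sq_nonneg (t - t'))]

theorem FState.slope (st : FState G E θ) (st' : FState G E θ') (hθ0 : 0 ≤ θ) (hθ0' : 0 ≤ θ') (x : V → E) :
    SlopeHyp (fun a b => st.b a b x) (fun a b => st'.b a b x) θ θ' :=
  ⟨hθ0, hθ0', fun p y => st.b_nonneg p y x, fun p y => st.b_le p y x,
    fun p y => st'.b_nonneg p y x, fun p y => st'.b_le p y x⟩

theorem FState.b_EF (st : FState G E θ) : EF G st.b :=
  ⟨fun p y _ => st.meas_b p y, ⟨θ, fun p y _ x => by
      rw [abs_of_nonneg (st.b_nonneg p y x)]; exact st.b_le p y x⟩,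
    fun g p y _ x => st.equiv_b g p y x⟩

theorem FState.c_VF (st : FState G E θ) : VF G st.c :=
  ⟨st.meas_c, ⟨1, fun p x => by
      rw [abs_of_nonneg (st.c_nonneg p x)]; exact st.c_le p x⟩,
    fun g p x => st.equiv_c g p x⟩

theorem levMix_measurable {b b' : V → V → (V → E) → ℝ} (hb : ∀ p y, Measurable (b p y))
    (hb' : ∀ p y, Measurable (b' p y)) (r : ℕ) (p y : V) :
    Measurable (fun x => levMix G (fun a c => b a c x) (fun a c => b' a c x) r p y) := by
  induction r generalizing p y with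
  | zero => simp [levMix]
  | succ r ih =>
    simp only [levMix]
    exact Finset.measurable_sum _ fun z _ => ((hb y z).mul (hb' y z)).mul (ih y z)

theorem Rr_measurable (hG : RegTree G D) (st : FState G E θ) (st' : FState G E θ')
    (hθ0 : 0 ≤ θ) (hθ0' : 0 ≤ θ') (hθθ' : (D : ℝ) * θ * θ' < 1) {p y : V} (hpy : G.Adj p y) :
    Measurable (Rr st st' p y) := by
  refine measurable_of_tendsto_metrizable
    (f := fun n x => ∑ r ∈ Finset.range n,
      levMix G (fun a c => st.b a c x) (fun a c => st'.b a c x) r p y)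
    (fun n => Finset.measurable_sum _ fun r _ => levMix_measurable st.meas_b st'.meas_b r p y) ?_
  rw [tendsto_pi_nhds]
  intro x
  exact (hasSum_lev hG (st.slope st' hθ0 hθ0' x) hθθ' hpy).tendsto_sum_nat

theorem Rr_bounds (hG : RegTree G D) (st : FState G E θ) (st' : FState G E θ')
    (hθ0 : 0 ≤ θ) (hθ0' : 0 ≤ θ') (hθθ' : (D : ℝ) * θ * θ' < 1) {p y : V} (hpy : G.Adj p y) (x : V → E) :
    1 ≤ Rr st st' p y x ∧ Rr st st' p y x ≤ 1 / (1 - (D : ℝ) * θ * θ') := by
  have h := st.slope st' hθ0 hθ0' x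
  exact (Qmix_le hG h.θ0 h.θ0' hθθ' h.b0 h.bl h.b0' h.bl' hpy).2

theorem Rr_rec (hG : RegTree G D) (st : FState G E θ) (st' : FState G E θ')
    (hθ0 : 0 ≤ θ) (hθ0' : 0 ≤ θ') (hθθ' : (D : ℝ) * θ * θ' < 1) {p y : V} (hpy : G.Adj p y) (x : V → E) :
    Rr st st' p y x = 1 + ∑ z ∈ ch G p y, st.b y z x * st'.b y z x * Rr st st' y z x := by
  have h := st.slope st' hθ0 hθ0' x
  exact Qmix_eq hG h.θ0 h.θ0' hθθ' h.b0 h.bl h.b0' h.bl' hpy

theorem Rr_EF (hG : RegTree G D) (st : FState G E θ) (st' : FState G E θ')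
    (hθ0 : 0 ≤ θ) (hθ0' : 0 ≤ θ') (hθθ' : (D : ℝ) * θ * θ' < 1) : EF G (Rr st st') := by
  refine ⟨fun p y h => Rr_measurable hG st st' hθ0 hθ0' hθθ' h,
    ⟨1 / (1 - (D : ℝ) * θ * θ'), fun p y h x => ?_⟩, fun g p y h x => ?_⟩
  · obtain ⟨h1, h2⟩ := Rr_bounds hG st st' hθ0 hθ0' hθθ' h x
    rw [abs_of_nonneg (by linarith)]
    exact h2
  · unfold Rr
    have e1 : (fun a b => st.b a b (x ∘ g)) = fun a b => (fun a b => st.b a b x) (g a) (g b) := by
      funext a b; exact st.equiv_b g a b x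
    have e2 : (fun a b => st'.b a b (x ∘ g)) = fun a b => (fun a b => st'.b a b x) (g a) (g b) := by
      funext a b; exact st'.equiv_b g a b x
    rw [e1, e2]
    exact Qmix_comp g (fun a b => st.b a b x) (fun a b => st'.b a b x) p y

theorem FState.Q_eq_Rr (st : FState G E θ) : st.Q = Rr st st := rfl

theorem FState.QV_eq_RrV (st : FState G E θ) : st.QV = RrV st st := rfl

theorem RrV_eq (st : FState G E θ) (st' : FState G E θ') (v : V) (x : V → E) :
    RrV st st' v x = 1 + ∑ y ∈ G.neighborFinset v, st.b v y x * st'.b v y x * Rr st st' v y x := rfl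

theorem RrV_VF (hG : RegTree G D) (st : FState G E θ) (st' : FState G E θ')
    (hθ0 : 0 ≤ θ) (hθ0' : 0 ≤ θ') (hθθ' : (D : ℝ) * θ * θ' < 1) : VF G (RrV st st') := by
  have hR := Rr_EF hG st st' hθ0 hθ0' hθθ'
  have hb := st.b_EF
  have hb' := st'.b_EF
  have hmul := (hb.mul hb').mul hR
  obtain ⟨C, hC⟩ := hmul.bdd
  refine ⟨fun v => ?_, ⟨1 + (D + 1 : ℝ) * C, fun v x => ?_⟩, fun g v x => ?_⟩
  · have : RrV st st' v = fun x => 1 + ∑ y ∈ G.neighborFinset v, st.b v y x * st'.b v y x * Rr st st' v y x :=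
      funext fun x => RrV_eq st st' v x
    rw [this]
    refine measurable_const.add (Finset.measurable_sum _ fun y hy => ?_)
    exact hmul.meas v y (by simpa using hy)
  · rw [RrV_eq]
    refine (abs_add_le _ _).trans ?_
    have h1 : |∑ y ∈ G.neighborFinset v, st.b v y x * st'.b v y x * Rr st st' v y x| ≤ (D + 1 : ℝ) * C := by
      refine (Finset.abs_sum_le_sum_abs _ _).trans ?_
      refine (Finset.sum_le_card_nsmul _ _ C fun y hy => hC v y (by simpa using hy) x).trans ?_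
      rw [hG.card_neighbor v, nsmul_eq_mul]
      push_cast
      exact le_rfl
    rw [abs_one]
    linarith
  · rw [RrV_eq, RrV_eq, neighborFinset_map, Finset.sum_map]
    congr 1
    refine Finset.sum_congr rfl fun y hy => ?_
    exact hmul.equiv g v y (by simpa using hy) x

end States

/-! ### (L3) the contraction estimate -/

section L3

variable {V : Type u} {G : SimpleGraph V} [G.LocallyFinite] {D : ℕ}
variable {E : Type v} [MeasurableSpace E] {κ : Measure E} [IsProbabilityMeasure κ]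

local notation "μ" => Measure.infinitePi (fun _ : V => κ)

theorem EF.integral_eq (hG : RegTree G D) {f : V → V → (V → E) → ℝ} (hf : EF G f) {p y p' y' : V}
    (h : G.Adj p y) (h' : G.Adj p' y') : ∫ x, f p y x ∂μ = ∫ x, f p' y' x ∂μ :=
  integral_edge_invariant hG f h h' (hf.bm h) fun g x => hf.equiv g p y h x

theorem EF.integral_sq_eq (hG : RegTree G D) {f : V → V → (V → E) → ℝ} (hf : EF G f) {p y p' y' : V}
    (h : G.Adj p y) (h' : G.Adj p' y') : ∫ x, f p y x ^ 2 ∂μ = ∫ x, f p' y' x ^ 2 ∂μ := by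
  simpa only [pow_two] using (hf.mul hf).integral_eq (κ := κ) hG h h'

omit [G.LocallyFinite] in
theorem integral_sub_const_sq {f : (V → E) → ℝ} (hf : Hoeffding.BM f) (c : ℝ)
    (hc : c = ∫ x, f x ∂μ) : ∫ x, (f x - c) ^ 2 ∂μ = ∫ x, f x ^ 2 ∂μ - c ^ 2 := by
  have e : ∀ x, (f x - c) ^ 2 = f x * f x - 2 * c * f x + c ^ 2 := fun x => by ring
  simp only [e, pow_two (f _)]
  have h1 : Integrable (fun x => f x * f x) μ := (hf.mul hf).integrable _
  have h2 : Integrable (fun x => 2 * c * f x) μ := (hf.const_mul (2 * c)).integrable _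
  have h3 : Integrable (fun x => f x * f x - 2 * c * f x) μ := h1.sub h2
  rw [integral_add h3 (integrable_const _), integral_sub h1 h2, integral_const_mul, ← hc]
  simp
  ring

omit [G.LocallyFinite] [MeasurableSpace E] in
/-- The multiplier trick: only sign information on the `M i` is used. -/
theorem mult_trick {ι : Type*} (s : Finset ι) (M F : ι → ℝ) {d : ℝ} (hd : 0 < d)
    (hM0 : ∀ i ∈ s, 0 ≤ M i) (hM1 : ∀ i ∈ s, M i ≤ 1 / d) (hcard : (s.card : ℝ) = d) :
    (∑ i ∈ s, M i * F i) ^ 2 ≤ (1 / (2 * d ^ 2)) * (d * ∑ i ∈ s, F i ^ 2 + (∑ i ∈ s, F i) ^ 2) := by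
  set A := ∑ i ∈ s, |F i| with hA
  set T := ∑ i ∈ s, F i with hT
  set X := ∑ i ∈ s, M i * F i with hX
  have hAT : |T| ≤ A := Finset.abs_sum_le_sum_abs _ _
  have hU : X ≤ (1 / d) * ((A + T) / 2) := by
    have : ∀ i ∈ s, M i * F i ≤ (1 / d) * ((|F i| + F i) / 2) := by
      intro i hi
      rcases le_total 0 (F i) with h | h
      · rw [abs_of_nonneg h]
        have := mul_le_mul_of_nonneg_right (hM1 i hi) h
        linarith
      · rw [abs_of_nonpos h]
        have := mul_nonpos_of_nonneg_of_nonpos (hM0 i hi) h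
        simpa using this
    refine (Finset.sum_le_sum this).trans (le_of_eq ?_)
    rw [← Finset.mul_sum, ← Finset.sum_div, Finset.sum_add_distrib]
  have hL : -((1 / d) * ((A - T) / 2)) ≤ X := by
    have : ∀ i ∈ s, -((1 / d) * ((|F i| - F i) / 2)) ≤ M i * F i := by
      intro i hi
      rcases le_total 0 (F i) with h | h
      · rw [abs_of_nonneg h]
        have := mul_nonneg (hM0 i hi) h
        simpa using this
      · rw [abs_of_nonpos h]
        have := mul_le_mul_of_nonpos_right (hM1 i hi) h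
        linarith
    refine le_trans (le_of_eq ?_) (Finset.sum_le_sum this)
    rw [Finset.sum_neg_distrib, ← Finset.mul_sum, ← Finset.sum_div, Finset.sum_sub_distrib]
  have hCS : A ^ 2 ≤ d * ∑ i ∈ s, F i ^ 2 := by
    have := sq_sum_le_card_mul_sum_sq (s := s) (f := fun i => |F i|)
    simpa [hcard, sq_abs] using this
  have hu : 0 ≤ (A + T) / 2 := by
    have := neg_abs_le T; linarith
  have hl : 0 ≤ (A - T) / 2 := by
    have := le_abs_self T; linarith
  have hdX : (d * X) ^ 2 ≤ ((A + T) / 2) ^ 2 + ((A - T) / 2) ^ 2 := by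
    have h1 : d * X ≤ (A + T) / 2 := by
      have := mul_le_mul_of_nonneg_left hU hd.le
      rwa [← mul_assoc, mul_one_div_cancel hd.ne', one_mul] at this
    have h2 : -((A - T) / 2) ≤ d * X := by
      have := mul_le_mul_of_nonneg_left hL hd.le
      rwa [mul_neg, ← mul_assoc, mul_one_div_cancel hd.ne', one_mul] at this
    rcases le_total 0 (d * X) with h | h
    · have := pow_le_pow_left₀ h h1 2
      nlinarith [sq_nonneg ((A - T) / 2)]
    · have h3 : 0 ≤ -(d * X) := by linarith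
      have := pow_le_pow_left₀ h3 (by linarith : -(d * X) ≤ (A - T) / 2) 2
      nlinarith [sq_nonneg ((A + T) / 2)]
  have hfin : (d * X) ^ 2 ≤ (d * ∑ i ∈ s, F i ^ 2 + T ^ 2) / 2 := by
    nlinarith
  have hd2 : 0 < d ^ 2 := by positivity
  have : X ^ 2 = (d * X) ^ 2 / d ^ 2 := by
    field_simp
  rw [this]
  calc (d * X) ^ 2 / d ^ 2 ≤ ((d * ∑ i ∈ s, F i ^ 2 + T ^ 2) / 2) / d ^ 2 :=
        div_le_div_of_nonneg_right hfin hd2.le
    _ = _ := by field_simp

/-- The small parameter of the contraction. -/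
noncomputable def etaD (D : ℕ) : ℝ := ((D : ℝ) - 1) / (16 * (D : ℝ) ^ 4)

/-- Constant of (L3). -/
noncomputable def CGD (D : ℕ) : ℝ := max 1 ((D : ℝ) ^ 2 * (1 + 1 / etaD D) / etaD D)

theorem CGD_pos (D : ℕ) : 0 < CGD D := lt_of_lt_of_le one_pos (le_max_left _ _)

theorem L3_alg {d η CD g2 t2 z2 a2 S2 : ℝ} (hd : 2 ≤ d) (hη : η = (d - 1) / (16 * d ^ 4))
    (hCD : CD = d * (1 - 8 * η))
    (h1 : g2 ≤ (1 + η) * (1 / (2 * d ^ 2)) * (d * d * g2 + S2) + (1 + 1 / η) * (d * d) * t2)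
    (h2 : S2 ≤ d ^ 3 * CD * z2 + d ^ 2 * a2)
    (h3 : z2 ≤ (1 + η) * g2 / d ^ 2 + (1 + 1 / η) * t2)
    (ht : 0 ≤ t2) (ha : 0 ≤ a2) :
    g2 ≤ (d ^ 2 * (1 + 1 / η) / η) * (t2 + a2) := by
  have hd0 : 0 < d := by linarith
  have hηpos : 0 < η := by
    rw [hη]; apply div_pos <;> [linarith; positivity]
  have hηsmall : η ≤ 1 / 16 := by
    rw [hη, div_le_iff₀ (by positivity)]
    have : d ≤ d ^ 4 := by
      have : 1 ≤ d ^ 3 := one_le_pow₀ (by linarith)
      nlinarith
    nlinarith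
  have hinv : 0 < 1 / η := by positivity
  set K := 1 + 1 / η with hK
  have hKpos : 1 ≤ K := by rw [hK]; linarith
  have hd2 : 0 < d ^ 2 := by positivity
  -- eliminate S2 and z2
  have hS : S2 ≤ d ^ 2 * (1 - 8 * η) * (1 + η) * g2 + d ^ 4 * (1 - 8 * η) * K * t2 + d ^ 2 * a2 := by
    have hc : 0 ≤ d ^ 3 * CD := by
      rw [hCD]
      have : 0 ≤ 1 - 8 * η := by linarith
      positivity
    have := mul_le_mul_of_nonneg_left h3 hc
    have e : d ^ 3 * CD * ((1 + η) * g2 / d ^ 2 + K * t2) =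
        d ^ 2 * (1 - 8 * η) * (1 + η) * g2 + d ^ 4 * (1 - 8 * η) * K * t2 := by
      rw [hCD]
      field_simp
    linarith
  have hcoef : 0 ≤ (1 + η) * (1 / (2 * d ^ 2)) := by positivity
  have h4 : (1 + η) * (1 / (2 * d ^ 2)) * (d * d * g2 + S2) ≤
      (1 + η) * (1 / (2 * d ^ 2)) * (d * d * g2 +
        (d ^ 2 * (1 - 8 * η) * (1 + η) * g2 + d ^ 4 * (1 - 8 * η) * K * t2 + d ^ 2 * a2)) :=
    mul_le_mul_of_nonneg_left (by linarith) hcoef
  have e2 : (1 + η) * (1 / (2 * d ^ 2)) * (d * d * g2 +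
        (d ^ 2 * (1 - 8 * η) * (1 + η) * g2 + d ^ 4 * (1 - 8 * η) * K * t2 + d ^ 2 * a2)) =
      (1 + η) * (1 / 2 + (1 - 8 * η) * (1 + η) / 2) * g2 +
        (1 + η) * ((1 - 8 * η) / 2) * (d ^ 2 * K * t2) + (1 + η) / 2 * a2 := by
    field_simp
    ring
  have h5 : g2 ≤ (1 + η) * (1 / 2 + (1 - 8 * η) * (1 + η) / 2) * g2 +
      (1 + η) * ((1 - 8 * η) / 2) * (d ^ 2 * K * t2) + (1 + η) / 2 * a2 + K * (d * d) * t2 := by
    linarith
  have hX : 0 ≤ d ^ 2 * K * t2 := by positivity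
  have h6 : (1 + η) * ((1 - 8 * η) / 2) * (d ^ 2 * K * t2) ≤ 1 * (d ^ 2 * K * t2) := by
    apply mul_le_mul_of_nonneg_right _ hX
    nlinarith
  have h7 : (1 + η) / 2 * a2 ≤ 1 * a2 := by
    apply mul_le_mul_of_nonneg_right _ ha
    linarith
  -- the contraction
  have e3 : (1 + η) * (1 / 2 + (1 - 8 * η) * (1 + η) / 2) = 1 - 5 / 2 * η - 15 / 2 * η ^ 2 - 4 * η ^ 3 := by
    ring
  have hgnn : 2 * η * g2 ≤ 2 * (d ^ 2 * K * t2) + a2 + (1 - (1 - 5 / 2 * η - 15 / 2 * η ^ 2 - 4 * η ^ 3) - 2 * η) * g2 * 0 := by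
    by_cases hg : 0 ≤ g2
    · have h8 : (1 + η) * (1 / 2 + (1 - 8 * η) * (1 + η) / 2) * g2 ≤ (1 - 2 * η) * g2 := by
        rw [e3]
        apply mul_le_mul_of_nonneg_right _ hg
        nlinarith [pow_pos hηpos 2, pow_pos hηpos 3]
      have e4 : K * (d * d) * t2 = d ^ 2 * K * t2 := by ring
      nlinarith
    · rw [not_le] at hg
      have h9 : 2 * η * g2 ≤ 0 := by
        have : 0 < 2 * η := by linarith
        nlinarith
      have h10 : 0 ≤ 2 * (d ^ 2 * K * t2) + a2 := by positivity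
      linarith
  have hfinal : 2 * η * g2 ≤ 2 * (d ^ 2 * K) * (t2 + a2) := by
    have h1d : 1 ≤ d ^ 2 * K := by nlinarith
    have : a2 ≤ 2 * (d ^ 2 * K) * a2 := by nlinarith
    nlinarith
  have e5 : (d ^ 2 * K / η) * (t2 + a2) = (2 * (d ^ 2 * K) * (t2 + a2)) / (2 * η) := by
    field_simp
  rw [e5, le_div_iff₀ (by positivity)]
  linarith

/-- Abstract (L3). -/
theorem abstract_L3 (hG : RegTree G D) {GG MM TH : V → V → (V → E) → ℝ} (hGG : EF G GG) (hMM : EF G MM)
    (hTH : EF G TH) (hM0 : ∀ p y, G.Adj p y → ∀ x, 0 ≤ MM p y x)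
    (hM1 : ∀ p y, G.Adj p y → ∀ x, MM p y x ≤ 1 / (D : ℝ))
    (hrec : ∀ p y, G.Adj p y → ∀ x, GG p y x = ∑ z ∈ ch G p y, (MM y z x * GG y z x + TH y z x))
    {p y : V} (hpy : G.Adj p y) :
    ∫ x, GG p y x ^ 2 ∂μ ≤ CGD D * (∫ x, TH p y x ^ 2 ∂μ + (∫ x, GG p y x ∂μ) ^ 2) := by
  classical
  have hD2 : 2 ≤ D := hG.two_le
  have hd2 : (2 : ℝ) ≤ D := by exact_mod_cast hD2
  have hd0 : (0 : ℝ) < D := by linarith
  set d : ℝ := (D : ℝ) with hd
  have hcard : ∀ {p y : V}, G.Adj p y → (((ch G p y).card : ℕ) : ℝ) = d := fun h => by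
    rw [hG.card_ch h]
  set η := etaD D with hη
  have hηpos : 0 < η := by
    rw [hη, etaD]; apply div_pos <;> [linarith; positivity]
  let Z : V → V → (V → E) → ℝ := fun p y x => MM p y x * GG p y x + TH p y x
  have hZ : EF G Z := (hMM.mul hGG).add hTH
  set m := ∫ x, Z p y x ∂μ with hm
  set a := ∫ x, GG p y x ∂μ with ha
  set g2 := ∫ x, GG p y x ^ 2 ∂μ with hg2
  set t2 := ∫ x, TH p y x ^ 2 ∂μ with ht2
  set z2 := ∫ x, Z p y x ^ 2 ∂μ with hz2
  have ht2nn : 0 ≤ t2 := integral_nonneg fun x => sq_nonneg _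
  have hadjw : ∀ w ∈ ch G p y, G.Adj y w := fun w hw => (mem_ch.mp hw).1
  -- values at all edges
  have hGeq : ∀ {q r : V}, G.Adj q r → ∫ x, GG q r x ∂μ = a := fun h => hGG.integral_eq hG h hpy
  have hZeq : ∀ {q r : V}, G.Adj q r → ∫ x, Z q r x ∂μ = m := fun h => hZ.integral_eq hG h hpy
  have hGsq : ∀ {q r : V}, G.Adj q r → ∫ x, GG q r x ^ 2 ∂μ = g2 := fun h => hGG.integral_sq_eq hG h hpy
  have hTsq : ∀ {q r : V}, G.Adj q r → ∫ x, TH q r x ^ 2 ∂μ = t2 := fun h => hTH.integral_sq_eq hG h hpy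
  have hGbm : ∀ {q r : V}, G.Adj q r → Hoeffding.BM (GG q r) := fun h => hGG.bm h
  have hTbm : ∀ {q r : V}, G.Adj q r → Hoeffding.BM (TH q r) := fun h => hTH.bm h
  have hZbm : ∀ {q r : V}, G.Adj q r → Hoeffding.BM (Z q r) := fun h => hZ.bm h
  -- `a = d m`
  have ham : a = d * m := by
    have : a = ∫ x, ∑ z ∈ ch G p y, Z y z x ∂μ :=
      integral_congr_ae (Filter.Eventually.of_forall fun x => hrec p y hpy x)
    rw [this, integral_finsetSum _ fun z hz => (hZbm (hadjw z hz)).integrable _,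
      Finset.sum_congr rfl fun z hz => hZeq (hadjw z hz), Finset.sum_const, nsmul_eq_mul, hcard hpy]
  -- the grandchildren sum
  let S : (V → E) → ℝ := fun x => ∑ w ∈ ch G p y, GG y w x
  have hSbm : Hoeffding.BM S := Hoeffding.BM.finset_sum _ fun w hw => hGbm (hadjw w hw)
  have hSint : ∫ x, S x ∂μ = d ^ 2 * m := by
    simp only [S]
    rw [integral_finsetSum _ fun w hw => (hGbm (hadjw w hw)).integrable _,
      Finset.sum_congr rfl fun w hw => hGeq (hadjw w hw), Finset.sum_const, nsmul_eq_mul, hcard hpy, ham]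
    ring
  have hvar := var_grandchildren κ hG hZ.edgeFamily hpy hpy m (by
    rw [hm]
    exact integral_congr_ae (Filter.Eventually.of_forall fun x => (EF.ext_of_adj hpy x).symm))
  have hSeq : ∀ x, (∑ w ∈ ch G p y, ∑ z ∈ ch G y w, EF.ext G Z w z x - (D : ℝ) ^ 2 * m) = S x - d ^ 2 * m := by
    intro x
    congr 1
    refine Finset.sum_congr rfl fun w hw => ?_
    rw [hrec y w (hadjw w hw) x]
    refine Finset.sum_congr rfl fun z hz => ?_
    exact EF.ext_of_adj (mem_ch.mp hz).1 x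
  simp only [hSeq] at hvar
  have hZext : ∀ x, EF.ext G Z p y x = Z p y x := fun x => EF.ext_of_adj hpy x
  simp only [hZext] at hvar
  rw [integral_sub_const_sq hSbm _ hSint.symm, integral_sub_const_sq (hZbm hpy) _ hm] at hvar
  -- eta in terms of `psiD`
  have hCDdef : (1 + (d - 1) * psiD D) = d * (1 - 8 * η) := by
    rw [hη, etaD, psiD]
    field_simp
    ring
  have hS2 : ∫ x, S x ^ 2 ∂μ ≤ d ^ 3 * (d * (1 - 8 * η)) * z2 + d ^ 2 * (a ^ 2) := by
    have hcoefnn : 0 ≤ d ^ 3 * (d * (1 - 8 * η)) := by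
      rw [← hCDdef]
      have hpsi : 0 ≤ psiD D := by
        rw [psiD]
        have : 1 / (2 * d ^ 3) ≤ 1 := by
          rw [div_le_one (by positivity)]
          have : 1 ≤ d ^ 3 := one_le_pow₀ (by linarith)
          linarith
        linarith
      have : 0 ≤ (d - 1) * psiD D := mul_nonneg (by linarith) hpsi
      positivity
    rw [hCDdef] at hvar
    have hm2 : 0 ≤ m ^ 2 := sq_nonneg m
    have e : (d ^ 2 * m) ^ 2 = d ^ 2 * a ^ 2 := by rw [ham]; ring
    nlinarith [mul_nonneg hcoefnn hm2]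
  -- the `Z` bound
  have hz : z2 ≤ (1 + η) * g2 / d ^ 2 + (1 + 1 / η) * t2 := by
    have hpt : ∀ x, Z p y x ^ 2 ≤ (1 + η) / d ^ 2 * GG p y x ^ 2 + (1 + 1 / η) * TH p y x ^ 2 := by
      intro x
      have h1 := hM0 p y hpy x
      have h2 := hM1 p y hpy x
      have h3 : (MM p y x) ^ 2 ≤ 1 / d ^ 2 := by
        have := pow_le_pow_left₀ h1 h2 2
        simpa [div_pow] using this
      simp only [Z]
      set A := MM p y x * GG p y x
      set T := TH p y x
      have h4 : A ^ 2 ≤ 1 / d ^ 2 * GG p y x ^ 2 := by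
        simp only [A, mul_pow]
        exact mul_le_mul_of_nonneg_right h3 (sq_nonneg _)
      have h5 : 2 * A * T ≤ η * A ^ 2 + (1 / η) * T ^ 2 := by
        have : 0 ≤ (η * A - T) ^ 2 / η := by positivity
        have e : (η * A - T) ^ 2 / η = η * A ^ 2 - 2 * A * T + (1 / η) * T ^ 2 := by
          field_simp
          ring
        linarith
      have h6 : (1 + η) * A ^ 2 ≤ (1 + η) * (1 / d ^ 2 * GG p y x ^ 2) :=
        mul_le_mul_of_nonneg_left h4 (by linarith)
      have e : (1 + η) / d ^ 2 * GG p y x ^ 2 = (1 + η) * (1 / d ^ 2 * GG p y x ^ 2) := by ring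
      rw [e]
      nlinarith
    have hint : ∫ x, Z p y x ^ 2 ∂μ ≤
        ∫ x, ((1 + η) / d ^ 2 * GG p y x ^ 2 + (1 + 1 / η) * TH p y x ^ 2) ∂μ := by
      refine integral_mono ?_ ?_ hpt
      · simpa only [pow_two] using ((hZbm hpy).mul (hZbm hpy)).integrable _
      · refine Integrable.add ?_ ?_
        · simpa only [pow_two] using
            (((hGbm hpy).mul (hGbm hpy)).const_mul _).integrable _
        · simpa only [pow_two] using
            (((hTbm hpy).mul (hTbm hpy)).const_mul _).integrable _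
    have hGi : Integrable (fun x => GG p y x ^ 2) μ := by
      simpa only [pow_two] using ((hGbm hpy).mul (hGbm hpy)).integrable _
    have hTi : Integrable (fun x => TH p y x ^ 2) μ := by
      simpa only [pow_two] using ((hTbm hpy).mul (hTbm hpy)).integrable _
    rw [integral_add (hGi.const_mul _) (hTi.const_mul _), integral_const_mul, integral_const_mul] at hint
    have e : (1 + η) * g2 / d ^ 2 = (1 + η) / d ^ 2 * g2 := by ring
    rw [e]
    exact hint
  -- the main pointwise bound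
  have hg : g2 ≤ (1 + η) * (1 / (2 * d ^ 2)) * (d * d * g2 + ∫ x, S x ^ 2 ∂μ) + (1 + 1 / η) * (d * d) * t2 := by
    have hpt : ∀ x, GG p y x ^ 2 ≤
        (1 + η) * (1 / (2 * d ^ 2)) * (d * ∑ w ∈ ch G p y, GG y w x ^ 2 + S x ^ 2) +
          (1 + 1 / η) * (d * ∑ w ∈ ch G p y, TH y w x ^ 2) := by
      intro x
      rw [hrec p y hpy x, Finset.sum_add_distrib]
      set A := ∑ w ∈ ch G p y, MM y w x * GG y w x
      set T := ∑ w ∈ ch G p y, TH y w x
      have h1 : A ^ 2 ≤ (1 / (2 * d ^ 2)) * (d * ∑ w ∈ ch G p y, GG y w x ^ 2 + S x ^ 2) :=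
        mult_trick _ _ _ hd0 (fun w hw => hM0 y w (hadjw w hw) x) (fun w hw => hM1 y w (hadjw w hw) x)
          (hcard hpy)
      have h2 : T ^ 2 ≤ d * ∑ w ∈ ch G p y, TH y w x ^ 2 := by
        have := sq_sum_le_card_mul_sum_sq (s := ch G p y) (f := fun w => TH y w x)
        simpa [hcard hpy] using this
      have h5 : 2 * A * T ≤ η * A ^ 2 + (1 / η) * T ^ 2 := by
        have : 0 ≤ (η * A - T) ^ 2 / η := by positivity
        have e : (η * A - T) ^ 2 / η = η * A ^ 2 - 2 * A * T + (1 / η) * T ^ 2 := by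
          field_simp
          ring
        linarith
      have h6 := mul_le_mul_of_nonneg_left h1 (by linarith : (0 : ℝ) ≤ 1 + η)
      have h7 := mul_le_mul_of_nonneg_left h2 (by positivity : (0 : ℝ) ≤ 1 + 1 / η)
      nlinarith
    have hGi : ∀ w ∈ ch G p y, Integrable (fun x => GG y w x ^ 2) μ := fun w hw => by
      simpa only [pow_two] using ((hGbm (hadjw w hw)).mul (hGbm (hadjw w hw))).integrable _
    have hTi : ∀ w ∈ ch G p y, Integrable (fun x => TH y w x ^ 2) μ := fun w hw => by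
      simpa only [pow_two] using ((hTbm (hadjw w hw)).mul (hTbm (hadjw w hw))).integrable _
    have hSi : Integrable (fun x => S x ^ 2) μ := by
      simpa only [pow_two] using (hSbm.mul hSbm).integrable _
    have hsumG : ∫ x, ∑ w ∈ ch G p y, GG y w x ^ 2 ∂μ = d * g2 := by
      rw [integral_finsetSum _ hGi, Finset.sum_congr rfl fun w hw => hGsq (hadjw w hw),
        Finset.sum_const, nsmul_eq_mul, hcard hpy]
    have hsumT : ∫ x, ∑ w ∈ ch G p y, TH y w x ^ 2 ∂μ = d * t2 := by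
      rw [integral_finsetSum _ hTi, Finset.sum_congr rfl fun w hw => hTsq (hadjw w hw),
        Finset.sum_const, nsmul_eq_mul, hcard hpy]
    have hI1 : Integrable (fun x => ∑ w ∈ ch G p y, GG y w x ^ 2) μ := integrable_finsetSum _ hGi
    have hI2 : Integrable (fun x => ∑ w ∈ ch G p y, TH y w x ^ 2) μ := integrable_finsetSum _ hTi
    have hint : g2 ≤ ∫ x, ((1 + η) * (1 / (2 * d ^ 2)) * (d * ∑ w ∈ ch G p y, GG y w x ^ 2 + S x ^ 2) +
          (1 + 1 / η) * (d * ∑ w ∈ ch G p y, TH y w x ^ 2)) ∂μ := by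
      refine integral_mono ?_ ?_ hpt
      · simpa only [pow_two] using ((hGbm hpy).mul (hGbm hpy)).integrable _
      · exact (((hI1.const_mul d).add hSi).const_mul _).add ((hI2.const_mul d).const_mul _)
    have hJ1 : Integrable (fun x => d * ∑ w ∈ ch G p y, GG y w x ^ 2) μ := hI1.const_mul d
    have hJ2 : Integrable (fun x => d * ∑ w ∈ ch G p y, GG y w x ^ 2 + S x ^ 2) μ := hJ1.add hSi
    have hJ3 : Integrable (fun x => (1 + η) * (1 / (2 * d ^ 2)) *
        (d * ∑ w ∈ ch G p y, GG y w x ^ 2 + S x ^ 2)) μ := hJ2.const_mul _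
    have hJ4 : Integrable (fun x => (1 + 1 / η) * (d * ∑ w ∈ ch G p y, TH y w x ^ 2)) μ :=
      (hI2.const_mul d).const_mul _
    rw [integral_add hJ3 hJ4, integral_const_mul, integral_const_mul, integral_add hJ1 hSi,
      integral_const_mul, integral_const_mul, hsumG, hsumT] at hint
    have e1 : d * (d * g2) = d * d * g2 := by ring
    have e2 : (1 + 1 / η) * (d * (d * t2)) = (1 + 1 / η) * (d * d) * t2 := by ring
    rw [e1, e2] at hint
    exact hint
  have hfin := L3_alg (d := d) (η := η) (CD := d * (1 - 8 * η)) (g2 := g2) (t2 := t2) (z2 := z2) (a2 := a ^ 2)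
    (S2 := ∫ x, S x ^ 2 ∂μ) hd2 (by rw [hη, etaD]) rfl hg hS2 hz ht2nn (sq_nonneg a)
  have hsumnn : 0 ≤ t2 + a ^ 2 := by positivity
  exact hfin.trans (mul_le_mul_of_nonneg_right (le_max_right _ _) hsumnn)

end L3

/-! ### The two-state package -/

section Package

variable {V : Type u} {G : SimpleGraph V} [G.LocallyFinite] {D : ℕ}
variable {E : Type v} [MeasurableSpace E] {θ θ' : ℝ}

/-- Standing hypotheses on two states. -/
structure TS (D : ℕ) (st : FState G E θ) (st' : FState G E θ') : Prop where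
  hG : RegTree G D
  θ0 : 0 ≤ θ
  θ0' : 0 ≤ θ'
  hθ : (D : ℝ) * θ ^ 2 < 1
  hθ' : (D : ℝ) * θ' ^ 2 < 1

variable {st : FState G E θ} {st' : FState G E θ'}

namespace TS

variable (T : TS D st st')
include T

theorem θθ : (D : ℝ) * θ * θ < 1 := by
  have := T.hθ
  nlinarith

theorem θ'θ' : (D : ℝ) * θ' * θ' < 1 := by
  have := T.hθ'
  nlinarith

theorem θθ' : (D : ℝ) * θ * θ' < 1 :=
  mul_lt_one_of_sq (Nat.cast_nonneg D) T.hθ T.hθ'

theorem D_ge : (2 : ℝ) ≤ D := by exact_mod_cast T.hG.two_le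

theorem θ_le : θ ≤ 1 := by
  have := T.D_ge
  have := T.hθ
  have h0 := T.θ0
  nlinarith

theorem θ'_le : θ' ≤ 1 := by
  have := T.D_ge
  have := T.hθ'
  have h0 := T.θ0'
  nlinarith

theorem Q_EF : EF G st.Q := Rr_EF T.hG st st T.θ0 T.θ0 T.θθ

theorem Q'_EF : EF G st'.Q := Rr_EF T.hG st' st' T.θ0' T.θ0' T.θ'θ'

theorem R_EF : EF G (Rr st st') := Rr_EF T.hG st st' T.θ0 T.θ0' T.θθ'

theorem G_EF : EF G (Qdiff st st') := T.Q_EF.sub T.Q'_EF

theorem Qbar_EF : EF G (Qbar st st') := by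
  have := (T.Q_EF.add T.Q'_EF).mul (EF.const (G := G) (E := E) (1 / 2))
  convert this using 4 with p y x
  simp only [Qbar]
  ring

/-- bounds of the `Q`s. -/
theorem Q_ge {p y : V} (h : G.Adj p y) (x : V → E) : 1 ≤ st.Q p y x :=
  (Rr_bounds T.hG st st T.θ0 T.θ0 T.θθ h x).1

theorem Q'_ge {p y : V} (h : G.Adj p y) (x : V → E) : 1 ≤ st'.Q p y x :=
  (Rr_bounds T.hG st' st' T.θ0' T.θ0' T.θ'θ' h x).1

theorem R_ge {p y : V} (h : G.Adj p y) (x : V → E) : 1 ≤ Rr st st' p y x :=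
  (Rr_bounds T.hG st st' T.θ0 T.θ0' T.θθ' h x).1

theorem Qbar_ge {p y : V} (h : G.Adj p y) (x : V → E) : 1 ≤ Qbar st st' p y x := by
  have := T.Q_ge h x
  have := T.Q'_ge h x
  simp only [Qbar]
  linarith

/-- the mixed `Q` at `θ,θ'`. -/
theorem slopeHyp (x : V → E) : SlopeHyp (fun a b => st.b a b x) (fun a b => st'.b a b x) θ θ' :=
  st.slope st' T.θ0 T.θ0' x

/-- `R ≤ Q̄` -/
theorem R_le_Qbar {p y : V} (h : G.Adj p y) (x : V → E) : Rr st st' p y x ≤ Qbar st st' p y x := by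
  have := quad_nonneg T.hG (T.slopeHyp x) T.θθ T.θ'θ' T.θθ' h 1 1
  simp only [one_pow, one_mul, mul_one] at this
  have e1 : st.Q p y x = Qmix G (fun a b => st.b a b x) (fun a b => st.b a b x) p y := rfl
  have e2 : st'.Q p y x = Qmix G (fun a b => st'.b a b x) (fun a b => st'.b a b x) p y := rfl
  have e3 : Rr st st' p y x = Qmix G (fun a b => st.b a b x) (fun a b => st'.b a b x) p y := rfl
  simp only [Qbar]
  rw [e1, e2, e3]
  linarith

theorem Q_rec {p y : V} (h : G.Adj p y) (x : V → E) :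
    st.Q p y x = 1 + ∑ z ∈ ch G p y, st.b y z x * st.b y z x * st.Q y z x :=
  Rr_rec T.hG st st T.θ0 T.θ0 T.θθ h x

theorem Q'_rec {p y : V} (h : G.Adj p y) (x : V → E) :
    st'.Q p y x = 1 + ∑ z ∈ ch G p y, st'.b y z x * st'.b y z x * st'.Q y z x :=
  Rr_rec T.hG st' st' T.θ0' T.θ0' T.θ'θ' h x

theorem R_rec {p y : V} (h : G.Adj p y) (x : V → E) :
    Rr st st' p y x = 1 + ∑ z ∈ ch G p y, st.b y z x * st'.b y z x * Rr st st' y z x :=
  Rr_rec T.hG st st' T.θ0 T.θ0' T.θθ' h x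

end TS

/-- `M = (b² + b'²) / 2` -/
noncomputable def MMf (st : FState G E θ) (st' : FState G E θ') (p y : V) (x : V → E) : ℝ :=
  (st.b p y x ^ 2 + st'.b p y x ^ 2) / 2

/-- `Θ = Δ(b²) Q̄` -/
noncomputable def THf (st : FState G E θ) (st' : FState G E θ') (p y : V) (x : V → E) : ℝ :=
  (st.b p y x ^ 2 - st'.b p y x ^ 2) * Qbar st st' p y x

/-- `Z = M G + Θ`, with value `b² Q - b'² Q'` -/
noncomputable def ZZf (st : FState G E θ) (st' : FState G E θ') (p y : V) (x : V → E) : ℝ :=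
  MMf st st' p y x * Qdiff st st' p y x + THf st st' p y x

theorem ZZf_eq (st : FState G E θ) (st' : FState G E θ') (p y : V) (x : V → E) :
    ZZf st st' p y x = st.b p y x * st.b p y x * st.Q p y x - st'.b p y x * st'.b p y x * st'.Q p y x := by
  simp only [ZZf, MMf, THf, Qbar, Qdiff]
  ring

/-- `P = Q + Q' - 2R`. -/
noncomputable def PPf (st : FState G E θ) (st' : FState G E θ') (p y : V) (x : V → E) : ℝ :=
  st.Q p y x + st'.Q p y x - 2 * Rr st st' p y x

/-- `F = Δb (Δb Q̄ + b̄ G)`. -/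
noncomputable def FFf (st : FState G E θ) (st' : FState G E θ') (p y : V) (x : V → E) : ℝ :=
  (st.b p y x - st'.b p y x) * ((st.b p y x - st'.b p y x) * Qbar st st' p y x +
    (st.b p y x + st'.b p y x) / 2 * Qdiff st st' p y x)

/-- `s = b b'` -/
noncomputable def SSf (st : FState G E θ) (st' : FState G E θ') (p y : V) (x : V → E) : ℝ :=
  st.b p y x * st'.b p y x

/-- `P_V = Q_V + Q'_V - 2 R_V`. -/
noncomputable def PVf (st : FState G E θ) (st' : FState G E θ') (v : V) (x : V → E) : ℝ :=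
  st.QV v x + st'.QV v x - 2 * RrV st st' v x

/-- the local weight `c c'` -/
noncomputable def WWf (st : FState G E θ) (st' : FState G E θ') (v : V) (x : V → E) : ℝ :=
  st.c v x * st'.c v x

theorem quad_id (st : FState G E θ) (st' : FState G E θ') (p y : V) (x : V → E) :
    SSf st st' p y x * PPf st st' p y x + FFf st st' p y x =
      st.b p y x * st.b p y x * st.Q p y x + st'.b p y x * st'.b p y x * st'.Q p y x -
        2 * (st.b p y x * st'.b p y x * Rr st st' p y x) := by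
  simp only [SSf, PPf, FFf, Qbar, Qdiff]
  ring

namespace TS

variable (T : TS D st st')
include T

theorem MM_EF : EF G (MMf st st') := by
  have hb := st.b_EF
  have hb' := st'.b_EF
  have := ((hb.mul hb).add (hb'.mul hb')).mul (EF.const (G := G) (E := E) (1 / 2))
  convert this using 4 with p y x
  simp only [MMf]
  ring

theorem TH_EF : EF G (THf st st') := by
  have hb := st.b_EF
  have hb' := st'.b_EF
  have := ((hb.mul hb).sub (hb'.mul hb')).mul T.Qbar_EF
  convert this using 4 with p y x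
  simp only [THf]
  ring

theorem ZZ_EF : EF G (ZZf st st') := (T.MM_EF.mul T.G_EF).add T.TH_EF

theorem SS_EF : EF G (SSf st st') := st.b_EF.mul st'.b_EF

theorem PP_EF : EF G (PPf st st') := by
  have := (T.Q_EF.add T.Q'_EF).sub (T.R_EF.const_mul 2)
  exact this

theorem FF_EF : EF G (FFf st st') := by
  have hb := st.b_EF
  have hb' := st'.b_EF
  have hd := hb.sub hb'
  have := hd.mul ((hd.mul T.Qbar_EF).add
    (((hb.add hb').mul (EF.const (G := G) (E := E) (1 / 2))).mul T.G_EF))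
  convert this using 4 with p y x
  simp only [FFf]
  ring

theorem WW_VF : VF G (WWf st st') := st.c_VF.mul st'.c_VF

theorem QV_VF : VF G st.QV := RrV_VF T.hG st st T.θ0 T.θ0 T.θθ

theorem QV'_VF : VF G st'.QV := RrV_VF T.hG st' st' T.θ0' T.θ0' T.θ'θ'

theorem RV_VF : VF G (RrV st st') := RrV_VF T.hG st st' T.θ0 T.θ0' T.θθ'

theorem G_rec {p y : V} (h : G.Adj p y) (x : V → E) :
    Qdiff st st' p y x = ∑ z ∈ ch G p y, ZZf st st' y z x := by
  simp only [Qdiff, ZZf_eq]
  rw [T.Q_rec h x, T.Q'_rec h x, Finset.sum_sub_distrib]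
  ring

theorem PP_rec {p y : V} (h : G.Adj p y) (x : V → E) :
    PPf st st' p y x = ∑ z ∈ ch G p y, (SSf st st' y z x * PPf st st' y z x + FFf st st' y z x) := by
  simp only [quad_id]
  simp only [PPf]
  rw [T.Q_rec h x, T.Q'_rec h x, T.R_rec h x, Finset.sum_sub_distrib, Finset.sum_add_distrib, ← Finset.mul_sum]
  ring

theorem PV_eq (v : V) (x : V → E) :
    PVf st st' v x = ∑ y ∈ G.neighborFinset v, (SSf st st' v y x * PPf st st' v y x + FFf st st' v y x) := by
  simp only [quad_id]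
  simp only [PVf]
  rw [FState.QV_eq_RrV, FState.QV_eq_RrV, RrV_eq, RrV_eq, RrV_eq, Finset.sum_sub_distrib,
    Finset.sum_add_distrib, ← Finset.mul_sum]
  simp only [FState.Q_eq_Rr]
  ring

theorem GV_eq (v : V) (x : V → E) :
    st.QV v x - st'.QV v x = ∑ y ∈ G.neighborFinset v, ZZf st st' v y x := by
  simp only [ZZf_eq]
  rw [FState.QV_eq_RrV, FState.QV_eq_RrV, RrV_eq, RrV_eq, Finset.sum_sub_distrib]
  simp only [FState.Q_eq_Rr]
  ring

theorem M0 {p y : V} (x : V → E) : 0 ≤ MMf st st' p y x := by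
  simp only [MMf]
  positivity

theorem b_sq_le {p y : V} (x : V → E) : st.b p y x ^ 2 ≤ 1 / (D : ℝ) := by
  have hd := T.D_ge
  rw [le_div_iff₀ (by linarith)]
  have h1 := st.b_nonneg p y x
  have h2 := st.b_le p y x
  have h3 : st.b p y x ^ 2 ≤ θ ^ 2 := pow_le_pow_left₀ h1 h2 2
  nlinarith [T.hθ]

theorem b'_sq_le {p y : V} (x : V → E) : st'.b p y x ^ 2 ≤ 1 / (D : ℝ) := by
  have hd := T.D_ge
  rw [le_div_iff₀ (by linarith)]
  have h1 := st'.b_nonneg p y x
  have h2 := st'.b_le p y x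
  have h3 : st'.b p y x ^ 2 ≤ θ' ^ 2 := pow_le_pow_left₀ h1 h2 2
  nlinarith [T.hθ']

theorem M1 {p y : V} (x : V → E) : MMf st st' p y x ≤ 1 / (D : ℝ) := by
  have h1 := T.b_sq_le (p := p) (y := y) x
  have h2 := T.b'_sq_le (p := p) (y := y) x
  simp only [MMf]
  linarith

theorem b_le1 {p y : V} (x : V → E) : st.b p y x ≤ 1 := (st.b_le p y x).trans T.θ_le

theorem b'_le1 {p y : V} (x : V → E) : st'.b p y x ≤ 1 := (st'.b_le p y x).trans T.θ'_le

theorem G_rec' {p y : V} (h : G.Adj p y) (x : V → E) :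
    Qdiff st st' p y x = ∑ z ∈ ch G p y, (MMf st st' y z x * Qdiff st st' y z x + THf st st' y z x) :=
  T.G_rec h x

end TS

end Package

/-! ### Core estimates for two states -/

section Core

variable {V : Type u} {G : SimpleGraph V} [G.LocallyFinite] {D : ℕ}
variable {E : Type v} [MeasurableSpace E] {κ : Measure E} [IsProbabilityMeasure κ] {θ θ' : ℝ}
variable {st : FState G E θ} {st' : FState G E θ'}

local notation "μ" => Measure.infinitePi (fun _ : V => κ)

/-- (L3) at any edge. -/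
theorem TS.L3 (T : TS D st st') {p y : V} (h : G.Adj p y) :
    ∫ x, Qdiff st st' p y x ^ 2 ∂μ ≤
      CGD D * (∫ x, THf st st' p y x ^ 2 ∂μ + (∫ x, Qdiff st st' p y x ∂μ) ^ 2) :=
  abstract_L3 T.hG T.G_EF T.MM_EF T.TH_EF (fun _ _ _ x => T.M0 x) (fun _ _ _ x => T.M1 x)
    (fun _ _ h x => T.G_rec' h x) h

/-- the integrand of `W`. -/
noncomputable def WWint (st : FState G E θ) (st' : FState G E θ') (v y : V) (x : V → E) : ℝ :=
  (st.b v y x - st'.b v y x) ^ 2 * (Qbar st st' v y x ^ 2 + Qbar st st' y v x ^ 2)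

theorem TS.WWint_bm (T : TS D st st') {v y : V} (h : G.Adj v y) : Hoeffding.BM (WWint st st' v y) := by
  have hd := ((st.b_EF).sub (st'.b_EF)).bm h
  have h1 := T.Qbar_EF.bm h
  have h2 := T.Qbar_EF.bm h.symm
  have := (hd.mul hd).mul ((h1.mul h1).add (h2.mul h2))
  convert this using 2 with x
  simp only [WWint]
  ring

theorem TS.WW_nonneg {v y : V} (κ : Measure E) (_T : TS D st st') :
    0 ≤ ∫ x, WWint st st' v y x ∂(Measure.infinitePi fun _ : V => κ) :=
  integral_nonneg fun x => by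
    simp only [WWint]
    positivity

theorem TS.sq_bm {f : (V → E) → ℝ} (hf : Hoeffding.BM f) : Hoeffding.BM (fun x => f x ^ 2) := by
  simpa only [pow_two] using hf.mul hf

theorem TS.TH_le (T : TS D st st') {v y : V} (h : G.Adj v y) :
    ∫ x, THf st st' v y x ^ 2 ∂μ ≤ 4 * ∫ x, WWint st st' v y x ∂μ := by
  rw [← integral_const_mul]
  refine integral_mono (TS.sq_bm (T.TH_EF.bm h) |>.integrable _)
    (((T.WWint_bm h).const_mul 4).integrable _) fun x => ?_
  simp only [THf, WWint]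
  have h1 := st.b_nonneg v y x
  have h2 := st'.b_nonneg v y x
  have h3 := T.b_le1 (p := v) (y := y) x
  have h4 := T.b'_le1 (p := v) (y := y) x
  set a := st.b v y x
  set b := st'.b v y x
  set q := Qbar st st' v y x
  set q' := Qbar st st' y v x
  have e : ((a ^ 2 - b ^ 2) * q) ^ 2 = (a - b) ^ 2 * (a + b) ^ 2 * q ^ 2 := by ring
  rw [e]
  have h5 : (a + b) ^ 2 ≤ 2 ^ 2 := pow_le_pow_left₀ (by positivity) (by linarith) 2
  have h6 : (a - b) ^ 2 * (a + b) ^ 2 ≤ (a - b) ^ 2 * 4 :=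
    mul_le_mul_of_nonneg_left (by linarith) (sq_nonneg _)
  have h7 : (a - b) ^ 2 * (a + b) ^ 2 * q ^ 2 ≤ (a - b) ^ 2 * 4 * q ^ 2 :=
    mul_le_mul_of_nonneg_right h6 (sq_nonneg _)
  have h8 : 0 ≤ (a - b) ^ 2 * q' ^ 2 := by positivity
  nlinarith

theorem TS.g2_le (T : TS D st st') {v y : V} (h : G.Adj v y) :
    ∫ x, Qdiff st st' v y x ^ 2 ∂μ ≤
      CGD D * (4 * ∫ x, WWint st st' v y x ∂μ + (∫ x, Qdiff st st' v y x ∂μ) ^ 2) :=
  (T.L3 h).trans (mul_le_mul_of_nonneg_left (by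
    have := T.TH_le (κ := κ) h
    linarith) (CGD_pos D).le)

/-- The product of the reversal relations. -/
theorem TS.rev_WW (hrev : ∀ p y, G.Adj p y → ∀ᵐ x ∂μ, st.c p x * st.b p y x = st.c y x * st.b y p x)
    (hrev' : ∀ p y, G.Adj p y → ∀ᵐ x ∂μ, st'.c p x * st'.b p y x = st'.c y x * st'.b y p x) :
    ∀ p y, G.Adj p y → ∀ᵐ x ∂μ, WWf st st' p x * SSf st st' p y x = WWf st st' y x * SSf st st' y p x := by
  intro p y h
  filter_upwards [hrev p y h, hrev' p y h] with x h1 h2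
  simp only [WWf, SSf]
  calc st.c p x * st'.c p x * (st.b p y x * st'.b p y x)
      = (st.c p x * st.b p y x) * (st'.c p x * st'.b p y x) := by ring
    _ = (st.c y x * st.b y p x) * (st'.c y x * st'.b y p x) := by rw [h1, h2]
    _ = _ := by ring

/-- **(L2)**, the mass transport identity. -/
theorem TS.PV_int (T : TS D st st')
    (hrev : ∀ p y, G.Adj p y → ∀ᵐ x ∂μ, st.c p x * st.b p y x = st.c y x * st.b y p x)
    (hrev' : ∀ p y, G.Adj p y → ∀ᵐ x ∂μ, st'.c p x * st'.b p y x = st'.c y x * st'.b y p x)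
    {v y : V} (h : G.Adj v y) :
    ∫ x, WWf st st' v x * PVf st st' v x ∂μ =
      ((D : ℝ) + 1) * ∫ x, WWf st st' v x * Rr st st' y v x * FFf st st' v y x ∂μ := by
  classical
  have hdual := duality (κ := κ) T.hG T.WW_VF T.SS_EF T.PP_EF T.FF_EF T.R_EF (TS.rev_WW hrev hrev')
    (fun _ _ h x => T.PP_rec h x) (fun _ _ h x => T.R_rec h x) h
  rw [← hdual]
  let φ : V → V → (V → E) → ℝ := fun a b x =>
    WWf st st' a x * (SSf st st' a b x * PPf st st' a b x + FFf st st' a b x)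
  have hφ : ∀ {a b : V}, G.Adj a b → Hoeffding.BM (φ a b) := fun {a b} hab =>
    (T.WW_VF.bm a).mul (((T.SS_EF.bm hab).mul (T.PP_EF.bm hab)).add (T.FF_EF.bm hab))
  have e : ∀ x, WWf st st' v x * PVf st st' v x = ∑ y' ∈ G.neighborFinset v, φ v y' x := by
    intro x
    rw [T.PV_eq, Finset.mul_sum]
  simp only [e]
  rw [integral_finsetSum _ fun y' hy' => (hφ (by simpa using hy')).integrable _]
  have hinv : ∀ y' ∈ G.neighborFinset v, ∫ x, φ v y' x ∂μ = ∫ x, φ v y x ∂μ := by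
    intro y' hy'
    have hvy' : G.Adj v y' := by simpa using hy'
    refine integral_edge_invariant T.hG φ hvy' h (hφ hvy') fun g x => ?_
    simp only [φ]
    rw [T.WW_VF.equiv g, T.SS_EF.equiv g _ _ hvy', T.PP_EF.equiv g _ _ hvy', T.FF_EF.equiv g _ _ hvy']
  rw [Finset.sum_congr rfl hinv, Finset.sum_const, T.hG.card_neighbor, nsmul_eq_mul]
  push_cast
  rfl

theorem TS.W_bounds (_T : TS D st st') (v : V) (x : V → E) : 0 ≤ WWf st st' v x ∧ WWf st st' v x ≤ 1 := by
  have h1 := st.c_nonneg v x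
  have h2 := st'.c_nonneg v x
  have h3 := st.c_le v x
  have h4 := st'.c_le v x
  simp only [WWf]
  exact ⟨mul_nonneg h1 h2, mul_le_one₀ h3 h2 h4⟩

/-- The pointwise bound for the mass transport integrand. -/
theorem TS.integrand_le (T : TS D st st') {v y : V} (h : G.Adj v y) (x : V → E) :
    WWf st st' v x * Rr st st' y v x * FFf st st' v y x ≤
      WWint st st' v y x + (1 / 2) * Qdiff st st' v y x ^ 2 := by
  obtain ⟨hw0, hw1⟩ := T.W_bounds v x
  have hR1 := T.R_ge h.symm x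
  have hRq := T.R_le_Qbar h.symm x
  have hq1 := T.Qbar_ge h x
  have hb0 := st.b_nonneg v y x
  have hb0' := st'.b_nonneg v y x
  have hb1 := T.b_le1 (p := v) (y := y) x
  have hb1' := T.b'_le1 (p := v) (y := y) x
  simp only [FFf, WWint]
  set w := WWf st st' v x
  set R := Rr st st' y v x
  set q := Qbar st st' y v x
  set q₁ := Qbar st st' v y x
  set G' := Qdiff st st' v y x
  set a := st.b v y x
  set b := st'.b v y x
  set δ := a - b
  have hm0 : 0 ≤ (a + b) / 2 := by positivity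
  have hm1 : (a + b) / 2 ≤ 1 := by linarith
  set m := (a + b) / 2
  have hA0 : 0 ≤ w * R := mul_nonneg hw0 (by linarith)
  have hA1 : w * R ≤ q := by
    have h1 : w * R ≤ 1 * R := mul_le_mul_of_nonneg_right hw1 (by linarith)
    linarith
  have hq : 0 ≤ q := by linarith
  have e : w * R * (δ * (δ * q₁ + m * G')) = (w * R) * (δ ^ 2 * q₁) + (w * R) * (δ * m * G') := by ring
  rw [e]
  have t1 : (w * R) * (δ ^ 2 * q₁) ≤ q * (δ ^ 2 * q₁) :=
    mul_le_mul_of_nonneg_right hA1 (by positivity)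
  have t2 : (w * R) * (δ * m * G') ≤ q * (|δ| * |G'|) := by
    have : (w * R) * (δ * m * G') ≤ |(w * R) * (δ * m * G')| := le_abs_self _
    refine this.trans ?_
    rw [abs_mul (w * R), abs_of_nonneg hA0, abs_mul (δ * m), abs_mul δ, abs_of_nonneg hm0]
    have h2 : |δ| * m * |G'| ≤ |δ| * 1 * |G'| := by
      apply mul_le_mul_of_nonneg_right _ (abs_nonneg _)
      exact mul_le_mul_of_nonneg_left hm1 (abs_nonneg _)
    have h3 : 0 ≤ |δ| * 1 * |G'| := by positivity
    calc w * R * (|δ| * m * |G'|) ≤ q * (|δ| * 1 * |G'|) := mul_le_mul hA1 h2 (by positivity) hq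
      _ = q * (|δ| * |G'|) := by ring
  have t3 : q * (δ ^ 2 * q₁) ≤ δ ^ 2 * (q ^ 2 + q₁ ^ 2) / 2 := by
    have : 0 ≤ δ ^ 2 * (q - q₁) ^ 2 := by positivity
    nlinarith
  have t4 : q * (|δ| * |G'|) ≤ (q ^ 2 * δ ^ 2 + G' ^ 2) / 2 := by
    have h5 : 0 ≤ (q * |δ| - |G'|) ^ 2 := sq_nonneg _
    have h6 : (q * |δ| - |G'|) ^ 2 = q ^ 2 * δ ^ 2 - 2 * (q * (|δ| * |G'|)) + G' ^ 2 := by
      have : |δ| ^ 2 = δ ^ 2 := sq_abs δ
      have : |G'| ^ 2 = G' ^ 2 := sq_abs G'
      nlinarith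
    linarith
  have t5 : 0 ≤ δ ^ 2 * q₁ ^ 2 := by positivity
  nlinarith

/-- **Key bound**: `E[c c' P_V] ≤ d (W + g²/2)`. -/
theorem TS.key (T : TS D st st')
    (hrev : ∀ p y, G.Adj p y → ∀ᵐ x ∂μ, st.c p x * st.b p y x = st.c y x * st.b y p x)
    (hrev' : ∀ p y, G.Adj p y → ∀ᵐ x ∂μ, st'.c p x * st'.b p y x = st'.c y x * st'.b y p x)
    {v y : V} (h : G.Adj v y) :
    ∫ x, WWf st st' v x * PVf st st' v x ∂μ ≤
      ((D : ℝ) + 1) * (∫ x, WWint st st' v y x ∂μ + (1 / 2) * ∫ x, Qdiff st st' v y x ^ 2 ∂μ) := by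
  rw [T.PV_int hrev hrev' h]
  refine mul_le_mul_of_nonneg_left ?_ (by positivity)
  have hG2 : Integrable (fun x => Qdiff st st' v y x ^ 2) μ :=
    (TS.sq_bm (T.G_EF.bm h)).integrable _
  have hW : Integrable (WWint st st' v y) μ := (T.WWint_bm h).integrable _
  have hF : Hoeffding.BM (fun x => WWf st st' v x * Rr st st' y v x * FFf st st' v y x) :=
    ((T.WW_VF.bm v).mul (T.R_EF.bm h.symm)).mul (T.FF_EF.bm h)
  have : ∫ x, WWint st st' v y x ∂μ + (1 / 2) * ∫ x, Qdiff st st' v y x ^ 2 ∂μ =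
      ∫ x, (WWint st st' v y x + (1 / 2) * Qdiff st st' v y x ^ 2) ∂μ := by
    rw [integral_add hW (hG2.const_mul _), integral_const_mul]
  rw [this]
  exact integral_mono (hF.integrable _) (hW.add (hG2.const_mul _)) fun x => T.integrand_le h x

/-- Second moment of `Z`. -/
theorem TS.z2_le (T : TS D st st') {v y : V} (h : G.Adj v y) :
    ∫ x, ZZf st st' v y x ^ 2 ∂μ ≤
      2 * ∫ x, Qdiff st st' v y x ^ 2 ∂μ + 2 * ∫ x, THf st st' v y x ^ 2 ∂μ := by
  have hG2 : Integrable (fun x => Qdiff st st' v y x ^ 2) μ :=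
    (TS.sq_bm (T.G_EF.bm h)).integrable _
  have hT2 : Integrable (fun x => THf st st' v y x ^ 2) μ :=
    (TS.sq_bm (T.TH_EF.bm h)).integrable _
  rw [← integral_const_mul, ← integral_const_mul, ← integral_add (hG2.const_mul _) (hT2.const_mul _)]
  refine integral_mono ((TS.sq_bm (T.ZZ_EF.bm h)).integrable _)
    ((hG2.const_mul _).add (hT2.const_mul _)) fun x => ?_
  simp only [ZZf]
  have h0 := T.M0 (p := v) (y := y) x
  have h1 := T.M1 (p := v) (y := y) x
  have hd := T.D_ge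
  have h2 : MMf st st' v y x ≤ 1 := by
    refine h1.trans ?_
    rw [div_le_one (by linarith)]
    linarith
  set M := MMf st st' v y x
  set A := Qdiff st st' v y x
  set B := THf st st' v y x
  have h3 : M ^ 2 ≤ 1 := by nlinarith
  have h4 : M ^ 2 * A ^ 2 ≤ 1 * A ^ 2 := mul_le_mul_of_nonneg_right h3 (sq_nonneg _)
  nlinarith [sq_nonneg (M * A - B)]

/-- Second moment of the vertex difference. -/
theorem TS.GV2_le (T : TS D st st') {v y : V} (h : G.Adj v y) :
    ∫ x, (st.QV v x - st'.QV v x) ^ 2 ∂μ ≤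
      ((D : ℝ) + 1) ^ 2 * ∫ x, ZZf st st' v y x ^ 2 ∂μ := by
  classical
  have hZbm : ∀ y' ∈ G.neighborFinset v, Integrable (fun x => ZZf st st' v y' x ^ 2) μ := fun y' hy' =>
    (TS.sq_bm (T.ZZ_EF.bm (by simpa using hy'))).integrable _
  have hcard : ((G.neighborFinset v).card : ℝ) = (D : ℝ) + 1 := by
    rw [T.hG.card_neighbor]; push_cast; rfl
  have hpt : ∀ x, (st.QV v x - st'.QV v x) ^ 2 ≤
      ((D : ℝ) + 1) * ∑ y' ∈ G.neighborFinset v, ZZf st st' v y' x ^ 2 := by
    intro x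
    rw [T.GV_eq, ← hcard]
    exact sq_sum_le_card_mul_sum_sq
  have hGVbm : Hoeffding.BM (fun x => st.QV v x - st'.QV v x) :=
    (T.QV_VF.bm v).sub (T.QV'_VF.bm v)
  have hsum : ∫ x, ∑ y' ∈ G.neighborFinset v, ZZf st st' v y' x ^ 2 ∂μ =
      ((D : ℝ) + 1) * ∫ x, ZZf st st' v y x ^ 2 ∂μ := by
    rw [integral_finsetSum _ hZbm, Finset.sum_congr rfl fun y' hy' =>
      T.ZZ_EF.integral_sq_eq (κ := κ) T.hG (p := v) (y := y') (by simpa using hy') h,
      Finset.sum_const, nsmul_eq_mul, hcard]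
  calc ∫ x, (st.QV v x - st'.QV v x) ^ 2 ∂μ
      ≤ ∫ x, ((D : ℝ) + 1) * ∑ y' ∈ G.neighborFinset v, ZZf st st' v y' x ^ 2 ∂μ :=
        integral_mono ((TS.sq_bm hGVbm).integrable _)
          ((integrable_finsetSum _ hZbm).const_mul _) hpt
    _ = _ := by
        rw [integral_const_mul, hsum]
        ring

end Core

/-! ### Non negativity of `P`, and the final algebra -/

section Final

variable {V : Type u} {G : SimpleGraph V} [G.LocallyFinite] {D : ℕ}
variable {E : Type v} [MeasurableSpace E] {θ θ' : ℝ}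
variable {st : FState G E θ} {st' : FState G E θ'}

theorem TS.term_nonneg (T : TS D st st') {p y : V} (h : G.Adj p y) (x : V → E) :
    0 ≤ SSf st st' p y x * PPf st st' p y x + FFf st st' p y x := by
  rw [quad_id]
  have := quad_nonneg T.hG (T.slopeHyp x) T.θθ T.θ'θ' T.θθ' h (st.b p y x) (st'.b p y x)
  have e1 : st.Q p y x = Qmix G (fun a b => st.b a b x) (fun a b => st.b a b x) p y := rfl
  have e2 : st'.Q p y x = Qmix G (fun a b => st'.b a b x) (fun a b => st'.b a b x) p y := rfl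
  have e3 : Rr st st' p y x = Qmix G (fun a b => st.b a b x) (fun a b => st'.b a b x) p y := rfl
  rw [e1, e2, e3]
  nlinarith

theorem TS.PP_nonneg (T : TS D st st') {p y : V} (h : G.Adj p y) (x : V → E) :
    0 ≤ PPf st st' p y x := by
  have := quad_nonneg T.hG (T.slopeHyp x) T.θθ T.θ'θ' T.θθ' h 1 1
  simp only [one_pow, one_mul, mul_one] at this
  exact this

theorem TS.PP_le_PV (T : TS D st st') {z w : V} (h : G.Adj z w) (x : V → E) :
    PPf st st' z w x ≤ PVf st st' w x := by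
  rw [T.PP_rec h x, T.PV_eq w x]
  refine Finset.sum_le_sum_of_subset_of_nonneg (Finset.erase_subset _ _) fun y' hy' _ => ?_
  exact T.term_nonneg (by simpa using hy') x

/-- The constant of (L4). -/
noncomputable def Ctot (D : ℕ) : ℝ :=
  1 + ((D : ℝ) + 1) + 4 * ((D : ℝ) + 1) ^ 2 + 4 * (((D : ℝ) + 1) / 2 + ((D : ℝ) + 1) ^ 2) * CGD D

theorem Ctot_pos (D : ℕ) : 0 < Ctot D := by
  have := CGD_pos D
  unfold Ctot
  positivity

omit [G.LocallyFinite] [MeasurableSpace E] in
theorem final_alg {d CG W N a2 g2 t2 z2 I GV : ℝ} (hd : 0 ≤ d) (hCG : 0 ≤ CG) (hW : 0 ≤ W) (hN : 0 ≤ N)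
    (ha : 0 ≤ a2) (h1 : I ≤ d * (W + 1 / 2 * g2)) (h2 : GV ≤ d ^ 2 * z2) (h3 : z2 ≤ 2 * g2 + 2 * t2)
    (h4 : t2 ≤ 4 * W) (h5 : g2 ≤ CG * (4 * W + a2)) :
    I + N + 1 / 2 * GV ≤ (1 + d + 4 * d ^ 2 + 4 * (d / 2 + d ^ 2) * CG) * (W + N + a2) := by
  have hd2 : 0 ≤ d ^ 2 := sq_nonneg d
  have hB0 : 0 ≤ d / 2 + d ^ 2 := by positivity
  have hB : (d / 2 + d ^ 2) * g2 ≤ (d / 2 + d ^ 2) * (CG * (4 * W + a2)) :=
    mul_le_mul_of_nonneg_left h5 hB0
  have h2' : GV ≤ d ^ 2 * (2 * g2 + 2 * t2) := h2.trans (mul_le_mul_of_nonneg_left h3 hd2)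
  have h4' : d ^ 2 * t2 ≤ d ^ 2 * (4 * W) := mul_le_mul_of_nonneg_left h4 hd2
  set B := (d / 2 + d ^ 2) * CG with hBdef
  have hBnn : 0 ≤ B := mul_nonneg hB0 hCG
  have e : (d / 2 + d ^ 2) * (CG * (4 * W + a2)) = B * (4 * W + a2) := by rw [hBdef]; ring
  rw [e] at hB
  have e2 : (1 + d + 4 * d ^ 2 + 4 * (d / 2 + d ^ 2) * CG) = 1 + d + 4 * d ^ 2 + 4 * B := by
    rw [hBdef]; ring
  rw [e2]
  have hsum : I + N + 1 / 2 * GV ≤ N + (d + 4 * d ^ 2 + 4 * B) * W + B * a2 := by
    nlinarith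
  have hpos : 0 ≤ W + (d + 4 * d ^ 2 + 4 * B) * N + (1 + d + 4 * d ^ 2 + 3 * B) * a2 := by positivity
  nlinarith

omit [G.LocallyFinite] [MeasurableSpace E] in
theorem final_alg2 {d CG W N a2 g2 I : ℝ} (hd : 1 ≤ d) (hCG : 0 ≤ CG) (hW : 0 ≤ W) (hN : 0 ≤ N)
    (ha : 0 ≤ a2) (hg : 0 ≤ g2) (h1 : I ≤ d * (W + 1 / 2 * g2)) (h5 : g2 ≤ CG * (4 * W + a2)) :
    I + N + 1 / 2 * g2 ≤ (1 + d + 4 * d ^ 2 + 4 * (d / 2 + d ^ 2) * CG) * (W + N + a2) := by
  have hd2 : 1 ≤ d ^ 2 := by nlinarith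
  have hz := final_alg (d := d) (CG := CG) (W := W) (N := N) (a2 := a2) (g2 := g2) (t2 := 0) (z2 := 2 * g2)
    (I := I) (GV := g2) (by linarith) hCG hW hN ha h1 (by nlinarith) (by linarith) (by linarith) h5
  exact hz

end Final

variable {V : Type u} {G : SimpleGraph V} [G.LocallyFinite] {D : ℕ}
variable {E : Type v} [MeasurableSpace E] {κ : Measure E} [IsProbabilityMeasure κ]

/-- (L3) `‖ΔQ‖₂ ≤ C(‖Δ(b²) Q̄‖₂ + |E ΔQ|)`, `C` depending only on `D`; all directed edges are equivalent. -/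
theorem norm_Qdiff_le (D : ℕ) : ∃ C : ℝ, 0 < C ∧
    ∀ {V : Type u} {G : SimpleGraph V} [G.LocallyFinite] (_ : RegTree G D) {E : Type v} [MeasurableSpace E]
      {κ : Measure E} [IsProbabilityMeasure κ] {θ θ' : ℝ} (_ : 0 ≤ θ) (_ : 0 ≤ θ')
      (_ : (D : ℝ) * θ ^ 2 < 1) (_ : (D : ℝ) * θ' ^ 2 < 1)
      (st : FState G E θ) (st' : FState G E θ') {p y p₀ y₀ : V} (_ : G.Adj p y) (_ : G.Adj p₀ y₀),
      ∫ x, Qdiff st st' p y x ^ 2 ∂(Measure.infinitePi fun _ : V => κ) ≤
        C * (∫ x, ((st.b p₀ y₀ x ^ 2 - st'.b p₀ y₀ x ^ 2) * Qbar st st' p₀ y₀ x) ^ 2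
              ∂(Measure.infinitePi fun _ : V => κ) +
          (∫ x, Qdiff st st' p₀ y₀ x ∂(Measure.infinitePi fun _ : V => κ)) ^ 2) := by
  refine ⟨CGD D, CGD_pos D, ?_⟩
  intro V G _ hG E _ κ _ θ θ' h0 h0' h1 h2 st st' p y p₀ y₀ hpy hpy₀
  have T : TS D st st' := ⟨hG, h0, h0', h1, h2⟩
  rw [T.G_EF.integral_sq_eq (κ := κ) hG hpy hpy₀]
  exact T.L3 hpy₀

/-- (L4, vertex observable).  `Δb`, `Q̄` at a fixed directed edge `(v,y)`. -/
theorem total_diff_le (D : ℕ) : ∃ C : ℝ, 0 < C ∧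
    ∀ {V : Type u} {G : SimpleGraph V} [G.LocallyFinite] (_ : RegTree G D) {E : Type v} [MeasurableSpace E]
      {κ : Measure E} [IsProbabilityMeasure κ] {θ θ' : ℝ} (_ : 0 ≤ θ) (_ : 0 ≤ θ')
      (_ : (D : ℝ) * θ ^ 2 < 1) (_ : (D : ℝ) * θ' ^ 2 < 1)
      (st : FState G E θ) (st' : FState G E θ')
      (_ : ∀ p y, G.Adj p y → ∀ᵐ x ∂(Measure.infinitePi fun _ : V => κ), st.c p x * st.b p y x = st.c y x * st.b y p x)
      (_ : ∀ p y, G.Adj p y → ∀ᵐ x ∂(Measure.infinitePi fun _ : V => κ), st'.c p x * st'.b p y x = st'.c y x * st'.b y p x)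
      {v y : V} (_ : G.Adj v y),
      ∫ x, totalDiff G (st.c v x) (st'.c v x) (fun a b => st.b a b x) (fun a b => st'.b a b x) v
          ∂(Measure.infinitePi fun _ : V => κ) ≤
        C * (∫ x, (st.b v y x - st'.b v y x) ^ 2 * (Qbar st st' v y x ^ 2 + Qbar st st' y v x ^ 2)
              ∂(Measure.infinitePi fun _ : V => κ) +
          ∫ x, (st.c v x - st'.c v x) ^ 2 * (QbarV st st' v x + 1) ∂(Measure.infinitePi fun _ : V => κ) +
          (∫ x, Qdiff st st' v y x ∂(Measure.infinitePi fun _ : V => κ)) ^ 2) := by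
  refine ⟨Ctot D, Ctot_pos D, ?_⟩
  intro V G _ hG E _ κ _ θ θ' h0 h0' h1 h2 st st' hrev hrev' v y hvy
  have T : TS D st st' := ⟨hG, h0, h0', h1, h2⟩
  -- pointwise
  have hnonneg : ∀ x, 0 ≤ totalDiff G (st.c v x) (st'.c v x) (fun a b => st.b a b x) (fun a b => st'.b a b x) v := by
    intro x
    exact tsum_nonneg fun r => Finset.sum_nonneg fun _ _ => sq_nonneg _
  have hpt : ∀ x, totalDiff G (st.c v x) (st'.c v x) (fun a b => st.b a b x) (fun a b => st'.b a b x) v ≤
      WWf st st' v x * PVf st st' v x + (st.c v x - st'.c v x) ^ 2 * (QbarV st st' v x + 1) +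
        1 / 2 * (st.QV v x - st'.QV v x) ^ 2 := by
    intro x
    rw [totalDiff_eq_tw hG (T.slopeHyp x) T.θθ T.θ'θ' T.θθ' v]
    have e1 : QmixV G (fun a b => st.b a b x) (fun a b => st.b a b x) v = st.QV v x := rfl
    have e2 : QmixV G (fun a b => st'.b a b x) (fun a b => st'.b a b x) v = st'.QV v x := rfl
    have e3 : QmixV G (fun a b => st.b a b x) (fun a b => st'.b a b x) v = RrV st st' v x := rfl
    rw [e1, e2, e3]
    simp only [WWf, PVf, QbarV]
    have hc0 := st.c_nonneg v x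
    have hc1 := st.c_le v x
    have hc0' := st'.c_nonneg v x
    have hc1' := st'.c_le v x
    set c := st.c v x
    set c' := st'.c v x
    set Q := st.QV v x
    set Q' := st'.QV v x
    set R := RrV st st' v x
    have hm : ((c + c') / 2) ^ 2 ≤ 1 := by
      have : (c + c') / 2 ≤ 1 := by linarith
      have : 0 ≤ (c + c') / 2 := by positivity
      nlinarith
    have h3 : ((c + c') / 2) ^ 2 * (Q - Q') ^ 2 ≤ 1 * (Q - Q') ^ 2 :=
      mul_le_mul_of_nonneg_right hm (sq_nonneg _)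
    have h4 := sq_nonneg ((c - c') - (c + c') / 2 * (Q - Q'))
    nlinarith [sq_nonneg (c - c')]
  -- integrals
  have hWW := T.key (κ := κ) hrev hrev' hvy
  have hPVbm : Hoeffding.BM (fun x => WWf st st' v x * PVf st st' v x) := by
    refine (T.WW_VF.bm v).mul ?_
    exact ((T.QV_VF.bm v).add (T.QV'_VF.bm v)).sub ((Hoeffding.BM.const 2).mul (T.RV_VF.bm v))
  have hVbm : Hoeffding.BM (fun x => (st.c v x - st'.c v x) ^ 2 * (QbarV st st' v x + 1)) := by
    have h1 : Hoeffding.BM (fun x => QbarV st st' v x + 1) := by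
      have := (((T.QV_VF.bm v).add (T.QV'_VF.bm v)).mul (Hoeffding.BM.const (1 / 2))).add (Hoeffding.BM.const 1)
      convert this using 2 with x
      simp only [QbarV]
      ring
    exact (TS.sq_bm ((st.c_VF.bm v).sub (st'.c_VF.bm v))).mul h1
  have hGVbm : Hoeffding.BM (fun x => (st.QV v x - st'.QV v x) ^ 2) :=
    TS.sq_bm ((T.QV_VF.bm v).sub (T.QV'_VF.bm v))
  have hI1 : Integrable (fun x => WWf st st' v x * PVf st st' v x) (Measure.infinitePi fun _ : V => κ) :=
    hPVbm.integrable _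
  have hI2 : Integrable (fun x => (st.c v x - st'.c v x) ^ 2 * (QbarV st st' v x + 1))
      (Measure.infinitePi fun _ : V => κ) := hVbm.integrable _
  have hI3 : Integrable (fun x => 1 / 2 * (st.QV v x - st'.QV v x) ^ 2) (Measure.infinitePi fun _ : V => κ) :=
    (hGVbm.integrable _).const_mul _
  have hI123 : Integrable (fun x => WWf st st' v x * PVf st st' v x +
      (st.c v x - st'.c v x) ^ 2 * (QbarV st st' v x + 1) + 1 / 2 * (st.QV v x - st'.QV v x) ^ 2)
      (Measure.infinitePi fun _ : V => κ) := (hI1.add hI2).add hI3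
  have hmono := integral_mono_of_nonneg (μ := Measure.infinitePi fun _ : V => κ)
    (Filter.Eventually.of_forall hnonneg) hI123 (Filter.Eventually.of_forall hpt)
  have hsplit : ∫ x, (WWf st st' v x * PVf st st' v x + (st.c v x - st'.c v x) ^ 2 * (QbarV st st' v x + 1) +
        1 / 2 * (st.QV v x - st'.QV v x) ^ 2) ∂(Measure.infinitePi fun _ : V => κ) =
      ∫ x, WWf st st' v x * PVf st st' v x ∂(Measure.infinitePi fun _ : V => κ) +
        ∫ x, (st.c v x - st'.c v x) ^ 2 * (QbarV st st' v x + 1) ∂(Measure.infinitePi fun _ : V => κ) +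
        1 / 2 * ∫ x, (st.QV v x - st'.QV v x) ^ 2 ∂(Measure.infinitePi fun _ : V => κ) := by
    have hI12 : Integrable (fun x => WWf st st' v x * PVf st st' v x +
        (st.c v x - st'.c v x) ^ 2 * (QbarV st st' v x + 1)) (Measure.infinitePi fun _ : V => κ) :=
      hI1.add hI2
    rw [integral_add hI12 hI3, integral_add hI1 hI2, integral_const_mul]
  rw [hsplit] at hmono
  refine hmono.trans ?_
  have hNnn : 0 ≤ ∫ x, (st.c v x - st'.c v x) ^ 2 * (QbarV st st' v x + 1) ∂(Measure.infinitePi fun _ : V => κ) := by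
    refine integral_nonneg fun x => mul_nonneg (sq_nonneg _) ?_
    have hQV : 0 ≤ st.QV v x + st'.QV v x := by
      rw [FState.QV_eq_RrV, FState.QV_eq_RrV, RrV_eq, RrV_eq]
      have h1 : 0 ≤ ∑ y ∈ G.neighborFinset v, st.b v y x * st.b v y x * Rr st st v y x :=
        Finset.sum_nonneg fun y hy => mul_nonneg (mul_self_nonneg _) (by
          have := T.Q_ge (p := v) (y := y) (by simpa using hy) x
          have e : st.Q v y x = Rr st st v y x := rfl
          rw [← e]; linarith)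
      have h2 : 0 ≤ ∑ y ∈ G.neighborFinset v, st'.b v y x * st'.b v y x * Rr st' st' v y x :=
        Finset.sum_nonneg fun y hy => mul_nonneg (mul_self_nonneg _) (by
          have := T.Q'_ge (p := v) (y := y) (by simpa using hy) x
          have e : st'.Q v y x = Rr st' st' v y x := rfl
          rw [← e]; linarith)
      linarith
    simp only [QbarV]
    linarith
  have hf := final_alg (d := (D : ℝ) + 1) (CG := CGD D)
    (W := ∫ x, WWint st st' v y x ∂(Measure.infinitePi fun _ : V => κ))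
    (N := ∫ x, (st.c v x - st'.c v x) ^ 2 * (QbarV st st' v x + 1) ∂(Measure.infinitePi fun _ : V => κ))
    (a2 := (∫ x, Qdiff st st' v y x ∂(Measure.infinitePi fun _ : V => κ)) ^ 2)
    (g2 := ∫ x, Qdiff st st' v y x ^ 2 ∂(Measure.infinitePi fun _ : V => κ))
    (t2 := ∫ x, THf st st' v y x ^ 2 ∂(Measure.infinitePi fun _ : V => κ))
    (z2 := ∫ x, ZZf st st' v y x ^ 2 ∂(Measure.infinitePi fun _ : V => κ))
    (I := ∫ x, WWf st st' v x * PVf st st' v x ∂(Measure.infinitePi fun _ : V => κ))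
    (GV := ∫ x, (st.QV v x - st'.QV v x) ^ 2 ∂(Measure.infinitePi fun _ : V => κ))
    (by positivity) (CGD_pos D).le (TS.WW_nonneg κ T) hNnn (sq_nonneg _) hWW (T.GV2_le hvy) (T.z2_le hvy)
    (T.TH_le hvy) (T.g2_le hvy)
  exact hf

/-- (L4, pair observable): prefactors `n,n'` (fixed edge `(z,w)`) with `|n| ≤ c_w`, `|n'| ≤ c'_w` a.e. -/
theorem side_diff_le (D : ℕ) : ∃ C : ℝ, 0 < C ∧
    ∀ {V : Type u} {G : SimpleGraph V} [G.LocallyFinite] (_ : RegTree G D) {E : Type v} [MeasurableSpace E]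
      {κ : Measure E} [IsProbabilityMeasure κ] {θ θ' : ℝ} (_ : 0 ≤ θ) (_ : 0 ≤ θ')
      (_ : (D : ℝ) * θ ^ 2 < 1) (_ : (D : ℝ) * θ' ^ 2 < 1)
      (st : FState G E θ) (st' : FState G E θ')
      (_ : ∀ p y, G.Adj p y → ∀ᵐ x ∂(Measure.infinitePi fun _ : V => κ), st.c p x * st.b p y x = st.c y x * st.b y p x)
      (_ : ∀ p y, G.Adj p y → ∀ᵐ x ∂(Measure.infinitePi fun _ : V => κ), st'.c p x * st'.b p y x = st'.c y x * st'.b y p x)
      {z w y : V} (_ : G.Adj z w) (_ : G.Adj w y) (n n' : (V → E) → ℝ) (_ : Measurable n) (_ : Measurable n')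
      (_ : ∀ᵐ x ∂(Measure.infinitePi fun _ : V => κ), |n x| ≤ st.c w x)
      (_ : ∀ᵐ x ∂(Measure.infinitePi fun _ : V => κ), |n' x| ≤ st'.c w x),
      ∫ x, sideDiff G (n x) (n' x) (fun a b => st.b a b x) (fun a b => st'.b a b x) z w
          ∂(Measure.infinitePi fun _ : V => κ) ≤
        C * (∫ x, (st.b w y x - st'.b w y x) ^ 2 * (Qbar st st' w y x ^ 2 + Qbar st st' y w x ^ 2)
              ∂(Measure.infinitePi fun _ : V => κ) +
          ∫ x, (n x - n' x) ^ 2 * (Qbar st st' z w x + 1) ∂(Measure.infinitePi fun _ : V => κ) +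
          (∫ x, Qdiff st st' w y x ∂(Measure.infinitePi fun _ : V => κ)) ^ 2) := by
  refine ⟨Ctot D, Ctot_pos D, ?_⟩
  intro V G _ hG E _ κ _ θ θ' h0 h0' h1 h2 st st' hrev hrev' z w y hzw hwy n n' hnm hnm' hn hn'
  have T : TS D st st' := ⟨hG, h0, h0', h1, h2⟩
  have hnonneg : ∀ x, 0 ≤ sideDiff G (n x) (n' x) (fun a b => st.b a b x) (fun a b => st'.b a b x) z w := by
    intro x
    exact tsum_nonneg fun r => Finset.sum_nonneg fun _ _ => sq_nonneg _
  have hpt : ∀ᵐ x ∂(Measure.infinitePi fun _ : V => κ),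
      sideDiff G (n x) (n' x) (fun a b => st.b a b x) (fun a b => st'.b a b x) z w ≤
      WWf st st' w x * PVf st st' w x + (n x - n' x) ^ 2 * (Qbar st st' z w x + 1) +
        1 / 2 * Qdiff st st' z w x ^ 2 := by
    filter_upwards [hn, hn'] with x hx hx'
    rw [sideDiff_eq_tw hG (T.slopeHyp x) T.θθ T.θ'θ' T.θθ' hzw]
    have e1 : Qmix G (fun a b => st.b a b x) (fun a b => st.b a b x) z w = st.Q z w x := rfl
    have e2 : Qmix G (fun a b => st'.b a b x) (fun a b => st'.b a b x) z w = st'.Q z w x := rfl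
    have e3 : Qmix G (fun a b => st.b a b x) (fun a b => st'.b a b x) z w = Rr st st' z w x := rfl
    rw [e1, e2, e3]
    have hPnn := T.PP_nonneg hzw x
    have hPle := T.PP_le_PV hzw x
    have hc1 := st.c_le w x
    have hc1' := st'.c_le w x
    have hc0 := st.c_nonneg w x
    have hc0' := st'.c_nonneg w x
    have hnn : n x * n' x ≤ WWf st st' w x := by
      simp only [WWf]
      calc n x * n' x ≤ |n x * n' x| := le_abs_self _
        _ = |n x| * |n' x| := abs_mul _ _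
        _ ≤ _ := mul_le_mul hx hx' (abs_nonneg _) hc0
    have hw0 : 0 ≤ WWf st st' w x := mul_nonneg hc0 hc0'
    have h3 : n x * n' x * PPf st st' z w x ≤ WWf st st' w x * PVf st st' w x :=
      (mul_le_mul_of_nonneg_right hnn hPnn).trans (mul_le_mul_of_nonneg_left hPle hw0)
    have hm : ((n x + n' x) / 2) ^ 2 ≤ 1 := by
      have ha := abs_le.mp (hx.trans hc1)
      have hb := abs_le.mp (hx'.trans hc1')
      have hc : |(n x + n' x) / 2| ≤ 1 := by
        rw [abs_le]
        constructor <;> linarith [ha.1, ha.2, hb.1, hb.2]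
      rw [← sq_abs]
      have := abs_nonneg ((n x + n' x) / 2)
      nlinarith
    have hsq : ((n x + n' x) / 2) ^ 2 * Qdiff st st' z w x ^ 2 ≤ 1 * Qdiff st st' z w x ^ 2 :=
      mul_le_mul_of_nonneg_right hm (sq_nonneg _)
    have h4 := sq_nonneg ((n x - n' x) - (n x + n' x) / 2 * Qdiff st st' z w x)
    have hid : n x ^ 2 * st.Q z w x + n' x ^ 2 * st'.Q z w x - 2 * n x * n' x * Rr st st' z w x =
        n x * n' x * PPf st st' z w x + (n x - n' x) ^ 2 * Qbar st st' z w x +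
          (n x - n' x) * ((n x + n' x) / 2 * Qdiff st st' z w x) := by
      simp only [PPf, Qbar, Qdiff]
      ring
    rw [hid]
    nlinarith [sq_nonneg (n x - n' x)]
  -- integrals
  have hWW := T.key (κ := κ) hrev hrev' hwy
  have hPVbm : Hoeffding.BM (fun x => WWf st st' w x * PVf st st' w x) := by
    refine (T.WW_VF.bm w).mul ?_
    exact ((T.QV_VF.bm w).add (T.QV'_VF.bm w)).sub ((Hoeffding.BM.const 2).mul (T.RV_VF.bm w))
  have hI1 : Integrable (fun x => WWf st st' w x * PVf st st' w x) (Measure.infinitePi fun _ : V => κ) :=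
    hPVbm.integrable _
  have hI2 : Integrable (fun x => (n x - n' x) ^ 2 * (Qbar st st' z w x + 1))
      (Measure.infinitePi fun _ : V => κ) := by
    obtain ⟨K, hK⟩ := T.Qbar_EF.bdd
    refine Integrable.of_bound ?_ (2 ^ 2 * (K + 1)) ?_
    · exact (((hnm.sub hnm').pow_const 2).mul ((T.Qbar_EF.meas z w hzw).add measurable_const)).aestronglyMeasurable
    · filter_upwards [hn, hn'] with x hx hx'
      have hc1 := st.c_le w x
      have hc1' := st'.c_le w x
      have ha := abs_le.mp (hx.trans hc1)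
      have hb := abs_le.mp (hx'.trans hc1')
      have hq := hK z w hzw x
      have hq1 := T.Qbar_ge hzw x
      rw [abs_of_pos (by linarith : (0 : ℝ) < Qbar st st' z w x)] at hq
      have hd : (n x - n' x) ^ 2 ≤ 2 ^ 2 := by
        rw [← sq_abs]
        have : |n x - n' x| ≤ 2 := by
          rw [abs_le]; constructor <;> linarith [ha.1, ha.2, hb.1, hb.2]
        exact pow_le_pow_left₀ (abs_nonneg _) this 2
      rw [Real.norm_eq_abs, abs_of_nonneg (mul_nonneg (sq_nonneg _) (by linarith))]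
      exact mul_le_mul hd (by linarith) (by linarith) (by positivity)
  have hI3 : Integrable (fun x => 1 / 2 * Qdiff st st' z w x ^ 2) (Measure.infinitePi fun _ : V => κ) :=
    ((TS.sq_bm (T.G_EF.bm hzw)).integrable _).const_mul _
  have hI123 : Integrable (fun x => WWf st st' w x * PVf st st' w x +
      (n x - n' x) ^ 2 * (Qbar st st' z w x + 1) + 1 / 2 * Qdiff st st' z w x ^ 2)
      (Measure.infinitePi fun _ : V => κ) := (hI1.add hI2).add hI3
  have hmono := integral_mono_of_nonneg (μ := Measure.infinitePi fun _ : V => κ)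
    (Filter.Eventually.of_forall hnonneg) hI123 hpt
  have hsplit : ∫ x, (WWf st st' w x * PVf st st' w x + (n x - n' x) ^ 2 * (Qbar st st' z w x + 1) +
        1 / 2 * Qdiff st st' z w x ^ 2) ∂(Measure.infinitePi fun _ : V => κ) =
      ∫ x, WWf st st' w x * PVf st st' w x ∂(Measure.infinitePi fun _ : V => κ) +
        ∫ x, (n x - n' x) ^ 2 * (Qbar st st' z w x + 1) ∂(Measure.infinitePi fun _ : V => κ) +
        1 / 2 * ∫ x, Qdiff st st' z w x ^ 2 ∂(Measure.infinitePi fun _ : V => κ) := by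
    have hI12 : Integrable (fun x => WWf st st' w x * PVf st st' w x +
        (n x - n' x) ^ 2 * (Qbar st st' z w x + 1)) (Measure.infinitePi fun _ : V => κ) :=
      hI1.add hI2
    rw [integral_add hI12 hI3, integral_add hI1 hI2, integral_const_mul]
  rw [hsplit, T.G_EF.integral_sq_eq (κ := κ) hG hzw hwy] at hmono
  refine hmono.trans ?_
  have hNnn : 0 ≤ ∫ x, (n x - n' x) ^ 2 * (Qbar st st' z w x + 1) ∂(Measure.infinitePi fun _ : V => κ) := by
    refine integral_nonneg fun x => mul_nonneg (sq_nonneg _) ?_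
    have := T.Qbar_ge hzw x
    linarith
  have hd1 : (1 : ℝ) ≤ (D : ℝ) + 1 := by
    have := T.D_ge
    linarith
  exact final_alg2 (d := (D : ℝ) + 1) (CG := CGD D)
    (W := ∫ x, WWint st st' w y x ∂(Measure.infinitePi fun _ : V => κ))
    (N := ∫ x, (n x - n' x) ^ 2 * (Qbar st st' z w x + 1) ∂(Measure.infinitePi fun _ : V => κ))
    (a2 := (∫ x, Qdiff st st' w y x ∂(Measure.infinitePi fun _ : V => κ)) ^ 2)
    (g2 := ∫ x, Qdiff st st' w y x ^ 2 ∂(Measure.infinitePi fun _ : V => κ))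
    (I := ∫ x, WWf st st' w x * PVf st st' w x ∂(Measure.infinitePi fun _ : V => κ))
    hd1 (CGD_pos D).le (TS.WW_nonneg κ T) hNnn (sq_nonneg _)
    (integral_nonneg fun x => sq_nonneg _) hWW (T.g2_le hwy)

/-! ### (L5), the weighted mass transport -/

section L5

variable {V : Type u} {G : SimpleGraph V} [G.LocallyFinite] {D : ℕ}

/-- Level sums with a site weight: `Σ_{u ∈ desc r p y} h_u Π_{y u}²`. -/
noncomputable def levH (G : SimpleGraph V) [G.LocallyFinite] (h : V → ℝ) (b : V → V → ℝ) : ℕ → V → V → ℝ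
  | 0, _, y => h y
  | r + 1, p, y => ∑ z ∈ ch G p y, b y z * b y z * levH G h b r y z

/-- `Σ_{u below y} h_u Π_{y u}²`. -/
noncomputable def sumH (G : SimpleGraph V) [G.LocallyFinite] (h : V → ℝ) (b : V → V → ℝ) (p y : V) : ℝ :=
  ∑' r, levH G h b r p y

theorem sum_desc_levH (hG : RegTree G D) (h : V → ℝ) (b : V → V → ℝ) {p y : V} (hpy : G.Adj p y) (r : ℕ) :
    ∑ u ∈ desc G r p y, h u * (pathProd G b y u * pathProd G b y u) = levH G h b r p y := by
  induction r generalizing p y with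
  | zero => simp [desc, levH, pathProd_self_tw]
  | succ r ih =>
    rw [hG.sum_desc_succ hpy, levH]
    refine Finset.sum_congr rfl fun z hz => ?_
    have hyz : G.Adj y z := (mem_ch.mp hz).1
    rw [← ih hyz, Finset.mul_sum]
    refine Finset.sum_congr rfl fun u hu => ?_
    rw [pathProd_step hG b hyz hu]
    ring

theorem levH_bounds (hG : RegTree G D) {h : V → ℝ} {b : V → V → ℝ} {θ B : ℝ} (hθ0 : 0 ≤ θ)
    (hb0 : ∀ p y, 0 ≤ b p y) (hb : ∀ p y, b p y ≤ θ) (hh0 : ∀ u, 0 ≤ h u) (hhB : ∀ u, h u ≤ B)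
    {p y : V} (hpy : G.Adj p y) (r : ℕ) :
    0 ≤ levH G h b r p y ∧ levH G h b r p y ≤ B * ((D : ℝ) * θ * θ) ^ r := by
  have hB : 0 ≤ B := (hh0 y).trans (hhB y)
  induction r generalizing p y with
  | zero => simpa [levH] using ⟨hh0 y, hhB y⟩
  | succ r ih =>
    rw [levH]
    constructor
    · refine Finset.sum_nonneg fun z hz => ?_
      have hyz : G.Adj y z := (mem_ch.mp hz).1
      exact mul_nonneg (mul_nonneg (hb0 _ _) (hb0 _ _)) (ih hyz).1
    · have : ∀ z ∈ ch G p y, b y z * b y z * levH G h b r y z ≤ θ * θ * (B * ((D : ℝ) * θ * θ) ^ r) := by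
        intro z hz
        have hyz : G.Adj y z := (mem_ch.mp hz).1
        have h1 : b y z * b y z ≤ θ * θ := mul_le_mul (hb _ _) (hb _ _) (hb0 _ _) hθ0
        exact mul_le_mul h1 (ih hyz).2 (ih hyz).1 (by positivity)
      refine (Finset.sum_le_card_nsmul _ _ _ this).trans ?_
      rw [hG.card_ch hpy, nsmul_eq_mul, pow_succ]
      apply le_of_eq
      ring

theorem levH_summable (hG : RegTree G D) {h : V → ℝ} {b : V → V → ℝ} {θ B : ℝ} (hθ0 : 0 ≤ θ)
    (hθ : (D : ℝ) * θ * θ < 1) (hb0 : ∀ p y, 0 ≤ b p y) (hb : ∀ p y, b p y ≤ θ) (hh0 : ∀ u, 0 ≤ h u)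
    (hhB : ∀ u, h u ≤ B) {p y : V} (hpy : G.Adj p y) : Summable (fun r => levH G h b r p y) := by
  refine Summable.of_nonneg_of_le (fun r => (levH_bounds hG hθ0 hb0 hb hh0 hhB hpy r).1)
    (fun r => (levH_bounds hG hθ0 hb0 hb hh0 hhB hpy r).2) ?_
  exact (summable_geometric_of_lt_one (by positivity) hθ).mul_left _

theorem sumH_le (hG : RegTree G D) {h : V → ℝ} {b : V → V → ℝ} {θ B : ℝ} (hθ0 : 0 ≤ θ)
    (hθ : (D : ℝ) * θ * θ < 1) (hb0 : ∀ p y, 0 ≤ b p y) (hb : ∀ p y, b p y ≤ θ) (hh0 : ∀ u, 0 ≤ h u)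
    (hhB : ∀ u, h u ≤ B) {p y : V} (hpy : G.Adj p y) :
    0 ≤ sumH G h b p y ∧ sumH G h b p y ≤ B * (1 - (D : ℝ) * θ * θ)⁻¹ := by
  have hs := levH_summable hG hθ0 hθ hb0 hb hh0 hhB hpy
  refine ⟨tsum_nonneg fun r => (levH_bounds hG hθ0 hb0 hb hh0 hhB hpy r).1, ?_⟩
  have hgeo : HasSum (fun r : ℕ => B * ((D : ℝ) * θ * θ) ^ r) (B * (1 - (D : ℝ) * θ * θ)⁻¹) :=
    (hasSum_geometric_of_lt_one (by positivity) hθ).mul_left _
  rw [← hgeo.tsum_eq]
  exact hs.tsum_le_tsum (fun r => (levH_bounds hG hθ0 hb0 hb hh0 hhB hpy r).2) hgeo.summable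

theorem sumH_rec (hG : RegTree G D) {h : V → ℝ} {b : V → V → ℝ} {θ B : ℝ} (hθ0 : 0 ≤ θ)
    (hθ : (D : ℝ) * θ * θ < 1) (hb0 : ∀ p y, 0 ≤ b p y) (hb : ∀ p y, b p y ≤ θ) (hh0 : ∀ u, 0 ≤ h u)
    (hhB : ∀ u, h u ≤ B) {p y : V} (hpy : G.Adj p y) :
    sumH G h b p y = h y + ∑ z ∈ ch G p y, b y z * b y z * sumH G h b y z := by
  have hs := levH_summable hG hθ0 hθ hb0 hb hh0 hhB hpy
  unfold sumH
  rw [hs.tsum_eq_zero_add]
  have hchild : ∀ z ∈ ch G p y, HasSum (fun r => b y z * b y z * levH G h b r y z)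
      (b y z * b y z * ∑' r, levH G h b r y z) := fun z hz =>
    (levH_summable hG hθ0 hθ hb0 hb hh0 hhB (mem_ch.mp hz).1).hasSum.mul_left _
  have := hasSum_sum hchild
  congr 1
  simp only [levH]
  exact this.tsum_eq

theorem levH_comp (g : G ≃g G) (h : V → ℝ) (b : V → V → ℝ) (r : ℕ) (p y : V) :
    levH G (fun u => h (g u)) (fun a c => b (g a) (g c)) r p y = levH G h b r (g p) (g y) := by
  induction r generalizing p y with
  | zero => rfl
  | succ r ih =>
    simp only [levH]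
    rw [ch_map, Finset.sum_map]
    refine Finset.sum_congr rfl fun z _ => ?_
    rw [ih]
    rfl

theorem sumH_comp (g : G ≃g G) (h : V → ℝ) (b : V → V → ℝ) (p y : V) :
    sumH G (fun u => h (g u)) (fun a c => b (g a) (g c)) p y = sumH G h b (g p) (g y) := by
  unfold sumH
  exact tsum_congr fun r => levH_comp g h b r p y

/-- Expansion of the weighted sum over spheres. -/
theorem hasSum_weighted (hG : RegTree G D) {h : V → ℝ} {b : V → V → ℝ} {θ B : ℝ} (hθ0 : 0 ≤ θ)
    (hθ : (D : ℝ) * θ * θ < 1) (hb0 : ∀ p y, 0 ≤ b p y) (hb : ∀ p y, b p y ≤ θ) (hh0 : ∀ u, 0 ≤ h u)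
    (hhB : ∀ u, h u ≤ B) (c : ℝ) (v : V) :
    HasSum (fun r => ∑ u ∈ sphere G v r, h u * (c * pathProd G b v u) ^ 2)
      (c ^ 2 * (h v + ∑ y ∈ G.neighborFinset v, b v y * b v y * sumH G h b v y)) := by
  have h1 : HasSum (fun r => c ^ 2 * ∑ y ∈ G.neighborFinset v, b v y * b v y * levH G h b r v y)
      (c ^ 2 * ∑ y ∈ G.neighborFinset v, b v y * b v y * sumH G h b v y) :=
    (hasSum_sum fun y hy => ((levH_summable hG hθ0 hθ hb0 hb hh0 hhB
      (by simpa using hy)).hasSum.mul_left _)).mul_left _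
  have h2 : HasSum (fun r => ∑ u ∈ sphere G v (r + 1), h u * (c * pathProd G b v u) ^ 2)
      (c ^ 2 * ∑ y ∈ G.neighborFinset v, b v y * b v y * sumH G h b v y) := by
    have e : (fun r => ∑ u ∈ sphere G v (r + 1), h u * (c * pathProd G b v u) ^ 2) =
        fun r => c ^ 2 * ∑ y ∈ G.neighborFinset v, b v y * b v y * levH G h b r v y := by
      funext r
      rw [hG.sum_sphere_succ, Finset.mul_sum]
      refine Finset.sum_congr rfl fun y hy => ?_
      have hvy : G.Adj v y := by simpa using hy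
      rw [← sum_desc_levH hG h b hvy, Finset.mul_sum, Finset.mul_sum]
      refine Finset.sum_congr rfl fun u hu => ?_
      rw [pathProd_step hG b hvy hu]
      ring
    rw [e]
    exact h1
  refine (hasSum_nat_add_iff' 1).mp ?_
  have e : ∑ r ∈ Finset.range 1, ∑ u ∈ sphere G v r, h u * (c * pathProd G b v u) ^ 2 = c ^ 2 * h v := by
    simp only [Finset.sum_range_one, sphere, Finset.sum_singleton, pathProd_self_tw]
    ring
  rw [e, mul_add, add_sub_cancel_left]
  exact h2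

end L5

section L5state

variable {V : Type u} {G : SimpleGraph V} [G.LocallyFinite] {D : ℕ}
variable {E : Type v} [MeasurableSpace E] {κ : Measure E} [IsProbabilityMeasure κ]

/-- (L5) mass transport for the `ε⁴` term: `h` equivariant nonnegative bounded vertex field. -/
theorem total_weighted_eq (hG : RegTree G D) {θ : ℝ} (hθ0 : 0 ≤ θ) (hθ : (D : ℝ) * θ ^ 2 < 1)
    (st : FState G E θ)
    (hrev : ∀ p y, G.Adj p y → ∀ᵐ x ∂(Measure.infinitePi fun _ : V => κ), st.c p x * st.b p y x = st.c y x * st.b y p x)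
    (h : V → (V → E) → ℝ) (hhm : ∀ a, Measurable (h a)) (hh0 : ∀ a x, 0 ≤ h a x)
    (hhb : ∃ B, ∀ a x, h a x ≤ B)
    (heq : ∀ (g : G ≃g G) a x, h a (x ∘ g) = h (g a) x) (v : V) :
    ∫ x, totalWeighted G (fun u => h u x) (st.c v x) (fun a b => st.b a b x) v ∂(Measure.infinitePi fun _ : V => κ) =
      ∫ x, h v x * (st.c v x ^ 2 * st.QV v x) ∂(Measure.infinitePi fun _ : V => κ) := by
  classical
  obtain ⟨B, hB⟩ := hhb
  have T : TS D st st := ⟨hG, hθ0, hθ0, hθ, hθ⟩
  have hDpos : (0 : ℝ) < D := by have := T.D_ge; linarith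
  have hθθ := T.θθ
  -- the vertex field
  have hVF : VF G h := ⟨hhm, ⟨B, fun a x => by rw [abs_of_nonneg (hh0 a x)]; exact hB a x⟩, heq⟩
  -- the descendant sum
  let PH : V → V → (V → E) → ℝ := fun p y x => sumH G (fun u => h u x) (fun a c => st.b a c x) p y
  have hbd0 : ∀ x p y, 0 ≤ (fun a c => st.b a c x) p y := fun x p y => st.b_nonneg p y x
  have hbdl : ∀ x p y, (fun a c => st.b a c x) p y ≤ θ := fun x p y => st.b_le p y x
  have hPH : EF G PH := by
    refine ⟨fun p y hpy => ?_, ⟨B * (1 - (D : ℝ) * θ * θ)⁻¹, fun p y hpy x => ?_⟩, fun g p y hpy x => ?_⟩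
    · have hlev : ∀ r, ∀ p y, Measurable (fun x => levH G (fun u => h u x) (fun a c => st.b a c x) r p y) := by
        intro r
        induction r with
        | zero => intro p y; exact hhm y
        | succ r ih =>
          intro p y
          simp only [levH]
          exact Finset.measurable_sum _ fun z _ => ((st.meas_b y z).mul (st.meas_b y z)).mul (ih y z)
      refine measurable_of_tendsto_metrizable
        (f := fun n x => ∑ r ∈ Finset.range n, levH G (fun u => h u x) (fun a c => st.b a c x) r p y)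
        (fun n => Finset.measurable_sum _ fun r _ => hlev r p y) ?_
      rw [tendsto_pi_nhds]
      intro x
      exact (levH_summable hG hθ0 hθθ (hbd0 x) (hbdl x) (fun u => hh0 u x) (fun u => hB u x) hpy).hasSum.tendsto_sum_nat
    · obtain ⟨h1, h2⟩ := sumH_le hG hθ0 hθθ (hbd0 x) (hbdl x) (fun u => hh0 u x) (fun u => hB u x) hpy
      simp only [PH]
      rw [abs_of_nonneg h1]
      exact h2
    · simp only [PH]
      have e1 : (fun a c => st.b a c (x ∘ g)) = fun a c => (fun a c => st.b a c x) (g a) (g c) := by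
        funext a c; exact st.equiv_b g a c x
      have e2 : (fun u => h u (x ∘ g)) = fun u => (fun u => h u x) (g u) := by
        funext u; exact heq g u x
      rw [e1, e2]
      exact sumH_comp g (fun u => h u x) (fun a c => st.b a c x) p y
  let F : V → V → (V → E) → ℝ := fun p _ x => h p x * (1 / (D : ℝ))
  have hF : EF G F := by
    refine ⟨fun p _ _ => (hhm p).mul_const _, ⟨B * (1 / (D : ℝ)), fun p _ _ x => ?_⟩, fun g p y _ x => ?_⟩
    · simp only [F]
      rw [abs_mul, abs_of_nonneg (hh0 p x), abs_of_nonneg (by positivity : (0 : ℝ) ≤ 1 / (D : ℝ))]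
      exact mul_le_mul_of_nonneg_right (hB p x) (by positivity)
    · simp only [F]
      rw [heq]
  let w : V → (V → E) → ℝ := fun p x => st.c p x * st.c p x
  have hw : VF G w := st.c_VF.mul st.c_VF
  let s : V → V → (V → E) → ℝ := fun p y x => st.b p y x * st.b p y x
  have hs : EF G s := st.b_EF.mul st.b_EF
  have hrevw : ∀ p y, G.Adj p y → ∀ᵐ x ∂(Measure.infinitePi fun _ : V => κ),
      w p x * s p y x = w y x * s y p x := by
    intro p y hpy
    filter_upwards [hrev p y hpy] with x hx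
    simp only [w, s]
    calc st.c p x * st.c p x * (st.b p y x * st.b p y x)
        = (st.c p x * st.b p y x) * (st.c p x * st.b p y x) := by ring
      _ = (st.c y x * st.b y p x) * (st.c y x * st.b y p x) := by rw [hx]
      _ = _ := by ring
  have hrecP : ∀ p y, G.Adj p y → ∀ x, PH p y x = ∑ z ∈ ch G p y, (s y z x * PH y z x + F y z x) := by
    intro p y hpy x
    simp only [PH, s, F]
    rw [sumH_rec hG hθ0 hθθ (hbd0 x) (hbdl x) (fun u => hh0 u x) (fun u => hB u x) hpy,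
      Finset.sum_add_distrib, Finset.sum_const, hG.card_ch hpy, nsmul_eq_mul]
    have : (D : ℝ) * (h y x * (1 / (D : ℝ))) = h y x := by field_simp
    rw [this, add_comm]
  -- choose a neighbour
  obtain ⟨y, hy⟩ : (G.neighborFinset v).Nonempty := by
    rw [← Finset.card_pos, hG.card_neighbor]; omega
  have hvy : G.Adj v y := by simpa using hy
  have hdual := duality (κ := κ) hG hw hs hPH hF T.Q_EF hrevw hrecP (fun _ _ h x => T.Q_rec h x) hvy
  have hcard : ((G.neighborFinset v).card : ℝ) = (D : ℝ) + 1 := by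
    rw [hG.card_neighbor]; push_cast; rfl
  have hUbm : Hoeffding.BM (fun x => w v x * h v x) := (hw.bm v).mul (hVF.bm v)
  set U := ∫ x, w v x * h v x ∂(Measure.infinitePi fun _ : V => κ) with hU
  -- `X`
  let φX : V → V → (V → E) → ℝ := fun a b x => w a x * (s a b x * PH a b x)
  have hφX : ∀ {a b : V}, G.Adj a b → Hoeffding.BM (φX a b) := fun {a b} hab =>
    (hw.bm a).mul ((hs.bm hab).mul (hPH.bm hab))
  have hφXinv : ∀ {b : V}, G.Adj v b → ∫ x, φX v b x ∂(Measure.infinitePi fun _ : V => κ) =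
      ∫ x, φX v y x ∂(Measure.infinitePi fun _ : V => κ) := by
    intro b hb
    refine integral_edge_invariant hG φX hb hvy (hφX hb) fun g x => ?_
    simp only [φX]
    rw [hw.equiv g, hs.equiv g _ _ hb, hPH.equiv g _ _ hb]
  -- `Y`
  let φY : V → V → (V → E) → ℝ := fun a b x => w a x * h a x * (s a b x * st.Q a b x)
  have hφY : ∀ {a b : V}, G.Adj a b → Hoeffding.BM (φY a b) := fun {a b} hab =>
    ((hw.bm a).mul (hVF.bm a)).mul ((hs.bm hab).mul (T.Q_EF.bm hab))
  have hφYinv : ∀ {b : V}, G.Adj v b → ∫ x, φY v b x ∂(Measure.infinitePi fun _ : V => κ) =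
      ∫ x, φY v y x ∂(Measure.infinitePi fun _ : V => κ) := by
    intro b hb
    refine integral_edge_invariant hG φY hb hvy (hφY hb) fun g x => ?_
    simp only [φY]
    rw [hw.equiv g, heq, hs.equiv g _ _ hb, T.Q_EF.equiv g _ _ hb]
  set X := ∫ x, φX v y x ∂(Measure.infinitePi fun _ : V => κ) with hX
  set Y := ∫ x, φY v y x ∂(Measure.infinitePi fun _ : V => κ) with hY
  -- the duality in terms of `U, X, Y`
  have hL : ∫ x, w v x * (s v y x * PH v y x + F v y x) ∂(Measure.infinitePi fun _ : V => κ) =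
      X + U * (1 / (D : ℝ)) := by
    have hb2 : Hoeffding.BM (fun x => w v x * h v x * (1 / (D : ℝ))) := hUbm.mul (Hoeffding.BM.const _)
    rw [hU, hX, ← integral_mul_const, ← integral_add ((hφX hvy).integrable _) (hb2.integrable _)]
    refine integral_congr_ae (Filter.Eventually.of_forall fun x => ?_)
    simp only [φX, F]
    ring
  have hR : ∫ x, w v x * st.Q y v x * F v y x ∂(Measure.infinitePi fun _ : V => κ) =
      (U + (D : ℝ) * Y) * (1 / (D : ℝ)) := by
    have hchbm : ∀ z ∈ ch G y v, Hoeffding.BM (φY v z) := fun z hz => hφY (mem_ch.mp hz).1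
    have e : ∀ x, w v x * st.Q y v x * F v y x =
        (w v x * h v x + ∑ z ∈ ch G y v, φY v z x) * (1 / (D : ℝ)) := by
      intro x
      rw [T.Q_rec hvy.symm x]
      simp only [φY, F, s]
      rw [← Finset.mul_sum]
      ring
    simp only [e]
    rw [integral_mul_const, integral_add (hUbm.integrable _)
      ((Hoeffding.BM.finset_sum _ hchbm).integrable _),
      integral_finsetSum _ fun z hz => (hchbm z hz).integrable _,
      Finset.sum_congr rfl fun z hz => hφYinv (mem_ch.mp hz).1, Finset.sum_const, hG.card_ch hvy.symm,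
      nsmul_eq_mul]
  have hXY : X = Y := by
    rw [hL, hR] at hdual
    have h1 : (D : ℝ) * (1 / (D : ℝ)) = 1 := by field_simp
    have e : (U + (D : ℝ) * Y) * (1 / (D : ℝ)) = U * (1 / (D : ℝ)) + ((D : ℝ) * (1 / (D : ℝ))) * Y := by ring
    rw [e, h1, one_mul] at hdual
    linarith
  -- left hand side
  have hLHS : ∫ x, totalWeighted G (fun u => h u x) (st.c v x) (fun a b => st.b a b x) v
      ∂(Measure.infinitePi fun _ : V => κ) = U + ((D : ℝ) + 1) * X := by
    have e : ∀ x, totalWeighted G (fun u => h u x) (st.c v x) (fun a b => st.b a b x) v =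
        w v x * h v x + ∑ b ∈ G.neighborFinset v, φX v b x := by
      intro x
      have := (hasSum_weighted hG hθ0 hθθ (hbd0 x) (hbdl x) (fun u => hh0 u x) (fun u => hB u x)
        (st.c v x) v).tsum_eq
      unfold totalWeighted
      rw [this]
      simp only [φX, w, s, PH]
      rw [mul_add, Finset.mul_sum]
      congr 1
      · ring
      · refine Finset.sum_congr rfl fun b _ => ?_
        ring
    simp only [e]
    have hnb : ∀ b ∈ G.neighborFinset v, Hoeffding.BM (φX v b) := fun b hb => hφX (by simpa using hb)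
    rw [integral_add (hUbm.integrable _) ((Hoeffding.BM.finset_sum _ hnb).integrable _),
      integral_finsetSum _ fun b hb => (hnb b hb).integrable _,
      Finset.sum_congr rfl fun b hb => hφXinv (by simpa using hb), Finset.sum_const, nsmul_eq_mul, hcard]
  -- right hand side
  have hRHS : ∫ x, h v x * (st.c v x ^ 2 * st.QV v x) ∂(Measure.infinitePi fun _ : V => κ) =
      U + ((D : ℝ) + 1) * Y := by
    have e : ∀ x, h v x * (st.c v x ^ 2 * st.QV v x) =
        w v x * h v x + ∑ b ∈ G.neighborFinset v, φY v b x := by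
      intro x
      rw [FState.QV_eq_RrV, RrV_eq]
      simp only [φY, w, s, FState.Q_eq_Rr]
      rw [← Finset.mul_sum]
      ring
    simp only [e]
    have hnb : ∀ b ∈ G.neighborFinset v, Hoeffding.BM (φY v b) := fun b hb => hφY (by simpa using hb)
    rw [integral_add (hUbm.integrable _) ((Hoeffding.BM.finset_sum _ hnb).integrable _),
      integral_finsetSum _ fun b hb => (hnb b hb).integrable _,
      Finset.sum_congr rfl fun b hb => hφYinv (by simpa using hb), Finset.sum_const, nsmul_eq_mul, hcard]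
  rw [hLHS, hRHS, hXY]

end L5state

end Crest.Agent.Lib.IsingFIID
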