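/-
S0241 blueprint, Mod G + H (sections 5, 6): the strict regime `D θ² < 1`: infinite volume limits of the dynamics.
All objects are functions of the labels `x : Om V`; every definition below is equivariant for EVERY `x`.
`N` = first sweep, `(j, s)` = time (`N ≤ j`, `0 ≤ s ≤ 1/2`).

Split of the work:
 * Mod G  : `strict_compare`  (weighted Gronwall, blueprint section 5).
 * Mod H0 : everything in sections `Limit` and `Relations` (a.s. limits, rates, a.e. relations, law of the output).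
 * Mod H1 : `pair_limit_mag`, `pair_limit_tcor`.
 * Mod H2 : `tendsto_EsR_law`.
-/
import Crest.Agent.Lib.IsingFIID.Dynamics
import Crest.Agent.Lib.IsingFIID.TwoSystem
import Crest.Agent.Lib.IsingFIID.Output
import Crest.Agent.Lib.IsingFIID.StrictAux
import Crest.Agent.Lib.IsingFIID.StrictCompare

set_option autoImplicit false
universe u

namespace Crest.Agent.Lib.IsingFIID

open MeasureTheory Filter
open scoped Classical Topology

variable {V : Type u} (G : SimpleGraph V) [G.LocallyFinite]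

/-- magnetisation of `v` in the system living on the ball of radius `R` around `v`. -/
noncomputable def mBall (θ : ℝ) (N j : ℤ) (s : ℝ) (R : ℕ) (v : V) (x : Om V) : ℝ :=
  mag G θ (fieldAt G θ (ball G v R) N x j s) (ball G v R) v

/-- two point function of `v,w` in the system living on the ball of radius `R` around `v`. -/
noncomputable def tBall (θ : ℝ) (N j : ℤ) (s : ℝ) (R : ℕ) (v w : V) (x : Om V) : ℝ :=
  tcor G θ (fieldAt G θ (ball G v R) N x j s) (ball G v R) v w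

/-- infinite volume magnetisation: a limsup, so it is defined, measurable, bounded and equivariant everywhere. -/
noncomputable def mInf (θ : ℝ) (N j : ℤ) (s : ℝ) (v : V) (x : Om V) : ℝ :=
  limsup (fun R => mBall G θ N j s R v x) atTop

/-- infinite volume two point function -/
noncomputable def tInf (θ : ℝ) (N j : ℤ) (s : ℝ) (v w : V) (x : Om V) : ℝ :=
  limsup (fun R => tBall G θ N j s R v w x) atTop

/-- clamp to `[-1,1]` -/
noncomputable def clampOne (z : ℝ) : ℝ := max (-1) (min 1 z)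

/-- infinite volume cavity magnetisation of `y` seen from `p`. -/
noncomputable def cavInf (θ : ℝ) (N j : ℤ) (s : ℝ) (p y : V) (x : Om V) : ℝ :=
  clampOne (cavOf θ (mInf G θ N j s y x) (mInf G θ N j s p x) (tInf G θ N j s p y x))

/-- infinite volume slope `b_{p→y}`. -/
noncomputable def bInf (θ : ℝ) (N j : ℤ) (s : ℝ) (p y : V) (x : Om V) : ℝ :=
  bTheta θ (cavInf G θ N j s p y x)

/-- `1 - m²` -/
noncomputable def cInf (θ : ℝ) (N j : ℤ) (s : ℝ) (v : V) (x : Om V) : ℝ := 1 - mInf G θ N j s v x ^ 2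

/-- `n_{zw} = m_z - t_{zw} m_w` -/
noncomputable def nInf (θ : ℝ) (N j : ℤ) (s : ℝ) (z w : V) (x : Om V) : ℝ :=
  mInf G θ N j s z x - tInf G θ N j s z w x * mInf G θ N j s w x

/-- The functional bounding the growth of `E(m - m')²` at `(j,s)` (two systems, same labels). -/
noncomputable def TmInf (θ θ' : ℝ) (N N' j : ℤ) (s : ℝ) (v : V) : ℝ :=
  2 * eps j ^ 2 * ∫ x, totalDiff G (cInf G θ N j s v x) (cInf G θ' N' j s v x)
      (fun a b => bInf G θ N j s a b x) (fun a b => bInf G θ' N' j s a b x) v ∂(omP V) +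
  512 * eps j ^ 4 * ∫ x, totalWeighted G (fun u => (mInf G θ N j s u x - mInf G θ' N' j s u x) ^ 2)
      (cInf G θ' N' j s v x) (fun a b => bInf G θ' N' j s a b x) v ∂(omP V)

/-- The functional bounding the growth of `E(t - t')²` at `(j,s)`, pair `(z,w)`. -/
noncomputable def TtInf (θ θ' : ℝ) (N N' j : ℤ) (s : ℝ) (z w : V) : ℝ :=
  2 * eps j ^ 2 * ((∫ x, sideDiff G (nInf G θ N j s z w x) (nInf G θ' N' j s z w x)
        (fun a b => bInf G θ N j s a b x) (fun a b => bInf G θ' N' j s a b x) z w ∂(omP V)) +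
      ∫ x, sideDiff G (nInf G θ N j s w z x) (nInf G θ' N' j s w z x)
        (fun a b => bInf G θ N j s a b x) (fun a b => bInf G θ' N' j s a b x) w z ∂(omP V)) +
  512 * eps j ^ 4 * ((∫ x, totalWeighted G (fun u => (mInf G θ N j s u x - mInf G θ' N' j s u x) ^ 2)
        (cInf G θ' N' j s w x) (fun a b => bInf G θ' N' j s a b x) w ∂(omP V)) +
      ∫ x, totalWeighted G (fun u => (mInf G θ N j s u x - mInf G θ' N' j s u x) ^ 2)
        (cInf G θ' N' j s z x) (fun a b => bInf G θ' N' j s a b x) z ∂(omP V))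

variable {G} {D : ℕ}

/-! Elementary facts -/

theorem abs_clampOne_le (z : ℝ) : |clampOne z| ≤ 1 := by
  unfold clampOne
  rw [abs_le]
  constructor
  · exact le_max_left _ _
  · exact max_le (by norm_num) (min_le_left _ _)

theorem clampOne_eq {z : ℝ} (h : |z| ≤ 1) : clampOne z = z := by
  unfold clampOne
  rw [abs_le] at h
  rw [min_eq_right h.2, max_eq_right h.1]

theorem abs_clampOne_sub_le (z z' : ℝ) : |clampOne z - clampOne z'| ≤ |z - z'| := by
  have h1 : z - z' ≤ |z - z'| := le_abs_self _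
  have h2 : -(z - z') ≤ |z - z'| := neg_le_abs _
  have h3 : 0 ≤ |z - z'| := abs_nonneg _
  rw [abs_le]
  simp only [clampOne, max_def, min_def]
  split_ifs <;> constructor <;> linarith

theorem one_sub_sq_mul_pos {θ x : ℝ} (h0 : 0 ≤ θ) (h1 : θ < 1) (hx : |x| ≤ 1) : 0 < 1 - θ ^ 2 * x ^ 2 := by
  have hx2 : x ^ 2 ≤ 1 := by rwa [sq_le_one_iff_abs_le_one]
  have hθ2 : θ ^ 2 < 1 := by nlinarith
  nlinarith [sq_nonneg x, sq_nonneg θ]

theorem bTheta_nonneg_of_abs {θ x : ℝ} (h0 : 0 ≤ θ) (h1 : θ < 1) (hx : |x| ≤ 1) : 0 ≤ bTheta θ x := by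
  have hx2 : x ^ 2 ≤ 1 := by rwa [sq_le_one_iff_abs_le_one]
  unfold bTheta
  exact div_nonneg (mul_nonneg h0 (by linarith)) (one_sub_sq_mul_pos h0 h1 hx).le

theorem bTheta_le_of_abs {θ x : ℝ} (h0 : 0 ≤ θ) (h1 : θ < 1) (hx : |x| ≤ 1) : bTheta θ x ≤ θ := by
  have hx2 : x ^ 2 ≤ 1 := by rwa [sq_le_one_iff_abs_le_one]
  unfold bTheta
  rw [div_le_iff₀ (one_sub_sq_mul_pos h0 h1 hx)]
  have hθ2 : θ ^ 2 ≤ 1 := by nlinarith
  have h3 : θ ^ 2 * x ^ 2 ≤ x ^ 2 := by nlinarith [mul_nonneg (sub_nonneg.2 hθ2) (sq_nonneg x)]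
  nlinarith

/-- Relabelling the field: `mag` is natural for automorphisms. -/
theorem gibbs_comp_aut (hG : RegTree G D) {θ : ℝ} (g : G ≃g G) (ℓ : V → ℝ) (W : Finset V) (f : Finset V → ℝ) :
    gibbs G θ (ℓ ∘ g) W f = gibbs G θ ℓ (W.map g.toEquiv.toEmbedding) (fun A => f (A.map g.symm.toEquiv.toEmbedding)) :=
  gibbs_comp_aut_aux g θ ℓ W f

section H0Basic

theorem one_sub_abs_div_two_le_sqrt {m : ℝ} (hm : |m| ≤ 1) : (1 - |m|) / 2 ≤ Real.sqrt (1 - m ^ 2) := by
  refine Real.le_sqrt_of_sq_le ?_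
  have h0 := abs_nonneg m
  have h1 : m ^ 2 = |m| ^ 2 := (sq_abs m).symm
  rw [h1]
  nlinarith

/-- `D θ² < 1` forces `θ < 1`. -/
theorem theta_lt_one_of_strict (hG : RegTree G D) {θ : ℝ} (hθ0 : 0 ≤ θ) (hθ : (D : ℝ) * θ ^ 2 < 1) : θ < 1 := by
  have hD : (2 : ℝ) ≤ D := by exact_mod_cast hG.two_le
  by_contra h
  push Not at h
  nlinarith [sq_nonneg θ]

theorem exists_kappa_H0 {θ : ℝ} (hθ : (D : ℝ) * θ ^ 2 < 1) :
    ∃ κ : ℝ, 1 < κ ∧ (D : ℝ) * θ ^ 2 * κ < 1 := by
  have h0 : 0 ≤ (D : ℝ) * θ ^ 2 := by positivity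
  refine ⟨2 / (1 + (D : ℝ) * θ ^ 2), ?_, ?_⟩
  · rw [lt_div_iff₀ (by linarith)]
    linarith
  · rw [mul_div_assoc', div_lt_iff₀ (by linarith)]
    linarith

theorem self_mem_ball (hG : RegTree G D) (v : V) (R : ℕ) : v ∈ ball G v R := by
  rw [hG.mem_ball]
  simp

theorem ball_nonempty_H0 (hG : RegTree G D) (v : V) (R : ℕ) : (ball G v R).Nonempty :=
  ⟨v, self_mem_ball hG v R⟩

theorem ball_mono_strict (hG : RegTree G D) (v : V) {R R' : ℕ} (h : R ≤ R') : ball G v R ⊆ ball G v R' := by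
  intro u hu
  rw [hG.mem_ball] at hu ⊢
  omega

theorem exists_subset_ball (hG : RegTree G D) (W : Finset V) (v : V) : ∃ R, W ⊆ ball G v R := by
  refine ⟨W.sup (G.dist v), fun u hu => ?_⟩
  rw [hG.mem_ball]
  exact Finset.le_sup (f := G.dist v) hu

theorem ball_subset_ball_of_dist (hG : RegTree G D) {o v : V} {K R : ℕ} (h : G.dist o v ≤ K) :
    ball G v R ⊆ ball G o (R + K) := by
  intro u hu
  rw [hG.mem_ball] at hu ⊢
  have := hG.isTree.connected.dist_triangle (u := o) (v := v) (w := u)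
  omega

end H0Basic

section Compare

variable (hG : RegTree G D) {θ : ℝ} (hθ0 : 0 ≤ θ) (hθ : (D : ℝ) * θ ^ 2 < 1)
include hG hθ0 hθ

/-- **(Mod G) Weighted Gronwall.**  `κ > 1` with `D θ² κ < 1`.  The constant depends on `θ, κ, N, j, D` only. -/
theorem strict_compare {κ : ℝ} (hκ : 1 < κ) (hκθ : (D : ℝ) * θ ^ 2 * κ < 1) (N j : ℤ) (hN : N ≤ j) :
    ∃ C : ℝ, 0 < C ∧ ∀ {W W' : Finset V}, IsConvexSet G W → IsConvexSet G W' → W ⊆ W' →
      ∀ {v : V} {R : ℕ}, ball G v R ⊆ W → ∀ {s : ℝ}, 0 ≤ s → s ≤ 1 / 2 →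
        ∫ x, (mag G θ (fieldAt G θ W N x j s) W v - mag G θ (fieldAt G θ W' N x j s) W' v) ^ 2 ∂(omP V) ≤ C * κ⁻¹ ^ R ∧
        ∀ w, G.Adj v w →
          ∫ x, (tcor G θ (fieldAt G θ W N x j s) W v w - tcor G θ (fieldAt G θ W' N x j s) W' v w) ^ 2 ∂(omP V) ≤
            C * κ⁻¹ ^ R := by
  exact strict_compare_proved hG hθ0 hθ hκ hκθ N j hN

end Compare

section Limit

variable (hG : RegTree G D) {θ : ℝ} (hθ0 : 0 ≤ θ) (hθ : (D : ℝ) * θ ^ 2 < 1) {N j : ℤ} (hN : N ≤ j)
include hG hθ0 hθ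

omit hN in
theorem abs_mag_field {W : Finset V} (hW : IsConvexSet G W) (hne : W.Nonempty) (s : ℝ) (u : V) (x : Om V) :
    |mag G θ (fieldAt G θ W N x j s) W u| ≤ 1 :=
  abs_mag_le' hθ0 (theta_lt_one_of_strict hG hθ0 hθ)
    (abs_fieldAt_lt hG hθ0 (theta_lt_one_of_strict hG hθ0 hθ) hW hne x j s) W u

omit hN in
theorem abs_tcor_field {W : Finset V} (hW : IsConvexSet G W) (hne : W.Nonempty) (s : ℝ) (u w : V) (x : Om V) :
    |tcor G θ (fieldAt G θ W N x j s) W u w| ≤ 1 :=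
  abs_gibbs_le' hθ0 (theta_lt_one_of_strict hG hθ0 hθ)
    (abs_fieldAt_lt hG hθ0 (theta_lt_one_of_strict hG hθ0 hθ) hW hne x j s) W fun A _ => abs_spin_mul_le A u w

omit hN in
theorem measurable_mag_field_sa {W : Finset V} (hW : IsConvexSet G W) (hne : W.Nonempty) (s : ℝ) (u : V) :
    Measurable fun x : Om V => mag G θ (fieldAt G θ W N x j s) W u :=
  measurable_gibbs_field_H0 G θ W _ fun u' _ =>
    measurable_fieldAt hG hθ0 (theta_lt_one_of_strict hG hθ0 hθ) hW hne s u'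

omit hN in
theorem measurable_tcor_field {W : Finset V} (hW : IsConvexSet G W) (hne : W.Nonempty) (s : ℝ) (u w : V) :
    Measurable fun x : Om V => tcor G θ (fieldAt G θ W N x j s) W u w :=
  measurable_gibbs_field_H0 G θ W _ fun u' _ =>
    measurable_fieldAt hG hθ0 (theta_lt_one_of_strict hG hθ0 hθ) hW hne s u'

omit hN in
theorem abs_mBall_le (s : ℝ) (R : ℕ) (v : V) (x : Om V) : |mBall G θ N j s R v x| ≤ 1 :=
  abs_mag_field hG hθ0 hθ (hG.isConvexSet_ball v R) (ball_nonempty_H0 hG v R) s v x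

omit hN in
theorem abs_tBall_le (s : ℝ) (R : ℕ) (v w : V) (x : Om V) : |tBall G θ N j s R v w x| ≤ 1 :=
  abs_tcor_field hG hθ0 hθ (hG.isConvexSet_ball v R) (ball_nonempty_H0 hG v R) s v w x

omit hN in
theorem measurable_mBall (s : ℝ) (R : ℕ) (v : V) : Measurable (mBall G θ N j s R v) :=
  measurable_mag_field_sa hG hθ0 hθ (hG.isConvexSet_ball v R) (ball_nonempty_H0 hG v R) s v

omit hN in
theorem measurable_tBall (s : ℝ) (R : ℕ) (v w : V) : Measurable (tBall G θ N j s R v w) :=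
  measurable_tcor_field hG hθ0 hθ (hG.isConvexSet_ball v R) (ball_nonempty_H0 hG v R) s v w

omit hN in
theorem abs_mInf_le (s : ℝ) (v : V) (x : Om V) : |mInf G θ N j s v x| ≤ 1 :=
  limsup_abs_le fun R => abs_mBall_le hG hθ0 hθ s R v x

omit hN in
theorem abs_tInf_le (s : ℝ) (v w : V) (x : Om V) : |tInf G θ N j s v w x| ≤ 1 :=
  limsup_abs_le fun R => abs_tBall_le hG hθ0 hθ s R v w x

omit hN in
theorem abs_cavInf_le (s : ℝ) (p y : V) (x : Om V) : |cavInf G θ N j s p y x| ≤ 1 :=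
  abs_clampOne_le _

include hN in
theorem measurable_mInf (s : ℝ) (v : V) : Measurable (mInf G θ N j s v) :=
  Measurable.limsup fun R => measurable_mBall hG hθ0 hθ s R v

include hN in
theorem measurable_tInf (s : ℝ) (v w : V) : Measurable (tInf G θ N j s v w) :=
  Measurable.limsup fun R => measurable_tBall hG hθ0 hθ s R v w

omit hN in
theorem mInf_comp_aut (g : G ≃g G) (s : ℝ) (v : V) (x : Om V) :
    mInf G θ N j s v (x ∘ g) = mInf G θ N j s (g v) x := by
  unfold mInf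
  congr 1
  funext R
  unfold mBall
  rw [fieldAt_comp_aut hG hθ0 (theta_lt_one_of_strict hG hθ0 hθ) g x j s, mag_comp_aut, ball_map]

omit hN in
theorem tInf_comp_aut (g : G ≃g G) (s : ℝ) (v w : V) (x : Om V) :
    tInf G θ N j s v w (x ∘ g) = tInf G θ N j s (g v) (g w) x := by
  unfold tInf
  congr 1
  funext R
  unfold tBall
  rw [fieldAt_comp_aut hG hθ0 (theta_lt_one_of_strict hG hθ0 hθ) g x j s, tcor_comp_aut, ball_map]

include hN in
theorem mInf_half (v : V) (x : Om V) : mInf G θ N j (1 / 2) v x = mInf G θ N (j + 1) 0 v x := by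
  unfold mInf
  congr 1
  funext R
  unfold mBall
  rw [fieldAt_half hG hθ0 (theta_lt_one_of_strict hG hθ0 hθ) x hN]

include hN in
theorem tInf_half (v w : V) (x : Om V) : tInf G θ N j (1 / 2) v w x = tInf G θ N (j + 1) 0 v w x := by
  unfold tInf
  congr 1
  funext R
  unfold tBall
  rw [fieldAt_half hG hθ0 (theta_lt_one_of_strict hG hθ0 hθ) x hN]

include hN in
/-- almost sure convergence of the magnetisation on balls -/
theorem ae_tendsto_mBall {s : ℝ} (hs0 : 0 ≤ s) (hs : s ≤ 1 / 2) (v : V) :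
    ∀ᵐ x ∂(omP V), Tendsto (fun R => mBall G θ N j s R v x) atTop (𝓝 (mInf G θ N j s v x)) := by
  obtain ⟨κ, hκ, hκθ⟩ := exists_kappa_H0 hθ
  obtain ⟨C, -, h⟩ := strict_compare hG hθ0 hθ hκ hκθ N j hN
  refine ae_tendsto_limsup_of_sq_rate (B := 1) (C := C) (ρ := κ⁻¹)
    (fun R => measurable_mBall hG hθ0 hθ s R v) (fun R x => abs_mBall_le hG hθ0 hθ s R v x)
    (by positivity) (inv_lt_one_of_one_lt₀ hκ) fun R => ?_
  exact (h (hG.isConvexSet_ball v R) (hG.isConvexSet_ball v (R + 1)) (ball_mono_strict hG v (Nat.le_succ R))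
    (subset_refl _) hs0 hs).1

include hN in
/-- almost sure convergence of the two point function on balls -/
theorem ae_tendsto_tBall {s : ℝ} (hs0 : 0 ≤ s) (hs : s ≤ 1 / 2) {v w : V} (hvw : G.Adj v w) :
    ∀ᵐ x ∂(omP V), Tendsto (fun R => tBall G θ N j s R v w x) atTop (𝓝 (tInf G θ N j s v w x)) := by
  obtain ⟨κ, hκ, hκθ⟩ := exists_kappa_H0 hθ
  obtain ⟨C, -, h⟩ := strict_compare hG hθ0 hθ hκ hκθ N j hN
  refine ae_tendsto_limsup_of_sq_rate (B := 1) (C := C) (ρ := κ⁻¹)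
    (fun R => measurable_tBall hG hθ0 hθ s R v w) (fun R x => abs_tBall_le hG hθ0 hθ s R v w x)
    (by positivity) (inv_lt_one_of_one_lt₀ hκ) fun R => ?_
  exact (h (hG.isConvexSet_ball v R) (hG.isConvexSet_ball v (R + 1)) (ball_mono_strict hG v (Nat.le_succ R))
    (subset_refl _) hs0 hs).2 w hvw

include hN in
/-- rate of convergence, all convex `W` containing a big ball. -/
theorem mInf_rate {κ : ℝ} (hκ : 1 < κ) (hκθ : (D : ℝ) * θ ^ 2 * κ < 1) :
    ∃ C : ℝ, 0 < C ∧ ∀ {W : Finset V}, IsConvexSet G W → ∀ {v : V} {R : ℕ}, ball G v R ⊆ W →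
      ∀ {s : ℝ}, 0 ≤ s → s ≤ 1 / 2 →
        ∫ x, (mInf G θ N j s v x - mag G θ (fieldAt G θ W N x j s) W v) ^ 2 ∂(omP V) ≤ C * κ⁻¹ ^ R ∧
        ∀ w, G.Adj v w →
          ∫ x, (tInf G θ N j s v w x - tcor G θ (fieldAt G θ W N x j s) W v w) ^ 2 ∂(omP V) ≤ C * κ⁻¹ ^ R := by
  obtain ⟨C, hC, h⟩ := strict_compare hG hθ0 hθ hκ hκθ N j hN
  refine ⟨C, hC, ?_⟩
  intro W hW v R hR s hs0 hs
  have hne : W.Nonempty := ⟨v, hR (self_mem_ball hG v R)⟩
  obtain ⟨R₁, hR₁⟩ := exists_subset_ball hG W v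
  constructor
  · refine integral_sq_le_of_ae_tendsto (B := 1) (f := fun R' => mBall G θ N j s R' v)
      (fun R' => measurable_mBall hG hθ0 hθ s R' v)
      (measurable_mag_field_sa hG hθ0 hθ hW hne s v) (fun R' x => abs_mBall_le hG hθ0 hθ s R' v x)
      (abs_mag_field hG hθ0 hθ hW hne s v) (abs_mInf_le hG hθ0 hθ s v) (measurable_mInf hG hθ0 hθ hN s v)
      (ae_tendsto_mBall hG hθ0 hθ hN hs0 hs v) ?_
    filter_upwards [eventually_ge_atTop R₁] with R' hR'
    have := (h hW (hG.isConvexSet_ball v R') (hR₁.trans (ball_mono_strict hG v hR')) hR hs0 hs).1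
    simpa only [sub_sq_comm, mBall] using this
  · intro w hvw
    refine integral_sq_le_of_ae_tendsto (B := 1) (f := fun R' => tBall G θ N j s R' v w)
      (fun R' => measurable_tBall hG hθ0 hθ s R' v w)
      (measurable_tcor_field hG hθ0 hθ hW hne s v w) (fun R' x => abs_tBall_le hG hθ0 hθ s R' v w x)
      (abs_tcor_field hG hθ0 hθ hW hne s v w) (abs_tInf_le hG hθ0 hθ s v w)
      (measurable_tInf hG hθ0 hθ hN s v w)
      (ae_tendsto_tBall hG hθ0 hθ hN hs0 hs hvw) ?_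
    filter_upwards [eventually_ge_atTop R₁] with R' hR'
    have := (h hW (hG.isConvexSet_ball v R') (hR₁.trans (ball_mono_strict hG v hR')) hR hs0 hs).2 w hvw
    simpa only [sub_sq_comm, tBall] using this

omit hG hθ0 hθ hN in
theorem tendsto_of_sq_sub_tendsto_zero {a : ℕ → ℝ} {b : ℝ}
    (h : Tendsto (fun R => (b - a R) ^ 2) atTop (𝓝 0)) : Tendsto a atTop (𝓝 b) := by
  have h1 : Tendsto (fun R => Real.sqrt ((b - a R) ^ 2)) atTop (𝓝 0) := by
    simpa using h.sqrt
  have h2 : Tendsto (fun R => |a R - b|) atTop (𝓝 0) := by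
    refine h1.congr fun R => ?_
    rw [Real.sqrt_sq_eq_abs, abs_sub_comm]
  refine tendsto_iff_dist_tendsto_zero.2 (h2.congr fun R => ?_)
  rw [Real.dist_eq]

include hN in
/-- almost sure convergence on any sequence of convex sets containing balls of radius `R`. -/
theorem ae_tendsto_mag_seq {s : ℝ} (hs0 : 0 ≤ s) (hs : s ≤ 1 / 2) {W : ℕ → Finset V}
    (hW : ∀ R, IsConvexSet G (W R)) {v : V} (hball : ∀ R, ball G v R ⊆ W R) :
    ∀ᵐ x ∂(omP V), Tendsto (fun R => mag G θ (fieldAt G θ (W R) N x j s) (W R) v) atTop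
      (𝓝 (mInf G θ N j s v x)) := by
  obtain ⟨κ, hκ, hκθ⟩ := exists_kappa_H0 hθ
  obtain ⟨C, hC, h⟩ := mInf_rate hG hθ0 hθ hN hκ hκθ
  have hne : ∀ R, (W R).Nonempty := fun R => ⟨v, hball R (self_mem_ball hG v R)⟩
  have hκ0 : 0 < κ := by linarith
  have hm : ∀ R, Measurable fun x => (mInf G θ N j s v x - mag G θ (fieldAt G θ (W R) N x j s) (W R) v) ^ 2 :=
    fun R => ((measurable_mInf hG hθ0 hθ hN s v).sub (measurable_mag_field_sa hG hθ0 hθ (hW R) (hne R) s v)).pow_const 2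
  have hint : ∀ R, Integrable (fun x => (mInf G θ N j s v x - mag G θ (fieldAt G θ (W R) N x j s) (W R) v) ^ 2) (omP V) :=
    fun R => integrable_of_abs_le (C := 4) (hm R) fun x => by
      have h1 := abs_le.1 (abs_mInf_le hG hθ0 hθ (N := N) (j := j) s v x)
      have h2 := abs_le.1 (abs_mag_field hG hθ0 hθ (hW R) (hne R) (N := N) (j := j) s v x)
      rw [abs_of_nonneg (sq_nonneg _)]
      nlinarith
  have hsum : Summable fun R => ∫ x, (mInf G θ N j s v x - mag G θ (fieldAt G θ (W R) N x j s) (W R) v) ^ 2 ∂(omP V) := by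
    refine Summable.of_nonneg_of_le (fun R => integral_nonneg fun x => sq_nonneg _)
      (fun R => (h (hW R) (hball R) hs0 hs).1) ?_
    exact (summable_geometric_of_lt_one (by positivity) (inv_lt_one_of_one_lt₀ hκ)).mul_left _
  filter_upwards [ae_tendsto_zero_of_summable_integral hm (fun R x => sq_nonneg _) hint hsum] with x hx
  exact tendsto_of_sq_sub_tendsto_zero hx

include hN in
/-- almost sure convergence on any sequence of convex sets containing balls of radius `R`. -/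
theorem ae_tendsto_tcor_seq {s : ℝ} (hs0 : 0 ≤ s) (hs : s ≤ 1 / 2) {W : ℕ → Finset V}
    (hW : ∀ R, IsConvexSet G (W R)) {v w : V} (hvw : G.Adj v w) (hball : ∀ R, ball G v R ⊆ W R) :
    ∀ᵐ x ∂(omP V), Tendsto (fun R => tcor G θ (fieldAt G θ (W R) N x j s) (W R) v w) atTop
      (𝓝 (tInf G θ N j s v w x)) := by
  obtain ⟨κ, hκ, hκθ⟩ := exists_kappa_H0 hθ
  obtain ⟨C, hC, h⟩ := mInf_rate hG hθ0 hθ hN hκ hκθ
  have hne : ∀ R, (W R).Nonempty := fun R => ⟨v, hball R (self_mem_ball hG v R)⟩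
  have hκ0 : 0 < κ := by linarith
  have hm : ∀ R, Measurable fun x => (tInf G θ N j s v w x - tcor G θ (fieldAt G θ (W R) N x j s) (W R) v w) ^ 2 :=
    fun R => ((measurable_tInf hG hθ0 hθ hN s v w).sub (measurable_tcor_field hG hθ0 hθ (hW R) (hne R) s v w)).pow_const 2
  have hint : ∀ R, Integrable (fun x => (tInf G θ N j s v w x - tcor G θ (fieldAt G θ (W R) N x j s) (W R) v w) ^ 2) (omP V) :=
    fun R => integrable_of_abs_le (C := 4) (hm R) fun x => by
      have h1 := abs_le.1 (abs_tInf_le hG hθ0 hθ (N := N) (j := j) s v w x)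
      have h2 := abs_le.1 (abs_tcor_field hG hθ0 hθ (hW R) (hne R) (N := N) (j := j) s v w x)
      rw [abs_of_nonneg (sq_nonneg _)]
      nlinarith
  have hsum : Summable fun R => ∫ x, (tInf G θ N j s v w x - tcor G θ (fieldAt G θ (W R) N x j s) (W R) v w) ^ 2 ∂(omP V) := by
    refine Summable.of_nonneg_of_le (fun R => integral_nonneg fun x => sq_nonneg _)
      (fun R => (h (hW R) (hball R) hs0 hs).2 w hvw) ?_
    exact (summable_geometric_of_lt_one (by positivity) (inv_lt_one_of_one_lt₀ hκ)).mul_left _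
  filter_upwards [ae_tendsto_zero_of_summable_integral hm (fun R x => sq_nonneg _) hint hsum] with x hx
  exact tendsto_of_sq_sub_tendsto_zero hx

omit hN in
/-- infinite volume version of (E2). -/
theorem integral_sqrt_cInf_le (hN0 : N ≤ 0) (hj : 0 ≤ j) {s : ℝ} (hs0 : 0 ≤ s) (hs : s ≤ 1 / 2) (v : V) :
    ∫ x, Real.sqrt (cInf G θ N j s v x) ∂(omP V) ≤ (191 / 192 : ℝ) ^ j.toNat := by
  have hN : N ≤ j := hN0.trans hj
  have hT : Tendsto (fun R => ∫ x, Real.sqrt (1 - mBall G θ N j s R v x ^ 2) ∂(omP V)) atTop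
      (𝓝 (∫ x, Real.sqrt (cInf G θ N j s v x) ∂(omP V))) := by
    refine tendsto_integral_of_ae_tendsto_bdd (B := 1) (fun R => ?_) (fun R x => ?_) ?_
    · exact Real.continuous_sqrt.measurable.comp
        (measurable_const.sub ((measurable_mBall hG hθ0 hθ s R v).pow_const 2))
    · rw [abs_of_nonneg (Real.sqrt_nonneg _)]
      exact Real.sqrt_le_one.2 (by nlinarith [sq_nonneg (mBall G θ N j s R v x)])
    · filter_upwards [ae_tendsto_mBall hG hθ0 hθ hN hs0 hs v] with x hx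
      exact ((hx.pow 2).const_sub 1).sqrt
  refine le_of_tendsto' hT fun R => ?_
  exact integral_sqrt_cvar_le hG hθ0 (theta_lt_one_of_strict hG hθ0 hθ) (hG.isConvexSet_ball v R) (ball_nonempty_H0 hG v R)
    hN0 hj s hs0 (self_mem_ball hG v R)

include hN in
/-- infinite volume martingale in `L²` between sweep starts. -/
theorem integral_sq_mInf_sub_le {j' : ℤ} (hjj' : j ≤ j') (v : V) :
    ∫ x, (mInf G θ N j' 0 v x - mInf G θ N j 0 v x) ^ 2 ∂(omP V) ≤ ∫ x, cInf G θ N j 0 v x ∂(omP V) := by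
  have hN' : N ≤ j' := hN.trans hjj'
  have hs0 : (0 : ℝ) ≤ 0 := le_refl _
  have hs : (0 : ℝ) ≤ 1 / 2 := by norm_num
  have hae := ae_tendsto_mBall hG hθ0 hθ hN hs0 hs v
  have hae' := ae_tendsto_mBall hG hθ0 hθ hN' hs0 hs v
  have hm := fun R => measurable_mBall hG hθ0 hθ (N := N) (j := j) 0 R v
  have hm' := fun R => measurable_mBall hG hθ0 hθ (N := N) (j := j') 0 R v
  have hb := fun R x => abs_mBall_le hG hθ0 hθ (N := N) (j := j) 0 R v x
  have hb' := fun R x => abs_mBall_le hG hθ0 hθ (N := N) (j := j') 0 R v x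
  have hT1 : Tendsto (fun R => ∫ x, (mBall G θ N j' 0 R v x - mBall G θ N j 0 R v x) ^ 2 ∂(omP V)) atTop
      (𝓝 (∫ x, (mInf G θ N j' 0 v x - mInf G θ N j 0 v x) ^ 2 ∂(omP V))) := by
    refine tendsto_integral_of_ae_tendsto_bdd (B := 4) (fun R => ((hm' R).sub (hm R)).pow_const 2)
      (fun R x => ?_) ?_
    · have h1 := abs_le.1 (hb R x)
      have h2 := abs_le.1 (hb' R x)
      rw [abs_of_nonneg (sq_nonneg _)]
      nlinarith
    · filter_upwards [hae, hae'] with x hx hx'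
      exact (hx'.sub hx).pow 2
  have hT2 : Tendsto (fun R => ∫ x, mBall G θ N j 0 R v x ^ 2 ∂(omP V)) atTop
      (𝓝 (∫ x, mInf G θ N j 0 v x ^ 2 ∂(omP V))) := by
    refine tendsto_integral_of_ae_tendsto_bdd (B := 1) (fun R => (hm R).pow_const 2) (fun R x => ?_) ?_
    · have h1 := abs_le.1 (hb R x)
      rw [abs_of_nonneg (sq_nonneg _)]
      nlinarith
    · filter_upwards [hae] with x hx
      exact hx.pow 2
  have hle : ∀ R, ∫ x, (mBall G θ N j' 0 R v x - mBall G θ N j 0 R v x) ^ 2 ∂(omP V) ≤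
      1 - ∫ x, mBall G θ N j 0 R v x ^ 2 ∂(omP V) := by
    intro R
    have h := integral_sq_gibbs_sub hG hθ0 (theta_lt_one_of_strict hG hθ0 hθ) (hG.isConvexSet_ball v R)
      (ball_nonempty_H0 hG v R) hN hjj' (fun A => spin A v)
    have h' : ∫ x, mBall G θ N j' 0 R v x ^ 2 ∂(omP V) ≤ 1 := by
      have : ∫ x, mBall G θ N j' 0 R v x ^ 2 ∂(omP V) ≤ ∫ _x, (1 : ℝ) ∂(omP V) := by
        refine integral_mono (integrable_of_abs_le (C := 1) ((hm' R).pow_const 2) fun x => ?_)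
          (integrable_const _) fun x => ?_
        · have h1 := abs_le.1 (hb' R x)
          rw [abs_of_nonneg (sq_nonneg _)]
          nlinarith
        · have h1 := abs_le.1 (hb' R x)
          show mBall G θ N j' 0 R v x ^ 2 ≤ 1
          nlinarith
      simpa using this
    have e : ∫ x, (mBall G θ N j' 0 R v x - mBall G θ N j 0 R v x) ^ 2 ∂(omP V) =
        ∫ x, mBall G θ N j' 0 R v x ^ 2 ∂(omP V) - ∫ x, mBall G θ N j 0 R v x ^ 2 ∂(omP V) := h
    linarith
  have hlim := le_of_tendsto_of_tendsto' hT1 (hT2.const_sub 1) hle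
  have hc : ∫ x, cInf G θ N j 0 v x ∂(omP V) = 1 - ∫ x, mInf G θ N j 0 v x ^ 2 ∂(omP V) := by
    have hi : Integrable (fun x => mInf G θ N j 0 v x ^ 2) (omP V) :=
      integrable_of_abs_le (C := 1) ((measurable_mInf hG hθ0 hθ hN 0 v).pow_const 2) fun x => by
        have h1 := abs_le.1 (abs_mInf_le hG hθ0 hθ (N := N) (j := j) 0 v x)
        rw [abs_of_nonneg (sq_nonneg _)]
        nlinarith
    unfold cInf
    rw [integral_sub (integrable_const _) hi]
    simp
  rw [hc]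
  exact hlim

omit hN in
/-- **The output has nearly the right law.**  `S` finite connected, `η` a pattern. -/
theorem law_mInf (hN0 : N ≤ 0) (hj : 0 ≤ j) {s : ℝ} (hs0 : 0 ≤ s) (hs : s ≤ 1 / 2) {S : Finset V}
    (hS : (G.induce (S : Set V)).Connected) (η : V → Bool) :
    |((omP V) {x | ∀ v ∈ S, signB (mInf G θ N j s v x) = η v}).toReal -
        Crest.ProbabilityR.TreeIsing.isingWeight G θ S η| ≤
      3 * S.card * (191 / 192 : ℝ) ^ j.toNat := by
  have hN : N ≤ j := hN0.trans hj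
  have hθ1 := theta_lt_one_of_strict hG hθ0 hθ
  obtain ⟨o, ho⟩ : S.Nonempty := by
    obtain ⟨x⟩ := hS.nonempty
    exact ⟨x.1, x.2⟩
  set K : ℕ := S.sup (G.dist o) with hK
  have hdist : ∀ v ∈ S, G.dist o v ≤ K := fun v hv => Finset.le_sup (f := G.dist o) hv
  -- the exhausting sets
  set W : ℕ → Finset V := fun R => ball G o (R + K) with hWdef
  have hW : ∀ R, IsConvexSet G (W R) := fun R => hG.isConvexSet_ball o (R + K)
  have hne : ∀ R, (W R).Nonempty := fun R => ball_nonempty_H0 hG o (R + K)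
  have hSW : ∀ R, S ⊆ W R := by
    intro R v hv
    rw [hWdef]
    simp only
    rw [hG.mem_ball]
    have := hdist v hv
    omega
  have hball : ∀ v ∈ S, ∀ R, ball G v R ⊆ W R := fun v hv R =>
    ball_subset_ball_of_dist hG (hdist v hv)
  -- the event and the signs
  set E : Set (Om V) := {x | ∀ v ∈ S, signB (mInf G θ N j s v x) = η v} with hE
  have hmI := fun v => measurable_mInf hG hθ0 hθ hN s v
  have hEm : MeasurableSet E := by
    have : E = ⋂ v ∈ S, (fun x => signB (mInf G θ N j s v x)) ⁻¹' {η v} := by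
      ext x; simp [hE]
    rw [this]
    exact Finset.measurableSet_biInter S fun v _ =>
      measurable_signB_comp (hmI v) (measurableSet_singleton _)
  -- `b v x` the sign, `σ v x` as a real number
  set σ : V → Om V → ℝ := fun v x => if 0 ≤ mInf G θ N j s v x then 1 else -1 with hσ
  have hσm : ∀ v, Measurable (σ v) := fun v =>
    Measurable.ite (measurableSet_le measurable_const (hmI v)) measurable_const measurable_const
  have hσabs : ∀ v x, |σ v x| = 1 := by
    intro v x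
    simp only [hσ]
    split_ifs <;> simp
  have hσmul : ∀ v x, σ v x * mInf G θ N j s v x = |mInf G θ N j s v x| := by
    intro v x
    simp only [hσ]
    split_ifs with h
    · rw [abs_of_nonneg h, one_mul]
    · push Not at h
      rw [abs_of_neg h]; ring
  -- the integrands
  set L : ℕ → Om V → ℝ := fun R x =>
    ∑ v ∈ S, (1 - σ v x * mag G θ (fieldAt G θ (W R) N x j s) (W R) v) / 2 with hL
  set Linf : Om V → ℝ := fun x => ∑ v ∈ S, (1 - |mInf G θ N j s v x|) / 2 with hLinf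
  have hmag : ∀ R v, Measurable fun x : Om V => mag G θ (fieldAt G θ (W R) N x j s) (W R) v :=
    fun R v => measurable_mag_field_sa hG hθ0 hθ (hW R) (hne R) s v
  have hLm : ∀ R, Measurable (L R) := fun R =>
    Finset.measurable_sum _ fun v _ => (measurable_const.sub ((hσm v).mul (hmag R v))).div_const 2
  have hLb : ∀ R x, |L R x| ≤ S.card := by
    intro R x
    simp only [hL]
    refine (Finset.abs_sum_le_sum_abs _ _).trans ?_
    refine (Finset.sum_le_card_nsmul S _ 1 fun v _ => ?_).trans (by simp)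
    have h1 := abs_mag_field hG hθ0 hθ (hW R) (hne R) (N := N) (j := j) s v x
    have h2 : |σ v x * mag G θ (fieldAt G θ (W R) N x j s) (W R) v| ≤ 1 := by
      rw [abs_mul, hσabs, one_mul]; exact h1
    have h3 := abs_le.1 h2
    rw [abs_le]
    constructor <;> linarith
  have hTL : Tendsto (fun R => ∫ x, L R x ∂(omP V)) atTop (𝓝 (∫ x, Linf x ∂(omP V))) := by
    refine tendsto_integral_of_ae_tendsto_bdd (B := S.card) hLm hLb ?_
    have hae : ∀ v ∈ S, ∀ᵐ x ∂(omP V), Tendsto (fun R => mag G θ (fieldAt G θ (W R) N x j s) (W R) v) atTop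
        (𝓝 (mInf G θ N j s v x)) := fun v hv => ae_tendsto_mag_seq hG hθ0 hθ hN hs0 hs hW (hball v hv)
    filter_upwards [(ae_ball_iff S.countable_toSet).2 hae] with x hx
    simp only [hL, hLinf]
    refine tendsto_finsetSum _ fun v hv => ?_
    have := hx v hv
    rw [← hσmul v x]
    exact ((this.const_mul (σ v x)).const_sub 1).div_const 2
  -- the bound for every `R`
  have hbound : ∀ R, |((omP V) E).toReal - Crest.ProbabilityR.TreeIsing.isingWeight G θ S η| ≤
      ∫ x, L R x ∂(omP V) := by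
    intro R
    set fη : Finset V → ℝ := fun A => if ∀ v ∈ S, (v ∈ A ↔ η v = true) then 1 else 0 with hfη
    have hm1 : Measurable fun x : Om V => gibbs G θ (fieldAt G θ (W R) N x j s) (W R) fη :=
      measurable_gibbs_field_H0 G θ (W R) _ fun u _ =>
        measurable_fieldAt hG hθ0 hθ1 (hW R) (hne R) s u
    have hfηb : ∀ A, |fη A| ≤ 1 := by
      intro A
      simp only [hfη]
      split_ifs <;> simp
    have hb1 : ∀ x : Om V, |gibbs G θ (fieldAt G θ (W R) N x j s) (W R) fη| ≤ 1 := fun x =>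
      abs_gibbs_le' hθ0 hθ1 (abs_fieldAt_lt hG hθ0 hθ1 (hW R) (hne R) x j s) (W R) fun A _ => hfηb A
    have hi1 : Integrable (fun x : Om V => gibbs G θ (fieldAt G θ (W R) N x j s) (W R) fη) (omP V) :=
      integrable_of_abs_le hm1 hb1
    have hw : ∫ x, gibbs G θ (fieldAt G θ (W R) N x j s) (W R) fη ∂(omP V) =
        Crest.ProbabilityR.TreeIsing.isingWeight G θ S η := by
      rw [integral_gibbs_fieldAt hG hθ0 hθ1 (hW R) (hne R) hN s fη]
      exact gibbs_zero_indicator hG hθ0 hθ1 (hW R) hS (hSW R) η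
    have hiE : Integrable (Set.indicator E fun _ => (1 : ℝ)) (omP V) :=
      (integrable_const (1 : ℝ)).indicator hEm
    have hP : ((omP V) E).toReal = ∫ x, Set.indicator E (fun _ => (1 : ℝ)) x ∂(omP V) := by
      rw [integral_indicator hEm]
      simp [Measure.real]
    rw [hP, ← hw, ← integral_sub hiE hi1]
    refine (abs_integral_le_integral_abs).trans ?_
    refine integral_mono (hiE.sub hi1).abs (integrable_of_abs_le (hLm R) (hLb R)) fun x => ?_
    -- the pointwise estimate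
    have hlt := abs_fieldAt_lt hG hθ0 hθ1 (hW R) (hne R) (N := N) x j s
    have hpt := abs_indicator_sub_gibbs_le (G := G) hθ0 hθ1 hlt (W R) S (σ · x) (fun v => by
      simp only [hσ]; split_ifs <;> simp) η
    have hiff : x ∈ E ↔ ∀ v ∈ S, (σ v x = 1 ↔ η v = true) := by
      simp only [hE, Set.mem_ofPred_eq, hσ]
      refine forall₂_congr fun v _ => ?_
      by_cases h0 : 0 ≤ mInf G θ N j s v x
      · simp only [h0, if_true, signB_eq_true_iff.2 h0, true_iff]
        constructor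
        · intro h; simp [← h]
        · intro h; simp only [h]
      · have hsg : signB (mInf G θ N j s v x) = false := by simpa [signB] using h0
        simp only [h0, if_false, hsg]
        cases η v <;> norm_num
    by_cases hx : x ∈ E
    · rw [Set.indicator_of_mem hx]
      exact (hpt.1 (hiff.1 hx))
    · rw [Set.indicator_of_notMem hx]
      exact (hpt.2 (fun h => hx (hiff.2 h)))
  have hlim := ge_of_tendsto' hTL hbound
  refine hlim.trans ?_
  -- the limit bound
  have hsq : ∀ v, Integrable (fun x => Real.sqrt (cInf G θ N j s v x)) (omP V) := fun v =>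
    integrable_of_abs_le (C := 1) (Real.continuous_sqrt.measurable.comp
      (measurable_const.sub ((hmI v).pow_const 2))) fun x => by
        rw [abs_of_nonneg (Real.sqrt_nonneg _)]
        refine Real.sqrt_le_one.2 ?_
        unfold cInf
        nlinarith [sq_nonneg (mInf G θ N j s v x)]
  have hiL : ∀ v ∈ S, Integrable (fun x => (1 - |mInf G θ N j s v x|) / 2) (omP V) := fun v _ =>
    integrable_of_abs_le (C := 1) ((measurable_const.sub (hmI v).abs).div_const 2) fun x => by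
      have := abs_mInf_le hG hθ0 hθ (N := N) (j := j) s v x
      have h0 := abs_nonneg (mInf G θ N j s v x)
      rw [abs_le]
      constructor <;> linarith
  have hρ : (0 : ℝ) ≤ (191 / 192 : ℝ) ^ j.toNat := by positivity
  calc ∫ x, Linf x ∂(omP V) = ∑ v ∈ S, ∫ x, (1 - |mInf G θ N j s v x|) / 2 ∂(omP V) :=
        integral_finsetSum S hiL
    _ ≤ ∑ _v ∈ S, (191 / 192 : ℝ) ^ j.toNat := by
        refine Finset.sum_le_sum fun v hv => ?_
        refine le_trans ?_ (integral_sqrt_cInf_le hG hθ0 hθ hN0 hj hs0 hs v)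
        refine integral_mono (hiL v hv) (hsq v) fun x => ?_
        have hm1 := abs_mInf_le hG hθ0 hθ (N := N) (j := j) s v x
        exact one_sub_abs_div_two_le_sqrt hm1
    _ = S.card * (191 / 192 : ℝ) ^ j.toNat := by simp
    _ ≤ 3 * S.card * (191 / 192 : ℝ) ^ j.toNat := by
        have hc : (0 : ℝ) ≤ S.card := by positivity
        nlinarith [mul_nonneg hc hρ]

end Limit

section Relations

variable (hG : RegTree G D) {θ : ℝ} (hθ0 : 0 ≤ θ) (hθ : (D : ℝ) * θ ^ 2 < 1) {N j : ℤ} (hN : N ≤ j)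
  {s : ℝ} (hs0 : 0 ≤ s) (hs : s ≤ 1 / 2)
include hG hθ0 hθ hN hs0 hs

/-- All local objects on `W_R = ball p (R+1)` converge. -/
theorem ae_tendsto_pair {p y : V} (hpy : G.Adj p y) : ∀ᵐ x ∂(omP V),
    Tendsto (fun R => mag G θ (fieldAt G θ (ball G p (R + 1)) N x j s) (ball G p (R + 1)) p) atTop
      (𝓝 (mInf G θ N j s p x)) ∧
    Tendsto (fun R => mag G θ (fieldAt G θ (ball G p (R + 1)) N x j s) (ball G p (R + 1)) y) atTop
      (𝓝 (mInf G θ N j s y x)) ∧
    Tendsto (fun R => tcor G θ (fieldAt G θ (ball G p (R + 1)) N x j s) (ball G p (R + 1)) p y) atTop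
      (𝓝 (tInf G θ N j s p y x)) ∧
    Tendsto (fun R => tcor G θ (fieldAt G θ (ball G p (R + 1)) N x j s) (ball G p (R + 1)) y p) atTop
      (𝓝 (tInf G θ N j s y p x)) := by
  have hW : ∀ R, IsConvexSet G (ball G p (R + 1)) := fun R => hG.isConvexSet_ball p (R + 1)
  have hbp : ∀ R, ball G p R ⊆ ball G p (R + 1) := fun R => ball_mono_strict hG p (Nat.le_succ R)
  have hd : G.dist p y ≤ 1 := le_of_eq (SimpleGraph.dist_eq_one_iff_adj.2 hpy)
  have hby : ∀ R, ball G y R ⊆ ball G p (R + 1) := fun R => ball_subset_ball_of_dist hG hd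
  filter_upwards [ae_tendsto_mag_seq hG hθ0 hθ hN hs0 hs hW hbp,
    ae_tendsto_mag_seq hG hθ0 hθ hN hs0 hs hW hby,
    ae_tendsto_tcor_seq hG hθ0 hθ hN hs0 hs hW hpy hbp,
    ae_tendsto_tcor_seq hG hθ0 hθ hN hs0 hs hW hpy.symm hby] with x h1 h2 h3 h4
  exact ⟨h1, h2, h3, h4⟩

omit hN hs0 hs in
theorem mem_ball_succ_of_adj {p y : V} (hpy : G.Adj p y) (R : ℕ) : y ∈ ball G p (R + 1) := by
  rw [hG.mem_ball, SimpleGraph.dist_eq_one_iff_adj.2 hpy]
  omega

omit hN hs0 hs in
theorem abs_cav_field {p y : V} (hpy : G.Adj p y) (R : ℕ) (x : Om V) :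
    |cav G θ (fieldAt G θ (ball G p (R + 1)) N x j s) (ball G p (R + 1)) p y| ≤ 1 ∧
    |cav G θ (fieldAt G θ (ball G p (R + 1)) N x j s) (ball G p (R + 1)) y p| ≤ 1 := by
  have hθ1 := theta_lt_one_of_strict hG hθ0 hθ
  have hℓ := abs_fieldAt_lt hG hθ0 hθ1 (hG.isConvexSet_ball p (R + 1)) (ball_nonempty_H0 hG p (R + 1)) (N := N) x j s
  have hp := self_mem_ball hG p (R + 1)
  have hy := mem_ball_succ_of_adj hG hθ0 hθ hpy R
  have hW := hG.isConvexSet_ball p (R + 1)
  have hne := ball_nonempty_H0 hG p (R + 1)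
  rw [cav_eq_mag_side hG hθ0 hθ1 hℓ hW hne hpy hp hy, cav_eq_mag_side hG hθ0 hθ1 hℓ hW hne hpy.symm hy hp]
  exact ⟨abs_mag_le' hθ0 hθ1 hℓ _ _, abs_mag_le' hθ0 hθ1 hℓ _ _⟩

/-- convergence of the cavity magnetisations -/
theorem ae_tendsto_cav {p y : V} (hpy : G.Adj p y) : ∀ᵐ x ∂(omP V),
    Tendsto (fun R => cav G θ (fieldAt G θ (ball G p (R + 1)) N x j s) (ball G p (R + 1)) p y) atTop
      (𝓝 (cavInf G θ N j s p y x)) ∧
    Tendsto (fun R => cav G θ (fieldAt G θ (ball G p (R + 1)) N x j s) (ball G p (R + 1)) y p) atTop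
      (𝓝 (cavInf G θ N j s y p x)) := by
  have hθ1 := theta_lt_one_of_strict hG hθ0 hθ
  filter_upwards [ae_tendsto_pair hG hθ0 hθ hN hs0 hs hpy] with x hx
  obtain ⟨h1, h2, h3, h4⟩ := hx
  have hden : ∀ u w : V, 1 - θ * tInf G θ N j s u w x ≠ 0 := by
    intro u w
    have h := abs_le.1 (abs_tInf_le hG hθ0 hθ (N := N) (j := j) s u w x)
    have : θ * tInf G θ N j s u w x ≤ θ * 1 := mul_le_mul_of_nonneg_left h.2 hθ0
    intro h0
    linarith
  have ha : Tendsto (fun R => cav G θ (fieldAt G θ (ball G p (R + 1)) N x j s) (ball G p (R + 1)) p y) atTop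
      (𝓝 (cavOf θ (mInf G θ N j s y x) (mInf G θ N j s p x) (tInf G θ N j s p y x))) :=
    (h2.sub (h1.const_mul θ)).div ((h3.const_mul θ).const_sub 1) (hden p y)
  have hb : Tendsto (fun R => cav G θ (fieldAt G θ (ball G p (R + 1)) N x j s) (ball G p (R + 1)) y p) atTop
      (𝓝 (cavOf θ (mInf G θ N j s p x) (mInf G θ N j s y x) (tInf G θ N j s y p x))) :=
    (h1.sub (h2.const_mul θ)).div ((h4.const_mul θ).const_sub 1) (hden y p)
  have hA : |cavOf θ (mInf G θ N j s y x) (mInf G θ N j s p x) (tInf G θ N j s p y x)| ≤ 1 :=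
    le_of_tendsto' ha.abs fun R => (abs_cav_field hG hθ0 hθ hpy R x).1
  have hB : |cavOf θ (mInf G θ N j s p x) (mInf G θ N j s y x) (tInf G θ N j s y p x)| ≤ 1 :=
    le_of_tendsto' hb.abs fun R => (abs_cav_field hG hθ0 hθ hpy R x).2
  unfold cavInf
  rw [clampOne_eq hA, clampOne_eq hB]
  exact ⟨ha, hb⟩

omit hs0 hs hN hG hθ in
theorem one_add_theta_mul_pos {a b : ℝ} (hθ1 : θ < 1) (ha : |a| ≤ 1) (hb : |b| ≤ 1) : 0 < 1 + θ * a * b := by
  have hθa : |θ * a| < 1 := by
    rw [abs_mul, abs_of_nonneg hθ0]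
    calc θ * |a| ≤ θ * 1 := mul_le_mul_of_nonneg_left ha hθ0
      _ < 1 := by linarith
  exact one_add_mul_pos hθa hb

/-- (cut formula in infinite volume).  `a = cavInf p y`, `b = cavInf y p`. -/
theorem rel_inf {p y : V} (hpy : G.Adj p y) : ∀ᵐ x ∂(omP V),
    mInf G θ N j s y x = (cavInf G θ N j s p y x + θ * cavInf G θ N j s y p x) /
        (1 + θ * cavInf G θ N j s p y x * cavInf G θ N j s y p x) ∧
    mInf G θ N j s p x = (cavInf G θ N j s y p x + θ * cavInf G θ N j s p y x) /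
        (1 + θ * cavInf G θ N j s p y x * cavInf G θ N j s y p x) ∧
    tInf G θ N j s p y x = (θ + cavInf G θ N j s p y x * cavInf G θ N j s y p x) /
        (1 + θ * cavInf G θ N j s p y x * cavInf G θ N j s y p x) := by
  have hθ1 := theta_lt_one_of_strict hG hθ0 hθ
  filter_upwards [ae_tendsto_pair hG hθ0 hθ hN hs0 hs hpy, ae_tendsto_cav hG hθ0 hθ hN hs0 hs hpy] with x hx hc
  obtain ⟨h1, h2, h3, -⟩ := hx
  obtain ⟨ha, hb⟩ := hc
  have hne : 1 + θ * cavInf G θ N j s p y x * cavInf G θ N j s y p x ≠ 0 :=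
    (one_add_theta_mul_pos hθ0 hθ1 (abs_cavInf_le hG hθ0 hθ s p y x) (abs_cavInf_le hG hθ0 hθ s y p x)).ne'
  have hden : Tendsto (fun R => 1 + θ * cav G θ (fieldAt G θ (ball G p (R + 1)) N x j s) (ball G p (R + 1)) p y *
      cav G θ (fieldAt G θ (ball G p (R + 1)) N x j s) (ball G p (R + 1)) y p) atTop
      (𝓝 (1 + θ * cavInf G θ N j s p y x * cavInf G θ N j s y p x)) :=
    ((ha.const_mul θ).mul hb).const_add 1
  have key : ∀ R, _ := fun R => cut_formula hG hθ0 hθ1
    (abs_fieldAt_lt hG hθ0 hθ1 (hG.isConvexSet_ball p (R + 1)) (ball_nonempty_H0 hG p (R + 1)) (N := N) x j s)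
    (hG.isConvexSet_ball p (R + 1)) (ball_nonempty_H0 hG p (R + 1)) hpy (self_mem_ball hG p (R + 1))
    (mem_ball_succ_of_adj hG hθ0 hθ hpy R)
  have hcp : ∀ R, cav G θ (fieldAt G θ (ball G p (R + 1)) N x j s) (ball G p (R + 1)) p y =
      mag G θ (fieldAt G θ (ball G p (R + 1)) N x j s) (sideOf G p y (ball G p (R + 1))) y := fun R =>
    cav_eq_mag_side hG hθ0 hθ1
      (abs_fieldAt_lt hG hθ0 hθ1 (hG.isConvexSet_ball p (R + 1)) (ball_nonempty_H0 hG p (R + 1)) (N := N) x j s)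
      (hG.isConvexSet_ball p (R + 1)) (ball_nonempty_H0 hG p (R + 1)) hpy (self_mem_ball hG p (R + 1))
      (mem_ball_succ_of_adj hG hθ0 hθ hpy R)
  have hcy : ∀ R, cav G θ (fieldAt G θ (ball G p (R + 1)) N x j s) (ball G p (R + 1)) y p =
      mag G θ (fieldAt G θ (ball G p (R + 1)) N x j s) (sideOf G y p (ball G p (R + 1))) p := fun R =>
    cav_eq_mag_side hG hθ0 hθ1
      (abs_fieldAt_lt hG hθ0 hθ1 (hG.isConvexSet_ball p (R + 1)) (ball_nonempty_H0 hG p (R + 1)) (N := N) x j s)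
      (hG.isConvexSet_ball p (R + 1)) (ball_nonempty_H0 hG p (R + 1)) hpy.symm
      (mem_ball_succ_of_adj hG hθ0 hθ hpy R) (self_mem_ball hG p (R + 1))
  refine ⟨?_, ?_, ?_⟩
  · refine tendsto_nhds_unique h2 ?_
    refine ((ha.add (hb.const_mul θ)).div hden hne).congr fun R => ?_
    simp only [Pi.div_apply]
    rw [hcp, hcy]
    exact (key R).1.symm
  · refine tendsto_nhds_unique h1 ?_
    refine ((hb.add (ha.const_mul θ)).div hden hne).congr fun R => ?_
    simp only [Pi.div_apply]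
    rw [hcp, hcy]
    exact (key R).2.1.symm
  · refine tendsto_nhds_unique h3 ?_
    refine (((ha.mul hb).const_add θ).div hden hne).congr fun R => ?_
    simp only [Pi.div_apply]
    rw [hcp, hcy]
    exact (key R).2.2.symm

theorem tInf_symm {p y : V} (hpy : G.Adj p y) : ∀ᵐ x ∂(omP V), tInf G θ N j s p y x = tInf G θ N j s y p x := by
  filter_upwards [ae_tendsto_pair hG hθ0 hθ hN hs0 hs hpy] with x hx
  obtain ⟨-, -, h3, h4⟩ := hx
  exact tendsto_nhds_unique h3 (h4.congr fun R => tcor_comm _ _)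

/-- reversal -/
theorem reversal_inf {p y : V} (hpy : G.Adj p y) : ∀ᵐ x ∂(omP V),
    cInf G θ N j s p x * bInf G θ N j s p y x = cInf G θ N j s y x * bInf G θ N j s y p x := by
  have hθ1 := theta_lt_one_of_strict hG hθ0 hθ
  filter_upwards [ae_tendsto_pair hG hθ0 hθ hN hs0 hs hpy, ae_tendsto_cav hG hθ0 hθ hN hs0 hs hpy] with x hx hc
  obtain ⟨h1, h2, -, -⟩ := hx
  obtain ⟨ha, hb⟩ := hc
  have hbT : ∀ {a : ℕ → ℝ} {l : ℝ}, |l| ≤ 1 → Tendsto a atTop (𝓝 l) →
      Tendsto (fun R => bTheta θ (a R)) atTop (𝓝 (bTheta θ l)) := by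
    intro a l hl ht
    exact (((ht.pow 2).const_sub 1).const_mul θ).div (((ht.pow 2).const_mul (θ ^ 2)).const_sub 1)
      (one_sub_sq_mul_pos hθ0 hθ1 hl).ne'
  have hL := ((h1.pow 2).const_sub 1).mul (hbT (abs_cavInf_le hG hθ0 hθ s p y x) ha)
  have hR := ((h2.pow 2).const_sub 1).mul (hbT (abs_cavInf_le hG hθ0 hθ s y p x) hb)
  refine tendsto_nhds_unique hL (hR.congr fun R => ?_)
  have hW := hG.isConvexSet_ball p (R + 1)
  have hne := ball_nonempty_H0 hG p (R + 1)
  have hℓ := abs_fieldAt_lt hG hθ0 hθ1 hW hne (N := N) x j s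
  have hp := self_mem_ball hG p (R + 1)
  have hy := mem_ball_succ_of_adj hG hθ0 hθ hpy R
  have e1 := acov_eq_slope hG hθ0 hθ1 hℓ hW hne hpy hp hy
  have e2 := acov_eq_slope hG hθ0 hθ1 hℓ hW hne hpy.symm hy hp
  have e3 : acov G θ (fieldAt G θ (ball G p (R + 1)) N x j s) (ball G p (R + 1)) p y =
      acov G θ (fieldAt G θ (ball G p (R + 1)) N x j s) (ball G p (R + 1)) y p := by
    unfold acov
    rw [tcor_comm]
    ring
  rw [e1, e2] at e3
  exact e3.symm

/-- `|n_{zw}| ≤ c_w` -/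
theorem abs_nInf_le {z w : V} (hzw : G.Adj z w) : ∀ᵐ x ∂(omP V), |nInf G θ N j s z w x| ≤ cInf G θ N j s w x := by
  have hθ1 := theta_lt_one_of_strict hG hθ0 hθ
  filter_upwards [ae_tendsto_pair hG hθ0 hθ hN hs0 hs hzw] with x hx
  obtain ⟨h1, h2, h3, -⟩ := hx
  refine le_of_tendsto_of_tendsto' (h1.sub (h3.mul h2)).abs ((h2.pow 2).const_sub 1) fun R => ?_
  have hW := hG.isConvexSet_ball z (R + 1)
  have hne := ball_nonempty_H0 hG z (R + 1)
  have hℓ := abs_fieldAt_lt hG hθ0 hθ1 hW hne (N := N) x j s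
  exact abs_nCoef_le hG hθ0 hθ1 hℓ hW hne (self_mem_ball hG z (R + 1)) (mem_ball_succ_of_adj hG hθ0 hθ hzw R)

end Relations

theorem measurable_clampOne {Ω : Type*} [MeasurableSpace Ω] {f : Ω → ℝ} (hf : Measurable f) :
    Measurable fun x => clampOne (f x) :=
  measurable_const.max (measurable_const.min hf)

theorem measurable_cInf (hG : RegTree G D) {θ : ℝ} (hθ0 : 0 ≤ θ) (hθ : (D : ℝ) * θ ^ 2 < 1) {N j : ℤ} (hN : N ≤ j)
    (s : ℝ) (v : V) : Measurable (cInf G θ N j s v) :=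
  measurable_const.sub ((measurable_mInf hG hθ0 hθ hN s v).pow_const 2)

theorem measurable_cavInf (hG : RegTree G D) {θ : ℝ} (hθ0 : 0 ≤ θ) (hθ : (D : ℝ) * θ ^ 2 < 1) {N j : ℤ} (hN : N ≤ j)
    (s : ℝ) (p y : V) : Measurable (cavInf G θ N j s p y) := by
  refine measurable_clampOne ?_
  unfold cavOf
  exact ((measurable_mInf hG hθ0 hθ hN s y).sub ((measurable_mInf hG hθ0 hθ hN s p).const_mul θ)).div
    (measurable_const.sub ((measurable_tInf hG hθ0 hθ hN s p y).const_mul θ))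

theorem measurable_bInf (hG : RegTree G D) {θ : ℝ} (hθ0 : 0 ≤ θ) (hθ : (D : ℝ) * θ ^ 2 < 1) {N j : ℤ} (hN : N ≤ j)
    (s : ℝ) (p y : V) : Measurable (bInf G θ N j s p y) := by
  have h := measurable_cavInf hG hθ0 hθ hN s p y
  unfold bInf bTheta
  exact ((measurable_const.sub (h.pow_const 2)).const_mul θ).div
    (measurable_const.sub ((h.pow_const 2).const_mul (θ ^ 2)))

/-- The infinite volume system as a FIID state. -/
noncomputable def stInf (hG : RegTree G D) {θ : ℝ} (hθ0 : 0 ≤ θ) (hθ : (D : ℝ) * θ ^ 2 < 1) (N j : ℤ) (hN : N ≤ j)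
    (s : ℝ) : FState G Block θ where
  c := cInf G θ N j s
  b := bInf G θ N j s
  meas_c := measurable_cInf hG hθ0 hθ hN s
  meas_b := measurable_bInf hG hθ0 hθ hN s
  c_nonneg := fun v x => by
    have h := abs_le.1 (abs_mInf_le hG hθ0 hθ (N := N) (j := j) s v x)
    unfold cInf
    nlinarith
  c_le := fun v x => by
    unfold cInf
    nlinarith [sq_nonneg (mInf G θ N j s v x)]
  b_nonneg := fun p y x =>
    bTheta_nonneg_of_abs hθ0 (theta_lt_one_of_strict hG hθ0 hθ) (abs_cavInf_le hG hθ0 hθ s p y x)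
  b_le := fun p y x =>
    bTheta_le_of_abs hθ0 (theta_lt_one_of_strict hG hθ0 hθ) (abs_cavInf_le hG hθ0 hθ s p y x)
  equiv_c := fun g v x => by
    unfold cInf
    rw [mInf_comp_aut hG hθ0 hθ]
  equiv_b := fun g p y x => by
    unfold bInf cavInf
    rw [mInf_comp_aut hG hθ0 hθ, mInf_comp_aut hG hθ0 hθ, tInf_comp_aut hG hθ0 hθ]

section Pairs

variable (hG : RegTree G D) {θ θ' : ℝ} (hθ0 : 0 ≤ θ) (hθ : (D : ℝ) * θ ^ 2 < 1) (hθ0' : 0 ≤ θ') (hθ' : (D : ℝ) * θ' ^ 2 < 1)
  {N N' j : ℤ} (hN : N ≤ j) (hN' : N' ≤ j) {s₁ s₂ : ℝ} (hs₁ : 0 ≤ s₁) (hs₁₂ : s₁ ≤ s₂) (hs₂ : s₂ ≤ 1 / 2) {B : ℝ}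
include hG hθ0 hθ hθ0' hθ' hN hN' hs₁ hs₁₂ hs₂



end Pairs

section Law


end Law

section StrictFinal


end StrictFinal

end Crest.Agent.Lib.IsingFIID
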