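/-
S0241 blueprint, Mod M (section 10): the critical case `D θ² = 1` as a limit of strict systems.
Split of the work (all independent once the statements of Static, Dynamics, Strict, TwoSystem are taken as black boxes):
 * M-a : section Schedule + section Moments (infinite volume moment bounds from `tendsto_EsR_law` and Static.lean).
 * M-b : `EQ_cauchy` (J8: uniform Cauchy property of `E Q`).
 * M-c : `pair_T_le` (two-system bound + Hölder).
 * M-d : `bihari_partition`, `sweep_step`, `start_bound`, `critical_pair` (the arithmetic of the fixed exponent `y₀ = n`).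
 * M-e : `exists_sequence`, `critical_factor` (assembly with `factor_of_sequence`).
-/
import Crest.Agent.Lib.IsingFIID.Strict

set_option autoImplicit false
universe u

namespace Crest.Agent.Lib.IsingFIID

open MeasureTheory Filter
open scoped Classical Topology

variable {V : Type u} (G : SimpleGraph V) [G.LocallyFinite]

/-- the mean of `Q` on a directed edge -/
noncomputable def EQ (θ : ℝ) (N j : ℤ) (s : ℝ) (p y : V) : ℝ :=
  ∫ x, Qmix G (fun a b => bInf G θ N j s a b x) (fun a b => bInf G θ N j s a b x) p y ∂(omP V)

/-- the distance of two systems (all vertices, directed edges are equivalent). -/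
noncomputable def Xpair (θ θ' : ℝ) (N N' j : ℤ) (s : ℝ) (p y : V) : ℝ :=
  ∫ x, (mInf G θ N j s p x - mInf G θ' N' j s p x) ^ 2 ∂(omP V) +
    ∫ x, (tInf G θ N j s p y x - tInf G θ' N' j s p y x) ^ 2 ∂(omP V)

variable {G} {D : ℕ}

section Schedule




end Schedule

section Moments

variable (hG : RegTree G D) {θ : ℝ} (hθ0 : 0 ≤ θ) (hθ : (D : ℝ) * θ ^ 2 < 1)





end Moments






/-- the number of sweeps after time `0` in the `n`-th comparison -/
noncomputable def Tn (n : ℕ) : ℤ := (Nat.sqrt n : ℕ)




end Crest.Agent.Lib.IsingFIID
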