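/-
S0241 blueprint, Mod M-b (helper56): `EQ_cauchy`.
The mean of `Q` on a directed edge is the sum of the level means; levels are limits of static
values (`tendsto_EsR_law`), with an error uniform in the parameters (`ES_truncation`, `blockAt_lam`),
the static values at fixed depth are uniformly continuous (`ES_continuity`, `blockAt_lo`, `blockAt_hi`, closeness of `wSite`),
and the tail of the levels is uniformly small (`gamma_bound`).
-/
import Crest.Agent.Lib.IsingFIID.CriticalMoments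

set_option autoImplicit false
universe u

namespace Crest.Agent.Lib.IsingFIID

open MeasureTheory Filter
open scoped Classical Topology

variable {V : Type u} {G : SimpleGraph V} [G.LocallyFinite] {D : ℕ}

namespace EQCauchy

/-- mean of the level `r` -/
noncomputable def levA (G : SimpleGraph V) [G.LocallyFinite] (θ : ℝ) (N j : ℤ) (s : ℝ) (r : ℕ) (p y : V) : ℝ :=
  ∫ x, levMix G (fun a b => bInf G θ N j s a b x) (fun a b => bInf G θ N j s a b x) r p y ∂(omP V)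

theorem tendsto_level (hG : RegTree G D) {θ : ℝ} (hθ0 : 0 ≤ θ) (hθ : (D : ℝ) * θ ^ 2 < 1) {N j : ℤ} (hN : N ≤ j)
    {s : ℝ} (hs0 : 0 ≤ s) (hs : s ≤ 1 / 2) {p y : V} (hpy : G.Adj p y) (r : ℕ) :
    Tendsto (fun R => EsR G (blockAt N j s) θ R p y (fun x => SR G (blockAt N j s) θ r R p y x)) atTop
      (𝓝 (levA G θ N j s r p y)) := by
  have := tendsto_EsR_law hG hθ0 hθ hN hs0 hs hpy (r + 1)
    (fun z => z.2 ⟨r, Nat.lt_succ_self r⟩) (by fun_prop)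
  simpa [levA] using this

theorem levA_le (hG : RegTree G D) {θ : ℝ} (hθ0 : 0 ≤ θ) (hθ : (D : ℝ) * θ ^ 2 < 1) {N j : ℤ} (hN : N ≤ j)
    {s : ℝ} (hs0 : 0 ≤ s) (hs : s ≤ 1 / 2) {p y : V} (hpy : G.Adj p y) {γ : ℝ}
    (hd : Damped (G := G) (blockAt N j s) θ γ) (r : ℕ) :
    levA G θ N j s r p y ≤ 2 * (1 - γ) ^ (r - 1 : ℕ) := by
  refine le_of_forall_pos_le_add fun ε hε => ?_
  exact le_of_tendsto (tendsto_level hG hθ0 hθ hN hs0 hs hpy r) (hd hpy r ε hε)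

theorem theta_lt_one (hG : RegTree G D) {θ : ℝ} (hθ0 : 0 ≤ θ) (hθ : (D : ℝ) * θ ^ 2 < 1) : θ < 1 := by
  have h2 : (2 : ℝ) ≤ D := by exact_mod_cast hG.two_le
  nlinarith [sq_nonneg θ]

theorem bInf_nonneg (hG : RegTree G D) {θ : ℝ} (hθ0 : 0 ≤ θ) (hθ : (D : ℝ) * θ ^ 2 < 1) (N j : ℤ) (s : ℝ)
    (a b : V) (x : Om V) : 0 ≤ bInf G θ N j s a b x :=
  bTheta_nonneg_of_abs hθ0 (theta_lt_one hG hθ0 hθ) (abs_cavInf_le hG hθ0 hθ s a b x)

theorem bInf_le (hG : RegTree G D) {θ : ℝ} (hθ0 : 0 ≤ θ) (hθ : (D : ℝ) * θ ^ 2 < 1) (N j : ℤ) (s : ℝ)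
    (a b : V) (x : Om V) : bInf G θ N j s a b x ≤ θ :=
  bTheta_le_of_abs hθ0 (theta_lt_one hG hθ0 hθ) (abs_cavInf_le hG hθ0 hθ s a b x)

theorem measurable_levMix {Ω : Type*} [MeasurableSpace Ω] {B : V → V → Ω → ℝ}
    (hB : ∀ a b, Measurable (B a b)) (r : ℕ) :
    ∀ p y : V, Measurable fun x => levMix G (fun a b => B a b x) (fun a b => B a b x) r p y := by
  induction r with
  | zero => intro p y; simp only [levMix]; exact measurable_const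
  | succ r ih =>
    intro p y
    simp only [levMix]
    exact Finset.measurable_sum _ fun z _ => ((hB y z).mul (hB y z)).mul (ih y z)

theorem hasSum_levA (hG : RegTree G D) {θ : ℝ} (hθ0 : 0 ≤ θ) (hθ : (D : ℝ) * θ ^ 2 < 1) {N j : ℤ} (hN : N ≤ j)
    (s : ℝ) {p y : V} (hpy : G.Adj p y) :
    HasSum (fun r => levA G θ N j s r p y) (EQ G θ N j s p y) := by
  have hmeas : ∀ r, Measurable fun x => levMix G (fun a b => bInf G θ N j s a b x)
      (fun a b => bInf G θ N j s a b x) r p y := fun r =>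
    measurable_levMix (fun a b => (stInf hG hθ0 hθ N j hN s).meas_b a b) r p y
  have hbd : ∀ r x, 0 ≤ levMix G (fun a b => bInf G θ N j s a b x)
      (fun a b => bInf G θ N j s a b x) r p y ∧
      levMix G (fun a b => bInf G θ N j s a b x)
      (fun a b => bInf G θ N j s a b x) r p y ≤ ((D : ℝ) * θ * θ) ^ r := fun r x =>
    levMix_le hG hθ0 hθ0 (fun a b => bInf_nonneg hG hθ0 hθ N j s a b x)
      (fun a b => bInf_le hG hθ0 hθ N j s a b x) (fun a b => bInf_nonneg hG hθ0 hθ N j s a b x)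
      (fun a b => bInf_le hG hθ0 hθ N j s a b x) hpy r
  have hint : ∀ r, Integrable (fun x => levMix G (fun a b => bInf G θ N j s a b x)
      (fun a b => bInf G θ N j s a b x) r p y) (omP V) := fun r => by
    refine Integrable.of_bound (hmeas r).aestronglyMeasurable (((D : ℝ) * θ * θ) ^ r)
      (Eventually.of_forall fun x => ?_)
    rw [Real.norm_eq_abs, abs_of_nonneg (hbd r x).1]
    exact (hbd r x).2
  have hq0 : 0 ≤ (D : ℝ) * θ * θ := by positivity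
  have hq1 : (D : ℝ) * θ * θ < 1 := by nlinarith
  have hsum : Summable fun r => ∫ x, ‖levMix G (fun a b => bInf G θ N j s a b x)
      (fun a b => bInf G θ N j s a b x) r p y‖ ∂(omP V) := by
    refine Summable.of_nonneg_of_le (fun r => integral_nonneg fun x => norm_nonneg _) (fun r => ?_)
      (summable_geometric_of_lt_one hq0 hq1)
    have h1 : ∫ x, ‖levMix G (fun a b => bInf G θ N j s a b x)
        (fun a b => bInf G θ N j s a b x) r p y‖ ∂(omP V) ≤ ∫ _x, ((D : ℝ) * θ * θ) ^ r ∂(omP V) := by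
      refine integral_mono (hint r).norm (integrable_const _) fun x => ?_
      simp only [Real.norm_eq_abs]
      rw [abs_of_nonneg (hbd r x).1]
      exact (hbd r x).2
    simpa using h1
  exact hasSum_integral_of_summable_integral_norm hint hsum

/-- abstract tail bound -/
theorem tail_bounds {a : ℕ → ℝ} {S ρ : ℝ} (hS : HasSum a S) (h0 : ∀ r, 0 ≤ a r) (hρ0 : 0 ≤ ρ) (hρ1 : ρ < 1)
    (ha : ∀ r, a r ≤ 2 * ρ ^ (r - 1 : ℕ)) {r₀ : ℕ} (hr₀ : 1 ≤ r₀) :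
    0 ≤ S - ∑ r ∈ Finset.range r₀, a r ∧ S - ∑ r ∈ Finset.range r₀, a r ≤ 2 * ρ ^ (r₀ - 1 : ℕ) / (1 - ρ) := by
  have h1 : HasSum (fun n => a (n + r₀)) (S - ∑ r ∈ Finset.range r₀, a r) :=
    (hasSum_nat_add_iff' r₀).2 hS
  refine ⟨h1.nonneg fun n => h0 _, ?_⟩
  have h2 : HasSum (fun n => 2 * ρ ^ (r₀ - 1 : ℕ) * ρ ^ n) (2 * ρ ^ (r₀ - 1 : ℕ) * (1 - ρ)⁻¹) :=
    (hasSum_geometric_of_lt_one hρ0 hρ1).mul_left _
  have h3 := hasSum_le (fun n => ?_) h1 h2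
  · simpa [div_eq_mul_inv] using h3
  · have h4 := ha (n + r₀)
    have h5 : n + r₀ - 1 = (r₀ - 1) + n := by omega
    rw [h5, pow_add] at h4
    linarith

theorem levA_trunc (hG : RegTree G D) {θ : ℝ} (hθ0 : 0 ≤ θ) (hθ : (D : ℝ) * θ ^ 2 < 1) {N j : ℤ} (hN : N ≤ j)
    {s : ℝ} (hs0 : 0 ≤ s) (hs : s ≤ 1 / 2) {p y : V} (hpy : G.Adj p y) (hlam : (blockAt N j s).lam < 1)
    {r R : ℕ} (hr : r ≤ R) :
    |levA G θ N j s r p y - EsR G (blockAt N j s) θ R p y (fun x => SR G (blockAt N j s) θ r R p y x)| ≤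
      (r + 1) * 16 * Real.sqrt ((blockAt N j s).lam ^ (R - r) / (1 - (blockAt N j s).lam)) := by
  have t := tendsto_level hG hθ0 hθ hN hs0 hs hpy r
  have t2 := (t.sub_const (EsR G (blockAt N j s) θ R p y (fun x => SR G (blockAt N j s) θ r R p y x))).abs
  refine le_of_tendsto t2 ?_
  filter_upwards [eventually_ge_atTop R] with R' hR'
  exact ES_truncation (blockAt N j s) hG hθ0 hθ.le hlam hpy r R R' hR' hr

theorem lam_nonneg {E : Type*} [MeasurableSpace E] {κ : Measure E} (𝔟 : BlockData κ) : 0 ≤ 𝔟.lam :=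
  integral_nonneg fun _ => Real.sqrt_nonneg _

theorem sqrt_lam_mono {Λ Λ₀ : ℝ} (h0 : 0 ≤ Λ) (h1 : Λ ≤ Λ₀) (h2 : Λ₀ < 1) (k : ℕ) :
    Real.sqrt (Λ ^ k / (1 - Λ)) ≤ Real.sqrt (Λ₀ ^ k / (1 - Λ₀)) := by
  apply Real.sqrt_le_sqrt
  have h3 : Λ ^ k ≤ Λ₀ ^ k := pow_le_pow_left₀ h0 h1 k
  have h4 : 0 < 1 - Λ₀ := by linarith
  have h5 : 1 - Λ₀ ≤ 1 - Λ := by linarith
  exact div_le_div₀ (pow_nonneg (h0.trans h1) k) h3 h4 h5

/-! Products of channels -/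

theorem exp_neg_two_mul_le {t : ℝ} (h0 : 0 ≤ t) (h1 : t ≤ 1 / 2) : Real.exp (-(2 * t)) ≤ 1 - t := by
  have h2 : 1 + 2 * t ≤ Real.exp (2 * t) := by linarith [Real.add_one_le_exp (2 * t)]
  rw [Real.exp_neg]
  have h3 : 0 < 1 + 2 * t := by linarith
  calc (Real.exp (2 * t))⁻¹ ≤ (1 + 2 * t)⁻¹ := inv_anti₀ h3 h2
    _ ≤ 1 - t := by
      rw [inv_le_iff_one_le_mul₀ h3]
      nlinarith

theorem prod_channel_bounds (A : Finset ℤ) (X : ℤ → ℝ) (hX : ∀ i, |X i| ≤ 1) :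
    ∏ i ∈ A, (1 + eps i * X i) ≤ Real.exp (∑ i ∈ A, eps i) ∧
      Real.exp (-(2 * ∑ i ∈ A, eps i)) ≤ ∏ i ∈ A, (1 + eps i * X i) := by
  have hbd : ∀ i, -eps i ≤ eps i * X i ∧ eps i * X i ≤ eps i := fun i => by
    have h1 := abs_le.mp (hX i)
    have h2 := eps_pos i
    constructor <;> nlinarith [h1.1, h1.2]
  have hlow : ∀ i, Real.exp (-(2 * eps i)) ≤ 1 + eps i * X i := fun i => by
    have h1 := exp_neg_two_mul_le (eps_pos i).le (by linarith [eps_le i])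
    linarith [(hbd i).1]
  have hup : ∀ i, 1 + eps i * X i ≤ Real.exp (eps i) := fun i => by
    linarith [(hbd i).2, Real.add_one_le_exp (eps i)]
  constructor
  · rw [Real.exp_sum]
    refine Finset.prod_le_prod (fun i _ => ?_) fun i _ => hup i
    exact (Real.exp_pos _).le.trans (hlow i)
  · rw [Finset.mul_sum, ← Finset.sum_neg_distrib, Real.exp_sum]
    exact Finset.prod_le_prod (fun i _ => (Real.exp_pos _).le) fun i _ => hlow i

theorem sum_eps_uniform (T : ℤ) : ∃ S : ℝ, 0 ≤ S ∧ ∀ N j : ℤ, N ≤ 0 → j ≤ T → ∑ i ∈ Finset.Icc N j, eps i ≤ S := by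
  refine ⟨1 + ∑ i ∈ Finset.Ioc 0 (max T 0), eps i,
    by have := Finset.sum_nonneg (s := Finset.Ioc 0 (max T 0)) (fun i _ => (eps_pos i).le); linarith, ?_⟩
  intro N j hN hj
  have hsub : Finset.Icc N j ⊆ Finset.Icc N 0 ∪ Finset.Ioc 0 (max T 0) := by
    intro i hi
    simp only [Finset.mem_Icc, Finset.mem_union, Finset.mem_Ioc] at hi ⊢
    by_cases h : i ≤ 0
    · exact Or.inl ⟨hi.1, h⟩
    · right; exact ⟨by omega, by omega⟩
  have h1 : ∑ i ∈ Finset.Icc N j, eps i ≤ ∑ i ∈ Finset.Icc N 0 ∪ Finset.Ioc 0 (max T 0), eps i :=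
    Finset.sum_le_sum_of_subset_of_nonneg hsub fun i _ _ => (eps_pos i).le
  have hdisj : Disjoint (Finset.Icc N 0) (Finset.Ioc 0 (max T 0)) := by
    rw [Finset.disjoint_left]
    intro i hi hi'
    simp only [Finset.mem_Icc, Finset.mem_Ioc] at hi hi'
    omega
  rw [Finset.sum_union hdisj] at h1
  have h2 := sum_eps_le (N := N) (j := 0) le_rfl
  simp only [zpow_zero, Real.sqrt_one, mul_one] at h2
  linarith

theorem hi_lo_uniform (T : ℤ) : ∃ lo hi : ℝ, 0 < lo ∧ 0 < hi ∧ ∀ N j : ℤ, ∀ s : ℝ, N ≤ j → N ≤ 0 → j ≤ T →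
    lo ≤ (blockAt N j s).lo ∧ (blockAt N j s).hi ≤ hi := by
  obtain ⟨S, hS0, hS⟩ := sum_eps_uniform T
  refine ⟨Real.exp (-(2 * S)), Real.exp S, Real.exp_pos _, Real.exp_pos _, ?_⟩
  intro N j s hNj hN hj
  have h := hS N j hN hj
  constructor
  · rw [blockAt_lo N j s hNj]
    have h1 := (prod_channel_bounds (Finset.Icc N j) (fun _ => -1) (by simp)).2
    have h2 : Real.exp (-(2 * S)) ≤ Real.exp (-(2 * ∑ i ∈ Finset.Icc N j, eps i)) :=
      Real.exp_le_exp.mpr (by linarith)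
    have h3 : ∀ i, 1 + eps i * (-1) = 1 - eps i := fun i => by ring
    simp only [h3] at h1
    linarith
  · rw [blockAt_hi N j s hNj]
    have h1 := (prod_channel_bounds (Finset.Icc N j) (fun _ => 1) (by simp)).1
    have h2 : Real.exp (∑ i ∈ Finset.Icc N j, eps i) ≤ Real.exp S := Real.exp_le_exp.mpr h
    have h3 : ∀ i, 1 + eps i * 1 = 1 + eps i := fun i => by ring
    simp only [h3] at h1
    linarith

/-- the noise term of the site weight -/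
noncomputable def noiseX (τ : ℝ) (sgn : ℝ) (e : Block) (i : ℤ) : ℝ :=
  (if (e (i, false) : ℝ) < τ then 2 * (e (i, true) : ℝ) - 1 else 0) * sgn

theorem abs_noiseX_le {τ sgn : ℝ} (hsgn : |sgn| ≤ 1) (e : Block) (i : ℤ) : |noiseX τ sgn e i| ≤ 1 := by
  unfold noiseX
  rw [abs_mul]
  have h1 : |if (e (i, false) : ℝ) < τ then 2 * (e (i, true) : ℝ) - 1 else 0| ≤ 1 := by
    split_ifs
    · have h2 := (e (i, true)).2
      rw [abs_le]
      constructor <;> nlinarith [h2.1, h2.2]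
    · simp
  calc _ ≤ (1 : ℝ) * 1 := mul_le_mul h1 hsgn (abs_nonneg _) zero_le_one
    _ = 1 := by norm_num

theorem wSite_split {N' N j : ℤ} (hN' : N' ≤ N) (hN : N ≤ j) (s₀ sgn : ℝ) (e : Block) :
    wSite N' j s₀ sgn e = (∏ i ∈ Finset.Ico N' N, (1 + eps i * noiseX (1 / 2) sgn e i)) * wSite N j s₀ sgn e := by
  unfold wSite
  have h1 : Finset.Ico N' j = Finset.Ico N' N ∪ Finset.Ico N j := (Finset.Ico_union_Ico_eq_Ico hN' hN).symm
  have h2 : Disjoint (Finset.Ico N' N) (Finset.Ico N j) := Finset.Ico_disjoint_Ico_consecutive _ _ _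
  rw [h1, Finset.prod_union h2]
  have h3 : ∀ i, (1 + eps i * (if (e (i, false) : ℝ) < 1 / 2 then 2 * (e (i, true) : ℝ) - 1 else 0) * sgn) =
      1 + eps i * noiseX (1 / 2) sgn e i := fun i => by unfold noiseX; ring
  simp only [h3]
  ring

theorem wSite_close {N' N j Ñ : ℤ} (hN' : N' ≤ N) (hN : N ≤ Ñ) (hÑ0 : Ñ ≤ 0) (hÑ : Ñ ≤ j)
    (h12 : Real.sqrt ((2 : ℝ) ^ Ñ) ≤ 1 / 2) (s₀ : ℝ) {sgn : ℝ} (hsgn : |sgn| ≤ 1) (e : Block) :
    |wSite N' j s₀ sgn e - wSite N j s₀ sgn e| ≤ 2 * Real.sqrt ((2 : ℝ) ^ Ñ) * |wSite N j s₀ sgn e| := by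
  rw [wSite_split hN' (hN.trans hÑ)]
  set σ := ∑ i ∈ Finset.Ico N' N, eps i with hσ
  have hσ0 : 0 ≤ σ := Finset.sum_nonneg fun i _ => (eps_pos i).le
  have hσ1 : σ ≤ Real.sqrt ((2 : ℝ) ^ Ñ) := by
    have h1 := sum_eps_le (N := N') (j := Ñ) hÑ0
    have h2 : σ ≤ ∑ i ∈ Finset.Icc N' Ñ, eps i := by
      refine Finset.sum_le_sum_of_subset_of_nonneg (fun i hi => ?_) fun i _ _ => (eps_pos i).le
      simp only [Finset.mem_Ico, Finset.mem_Icc] at hi ⊢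
      omega
    linarith
  obtain ⟨hu, hl⟩ := prod_channel_bounds (Finset.Ico N' N) (noiseX (1 / 2) sgn e) (abs_noiseX_le hsgn e)
  set P := ∏ i ∈ Finset.Ico N' N, (1 + eps i * noiseX (1 / 2) sgn e i) with hP
  have hup : P - 1 ≤ 2 * σ := by
    have h1 : Real.exp σ ≤ 1 + 2 * σ := by
      have h2 : 1 - σ ≤ Real.exp (-σ) := by linarith [Real.add_one_le_exp (-σ)]
      have h3 : 0 < 1 - σ := by linarith
      have h4 : Real.exp σ * (1 - σ) ≤ 1 := by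
        calc Real.exp σ * (1 - σ) ≤ Real.exp σ * Real.exp (-σ) :=
              mul_le_mul_of_nonneg_left h2 (Real.exp_pos _).le
          _ = 1 := by rw [← Real.exp_add]; simp
      have h5 : Real.exp σ ≤ 1 / (1 - σ) := by
        rw [le_div_iff₀ h3]; exact h4
      refine h5.trans ?_
      rw [div_le_iff₀ h3]
      nlinarith
    linarith
  have hlow : 1 - P ≤ 2 * σ := by
    have h1 : 1 - 2 * σ ≤ Real.exp (-(2 * σ)) := by linarith [Real.add_one_le_exp (-(2 * σ))]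
    linarith
  have habs : |P - 1| ≤ 2 * σ := abs_le.mpr ⟨by linarith, hup⟩
  have : P * wSite N j s₀ sgn e - wSite N j s₀ sgn e = (P - 1) * wSite N j s₀ sgn e := by ring
  rw [this, abs_mul]
  exact mul_le_mul_of_nonneg_right (by linarith) (abs_nonneg _)

theorem levA_nonneg (hG : RegTree G D) {θ : ℝ} (hθ0 : 0 ≤ θ) (hθ : (D : ℝ) * θ ^ 2 < 1) (N j : ℤ) (s : ℝ)
    {p y : V} (hpy : G.Adj p y) (r : ℕ) : 0 ≤ levA G θ N j s r p y :=
  integral_nonneg fun x => (levMix_le hG hθ0 hθ0 (fun a b => bInf_nonneg hG hθ0 hθ N j s a b x)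
      (fun a b => bInf_le hG hθ0 hθ N j s a b x) (fun a b => bInf_nonneg hG hθ0 hθ N j s a b x)
      (fun a b => bInf_le hG hθ0 hθ N j s a b x) hpy r).1

theorem one_side (hG : RegTree G D) {θ : ℝ} (hθ0 : 0 ≤ θ) (hθ : (D : ℝ) * θ ^ 2 < 1) {N j : ℤ} (hNj : N < j)
    {s : ℝ} (hs0 : 0 ≤ s) (hs : s ≤ 1 / 2) {p y : V} (hpy : G.Adj p y) {γ₀ γ Λ₀ : ℝ} (hγ0 : 0 < γ₀) (hγγ : γ₀ ≤ γ)
    (hγ1 : γ ≤ 1) (hd : Damped (G := G) (blockAt N j s) θ γ) (hΛ : (blockAt N j s).lam ≤ Λ₀) (hΛ1 : Λ₀ < 1)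
    (r₁ K : ℕ) :
    (0 ≤ EQ G θ N j s p y - ∑ r ∈ Finset.range (r₁ + 1), levA G θ N j s r p y ∧
      EQ G θ N j s p y - ∑ r ∈ Finset.range (r₁ + 1), levA G θ N j s r p y ≤ 2 * (1 - γ₀) ^ r₁ / γ₀) ∧
    ∀ r < r₁ + 1, |levA G θ N j s r p y - EsR G (blockAt N j s) θ (r₁ + 1 + K) p y
        (fun x => SR G (blockAt N j s) θ r (r₁ + 1 + K) p y x)| ≤
      (((r₁ + 1 : ℕ) : ℝ)) * 16 * Real.sqrt (Λ₀ ^ K / (1 - Λ₀)) := by
  have hN : N ≤ j := hNj.le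
  have hρ0 : 0 ≤ 1 - γ₀ := by linarith
  have hρ1 : 1 - γ₀ < 1 := by linarith
  constructor
  · have h := tail_bounds (hasSum_levA hG hθ0 hθ hN s hpy) (levA_nonneg hG hθ0 hθ N j s hpy) hρ0 hρ1
      (fun r => (levA_le hG hθ0 hθ hN hs0 hs hpy hd r).trans (by
        have h1 : 0 ≤ 1 - γ := by linarith
        have h2 : 1 - γ ≤ 1 - γ₀ := by linarith
        have := pow_le_pow_left₀ h1 h2 (r - 1)
        linarith)) (Nat.le_add_left 1 r₁)
    simpa using h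
  · intro r hr
    have hlam : (blockAt N j s).lam < 1 := hΛ.trans_lt hΛ1
    have hΛ0 : 0 ≤ Λ₀ := (lam_nonneg _).trans hΛ
    have hrR : r ≤ r₁ + 1 + K := by omega
    have h1 := levA_trunc hG hθ0 hθ hN hs0 hs hpy hlam hrR
    refine h1.trans ?_
    have h2 := sqrt_lam_mono (lam_nonneg _) hΛ hΛ1 (r₁ + 1 + K - r)
    have h3 : Real.sqrt (Λ₀ ^ (r₁ + 1 + K - r) / (1 - Λ₀)) ≤ Real.sqrt (Λ₀ ^ K / (1 - Λ₀)) := by
      apply Real.sqrt_le_sqrt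
      have h4 : Λ₀ ^ (r₁ + 1 + K - r) ≤ Λ₀ ^ K :=
        pow_le_pow_of_le_one hΛ0 hΛ1.le (by omega)
      exact div_le_div_of_nonneg_right h4 (by linarith)
    have h5 : ((r : ℝ) + 1) ≤ ((r₁ + 1 : ℕ) : ℝ) := by
      have : r + 1 ≤ r₁ + 1 := hr
      exact_mod_cast this
    have h6 : 0 ≤ Real.sqrt (Λ₀ ^ K / (1 - Λ₀)) := Real.sqrt_nonneg _
    calc ((r : ℝ) + 1) * 16 * Real.sqrt ((blockAt N j s).lam ^ (r₁ + 1 + K - r) / (1 - (blockAt N j s).lam))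
        ≤ ((r : ℝ) + 1) * 16 * Real.sqrt (Λ₀ ^ K / (1 - Λ₀)) :=
          mul_le_mul_of_nonneg_left (h2.trans h3) (by positivity)
      _ ≤ _ := by
          have : 0 ≤ 16 * Real.sqrt (Λ₀ ^ K / (1 - Λ₀)) := by positivity
          nlinarith

theorem exists_pos_le (f : ℕ → ℝ) (hf : ∀ r, 0 < f r) (n : ℕ) : ∃ δ > 0, ∀ r < n, δ ≤ f r := by
  induction n with
  | zero => exact ⟨1, one_pos, fun r hr => absurd hr (Nat.not_lt_zero r)⟩
  | succ n ih =>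
    obtain ⟨δ, hδ, h⟩ := ih
    refine ⟨min δ (f n), lt_min hδ (hf n), fun r hr => ?_⟩
    rcases Nat.lt_succ_iff_lt_or_eq.mp hr with h1 | rfl
    · exact (min_le_left _ _).trans (h r h1)
    · exact min_le_right _ _

theorem wSite_close' {N N' j Ñ : ℤ} (hN : N ≤ Ñ) (hN' : N' ≤ Ñ) (hÑ0 : Ñ ≤ 0) (hÑ : Ñ ≤ j)
    (h12 : Real.sqrt ((2 : ℝ) ^ Ñ) ≤ 1 / 2) (s₀ : ℝ) {sgn : ℝ} (hsgn : |sgn| ≤ 1) (e : Block) {B : ℝ}
    (hB : |wSite N j s₀ sgn e| ≤ B) (hB' : |wSite N' j s₀ sgn e| ≤ B) :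
    |wSite N j s₀ sgn e - wSite N' j s₀ sgn e| ≤ 2 * Real.sqrt ((2 : ℝ) ^ Ñ) * B := by
  have h0 : 0 ≤ 2 * Real.sqrt ((2 : ℝ) ^ Ñ) := by positivity
  rcases le_total N N' with h | h
  · have := wSite_close h hN' hÑ0 hÑ h12 s₀ hsgn e
    exact this.trans (mul_le_mul_of_nonneg_left hB' h0)
  · have := wSite_close h hN hÑ0 hÑ h12 s₀ hsgn e
    rw [abs_sub_comm]
    exact this.trans (mul_le_mul_of_nonneg_left hB h0)

end EQCauchy

open EQCauchy in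
/-- (M-b, J8)  `E Q` is uniformly Cauchy as `θ ↑ θ_c`, `N → -∞`, uniformly in `j ∈ [-n,T]`, `s`. -/
theorem EQ_cauchy_proved (hG : RegTree G D) (n : ℕ) (T : ℤ) {η : ℝ} (hη : 0 < η) :
    ∃ δ > 0, ∃ Ñ : ℤ, ∀ {θ θ' : ℝ}, 0 ≤ θ → 0 ≤ θ' → (D : ℝ) * θ ^ 2 < 1 → (D : ℝ) * θ' ^ 2 < 1 → |θ - θ'| ≤ δ →
      ∀ {N N' : ℤ}, N ≤ Ñ → N' ≤ Ñ → ∀ {j : ℤ} {s : ℝ} {p y : V}, -(n : ℤ) ≤ j → j ≤ T → 0 ≤ s → s ≤ 1 / 2 → G.Adj p y →
        |EQ G θ N j s p y - EQ G θ' N' j s p y| ≤ η := by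
  obtain ⟨c₂, hc₂0, hc₂1, hgam⟩ := gamma_bound.{u} D
  obtain ⟨lo, hi, hlo, hhi, hbd⟩ := hi_lo_uniform T
  -- the time scale
  set m : ℝ := (2 : ℝ) ^ (-(n : ℤ)) with hm
  have hm0 : 0 < m := by rw [hm]; positivity
  have hm1 : m ≤ 1 := by
    rw [hm]; exact zpow_le_one_of_nonpos₀ (by norm_num) (by omega)
  set γ₀ : ℝ := c₂ * Real.sqrt m with hγ₀
  have hγ0 : 0 < γ₀ := mul_pos hc₂0 (Real.sqrt_pos.mpr hm0)
  have hsq1 : Real.sqrt m ≤ 1 := by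
    rw [show (1 : ℝ) = Real.sqrt 1 by simp]; exact Real.sqrt_le_sqrt hm1
  have hγ1 : γ₀ ≤ 1 := by
    calc γ₀ ≤ 1 * 1 := mul_le_mul hc₂1 hsq1 (Real.sqrt_nonneg _) zero_le_one
      _ = 1 := by norm_num
  have hρ0 : 0 ≤ 1 - γ₀ := by linarith
  have hρ1 : 1 - γ₀ < 1 := by linarith
  -- the cut in the levels
  obtain ⟨r₁, hr₁⟩ : ∃ r₁ : ℕ, 2 * (1 - γ₀) ^ r₁ / γ₀ ≤ η / 4 := by
    have h1 : Tendsto (fun k : ℕ => 2 * (1 - γ₀) ^ k / γ₀) atTop (𝓝 (2 * 0 / γ₀)) :=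
      ((tendsto_pow_atTop_nhds_zero_of_lt_one hρ0 hρ1).const_mul 2).div_const γ₀
    have h2 : (2 * 0 / γ₀ : ℝ) < η / 4 := by simp; linarith
    exact (h1.eventually (gt_mem_nhds h2)).exists.imp fun k hk => hk.le
  set r₀ : ℕ := r₁ + 1 with hr₀
  have hr₀pos : (0 : ℝ) < (r₀ : ℝ) := by rw [hr₀]; positivity
  -- the depth
  set Λ₀ : ℝ := Real.exp (-(m / 64) / 6) with hΛ₀
  have hΛ1 : Λ₀ < 1 := by
    rw [hΛ₀, Real.exp_lt_one_iff]
    have : 0 < m / 64 := by positivity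
    linarith
  have hΛ0 : 0 < Λ₀ := Real.exp_pos _
  set η₁ : ℝ := η / (8 * r₀) with hη₁
  have hη₁0 : 0 < η₁ := by rw [hη₁]; positivity
  set η₂ : ℝ := η / (4 * r₀) with hη₂
  have hη₂0 : 0 < η₂ := by rw [hη₂]; positivity
  obtain ⟨K, hK⟩ : ∃ K : ℕ, ((r₀ : ℕ) : ℝ) * 16 * Real.sqrt (Λ₀ ^ K / (1 - Λ₀)) ≤ η₁ := by
    have h1 : Tendsto (fun k : ℕ => ((r₀ : ℕ) : ℝ) * 16 * Real.sqrt (Λ₀ ^ k / (1 - Λ₀))) atTop
        (𝓝 (((r₀ : ℕ) : ℝ) * 16 * Real.sqrt (0 / (1 - Λ₀)))) := by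
      refine Tendsto.const_mul _ (Real.continuous_sqrt.continuousAt.tendsto.comp ?_)
      exact (tendsto_pow_atTop_nhds_zero_of_lt_one hΛ0.le hΛ1).div_const _
    have h2 : ((r₀ : ℕ) : ℝ) * 16 * Real.sqrt (0 / (1 - Λ₀)) < η₁ := by simpa using hη₁0
    exact (h1.eventually (gt_mem_nhds h2)).exists.imp fun k hk => hk.le
  set R : ℕ := r₁ + 1 + K with hR
  -- continuity at fixed depth
  have hcont : ∀ r, ∃ δ > 0, ∀ {θ θ' : ℝ} {N N' j : ℤ} {s : ℝ} {p y : V}, 0 ≤ θ → 0 ≤ θ' →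
      (D : ℝ) * θ ^ 2 ≤ 1 → (D : ℝ) * θ' ^ 2 ≤ 1 →
      lo ≤ (blockAt N j s).lo → (blockAt N j s).hi ≤ hi → lo ≤ (blockAt N' j s).lo → (blockAt N' j s).hi ≤ hi →
      |θ - θ'| ≤ δ → (∀ e, |(blockAt N j s).wp e - (blockAt N' j s).wp e| ≤ δ) →
      (∀ e, |(blockAt N j s).wm e - (blockAt N' j s).wm e| ≤ δ) → G.Adj p y →
      |EsR G (blockAt N j s) θ R p y (fun x => SR G (blockAt N j s) θ r R p y x) -
        EsR G (blockAt N' j s) θ' R p y (fun x => SR G (blockAt N' j s) θ' r R p y x)| ≤ η₂ := by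
    intro r
    obtain ⟨δ, hδ, h⟩ := ES_continuity.{u, 0} D R r lo hi η₂ hlo hη₂0
    refine ⟨δ, hδ, ?_⟩
    intro θ θ' N N' j s p y h1 h2 h3 h4 h5 h6 h7 h8 h9 h10 h11 h12
    exact h hG (blockAt N j s) (blockAt N' j s) h1 h2 h3 h4 h5 h6 h7 h8 h9 h10 h11 h12
  choose fδ hfδ hfδ' using hcont
  obtain ⟨δ₁, hδ₁, hδ₁'⟩ := exists_pos_le fδ hfδ r₀
  -- the first sweep
  obtain ⟨L, hLn, hL12, hLδ⟩ : ∃ L : ℕ, n + 1 ≤ L ∧ Real.sqrt ((1 / 2 : ℝ) ^ L) ≤ 1 / 2 ∧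
      2 * Real.sqrt ((1 / 2 : ℝ) ^ L) * hi ≤ δ₁ := by
    have h1 : Tendsto (fun k : ℕ => Real.sqrt ((1 / 2 : ℝ) ^ k)) atTop (𝓝 (Real.sqrt 0)) :=
      Real.continuous_sqrt.continuousAt.tendsto.comp
        (tendsto_pow_atTop_nhds_zero_of_lt_one (by norm_num) (by norm_num))
    rw [Real.sqrt_zero] at h1
    have h2 : Tendsto (fun k : ℕ => 2 * Real.sqrt ((1 / 2 : ℝ) ^ k) * hi) atTop (𝓝 (2 * 0 * hi)) :=
      (h1.const_mul 2).mul_const hi
    have h3 : (2 * 0 * hi : ℝ) < δ₁ := by simpa using hδ₁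
    have e1 := h1.eventually (gt_mem_nhds (show (0 : ℝ) < 1 / 2 by norm_num))
    have e2 := h2.eventually (gt_mem_nhds h3)
    obtain ⟨L, hL⟩ := (((eventually_ge_atTop (n + 1)).and e1).and e2).exists
    exact ⟨L, hL.1.1, hL.1.2.le, hL.2.le⟩
  refine ⟨δ₁, hδ₁, -(L : ℤ), ?_⟩
  intro θ θ' hθ0 hθ0' hθ hθ' hδ N N' hN hN' j s p y hj hjT hs0 hs hpy
  have hLz : ((n : ℤ) + 1) ≤ (L : ℤ) := by exact_mod_cast hLn
  have hÑ0 : -(L : ℤ) ≤ 0 := by omega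
  have hÑj : -(L : ℤ) ≤ j := by omega
  have hNj : N < j := by omega
  have hNj' : N' < j := by omega
  have hN0 : N ≤ 0 := by omega
  have hN0' : N' ≤ 0 := by omega
  have hzpow : (2 : ℝ) ^ (-(L : ℤ)) = (1 / 2 : ℝ) ^ L := by
    rw [zpow_neg, zpow_natCast, one_div, inv_pow]
  -- common bound on the time
  have hmj : m ≤ min 1 ((2 : ℝ) ^ j) := le_min hm1 (zpow_le_zpow_right₀ (by norm_num) hj)
  have hlam : ∀ {N : ℤ}, N < j → (blockAt N j s).lam ≤ Λ₀ := by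
    intro N hNj
    refine (blockAt_lam N j s hs0 hs).trans (Real.exp_le_exp.mpr ?_)
    have := timeT_ge hNj hs0
    have h2 : m / 64 ≤ timeT N j s := by
      refine le_trans ?_ this
      exact div_le_div_of_nonneg_right hmj (by norm_num)
    linarith
  have hγj : γ₀ ≤ c₂ * Real.sqrt (min 1 ((2 : ℝ) ^ j)) :=
    mul_le_mul_of_nonneg_left (Real.sqrt_le_sqrt hmj) hc₂0.le
  have hγj1 : c₂ * Real.sqrt (min 1 ((2 : ℝ) ^ j)) ≤ 1 := by
    have h1 : Real.sqrt (min 1 ((2 : ℝ) ^ j)) ≤ 1 := by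
      have h2 := Real.sqrt_le_sqrt (min_le_left (1 : ℝ) ((2 : ℝ) ^ j))
      rwa [Real.sqrt_one] at h2
    calc _ ≤ (1 : ℝ) * 1 := mul_le_mul hc₂1 h1 (Real.sqrt_nonneg _) zero_le_one
      _ = 1 := by norm_num
  obtain ⟨⟨ht0, ht1⟩, htr⟩ := one_side hG hθ0 hθ hNj hs0 hs hpy hγ0 hγj hγj1
    (hgam hG hθ0 hθ.le hNj hs0 hs) (hlam hNj) hΛ1 r₁ K
  obtain ⟨⟨ht0', ht1'⟩, htr'⟩ := one_side hG hθ0' hθ' hNj' hs0 hs hpy hγ0 hγj hγj1
    (hgam hG hθ0' hθ'.le hNj' hs0 hs) (hlam hNj') hΛ1 r₁ K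
  -- closeness of the weights
  have hbN := hbd N j s hNj.le hN0 hjT
  have hbN' := hbd N' j s hNj'.le hN0' hjT
  have hwt : ∀ {N : ℤ}, N ≤ j → N ≤ 0 → ∀ e, |wSite N j s 1 e| ≤ hi ∧ |wSite N j s (-1) e| ≤ hi := by
    intro N hNj₀ hN e
    have hb := hbd N j s hNj₀ hN hjT
    have p0 := (blockAt N j s).lo_pos
    constructor
    · rw [← blockAt_wp, abs_of_pos (p0.trans_le ((blockAt N j s).wp_ge e))]
      exact ((blockAt N j s).wp_le e).trans hb.2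
    · rw [← blockAt_wm, abs_of_pos (p0.trans_le ((blockAt N j s).wm_ge e))]
      exact ((blockAt N j s).wm_le e).trans hb.2
  have h12' : Real.sqrt ((2 : ℝ) ^ (-(L : ℤ))) ≤ 1 / 2 := by rw [hzpow]; exact hL12
  have hwp : ∀ e, |(blockAt N j s).wp e - (blockAt N' j s).wp e| ≤ δ₁ := fun e => by
    rw [blockAt_wp, blockAt_wp]
    refine (wSite_close' hN hN' hÑ0 hÑj h12' s (by simp) e (hwt hNj.le hN0 e).1 (hwt hNj'.le hN0' e).1).trans ?_
    rw [hzpow]; exact hLδ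
  have hwm : ∀ e, |(blockAt N j s).wm e - (blockAt N' j s).wm e| ≤ δ₁ := fun e => by
    rw [blockAt_wm, blockAt_wm]
    refine (wSite_close' hN hN' hÑ0 hÑj h12' s (by simp) e (hwt hNj.le hN0 e).2 (hwt hNj'.le hN0' e).2).trans ?_
    rw [hzpow]; exact hLδ
  -- the levels below the cut
  have hlev : ∀ r < r₀, |levA G θ N j s r p y - levA G θ' N' j s r p y| ≤ η / (2 * r₀) := by
    intro r hr
    have hc := hfδ' r hθ0 hθ0' hθ.le hθ'.le hbN.1 hbN.2 hbN'.1 hbN'.2 (hδ.trans (hδ₁' r hr))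
      (fun e => (hwp e).trans (hδ₁' r hr)) (fun e => (hwm e).trans (hδ₁' r hr)) hpy
    have h1 := (htr r hr).trans hK
    have h2 := (htr' r hr).trans hK
    have h3 := abs_sub_le (levA G θ N j s r p y)
      (EsR G (blockAt N j s) θ R p y (fun x => SR G (blockAt N j s) θ r R p y x))
      (levA G θ' N' j s r p y)
    have h4 := abs_sub_le (EsR G (blockAt N j s) θ R p y (fun x => SR G (blockAt N j s) θ r R p y x))
      (EsR G (blockAt N' j s) θ' R p y (fun x => SR G (blockAt N' j s) θ' r R p y x))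
      (levA G θ' N' j s r p y)
    have h5 : |EsR G (blockAt N' j s) θ' R p y (fun x => SR G (blockAt N' j s) θ' r R p y x) -
        levA G θ' N' j s r p y| ≤ η₁ := by rw [abs_sub_comm]; exact h2
    have h6 : η / (2 * r₀) = η₁ + η₂ + η₁ := by
      rw [hη₁, hη₂]; field_simp; ring
    rw [h6]
    linarith
  have hsum : |∑ r ∈ Finset.range r₀, levA G θ N j s r p y - ∑ r ∈ Finset.range r₀, levA G θ' N' j s r p y| ≤ η / 2 := by
    rw [← Finset.sum_sub_distrib]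
    refine (Finset.abs_sum_le_sum_abs _ _).trans ?_
    calc _ ≤ ∑ _r ∈ Finset.range r₀, η / (2 * r₀) :=
          Finset.sum_le_sum fun r hr => hlev r (Finset.mem_range.mp hr)
      _ = η / 2 := by
          rw [Finset.sum_const, Finset.card_range, nsmul_eq_mul]
          field_simp
  have hfin1 := ht1.trans hr₁
  have hfin2 := ht1'.trans hr₁
  rw [abs_le] at hsum ⊢
  constructor <;> linarith [hsum.1, hsum.2]

alias EQ_cauchy := EQ_cauchy_proved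

end Crest.Agent.Lib.IsingFIID
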