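/-
S0241 blueprint, Mod H2: the law of the infinite volume local objects.
Proof of `tendsto_EsR_law` (statement in Strict.lean).
-/
import Crest.Agent.Lib.IsingFIID.Strict
import Crest.Agent.Lib.IsingFIID.DynGirsanov

set_option autoImplicit false
universe u

namespace Crest.Agent.Lib.IsingFIID

open MeasureTheory Filter
open scoped Classical Topology ENNReal

variable {V : Type u} {G : SimpleGraph V} [G.LocallyFinite] {D : ℕ}

/-- a.e. convergence from summable `L²` norms. -/
theorem ae_tendsto_zero_of_summable_sq {Ω : Type*} [MeasurableSpace Ω] {μ : Measure Ω} [IsProbabilityMeasure μ]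
    {f : ℕ → Ω → ℝ} (hm : ∀ R, Measurable (f R)) (hb : ∃ B, ∀ R x, |f R x| ≤ B)
    (hs : Summable fun R => ∫ x, f R x ^ 2 ∂μ) : ∀ᵐ x ∂μ, Tendsto (fun R => f R x) atTop (𝓝 0) := by
  obtain ⟨B, hB⟩ := hb
  have hint : ∀ R, Integrable (fun x => f R x ^ 2) μ := by
    intro R
    refine Integrable.of_bound ((hm R).pow_const 2).aestronglyMeasurable (B ^ 2) (ae_of_all _ fun x => ?_)
    rw [Real.norm_eq_abs, abs_pow]
    exact pow_le_pow_left₀ (abs_nonneg _) (hB R x) 2
  have h1 : ∫⁻ x, ∑' R, ENNReal.ofReal (f R x ^ 2) ∂μ ≠ ⊤ := by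
    rw [lintegral_tsum fun R => ((hm R).pow_const 2).ennreal_ofReal.aemeasurable]
    have h2 : ∀ R, ∫⁻ x, ENNReal.ofReal (f R x ^ 2) ∂μ = ENNReal.ofReal (∫ x, f R x ^ 2 ∂μ) := by
      intro R
      rw [ofReal_integral_eq_lintegral_ofReal (hint R) (ae_of_all _ fun x => sq_nonneg _)]
    simp_rw [h2]
    exact (ENNReal.ofReal_tsum_of_nonneg (fun R => integral_nonneg fun x => sq_nonneg _) hs) ▸ ENNReal.ofReal_ne_top
  have h3 := ae_lt_top' (Measurable.ennreal_tsum fun R => ((hm R).pow_const 2).ennreal_ofReal).aemeasurable h1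
  filter_upwards [h3] with x hx
  have h4 := ENNReal.tendsto_atTop_zero_of_tsum_ne_top hx.ne
  have h5 : Tendsto (fun R => f R x ^ 2) atTop (𝓝 0) := by
    have := (ENNReal.tendsto_toReal (ENNReal.zero_ne_top)).comp h4
    simp only [Function.comp_def, ENNReal.toReal_zero] at this
    refine this.congr fun R => ?_
    rw [ENNReal.toReal_ofReal (sq_nonneg _)]
  have h6 : Tendsto (fun R => |f R x|) atTop (𝓝 0) := by
    have := h5.sqrt
    simp only [Real.sqrt_zero] at this
    refine this.congr fun R => ?_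
    exact Real.sqrt_sq_eq_abs _
  exact (tendsto_zero_iff_abs_tendsto_zero _).mpr h6

theorem exists_kappa {q : ℝ} (hq0 : 0 ≤ q) (hq : q < 1) : ∃ κ : ℝ, 1 < κ ∧ q * κ < 1 := by
  refine ⟨2 / (1 + q), ?_, ?_⟩
  · rw [lt_div_iff₀ (by linarith)]; linarith
  · rw [mul_div_assoc', div_lt_iff₀ (by linarith)]; linarith

/-! ### BP level sums -/

theorem bpS_eq_of_ratio {θ : ℝ} (hG : RegTree G D) (hθ0 : 0 ≤ θ) (hθ1 : θ < 1) (wp wm : V → ℝ)
    (hwp : ∀ v, 0 < wp v) (hwm : ∀ v, 0 < wm v) (r : ℕ) :
    ∀ (R : ℕ) {p y : V}, G.Adj p y →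
    bpS G θ wp wm r R p y =
      bpS G θ (fun v => 1 + (wp v - wm v) / (wp v + wm v)) (fun v => 1 - (wp v - wm v) / (wp v + wm v)) r R p y := by
  induction r with
  | zero => intro R p y _; simp [bpS]
  | succ r ih =>
    intro R p y hpy
    cases R with
    | zero => simp [bpS]
    | succ R =>
      simp only [bpS]
      refine Finset.sum_congr rfl fun z hz => ?_
      have hyz : G.Adj y z := (mem_ch.mp hz).1
      rw [ih R hyz, bpNu_eq_of_ratio hG hθ0 hθ1 wp wm hwp hwm hyz R]

theorem measurable_bpS_field {θ : ℝ} (r : ℕ) :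
    ∀ (R : ℕ) (p y : V), Measurable fun ℓ : V → ℝ => bpS G θ (fun v => 1 + ℓ v) (fun v => 1 - ℓ v) r R p y := by
  induction r with
  | zero => intro R p y; simp only [bpS]; exact measurable_const
  | succ r ih =>
    intro R p y
    cases R with
    | zero => simp only [bpS]; exact measurable_const
    | succ R =>
      simp only [bpS]
      refine Finset.measurable_sum _ fun z _ => ?_
      refine Measurable.mul ?_ (ih R y z)
      have h1 : Measurable fun ℓ : V → ℝ => bpNu G θ (fun v => 1 + ℓ v) (fun v => 1 - ℓ v) R y z := by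
        have := measurable_bp (G := G) (E := ℝ) (θ := θ) (a := fun t => 1 + t) (b := fun t => 1 - t)
          (by fun_prop) (by fun_prop) R y z
        unfold bpNu
        exact (this.2).div (this.1)
      unfold bTheta
      fun_prop

theorem bpS_congr {θ : ℝ} (hG : RegTree G D) {a b a' b' : V → ℝ} (r : ℕ) :
    ∀ (R : ℕ) {p y : V}, G.Adj p y → (∀ v ∈ sub G R p y, a v = a' v ∧ b v = b' v) →
      bpS G θ a b r R p y = bpS G θ a' b' r R p y := by
  induction r with
  | zero => intro R p y _ _; simp [bpS]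
  | succ r ih =>
    intro R p y hpy h
    cases R with
    | zero => simp [bpS]
    | succ R =>
      simp only [bpS]
      refine Finset.sum_congr rfl fun z hz => ?_
      have hyz : G.Adj y z := (mem_ch.mp hz).1
      have hsub : ∀ v ∈ sub G R y z, a v = a' v ∧ b v = b' v := by
        intro v hv
        apply h
        rw [hG.sub_succ hpy]
        exact Finset.mem_union_right _ (Finset.mem_biUnion.mpr ⟨z, hz, hv⟩)
      have hbp := bp_congr (θ := θ) hG hyz R hsub
      rw [ih R hyz hsub]
      simp only [bpNu, hbp]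

/-- Sides of a subtree. -/
theorem sideOf_child_eq (hG : RegTree G D) {W : Finset V} {a b z : V} (hab : G.Adj a b) (hz : z ∈ ch G a b) {R : ℕ}
    (hside : sideOf G a b W = sub G (R + 1) a b) : sideOf G b z W = sub G R b z := by
  have hbz : G.Adj b z := (mem_ch.mp hz).1
  have hza : z ≠ a := (mem_ch.mp hz).2
  ext u
  constructor
  · intro hu
    simp only [sideOf, Finset.mem_filter] at hu
    obtain ⟨huW, hlt⟩ := hu
    -- `u` is on the `b` side of `(a,b)`
    have h1 : G.dist b u < G.dist a u := by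
      rcases hG.isTree.dist_eq_dist_add_one_of_adj u hab with h3 | h3
      · rw [SimpleGraph.dist_comm (u := u), SimpleGraph.dist_comm (u := u)] at h3
        -- dist u a = dist u b + 1 or symmetric
        omega
      · rw [SimpleGraph.dist_comm (u := u), SimpleGraph.dist_comm (u := u)] at h3
        exfalso
        have h4 : G.dist a u + 1 = G.dist b u := by omega
        have h5 : G.dist z u + 1 = G.dist b u := by
          rcases hG.isTree.dist_eq_dist_add_one_of_adj u hbz with h6 | h6
          · rw [SimpleGraph.dist_comm (u := u), SimpleGraph.dist_comm (u := u)] at h6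
            omega
          · rw [SimpleGraph.dist_comm (u := u), SimpleGraph.dist_comm (u := u)] at h6
            omega
        exact hza (closer_unique hG.isTree hbz hab.symm h5 h4)
    have hu' : u ∈ sideOf G a b W := by
      simp only [sideOf, Finset.mem_filter]; exact ⟨huW, h1⟩
    rw [hside, hG.sub_succ hab] at hu'
    rcases Finset.mem_union.mp hu' with h2 | h2
    · rw [Finset.mem_singleton] at h2
      subst h2
      simp at hlt
    · obtain ⟨z', hz', huz'⟩ := Finset.mem_biUnion.mp h2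
      have hbz' : G.Adj b z' := (mem_ch.mp hz').1
      have h5 : G.dist z u + 1 = G.dist b u := by
        rcases hG.isTree.dist_eq_dist_add_one_of_adj u hbz with h6 | h6
        · rw [SimpleGraph.dist_comm (u := u), SimpleGraph.dist_comm (u := u)] at h6
          omega
        · rw [SimpleGraph.dist_comm (u := u), SimpleGraph.dist_comm (u := u)] at h6
          omega
      have h7 : u ∈ (ball G z' R).filter fun u => G.dist z' u < G.dist b u := by
        rw [← hG.sub_eq_ball_filter hbz']; exact huz'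
      have h8 := (Finset.mem_filter.mp h7).2
      have h9 : G.dist z' u + 1 = G.dist b u := by
        rcases hG.isTree.dist_eq_dist_add_one_of_adj u hbz' with h6 | h6
        · rw [SimpleGraph.dist_comm (u := u), SimpleGraph.dist_comm (u := u)] at h6
          omega
        · rw [SimpleGraph.dist_comm (u := u), SimpleGraph.dist_comm (u := u)] at h6
          omega
      have : z = z' := closer_unique hG.isTree hbz hbz' h5 h9
      subst this
      exact huz'
  · intro hu
    have h7 : u ∈ (ball G z R).filter fun u => G.dist z u < G.dist b u := by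
      rw [← hG.sub_eq_ball_filter hbz]; exact hu
    have h8 := (Finset.mem_filter.mp h7).2
    have hu' : u ∈ sub G (R + 1) a b := by
      rw [hG.sub_succ hab]
      exact Finset.mem_union_right _ (Finset.mem_biUnion.mpr ⟨z, hz, hu⟩)
    rw [← hside] at hu'
    simp only [sideOf, Finset.mem_filter] at hu' ⊢
    exact ⟨hu'.1, h8⟩

/-- BP level sums are the level sums of the slopes of the system on a set whose sides are regular subtrees. -/
theorem bpS_eq_levMix (hG : RegTree G D) {θ : ℝ} (hθ0 : 0 ≤ θ) (hθ1 : θ < 1) {ℓ : V → ℝ} (hℓ : ∀ v, |ℓ v| < 1)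
    {W : Finset V} (hW : IsConvexSet G W) (r : ℕ) :
    ∀ (R : ℕ) {a b : V}, G.Adj a b → sideOf G a b W = sub G R a b → r ≤ R →
      bpS G θ (fun v => 1 + ℓ v) (fun v => 1 - ℓ v) r R a b =
        levMix G (slope G θ ℓ W) (slope G θ ℓ W) r a b := by
  induction r with
  | zero => intro R a b _ _ _; simp [bpS, levMix]
  | succ r ih =>
    intro R a b hab hside hr
    obtain ⟨R, rfl⟩ : ∃ R', R = R' + 1 := ⟨R - 1, by omega⟩
    simp only [bpS, levMix]
    refine Finset.sum_congr rfl fun z hz => ?_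
    have hbz : G.Adj b z := (mem_ch.mp hz).1
    have hside' := sideOf_child_eq hG hab hz hside
    have hbW : b ∈ W := by
      have : b ∈ sideOf G a b W := by rw [hside]; exact self_mem_sub _ _ _
      exact (Finset.mem_filter.mp this).1
    have hzW : z ∈ W := by
      have : z ∈ sideOf G b z W := by rw [hside']; exact self_mem_sub _ _ _
      exact (Finset.mem_filter.mp this).1
    have hne : W.Nonempty := ⟨b, hbW⟩
    have hsl : slope G θ ℓ W b z = bTheta θ (bpNu G θ (fun v => 1 + ℓ v) (fun v => 1 - ℓ v) R b z) := by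
      unfold slope
      rw [cav_eq_mag_side hG hθ0 hθ1 hℓ hW hne hbz hbW hzW, hside',
        mag_sub_eq_bpNu hG hθ0 hθ1 ℓ hℓ hbz R]
    rw [ih R hbz hside' (by omega), hsl]
    ring

/-! ### The limit -/

section Limit

variable (hG : RegTree G D) {θ : ℝ} (hθ0 : 0 ≤ θ) (hθ : (D : ℝ) * θ ^ 2 < 1) {N j : ℤ} (hN : N ≤ j)
  {s : ℝ} (hs0 : 0 ≤ s) (hs : s ≤ 1 / 2)

omit [G.LocallyFinite] in
theorem theta_lt_one_of (hG : RegTree G D) {θ : ℝ} (hθ0 : 0 ≤ θ) (hθ : (D : ℝ) * θ ^ 2 < 1) : θ < 1 := by
  have hD : (2 : ℝ) ≤ D := by exact_mod_cast hG.two_le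
  nlinarith [sq_nonneg θ]

theorem ball_subset_ball_add (hG : RegTree G D) (y b : V) (R : ℕ) :
    ball G b R ⊆ ball G y (R + G.dist y b) := by
  intro u hu
  rw [hG.mem_ball] at hu ⊢
  have := hG.isTree.connected.dist_triangle (u := y) (v := b) (w := u)
  omega

omit [G.LocallyFinite] in
theorem measurable_gibbs_field_sl (θ : ℝ) (W : Finset V) (f : Finset V → ℝ) :
    Measurable fun ℓ : V → ℝ => gibbs G θ ℓ W f := by
  unfold gibbs pfW expW siteW
  refine Measurable.div ?_ ?_
  · refine Finset.measurable_sum _ fun A _ => ?_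
    refine Measurable.mul ?_ measurable_const
    refine Measurable.mul measurable_const ?_
    refine Finset.measurable_prod _ fun v _ => ?_
    split_ifs <;> fun_prop
  · refine Finset.measurable_sum _ fun A _ => ?_
    refine Measurable.mul ?_ measurable_const
    refine Measurable.mul measurable_const ?_
    refine Finset.measurable_prod _ fun v _ => ?_
    split_ifs <;> fun_prop

include hG hθ0 hθ in
theorem measurable_fieldAt_pi {W : Finset V} (hW : IsConvexSet G W) (hne : W.Nonempty) (_hN : N ≤ j) (s : ℝ) :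
    Measurable fun x : Om V => fieldAt G θ W N x j s :=
  measurable_pi_lambda _ fun v =>
    measurable_fieldAt hG hθ0 (theta_lt_one_of hG hθ0 hθ) hW hne s v

include hG hθ0 hθ in
theorem abs_fieldAt_lt_of {W : Finset V} (hW : IsConvexSet G W) (hne : W.Nonempty) (x : Om V) (s : ℝ) (v : V) :
    |fieldAt G θ W N x j s v| < 1 :=
  abs_fieldAt_lt hG hθ0 (theta_lt_one_of hG hθ0 hθ) hW hne x j s v

theorem ball_nonempty (hG : RegTree G D) (y : V) (R : ℕ) : (ball G y R).Nonempty :=
  ⟨y, by rw [hG.mem_ball]; simp⟩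

include hG hθ0 hθ hN hs0 hs

/-- Convergence of the finite volume magnetisations on the balls around `y`. -/
theorem ae_tendsto_mag_ball (y b : V) : ∀ᵐ x ∂(omP V),
    Tendsto (fun R => mag G θ (fieldAt G θ (ball G y R) N x j s) (ball G y R) b) atTop (𝓝 (mInf G θ N j s b x)) := by
  have hθ1 := theta_lt_one_of hG hθ0 hθ
  obtain ⟨κ, hκ, hκθ⟩ := exists_kappa (q := (D : ℝ) * θ ^ 2) (by positivity) hθ
  obtain ⟨C, hC, hrate⟩ := mInf_rate hG hθ0 hθ hN hκ hκθ
  set d := G.dist y b with hd
  have hm : ∀ R, Measurable fun x => mInf G θ N j s b x -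
      mag G θ (fieldAt G θ (ball G y (R + d)) N x j s) (ball G y (R + d)) b := fun R =>
    (measurable_mInf hG hθ0 hθ hN s b).sub ((measurable_gibbs_field_sl θ _ _).comp
      (measurable_fieldAt_pi hG hθ0 hθ (hG.isConvexSet_ball y _) (ball_nonempty hG y _) hN s))
  have hκ0 : 0 < κ := by linarith
  have hsum : Summable fun R => ∫ x, (mInf G θ N j s b x -
      mag G θ (fieldAt G θ (ball G y (R + d)) N x j s) (ball G y (R + d)) b) ^ 2 ∂(omP V) := by
    refine Summable.of_nonneg_of_le (fun R => integral_nonneg fun x => sq_nonneg _)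
      (fun R => (hrate (hG.isConvexSet_ball y (R + d)) (ball_subset_ball_add hG y b R) hs0 hs).1) ?_
    refine Summable.mul_left _ (summable_geometric_of_lt_one (by positivity) ?_)
    exact inv_lt_one_of_one_lt₀ hκ
  have hb : ∃ B, ∀ R x, |mInf G θ N j s b x -
      mag G θ (fieldAt G θ (ball G y (R + d)) N x j s) (ball G y (R + d)) b| ≤ B := by
    refine ⟨2, fun R x => ?_⟩
    have h1 := abs_mInf_le (N := N) (j := j) hG hθ0 hθ s b x
    have h2 : |mag G θ (fieldAt G θ (ball G y (R + d)) N x j s) (ball G y (R + d)) b| ≤ 1 :=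
      abs_mag_le' hθ0 hθ1 (fun v => abs_fieldAt_lt_of hG hθ0 hθ (hG.isConvexSet_ball y _) (ball_nonempty hG y _) x s v) _ _
    calc _ ≤ |mInf G θ N j s b x| + |mag G θ (fieldAt G θ (ball G y (R + d)) N x j s) (ball G y (R + d)) b| := abs_sub _ _
      _ ≤ 2 := by linarith
  filter_upwards [ae_tendsto_zero_of_summable_sq hm hb hsum] with x hx
  rw [← tendsto_add_atTop_iff_nat d]
  have := (tendsto_const_nhds (x := mInf G θ N j s b x)).sub hx
  simp only [sub_sub_cancel] at this
  rwa [_root_.sub_zero] at this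

/-- Convergence of the finite volume two point functions on the balls around `y`. -/
theorem ae_tendsto_tcor_ball (y : V) {a b : V} (hab : G.Adj a b) : ∀ᵐ x ∂(omP V),
    Tendsto (fun R => tcor G θ (fieldAt G θ (ball G y R) N x j s) (ball G y R) a b) atTop (𝓝 (tInf G θ N j s a b x)) := by
  have hθ1 := theta_lt_one_of hG hθ0 hθ
  obtain ⟨κ, hκ, hκθ⟩ := exists_kappa (q := (D : ℝ) * θ ^ 2) (by positivity) hθ
  obtain ⟨C, hC, hrate⟩ := mInf_rate hG hθ0 hθ hN hκ hκθ
  set d := G.dist y a with hd
  have hm : ∀ R, Measurable fun x => tInf G θ N j s a b x -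
      tcor G θ (fieldAt G θ (ball G y (R + d)) N x j s) (ball G y (R + d)) a b := fun R =>
    (measurable_tInf hG hθ0 hθ hN s a b).sub ((measurable_gibbs_field_sl θ _ _).comp
      (measurable_fieldAt_pi hG hθ0 hθ (hG.isConvexSet_ball y _) (ball_nonempty hG y _) hN s))
  have hκ0 : 0 < κ := by linarith
  have hsum : Summable fun R => ∫ x, (tInf G θ N j s a b x -
      tcor G θ (fieldAt G θ (ball G y (R + d)) N x j s) (ball G y (R + d)) a b) ^ 2 ∂(omP V) := by
    refine Summable.of_nonneg_of_le (fun R => integral_nonneg fun x => sq_nonneg _)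
      (fun R => (hrate (hG.isConvexSet_ball y (R + d)) (ball_subset_ball_add hG y a R) hs0 hs).2 b hab) ?_
    refine Summable.mul_left _ (summable_geometric_of_lt_one (by positivity) ?_)
    exact inv_lt_one_of_one_lt₀ hκ
  have hb : ∃ B, ∀ R x, |tInf G θ N j s a b x -
      tcor G θ (fieldAt G θ (ball G y (R + d)) N x j s) (ball G y (R + d)) a b| ≤ B := by
    refine ⟨2, fun R x => ?_⟩
    have h1 := abs_tInf_le (N := N) (j := j) hG hθ0 hθ s a b x
    have h2 : |tcor G θ (fieldAt G θ (ball G y (R + d)) N x j s) (ball G y (R + d)) a b| ≤ 1 :=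
      abs_gibbs_le' hθ0 hθ1 (fun v => abs_fieldAt_lt_of hG hθ0 hθ (hG.isConvexSet_ball y _) (ball_nonempty hG y _) x s v) _
        (fun A _ => abs_spin_mul_le A a b)
    calc _ ≤ |tInf G θ N j s a b x| + |tcor G θ (fieldAt G θ (ball G y (R + d)) N x j s) (ball G y (R + d)) a b| := abs_sub _ _
      _ ≤ 2 := by linarith
  filter_upwards [ae_tendsto_zero_of_summable_sq hm hb hsum] with x hx
  rw [← tendsto_add_atTop_iff_nat d]
  have := (tendsto_const_nhds (x := tInf G θ N j s a b x)).sub hx
  simp only [sub_sub_cancel] at this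
  rwa [_root_.sub_zero] at this

/-- Convergence of the cavity magnetisations. -/
theorem ae_tendsto_cav_ball (y : V) {a b : V} (hab : G.Adj a b) : ∀ᵐ x ∂(omP V),
    Tendsto (fun R => cav G θ (fieldAt G θ (ball G y R) N x j s) (ball G y R) a b) atTop (𝓝 (cavInf G θ N j s a b x)) := by
  have hθ1 := theta_lt_one_of hG hθ0 hθ
  filter_upwards [ae_tendsto_mag_ball hG hθ0 hθ hN hs0 hs y b, ae_tendsto_mag_ball hG hθ0 hθ hN hs0 hs y a,
    ae_tendsto_tcor_ball hG hθ0 hθ hN hs0 hs y hab] with x h1 h2 h3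
  have ht : |tInf G θ N j s a b x| ≤ 1 := abs_tInf_le (N := N) (j := j) hG hθ0 hθ s a b x
  have hden : 1 - θ * tInf G θ N j s a b x ≠ 0 := by
    have := (abs_le.mp ht).2
    nlinarith
  have hc : Tendsto (fun R => cavOf θ (mag G θ (fieldAt G θ (ball G y R) N x j s) (ball G y R) b)
      (mag G θ (fieldAt G θ (ball G y R) N x j s) (ball G y R) a)
      (tcor G θ (fieldAt G θ (ball G y R) N x j s) (ball G y R) a b)) atTop
      (𝓝 (cavOf θ (mInf G θ N j s b x) (mInf G θ N j s a x) (tInf G θ N j s a b x))) := by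
    unfold cavOf
    exact (h1.sub (h2.const_mul θ)).div ((tendsto_const_nhds).sub (h3.const_mul θ)) hden
  have hclamp : Continuous clampOne := by unfold clampOne; fun_prop
  have h4 := (hclamp.tendsto _).comp hc
  unfold cavInf
  refine h4.congr' ?_
  have hae : ∀ᶠ R in atTop, a ∈ ball G y R ∧ b ∈ ball G y R := by
    filter_upwards [eventually_ge_atTop (G.dist y a + G.dist y b)] with R hR
    rw [hG.mem_ball, hG.mem_ball]; omega
  filter_upwards [hae] with R hR
  simp only [Function.comp]
  apply clampOne_eq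
  have hℓ := fun v => abs_fieldAt_lt_of (N := N) (j := j) hG hθ0 hθ (hG.isConvexSet_ball y R) (ball_nonempty hG y R) x s v
  change |cav G θ (fieldAt G θ (ball G y R) N x j s) (ball G y R) a b| ≤ 1
  rw [cav_eq_mag_side hG hθ0 hθ1 hℓ (hG.isConvexSet_ball y R) (ball_nonempty hG y R) hab hR.1 hR.2]
  exact abs_mag_le' hθ0 hθ1 hℓ _ _

/-- Convergence of the level sums. -/
theorem ae_tendsto_levMix_ball (y : V) (r : ℕ) : ∀ {a b : V}, G.Adj a b → ∀ᵐ x ∂(omP V),
    Tendsto (fun R => levMix G (slope G θ (fieldAt G θ (ball G y R) N x j s) (ball G y R))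
        (slope G θ (fieldAt G θ (ball G y R) N x j s) (ball G y R)) r a b) atTop
      (𝓝 (levMix G (fun a b => bInf G θ N j s a b x) (fun a b => bInf G θ N j s a b x) r a b)) := by
  have hθ1 := theta_lt_one_of hG hθ0 hθ
  induction r with
  | zero => intro a b _; exact ae_of_all _ fun x => by simpa [levMix] using tendsto_const_nhds
  | succ r ih =>
    intro a b hab
    have h1 : ∀ᵐ x ∂(omP V), ∀ z ∈ ch G a b,
        Tendsto (fun R => cav G θ (fieldAt G θ (ball G y R) N x j s) (ball G y R) b z) atTop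
          (𝓝 (cavInf G θ N j s b z x)) := by
      refine (eventually_all_finset _).mpr fun z hz => ?_
      exact ae_tendsto_cav_ball hG hθ0 hθ hN hs0 hs y (mem_ch.mp hz).1
    have h2 : ∀ᵐ x ∂(omP V), ∀ z ∈ ch G a b,
        Tendsto (fun R => levMix G (slope G θ (fieldAt G θ (ball G y R) N x j s) (ball G y R))
          (slope G θ (fieldAt G θ (ball G y R) N x j s) (ball G y R)) r b z) atTop
        (𝓝 (levMix G (fun a b => bInf G θ N j s a b x) (fun a b => bInf G θ N j s a b x) r b z)) := by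
      refine (eventually_all_finset _).mpr fun z hz => ?_
      exact ih (mem_ch.mp hz).1
    filter_upwards [h1, h2] with x hx1 hx2
    simp only [levMix]
    refine tendsto_finset_sum _ fun z hz => ?_
    have hb : Tendsto (fun R => slope G θ (fieldAt G θ (ball G y R) N x j s) (ball G y R) b z) atTop
        (𝓝 (bInf G θ N j s b z x)) := by
      unfold slope bInf bTheta
      have hc := hx1 z hz
      have hcl : |cavInf G θ N j s b z x| ≤ 1 := abs_cavInf_le (N := N) (j := j) hG hθ0 hθ s b z x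
      have hden : 1 - θ ^ 2 * cavInf G θ N j s b z x ^ 2 ≠ 0 := by
        have h3 : cavInf G θ N j s b z x ^ 2 ≤ 1 := (sq_le_one_iff_abs_le_one _).mpr hcl
        have h4 : θ ^ 2 < 1 := by nlinarith
        nlinarith [sq_nonneg θ]
      exact (((tendsto_const_nhds.sub (hc.pow 2)).const_mul θ)).div
        (tendsto_const_nhds.sub ((hc.pow 2).const_mul (θ ^ 2))) hden
    exact (hb.mul hb).mul (hx2 z hz)

end Limit

/-! ### Main theorem -/

theorem measurable_bpS_labels {E : Type*} [MeasurableSpace E] {θ : ℝ} {a b : E → ℝ} (ha : Measurable a) (hb : Measurable b)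
    (r : ℕ) : ∀ (R : ℕ) (p y : V), Measurable fun x : V → E => bpS G θ (fun v => a (x v)) (fun v => b (x v)) r R p y := by
  induction r with
  | zero => intro R p y; simp only [bpS]; exact measurable_const
  | succ r ih =>
    intro R p y
    cases R with
    | zero => simp only [bpS]; exact measurable_const
    | succ R =>
      simp only [bpS]
      refine Finset.measurable_sum _ fun z _ => ?_
      refine Measurable.mul ?_ (ih R y z)
      have h1 : Measurable fun x : V → E => bpNu G θ (fun v => a (x v)) (fun v => b (x v)) R y z := by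
        have := measurable_bp (G := G) (E := E) (θ := θ) ha hb R y z
        unfold bpNu
        exact (this.2).div (this.1)
      unfold bTheta
      fun_prop

theorem bpS_bound (hG : RegTree G D) {θ : ℝ} (hθ0 : 0 ≤ θ) (hθ : (D : ℝ) * θ ^ 2 < 1) {a b : V → ℝ}
    (ha : ∀ v, 0 < a v) (hb : ∀ v, 0 < b v) (r : ℕ) :
    ∀ (R : ℕ) {p y : V}, G.Adj p y → 0 ≤ bpS G θ a b r R p y ∧ bpS G θ a b r R p y ≤ 1 := by
  have hθ1 := theta_lt_one_of hG hθ0 hθ
  have habs : |θ| ≤ 1 := by rw [abs_of_nonneg hθ0]; exact hθ1.le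
  induction r with
  | zero => intro R p y _; simp [bpS]
  | succ r ih =>
    intro R p y hpy
    cases R with
    | zero => simp [bpS]
    | succ R =>
      simp only [bpS]
      have hb2 : ∀ z ∈ ch G p y, 0 ≤ bTheta θ (bpNu G θ a b R y z) ^ 2 * bpS G θ a b r R y z ∧
          bTheta θ (bpNu G θ a b R y z) ^ 2 * bpS G θ a b r R y z ≤ θ ^ 2 := by
        intro z hz
        have hyz : G.Adj y z := (mem_ch.mp hz).1
        obtain ⟨h0, h1⟩ := ih R hyz
        have hν : |bpNu G θ a b R y z| ≤ 1 := by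
          unfold bpNu
          have h2 := abs_bp_lt (G := G) habs ha hb R y z
          have h3 : 0 < (bpPair G θ a b R y z).1 := (abs_nonneg _).trans_lt h2
          rw [abs_div, abs_of_pos h3, div_le_one h3]
          exact h2.le
        have h4 := bTheta_nonneg_of_abs hθ0 hθ1 hν
        have h5 := bTheta_le_of_abs hθ0 hθ1 hν
        refine ⟨by positivity, ?_⟩
        calc _ ≤ θ ^ 2 * 1 := by gcongr
          _ = θ ^ 2 := mul_one _
      refine ⟨Finset.sum_nonneg fun z hz => (hb2 z hz).1, ?_⟩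
      calc _ ≤ ∑ _z ∈ ch G p y, θ ^ 2 := Finset.sum_le_sum fun z hz => (hb2 z hz).2
        _ = (D : ℝ) * θ ^ 2 := by
            rw [Finset.sum_const, hG.card_ch hpy, nsmul_eq_mul]
        _ ≤ 1 := hθ.le

theorem abs_bpNu_le {θ : ℝ} (hθ : |θ| ≤ 1) {a b : V → ℝ} (ha : ∀ v, 0 < a v) (hb : ∀ v, 0 < b v) (R : ℕ) (p y : V) :
    |bpNu G θ a b R p y| ≤ 1 := by
  unfold bpNu
  have h2 := abs_bp_lt (G := G) hθ ha hb R p y
  have h3 : 0 < (bpPair G θ a b R p y).1 := (abs_nonneg _).trans_lt h2
  rw [abs_div, abs_of_pos h3, div_le_one h3]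
  exact h2.le

theorem sideOf_ball_eq (hG : RegTree G D) {p y : V} (hpy : G.Adj p y) (R : ℕ) :
    sideOf G p y (ball G y R) = sub G R p y := by
  rw [hG.sub_eq_ball_filter hpy]; rfl

theorem sub_subset_ball (hG : RegTree G D) {p y : V} (hpy : G.Adj p y) (R : ℕ) : sub G R p y ⊆ ball G y R := by
  rw [hG.sub_eq_ball_filter hpy]; exact Finset.filter_subset _ _

/-- **(H2)** -/
theorem tendsto_EsR_law_proved (hG : RegTree G D) {θ : ℝ} (hθ0 : 0 ≤ θ) (hθ : (D : ℝ) * θ ^ 2 < 1) {N j : ℤ} (hN : N ≤ j)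
    {s : ℝ} (hs0 : 0 ≤ s) (hs : s ≤ 1 / 2) {p y : V} (hpy : G.Adj p y) (r₀ : ℕ)
    (Ψ : ℝ × (Fin r₀ → ℝ) → ℝ) (hΨ : Continuous Ψ) :
    Tendsto (fun R => EsR G (blockAt N j s) θ R p y (fun x =>
        Ψ (nuR G (blockAt N j s) θ R p y x, fun r => SR G (blockAt N j s) θ r R p y x))) atTop
      (𝓝 (∫ x, Ψ (cavInf G θ N j s p y x,
        fun r => levMix G (fun a b => bInf G θ N j s a b x) (fun a b => bInf G θ N j s a b x) r p y) ∂(omP V))) := by
  have hθ1 := theta_lt_one_of hG hθ0 hθ
  have hθabs : |θ| ≤ 1 := by rw [abs_of_nonneg hθ0]; exact hθ1.le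
  have hθle : (D : ℝ) * θ ^ 2 ≤ 1 := hθ.le
  -- the clamped test function
  set cl : ℝ × (Fin r₀ → ℝ) → ℝ × (Fin r₀ → ℝ) := fun q => (clampOne q.1, fun r => clampOne (q.2 r)) with hcl
  have hclampc : Continuous clampOne := by unfold clampOne; fun_prop
  have hclc : Continuous cl := by
    refine Continuous.prodMk (hclampc.comp continuous_fst) (continuous_pi fun r => ?_)
    exact hclampc.comp ((continuous_apply r).comp continuous_snd)
  set Ψt : ℝ × (Fin r₀ → ℝ) → ℝ := fun q => Ψ (cl q) with hΨt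
  have hΨtc : Continuous Ψt := hΨ.comp hclc
  obtain ⟨C, hC⟩ : ∃ C, ∀ q, |Ψt q| ≤ C := by
    have hK : IsCompact (Set.Icc ((-1 : ℝ), fun _ : Fin r₀ => (-1 : ℝ)) (1, fun _ => 1)) := isCompact_Icc
    obtain ⟨C, hC⟩ := hK.exists_bound_of_continuousOn hΨ.continuousOn
    refine ⟨C, fun q => ?_⟩
    have := hC (cl q) ?_
    · simpa [Real.norm_eq_abs] using this
    · have h1 := fun z => abs_le.mp (abs_clampOne_le z)
      refine ⟨⟨(h1 _).1, fun r => (h1 _).1⟩, ⟨(h1 _).2, fun r => (h1 _).2⟩⟩
  have hΨt_eq : ∀ q : ℝ × (Fin r₀ → ℝ), |q.1| ≤ 1 → (∀ r, |q.2 r| ≤ 1) → Ψt q = Ψ q := by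
    intro q h1 h2
    simp only [hΨt, hcl]
    congr 1
    refine Prod.ext (clampOne_eq h1) (funext fun r => clampOne_eq (h2 r))
  -- the functional of the field
  set F : ℕ → (V → ℝ) → ℝ := fun R ℓ => Ψt (bpNu G θ (fun v => 1 + ℓ v) (fun v => 1 - ℓ v) R p y,
    fun r : Fin r₀ => bpS G θ (fun v => 1 + ℓ v) (fun v => 1 - ℓ v) r R p y) with hF
  have hFm : ∀ R, Measurable (F R) := by
    intro R
    refine hΨtc.measurable.comp (Measurable.prodMk ?_ (measurable_pi_lambda _ fun r => ?_))
    · have := measurable_bp (G := G) (E := ℝ) (θ := θ) (a := fun t => 1 + t) (b := fun t => 1 - t)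
        (by fun_prop) (by fun_prop) R p y
      unfold bpNu
      exact (this.2).div (this.1)
    · exact measurable_bpS_field (r : ℕ) R p y
  -- Step 1: the static form
  have hstep1 : ∀ R, EsR G (blockAt N j s) θ R p y (fun x =>
      Ψ (nuR G (blockAt N j s) θ R p y x, fun r => SR G (blockAt N j s) θ r R p y x)) =
      ∫ x, F R (fieldAt G θ (ball G y R) N x j s) ∂(omP V) := by
    intro R
    have hWc := hG.isConvexSet_ball y R
    have hWne := ball_nonempty hG y R
    have hwp : (blockAt N j s).wp = wSite N j s 1 := funext (blockAt_wp N j s)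
    have hwm : (blockAt N j s).wm = wSite N j s (-1) := funext (blockAt_wm N j s)
    have hwpos : ∀ e, 0 < wSite N j s 1 e := fun e => by rw [← hwp]; exact (blockAt N j s).wp_pos e
    have hwmos : ∀ e, 0 < wSite N j s (-1) e := fun e => by rw [← hwm]; exact (blockAt N j s).wm_pos e
    have hmwp : Measurable (wSite N j s 1) := by rw [← hwp]; exact (blockAt N j s).meas_wp
    have hmwm : Measurable (wSite N j s (-1)) := by rw [← hwm]; exact (blockAt N j s).meas_wm
    have hFW : ∀ ℓ ℓ' : V → ℝ, (∀ v ∈ ball G y R, ℓ v = ℓ' v) → F R ℓ = F R ℓ' := by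
      intro ℓ ℓ' h
      have h' : ∀ v ∈ sub G R p y, 1 + ℓ v = 1 + ℓ' v ∧ 1 - ℓ v = 1 - ℓ' v := by
        intro v hv
        rw [h v (sub_subset_ball hG hpy R hv)]
        exact ⟨rfl, rfl⟩
      simp only [hF]
      unfold bpNu
      rw [bp_congr (θ := θ) hG hpy R h']
      congr 2
      funext r
      exact bpS_congr hG _ R hpy h'
    rw [integral_fieldAt_eq hG hθ0 hθ1 hWc hWne hN hs0 hs (hFm R) ⟨C, fun ℓ => hC _⟩ hFW]
    -- identify the functional of the static field
    set Gx : Om V → ℝ := fun x => Ψt (bpNu G θ (fun v => wSite N j s 1 (x v)) (fun v => wSite N j s (-1) (x v)) R p y,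
      fun r : Fin r₀ => bpS G θ (fun v => wSite N j s 1 (x v)) (fun v => wSite N j s (-1) (x v)) r R p y) with hGx
    have hFG : ∀ x : Om V, F R (fun v => (wSite N j s 1 (x v) - wSite N j s (-1) (x v)) /
        (wSite N j s 1 (x v) + wSite N j s (-1) (x v))) = Gx x := by
      intro x
      simp only [hF, hGx]
      rw [bpNu_eq_of_ratio hG hθ0 hθ1 (fun v => wSite N j s 1 (x v)) (fun v => wSite N j s (-1) (x v))
        (fun v => hwpos _) (fun v => hwmos _) hpy R]
      congr 2
      funext r
      exact (bpS_eq_of_ratio hG hθ0 hθ1 (fun v => wSite N j s 1 (x v)) (fun v => wSite N j s (-1) (x v))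
        (fun v => hwpos _) (fun v => hwmos _) r R hpy).symm
    simp_rw [hFG]
    have hGm : Measurable Gx := by
      refine hΨtc.measurable.comp (Measurable.prodMk ?_ (measurable_pi_lambda _ fun r => ?_))
      · have := measurable_bp (G := G) (E := Block) (θ := θ) hmwp hmwm R p y
        unfold bpNu
        exact (this.2).div (this.1)
      · exact measurable_bpS_labels hmwp hmwm (r : ℕ) R p y
    have hGT : ∀ x x' : Om V, (∀ v ∈ sub G R p y, x v = x' v) → Gx x = Gx x' := by
      intro x x' h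
      have h' : ∀ v ∈ sub G R p y, wSite N j s 1 (x v) = wSite N j s 1 (x' v) ∧
          wSite N j s (-1) (x v) = wSite N j s (-1) (x' v) := by
        intro v hv
        rw [h v hv]
        exact ⟨rfl, rfl⟩
      simp only [hGx]
      unfold bpNu
      rw [bp_congr (θ := θ) hG hpy R h']
      congr 2
      funext r
      exact bpS_congr hG _ R hpy h'
    rw [integral_pfW_marginal hG hθ0 hθ1 hWc hWne hN hs0 hs (hG.isConvexSet_sub hpy R) ⟨y, self_mem_sub _ _ _⟩
      (sub_subset_ball hG hpy R) hGm ⟨C, fun x => hC _⟩ hGT]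
    unfold EsR
    change _ = ∫ x, _ ∂(Measure.infinitePi fun _ : V => blockP)
    refine integral_congr_ae (ae_of_all _ fun x => ?_)
    simp only [nuR, SR, zR, hwp, hwm]
    rw [pfW_sub_eq_bp hG hθ0 hθ1 _ _ hpy R]
    congr 1
    simp only [hGx]
    refine (hΨt_eq _ ?_ ?_).symm
    · exact abs_bpNu_le hθabs (fun v => hwpos _) (fun v => hwmos _) R p y
    · intro r
      obtain ⟨h0, h1⟩ := bpS_bound (θ := θ) hG hθ0 hθ (a := fun v => wSite N j s 1 (x v))
        (b := fun v => wSite N j s (-1) (x v)) (fun v => hwpos _) (fun v => hwmos _) (r : ℕ) R hpy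
      rw [abs_of_nonneg h0]
      exact h1
  simp_rw [hstep1]
  -- Step 2: dominated convergence
  have hlimit : ∀ᵐ x ∂(omP V), Tendsto (fun R => F R (fieldAt G θ (ball G y R) N x j s)) atTop
      (𝓝 (Ψ (cavInf G θ N j s p y x,
        fun r => levMix G (fun a b => bInf G θ N j s a b x) (fun a b => bInf G θ N j s a b x) r p y))) := by
    have h2 : ∀ᵐ x ∂(omP V), ∀ r : Fin r₀, Tendsto (fun R => levMix G (slope G θ (fieldAt G θ (ball G y R) N x j s) (ball G y R))
        (slope G θ (fieldAt G θ (ball G y R) N x j s) (ball G y R)) r p y) atTop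
      (𝓝 (levMix G (fun a b => bInf G θ N j s a b x) (fun a b => bInf G θ N j s a b x) r p y)) := by
      rw [ae_all_iff]
      intro r
      exact ae_tendsto_levMix_ball hG hθ0 hθ hN hs0 hs y r hpy
    filter_upwards [ae_tendsto_cav_ball hG hθ0 hθ hN hs0 hs y hpy, h2] with x hx1 hx2
    have hb0 : ∀ a b, 0 ≤ bInf G θ N j s a b x := fun a b =>
      bTheta_nonneg_of_abs hθ0 hθ1 (abs_cavInf_le hG hθ0 hθ s a b x)
    have hb1 : ∀ a b, bInf G θ N j s a b x ≤ θ := fun a b =>
      bTheta_le_of_abs hθ0 hθ1 (abs_cavInf_le hG hθ0 hθ s a b x)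
    have hlim : Tendsto (fun R => Ψt (cav G θ (fieldAt G θ (ball G y R) N x j s) (ball G y R) p y,
        fun r : Fin r₀ => levMix G (slope G θ (fieldAt G θ (ball G y R) N x j s) (ball G y R))
          (slope G θ (fieldAt G θ (ball G y R) N x j s) (ball G y R)) r p y)) atTop
        (𝓝 (Ψt (cavInf G θ N j s p y x,
          fun r => levMix G (fun a b => bInf G θ N j s a b x) (fun a b => bInf G θ N j s a b x) r p y))) :=
      (hΨtc.tendsto _).comp (Tendsto.prodMk_nhds hx1 (tendsto_pi_nhds.mpr hx2))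
    rw [hΨt_eq] at hlim
    · refine hlim.congr' ?_
      filter_upwards [eventually_ge_atTop (r₀ + 1)] with R hR
      simp only [hF]
      have hℓ := fun v => abs_fieldAt_lt_of (N := N) (j := j) hG hθ0 hθ (hG.isConvexSet_ball y R) (ball_nonempty hG y R) x s v
      have hpW : p ∈ ball G y R := by
        rw [hG.mem_ball, SimpleGraph.dist_comm, SimpleGraph.dist_eq_one_iff_adj.mpr hpy]; omega
      have hyW : y ∈ ball G y R := by rw [hG.mem_ball]; simp
      congr 2
      · rw [cav_eq_mag_side hG hθ0 hθ1 hℓ (hG.isConvexSet_ball y R) (ball_nonempty hG y R) hpy hpW hyW,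
          sideOf_ball_eq hG hpy, mag_sub_eq_bpNu hG hθ0 hθ1 _ hℓ hpy R]
      · funext r
        exact (bpS_eq_levMix hG hθ0 hθ1 hℓ (hG.isConvexSet_ball y R) (r : ℕ) R hpy (sideOf_ball_eq hG hpy R)
          (by have := r.2; omega)).symm
    · exact abs_cavInf_le hG hθ0 hθ s p y x
    · intro r
      obtain ⟨h0, h1⟩ := levMix_le hG hθ0 hθ0 hb0 hb1 hb0 hb1 hpy (r : ℕ)
      rw [abs_of_nonneg h0]
      refine h1.trans (pow_le_one₀ ?_ ?_)
      · positivity
      · nlinarith
  refine tendsto_integral_of_dominated_convergence (fun _ => C) (fun R => ?_) (integrable_const _) (fun R => ?_) hlimit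
  · exact ((hFm R).comp (measurable_fieldAt_pi hG hθ0 hθ (hG.isConvexSet_ball y R) (ball_nonempty hG y R) hN s)).aestronglyMeasurable
  · exact ae_of_all _ fun x => hC _

alias tendsto_EsR_law := tendsto_EsR_law_proved

end Crest.Agent.Lib.IsingFIID
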