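/-
S0241 blueprint, Mod M-a (section 10): schedule facts and moment bounds in infinite volume.
Proved using the statements of Static, Dynamics, Strict as black boxes.
-/
import Crest.Agent.Lib.IsingFIID.Critical
import Crest.Agent.Lib.IsingFIID.StrictLaw

set_option autoImplicit false
universe u

namespace Crest.Agent.Lib.IsingFIID

open MeasureTheory Filter
open scoped Classical Topology

variable {V : Type u} {G : SimpleGraph V} [G.LocallyFinite] {D : ℕ}

section Schedule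

private lemma two_zpow_pos (i : ℤ) : (0 : ℝ) < (2 : ℝ) ^ i := zpow_pos (by norm_num) i

private lemma min_pos' (i : ℤ) : (0 : ℝ) < min 1 ((2 : ℝ) ^ i) := lt_min one_pos (two_zpow_pos i)

private lemma eps_sq' (i : ℤ) : eps i ^ 2 = min 1 ((2 : ℝ) ^ i) / 16 := by
  unfold eps
  rw [mul_pow, Real.sq_sqrt (min_pos' i).le]
  ring

private lemma eps_nonneg' (i : ℤ) : 0 ≤ eps i := by
  unfold eps
  positivity

private lemma sum_two_zpow_le (N j : ℤ) : ∑ i ∈ Finset.Ico N j, (2 : ℝ) ^ i ≤ (2 : ℝ) ^ j := by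
  rcases le_or_gt N j with h | h
  · induction j, h using Int.le_induction with
    | base => simp [(two_zpow_pos N).le]
    | succ j hj ih =>
      have hI : Finset.Ico N (j + 1) = insert j (Finset.Ico N j) := by
        ext i
        simp only [Finset.mem_Ico, Finset.mem_insert]
        omega
      rw [hI, Finset.sum_insert (by simp), zpow_add_one₀ (by norm_num)]
      linarith
  · rw [Finset.Ico_eq_empty (by omega)]
    simpa using (two_zpow_pos j).le

theorem timeT_ge_proved {N j : ℤ} (hNj : N < j) {s : ℝ} (hs : 0 ≤ s) :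
    min 1 ((2 : ℝ) ^ j) / 64 ≤ timeT N j s := by
  unfold timeT
  have hmem : j - 1 ∈ Finset.Ico N j := by
    simp only [Finset.mem_Ico]
    omega
  have h1 : eps (j - 1) ^ 2 / 2 ≤ ∑ i ∈ Finset.Ico N j, eps i ^ 2 / 2 :=
    Finset.single_le_sum (f := fun i => eps i ^ 2 / 2) (fun i _ => by positivity) hmem
  have h2 : 0 ≤ s * eps j ^ 2 := by positivity
  have h3 : min 1 ((2 : ℝ) ^ j) / 2 ≤ min 1 ((2 : ℝ) ^ (j - 1)) := by
    have hz : (2 : ℝ) ^ (j - 1) = (2 : ℝ) ^ j / 2 := by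
      rw [zpow_sub₀ (by norm_num)]
      simp
    rw [hz]
    apply le_min
    · have := min_le_left 1 ((2 : ℝ) ^ j)
      linarith
    · have := min_le_right 1 ((2 : ℝ) ^ j)
      linarith
  rw [eps_sq'] at h1
  linarith

theorem timeT_le_proved {N j : ℤ} (_hj : j ≤ 0) {s : ℝ} (hs : s ≤ 1 / 2) :
    timeT N j s ≤ (2 : ℝ) ^ j / 8 := by
  unfold timeT
  have hle : ∀ i : ℤ, eps i ^ 2 ≤ (2 : ℝ) ^ i / 16 := by
    intro i
    rw [eps_sq']
    have := min_le_right 1 ((2 : ℝ) ^ i)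
    linarith
  have h1 : ∑ i ∈ Finset.Ico N j, eps i ^ 2 / 2 ≤ ∑ i ∈ Finset.Ico N j, (2 : ℝ) ^ i / 32 :=
    Finset.sum_le_sum fun i _ => by
      have := hle i
      linarith
  have h2 : ∑ i ∈ Finset.Ico N j, (2 : ℝ) ^ i / 32 = (∑ i ∈ Finset.Ico N j, (2 : ℝ) ^ i) / 32 := by
    rw [Finset.sum_div]
  have h3 := sum_two_zpow_le N j
  have h4 : s * eps j ^ 2 ≤ (1 / 2) * eps j ^ 2 :=
    mul_le_mul_of_nonneg_right hs (sq_nonneg _)
  have h5 := hle j
  have h6 := two_zpow_pos j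
  rw [h2] at h1
  linarith

private lemma sqrt_two_zpow (i : ℤ) : Real.sqrt ((2 : ℝ) ^ i) = Real.sqrt 2 ^ i := by
  rw [Real.sqrt_eq_iff_mul_self_eq (two_zpow_pos i).le (zpow_pos (by positivity) i).le]
  rw [← mul_zpow, Real.mul_self_sqrt (by norm_num)]

private lemma sum_sqrt_zpow_le (N j : ℤ) :
    ∑ i ∈ Finset.Icc N j, Real.sqrt 2 ^ i ≤ 4 * Real.sqrt 2 ^ j := by
  have hr : (4 / 3 : ℝ) ≤ Real.sqrt 2 := by
    apply Real.le_sqrt_of_sq_le
    norm_num
  have hr0 : (0 : ℝ) < Real.sqrt 2 := by positivity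
  rcases le_or_gt N j with h | h
  · induction j, h using Int.le_induction with
    | base =>
      simp only [Finset.Icc_self, Finset.sum_singleton]
      have : 0 < Real.sqrt 2 ^ N := zpow_pos hr0 N
      linarith
    | succ j hj ih =>
      have hI : Finset.Icc N (j + 1) = insert (j + 1) (Finset.Icc N j) := by
        ext i
        simp only [Finset.mem_Icc, Finset.mem_insert]
        omega
      rw [hI, Finset.sum_insert (by simp), zpow_add_one₀ hr0.ne']
      have hp : 0 < Real.sqrt 2 ^ j := zpow_pos hr0 j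
      nlinarith
  · rw [Finset.Icc_eq_empty (by omega)]
    have : 0 < Real.sqrt 2 ^ j := zpow_pos hr0 j
    simp only [Finset.sum_empty]
    linarith

/-- field size: `a = 2 Σ_{N ≤ i ≤ j} ε_i ≤ 2 √(2^j)`, `j ≤ 0`. -/
theorem sum_eps_le_proved {N j : ℤ} (hj : j ≤ 0) :
    2 * ∑ i ∈ Finset.Icc N j, eps i ≤ 2 * Real.sqrt ((2 : ℝ) ^ j) := by
  have h1 : ∑ i ∈ Finset.Icc N j, eps i = (1 / 4) * ∑ i ∈ Finset.Icc N j, Real.sqrt 2 ^ i := by
    rw [Finset.mul_sum]
    refine Finset.sum_congr rfl fun i hi => ?_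
    have hij : i ≤ j := (Finset.mem_Icc.mp hi).2
    have hi0 : i ≤ 0 := hij.trans hj
    have h2 : (2 : ℝ) ^ i ≤ 1 := zpow_le_one_of_nonpos₀ (by norm_num) hi0
    unfold eps
    rw [min_eq_right h2, sqrt_two_zpow]
  rw [h1, sqrt_two_zpow]
  have := sum_sqrt_zpow_le N j
  linarith

/-- `𝔱 ≤ (Σ ε_i)²`. -/
theorem timeT_le_sq_sum {N j : ℤ} (hN : N ≤ j) {s : ℝ} (hs : s ≤ 1 / 2) :
    timeT N j s ≤ (∑ i ∈ Finset.Icc N j, eps i) ^ 2 := by
  unfold timeT
  set S := ∑ i ∈ Finset.Icc N j, eps i with hS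
  have hS0 : 0 ≤ S := Finset.sum_nonneg fun i _ => eps_nonneg' i
  have hI : Finset.Icc N j = insert j (Finset.Ico N j) := by
    ext i
    simp only [Finset.mem_Icc, Finset.mem_Ico, Finset.mem_insert]
    omega
  have hsq : ∑ i ∈ Finset.Icc N j, eps i ^ 2 ≤ S ^ 2 := by
    have : ∑ i ∈ Finset.Icc N j, eps i ^ 2 ≤ ∑ i ∈ Finset.Icc N j, eps i * S :=
      Finset.sum_le_sum fun i hi => by
        have h1 : eps i ≤ S := Finset.single_le_sum (f := eps) (fun k _ => eps_nonneg' k) hi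
        have h0 := eps_nonneg' i
        nlinarith
    rw [← Finset.sum_mul] at this
    nlinarith
  rw [hI, Finset.sum_insert (by simp)] at hsq
  have h2 : ∑ i ∈ Finset.Ico N j, eps i ^ 2 / 2 = (∑ i ∈ Finset.Ico N j, eps i ^ 2) / 2 := by
    rw [Finset.sum_div]
  rw [h2]
  have h4 : s * eps j ^ 2 ≤ (1 / 2) * eps j ^ 2 :=
    mul_le_mul_of_nonneg_right hs (sq_nonneg _)
  have h5 : 0 ≤ ∑ i ∈ Finset.Ico N j, eps i ^ 2 := Finset.sum_nonneg fun i _ => sq_nonneg _
  have h6 := sq_nonneg (eps j)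
  nlinarith

end Schedule

section Moments

/-- The damping rate of the block `(N,j,s)`, uniform in everything (`c₂` depends only on `D`). -/
theorem gamma_bound_proved (D : ℕ) : ∃ c₂ : ℝ, 0 < c₂ ∧ c₂ ≤ 1 ∧ ∀ {V : Type u} {G : SimpleGraph V} [G.LocallyFinite]
    (_ : RegTree G D) {θ : ℝ} (_ : 0 ≤ θ) (_ : (D : ℝ) * θ ^ 2 ≤ 1) {N j : ℤ} (_ : N < j) {s : ℝ} (_ : 0 ≤ s) (_ : s ≤ 1 / 2),
    Damped (G := G) (blockAt N j s) θ (c₂ * Real.sqrt (min 1 ((2 : ℝ) ^ j))) := by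
  obtain ⟨c, I₀, hc, hI₀, hz⟩ := damped_of_zeta.{u, 0} D
  set c₃ : ℝ := 1 - Real.exp (-I₀ / 6) with hc₃
  have hc₃0 : 0 < c₃ := by
    have : Real.exp (-I₀ / 6) < 1 := by
      rw [Real.exp_lt_one_iff]
      linarith
    rw [hc₃]
    linarith
  refine ⟨min (min (c / 62) c₃) 1, lt_min (lt_min (by positivity) hc₃0) one_pos, min_le_right _ _, ?_⟩
  intro V G _ hG θ hθ0 hθ N j hNj s hs0 hs
  set c₂ : ℝ := min (min (c / 62) c₃) 1 with hc₂
  have hc₂0 : 0 < c₂ := lt_min (lt_min (by positivity) hc₃0) one_pos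
  have hc₂1 : c₂ ≤ c / 62 := (min_le_left _ _).trans (min_le_left _ _)
  have hc₂3 : c₂ ≤ c₃ := (min_le_left _ _).trans (min_le_right _ _)
  set m : ℝ := min 1 ((2 : ℝ) ^ j) with hm
  have hm0 : 0 < m := lt_min one_pos (zpow_pos (by norm_num) j)
  have hm1 : m ≤ 1 := min_le_left _ _
  have hT := timeT_ge_proved hNj hs0
  rw [← hm] at hT
  obtain ⟨hζ, hkl⟩ := blockAt_zeta N j s hs0 hs
  rcases le_or_gt (timeT N j s) I₀ with hcase | hcase
  · -- small time: `damped_of_zeta` with `ζ = (γ/c)²`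
    set ζ : ℝ := (c₂ / c) ^ 2 * m with hζdef
    have hζ0 : 0 < ζ := by positivity
    have hcc : c₂ / c ≤ 1 / 62 := by
      rw [div_le_iff₀ hc]
      linarith
    have hcc0 : 0 < c₂ / c := by positivity
    have hζle : ζ ≤ timeT N j s / 60 := by
      have h1 : (c₂ / c) ^ 2 ≤ (1 / 62) ^ 2 := pow_le_pow_left₀ hcc0.le hcc 2
      have h2 : ζ ≤ (1 / 62) ^ 2 * m := mul_le_mul_of_nonneg_right h1 hm0.le
      nlinarith
    have hD : Damped (G := G) (blockAt N j s) θ (c * Real.sqrt ζ) :=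
      @hz V G _ hG Block _ blockP _ (blockAt N j s) θ ζ hθ0 hθ (hkl.trans hcase) hζ0 (hζle.trans hζ)
    have hγ : c * Real.sqrt ζ = c₂ * Real.sqrt m := by
      rw [hζdef, Real.sqrt_mul (sq_nonneg _), Real.sqrt_sq hcc0.le]
      field_simp
    rwa [hγ] at hD
  · -- large time: `damped_of_lam`
    have hγ0 : 0 < c₂ * Real.sqrt m := by positivity
    refine @damped_of_lam V G _ D Block _ blockP _ (blockAt N j s) θ hG hθ0 hθ (c₂ * Real.sqrt m) hγ0 ?_
    have hlam := blockAt_lam N j s hs0 hs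
    have h1 : Real.exp (-(timeT N j s) / 6) ≤ Real.exp (-I₀ / 6) := by
      apply Real.exp_le_exp.mpr
      linarith
    have h2 : Real.sqrt m ≤ 1 := by
      rw [Real.sqrt_le_left zero_le_one]
      simpa using hm1
    have h3 : c₂ * Real.sqrt m ≤ c₂ := by nlinarith
    linarith

variable (hG : RegTree G D) {θ : ℝ} (hθ0 : 0 ≤ θ) (hθ : (D : ℝ) * θ ^ 2 < 1)

include hG hθ0 hθ in
/-- (M-a) fourth moment of the cavity magnetisation, from `nu4_le`, `blockAt_zeta`. -/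
theorem integral_cav_four_le_proved {N j : ℤ} (hN : N ≤ j) {s : ℝ} (hs0 : 0 ≤ s) (hs : s ≤ 1 / 2) {p y : V} (hpy : G.Adj p y) :
    ∫ x, cavInf G θ N j s p y x ^ 4 ∂(omP V) ≤ 3 * timeT N j s := by
  have hlim := tendsto_EsR_law hG hθ0 hθ hN hs0 hs hpy 0 (fun z => z.1 ^ 4)
    (by fun_prop)
  refine le_of_tendsto' hlim fun R => ?_
  have h1 := nu4_le (blockAt N j s) hG hθ0 hθ.le hpy R
  have h2 := (blockAt_zeta N j s hs0 hs).2
  simp only
  linarith

/-- (M-a) moments of the cavity magnetisation, from `nu_moment`, `blockAt_log_bound`, `blockAt_zeta`, `tendsto_EsR_law`. -/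
theorem integral_cav_pow_le_proved (D q : ℕ) : ∃ C a₀ : ℝ, 0 < C ∧ 0 < a₀ ∧ ∀ {V : Type u} {G : SimpleGraph V} [G.LocallyFinite]
    (_ : RegTree G D) {θ : ℝ} (_ : 0 ≤ θ) (_ : (D : ℝ) * θ ^ 2 < 1) {N j : ℤ} (_ : N ≤ j) {s : ℝ} (_ : 0 ≤ s) (_ : s ≤ 1 / 2)
    {a : ℝ} (_ : 2 * ∑ i ∈ Finset.Icc N j, eps i ≤ a) (_ : a ≤ a₀) {p y : V} (_ : G.Adj p y),
    ∫ x, cavInf G θ N j s p y x ^ (2 * q) ∂(omP V) ≤ C * a ^ q := by
  obtain ⟨C, a₀, hC, ha₀, h⟩ := nu_moment.{u, 0} D q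
  refine ⟨C, a₀, hC, ha₀, ?_⟩
  intro V G _ hG θ hθ0 hθ N j hN s hs0 hs a ha haa₀ p y hpy
  have hS0 : 0 ≤ ∑ i ∈ Finset.Icc N j, eps i := Finset.sum_nonneg fun i _ => eps_nonneg' i
  have ha0 : 0 ≤ a := by linarith
  have hlim := tendsto_EsR_law hG hθ0 hθ hN hs0 hs hpy 0 (fun z => z.1 ^ (2 * q))
    (by fun_prop)
  refine le_of_tendsto' hlim fun R => ?_
  have hlog : ∀ e, |Real.log ((blockAt N j s).wp e / (blockAt N j s).wm e)| ≤ 2 * a := by
    intro e
    have := blockAt_log_bound N j s hN e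
    linarith
  have hkl : (blockAt N j s).kl ≤ a ^ 2 := by
    have h1 := (blockAt_zeta N j s hs0 hs).2
    have h2 := timeT_le_sq_sum hN hs
    have h3 : (∑ i ∈ Finset.Icc N j, eps i) ^ 2 ≤ a ^ 2 := by
      apply pow_le_pow_left₀ hS0
      linarith
    linarith
  exact h hG (blockAt N j s) hθ0 hθ.le ha0 haa₀ hlog hkl hpy R

/-- level sums are measurable (for measurable slopes). -/
private lemma measurable_levMix {b : V → V → Om V → ℝ} (hb : ∀ p y, Measurable (b p y)) (r : ℕ) (p y : V) :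
    Measurable fun x => levMix G (fun a c => b a c x) (fun a c => b a c x) r p y := by
  induction r generalizing p y with
  | zero => simp [levMix]
  | succ r ih =>
    simp only [levMix]
    exact Finset.measurable_sum _ fun z _ => ((hb y z).mul (hb y z)).mul (ih y z)

/-- (M-a) moments of `Q` in infinite volume, from `Q_moment`, `tendsto_EsR_law`, monotone convergence in `r₀`. -/
theorem integral_Q_pow_le_proved (D : ℕ) : ∃ C : ℝ, 1 ≤ C ∧ ∀ {V : Type u} {G : SimpleGraph V} [G.LocallyFinite]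
    (_ : RegTree G D) {θ : ℝ} (_ : 0 ≤ θ) (_ : (D : ℝ) * θ ^ 2 < 1) {N j : ℤ} (_ : N ≤ j) {s : ℝ} (_ : 0 ≤ s) (_ : s ≤ 1 / 2)
    {γ : ℝ} (_ : 0 < γ) (_ : γ ≤ 1) (_ : Damped (G := G) (blockAt N j s) θ γ) {p y : V} (_ : G.Adj p y) (q : ℕ) (_ : 1 ≤ q),
    ∫ x, Qmix G (fun a b => bInf G θ N j s a b x) (fun a b => bInf G θ N j s a b x) p y ^ q ∂(omP V) ≤
      (C * (1 / γ + Real.log (q + 1) + 1)) ^ q := by
  obtain ⟨C₀, hC₀, h⟩ := Q_moment.{u, 0} D
  refine ⟨max C₀ 1, le_max_right _ _, ?_⟩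
  intro V G _ hG θ hθ0 hθ N j hN s hs0 hs γ hγ0 hγ1 hdamp p y hpy q hq
  set K : ℝ := 1 / γ + Real.log (q + 1) + 1 with hK
  have hK0 : 0 < K := by
    have h1 : 0 ≤ Real.log ((q : ℝ) + 1) := Real.log_nonneg (by
      have : (0 : ℝ) ≤ q := Nat.cast_nonneg q
      linarith)
    have h2 : 0 < 1 / γ := by positivity
    rw [hK]
    linarith
  set st := stInf hG hθ0 hθ N j hN s with hst
  -- the partial sums
  set P : ℕ → Om V → ℝ := fun r₀ x =>
    ∑ r ∈ Finset.range r₀, levMix G (fun a b => bInf G θ N j s a b x) (fun a b => bInf G θ N j s a b x) r p y with hP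
  have hDθ : (D : ℝ) * θ * θ < 1 := by nlinarith
  have hb0 : ∀ x, ∀ a b, 0 ≤ bInf G θ N j s a b x := fun x a b => st.b_nonneg a b x
  have hb1 : ∀ x, ∀ a b, bInf G θ N j s a b x ≤ θ := fun x a b => st.b_le a b x
  have hmeasb : ∀ a b, Measurable (bInf G θ N j s a b) := fun a b => st.meas_b a b
  have hlev : ∀ x r, 0 ≤ levMix G (fun a b => bInf G θ N j s a b x) (fun a b => bInf G θ N j s a b x) r p y :=
    fun x r => (levMix_le hG hθ0 hθ0 (hb0 x) (hb1 x) (hb0 x) (hb1 x) hpy r).1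
  have hQ := fun x => Qmix_le hG hθ0 hθ0 hDθ (hb0 x) (hb1 x) (hb0 x) (hb1 x) hpy
  -- step 1: each partial sum satisfies the bound
  have hstep : ∀ r₀, ∫ x, P r₀ x ^ q ∂(omP V) ≤ (C₀ * K) ^ q := by
    intro r₀
    have hlim := tendsto_EsR_law hG hθ0 hθ hN hs0 hs hpy r₀
      (fun z => (∑ r : Fin r₀, z.2 r) ^ q) (by fun_prop)
    have hη : ∀ η : ℝ, 0 < η → ∫ x, P r₀ x ^ q ∂(omP V) ≤ (C₀ * K + η) ^ q := by
      intro η hη
      have hev := h hG (blockAt N j s) hθ0 hθ.le hγ0 hγ1 hdamp hpy q r₀ hq η hη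
      refine le_of_tendsto hlim (hev.mono fun R hR => ?_) |>.trans' (le_of_eq ?_)
      · simpa only [Finset.sum_range] using hR
      · simp only [hP, Finset.sum_range]
    have hcont : Tendsto (fun η : ℝ => (C₀ * K + η) ^ q) (𝓝[>] 0) (𝓝 ((C₀ * K + 0) ^ q)) := by
      have : Continuous fun η : ℝ => (C₀ * K + η) ^ q := by fun_prop
      exact (this.tendsto 0).mono_left nhdsWithin_le_nhds
    have := ge_of_tendsto hcont (eventually_mem_nhdsWithin.mono fun η hη' => hη η hη')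
    simpa using this
  -- step 2: dominated convergence
  have hmeasP : ∀ r₀, Measurable (P r₀) := fun r₀ =>
    Finset.measurable_sum _ fun r _ => measurable_levMix hmeasb r p y
  have hP0 : ∀ r₀ x, 0 ≤ P r₀ x := fun r₀ x => Finset.sum_nonneg fun r _ => hlev x r
  have hPle : ∀ r₀ x, P r₀ x ≤ Qmix G (fun a b => bInf G θ N j s a b x) (fun a b => bInf G θ N j s a b x) p y :=
    fun r₀ x => (hQ x).1.sum_le_tsum _ fun r _ => hlev x r
  set B : ℝ := 1 / (1 - (D : ℝ) * θ * θ) with hB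
  have hB0 : 0 < B := by
    rw [hB]
    exact one_div_pos.mpr (by linarith)
  have hlimit : Tendsto (fun r₀ => ∫ x, P r₀ x ^ q ∂(omP V)) atTop
      (𝓝 (∫ x, Qmix G (fun a b => bInf G θ N j s a b x) (fun a b => bInf G θ N j s a b x) p y ^ q ∂(omP V))) := by
    refine tendsto_integral_of_dominated_convergence (fun _ => B ^ q)
      (fun r₀ => ((hmeasP r₀).pow_const q).aestronglyMeasurable) (integrable_const _) ?_ ?_
    · intro r₀
      refine Eventually.of_forall fun x => ?_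
      rw [Real.norm_eq_abs, abs_of_nonneg (pow_nonneg (hP0 r₀ x) q)]
      exact pow_le_pow_left₀ (hP0 r₀ x) ((hPle r₀ x).trans (hQ x).2.2) q
    · refine Eventually.of_forall fun x => ?_
      have := ((hQ x).1.hasSum).tendsto_sum_nat
      exact this.pow q
  have hfin := le_of_tendsto' hlimit hstep
  refine hfin.trans ?_
  apply pow_le_pow_left₀ (by positivity)
  exact mul_le_mul_of_nonneg_right (le_max_left _ _) hK0.le

end Moments

alias timeT_ge := timeT_ge_proved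
alias timeT_le := timeT_le_proved
alias sum_eps_le := sum_eps_le_proved
alias gamma_bound := gamma_bound_proved
alias integral_Q_pow_le := integral_Q_pow_le_proved
alias integral_cav_pow_le := integral_cav_pow_le_proved
alias integral_cav_four_le := integral_cav_four_le_proved

end Crest.Agent.Lib.IsingFIID
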