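/-
S0241 Mod M-c: general integral lemmas + pointwise Lipschitz lemmas for `pair_T_le`.
-/
import Crest.Agent.Lib.IsingFIID.Critical

set_option autoImplicit false
universe u

namespace Crest.Agent.Lib.IsingFIID

open MeasureTheory Filter
open scoped Classical Topology

namespace PairT

section General

variable {Ω : Type*} [MeasurableSpace Ω] {μ : Measure Ω} [IsProbabilityMeasure μ]

/-- bounded measurable -/
def BMf (f : Ω → ℝ) : Prop := Measurable f ∧ ∃ C, ∀ x, |f x| ≤ C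

namespace BMf

variable {f g : Ω → ℝ}

theorem const (c : ℝ) : BMf (fun _ : Ω => c) := ⟨measurable_const, |c|, fun _ => le_rfl⟩

theorem add (hf : BMf f) (hg : BMf g) : BMf (fun x => f x + g x) := by
  obtain ⟨hfm, C, hC⟩ := hf
  obtain ⟨hgm, C', hC'⟩ := hg
  exact ⟨hfm.add hgm, C + C', fun x => (abs_add_le _ _).trans (add_le_add (hC x) (hC' x))⟩

theorem sub (hf : BMf f) (hg : BMf g) : BMf (fun x => f x - g x) := by
  obtain ⟨hfm, C, hC⟩ := hf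
  obtain ⟨hgm, C', hC'⟩ := hg
  exact ⟨hfm.sub hgm, C + C', fun x => (abs_sub _ _).trans (add_le_add (hC x) (hC' x))⟩

theorem mul (hf : BMf f) (hg : BMf g) : BMf (fun x => f x * g x) := by
  obtain ⟨hfm, C, hC⟩ := hf
  obtain ⟨hgm, C', hC'⟩ := hg
  refine ⟨hfm.mul hgm, C * C', fun x => ?_⟩
  rw [abs_mul]
  exact mul_le_mul (hC x) (hC' x) (abs_nonneg _) ((abs_nonneg _).trans (hC x))

theorem pow (hf : BMf f) (n : ℕ) : BMf (fun x => f x ^ n) := by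
  obtain ⟨hfm, C, hC⟩ := hf
  refine ⟨hfm.pow_const n, C ^ n, fun x => ?_⟩
  rw [abs_pow]
  exact pow_le_pow_left₀ (abs_nonneg _) (hC x) n

theorem integrable (hf : BMf f) : Integrable f μ := by
  obtain ⟨hfm, C, hC⟩ := hf
  exact Integrable.of_bound hfm.aestronglyMeasurable C (ae_of_all _ fun x => by
    simpa [Real.norm_eq_abs] using hC x)

theorem memLp (hf : BMf f) (p : ENNReal) : MemLp f p μ := by
  obtain ⟨hfm, C, hC⟩ := hf
  exact MemLp.of_bound hfm.aestronglyMeasurable C (ae_of_all _ fun x => by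
    simpa [Real.norm_eq_abs] using hC x)

end BMf

/-- Cauchy–Schwarz in the form we need. -/
theorem integral_mul_le_of_sq {F H : Ω → ℝ} (hF : BMf F) (hH : BMf H) (hF0 : ∀ x, 0 ≤ F x) (hH0 : ∀ x, 0 ≤ H x)
    {A B : ℝ} (hA : 0 ≤ A) (hB : 0 ≤ B) (hFA : ∫ x, F x ^ 2 ∂μ ≤ A ^ 2) (hHB : ∫ x, H x ^ 2 ∂μ ≤ B ^ 2) :
    ∫ x, F x * H x ∂μ ≤ A * B := by
  have h := integral_mul_le_Lp_mul_Lq_of_nonneg (μ := μ) (p := 2) (q := 2) Real.HolderConjugate.two_two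
    (f := F) (g := H) (ae_of_all _ hF0) (ae_of_all _ hH0) (hF.memLp _) (hH.memLp _)
  simp only [Real.rpow_two] at h
  refine h.trans (mul_le_mul ?_ ?_ ?_ hA)
  · calc (∫ x, F x ^ 2 ∂μ) ^ ((1 : ℝ) / 2) ≤ (A ^ 2) ^ ((1 : ℝ) / 2) :=
          Real.rpow_le_rpow (integral_nonneg fun x => sq_nonneg _) hFA (by norm_num)
      _ = A := by rw [← Real.sqrt_eq_rpow, Real.sqrt_sq hA]
  · calc (∫ x, H x ^ 2 ∂μ) ^ ((1 : ℝ) / 2) ≤ (B ^ 2) ^ ((1 : ℝ) / 2) :=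
          Real.rpow_le_rpow (integral_nonneg fun x => sq_nonneg _) hHB (by norm_num)
      _ = B := by rw [← Real.sqrt_eq_rpow, Real.sqrt_sq hB]
  · exact Real.rpow_nonneg (integral_nonneg fun x => sq_nonneg _) _

/-- Hölder, with the bounded factor handled by `f^p ≤ B^(p-1) f`. -/
theorem holder_core {f w : Ω → ℝ} (hf : BMf f) (hw : BMf w) (hf0 : ∀ x, 0 ≤ f x) {B : ℝ} (hB : 1 ≤ B)
    (hfb : ∀ x, f x ≤ B) (hw0 : ∀ x, 0 ≤ w x) {y₀ : ℕ} (hy : 2 ≤ y₀) {X M : ℝ} (hX : ∫ x, f x ∂μ ≤ X) (hM : 0 ≤ M)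
    (hwM : ∫ x, w x ^ y₀ ∂μ ≤ M ^ y₀) :
    ∫ x, f x * w x ∂μ ≤ B * (X ^ (1 - 1 / (y₀ : ℝ)) * M) := by
  have hy' : (1 : ℝ) < y₀ := by exact_mod_cast (by omega : 1 < y₀)
  have hy0 : (0 : ℝ) < y₀ := by linarith
  set q : ℝ := (y₀ : ℝ) with hq
  set p : ℝ := Real.conjExponent q with hp
  have hpq : p.HolderConjugate q := (Real.HolderConjugate.conjExponent hy').symm
  have hp1 : 1 < p := hpq.lt
  have hinv : 1 / p = 1 - 1 / q := by
    have := hpq.inv_add_inv_eq_one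
    rw [one_div, one_div]; linarith
  have h := integral_mul_le_Lp_mul_Lq_of_nonneg (μ := μ) hpq (f := f) (g := w)
    (ae_of_all _ hf0) (ae_of_all _ hw0) (hf.memLp _) (hw.memLp _)
  have hw' : (∫ x, w x ^ q ∂μ) ^ (1 / q) ≤ M := by
    have : ∀ x, w x ^ q = w x ^ y₀ := fun x => by rw [hq, Real.rpow_natCast]
    simp only [this]
    calc (∫ x, w x ^ y₀ ∂μ) ^ (1 / q) ≤ (M ^ y₀) ^ (1 / q) :=
          Real.rpow_le_rpow (integral_nonneg fun x => pow_nonneg (hw0 x) _) hwM (by positivity)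
      _ = M := by
          rw [hq, one_div, Real.pow_rpow_inv_natCast hM (by omega)]
  have hX0 : 0 ≤ X := (integral_nonneg hf0).trans hX
  have hfp : ∫ x, f x ^ p ∂μ ≤ B ^ (p - 1) * X := by
    have hint : Integrable (fun x => B ^ (p - 1) * f x) μ := (hf.integrable).const_mul _
    have hfpBM : Integrable (fun x => f x ^ p) μ := by
      have := (hf.memLp (μ := μ) (ENNReal.ofReal p)).integrable_norm_rpow (by
        simp [hpq.pos]) (by simp)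
      simpa [ENNReal.toReal_ofReal hpq.pos.le, Real.norm_eq_abs, abs_of_nonneg (hf0 _)] using this
    calc ∫ x, f x ^ p ∂μ ≤ ∫ x, B ^ (p - 1) * f x ∂μ := by
          refine integral_mono hfpBM hint fun x => ?_
          show f x ^ p ≤ B ^ (p - 1) * f x
          rcases (hf0 x).eq_or_lt with h0 | h0
          · rw [← h0, Real.zero_rpow (by linarith)]; simp
          · have : f x ^ p = f x ^ (p - 1) * f x := by
              rw [← Real.rpow_add_one h0.ne']; congr 1; ring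
            rw [this]
            exact mul_le_mul_of_nonneg_right
              (Real.rpow_le_rpow h0.le (hfb x) (by linarith)) h0.le
      _ = B ^ (p - 1) * ∫ x, f x ∂μ := by rw [integral_const_mul]
      _ ≤ B ^ (p - 1) * X := mul_le_mul_of_nonneg_left hX (by positivity)
  have hB0 : 0 < B := by linarith
  have hf' : (∫ x, f x ^ p ∂μ) ^ (1 / p) ≤ B * X ^ (1 - 1 / (y₀ : ℝ)) := by
    have hp0 : 0 < p := hpq.pos
    calc (∫ x, f x ^ p ∂μ) ^ (1 / p) ≤ (B ^ (p - 1) * X) ^ (1 / p) :=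
          Real.rpow_le_rpow (integral_nonneg fun x => Real.rpow_nonneg (hf0 x) _) hfp (by positivity)
      _ = (B ^ (p - 1)) ^ (1 / p) * X ^ (1 / p) := Real.mul_rpow (by positivity) hX0
      _ ≤ B * X ^ (1 - 1 / (y₀ : ℝ)) := by
          rw [hinv]
          refine mul_le_mul_of_nonneg_right ?_ (by positivity)
          rw [← Real.rpow_mul hB0.le]
          calc B ^ ((p - 1) * (1 - 1 / q)) ≤ B ^ (1 : ℝ) := by
                refine Real.rpow_le_rpow_of_exponent_le hB ?_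
                have : (p - 1) * (1 - 1 / q) = 1 / q := by
                  have h1 : (p - 1) * (1 / p) = 1 - 1 / p := by field_simp
                  rw [← hinv, h1, hinv]; ring
                rw [this]
                rw [div_le_one (by positivity)]; linarith
            _ = B := Real.rpow_one B
  calc ∫ x, f x * w x ∂μ ≤ (∫ x, f x ^ p ∂μ) ^ (1 / p) * (∫ x, w x ^ q ∂μ) ^ (1 / q) := h
    _ ≤ (B * X ^ (1 - 1 / (y₀ : ℝ))) * M := mul_le_mul hf' hw' (Real.rpow_nonneg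
        (integral_nonneg fun x => Real.rpow_nonneg (hw0 x) _) _) (by positivity)
    _ = B * (X ^ (1 - 1 / (y₀ : ℝ)) * M) := by ring


/-- Lowering the moment. -/
theorem moment_down {w : Ω → ℝ} (hw : BMf w) (hw0 : ∀ x, 0 ≤ w x) {K A : ℝ} (hK : 0 < K) {m n : ℕ}
    (hmn : m ≤ n) (h : ∫ x, w x ^ n ∂μ ≤ A * K ^ n) : ∫ x, w x ^ m ∂μ ≤ (1 + A) * K ^ m := by
  have hpt : ∀ x, w x ^ m * K ^ (n - m) ≤ K ^ n + w x ^ n := by
    intro x
    rcases le_total (w x) K with hle | hle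
    · have h1 : w x ^ m * K ^ (n - m) ≤ K ^ m * K ^ (n - m) :=
        mul_le_mul_of_nonneg_right (pow_le_pow_left₀ (hw0 x) hle m) (by positivity)
      have e : K ^ m * K ^ (n - m) = K ^ n := by rw [← pow_add]; congr 1; omega
      have := pow_nonneg (hw0 x) n
      linarith
    · have h1 : w x ^ m * K ^ (n - m) ≤ w x ^ m * w x ^ (n - m) :=
        mul_le_mul_of_nonneg_left (pow_le_pow_left₀ hK.le hle _) (pow_nonneg (hw0 x) _)
      have e : w x ^ m * w x ^ (n - m) = w x ^ n := by rw [← pow_add]; congr 1; omega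
      have := pow_pos hK n
      linarith
  have hint := integral_mono (μ := μ) ((hw.pow m).integrable.mul_const (K ^ (n - m)))
    (((BMf.const (K ^ n)).add (hw.pow n)).integrable) hpt
  rw [integral_mul_const, integral_add (integrable_const _) (hw.pow n).integrable] at hint
  simp only [integral_const, probReal_univ, smul_eq_mul, one_mul] at hint
  have hKpos : 0 < K ^ (n - m) := by positivity
  have e : K ^ n = K ^ m * K ^ (n - m) := by rw [← pow_add]; congr 1; omega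
  have h2 : (∫ x, w x ^ m ∂μ) * K ^ (n - m) ≤ ((1 + A) * K ^ m) * K ^ (n - m) := by
    calc (∫ x, w x ^ m ∂μ) * K ^ (n - m) ≤ K ^ n + ∫ x, w x ^ n ∂μ := hint
      _ ≤ K ^ n + A * K ^ n := by linarith
      _ = ((1 + A) * K ^ m) * K ^ (n - m) := by rw [e]; ring
  exact le_of_mul_le_mul_right h2 hKpos

theorem rpow_three_mul_le {X a : ℝ} (hX : 0 ≤ X) (ha0 : 0 ≤ a) (ha1 : a ≤ 1) : (3 * X) ^ a ≤ 3 * X ^ a := by
  rw [Real.mul_rpow (by norm_num) hX]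
  refine mul_le_mul_of_nonneg_right ?_ (Real.rpow_nonneg hX _)
  calc (3 : ℝ) ^ a ≤ 3 ^ (1 : ℝ) := Real.rpow_le_rpow_of_exponent_le (by norm_num) ha1
    _ = 3 := Real.rpow_one 3

theorem self_le_rpow {X a : ℝ} (hX : 0 ≤ X) (hX8 : X ≤ 8) (ha0 : 0 ≤ a) (ha1 : a ≤ 1) : X ≤ 8 * X ^ a := by
  rcases hX.eq_or_lt with h0 | h0
  · rw [← h0]; have : (0:ℝ) ≤ 0 ^ a := Real.rpow_nonneg le_rfl _
    linarith
  · have e : X = X ^ a * X ^ (1 - a) := by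
      rw [← Real.rpow_add h0]; simp
    have h1 : X ^ (1 - a) ≤ 8 := by
      calc X ^ (1 - a) ≤ 8 ^ (1 - a) := Real.rpow_le_rpow hX hX8 (by linarith)
        _ ≤ 8 ^ (1 : ℝ) := Real.rpow_le_rpow_of_exponent_le (by norm_num) (by linarith)
        _ = 8 := Real.rpow_one 8
    have h2 : 0 ≤ X ^ a := Real.rpow_nonneg hX _
    calc X = X ^ a * X ^ (1 - a) := e
      _ ≤ X ^ a * 8 := mul_le_mul_of_nonneg_left h1 h2
      _ = 8 * X ^ a := by ring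

/-- The main Hölder estimate, `ν² Q²` weight. -/
theorem holder_nu_Q {f ν Q : Ω → ℝ} (hf : BMf f) (hν : BMf ν) (hQ : BMf Q) (hf0 : ∀ x, 0 ≤ f x)
    (hfb : ∀ x, f x ≤ 12) (hQ0 : ∀ x, 0 ≤ Q x) {y₀ : ℕ} (hy : 2 ≤ y₀) {X Vb K : ℝ} (hX0 : 0 ≤ X)
    (hX : ∫ x, f x ∂μ ≤ 3 * X) (hVb : 0 ≤ Vb) (hK : 0 < K) (hνm : ∫ x, ν x ^ (4 * y₀) ∂μ ≤ Vb ^ (2 * y₀))
    (hQm : ∫ x, Q x ^ (4 * y₀) ∂μ ≤ 2 * K ^ (4 * y₀)) :
    ∫ x, f x * (ν x ^ 2 * Q x ^ 2) ∂μ ≤ 72 * (X ^ (1 - 1 / (y₀ : ℝ)) * (Vb * K ^ 2)) := by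
  have hy0 : (0 : ℝ) < y₀ := by exact_mod_cast (by omega : 0 < y₀)
  have hy1 : (1 : ℝ) ≤ y₀ := by exact_mod_cast (by omega : 1 ≤ y₀)
  have ha0 : 0 ≤ 1 - 1 / (y₀ : ℝ) := by
    rw [sub_nonneg, div_le_one hy0]; exact hy1
  have ha1 : 1 - 1 / (y₀ : ℝ) ≤ 1 := by
    have : 0 ≤ 1 / (y₀ : ℝ) := by positivity
    linarith
  have hw : BMf (fun x => ν x ^ 2 * Q x ^ 2) := (hν.pow 2).mul (hQ.pow 2)
  have hM : 0 ≤ 2 * (Vb * K ^ 2) := by positivity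
  have hmom : ∫ x, (ν x ^ 2 * Q x ^ 2) ^ y₀ ∂μ ≤ (2 * (Vb * K ^ 2)) ^ y₀ := by
    have h1 := integral_mul_le_of_sq (μ := μ) (hν.pow (2 * y₀)) (hQ.pow (2 * y₀))
      (fun x => by rw [pow_mul]; exact pow_nonneg (sq_nonneg _) _) (fun x => pow_nonneg (hQ0 x) _)
      (A := Vb ^ y₀) (B := (2 * K ^ 2) ^ y₀) (by positivity) (by positivity)
      (by
        have : ∀ x, (ν x ^ (2 * y₀)) ^ 2 = ν x ^ (4 * y₀) := fun x => by
          rw [← pow_mul]; congr 1; ring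
        simp only [this]
        refine hνm.trans (le_of_eq ?_)
        rw [← pow_mul]; congr 1; ring)
      (by
        have : ∀ x, (Q x ^ (2 * y₀)) ^ 2 = Q x ^ (4 * y₀) := fun x => by
          rw [← pow_mul]; congr 1; ring
        simp only [this]
        refine hQm.trans ?_
        have e : ((2 * K ^ 2) ^ y₀) ^ 2 = 2 ^ (2 * y₀) * K ^ (4 * y₀) := by
          rw [← pow_mul, mul_pow, ← pow_mul]
          congr 1
          · rw [mul_comm]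
          · congr 1; ring
        rw [e]
        refine mul_le_mul_of_nonneg_right ?_ (by positivity)
        calc (2 : ℝ) = 2 ^ 1 := by norm_num
          _ ≤ 2 ^ (2 * y₀) := pow_le_pow_right₀ (by norm_num) (by omega))
    have e1 : ∀ x, (ν x ^ 2 * Q x ^ 2) ^ y₀ = ν x ^ (2 * y₀) * Q x ^ (2 * y₀) := fun x => by
      rw [mul_pow, ← pow_mul, ← pow_mul]
    simp only [e1]
    refine h1.trans (le_of_eq ?_)
    rw [← mul_pow]; congr 1; ring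
  have h := holder_core (μ := μ) hf hw hf0 (B := 12) (by norm_num) hfb
    (fun x => by positivity) hy hX hM hmom
  refine h.trans ?_
  have h3 := rpow_three_mul_le hX0 ha0 ha1
  have h4 : 0 ≤ X ^ (1 - 1 / (y₀ : ℝ)) := Real.rpow_nonneg hX0 _
  calc 12 * ((3 * X) ^ (1 - 1 / (y₀ : ℝ)) * (2 * (Vb * K ^ 2)))
      ≤ 12 * ((3 * X ^ (1 - 1 / (y₀ : ℝ))) * (2 * (Vb * K ^ 2))) := by
        gcongr
    _ = 72 * (X ^ (1 - 1 / (y₀ : ℝ)) * (Vb * K ^ 2)) := by ring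

/-- Hölder, first power of `Q` -/
theorem holder_Q {f Q : Ω → ℝ} (hf : BMf f) (hQ : BMf Q) (hf0 : ∀ x, 0 ≤ f x)
    (hfb : ∀ x, f x ≤ 12) (hQ0 : ∀ x, 0 ≤ Q x) {y₀ : ℕ} (hy : 2 ≤ y₀) {X K : ℝ} (hX0 : 0 ≤ X)
    (hX : ∫ x, f x ∂μ ≤ 3 * X) (hK : 0 < K)
    (hQm : ∫ x, Q x ^ (4 * y₀) ∂μ ≤ 2 * K ^ (4 * y₀)) :
    ∫ x, f x * Q x ∂μ ≤ 108 * (X ^ (1 - 1 / (y₀ : ℝ)) * K) := by
  have hy0 : (0 : ℝ) < y₀ := by exact_mod_cast (by omega : 0 < y₀)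
  have hy1 : (1 : ℝ) ≤ y₀ := by exact_mod_cast (by omega : 1 ≤ y₀)
  have ha0 : 0 ≤ 1 - 1 / (y₀ : ℝ) := by
    rw [sub_nonneg, div_le_one hy0]; exact hy1
  have ha1 : 1 - 1 / (y₀ : ℝ) ≤ 1 := by
    have : 0 ≤ 1 / (y₀ : ℝ) := by positivity
    linarith
  have hM : 0 ≤ 3 * K := by positivity
  have hmom : ∫ x, Q x ^ y₀ ∂μ ≤ (3 * K) ^ y₀ := by
    have h1 := moment_down (μ := μ) hQ hQ0 hK (m := y₀) (n := 4 * y₀) (by omega) hQm
    refine h1.trans ?_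
    rw [mul_pow]
    refine mul_le_mul_of_nonneg_right ?_ (by positivity)
    calc (1 + 2 : ℝ) = 3 ^ 1 := by norm_num
      _ ≤ 3 ^ y₀ := pow_le_pow_right₀ (by norm_num) (by omega)
  have h := holder_core (μ := μ) hf hQ hf0 (B := 12) (by norm_num) hfb hQ0 hy hX hM hmom
  refine h.trans ?_
  have h3 := rpow_three_mul_le hX0 ha0 ha1
  have h4 : 0 ≤ X ^ (1 - 1 / (y₀ : ℝ)) := Real.rpow_nonneg hX0 _
  calc 12 * ((3 * X) ^ (1 - 1 / (y₀ : ℝ)) * (3 * K))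
      ≤ 12 * ((3 * X ^ (1 - 1 / (y₀ : ℝ))) * (3 * K)) := by
        gcongr
    _ = 108 * (X ^ (1 - 1 / (y₀ : ℝ)) * K) := by ring

/-- The abstract bound of the `Δb² Q̄²` term. -/
theorem I1_bound {E ν ν' d1 d2 d3 Q1 Q2 : Ω → ℝ} (hE : BMf E) (hν : BMf ν) (hν' : BMf ν')
    (hd1 : BMf d1) (hd2 : BMf d2) (hd3 : BMf d3) (hQ1 : BMf Q1) (hQ2 : BMf Q2)
    (hd10 : ∀ x, |d1 x| ≤ 2) (hd20 : ∀ x, |d2 x| ≤ 2) (hd30 : ∀ x, |d3 x| ≤ 2)
    (hQ10 : ∀ x, 0 ≤ Q1 x) (hQ20 : ∀ x, 0 ≤ Q2 x) {y₀ : ℕ} (hy : 2 ≤ y₀) {X Vb K Cb δ : ℝ} (hX0 : 0 ≤ X)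
    (hCb : 0 ≤ Cb)
    (hX1 : ∫ x, d1 x ^ 2 ∂μ ≤ X) (hX2 : ∫ x, d2 x ^ 2 ∂μ ≤ X) (hX3 : ∫ x, d3 x ^ 2 ∂μ ≤ X) (hVb : 0 ≤ Vb) (hK : 0 < K)
    (hνm : ∫ x, ν x ^ (4 * y₀) ∂μ ≤ Vb ^ (2 * y₀)) (hνm' : ∫ x, ν' x ^ (4 * y₀) ∂μ ≤ Vb ^ (2 * y₀))
    (hQm1 : ∫ x, Q1 x ^ (4 * y₀) ∂μ ≤ 2 * K ^ (4 * y₀)) (hQm2 : ∫ x, Q2 x ^ (4 * y₀) ∂μ ≤ 2 * K ^ (4 * y₀))
    (hEb : ∀ x, E x ^ 2 ≤ Cb * ((ν x ^ 2 + ν' x ^ 2) * (d1 x ^ 2 + d2 x ^ 2 + d3 x ^ 2) + δ ^ 2)) :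
    ∫ x, E x ^ 2 * (Q1 x ^ 2 + Q2 x ^ 2) ∂μ ≤
      Cb * (288 * (X ^ (1 - 1 / (y₀ : ℝ)) * (Vb * K ^ 2)) + 6 * (δ ^ 2 * K ^ 2)) := by
  set f : Ω → ℝ := fun x => d1 x ^ 2 + d2 x ^ 2 + d3 x ^ 2 with hfdef
  have hf : BMf f := ((hd1.pow 2).add (hd2.pow 2)).add (hd3.pow 2)
  have hf0 : ∀ x, 0 ≤ f x := fun x => by simp only [hfdef]; positivity
  have sq4 : ∀ {z : ℝ}, |z| ≤ 2 → z ^ 2 ≤ 4 := fun {z} hz => by
    have := abs_le.1 hz; nlinarith [this.1, this.2]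
  have hfb : ∀ x, f x ≤ 12 := fun x => by
    simp only [hfdef]; linarith [sq4 (hd10 x), sq4 (hd20 x), sq4 (hd30 x)]
  have hfX : ∫ x, f x ∂μ ≤ 3 * X := by
    simp only [hfdef]
    rw [integral_add ((hd1.pow 2).add (hd2.pow 2)).integrable (hd3.pow 2).integrable,
      integral_add (hd1.pow 2).integrable (hd2.pow 2).integrable]
    linarith
  have t1 := holder_nu_Q (μ := μ) hf hν hQ1 hf0 hfb hQ10 hy hX0 hfX hVb hK hνm hQm1
  have t2 := holder_nu_Q (μ := μ) hf hν hQ2 hf0 hfb hQ20 hy hX0 hfX hVb hK hνm hQm2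
  have t3 := holder_nu_Q (μ := μ) hf hν' hQ1 hf0 hfb hQ10 hy hX0 hfX hVb hK hνm' hQm1
  have t4 := holder_nu_Q (μ := μ) hf hν' hQ2 hf0 hfb hQ20 hy hX0 hfX hVb hK hνm' hQm2
  have q1 : ∫ x, Q1 x ^ 2 ∂μ ≤ 3 * K ^ 2 := by
    have := moment_down (μ := μ) hQ1 hQ10 hK (m := 2) (n := 4 * y₀) (by omega) hQm1
    linarith
  have q2 : ∫ x, Q2 x ^ 2 ∂μ ≤ 3 * K ^ 2 := by
    have := moment_down (μ := μ) hQ2 hQ20 hK (m := 2) (n := 4 * y₀) (by omega) hQm2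
    linarith
  have i1 := (hf.mul ((hν.pow 2).mul (hQ1.pow 2))).integrable (μ := μ)
  have i2 := (hf.mul ((hν.pow 2).mul (hQ2.pow 2))).integrable (μ := μ)
  have i3 := (hf.mul ((hν'.pow 2).mul (hQ1.pow 2))).integrable (μ := μ)
  have i4 := (hf.mul ((hν'.pow 2).mul (hQ2.pow 2))).integrable (μ := μ)
  have i5 := (hQ1.pow 2).integrable (μ := μ)
  have i6 := (hQ2.pow 2).integrable (μ := μ)
  have hsum : ∫ x, (f x * (ν x ^ 2 * Q1 x ^ 2) + f x * (ν x ^ 2 * Q2 x ^ 2) + f x * (ν' x ^ 2 * Q1 x ^ 2)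
      + f x * (ν' x ^ 2 * Q2 x ^ 2) + δ ^ 2 * Q1 x ^ 2 + δ ^ 2 * Q2 x ^ 2) ∂μ =
      (∫ x, f x * (ν x ^ 2 * Q1 x ^ 2) ∂μ) + (∫ x, f x * (ν x ^ 2 * Q2 x ^ 2) ∂μ) +
      (∫ x, f x * (ν' x ^ 2 * Q1 x ^ 2) ∂μ) + (∫ x, f x * (ν' x ^ 2 * Q2 x ^ 2) ∂μ) +
      δ ^ 2 * (∫ x, Q1 x ^ 2 ∂μ) + δ ^ 2 * (∫ x, Q2 x ^ 2 ∂μ) := by
    have j2 : Integrable (fun x => f x * (ν x ^ 2 * Q1 x ^ 2) + f x * (ν x ^ 2 * Q2 x ^ 2)) μ := i1.add i2
    have j3 : Integrable (fun x => f x * (ν x ^ 2 * Q1 x ^ 2) + f x * (ν x ^ 2 * Q2 x ^ 2) + f x * (ν' x ^ 2 * Q1 x ^ 2)) μ := j2.add i3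
    have j4 : Integrable (fun x => f x * (ν x ^ 2 * Q1 x ^ 2) + f x * (ν x ^ 2 * Q2 x ^ 2) + f x * (ν' x ^ 2 * Q1 x ^ 2) + f x * (ν' x ^ 2 * Q2 x ^ 2)) μ := j3.add i4
    have j5 : Integrable (fun x => f x * (ν x ^ 2 * Q1 x ^ 2) + f x * (ν x ^ 2 * Q2 x ^ 2) + f x * (ν' x ^ 2 * Q1 x ^ 2) + f x * (ν' x ^ 2 * Q2 x ^ 2) + δ ^ 2 * Q1 x ^ 2) μ := j4.add (i5.const_mul _)
    rw [integral_add j5 (i6.const_mul _), integral_add j4 (i5.const_mul _),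
      integral_add j3 i4, integral_add j2 i3, integral_add i1 i2,
      integral_const_mul, integral_const_mul]
  have hmono : ∫ x, E x ^ 2 * (Q1 x ^ 2 + Q2 x ^ 2) ∂μ ≤
      ∫ x, Cb * (f x * (ν x ^ 2 * Q1 x ^ 2) + f x * (ν x ^ 2 * Q2 x ^ 2) + f x * (ν' x ^ 2 * Q1 x ^ 2)
      + f x * (ν' x ^ 2 * Q2 x ^ 2) + δ ^ 2 * Q1 x ^ 2 + δ ^ 2 * Q2 x ^ 2) ∂μ := by
    refine integral_mono ((hE.pow 2).mul ((hQ1.pow 2).add (hQ2.pow 2))).integrable ?_ fun x => ?_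
    · exact ((((((i1.add i2).add i3).add i4).add (i5.const_mul _)).add (i6.const_mul _))).const_mul _
    · show E x ^ 2 * (Q1 x ^ 2 + Q2 x ^ 2) ≤ Cb * (f x * (ν x ^ 2 * Q1 x ^ 2) + f x * (ν x ^ 2 * Q2 x ^ 2) + f x * (ν' x ^ 2 * Q1 x ^ 2)
        + f x * (ν' x ^ 2 * Q2 x ^ 2) + δ ^ 2 * Q1 x ^ 2 + δ ^ 2 * Q2 x ^ 2)
      have h1 := mul_le_mul_of_nonneg_right (hEb x) (add_nonneg (sq_nonneg (Q1 x)) (sq_nonneg (Q2 x)))
      refine h1.trans (le_of_eq ?_)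
      simp only [hfdef]; ring
  refine hmono.trans ?_
  rw [integral_const_mul, hsum]
  refine mul_le_mul_of_nonneg_left ?_ hCb
  have hδ : 0 ≤ δ ^ 2 := sq_nonneg _
  have q1' := mul_le_mul_of_nonneg_left q1 hδ
  have q2' := mul_le_mul_of_nonneg_left q2 hδ
  nlinarith [t1, t2, t3, t4, q1', q2']


/-- The abstract bound of the vertex term. -/
theorem I2_bound {ι : Type*} {f H : Ω → ℝ} {S : Finset ι} {Q : ι → Ω → ℝ} (hf : BMf f) (hH : BMf H) (hf0 : ∀ x, 0 ≤ f x)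
    (hfb : ∀ x, f x ≤ 12) (hQ : ∀ i ∈ S, BMf (Q i)) (hQ0 : ∀ i ∈ S, ∀ x, 0 ≤ Q i x) {y₀ : ℕ} (hy : 2 ≤ y₀)
    {X K : ℝ} (hX0 : 0 ≤ X) (hX8 : X ≤ 8) (hX : ∫ x, f x ∂μ ≤ 3 * X) (hK : 1 ≤ K)
    (hQm : ∀ i ∈ S, ∫ x, Q i x ^ (4 * y₀) ∂μ ≤ 2 * K ^ (4 * y₀))
    (hHb : ∀ x, H x ≤ 2 + ∑ i ∈ S, Q i x) :
    ∫ x, f x * H x ∂μ ≤ (48 + S.card * 108) * (X ^ (1 - 1 / (y₀ : ℝ)) * K) := by
  have hy0 : (0 : ℝ) < y₀ := by exact_mod_cast (by omega : 0 < y₀)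
  have hy1 : (1 : ℝ) ≤ y₀ := by exact_mod_cast (by omega : 1 ≤ y₀)
  have ha0 : 0 ≤ 1 - 1 / (y₀ : ℝ) := by
    rw [sub_nonneg, div_le_one hy0]; exact hy1
  have ha1 : 1 - 1 / (y₀ : ℝ) ≤ 1 := by
    have : 0 ≤ 1 / (y₀ : ℝ) := by positivity
    linarith
  have hK0 : 0 < K := by linarith
  have hi : ∀ i ∈ S, Integrable (fun x => f x * Q i x) μ := fun i hi => (hf.mul (hQ i hi)).integrable
  have hmono : ∫ x, f x * H x ∂μ ≤ ∫ x, (2 * f x + ∑ i ∈ S, f x * Q i x) ∂μ := by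
    refine integral_mono (hf.mul hH).integrable ?_ fun x => ?_
    · exact (hf.integrable.const_mul 2).add (integrable_finsetSum _ hi)
    · show f x * H x ≤ 2 * f x + ∑ i ∈ S, f x * Q i x
      have := mul_le_mul_of_nonneg_left (hHb x) (hf0 x)
      rw [mul_add, Finset.mul_sum] at this
      linarith
  refine hmono.trans ?_
  rw [integral_add (hf.integrable.const_mul 2) (integrable_finsetSum _ hi), integral_const_mul,
    integral_finsetSum _ hi]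
  have h1 : ∑ i ∈ S, ∫ x, f x * Q i x ∂μ ≤ ∑ _i ∈ S, 108 * (X ^ (1 - 1 / (y₀ : ℝ)) * K) := by
    refine Finset.sum_le_sum fun i hi => ?_
    exact holder_Q hf (hQ i hi) hf0 hfb (hQ0 i hi) hy hX0 hX hK0 (hQm i hi)
  rw [Finset.sum_const, nsmul_eq_mul] at h1
  have h2 := self_le_rpow hX0 hX8 ha0 ha1
  have h3 : 0 ≤ X ^ (1 - 1 / (y₀ : ℝ)) := Real.rpow_nonneg hX0 _
  have h4 : X ^ (1 - 1 / (y₀ : ℝ)) ≤ X ^ (1 - 1 / (y₀ : ℝ)) * K := le_mul_of_one_le_right h3 hK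
  nlinarith

/-- Moments of the average of two functions. -/
theorem moment_avg {Q Q' : Ω → ℝ} (hQ : BMf Q) (hQ' : BMf Q') (hQ0 : ∀ x, 0 ≤ Q x) (hQ0' : ∀ x, 0 ≤ Q' x)
    {n : ℕ} {A : ℝ} (h : ∫ x, Q x ^ n ∂μ ≤ A) (h' : ∫ x, Q' x ^ n ∂μ ≤ A) :
    ∫ x, ((Q x + Q' x) / 2) ^ n ∂μ ≤ 2 * A := by
  have hpt : ∀ x, ((Q x + Q' x) / 2) ^ n ≤ Q x ^ n + Q' x ^ n := by
    intro x
    have h0 := hQ0 x
    have h0' := hQ0' x
    rcases le_total (Q x) (Q' x) with hle | hle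
    · have h1 : ((Q x + Q' x) / 2) ^ n ≤ Q' x ^ n :=
        pow_le_pow_left₀ (by positivity) (by linarith) n
      have := pow_nonneg h0 n
      linarith
    · have h1 : ((Q x + Q' x) / 2) ^ n ≤ Q x ^ n :=
        pow_le_pow_left₀ (by positivity) (by linarith) n
      have := pow_nonneg h0' n
      linarith
  have hb : BMf (fun x => (Q x + Q' x) / 2) := by
    have := (hQ.add hQ').mul (BMf.const (1 / 2 : ℝ))
    have e : (fun x => (Q x + Q' x) / 2) = fun x => (Q x + Q' x) * (1 / 2) := by ext x; ring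
    rw [e]; exact this
  have hm := integral_mono (μ := μ) (hb.pow n).integrable
    ((hQ.pow n).add (hQ'.pow n)).integrable hpt
  have e : ∫ x, (Q x ^ n + Q' x ^ n) ∂μ = (∫ x, Q x ^ n ∂μ) + ∫ x, Q' x ^ n ∂μ :=
    integral_add (hQ.pow n).integrable (hQ'.pow n).integrable
  linarith

end General

section Pointwise

variable {θ θ' my mp t my' mp' t' : ℝ}

theorem abs_cav_sub_le (h0 : 0 ≤ θ) (h1 : θ ≤ 3 / 4) (h0' : 0 ≤ θ') (h1' : θ' ≤ 3 / 4)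
    (hmy : |my| ≤ 1) (hmp : |mp| ≤ 1) (ht : |t| ≤ 1) (hmy' : |my'| ≤ 1) (hmp' : |mp'| ≤ 1) (ht' : |t'| ≤ 1) :
    |cavOf θ my mp t - cavOf θ' my' mp' t'| ≤ 32 * (|my - my'| + |mp - mp'| + |t - t'| + 2 * |θ - θ'|) := by
  have aux : ∀ {a u : ℝ}, 0 ≤ a → a ≤ 3 / 4 → |u| ≤ 1 → 1 / 4 ≤ 1 - a * u ∧ 1 - a * u ≤ 2 := by
    intro a u ha ha' hu
    have := abs_le.1 hu
    constructor <;> nlinarith [this.1, this.2]
  obtain ⟨hB1, hB2⟩ := aux h0 h1 ht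
  obtain ⟨hB1', hB2'⟩ := aux h0' h1' ht'
  have hB : 0 < 1 - θ * t := by linarith
  have hB' : 0 < 1 - θ' * t' := by linarith
  unfold cavOf
  set A := my - θ * mp with hA
  set A' := my' - θ' * mp' with hA'
  set B := 1 - θ * t with hBdef
  set B' := 1 - θ' * t' with hBdef'
  have e : A / B - A' / B' = ((A - A') * B' + A' * (B' - B)) / (B * B') := by
    field_simp; ring
  have hmp1 := abs_le.1 hmp'
  have hmy1 := abs_le.1 hmy'
  have hA'2 : |A'| ≤ 2 := by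
    rw [abs_le]; constructor <;> simp only [hA'] <;> nlinarith
  have e1 : |A - A'| ≤ |my - my'| + |mp - mp'| + |θ - θ'| := by
    have e' : A - A' = (my - my') - θ * (mp - mp') - (θ - θ') * mp' := by simp only [hA, hA']; ring
    rw [e']
    have s1 : |θ * (mp - mp')| ≤ |mp - mp'| := by
      rw [abs_mul, abs_of_nonneg h0]
      exact mul_le_of_le_one_left (abs_nonneg _) (by linarith)
    have s2 : |(θ - θ') * mp'| ≤ |θ - θ'| := by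
      rw [abs_mul]
      exact mul_le_of_le_one_right (abs_nonneg _) hmp'
    calc |my - my' - θ * (mp - mp') - (θ - θ') * mp'| ≤ |my - my' - θ * (mp - mp')| + |(θ - θ') * mp'| := abs_sub _ _
      _ ≤ |my - my'| + |θ * (mp - mp')| + |(θ - θ') * mp'| := by
          gcongr; exact abs_sub _ _
      _ ≤ _ := by linarith
  have e2 : |B' - B| ≤ |t - t'| + |θ - θ'| := by
    have e' : B' - B = θ * (t - t') + (θ - θ') * t' := by simp only [hBdef, hBdef']; ring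
    rw [e']
    have s1 : |θ * (t - t')| ≤ |t - t'| := by
      rw [abs_mul, abs_of_nonneg h0]
      exact mul_le_of_le_one_left (abs_nonneg _) (by linarith)
    have s2 : |(θ - θ') * t'| ≤ |θ - θ'| := by
      rw [abs_mul]
      exact mul_le_of_le_one_right (abs_nonneg _) ht'
    exact (abs_add_le _ _).trans (add_le_add s1 s2)
  rw [e, abs_div, abs_of_pos (mul_pos hB hB')]
  have hden : 1 / 16 ≤ B * B' := by nlinarith
  have hnum : |(A - A') * B' + A' * (B' - B)| ≤ 2 * (|my - my'| + |mp - mp'| + |t - t'| + 2 * |θ - θ'|) := by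
    have s1 : |(A - A') * B'| ≤ |A - A'| * 2 := by
      rw [abs_mul, abs_of_pos hB']; exact mul_le_mul_of_nonneg_left hB2' (abs_nonneg _)
    have s2 : |A' * (B' - B)| ≤ 2 * |B' - B| := by
      rw [abs_mul]; exact mul_le_mul_of_nonneg_right hA'2 (abs_nonneg _)
    have := abs_add_le ((A - A') * B') (A' * (B' - B))
    linarith
  rw [div_le_iff₀ (mul_pos hB hB')]
  have hnn : 0 ≤ |my - my'| + |mp - mp'| + |t - t'| + 2 * |θ - θ'| := by positivity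
  nlinarith

theorem sq_cav_sub_le (h0 : 0 ≤ θ) (h1 : θ ≤ 3 / 4) (h0' : 0 ≤ θ') (h1' : θ' ≤ 3 / 4)
    (hmy : |my| ≤ 1) (hmp : |mp| ≤ 1) (ht : |t| ≤ 1) (hmy' : |my'| ≤ 1) (hmp' : |mp'| ≤ 1) (ht' : |t'| ≤ 1) :
    (clampOne (cavOf θ my mp t) - clampOne (cavOf θ' my' mp' t')) ^ 2 ≤
      10240 * ((my - my') ^ 2 + (mp - mp') ^ 2 + (t - t') ^ 2 + (θ - θ') ^ 2) := by
  have h := (abs_clampOne_sub_le (cavOf θ my mp t) (cavOf θ' my' mp' t')).trans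
    (abs_cav_sub_le h0 h1 h0' h1' hmy hmp ht hmy' hmp' ht')
  have hsq : (clampOne (cavOf θ my mp t) - clampOne (cavOf θ' my' mp' t')) ^ 2 ≤
      (32 * (|my - my'| + |mp - mp'| + |t - t'| + 2 * |θ - θ'|)) ^ 2 := by
    rw [← sq_abs]
    exact pow_le_pow_left₀ (abs_nonneg _) h 2
  refine hsq.trans ?_
  have a1 := sq_abs (my - my')
  have a2 := sq_abs (mp - mp')
  have a3 := sq_abs (t - t')
  have a4 := sq_abs (θ - θ')
  set a := |my - my'|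
  set b := |mp - mp'|
  set c := |t - t'|
  set d := |θ - θ'|
  rw [← a1, ← a2, ← a3, ← a4]
  nlinarith [sq_nonneg (a - b), sq_nonneg (a - c), sq_nonneg (a - d), sq_nonneg (b - c), sq_nonneg (b - d),
    sq_nonneg (c - d), sq_nonneg a, sq_nonneg b, sq_nonneg c, sq_nonneg d]

theorem sq_bTheta_sub_le {x x' : ℝ} (h0 : 0 ≤ θ) (h1 : θ ^ 2 ≤ 1 / 2) (h0' : 0 ≤ θ') (h1' : θ' ^ 2 ≤ 1 / 2)
    (hx : |x| ≤ 1) (hx' : |x'| ≤ 1) :
    (bTheta θ x - bTheta θ' x') ^ 2 ≤ 16 * ((x ^ 2 + x' ^ 2) * (x - x') ^ 2) + 128 * (θ - θ') ^ 2 := by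
  have hv : x ^ 2 ≤ 1 := by
    rw [← sq_abs]; exact pow_le_one₀ (abs_nonneg _) hx
  have hv' : x' ^ 2 ≤ 1 := by
    rw [← sq_abs]; exact pow_le_one₀ (abs_nonneg _) hx'
  have hv0 : 0 ≤ x ^ 2 := sq_nonneg _
  have hv0' : 0 ≤ x' ^ 2 := sq_nonneg _
  have hθ1 : θ ≤ 1 := by nlinarith
  have hθ1' : θ' ≤ 1 := by nlinarith
  set v := x ^ 2 with hvdef
  set v' := x' ^ 2 with hvdef'
  have hd : 1 - θ ^ 2 ≤ 1 - θ ^ 2 * v := by nlinarith [sq_nonneg θ]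
  have hd' : 1 - θ ^ 2 ≤ 1 - θ ^ 2 * v' := by nlinarith [sq_nonneg θ]
  have hd'' : 1 - θ' ^ 2 ≤ 1 - θ' ^ 2 * v' := by nlinarith [sq_nonneg θ']
  have hdp : 0 < 1 - θ ^ 2 * v := by linarith
  have hdp' : 0 < 1 - θ ^ 2 * v' := by linarith
  have hdp'' : 0 < 1 - θ' ^ 2 * v' := by linarith
  have t1 : bTheta θ x - bTheta θ x' = θ * (1 - θ ^ 2) * (v' - v) / ((1 - θ ^ 2 * v) * (1 - θ ^ 2 * v')) := by
    unfold bTheta
    rw [← hvdef, ← hvdef']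
    field_simp; ring
  have t2 : bTheta θ x' - bTheta θ' x' = (1 - v') * (θ - θ') * (1 + θ * θ' * v') / ((1 - θ ^ 2 * v') * (1 - θ' ^ 2 * v')) := by
    unfold bTheta
    rw [← hvdef']
    have n1 := hdp'.ne'
    have n2 := hdp''.ne'
    rw [div_sub_div _ _ n1 n2]
    congr 1
    ring
  have b1 : |bTheta θ x - bTheta θ x'| ≤ 2 * |v - v'| := by
    rw [t1, abs_div, abs_of_pos (mul_pos hdp hdp'), div_le_iff₀ (mul_pos hdp hdp'), abs_mul, abs_mul,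
      abs_of_nonneg h0, abs_of_nonneg (by linarith : 0 ≤ 1 - θ ^ 2), abs_sub_comm v' v]
    have : θ * (1 - θ ^ 2) ≤ 2 * ((1 - θ ^ 2 * v) * (1 - θ ^ 2 * v')) := by
      have s1 : θ * (1 - θ ^ 2) ≤ 1 - θ ^ 2 := by nlinarith
      have s2 : (1 - θ ^ 2) * (1 / 2) ≤ (1 - θ ^ 2 * v) * (1 - θ ^ 2 * v') := by
        apply mul_le_mul hd (by linarith) (by norm_num) hdp.le
      linarith
    have hn := abs_nonneg (v - v')
    nlinarith
  have b2 : |bTheta θ x' - bTheta θ' x'| ≤ 8 * |θ - θ'| := by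
    rw [t2, abs_div, abs_of_pos (mul_pos hdp' hdp''), div_le_iff₀ (mul_pos hdp' hdp''), abs_mul, abs_mul,
      abs_of_nonneg (by linarith : 0 ≤ 1 - v')]
    have q0 : 0 ≤ θ * θ' * v' := by positivity
    have q1 : θ * θ' * v' ≤ 1 := by
      have : θ * θ' ≤ 1 := mul_le_one₀ hθ1 h0' hθ1'
      calc θ * θ' * v' ≤ 1 * 1 := mul_le_mul this hv' hv0' (by norm_num)
        _ = 1 := by norm_num
    rw [abs_of_nonneg (by linarith : 0 ≤ 1 + θ * θ' * v')]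
    have s2 : (1 / 2) * (1 / 2) ≤ (1 - θ ^ 2 * v') * (1 - θ' ^ 2 * v') := by
      apply mul_le_mul (by linarith) (by linarith) (by norm_num) hdp'.le
    have hn := abs_nonneg (θ - θ')
    have s3 : (1 - v') * |θ - θ'| * (1 + θ * θ' * v') ≤ 1 * |θ - θ'| * 2 := by
      apply mul_le_mul _ (by linarith) (by linarith) (by positivity)
      exact mul_le_mul_of_nonneg_right (by linarith) hn
    nlinarith
  have hdiff : bTheta θ x - bTheta θ' x' = (bTheta θ x - bTheta θ x') + (bTheta θ x' - bTheta θ' x') := by ring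
  have h2 : (bTheta θ x - bTheta θ' x') ^ 2 ≤ 2 * (2 * |v - v'|) ^ 2 + 2 * (8 * |θ - θ'|) ^ 2 := by
    rw [hdiff]
    have p1 : (bTheta θ x - bTheta θ x') ^ 2 ≤ (2 * |v - v'|) ^ 2 := by
      rw [← sq_abs (bTheta θ x - bTheta θ x')]; exact pow_le_pow_left₀ (abs_nonneg _) b1 2
    have p2 : (bTheta θ x' - bTheta θ' x') ^ 2 ≤ (8 * |θ - θ'|) ^ 2 := by
      rw [← sq_abs (bTheta θ x' - bTheta θ' x')]; exact pow_le_pow_left₀ (abs_nonneg _) b2 2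
    nlinarith [sq_nonneg ((bTheta θ x - bTheta θ x') - (bTheta θ x' - bTheta θ' x'))]
  refine h2.trans ?_
  have e1 : (2 * |v - v'|) ^ 2 = 4 * (v - v') ^ 2 := by rw [mul_pow, sq_abs]; norm_num
  have e2 : (8 * |θ - θ'|) ^ 2 = 64 * (θ - θ') ^ 2 := by rw [mul_pow, sq_abs]; norm_num
  rw [e1, e2]
  have e3 : (v - v') ^ 2 = (x + x') ^ 2 * (x - x') ^ 2 := by simp only [hvdef, hvdef']; ring
  rw [e3]
  have e4 : (x + x') ^ 2 ≤ 2 * (v + v') := by simp only [hvdef, hvdef']; nlinarith [sq_nonneg (x - x')]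
  have e5 := mul_le_mul_of_nonneg_right e4 (sq_nonneg (x - x'))
  nlinarith

end Pointwise

end PairT

end Crest.Agent.Lib.IsingFIID
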