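/-
S0241 Mod M-c: `pair_T_le` (two-system bound + Hölder).
Uses the statements of Strict.lean and TwoSystem.lean as black boxes.
-/
import Crest.Agent.Lib.IsingFIID.CriticalPairTAux

set_option autoImplicit false
universe u

namespace Crest.Agent.Lib.IsingFIID

open MeasureTheory Filter
open scoped Classical Topology

namespace PairT

section Sum
variable {Ω : Type*} [MeasurableSpace Ω]

theorem BMf.sum {ι : Type*} {S : Finset ι} {f : ι → Ω → ℝ} (h : ∀ i ∈ S, BMf (f i)) :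
    BMf (fun x => ∑ i ∈ S, f i x) := by
  classical
  induction S using Finset.induction_on with
  | empty => simpa using BMf.const (0 : ℝ)
  | insert a S ha ih =>
    have h1 : BMf (f a) := h a (Finset.mem_insert_self _ _)
    have h2 := ih fun i hi => h i (Finset.mem_insert_of_mem hi)
    have := h1.add h2
    simpa [Finset.sum_insert ha] using this

end Sum

section FS

variable {V : Type u} {G : SimpleGraph V} [G.LocallyFinite] {D : ℕ}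
variable {E : Type*} [MeasurableSpace E] {θ θ' : ℝ}

theorem measurable_levMix (st : FState G E θ) (st' : FState G E θ') (r : ℕ) (p y : V) :
    Measurable fun x => levMix G (fun a b => st.b a b x) (fun a b => st'.b a b x) r p y := by
  induction r generalizing p y with
  | zero => simp [levMix]
  | succ r ih =>
    simp only [levMix]
    exact Finset.measurable_sum _ fun z _ => ((st.meas_b y z).mul (st'.meas_b y z)).mul (ih y z)

theorem Q_facts (hG : RegTree G D) (hθ0 : 0 ≤ θ) (hθ : (D : ℝ) * θ ^ 2 < 1) (st : FState G E θ)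
    {p y : V} (hpy : G.Adj p y) : BMf (st.Q p y) ∧ ∀ x, 1 ≤ st.Q p y x := by
  have hθθ : (D : ℝ) * θ * θ < 1 := by nlinarith
  have key := fun x => Qmix_le hG (b := fun a b => st.b a b x) (b' := fun a b => st.b a b x) hθ0 hθ0 hθθ
    (fun a b => st.b_nonneg a b x) (fun a b => st.b_le a b x) (fun a b => st.b_nonneg a b x)
    (fun a b => st.b_le a b x) hpy
  refine ⟨⟨?_, 1 / (1 - (D : ℝ) * θ * θ), fun x => ?_⟩, fun x => (key x).2.1⟩
  · refine measurable_of_tendsto_metrizable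
      (f := fun n x => ∑ r ∈ Finset.range n, levMix G (fun a b => st.b a b x) (fun a b => st.b a b x) r p y)
      (fun n => Finset.measurable_sum _ fun r _ => measurable_levMix st st r p y) ?_
    rw [tendsto_pi_nhds]
    intro x
    exact (key x).1.hasSum.tendsto_sum_nat
  · have h := key x
    have h1 : 1 ≤ st.Q p y x := h.2.1
    rw [abs_of_nonneg (by linarith)]
    exact h.2.2

theorem Qbar_facts (hG : RegTree G D) (hθ0 : 0 ≤ θ) (hθ : (D : ℝ) * θ ^ 2 < 1) (hθ0' : 0 ≤ θ')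
    (hθ' : (D : ℝ) * θ' ^ 2 < 1) (st : FState G E θ) (st' : FState G E θ')
    {p y : V} (hpy : G.Adj p y) : BMf (Qbar st st' p y) ∧ ∀ x, 0 ≤ Qbar st st' p y x := by
  obtain ⟨h1, h1'⟩ := Q_facts hG hθ0 hθ st hpy
  obtain ⟨h2, h2'⟩ := Q_facts hG hθ0' hθ' st' hpy
  refine ⟨?_, fun x => ?_⟩
  · have := (h1.add h2).mul (BMf.const (1 / 2 : ℝ))
    have e : Qbar st st' p y = fun x => (st.Q p y x + st'.Q p y x) * (1 / 2) := by
      ext x; unfold Qbar; ring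
    rw [e]; exact this
  · unfold Qbar
    linarith [h1' x, h2' x]

theorem QV_facts (hG : RegTree G D) (hθ0 : 0 ≤ θ) (hθ : (D : ℝ) * θ ^ 2 < 1) (st : FState G E θ) (v : V) :
    BMf (st.QV v) ∧ (∀ x, 0 ≤ st.QV v x) ∧ ∀ x, st.QV v x ≤ 1 + ∑ y ∈ G.neighborFinset v, st.Q v y x := by
  have hD : (2 : ℝ) ≤ D := by exact_mod_cast hG.two_le
  have hθ1 : θ ≤ 1 := by nlinarith
  refine ⟨?_, fun x => ?_, fun x => ?_⟩
  · have : BMf (fun x => 1 + ∑ y ∈ G.neighborFinset v, st.b v y x * st.b v y x * st.Q v y x) := by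
      refine (BMf.const 1).add (BMf.sum fun y hy => ?_)
      have hadj : G.Adj v y := by simpa using hy
      have hb : BMf (st.b v y) := ⟨st.meas_b v y, θ, fun x => by
        rw [abs_of_nonneg (st.b_nonneg v y x)]; exact st.b_le v y x⟩
      exact (hb.mul hb).mul (Q_facts hG hθ0 hθ st hadj).1
    exact this
  · show 0 ≤ 1 + ∑ y ∈ G.neighborFinset v, st.b v y x * st.b v y x * st.Q v y x
    have : 0 ≤ ∑ y ∈ G.neighborFinset v, st.b v y x * st.b v y x * st.Q v y x := by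
      refine Finset.sum_nonneg fun y hy => ?_
      have hadj : G.Adj v y := by simpa using hy
      have := (Q_facts hG hθ0 hθ st hadj).2 x
      have h2 := st.b_nonneg v y x
      positivity
    linarith
  · show 1 + ∑ y ∈ G.neighborFinset v, st.b v y x * st.b v y x * st.Q v y x ≤ 1 + ∑ y ∈ G.neighborFinset v, st.Q v y x
    have : ∑ y ∈ G.neighborFinset v, st.b v y x * st.b v y x * st.Q v y x ≤ ∑ y ∈ G.neighborFinset v, st.Q v y x := by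
      refine Finset.sum_le_sum fun y hy => ?_
      have hadj : G.Adj v y := by simpa using hy
      have h1 := (Q_facts hG hθ0 hθ st hadj).2 x
      have h2 := st.b_nonneg v y x
      have h3 := (st.b_le v y x).trans hθ1
      have h4 : st.b v y x * st.b v y x ≤ 1 := mul_le_one₀ h3 h2 h3
      exact mul_le_of_le_one_left (by linarith) h4
    linarith

end FS

section Aut

variable {V : Type u} {G : SimpleGraph V} [G.LocallyFinite]

theorem integral_comp_aut (g : G ≃g G) {F : Om V → ℝ} (hF : Measurable F) :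
    ∫ x, F (x ∘ g) ∂(omP V) = ∫ x, F x ∂(omP V) := by
  have hm : Measurable (fun x : V → Block => x ∘ g) :=
    measurable_pi_lambda _ fun v => measurable_pi_apply (g v)
  have h := map_comp_aut_infinitePi (G := G) (κ := blockP) g
  have e : ∫ x, F (x ∘ g) ∂(omP V) = ∫ y, F y ∂((omP V).map fun x : V → Block => x ∘ g) :=
    (integral_map hm.aemeasurable hF.aestronglyMeasurable).symm
  rw [e]
  unfold omP
  rw [h]

end Aut


section Main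

variable {V : Type u} {G : SimpleGraph V} [G.LocallyFinite] {D : ℕ}
variable (hG : RegTree G D) {θ θ' : ℝ} (hθ0 : 0 ≤ θ) (hθ : (D : ℝ) * θ ^ 2 < 1) (hθ0' : 0 ≤ θ')
  (hθ' : (D : ℝ) * θ' ^ 2 < 1) {N N' j : ℤ} (hN : N ≤ j) (hN' : N' ≤ j) {s : ℝ} (hs0 : 0 ≤ s) (hs : s ≤ 1 / 2)

omit [G.LocallyFinite] in
include hG in
theorem theta_sq_le (hθ : (D : ℝ) * θ ^ 2 < 1) : θ ^ 2 ≤ 1 / 2 := by
  have hD : (2 : ℝ) ≤ D := by exact_mod_cast hG.two_le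
  nlinarith [sq_nonneg θ]

include hG hθ0 hθ hN in
theorem bmf_mInf (s : ℝ) (u : V) : BMf (mInf G θ N j s u) :=
  ⟨measurable_mInf hG hθ0 hθ hN s u, 1, fun x => abs_mInf_le hG hθ0 hθ s u x⟩

include hG hθ0 hθ hN in
theorem bmf_tInf (s : ℝ) (a b : V) : BMf (tInf G θ N j s a b) :=
  ⟨measurable_tInf hG hθ0 hθ hN s a b, 1, fun x => abs_tInf_le hG hθ0 hθ s a b x⟩

include hG hθ0 hθ hN in
theorem bmf_cavInf (s : ℝ) (a b : V) : BMf (cavInf G θ N j s a b) := by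
  refine ⟨?_, 1, fun x => abs_cavInf_le hG hθ0 hθ s a b x⟩
  have hy := measurable_mInf hG hθ0 hθ hN s b
  have hp := measurable_mInf hG hθ0 hθ hN s a
  have ht := measurable_tInf hG hθ0 hθ hN s a b
  unfold cavInf clampOne cavOf
  exact measurable_const.max (measurable_const.min
    ((hy.sub (hp.const_mul θ)).div (measurable_const.sub (ht.const_mul θ))))

include hG hθ0 hθ hθ0' hθ' in
/-- The pointwise bound on `Δb`. -/
theorem sq_bInf_sub_le (a b : V) (x : Om V) :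
    (bInf G θ N j s a b x - bInf G θ' N' j s a b x) ^ 2 ≤
      400000 * ((cavInf G θ N j s a b x ^ 2 + cavInf G θ' N' j s a b x ^ 2) *
        ((mInf G θ N j s b x - mInf G θ' N' j s b x) ^ 2 + (mInf G θ N j s a x - mInf G θ' N' j s a x) ^ 2 +
          (tInf G θ N j s a b x - tInf G θ' N' j s a b x) ^ 2) + (θ - θ') ^ 2) := by
  have h1 := theta_sq_le hG hθ
  have h1' := theta_sq_le hG hθ'
  have h2 : θ ≤ 3 / 4 := by nlinarith
  have h2' : θ' ≤ 3 / 4 := by nlinarith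
  have hν := abs_cavInf_le (N := N) (j := j) hG hθ0 hθ s a b x
  have hν' := abs_cavInf_le (N := N') (j := j) hG hθ0' hθ' s a b x
  have hb := sq_bTheta_sub_le hθ0 h1 hθ0' h1' hν hν'
  have hc := sq_cav_sub_le hθ0 h2 hθ0' h2'
    (abs_mInf_le (N := N) (j := j) hG hθ0 hθ s b x) (abs_mInf_le (N := N) (j := j) hG hθ0 hθ s a x)
    (abs_tInf_le (N := N) (j := j) hG hθ0 hθ s a b x)
    (abs_mInf_le (N := N') (j := j) hG hθ0' hθ' s b x) (abs_mInf_le (N := N') (j := j) hG hθ0' hθ' s a x)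
    (abs_tInf_le (N := N') (j := j) hG hθ0' hθ' s a b x)
  show (bTheta θ (cavInf G θ N j s a b x) - bTheta θ' (cavInf G θ' N' j s a b x)) ^ 2 ≤ _
  refine hb.trans ?_
  have hc' : (cavInf G θ N j s a b x - cavInf G θ' N' j s a b x) ^ 2 ≤ _ := hc
  set ν := cavInf G θ N j s a b x
  set ν' := cavInf G θ' N' j s a b x
  set F := (mInf G θ N j s b x - mInf G θ' N' j s b x) ^ 2 + (mInf G θ N j s a x - mInf G θ' N' j s a x) ^ 2 +
          (tInf G θ N j s a b x - tInf G θ' N' j s a b x) ^ 2 with hF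
  have hν2 : ν ^ 2 ≤ 1 := by
    rw [← sq_abs]; exact pow_le_one₀ (abs_nonneg _) hν
  have hν2' : ν' ^ 2 ≤ 1 := by
    rw [← sq_abs]; exact pow_le_one₀ (abs_nonneg _) hν'
  have hc2 : (ν - ν') ^ 2 ≤ 10240 * (F + (θ - θ') ^ 2) := hc'
  have hn : 0 ≤ ν ^ 2 + ν' ^ 2 := by positivity
  have h3 := mul_le_mul_of_nonneg_left hc2 hn
  have hδ : 0 ≤ (θ - θ') ^ 2 := sq_nonneg _
  have hF0 : 0 ≤ F := by simp only [hF]; positivity
  have h4 : 0 ≤ (ν ^ 2 + ν' ^ 2) * F := mul_nonneg hn hF0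
  have h5 : (ν ^ 2 + ν' ^ 2) * (θ - θ') ^ 2 ≤ 2 * (θ - θ') ^ 2 :=
    mul_le_mul_of_nonneg_right (by linarith) hδ
  nlinarith


include hG hθ0 hθ hθ0' hθ' hN hN' in
theorem integral_dm_eq (s : ℝ) (u v : V) :
    ∫ x, (mInf G θ N j s u x - mInf G θ' N' j s u x) ^ 2 ∂(omP V) =
      ∫ x, (mInf G θ N j s v x - mInf G θ' N' j s v x) ^ 2 ∂(omP V) := by
  obtain ⟨g, hg⟩ := hG.exists_aut_of_isNB (l := [v]) (l' := [u]) trivial trivial rfl
  have hgv : g v = u := by simpa using hg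
  have hF : Measurable (fun x : Om V => (mInf G θ N j s v x - mInf G θ' N' j s v x) ^ 2) :=
    ((measurable_mInf hG hθ0 hθ hN s v).sub (measurable_mInf hG hθ0' hθ' hN' s v)).pow_const 2
  have h := integral_comp_aut g hF
  simp only [mInf_comp_aut hG hθ0 hθ g, mInf_comp_aut hG hθ0' hθ' g, hgv] at h
  exact h

include hG hθ0 hθ hθ0' hθ' hN hN' in
theorem integral_dt_eq (s : ℝ) {a b p y : V} (hab : G.Adj a b) (hpy : G.Adj p y) :
    ∫ x, (tInf G θ N j s a b x - tInf G θ' N' j s a b x) ^ 2 ∂(omP V) =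
      ∫ x, (tInf G θ N j s p y x - tInf G θ' N' j s p y x) ^ 2 ∂(omP V) := by
  obtain ⟨g, hg⟩ := hG.exists_aut_of_isNB (l := [p, y]) (l' := [a, b]) hpy hab rfl
  have hgp : g p = a := by simp at hg; exact hg.1
  have hgy : g y = b := by simp at hg; exact hg.2
  have hF : Measurable (fun x : Om V => (tInf G θ N j s p y x - tInf G θ' N' j s p y x) ^ 2) :=
    ((measurable_tInf hG hθ0 hθ hN s p y).sub (measurable_tInf hG hθ0' hθ' hN' s p y)).pow_const 2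
  have h := integral_comp_aut g hF
  simp only [tInf_comp_aut hG hθ0 hθ g, tInf_comp_aut hG hθ0' hθ' g, hgp, hgy] at h
  exact h

theorem sub_abs_le_two {a b : ℝ} (ha : |a| ≤ 1) (hb : |b| ≤ 1) : |a - b| ≤ 2 :=
  (abs_sub _ _).trans (by linarith)

theorem sq_le_four {z : ℝ} (hz : |z| ≤ 2) : z ^ 2 ≤ 4 := by
  have := abs_le.1 hz; nlinarith [this.1, this.2]

include hG hθ0 hθ hθ0' hθ' hN hN' in
/-- the facts about `X` -/
theorem X_facts (s : ℝ) {p y : V} (hpy : G.Adj p y) :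
    0 ≤ Xpair G θ θ' N N' j s p y ∧ Xpair G θ θ' N N' j s p y ≤ 8 ∧
    (∀ u, ∫ x, (mInf G θ N j s u x - mInf G θ' N' j s u x) ^ 2 ∂(omP V) ≤ Xpair G θ θ' N N' j s p y) ∧
    (∀ {a b : V}, G.Adj a b →
      ∫ x, (tInf G θ N j s a b x - tInf G θ' N' j s a b x) ^ 2 ∂(omP V) ≤ Xpair G θ θ' N N' j s p y) := by
  have h1 : 0 ≤ ∫ x, (mInf G θ N j s p x - mInf G θ' N' j s p x) ^ 2 ∂(omP V) :=
    integral_nonneg fun x => sq_nonneg _
  have h2 : 0 ≤ ∫ x, (tInf G θ N j s p y x - tInf G θ' N' j s p y x) ^ 2 ∂(omP V) :=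
    integral_nonneg fun x => sq_nonneg _
  have hb1 : ∫ x, (mInf G θ N j s p x - mInf G θ' N' j s p x) ^ 2 ∂(omP V) ≤ 4 := by
    have hbm := ((bmf_mInf hG hθ0 hθ hN s p).sub (bmf_mInf hG hθ0' hθ' hN' s p)).pow 2
    calc _ ≤ ∫ _x, (4 : ℝ) ∂(omP V) := integral_mono hbm.integrable (integrable_const _) fun x =>
            sq_le_four (sub_abs_le_two (abs_mInf_le hG hθ0 hθ s p x) (abs_mInf_le hG hθ0' hθ' s p x))
      _ = 4 := by simp
  have hb2 : ∫ x, (tInf G θ N j s p y x - tInf G θ' N' j s p y x) ^ 2 ∂(omP V) ≤ 4 := by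
    have hbm := ((bmf_tInf hG hθ0 hθ hN s p y).sub (bmf_tInf hG hθ0' hθ' hN' s p y)).pow 2
    calc _ ≤ ∫ _x, (4 : ℝ) ∂(omP V) := integral_mono hbm.integrable (integrable_const _) fun x =>
            sq_le_four (sub_abs_le_two (abs_tInf_le hG hθ0 hθ s p y x) (abs_tInf_le hG hθ0' hθ' s p y x))
      _ = 4 := by simp
  unfold Xpair
  refine ⟨by linarith, by linarith, fun u => ?_, fun {a b} hab => ?_⟩
  · rw [integral_dm_eq hG hθ0 hθ hθ0' hθ' hN hN' s u p]; linarith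
  · rw [integral_dt_eq hG hθ0 hθ hθ0' hθ' hN hN' s hab hpy]; linarith

omit [G.LocallyFinite] in
theorem bmf_b {E : Type*} [MeasurableSpace E] {θ : ℝ} (_hθ0 : 0 ≤ θ) (st : FState G E θ) (a b : V) : BMf (st.b a b) :=
  ⟨st.meas_b a b, θ, fun x => by rw [abs_of_nonneg (st.b_nonneg a b x)]; exact st.b_le a b x⟩


end Main

section Estimates

variable {V : Type u} {G : SimpleGraph V} [G.LocallyFinite] {D : ℕ}
variable {E : Type*} [MeasurableSpace E] {μ : Measure (V → E)} [IsProbabilityMeasure μ]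

theorem Qbar_moment_gen (hG : RegTree G D) {θ θ' : ℝ} (hθ0 : 0 ≤ θ) (hθ : (D : ℝ) * θ ^ 2 < 1) (hθ0' : 0 ≤ θ')
    (hθ' : (D : ℝ) * θ' ^ 2 < 1) (st : FState G E θ) (st' : FState G E θ') {n : ℕ} {A : ℝ}
    (hQ : ∀ {p y : V}, G.Adj p y → ∫ x, st.Q p y x ^ n ∂μ ≤ A)
    (hQ' : ∀ {p y : V}, G.Adj p y → ∫ x, st'.Q p y x ^ n ∂μ ≤ A) {a b : V} (hab : G.Adj a b) :
    ∫ x, Qbar st st' a b x ^ n ∂μ ≤ 2 * A := by
  obtain ⟨h1, h1'⟩ := Q_facts hG hθ0 hθ st hab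
  obtain ⟨h2, h2'⟩ := Q_facts hG hθ0' hθ' st' hab
  exact moment_avg (Q := st.Q a b) (Q' := st'.Q a b) h1 h2 (fun x => by linarith [h1' x]) (fun x => by linarith [h2' x]) (hQ hab) (hQ' hab)

variable (hG : RegTree G D) {θ θ' : ℝ} (hθ0 : 0 ≤ θ) (hθ : (D : ℝ) * θ ^ 2 < 1) (hθ0' : 0 ≤ θ')
    (hθ' : (D : ℝ) * θ' ^ 2 < 1) (st : FState G E θ) (st' : FState G E θ')
    {y₀ : ℕ} (hy : 2 ≤ y₀) {K Vb X : ℝ} (hK : 1 ≤ K) (hVb : 0 ≤ Vb) (hX0 : 0 ≤ X) (hX8 : X ≤ 8)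
    (hQ : ∀ {p y : V}, G.Adj p y → ∫ x, st.Q p y x ^ (4 * y₀) ∂μ ≤ K ^ (4 * y₀))
    (hQ' : ∀ {p y : V}, G.Adj p y → ∫ x, st'.Q p y x ^ (4 * y₀) ∂μ ≤ K ^ (4 * y₀))

include hG hθ0 hθ hθ0' hθ' hy hK hVb hX0 hQ hQ' in
theorem I1_gen {a b : V} (hab : G.Adj a b) {ν ν' d1 d2 d3 : (V → E) → ℝ} (hν : BMf ν) (hν' : BMf ν')
    (hd1 : BMf d1) (hd2 : BMf d2) (hd3 : BMf d3)
    (hd10 : ∀ x, |d1 x| ≤ 2) (hd20 : ∀ x, |d2 x| ≤ 2) (hd30 : ∀ x, |d3 x| ≤ 2)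
    (hX1 : ∫ x, d1 x ^ 2 ∂μ ≤ X) (hX2 : ∫ x, d2 x ^ 2 ∂μ ≤ X) (hX3 : ∫ x, d3 x ^ 2 ∂μ ≤ X)
    (hνm : ∫ x, ν x ^ (4 * y₀) ∂μ ≤ Vb ^ (2 * y₀)) (hνm' : ∫ x, ν' x ^ (4 * y₀) ∂μ ≤ Vb ^ (2 * y₀)) {δ : ℝ}
    (hEb : ∀ x, (st.b a b x - st'.b a b x) ^ 2 ≤
      400000 * ((ν x ^ 2 + ν' x ^ 2) * (d1 x ^ 2 + d2 x ^ 2 + d3 x ^ 2) + δ ^ 2)) :
    ∫ x, (st.b a b x - st'.b a b x) ^ 2 * (Qbar st st' a b x ^ 2 + Qbar st st' b a x ^ 2) ∂μ ≤
      400000 * (288 * (X ^ (1 - 1 / (y₀ : ℝ)) * (Vb * K ^ 2)) + 6 * (δ ^ 2 * K ^ 2)) := by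
  obtain ⟨hQ1, hQ10⟩ := Qbar_facts hG hθ0 hθ hθ0' hθ' st st' hab
  obtain ⟨hQ2, hQ20⟩ := Qbar_facts hG hθ0 hθ hθ0' hθ' st st' hab.symm
  exact I1_bound (E := fun x => st.b a b x - st'.b a b x) (ν := ν) (ν' := ν') (d1 := d1) (d2 := d2) (d3 := d3)
    ((bmf_b hθ0 st a b).sub (bmf_b hθ0' st' a b)) hν hν' hd1 hd2 hd3 hQ1 hQ2 hd10 hd20 hd30
    hQ10 hQ20 hy hX0 (by norm_num) hX1 hX2 hX3 hVb (by linarith) hνm hνm'
    (Qbar_moment_gen hG hθ0 hθ hθ0' hθ' st st' hQ hQ' hab)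
    (Qbar_moment_gen hG hθ0 hθ hθ0' hθ' st st' hQ hQ' hab.symm) hEb

include hG hθ0 hθ hθ0' hθ' hy hK hX0 hX8 hQ hQ' in
/-- The `c`-term. -/
theorem I2_gen (z : V) {dm : (V → E) → ℝ} (hdm : BMf dm) (hdm2 : ∀ x, |dm x| ≤ 2) (hXm : ∫ x, dm x ^ 2 ∂μ ≤ X)
    (hc : ∀ x, (st.c z x - st'.c z x) ^ 2 ≤ 4 * dm x ^ 2) :
    ∫ x, (st.c z x - st'.c z x) ^ 2 * (QbarV st st' z x + 1) ∂μ ≤
      4 * ((48 + ((D : ℝ) + 1) * 108) * (X ^ (1 - 1 / (y₀ : ℝ)) * K)) := by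
  have hf : BMf (fun x => dm x ^ 2) := hdm.pow 2
  obtain ⟨h1, h1', h1''⟩ := QV_facts hG hθ0 hθ st z
  obtain ⟨h2, h2', h2''⟩ := QV_facts hG hθ0' hθ' st' z
  have hH : BMf (fun x => QbarV st st' z x + 1) := by
    have := ((h1.add h2).mul (BMf.const (1 / 2 : ℝ))).add (BMf.const 1)
    have e : (fun x => QbarV st st' z x + 1) = fun x => (st.QV z x + st'.QV z x) * (1 / 2) + 1 := by
      ext x; unfold QbarV; ring
    rw [e]; exact this
  have hH0 : ∀ x, 0 ≤ QbarV st st' z x + 1 := fun x => by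
    unfold QbarV; linarith [h1' x, h2' x]
  have hc1 : BMf (st.c z) := ⟨st.meas_c z, 1, fun x => by
      rw [abs_of_nonneg (st.c_nonneg z x)]; exact st.c_le z x⟩
  have hc2 : BMf (st'.c z) := ⟨st'.meas_c z, 1, fun x => by
      rw [abs_of_nonneg (st'.c_nonneg z x)]; exact st'.c_le z x⟩
  have hcb : BMf (fun x => st.c z x - st'.c z x) := hc1.sub hc2
  have hmono : ∫ x, (st.c z x - st'.c z x) ^ 2 * (QbarV st st' z x + 1) ∂μ ≤
      ∫ x, 4 * (dm x ^ 2 * (QbarV st st' z x + 1)) ∂μ := by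
    refine integral_mono ((hcb.pow 2).mul hH).integrable ((hf.mul hH).integrable.const_mul 4) fun x => ?_
    show (st.c z x - st'.c z x) ^ 2 * (QbarV st st' z x + 1) ≤
      4 * (dm x ^ 2 * (QbarV st st' z x + 1))
    have := mul_le_mul_of_nonneg_right (hc x) (hH0 x)
    linarith
  refine hmono.trans ?_
  rw [integral_const_mul]
  refine mul_le_mul_of_nonneg_left ?_ (by norm_num)
  have hS := I2_bound (μ := μ) (S := G.neighborFinset z) (Q := fun y => Qbar st st' z y) hf hH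
    (fun x => sq_nonneg _)
    (fun x => (sq_le_four (hdm2 x)).trans (by norm_num))
    (fun y hy' => (Qbar_facts hG hθ0 hθ hθ0' hθ' st st' (by simpa using hy')).1)
    (fun y hy' => (Qbar_facts hG hθ0 hθ hθ0' hθ' st st' (by simpa using hy')).2)
    hy hX0 hX8 (by linarith) hK
    (fun y hy' => Qbar_moment_gen hG hθ0 hθ hθ0' hθ' st st' hQ hQ' (by simpa using hy'))
    (fun x => by
      have e : ∑ y ∈ G.neighborFinset z, Qbar st st' z y x =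
          (∑ y ∈ G.neighborFinset z, st.Q z y x + ∑ y ∈ G.neighborFinset z, st'.Q z y x) / 2 := by
        rw [← Finset.sum_add_distrib, Finset.sum_div]
        rfl
      rw [e]
      unfold QbarV
      linarith [h1'' x, h2'' x])
  rw [hG.card_neighbor z] at hS
  push_cast at hS
  exact hS

omit hθ0 hθ hX0 hX8 hQ in
include hG hθ0' hθ' hy hK hX0 hX8 hQ' in
/-- The weighted term. -/
theorem W_gen (z : V) {dm : (V → E) → ℝ} (hdm : BMf dm) (hdm2 : ∀ x, |dm x| ≤ 2) (hXm : ∫ x, dm x ^ 2 ∂μ ≤ X) :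
    ∫ x, dm x ^ 2 * (st'.c z x ^ 2 * st'.QV z x) ∂μ ≤
      (48 + ((D : ℝ) + 1) * 108) * (X ^ (1 - 1 / (y₀ : ℝ)) * K) := by
  have hf : BMf (fun x => dm x ^ 2) := hdm.pow 2
  obtain ⟨h2, h2', h2''⟩ := QV_facts hG hθ0' hθ' st' z
  have hcb : BMf (st'.c z) := ⟨st'.meas_c z, 1, fun x => by
      rw [abs_of_nonneg (st'.c_nonneg z x)]; exact st'.c_le z x⟩
  have hmono : ∫ x, dm x ^ 2 * (st'.c z x ^ 2 * st'.QV z x) ∂μ ≤ ∫ x, dm x ^ 2 * st'.QV z x ∂μ := by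
    refine integral_mono (hf.mul ((hcb.pow 2).mul h2)).integrable (hf.mul h2).integrable fun x => ?_
    show dm x ^ 2 * (st'.c z x ^ 2 * st'.QV z x) ≤ dm x ^ 2 * st'.QV z x
    refine mul_le_mul_of_nonneg_left ?_ (sq_nonneg _)
    have h3 : st'.c z x ^ 2 ≤ 1 := pow_le_one₀ (st'.c_nonneg z x) (st'.c_le z x)
    exact mul_le_of_le_one_left (h2' x) h3
  refine hmono.trans ?_
  have hS := I2_bound (μ := μ) (S := G.neighborFinset z) (Q := fun y => st'.Q z y) hf h2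
    (fun x => sq_nonneg _)
    (fun x => (sq_le_four (hdm2 x)).trans (by norm_num))
    (fun y hy' => (Q_facts hG hθ0' hθ' st' (by simpa using hy')).1)
    (fun y hy' x => by
      have := (Q_facts hG hθ0' hθ' st' (by simpa using hy' : G.Adj z y)).2 x
      linarith)
    hy hX0 hX8 (by linarith) hK
    (fun y hy' => (hQ' (by simpa using hy')).trans (by
      have : 0 ≤ K ^ (4 * y₀) := by positivity
      linarith))
    (fun x => by linarith [h2'' x])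
  rw [hG.card_neighbor z] at hS
  push_cast at hS
  exact hS

include hG hθ0 hθ hθ0' hθ' hy hK hX0 hX8 hQ hQ' in
/-- The side term. -/
theorem S_gen {z w : V} (hzw : G.Adj z w) {d1 d2 d3 n n' : (V → E) → ℝ} (hd1 : BMf d1) (hd2 : BMf d2) (hd3 : BMf d3)
    (hd10 : ∀ x, |d1 x| ≤ 2) (hd20 : ∀ x, |d2 x| ≤ 2) (hd30 : ∀ x, |d3 x| ≤ 2)
    (hX1 : ∫ x, d1 x ^ 2 ∂μ ≤ X) (hX2 : ∫ x, d2 x ^ 2 ∂μ ≤ X) (hX3 : ∫ x, d3 x ^ 2 ∂μ ≤ X)
    (hn : BMf n) (hn' : BMf n')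
    (hnn : ∀ x, (n x - n' x) ^ 2 ≤ 3 * (d1 x ^ 2 + d2 x ^ 2 + d3 x ^ 2)) :
    ∫ x, (n x - n' x) ^ 2 * (Qbar st st' z w x + 1) ∂μ ≤ 3 * (156 * (X ^ (1 - 1 / (y₀ : ℝ)) * K)) := by
  set f : (V → E) → ℝ := fun x => d1 x ^ 2 + d2 x ^ 2 + d3 x ^ 2 with hfdef
  have hf : BMf f := ((hd1.pow 2).add (hd2.pow 2)).add (hd3.pow 2)
  have hfX : ∫ x, f x ∂μ ≤ 3 * X := by
    simp only [hfdef]
    rw [integral_add ((hd1.pow 2).add (hd2.pow 2)).integrable (hd3.pow 2).integrable,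
      integral_add (hd1.pow 2).integrable (hd2.pow 2).integrable]
    linarith
  obtain ⟨hQb, hQb0⟩ := Qbar_facts hG hθ0 hθ hθ0' hθ' st st' hzw
  have hH : BMf (fun x => Qbar st st' z w x + 1) := hQb.add (BMf.const 1)
  have hmono : ∫ x, (n x - n' x) ^ 2 * (Qbar st st' z w x + 1) ∂μ ≤
      ∫ x, 3 * (f x * (Qbar st st' z w x + 1)) ∂μ := by
    refine integral_mono (((hn.sub hn').pow 2).mul hH).integrable ((hf.mul hH).integrable.const_mul 3) fun x => ?_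
    show (n x - n' x) ^ 2 * (Qbar st st' z w x + 1) ≤ 3 * (f x * (Qbar st st' z w x + 1))
    have := mul_le_mul_of_nonneg_right (hnn x) (by linarith [hQb0 x] : 0 ≤ Qbar st st' z w x + 1)
    simp only [hfdef]
    linarith
  refine hmono.trans ?_
  rw [integral_const_mul]
  refine mul_le_mul_of_nonneg_left ?_ (by norm_num)
  have hS := I2_bound (μ := μ) (ι := Unit) (S := {()}) (Q := fun _ => Qbar st st' z w) hf hH
    (fun x => by simp only [hfdef]; positivity)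
    (fun x => by
      simp only [hfdef]
      linarith [sq_le_four (hd10 x), sq_le_four (hd20 x), sq_le_four (hd30 x)])
    (fun _ _ => hQb) (fun _ _ => hQb0) hy hX0 hX8 hfX hK
    (fun _ _ => Qbar_moment_gen hG hθ0 hθ hθ0' hθ' st st' hQ hQ' hzw)
    (fun x => by simp; linarith)
  refine hS.trans (le_of_eq ?_)
  simp
  norm_num

end Estimates


section Inst

variable {V : Type u} {G : SimpleGraph V} [G.LocallyFinite] {D : ℕ}
variable (hG : RegTree G D) {θ θ' : ℝ} (hθ0 : 0 ≤ θ) (hθ : (D : ℝ) * θ ^ 2 < 1) (hθ0' : 0 ≤ θ')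
  (hθ' : (D : ℝ) * θ' ^ 2 < 1) {N N' j : ℤ} (hN : N ≤ j) (hN' : N' ≤ j) {s : ℝ} (hs0 : 0 ≤ s) (hs : s ≤ 1 / 2)

include hG hθ0 hθ hθ0' hθ' in
theorem sq_cInf_sub_le (z : V) (x : Om V) :
    (cInf G θ N j s z x - cInf G θ' N' j s z x) ^ 2 ≤ 4 * (mInf G θ N j s z x - mInf G θ' N' j s z x) ^ 2 := by
  unfold cInf
  have h3 := abs_le.1 (abs_mInf_le (N := N) (j := j) hG hθ0 hθ s z x)
  have h4 := abs_le.1 (abs_mInf_le (N := N') (j := j) hG hθ0' hθ' s z x)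
  set m := mInf G θ N j s z x
  set m' := mInf G θ' N' j s z x
  have e : (1 - m ^ 2 - (1 - m' ^ 2)) ^ 2 = (m + m') ^ 2 * (m - m') ^ 2 := by ring
  rw [e]
  have : (m + m') ^ 2 ≤ 4 := by nlinarith [h3.1, h3.2, h4.1, h4.2]
  exact mul_le_mul_of_nonneg_right this (sq_nonneg _)

include hG hθ0 hθ hθ0' hθ' in
theorem sq_nInf_sub_le (z w : V) (x : Om V) :
    (nInf G θ N j s z w x - nInf G θ' N' j s z w x) ^ 2 ≤
      3 * ((mInf G θ N j s z x - mInf G θ' N' j s z x) ^ 2 + (mInf G θ N j s w x - mInf G θ' N' j s w x) ^ 2 +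
        (tInf G θ N j s z w x - tInf G θ' N' j s z w x) ^ 2) := by
  unfold nInf
  have h3 := abs_le.1 (abs_tInf_le (N := N) (j := j) hG hθ0 hθ s z w x)
  have h4 := abs_le.1 (abs_mInf_le (N := N') (j := j) hG hθ0' hθ' s w x)
  set m1 := mInf G θ N j s z x
  set m1' := mInf G θ' N' j s z x
  set m2 := mInf G θ N j s w x
  set m2' := mInf G θ' N' j s w x
  set t := tInf G θ N j s z w x
  set t' := tInf G θ' N' j s z w x
  have e : m1 - t * m2 - (m1' - t' * m2') = (m1 - m1') - t * (m2 - m2') - (t - t') * m2' := by ring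
  rw [e]
  have ht2 : t ^ 2 ≤ 1 := by nlinarith [h3.1, h3.2]
  have hm2 : m2' ^ 2 ≤ 1 := by nlinarith [h4.1, h4.2]
  have a1 : (t * (m2 - m2')) ^ 2 ≤ (m2 - m2') ^ 2 := by
    rw [mul_pow]; exact mul_le_of_le_one_left (sq_nonneg _) ht2
  have a2 : ((t - t') * m2') ^ 2 ≤ (t - t') ^ 2 := by
    rw [mul_pow]; exact mul_le_of_le_one_right (sq_nonneg _) hm2
  set A := m1 - m1'
  set B := t * (m2 - m2')
  set C := (t - t') * m2'
  have h5 : (A - B - C) ^ 2 ≤ 3 * (A ^ 2 + B ^ 2 + C ^ 2) := by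
    nlinarith [sq_nonneg (A + B), sq_nonneg (A + C), sq_nonneg (B - C)]
  linarith

theorem measurable_sq_dm {m m' : Om V → ℝ} (h : Measurable m) (h' : Measurable m') :
    Measurable (fun x => (m x - m' x) ^ 2) := (h.sub h').pow_const 2

include hG hθ0 hθ hθ0' hθ' hN hN' in
/-- the weighted term after mass transport -/
theorem weighted_eq (hs0 : 0 ≤ s) (hs : s ≤ 1 / 2) (z : V) :
    ∫ x, totalWeighted G (fun u => (mInf G θ N j s u x - mInf G θ' N' j s u x) ^ 2) (cInf G θ' N' j s z x)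
        (fun a b => bInf G θ' N' j s a b x) z ∂(omP V) =
      ∫ x, (mInf G θ N j s z x - mInf G θ' N' j s z x) ^ 2 *
        ((stInf hG hθ0' hθ' N' j hN' s).c z x ^ 2 * (stInf hG hθ0' hθ' N' j hN' s).QV z x) ∂(omP V) := by
  refine total_weighted_eq hG hθ0' hθ' (stInf hG hθ0' hθ' N' j hN' s) (κ := blockP)
    (fun p y h => reversal_inf hG hθ0' hθ' hN' hs0 hs h)
    (fun u x => (mInf G θ N j s u x - mInf G θ' N' j s u x) ^ 2)
    (fun a => measurable_sq_dm (measurable_mInf hG hθ0 hθ hN s a) (measurable_mInf hG hθ0' hθ' hN' s a))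
    (fun a x => sq_nonneg _) ⟨4, fun a x => sq_le_four (sub_abs_le_two (abs_mInf_le hG hθ0 hθ s a x)
      (abs_mInf_le hG hθ0' hθ' s a x))⟩ (fun g' a x => ?_) z
  simp only [mInf_comp_aut hG hθ0 hθ g', mInf_comp_aut hG hθ0' hθ' g']

end Inst

section Final

variable {V : Type u} {G : SimpleGraph V} [G.LocallyFinite] {D : ℕ}

/-- `|∫ Qdiff| ≤ g` -/
theorem integral_Qdiff_sq_le {E : Type*} [MeasurableSpace E] {μ : Measure (V → E)} [IsProbabilityMeasure μ]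
    (hG : RegTree G D) {θ θ' : ℝ} (hθ0 : 0 ≤ θ) (hθ : (D : ℝ) * θ ^ 2 < 1) (hθ0' : 0 ≤ θ')
    (hθ' : (D : ℝ) * θ' ^ 2 < 1) (st : FState G E θ) (st' : FState G E θ') {a b : V} (hab : G.Adj a b) {g : ℝ}
    (hg : |(∫ x, st.Q a b x ∂μ) - ∫ x, st'.Q a b x ∂μ| ≤ g) :
    (∫ x, Qdiff st st' a b x ∂μ) ^ 2 ≤ g ^ 2 := by
  have h1 := (Q_facts hG hθ0 hθ st hab).1
  have h2 := (Q_facts hG hθ0' hθ' st' hab).1
  have e : ∫ x, Qdiff st st' a b x ∂μ = (∫ x, st.Q a b x ∂μ) - ∫ x, st'.Q a b x ∂μ :=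
    integral_sub h1.integrable h2.integrable
  rw [e, ← sq_abs]
  exact pow_le_pow_left₀ (abs_nonneg _) hg 2

/-- The arithmetic of the final bound. -/
theorem final_arith {C c1 c2 c3 ε2 ε4 Z1 Z2 Z3 Z4 A I1 I2 W G2 : ℝ} (hC : 0 ≤ C) (hc1 : 0 ≤ c1) (hc2 : 0 ≤ c2) (hc3 : 0 ≤ c3)
    (hε2 : 0 ≤ ε2) (hε4 : ε4 ≤ ε2 / 16)
    (hZ1 : 0 ≤ Z1) (hZ2 : 0 ≤ Z2) (hZ3 : 0 ≤ Z3) (hZ4 : 0 ≤ Z4) (hε40 : 0 ≤ ε4)
    (hA : A ≤ C * (I1 + I2 + G2)) (hI1 : I1 ≤ c1 * (Z1 + Z4)) (hI2 : I2 ≤ c2 * Z2) (hG2 : G2 ≤ Z3) (hW : W ≤ c3 * Z2) :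
    2 * ε2 * A + 512 * ε4 * W ≤ (2 * C * (c1 + c2 + 1) + 32 * c3 + 1) * ε2 * (Z1 + Z2 + Z3 + Z4) := by
  have h1 : A ≤ C * (c1 * (Z1 + Z4) + c2 * Z2 + Z3) :=
    hA.trans (mul_le_mul_of_nonneg_left (by linarith) hC)
  have h2 : 2 * ε2 * A ≤ 2 * ε2 * (C * (c1 * (Z1 + Z4) + c2 * Z2 + Z3)) :=
    mul_le_mul_of_nonneg_left h1 (by positivity)
  have hWmul : 512 * ε4 * W ≤ 512 * ε4 * (c3 * Z2) :=
    mul_le_mul_of_nonneg_left hW (by positivity)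
  have h3 : 512 * ε4 * (c3 * Z2) ≤ 32 * ε2 * (c3 * Z2) := by
    have : 512 * ε4 ≤ 32 * ε2 := by linarith
    exact mul_le_mul_of_nonneg_right this (by positivity)
  have h4 : C * (c1 * (Z1 + Z4) + c2 * Z2 + Z3) ≤ C * (c1 + c2 + 1) * (Z1 + Z2 + Z3 + Z4) := by
    have : c1 * (Z1 + Z4) + c2 * Z2 + Z3 ≤ (c1 + c2 + 1) * (Z1 + Z2 + Z3 + Z4) := by
      nlinarith [mul_nonneg hc1 hZ2, mul_nonneg hc1 hZ3, mul_nonneg hc2 hZ1, mul_nonneg hc2 hZ3, mul_nonneg hc2 hZ4]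
    calc _ ≤ C * ((c1 + c2 + 1) * (Z1 + Z2 + Z3 + Z4)) := mul_le_mul_of_nonneg_left this hC
      _ = _ := by ring
  have h5 : c3 * Z2 ≤ c3 * (Z1 + Z2 + Z3 + Z4) := mul_le_mul_of_nonneg_left (by linarith) hc3
  have hT : 0 ≤ Z1 + Z2 + Z3 + Z4 := by positivity
  have h6 : 0 ≤ ε2 * (Z1 + Z2 + Z3 + Z4) := by positivity
  calc 2 * ε2 * A + 512 * ε4 * W
      ≤ 2 * ε2 * (C * (c1 + c2 + 1) * (Z1 + Z2 + Z3 + Z4)) + 32 * ε2 * (c3 * (Z1 + Z2 + Z3 + Z4)) := by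
        have h7 : 2 * ε2 * (C * (c1 * (Z1 + Z4) + c2 * Z2 + Z3)) ≤ 2 * ε2 * (C * (c1 + c2 + 1) * (Z1 + Z2 + Z3 + Z4)) :=
          mul_le_mul_of_nonneg_left h4 (by positivity)
        have h8 : 32 * ε2 * (c3 * Z2) ≤ 32 * ε2 * (c3 * (Z1 + Z2 + Z3 + Z4)) :=
          mul_le_mul_of_nonneg_left h5 (by positivity)
        linarith
    _ ≤ _ := by nlinarith

end Final

end PairT

open PairT in
/-- (M-c) The bound on the growth functionals at one time. -/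
theorem pair_T_le_proved (D : ℕ) : ∃ C₁ : ℝ, 1 ≤ C₁ ∧ ∀ {V : Type u} {G : SimpleGraph V} [G.LocallyFinite] (_ : RegTree G D)
    {θ θ' : ℝ} (_ : 0 ≤ θ) (_ : (D : ℝ) * θ ^ 2 < 1) (_ : 0 ≤ θ') (_ : (D : ℝ) * θ' ^ 2 < 1)
    {N N' j : ℤ} (_ : N ≤ j) (_ : N' ≤ j) {s : ℝ} (_ : 0 ≤ s) (_ : s ≤ 1 / 2) {y₀ : ℕ} (_ : 2 ≤ y₀) {K Vb g : ℝ} (_ : 1 ≤ K) (_ : 0 ≤ Vb) (_ : 0 ≤ g)
    (_ : ∀ {p y : V}, G.Adj p y →
      ∫ x, Qmix G (fun a b => bInf G θ N j s a b x) (fun a b => bInf G θ N j s a b x) p y ^ (4 * y₀) ∂(omP V) ≤ K ^ (4 * y₀))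
    (_ : ∀ {p y : V}, G.Adj p y →
      ∫ x, Qmix G (fun a b => bInf G θ' N' j s a b x) (fun a b => bInf G θ' N' j s a b x) p y ^ (4 * y₀) ∂(omP V) ≤ K ^ (4 * y₀))
    (_ : ∀ {p y : V}, G.Adj p y → ∫ x, cavInf G θ N j s p y x ^ (4 * y₀) ∂(omP V) ≤ Vb ^ (2 * y₀))
    (_ : ∀ {p y : V}, G.Adj p y → ∫ x, cavInf G θ' N' j s p y x ^ (4 * y₀) ∂(omP V) ≤ Vb ^ (2 * y₀))
    (_ : ∀ {p y : V}, G.Adj p y → |EQ G θ N j s p y - EQ G θ' N' j s p y| ≤ g)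
    {p y z w : V} (_ : G.Adj p y) (_ : G.Adj z w),
    let B := C₁ * eps j ^ 2 * (Xpair G θ θ' N N' j s p y ^ (1 - 1 / (y₀ : ℝ)) * (Vb * K ^ 2 + K) + g ^ 2 + (θ - θ') ^ 2 * K ^ 2)
    TmInf G θ θ' N N' j s z ≤ B ∧ TtInf G θ θ' N N' j s z w ≤ B := by
  obtain ⟨C, hC0, hC⟩ := total_diff_le.{u, 0} D
  obtain ⟨C', hC0', hC'⟩ := side_diff_le.{u, 0} D
  set c1 : ℝ := 400000 * 288 with hc1
  set c3 : ℝ := 48 + ((D : ℝ) + 1) * 108 with hc3
  have hc30 : 0 ≤ c3 := by positivity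
  have hc10 : 0 ≤ c1 := by positivity
  refine ⟨(2 * C * (c1 + 4 * c3 + 1) + 32 * c3 + 1) + (2 * (2 * C') * (c1 + 468 + 1) + 32 * (2 * c3) + 1), ?_, ?_⟩
  · have h1 : 0 ≤ 2 * C * (c1 + 4 * c3 + 1) := by positivity
    have h2 : 0 ≤ 2 * (2 * C') * (c1 + 468 + 1) := by positivity
    linarith
  intro V G _ hG θ θ' hθ0 hθ hθ0' hθ' N N' j hN hN' s hs0 hs y₀ hy K Vb g hK hVb hg hQ hQ' hν hν' hEQ p y z w hpy hzw B
  obtain ⟨hX0, hX8, hXm, hXt⟩ := X_facts hG hθ0 hθ hθ0' hθ' hN hN' s hpy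
  set X := Xpair G θ θ' N N' j s p y with hXdef
  set st := stInf hG hθ0 hθ N j hN s with hst
  set st' := stInf hG hθ0' hθ' N' j hN' s with hst'
  set Z1 : ℝ := X ^ (1 - 1 / (y₀ : ℝ)) * (Vb * K ^ 2) with hZ1
  set Z2 : ℝ := X ^ (1 - 1 / (y₀ : ℝ)) * K with hZ2
  set Z4 : ℝ := (θ - θ') ^ 2 * K ^ 2 with hZ4
  have hP : 0 ≤ X ^ (1 - 1 / (y₀ : ℝ)) := Real.rpow_nonneg hX0 _
  have hK0 : 0 < K := by linarith
  have hZ10 : 0 ≤ Z1 := by positivity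
  have hZ20 : 0 ≤ Z2 := by positivity
  have hZ40 : 0 ≤ Z4 := by positivity
  have hg2 : 0 ≤ g ^ 2 := sq_nonneg _
  have hQst : ∀ {p y : V}, G.Adj p y → ∫ x, st.Q p y x ^ (4 * y₀) ∂(omP V) ≤ K ^ (4 * y₀) := fun h => hQ h
  have hQst' : ∀ {p y : V}, G.Adj p y → ∫ x, st'.Q p y x ^ (4 * y₀) ∂(omP V) ≤ K ^ (4 * y₀) := fun h => hQ' h
  have hdm : ∀ u, BMf (fun x => mInf G θ N j s u x - mInf G θ' N' j s u x) := fun u =>
    (bmf_mInf hG hθ0 hθ hN s u).sub (bmf_mInf hG hθ0' hθ' hN' s u)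
  have hdm2 : ∀ u x, |mInf G θ N j s u x - mInf G θ' N' j s u x| ≤ 2 := fun u x =>
    sub_abs_le_two (abs_mInf_le hG hθ0 hθ s u x) (abs_mInf_le hG hθ0' hθ' s u x)
  have hdt : ∀ a b, BMf (fun x => tInf G θ N j s a b x - tInf G θ' N' j s a b x) := fun a b =>
    (bmf_tInf hG hθ0 hθ hN s a b).sub (bmf_tInf hG hθ0' hθ' hN' s a b)
  have hdt2 : ∀ a b x, |tInf G θ N j s a b x - tInf G θ' N' j s a b x| ≤ 2 := fun a b x =>
    sub_abs_le_two (abs_tInf_le hG hθ0 hθ s a b x) (abs_tInf_le hG hθ0' hθ' s a b x)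
  have hI1 : ∀ {a b : V}, G.Adj a b →
      ∫ x, (st.b a b x - st'.b a b x) ^ 2 * (Qbar st st' a b x ^ 2 + Qbar st st' b a x ^ 2) ∂(omP V) ≤
        c1 * (Z1 + Z4) := by
    intro a b hab
    refine (I1_gen (μ := omP V) hG hθ0 hθ hθ0' hθ' st st' hy hK hVb hX0 hQst hQst' hab
      (bmf_cavInf hG hθ0 hθ hN s a b) (bmf_cavInf hG hθ0' hθ' hN' s a b) (hdm b) (hdm a) (hdt a b)
      (hdm2 b) (hdm2 a) (hdt2 a b) (hXm b) (hXm a) (hXt hab) (hν hab) (hν' hab)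
      (fun x => sq_bInf_sub_le hG hθ0 hθ hθ0' hθ' a b x)).trans ?_
    rw [hc1]
    nlinarith
  have hI2 : ∀ u, ∫ x, (st.c u x - st'.c u x) ^ 2 * (QbarV st st' u x + 1) ∂(omP V) ≤ 4 * c3 * Z2 := by
    intro u
    have := I2_gen (μ := omP V) hG hθ0 hθ hθ0' hθ' st st' hy hK hX0 hX8 hQst hQst' u (hdm u) (hdm2 u) (hXm u)
      (fun x => sq_cInf_sub_le hG hθ0 hθ hθ0' hθ' u x)
    linarith
  have hW : ∀ u, ∫ x, totalWeighted G (fun v => (mInf G θ N j s v x - mInf G θ' N' j s v x) ^ 2) (cInf G θ' N' j s u x)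
        (fun a b => bInf G θ' N' j s a b x) u ∂(omP V) ≤ c3 * Z2 := by
    intro u
    rw [weighted_eq hG hθ0 hθ hθ0' hθ' hN hN' hs0 hs u]
    exact W_gen (μ := omP V) hG hθ0' hθ' st' hy hK hX0 hX8 hQst' u (hdm u) (hdm2 u) (hXm u)
  have hS : ∀ {a b : V}, G.Adj a b →
      ∫ x, (nInf G θ N j s a b x - nInf G θ' N' j s a b x) ^ 2 * (Qbar st st' a b x + 1) ∂(omP V) ≤ 468 * Z2 := by
    intro a b hab
    have h1 : BMf (nInf G θ N j s a b) :=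
      (bmf_mInf hG hθ0 hθ hN s a).sub ((bmf_tInf hG hθ0 hθ hN s a b).mul (bmf_mInf hG hθ0 hθ hN s b))
    have h2 : BMf (nInf G θ' N' j s a b) :=
      (bmf_mInf hG hθ0' hθ' hN' s a).sub ((bmf_tInf hG hθ0' hθ' hN' s a b).mul (bmf_mInf hG hθ0' hθ' hN' s b))
    have := S_gen (μ := omP V) hG hθ0 hθ hθ0' hθ' st st' hy hK hX0 hX8 hQst hQst' hab (hdm a) (hdm b) (hdt a b)
      (hdm2 a) (hdm2 b) (hdt2 a b) (hXm a) (hXm b) (hXt hab) h1 h2
      (fun x => sq_nInf_sub_le hG hθ0 hθ hθ0' hθ' a b x)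
    linarith
  have hD : ∀ {a b : V}, G.Adj a b → (∫ x, Qdiff st st' a b x ∂(omP V)) ^ 2 ≤ g ^ 2 := by
    intro a b hab
    exact integral_Qdiff_sq_le hG hθ0 hθ hθ0' hθ' st st' hab (hEQ hab)
  have hrev : ∀ p y, G.Adj p y → ∀ᵐ x ∂(Measure.infinitePi fun _ : V => blockP),
      st.c p x * st.b p y x = st.c y x * st.b y p x := fun p y h => reversal_inf hG hθ0 hθ hN hs0 hs h
  have hrev' : ∀ p y, G.Adj p y → ∀ᵐ x ∂(Measure.infinitePi fun _ : V => blockP),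
      st'.c p x * st'.b p y x = st'.c y x * st'.b y p x := fun p y h => reversal_inf hG hθ0' hθ' hN' hs0 hs h
  have hε0 : 0 ≤ eps j ^ 2 := sq_nonneg _
  have hε4 : eps j ^ 4 ≤ eps j ^ 2 / 16 := by
    have h1 := eps_le j
    have h2 := eps_pos j
    have h3 : eps j ^ 2 ≤ 1 / 16 := by nlinarith
    have e : eps j ^ 4 = eps j ^ 2 * eps j ^ 2 := by ring
    rw [e]
    nlinarith
  have hε40 : 0 ≤ eps j ^ 4 := by positivity
  have hBform : B = ((2 * C * (c1 + 4 * c3 + 1) + 32 * c3 + 1) + (2 * (2 * C') * (c1 + 468 + 1) + 32 * (2 * c3) + 1)) *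
      eps j ^ 2 * (Z1 + Z2 + g ^ 2 + Z4) := by
    show _ * eps j ^ 2 * (X ^ (1 - 1 / (y₀ : ℝ)) * (Vb * K ^ 2 + K) + g ^ 2 + (θ - θ') ^ 2 * K ^ 2) = _
    rw [hZ1, hZ2, hZ4]; ring
  have hSum : 0 ≤ eps j ^ 2 * (Z1 + Z2 + g ^ 2 + Z4) := by positivity
  have hA1 : 0 ≤ 2 * C * (c1 + 4 * c3 + 1) + 32 * c3 + 1 := by positivity
  have hA2 : 0 ≤ 2 * (2 * C') * (c1 + 468 + 1) + 32 * (2 * c3) + 1 := by positivity
  rw [hBform]
  constructor
  · have hA := hC hG hθ0 hθ0' hθ hθ' st st' hrev hrev' hzw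
    have hfin := final_arith (C := C) (c1 := c1) (c2 := 4 * c3) (c3 := c3) (ε2 := eps j ^ 2) (ε4 := eps j ^ 4)
      (Z1 := Z1) (Z2 := Z2) (Z3 := g ^ 2) (Z4 := Z4) hC0.le hc10 (by positivity) hc30 hε0 hε4 hZ10 hZ20 hg2 hZ40 hε40
      hA (hI1 hzw) (hI2 z) (hD hzw) (hW z)
    have : TmInf G θ θ' N N' j s z ≤ (2 * C * (c1 + 4 * c3 + 1) + 32 * c3 + 1) * eps j ^ 2 * (Z1 + Z2 + g ^ 2 + Z4) := hfin
    refine this.trans ?_
    nlinarith
  · have hA1' := hC' hG hθ0 hθ0' hθ hθ' st st' hrev hrev' hzw hzw.symm (nInf G θ N j s z w) (nInf G θ' N' j s z w)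
      ((bmf_mInf hG hθ0 hθ hN s z).sub ((bmf_tInf hG hθ0 hθ hN s z w).mul (bmf_mInf hG hθ0 hθ hN s w))).1
      ((bmf_mInf hG hθ0' hθ' hN' s z).sub ((bmf_tInf hG hθ0' hθ' hN' s z w).mul (bmf_mInf hG hθ0' hθ' hN' s w))).1
      (abs_nInf_le hG hθ0 hθ hN hs0 hs hzw) (abs_nInf_le hG hθ0' hθ' hN' hs0 hs hzw)
    have hA2' := hC' hG hθ0 hθ0' hθ hθ' st st' hrev hrev' hzw.symm hzw (nInf G θ N j s w z) (nInf G θ' N' j s w z)
      ((bmf_mInf hG hθ0 hθ hN s w).sub ((bmf_tInf hG hθ0 hθ hN s w z).mul (bmf_mInf hG hθ0 hθ hN s z))).1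
      ((bmf_mInf hG hθ0' hθ' hN' s w).sub ((bmf_tInf hG hθ0' hθ' hN' s w z).mul (bmf_mInf hG hθ0' hθ' hN' s z))).1
      (abs_nInf_le hG hθ0 hθ hN hs0 hs hzw.symm) (abs_nInf_le hG hθ0' hθ' hN' hs0 hs hzw.symm)
    have e1 := hI1 hzw.symm
    have e2 := hI1 hzw
    have e3 := hS hzw
    have e4 := hS hzw.symm
    have e5 := hD hzw.symm
    have e6 := hD hzw
    have hfin := final_arith (C := 2 * C') (c1 := c1) (c2 := 468) (c3 := 2 * c3) (ε2 := eps j ^ 2) (ε4 := eps j ^ 4)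
      (Z1 := Z1) (Z2 := Z2) (Z3 := g ^ 2) (Z4 := Z4)
      (A := (∫ x, sideDiff G (nInf G θ N j s z w x) (nInf G θ' N' j s z w x)
        (fun a b => bInf G θ N j s a b x) (fun a b => bInf G θ' N' j s a b x) z w ∂(omP V)) +
      ∫ x, sideDiff G (nInf G θ N j s w z x) (nInf G θ' N' j s w z x)
        (fun a b => bInf G θ N j s a b x) (fun a b => bInf G θ' N' j s a b x) w z ∂(omP V))
      (I1 := ((∫ x, (st.b w z x - st'.b w z x) ^ 2 * (Qbar st st' w z x ^ 2 + Qbar st st' z w x ^ 2) ∂(omP V)) +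
        ∫ x, (st.b z w x - st'.b z w x) ^ 2 * (Qbar st st' z w x ^ 2 + Qbar st st' w z x ^ 2) ∂(omP V)) / 2)
      (I2 := ((∫ x, (nInf G θ N j s z w x - nInf G θ' N' j s z w x) ^ 2 * (Qbar st st' z w x + 1) ∂(omP V)) +
        ∫ x, (nInf G θ N j s w z x - nInf G θ' N' j s w z x) ^ 2 * (Qbar st st' w z x + 1) ∂(omP V)) / 2)
      (G2 := ((∫ x, Qdiff st st' w z x ∂(omP V)) ^ 2 + (∫ x, Qdiff st st' z w x ∂(omP V)) ^ 2) / 2)
      (W := (∫ x, totalWeighted G (fun u => (mInf G θ N j s u x - mInf G θ' N' j s u x) ^ 2)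
        (cInf G θ' N' j s w x) (fun a b => bInf G θ' N' j s a b x) w ∂(omP V)) +
      ∫ x, totalWeighted G (fun u => (mInf G θ N j s u x - mInf G θ' N' j s u x) ^ 2)
        (cInf G θ' N' j s z x) (fun a b => bInf G θ' N' j s a b x) z ∂(omP V))
      (by positivity) hc10 (by norm_num) (by positivity) hε0 hε4 hZ10 hZ20 hg2 hZ40 hε40
      (by
        have h1 : (∫ x, sideDiff G (nInf G θ N j s z w x) (nInf G θ' N' j s z w x)
          (fun a b => bInf G θ N j s a b x) (fun a b => bInf G θ' N' j s a b x) z w ∂(omP V)) ≤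
            C' * ((∫ x, (st.b w z x - st'.b w z x) ^ 2 * (Qbar st st' w z x ^ 2 + Qbar st st' z w x ^ 2) ∂(omP V)) +
              (∫ x, (nInf G θ N j s z w x - nInf G θ' N' j s z w x) ^ 2 * (Qbar st st' z w x + 1) ∂(omP V)) +
              (∫ x, Qdiff st st' w z x ∂(omP V)) ^ 2) := hA1'
        have h2 : (∫ x, sideDiff G (nInf G θ N j s w z x) (nInf G θ' N' j s w z x)
          (fun a b => bInf G θ N j s a b x) (fun a b => bInf G θ' N' j s a b x) w z ∂(omP V)) ≤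
            C' * ((∫ x, (st.b z w x - st'.b z w x) ^ 2 * (Qbar st st' z w x ^ 2 + Qbar st st' w z x ^ 2) ∂(omP V)) +
              (∫ x, (nInf G θ N j s w z x - nInf G θ' N' j s w z x) ^ 2 * (Qbar st st' w z x + 1) ∂(omP V)) +
              (∫ x, Qdiff st st' z w x ∂(omP V)) ^ 2) := hA2'
        refine (add_le_add h1 h2).trans (le_of_eq ?_)
        ring)
      (by linarith) (by linarith) (by linarith) (by linarith [hW z, hW w])
    have : TtInf G θ θ' N N' j s z w ≤ (2 * (2 * C') * (c1 + 468 + 1) + 32 * (2 * c3) + 1) * eps j ^ 2 * (Z1 + Z2 + g ^ 2 + Z4) := hfin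
    refine this.trans ?_
    nlinarith

alias pair_T_le := pair_T_le_proved

end Crest.Agent.Lib.IsingFIID
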