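/-
S0241 blueprint, Mod H1 (section 6): the pair inequality in infinite volume.
`pair_limit_mag_proved`, `pair_limit_tcor_proved`: limit `R → ∞` of (E3) + (E4) on balls, uniform in `s` by `mInf_rate`.
-/
import Crest.Agent.Lib.IsingFIID.Strict

set_option autoImplicit false
universe u

namespace Crest.Agent.Lib.IsingFIID

open MeasureTheory Filter
open scoped Classical Topology

namespace PairsAux

/-! ### Elementary real lemmas -/

theorem bTheta_sub_bound {θ x x' : ℝ} (h0 : 0 ≤ θ) (h1 : θ < 1) (hx : |x| ≤ 1) (hx' : |x'| ≤ 1) :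
    |bTheta θ x - bTheta θ x'| ≤ 2 / (1 - θ ^ 2) * |x - x'| := by
  have hθ2 : θ ^ 2 < 1 := by nlinarith
  have hpos : 0 < 1 - θ ^ 2 := by linarith
  have hx2 : x ^ 2 ≤ 1 := (sq_le_one_iff_abs_le_one x).mpr hx
  have hx2' : x' ^ 2 ≤ 1 := (sq_le_one_iff_abs_le_one x').mpr hx'
  have hθ2' : 0 ≤ θ ^ 2 := sq_nonneg θ
  have hA : 1 - θ ^ 2 ≤ 1 - θ ^ 2 * x ^ 2 := by nlinarith
  have hB : 1 - θ ^ 2 ≤ 1 - θ ^ 2 * x' ^ 2 := by nlinarith
  have hA0 : 0 < 1 - θ ^ 2 * x ^ 2 := by linarith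
  have hB0 : 0 < 1 - θ ^ 2 * x' ^ 2 := by linarith
  have e : bTheta θ x - bTheta θ x' =
      θ * (1 - θ ^ 2) * ((x' - x) * (x' + x)) / ((1 - θ ^ 2 * x ^ 2) * (1 - θ ^ 2 * x' ^ 2)) := by
    unfold bTheta
    field_simp
    ring
  rw [e, abs_div, abs_of_pos (mul_pos hA0 hB0), div_le_iff₀ (mul_pos hA0 hB0)]
  have hs : |x' + x| ≤ 2 := by
    calc |x' + x| ≤ |x'| + |x| := abs_add_le _ _
      _ ≤ 2 := by linarith
  have e2 : |θ * (1 - θ ^ 2) * ((x' - x) * (x' + x))| = θ * (1 - θ ^ 2) * (|x - x'| * |x' + x|) := by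
    rw [abs_mul, abs_mul, abs_mul, abs_of_nonneg h0, abs_of_pos hpos, abs_sub_comm x' x]
  rw [e2]
  have hd : 0 ≤ |x - x'| := abs_nonneg _
  have hAB : (1 - θ ^ 2) * (1 - θ ^ 2) ≤ (1 - θ ^ 2 * x ^ 2) * (1 - θ ^ 2 * x' ^ 2) :=
    mul_le_mul hA hB hpos.le hA0.le
  have h3 : 2 / (1 - θ ^ 2) * ((1 - θ ^ 2) * (1 - θ ^ 2)) = 2 * (1 - θ ^ 2) := by
    field_simp
  have h4 : 2 * (1 - θ ^ 2) * |x - x'| ≤ 2 / (1 - θ ^ 2) * |x - x'| * ((1 - θ ^ 2 * x ^ 2) * (1 - θ ^ 2 * x' ^ 2)) := by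
    have hc : 0 ≤ 2 / (1 - θ ^ 2) * |x - x'| := by positivity
    calc 2 * (1 - θ ^ 2) * |x - x'| = 2 / (1 - θ ^ 2) * |x - x'| * ((1 - θ ^ 2) * (1 - θ ^ 2)) := by
          rw [← h3]; ring
      _ ≤ _ := mul_le_mul_of_nonneg_left hAB hc
  have h5 : θ * (1 - θ ^ 2) * (|x - x'| * |x' + x|) ≤ 2 * (1 - θ ^ 2) * |x - x'| := by
    have h6 : θ * |x' + x| ≤ 2 := by nlinarith [abs_nonneg (x' + x)]
    calc θ * (1 - θ ^ 2) * (|x - x'| * |x' + x|) = (θ * |x' + x|) * ((1 - θ ^ 2) * |x - x'|) := by ring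
      _ ≤ 2 * ((1 - θ ^ 2) * |x - x'|) := mul_le_mul_of_nonneg_right h6 (by positivity)
      _ = _ := by ring
  linarith

theorem cavOf_sub_bound {θ a b t a' b' t' : ℝ} (h0 : 0 ≤ θ) (h1 : θ < 1) (ha : |a| ≤ 1) (hb : |b| ≤ 1)
    (ht : |t| ≤ 1) (ha' : |a'| ≤ 1) (hb' : |b'| ≤ 1) (ht' : |t'| ≤ 1) :
    |cavOf θ a b t - cavOf θ a' b' t'| ≤ 2 / (1 - θ) ^ 2 * (|a - a'| + |b - b'| + |t - t'|) := by
  have hpos : 0 < 1 - θ := by linarith
  have hθt : |θ * t| ≤ θ := by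
    rw [abs_mul, abs_of_nonneg h0]; nlinarith [abs_nonneg t]
  have hθt' : |θ * t'| ≤ θ := by
    rw [abs_mul, abs_of_nonneg h0]; nlinarith [abs_nonneg t']
  have hD : 1 - θ ≤ 1 - θ * t := by linarith [(abs_le.mp hθt).2]
  have hD' : 1 - θ ≤ 1 - θ * t' := by linarith [(abs_le.mp hθt').2]
  have hD0 : 0 < 1 - θ * t := by linarith
  have hD0' : 0 < 1 - θ * t' := by linarith
  have e : cavOf θ a b t - cavOf θ a' b' t' =
      ((a - a') - θ * (b - b')) / (1 - θ * t) + (a' - θ * b') * (θ * (t - t')) / ((1 - θ * t) * (1 - θ * t')) := by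
    unfold cavOf
    field_simp
    ring
  rw [e]
  refine (abs_add_le _ _).trans ?_
  have h1' : |((a - a') - θ * (b - b')) / (1 - θ * t)| ≤ (|a - a'| + |b - b'|) / (1 - θ) := by
    rw [abs_div, abs_of_pos hD0]
    apply div_le_div₀ (by positivity) _ hpos hD
    refine (abs_sub _ _).trans ?_
    apply add_le_add le_rfl
    rw [abs_mul, abs_of_nonneg h0]
    nlinarith [abs_nonneg (b - b')]
  have h2' : |(a' - θ * b') * (θ * (t - t')) / ((1 - θ * t) * (1 - θ * t'))| ≤ 2 * |t - t'| / (1 - θ) ^ 2 := by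
    rw [abs_div, abs_of_pos (mul_pos hD0 hD0'), sq]
    apply div_le_div₀ (by positivity) _ (mul_pos hpos hpos) (mul_le_mul hD hD' hpos.le hD0.le)
    rw [abs_mul, abs_mul, abs_of_nonneg h0]
    have h3 : |a' - θ * b'| ≤ 2 := by
      refine (abs_sub _ _).trans ?_
      rw [abs_mul, abs_of_nonneg h0]
      nlinarith [abs_nonneg b']
    have h3' : θ * |t - t'| ≤ |t - t'| := by nlinarith [abs_nonneg (t - t')]
    exact mul_le_mul h3 h3' (by positivity) (by norm_num)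
  have h4 : (|a - a'| + |b - b'|) / (1 - θ) ≤ 2 * (|a - a'| + |b - b'|) / (1 - θ) ^ 2 := by
    rw [div_le_div_iff₀ hpos (by positivity)]
    have : 0 ≤ |a - a'| + |b - b'| := by positivity
    nlinarith [mul_nonneg this (mul_nonneg hpos.le h0)]
  have h5 := add_le_add h1' h2'
  have e5 : 2 / (1 - θ) ^ 2 * (|a - a'| + |b - b'| + |t - t'|) =
      2 * (|a - a'| + |b - b'|) / (1 - θ) ^ 2 + 2 * |t - t'| / (1 - θ) ^ 2 := by ring
  rw [e5]
  linarith

/-! ### Integrals on a probability space -/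

section Meas

variable {Ω : Type*} [MeasurableSpace Ω] {μ : Measure Ω} [IsProbabilityMeasure μ]

theorem integrable_of_bdd {f : Ω → ℝ} (hm : Measurable f) {C : ℝ} (hb : ∀ x, |f x| ≤ C) : Integrable f μ :=
  Integrable.of_bound hm.aestronglyMeasurable C (Eventually.of_forall fun x => by simpa using hb x)

theorem integral_abs_le_of_sq {h : Ω → ℝ} (hm : Measurable h) {C : ℝ} (hb : ∀ x, |h x| ≤ C) {ρ : ℝ} (hρ : 0 < ρ)
    (h2 : ∫ x, h x ^ 2 ∂μ ≤ ρ ^ 2) : ∫ x, |h x| ∂μ ≤ ρ := by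
  have hint : Integrable (fun x => h x ^ 2) μ :=
    integrable_of_bdd (hm.pow_const 2) (C := C ^ 2) fun x => by
      rw [abs_pow]
      exact pow_le_pow_left₀ (abs_nonneg _) (hb x) 2
  have hpt : ∀ x, |h x| ≤ (h x ^ 2 / ρ + ρ) / 2 := by
    intro x
    have : 0 ≤ (|h x| - ρ) ^ 2 := sq_nonneg _
    have e : |h x| ^ 2 = h x ^ 2 := sq_abs _
    have : 2 * |h x| * ρ ≤ h x ^ 2 + ρ ^ 2 := by nlinarith
    have h3 : (h x ^ 2 / ρ + ρ) / 2 = (h x ^ 2 + ρ ^ 2) / (2 * ρ) := by field_simp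
    rw [h3, le_div_iff₀ (by positivity)]
    linarith
  have hI : Integrable (fun x => (h x ^ 2 / ρ + ρ) / 2) μ :=
    ((hint.div_const ρ).add (integrable_const ρ)).div_const 2
  have habs : Integrable (fun x => |h x|) μ := integrable_of_bdd hm.abs (C := C) fun x => by
    rw [abs_abs]; exact hb x
  calc ∫ x, |h x| ∂μ ≤ ∫ x, (h x ^ 2 / ρ + ρ) / 2 ∂μ := (integral_mono habs hI hpt)
    _ = ((∫ x, h x ^ 2 ∂μ) / ρ + ρ) / 2 := by
        rw [integral_div, integral_add (hint.div_const ρ) (integrable_const ρ), integral_div]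
        simp
    _ ≤ (ρ ^ 2 / ρ + ρ) / 2 := by gcongr
    _ = ρ := by field_simp; ring

/-- Comparison of second moments through the `L¹` distance. -/
theorem integral_sq_le_add {f g : Ω → ℝ} (hf : Measurable f) (hg : Measurable g) {a : ℝ}
    (hfa : ∀ x, |f x| ≤ a) (hga : ∀ x, |g x| ≤ a) :
    ∫ x, f x ^ 2 ∂μ ≤ ∫ x, g x ^ 2 ∂μ + 2 * a * ∫ x, |f x - g x| ∂μ := by
  have hf2 : Integrable (fun x => f x ^ 2) μ := integrable_of_bdd (hf.pow_const 2) (C := a ^ 2) fun x => by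
    rw [abs_pow]; exact pow_le_pow_left₀ (abs_nonneg _) (hfa x) 2
  have hg2 : Integrable (fun x => g x ^ 2) μ := integrable_of_bdd (hg.pow_const 2) (C := a ^ 2) fun x => by
    rw [abs_pow]; exact pow_le_pow_left₀ (abs_nonneg _) (hga x) 2
  have hd : Integrable (fun x => |f x - g x|) μ :=
    integrable_of_bdd (hf.sub hg).abs (C := a + a) fun x => by
      rw [abs_abs]
      exact (abs_sub _ _).trans (add_le_add (hfa x) (hga x))
  rw [← integral_const_mul, ← integral_add hg2 (hd.const_mul _)]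
  refine integral_mono hf2 (hg2.add (hd.const_mul _)) fun x => ?_
  have h1 : f x ^ 2 - g x ^ 2 = (f x - g x) * (f x + g x) := by ring
  have h2 : |f x + g x| ≤ 2 * a := by
    refine (abs_add_le _ _).trans ?_
    linarith [hfa x, hga x]
  have h3 : f x ^ 2 - g x ^ 2 ≤ |f x - g x| * (2 * a) := by
    rw [h1]
    refine (le_abs_self _).trans ?_
    rw [abs_mul]
    exact mul_le_mul_of_nonneg_left h2 (abs_nonneg _)
  show f x ^ 2 ≤ g x ^ 2 + 2 * a * |f x - g x|
  linarith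

end Meas

/-! ### Path products -/

section Paths

variable {V : Type u} {G : SimpleGraph V} [G.LocallyFinite] {D : ℕ}

theorem measurable_pathProdF {Ω : Type*} [MeasurableSpace Ω] {b : V → V → Ω → ℝ} (hb : ∀ a c, Measurable (b a c)) :
    ∀ (n : ℕ) (a u : V), Measurable fun ω => pathProdF G (fun a c => b a c ω) n a u := by
  intro n
  induction n with
  | zero => intro a u; simp only [pathProdF]; exact measurable_const
  | succ n ih =>
    intro a u
    simp only [pathProdF]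
    exact (hb _ _).mul (ih _ _)

/-- the step of a geodesic -/
theorem step_facts (hG : RegTree G D) {a u : V} {n : ℕ} (h : G.dist a u = n + 1) :
    G.Adj a (stepTo G a u) ∧ G.dist (stepTo G a u) u = n ∧
      G.dist a (stepTo G a u) + G.dist (stepTo G a u) u = G.dist a u := by
  have hne : a ≠ u := by
    rintro rfl
    simp at h
  have h1 := hG.stepTo_adj hne
  have h2 := hG.stepTo_dist hne
  have h3 : G.dist a (stepTo G a u) = 1 := SimpleGraph.dist_eq_one_iff_adj.mpr h1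
  exact ⟨h1, by omega, by omega⟩

theorem pathProdF_bound (hG : RegTree G D) {b : V → V → ℝ} {ϑ : ℝ} (hϑ : 0 ≤ ϑ) {W : Finset V}
    (hW : IsConvexSet G W) (hb : ∀ a ∈ W, ∀ c ∈ W, G.Adj a c → 0 ≤ b a c ∧ b a c ≤ ϑ) :
    ∀ (n : ℕ) (a u : V), a ∈ W → u ∈ W → G.dist a u = n → |pathProdF G b n a u| ≤ ϑ ^ n := by
  intro n
  induction n with
  | zero => intro a u _ _ _; simp [pathProdF]
  | succ n ih =>
    intro a u ha hu hd
    obtain ⟨h1, h2, h3⟩ := step_facts hG hd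
    have hs : stepTo G a u ∈ W := hW a ha u hu _ h3
    simp only [pathProdF]
    rw [abs_mul, pow_succ, mul_comm]
    have hbb := hb a ha _ hs h1
    apply mul_le_mul (ih _ _ hs hu h2) _ (abs_nonneg _) (by positivity)
    rw [abs_of_nonneg hbb.1]
    exact hbb.2

theorem pathProd_bound (hG : RegTree G D) {b : V → V → ℝ} {ϑ : ℝ} (hϑ : 0 ≤ ϑ) {W : Finset V}
    (hW : IsConvexSet G W) (hb : ∀ a ∈ W, ∀ c ∈ W, G.Adj a c → 0 ≤ b a c ∧ b a c ≤ ϑ) {a u : V} (ha : a ∈ W)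
    (hu : u ∈ W) : |pathProd G b a u| ≤ ϑ ^ G.dist a u :=
  pathProdF_bound hG hϑ hW hb _ a u ha hu rfl

/-- `L¹` comparison of path products. -/
theorem integral_pathProdF_diff {Ω : Type*} [MeasurableSpace Ω] {μ : Measure Ω} [IsProbabilityMeasure μ]
    (hG : RegTree G D) {b b' : V → V → Ω → ℝ} (hm : ∀ a c, Measurable (b a c)) (hm' : ∀ a c, Measurable (b' a c))
    {ϑ : ℝ} (hϑ : 0 ≤ ϑ) {W : Finset V} (hW : IsConvexSet G W)
    (hb : ∀ ω, ∀ a ∈ W, ∀ c ∈ W, G.Adj a c → 0 ≤ b a c ω ∧ b a c ω ≤ ϑ)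
    (hb' : ∀ ω, ∀ a ∈ W, ∀ c ∈ W, G.Adj a c → 0 ≤ b' a c ω ∧ b' a c ω ≤ ϑ) {M : ℝ} (hM : 0 ≤ M) :
    ∀ (n : ℕ) (a u : V), a ∈ W → u ∈ W → G.dist a u = n →
      (∀ x c, G.dist a x + G.dist x u = G.dist a u → G.Adj x c → G.dist c u + 1 = G.dist x u →
        ∫ ω, |b x c ω - b' x c ω| ∂μ ≤ M) →
      ∫ ω, |pathProdF G (fun a c => b a c ω) n a u - pathProdF G (fun a c => b' a c ω) n a u| ∂μ ≤
        ϑ ^ (n - 1) * (n * M) := by
  intro n
  induction n with
  | zero => intro a u _ _ _ _; simp [pathProdF]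
  | succ n ih =>
    intro a u ha hu hd hedge
    obtain ⟨h1, h2, h3⟩ := step_facts hG hd
    set s := stepTo G a u with hs_def
    have hs : s ∈ W := hW a ha u hu _ h3
    have hd1 : G.dist a s = 1 := SimpleGraph.dist_eq_one_iff_adj.mpr h1
    have hedge' : ∀ x c, G.dist s x + G.dist x u = G.dist s u → G.Adj x c → G.dist c u + 1 = G.dist x u →
        ∫ ω, |b x c ω - b' x c ω| ∂μ ≤ M := by
      intro x c hx hxc hc
      apply hedge x c _ hxc hc
      have t1 : G.dist a x ≤ G.dist a s + G.dist s x := hG.isTree.connected.dist_triangle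
      have t2 : G.dist a u ≤ G.dist a x + G.dist x u := hG.isTree.connected.dist_triangle
      omega
    have hih := ih s u hs hu h2 hedge'
    have hP : ∀ ω, |pathProdF G (fun a c => b a c ω) n s u| ≤ ϑ ^ n := fun ω =>
      pathProdF_bound hG hϑ hW (hb ω) n s u hs hu h2
    have hP' : ∀ ω, |pathProdF G (fun a c => b' a c ω) n s u| ≤ ϑ ^ n := fun ω =>
      pathProdF_bound hG hϑ hW (hb' ω) n s u hs hu h2
    have he := hedge a s (by rw [Nat.add_comm]; simp [G.dist_self]) h1 (by omega)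
    have mP := measurable_pathProdF (G := G) hm n s u
    have mP' := measurable_pathProdF (G := G) hm' n s u
    have i1 : Integrable (fun ω => |b a s ω - b' a s ω|) μ :=
      integrable_of_bdd ((hm a s).sub (hm' a s)).abs (C := ϑ + ϑ) fun ω => by
        rw [abs_abs]
        refine (abs_sub _ _).trans (add_le_add ?_ ?_)
        · rw [abs_of_nonneg (hb ω a ha s hs h1).1]; exact (hb ω a ha s hs h1).2
        · rw [abs_of_nonneg (hb' ω a ha s hs h1).1]; exact (hb' ω a ha s hs h1).2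
    have i2 : Integrable (fun ω => |pathProdF G (fun a c => b a c ω) n s u -
        pathProdF G (fun a c => b' a c ω) n s u|) μ :=
      integrable_of_bdd (mP.sub mP').abs (C := ϑ ^ n + ϑ ^ n) fun ω => by
        rw [abs_abs]
        exact (abs_sub _ _).trans (add_le_add (hP ω) (hP' ω))
    have hpt : ∀ ω, |pathProdF G (fun a c => b a c ω) (n + 1) a u - pathProdF G (fun a c => b' a c ω) (n + 1) a u| ≤
        ϑ ^ n * |b a s ω - b' a s ω| + ϑ * |pathProdF G (fun a c => b a c ω) n s u -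
          pathProdF G (fun a c => b' a c ω) n s u| := by
      intro ω
      simp only [pathProdF, ← hs_def]
      have e : b a s ω * pathProdF G (fun a c => b a c ω) n s u - b' a s ω * pathProdF G (fun a c => b' a c ω) n s u =
          (b a s ω - b' a s ω) * pathProdF G (fun a c => b a c ω) n s u +
            b' a s ω * (pathProdF G (fun a c => b a c ω) n s u - pathProdF G (fun a c => b' a c ω) n s u) := by ring
      rw [e]
      refine (abs_add_le _ _).trans (add_le_add ?_ ?_)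
      · rw [abs_mul, mul_comm]
        exact mul_le_mul_of_nonneg_right (hP ω) (abs_nonneg _)
      · rw [abs_mul, abs_of_nonneg (hb' ω a ha s hs h1).1]
        exact mul_le_mul_of_nonneg_right (hb' ω a ha s hs h1).2 (abs_nonneg _)
    have hI : Integrable (fun ω => ϑ ^ n * |b a s ω - b' a s ω| + ϑ * |pathProdF G (fun a c => b a c ω) n s u -
          pathProdF G (fun a c => b' a c ω) n s u|) μ := (i1.const_mul _).add (i2.const_mul _)
    have i3 : Integrable (fun ω => |pathProdF G (fun a c => b a c ω) (n + 1) a u -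
        pathProdF G (fun a c => b' a c ω) (n + 1) a u|) μ :=
      integrable_of_bdd ((measurable_pathProdF (G := G) hm (n + 1) a u).sub
        (measurable_pathProdF (G := G) hm' (n + 1) a u)).abs (C := ϑ ^ (n + 1) + ϑ ^ (n + 1)) fun ω => by
        rw [abs_abs]
        exact (abs_sub _ _).trans (add_le_add (pathProdF_bound hG hϑ hW (hb ω) _ a u ha hu hd)
          (pathProdF_bound hG hϑ hW (hb' ω) _ a u ha hu hd))
    have h4 := integral_mono i3 hI hpt
    rw [integral_add (i1.const_mul _) (i2.const_mul _), integral_const_mul, integral_const_mul] at h4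
    refine h4.trans ?_
    have hϑn : 0 ≤ ϑ ^ n := by positivity
    have h5 : ϑ ^ n * ∫ ω, |b a s ω - b' a s ω| ∂μ ≤ ϑ ^ n * M := mul_le_mul_of_nonneg_left he hϑn
    have h6 : ϑ * ∫ ω, |pathProdF G (fun a c => b a c ω) n s u - pathProdF G (fun a c => b' a c ω) n s u| ∂μ ≤
        ϑ * (ϑ ^ (n - 1) * (n * M)) := mul_le_mul_of_nonneg_left hih hϑ
    have h7 : ϑ * (ϑ ^ (n - 1) * (n * M)) = ϑ ^ n * (n * M) := by
      cases n with
      | zero => simp
      | succ k => simp only [Nat.add_sub_cancel]; rw [pow_succ]; ring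
    have e8 : ϑ ^ (n + 1 - 1) * (((n + 1 : ℕ) : ℝ) * M) = ϑ ^ n * M + ϑ ^ n * (n * M) := by
      simp only [Nat.add_sub_cancel]; push_cast; ring
    rw [e8, ← h7]
    exact add_le_add h5 h6

end Paths

/-! ### One system: measurability, bounds, `L¹` rates -/

section System

variable {V : Type u} {G : SimpleGraph V} [G.LocallyFinite] {D : ℕ}

theorem theta_lt_one (hG : RegTree G D) {θ : ℝ} (hθ0 : 0 ≤ θ) (hθ : (D : ℝ) * θ ^ 2 < 1) : θ < 1 := by
  have h2 : (2 : ℝ) ≤ D := by exact_mod_cast hG.two_le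
  nlinarith

theorem measurable_gibbs_field {θ : ℝ} {W : Finset V} {ℓ : Om V → V → ℝ} (h : ∀ v, Measurable fun x => ℓ x v)
    (f : Finset V → ℝ) : Measurable fun x => gibbs G θ (ℓ x) W f := by
  have hsite : ∀ A, Measurable fun x => siteW (fun v => 1 + ℓ x v) (fun v => 1 - ℓ x v) W A := by
    intro A
    unfold siteW
    refine Finset.measurable_prod _ fun v _ => ?_
    by_cases hv : v ∈ A
    · simp only [hv, if_true]; exact measurable_const.add (h v)
    · simp only [hv, if_false]; exact measurable_const.sub (h v)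
  have hexp : ∀ g : Finset V → ℝ, Measurable fun x => expW G θ (fun v => 1 + ℓ x v) (fun v => 1 - ℓ x v) W g := by
    intro g
    unfold expW
    refine Finset.measurable_sum _ fun A _ => ?_
    exact (measurable_const.mul (hsite A)).mul measurable_const
  unfold gibbs pfW
  exact (hexp f).div (hexp _)

/-- finite volume magnetisation as a function of the labels -/
noncomputable def mW (G : SimpleGraph V) [G.LocallyFinite] (θ : ℝ) (W : Finset V) (N j : ℤ) (s : ℝ) (a : V) (x : Om V) : ℝ :=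
  mag G θ (fieldAt G θ W N x j s) W a

/-- finite volume two point function as a function of the labels -/
noncomputable def tW (G : SimpleGraph V) [G.LocallyFinite] (θ : ℝ) (W : Finset V) (N j : ℤ) (s : ℝ) (a c : V) (x : Om V) : ℝ :=
  tcor G θ (fieldAt G θ W N x j s) W a c

/-- finite volume slope as a function of the labels -/
noncomputable def bW (G : SimpleGraph V) [G.LocallyFinite] (θ : ℝ) (W : Finset V) (N j : ℤ) (s : ℝ) (a c : V) (x : Om V) : ℝ :=
  slope G θ (fieldAt G θ W N x j s) W a c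

/-- the Lipschitz constant of the slope as a function of `(m,m,t)` -/
noncomputable def Ld (θ : ℝ) : ℝ := 2 / (1 - θ ^ 2) * (2 / (1 - θ) ^ 2)

theorem Ld_nonneg {θ : ℝ} (h0 : 0 ≤ θ) (h1 : θ < 1) : 0 ≤ Ld θ := by
  have hθ2 : θ ^ 2 < 1 := by nlinarith
  have : 0 < 1 - θ ^ 2 := by linarith
  unfold Ld
  positivity

section One

variable (hG : RegTree G D) {θ : ℝ} (hθ0 : 0 ≤ θ) (hθ : (D : ℝ) * θ ^ 2 < 1) {W : Finset V}
  (hW : IsConvexSet G W) (hne : W.Nonempty) {N j : ℤ} (s : ℝ)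
include hG hθ0 hθ hW hne

theorem field_lt (x : Om V) (v : V) : |fieldAt G θ W N x j s v| < 1 :=
  abs_fieldAt_lt hG hθ0 (theta_lt_one hG hθ0 hθ) hW hne x j s v

theorem measurable_mW (a : V) : Measurable (mW G θ W N j s a) :=
  measurable_gibbs_field (fun v => measurable_fieldAt hG hθ0 (theta_lt_one hG hθ0 hθ) hW hne s v) _

theorem measurable_tW (a c : V) : Measurable (tW G θ W N j s a c) :=
  measurable_gibbs_field (fun v => measurable_fieldAt hG hθ0 (theta_lt_one hG hθ0 hθ) hW hne s v) _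

theorem measurable_bW (a c : V) : Measurable (bW G θ W N j s a c) := by
  have h1 := measurable_mW hG hθ0 hθ hW hne (N := N) (j := j) s a
  have h2 := measurable_mW hG hθ0 hθ hW hne (N := N) (j := j) s c
  have h3 := measurable_tW hG hθ0 hθ hW hne (N := N) (j := j) s a c
  have e : bW G θ W N j s a c = fun x =>
      θ * (1 - ((mW G θ W N j s c x - θ * mW G θ W N j s a x) / (1 - θ * tW G θ W N j s a c x)) ^ 2) /
        (1 - θ ^ 2 * ((mW G θ W N j s c x - θ * mW G θ W N j s a x) / (1 - θ * tW G θ W N j s a c x)) ^ 2) := rfl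
  rw [e]
  have h4 : Measurable fun x => (mW G θ W N j s c x - θ * mW G θ W N j s a x) / (1 - θ * tW G θ W N j s a c x) :=
    (h2.sub (h1.const_mul θ)).div (measurable_const.sub (h3.const_mul θ))
  exact ((measurable_const.sub (h4.pow_const 2)).const_mul θ).div
    (measurable_const.sub ((h4.pow_const 2).const_mul _))

theorem abs_mW_le (a : V) (x : Om V) : |mW G θ W N j s a x| ≤ 1 :=
  abs_mag_le' hθ0 (theta_lt_one hG hθ0 hθ) (fun v => field_lt hG hθ0 hθ hW hne s x v) W a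

theorem abs_tW_le (a c : V) (x : Om V) : |tW G θ W N j s a c x| ≤ 1 :=
  abs_tcor_le hG hθ0 (theta_lt_one hG hθ0 hθ) (fun v => field_lt hG hθ0 hθ hW hne s x v) hW hne a c

theorem bW_bounds (x : Om V) {a c : V} (ha : a ∈ W) (hc : c ∈ W) (hac : G.Adj a c) :
    0 ≤ bW G θ W N j s a c x ∧ bW G θ W N j s a c x ≤ θ :=
  ⟨slope_nonneg hG hθ0 (theta_lt_one hG hθ0 hθ) (fun v => field_lt hG hθ0 hθ hW hne s x v) hW hne hac ha hc,
    slope_le hG hθ0 (theta_lt_one hG hθ0 hθ) (fun v => field_lt hG hθ0 hθ hW hne s x v) hW hne hac ha hc⟩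

/-- (pointwise) the infinite volume slope against the finite volume slope -/
theorem bInf_sub_bW (x : Om V) {a c : V} (ha : a ∈ W) (hc : c ∈ W) (hac : G.Adj a c) :
    |bW G θ W N j s a c x - bInf G θ N j s a c x| ≤
      Ld θ * (|mW G θ W N j s c x - mInf G θ N j s c x| + |mW G θ W N j s a x - mInf G θ N j s a x| +
        |tW G θ W N j s a c x - tInf G θ N j s a c x|) := by
  have h1 := theta_lt_one hG hθ0 hθ
  have hθ2 : θ ^ 2 < 1 := by nlinarith
  have hpos : 0 < 1 - θ ^ 2 := by linarith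
  have hcav : cav G θ (fieldAt G θ W N x j s) W a c = mag G θ (fieldAt G θ W N x j s) (sideOf G a c W) c :=
    cav_eq_mag_side hG hθ0 h1 (fun v => field_lt hG hθ0 hθ hW hne s x v) hW hne hac ha hc
  have hcav1 : |cav G θ (fieldAt G θ W N x j s) W a c| ≤ 1 := by
    rw [hcav]
    exact abs_mag_le' hθ0 h1 (fun v => field_lt hG hθ0 hθ hW hne s x v) _ c
  have e1 : bW G θ W N j s a c x = bTheta θ (clampOne (cav G θ (fieldAt G θ W N x j s) W a c)) := by
    rw [clampOne_eq hcav1]; rfl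
  have e2 : bInf G θ N j s a c x = bTheta θ (clampOne (cavOf θ (mInf G θ N j s c x) (mInf G θ N j s a x)
      (tInf G θ N j s a c x))) := rfl
  rw [e1, e2]
  refine (bTheta_sub_bound hθ0 h1 (abs_clampOne_le _) (abs_clampOne_le _)).trans ?_
  have h3 := abs_clampOne_sub_le (cav G θ (fieldAt G θ W N x j s) W a c)
    (cavOf θ (mInf G θ N j s c x) (mInf G θ N j s a x) (tInf G θ N j s a c x))
  have h4 : |cav G θ (fieldAt G θ W N x j s) W a c - cavOf θ (mInf G θ N j s c x) (mInf G θ N j s a x)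
      (tInf G θ N j s a c x)| ≤ 2 / (1 - θ) ^ 2 * (|mW G θ W N j s c x - mInf G θ N j s c x| +
        |mW G θ W N j s a x - mInf G θ N j s a x| + |tW G θ W N j s a c x - tInf G θ N j s a c x|) :=
    cavOf_sub_bound hθ0 h1 (abs_mW_le hG hθ0 hθ hW hne s c x) (abs_mW_le hG hθ0 hθ hW hne s a x)
      (abs_tW_le hG hθ0 hθ hW hne s a c x) (abs_mInf_le hG hθ0 hθ s c x) (abs_mInf_le hG hθ0 hθ s a x)
      (abs_tInf_le hG hθ0 hθ s a c x)
  unfold Ld
  rw [mul_assoc]
  exact mul_le_mul_of_nonneg_left (h3.trans h4) (by positivity)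

end One

/-- The `L¹` rate of a system, in an abstract form. -/
def RateL1 (G : SimpleGraph V) [G.LocallyFinite] (θ : ℝ) (N j : ℤ) (ρ : ℕ → ℝ) : Prop :=
  ∀ {W : Finset V}, IsConvexSet G W → W.Nonempty → ∀ {a : V} {R' : ℕ}, ball G a R' ⊆ W → ∀ {s : ℝ}, 0 ≤ s → s ≤ 1 / 2 →
    ∫ x, |mW G θ W N j s a x - mInf G θ N j s a x| ∂(omP V) ≤ ρ R' ∧
      ∀ c, G.Adj a c → ∫ x, |tW G θ W N j s a c x - tInf G θ N j s a c x| ∂(omP V) ≤ ρ R'

theorem rateL1_of_rate (hG : RegTree G D) {θ : ℝ} (hθ0 : 0 ≤ θ) (hθ : (D : ℝ) * θ ^ 2 < 1) {N j : ℤ} (hN : N ≤ j)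
    {κ τ : ℝ} (hκ : 1 < κ) (hκθ : (D : ℝ) * θ ^ 2 * κ < 1) (hτ : 0 < τ) (hτκ : τ ^ 2 = κ⁻¹) :
    ∃ c₀ : ℝ, 0 < c₀ ∧ RateL1 G θ N j (fun R' => c₀ * τ ^ R') := by
  obtain ⟨C, hC, hrate⟩ := mInf_rate hG hθ0 hθ hN hκ hκθ
  refine ⟨Real.sqrt C, Real.sqrt_pos.mpr hC, ?_⟩
  intro W hW hne a R' hball s hs0 hs
  have hρ : (0 : ℝ) < Real.sqrt C * τ ^ R' := mul_pos (Real.sqrt_pos.mpr hC) (pow_pos hτ _)
  have hρ2 : (Real.sqrt C * τ ^ R') ^ 2 = C * κ⁻¹ ^ R' := by
    rw [mul_pow, Real.sq_sqrt hC.le, ← pow_mul, mul_comm R' 2, pow_mul, hτκ]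
  obtain ⟨h1, h2⟩ := hrate hW hball hs0 hs
  constructor
  · apply integral_abs_le_of_sq ((measurable_mW hG hθ0 hθ hW hne s a).sub (measurable_mInf hG hθ0 hθ hN s a)) (C := 2) _ hρ
    · rw [hρ2]
      calc ∫ x, (mW G θ W N j s a x - mInf G θ N j s a x) ^ 2 ∂(omP V)
          = ∫ x, (mInf G θ N j s a x - mag G θ (fieldAt G θ W N x j s) W a) ^ 2 ∂(omP V) := by
            congr 1; funext x; unfold mW; ring
        _ ≤ _ := h1
    · intro x
      refine (abs_sub _ _).trans ?_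
      have h3 := abs_mW_le hG hθ0 hθ hW hne (N := N) (j := j) s a x
      have h4 := abs_mInf_le hG hθ0 hθ (N := N) (j := j) s a x
      linarith
  · intro c hac
    apply integral_abs_le_of_sq ((measurable_tW hG hθ0 hθ hW hne s a c).sub (measurable_tInf hG hθ0 hθ hN s a c)) (C := 2) _ hρ
    · rw [hρ2]
      calc ∫ x, (tW G θ W N j s a c x - tInf G θ N j s a c x) ^ 2 ∂(omP V)
          = ∫ x, (tInf G θ N j s a c x - tcor G θ (fieldAt G θ W N x j s) W a c) ^ 2 ∂(omP V) := by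
            congr 1; funext x; unfold tW; ring
        _ ≤ _ := h2 c hac
    · intro x
      refine (abs_sub _ _).trans ?_
      have h3 := abs_tW_le hG hθ0 hθ hW hne (N := N) (j := j) s a c x
      have h4 := abs_tInf_le hG hθ0 hθ (N := N) (j := j) s a c x
      linarith

theorem RateL1.mono {θ : ℝ} {N j : ℤ} {ρ ρ' : ℕ → ℝ} (h : RateL1 G θ N j ρ) (hρ : ∀ R', ρ R' ≤ ρ' R') :
    RateL1 G θ N j ρ' := by
  intro W hW hne a R' hball s hs0 hs
  obtain ⟨h1, h2⟩ := h hW hne hball hs0 hs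
  exact ⟨h1.trans (hρ R'), fun c hc => (h2 c hc).trans (hρ R')⟩

end System

/-! ### Vertex estimates -/

section Abstract

variable {Ω : Type*} [MeasurableSpace Ω] {μ : Measure Ω} [IsProbabilityMeasure μ]

theorem integrable_abs_sub_of_bdd {f g : Ω → ℝ} (hf : Measurable f) (hg : Measurable g) {a : ℝ}
    (hfa : ∀ x, |f x| ≤ a) (hga : ∀ x, |g x| ≤ a) : Integrable (fun x => |f x - g x|) μ :=
  integrable_of_bdd (hf.sub hg).abs (C := a + a) fun x => by
    rw [abs_abs]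
    exact (abs_sub _ _).trans (add_le_add (hfa x) (hga x))

theorem integral_mul_diff {P P' Q Q' : Ω → ℝ} (mP : Measurable P) (mP' : Measurable P') (mQ : Measurable Q)
    (mQ' : Measurable Q') {A : ℝ} (hP : ∀ x, |P x| ≤ 2) (hP' : ∀ x, |P' x| ≤ 2) (hQ : ∀ x, |Q x| ≤ A)
    (hQ' : ∀ x, |Q' x| ≤ A) (hA : 0 ≤ A) :
    ∫ x, |P x * Q x - P' x * Q' x| ∂μ ≤ A * ∫ x, |P x - P' x| ∂μ + 2 * ∫ x, |Q x - Q' x| ∂μ := by
  have i1 := integrable_abs_sub_of_bdd (μ := μ) mP mP' hP hP'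
  have i2 := integrable_abs_sub_of_bdd (μ := μ) mQ mQ' hQ hQ'
  have hb : ∀ {p q : ℝ}, |p| ≤ 2 → |q| ≤ A → |p * q| ≤ 2 * A := by
    intro p q hp hq
    rw [abs_mul]
    exact mul_le_mul hp hq (abs_nonneg _) (by norm_num)
  have i3 := integrable_abs_sub_of_bdd (μ := μ) (mP.mul mQ) (mP'.mul mQ') (fun x => hb (hP x) (hQ x))
    (fun x => hb (hP' x) (hQ' x))
  rw [← integral_const_mul, ← integral_const_mul, ← integral_add (i1.const_mul _) (i2.const_mul _)]
  refine integral_mono i3 ((i1.const_mul _).add (i2.const_mul _)) fun x => ?_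
  show |P x * Q x - P' x * Q' x| ≤ A * |P x - P' x| + 2 * |Q x - Q' x|
  have e : P x * Q x - P' x * Q' x = (P x - P' x) * Q x + P' x * (Q x - Q' x) := by ring
  rw [e]
  refine (abs_add_le _ _).trans (add_le_add ?_ ?_)
  · rw [abs_mul, mul_comm]
    exact mul_le_mul_of_nonneg_right (hQ x) (abs_nonneg _)
  · rw [abs_mul]
    exact mul_le_mul_of_nonneg_right (hP' x) (abs_nonneg _)

theorem vertex_term1 {X X' Y Y' : Ω → ℝ} (mX : Measurable X) (mX' : Measurable X') (mY : Measurable Y)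
    (mY' : Measurable Y') {A Δ : ℝ} (hX : ∀ x, |X x| ≤ 2 * A) (hX' : ∀ x, |X' x| ≤ 2 * A) (hY : ∀ x, |Y x| ≤ 2 * A)
    (hY' : ∀ x, |Y' x| ≤ 2 * A) (hA : 0 ≤ A) (h1 : ∫ x, |X x - Y x| ∂μ ≤ Δ) (h2 : ∫ x, |X' x - Y' x| ∂μ ≤ Δ) :
    ∫ x, (X x - X' x) ^ 2 ∂μ ≤ ∫ x, (Y x - Y' x) ^ 2 ∂μ + 16 * A * Δ := by
  have hd : ∀ {p q : ℝ}, |p| ≤ 2 * A → |q| ≤ 2 * A → |p - q| ≤ 4 * A := by
    intro p q hp hq
    exact (abs_sub _ _).trans (by linarith)
  have h3 := integral_sq_le_add (μ := μ) (mX.sub mX') (mY.sub mY') (a := 4 * A) (fun x => hd (hX x) (hX' x))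
    (fun x => hd (hY x) (hY' x))
  have i1 := integrable_abs_sub_of_bdd (μ := μ) mX mY hX hY
  have i2 := integrable_abs_sub_of_bdd (μ := μ) mX' mY' hX' hY'
  have i3 := integrable_abs_sub_of_bdd (μ := μ) (mX.sub mX') (mY.sub mY') (fun x => hd (hX x) (hX' x))
    (fun x => hd (hY x) (hY' x))
  have h4 : ∫ x, |X x - X' x - (Y x - Y' x)| ∂μ ≤ ∫ x, |X x - Y x| ∂μ + ∫ x, |X' x - Y' x| ∂μ := by
    rw [← integral_add i1 i2]
    refine integral_mono i3 (i1.add i2) fun x => ?_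
    show |X x - X' x - (Y x - Y' x)| ≤ |X x - Y x| + |X' x - Y' x|
    have e : X x - X' x - (Y x - Y' x) = (X x - Y x) - (X' x - Y' x) := by ring
    rw [e]
    exact abs_sub _ _
  have h5 : 2 * (4 * A) * ∫ x, |X x - X' x - (Y x - Y' x)| ∂μ ≤ 2 * (4 * A) * (Δ + Δ) :=
    mul_le_mul_of_nonneg_left (h4.trans (add_le_add h1 h2)) (by positivity)
  simp only [Pi.sub_apply] at h3
  linarith

theorem vertex_term2 {M M' M₁ M₁' X Y : Ω → ℝ} (mM : Measurable M) (mM' : Measurable M') (mM₁ : Measurable M₁)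
    (mM₁' : Measurable M₁') (mX : Measurable X) (mY : Measurable Y) {A Δ ρ : ℝ} (hM : ∀ x, |M x| ≤ 1)
    (hM' : ∀ x, |M' x| ≤ 1) (hM₁ : ∀ x, |M₁ x| ≤ 1) (hM₁' : ∀ x, |M₁' x| ≤ 1) (hX : ∀ x, |X x| ≤ 2 * A)
    (hY : ∀ x, |Y x| ≤ 2 * A) (hA : 0 ≤ A) (h1 : ∫ x, |M x - M₁ x| ∂μ ≤ ρ) (h2 : ∫ x, |M' x - M₁' x| ∂μ ≤ ρ)
    (h3 : ∫ x, |X x - Y x| ∂μ ≤ Δ) :
    ∫ x, (M x - M' x) ^ 2 * X x ^ 2 ∂μ ≤ ∫ x, (M₁ x - M₁' x) ^ 2 * Y x ^ 2 ∂μ + (32 * A ^ 2 * ρ + 16 * A * Δ) := by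
  have i1 := integrable_abs_sub_of_bdd (μ := μ) mM mM₁ hM hM₁
  have i2 := integrable_abs_sub_of_bdd (μ := μ) mM' mM₁' hM' hM₁'
  have i3 := integrable_abs_sub_of_bdd (μ := μ) mX mY hX hY
  have hsq : ∀ {p q : ℝ}, |p| ≤ 1 → |q| ≤ 1 → (p - q) ^ 2 ≤ 4 := by
    intro p q hp hq
    have : |p - q| ≤ 2 := (abs_sub _ _).trans (by linarith)
    have h5 := abs_le.mp this
    nlinarith
  have hX2 : ∀ x, X x ^ 2 ≤ 4 * A ^ 2 := fun x => by
    have h5 := abs_le.mp (hX x)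
    nlinarith
  have hY2 : ∀ x, Y x ^ 2 ≤ 4 * A ^ 2 := fun x => by
    have h5 := abs_le.mp (hY x)
    nlinarith
  have iL : Integrable (fun x => (M x - M' x) ^ 2 * X x ^ 2) μ :=
    integrable_of_bdd (((mM.sub mM').pow_const 2).mul (mX.pow_const 2)) (C := 4 * (4 * A ^ 2)) fun x => by
      rw [abs_of_nonneg (by positivity)]
      exact mul_le_mul (hsq (hM x) (hM' x)) (hX2 x) (sq_nonneg _) (by norm_num)
  have iR : Integrable (fun x => (M₁ x - M₁' x) ^ 2 * Y x ^ 2) μ :=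
    integrable_of_bdd (((mM₁.sub mM₁').pow_const 2).mul (mY.pow_const 2)) (C := 4 * (4 * A ^ 2)) fun x => by
      rw [abs_of_nonneg (by positivity)]
      exact mul_le_mul (hsq (hM₁ x) (hM₁' x)) (hY2 x) (sq_nonneg _) (by norm_num)
  have hpt : ∀ x, (M x - M' x) ^ 2 * X x ^ 2 ≤ (M₁ x - M₁' x) ^ 2 * Y x ^ 2 +
      (16 * A ^ 2 * |M x - M₁ x| + 16 * A ^ 2 * |M' x - M₁' x| + 16 * A * |X x - Y x|) := by
    intro x
    have hd1 : (M x - M' x) ^ 2 - (M₁ x - M₁' x) ^ 2 ≤ 4 * (|M x - M₁ x| + |M' x - M₁' x|) := by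
      have e : (M x - M' x) ^ 2 - (M₁ x - M₁' x) ^ 2 =
          ((M x - M₁ x) - (M' x - M₁' x)) * ((M x - M' x) + (M₁ x - M₁' x)) := by ring
      rw [e]
      refine (le_abs_self _).trans ?_
      rw [abs_mul]
      have h6 : |(M x - M' x) + (M₁ x - M₁' x)| ≤ 4 := by
        refine (abs_add_le _ _).trans ?_
        have h7 : |M x - M' x| ≤ 2 := (abs_sub _ _).trans (by linarith [hM x, hM' x])
        have h8 : |M₁ x - M₁' x| ≤ 2 := (abs_sub _ _).trans (by linarith [hM₁ x, hM₁' x])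
        linarith
      have h9 : |(M x - M₁ x) - (M' x - M₁' x)| ≤ |M x - M₁ x| + |M' x - M₁' x| := abs_sub _ _
      calc _ ≤ (|M x - M₁ x| + |M' x - M₁' x|) * 4 := mul_le_mul h9 h6 (abs_nonneg _) (by positivity)
        _ = _ := by ring
    have hd2 : X x ^ 2 - Y x ^ 2 ≤ 4 * A * |X x - Y x| := by
      have e : X x ^ 2 - Y x ^ 2 = (X x - Y x) * (X x + Y x) := by ring
      rw [e]
      refine (le_abs_self _).trans ?_
      rw [abs_mul, mul_comm]
      apply mul_le_mul_of_nonneg_right _ (abs_nonneg _)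
      exact (abs_add_le _ _).trans (by linarith [hX x, hY x])
    have hY0 : 0 ≤ (M₁ x - M₁' x) ^ 2 := sq_nonneg _
    have hX0 : 0 ≤ X x ^ 2 := sq_nonneg _
    have e : (M x - M' x) ^ 2 * X x ^ 2 = (M₁ x - M₁' x) ^ 2 * Y x ^ 2 +
        (((M x - M' x) ^ 2 - (M₁ x - M₁' x) ^ 2) * X x ^ 2 + (M₁ x - M₁' x) ^ 2 * (X x ^ 2 - Y x ^ 2)) := by ring
    rw [e]
    have t1 : ((M x - M' x) ^ 2 - (M₁ x - M₁' x) ^ 2) * X x ^ 2 ≤
        (4 * (|M x - M₁ x| + |M' x - M₁' x|)) * (4 * A ^ 2) := by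
      refine (mul_le_mul_of_nonneg_right hd1 hX0).trans ?_
      exact mul_le_mul_of_nonneg_left (hX2 x) (by positivity)
    have t2 : (M₁ x - M₁' x) ^ 2 * (X x ^ 2 - Y x ^ 2) ≤ 4 * (4 * A * |X x - Y x|) := by
      refine (mul_le_mul_of_nonneg_left hd2 hY0).trans ?_
      exact mul_le_mul_of_nonneg_right (hsq (hM₁ x) (hM₁' x)) (by positivity)
    nlinarith
  have iE : Integrable (fun x => 16 * A ^ 2 * |M x - M₁ x| + 16 * A ^ 2 * |M' x - M₁' x| + 16 * A * |X x - Y x|) μ :=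
    ((i1.const_mul _).add (i2.const_mul _)).add (i3.const_mul _)
  have h4 : ∫ x, (M x - M' x) ^ 2 * X x ^ 2 ∂μ ≤ ∫ x, ((M₁ x - M₁' x) ^ 2 * Y x ^ 2 +
      (16 * A ^ 2 * |M x - M₁ x| + 16 * A ^ 2 * |M' x - M₁' x| + 16 * A * |X x - Y x|)) ∂μ :=
    integral_mono iL (iR.add iE) hpt
  have i1c : Integrable (fun x => 16 * A ^ 2 * |M x - M₁ x|) μ := i1.const_mul _
  have i2c : Integrable (fun x => 16 * A ^ 2 * |M' x - M₁' x|) μ := i2.const_mul _
  have i3c : Integrable (fun x => 16 * A * |X x - Y x|) μ := i3.const_mul _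
  have i12 : Integrable (fun x => 16 * A ^ 2 * |M x - M₁ x| + 16 * A ^ 2 * |M' x - M₁' x|) μ := i1c.add i2c
  rw [integral_add iR iE, integral_add i12 i3c, integral_add i1c i2c, integral_const_mul, integral_const_mul,
    integral_const_mul] at h4
  have h5 : 16 * A ^ 2 * ∫ x, |M x - M₁ x| ∂μ ≤ 16 * A ^ 2 * ρ := mul_le_mul_of_nonneg_left h1 (by positivity)
  have h6 : 16 * A ^ 2 * ∫ x, |M' x - M₁' x| ∂μ ≤ 16 * A ^ 2 * ρ := mul_le_mul_of_nonneg_left h2 (by positivity)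
  have h7 : 16 * A * ∫ x, |X x - Y x| ∂μ ≤ 16 * A * Δ := mul_le_mul_of_nonneg_left h3 (by positivity)
  linarith

end Abstract

section SysPath

variable {V : Type u} {G : SimpleGraph V} [G.LocallyFinite] {D : ℕ}

section

variable (hG : RegTree G D) {θ : ℝ} (hθ0 : 0 ≤ θ) (hθ : (D : ℝ) * θ ^ 2 < 1) {N j : ℤ} (hN : N ≤ j)
include hG hθ0 hθ hN

theorem measurable_bInf (s : ℝ) (a c : V) : Measurable (bInf G θ N j s a c) :=
  (stInf hG hθ0 hθ N j hN s).meas_b a c

theorem measurable_cInf (s : ℝ) (a : V) : Measurable (cInf G θ N j s a) :=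
  (stInf hG hθ0 hθ N j hN s).meas_c a

theorem bInf_bounds (s : ℝ) (a c : V) (x : Om V) : 0 ≤ bInf G θ N j s a c x ∧ bInf G θ N j s a c x ≤ θ :=
  ⟨(stInf hG hθ0 hθ N j hN s).b_nonneg a c x, (stInf hG hθ0 hθ N j hN s).b_le a c x⟩

theorem cInf_bounds (s : ℝ) (a : V) (x : Om V) : 0 ≤ cInf G θ N j s a x ∧ cInf G θ N j s a x ≤ 1 :=
  ⟨(stInf hG hθ0 hθ N j hN s).c_nonneg a x, (stInf hG hθ0 hθ N j hN s).c_le a x⟩

theorem measurable_pathProd_bInf (s : ℝ) (a u : V) :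
    Measurable fun x => pathProd G (fun p q => bInf G θ N j s p q x) a u :=
  measurable_pathProdF (G := G) (fun p q => measurable_bInf hG hθ0 hθ hN s p q) _ a u

/-- the infinite volume path product (no restriction to a finite set). -/
theorem abs_pathProd_bInf_le {ϑ : ℝ} (hθϑ : θ ≤ ϑ) (s : ℝ) (a u : V) (x : Om V) :
    |pathProd G (fun p q => bInf G θ N j s p q x) a u| ≤ ϑ ^ G.dist a u := by
  have hϑ : 0 ≤ ϑ := hθ0.trans hθϑ
  have key : ∀ (n : ℕ) (a : V), G.dist a u = n →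
      |pathProdF G (fun p q => bInf G θ N j s p q x) n a u| ≤ ϑ ^ n := by
    intro n
    induction n with
    | zero => intro a _; simp [pathProdF]
    | succ n ih =>
      intro a hd
      obtain ⟨h1, h2, h3⟩ := step_facts hG hd
      simp only [pathProdF]
      rw [abs_mul, pow_succ, mul_comm]
      have hbb := bInf_bounds hG hθ0 hθ hN s a (stepTo G a u) x
      apply mul_le_mul (ih _ h2) _ (abs_nonneg _) (by positivity)
      rw [abs_of_nonneg hbb.1]
      exact hbb.2.trans hθϑ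
  exact key _ a rfl

end

section

variable (hG : RegTree G D) {θ : ℝ} (hθ0 : 0 ≤ θ) (hθ : (D : ℝ) * θ ^ 2 < 1) {N j : ℤ} (hN : N ≤ j)
  {ρ : ℕ → ℝ} (hRate : RateL1 G θ N j ρ) {W : Finset V} (hW : IsConvexSet G W) (hne : W.Nonempty)
  {s : ℝ} (hs0 : 0 ≤ s) (hs : s ≤ 1 / 2)
include hG hθ0 hθ hN hRate hW hne hs0 hs

theorem path_L1 {ϑ : ℝ} (hθϑ : θ ≤ ϑ) {a u : V} (ha : a ∈ W) (hu : u ∈ W) {R' : ℕ} (hρ : 0 ≤ ρ R')
    (hball : ∀ x, G.dist a x + G.dist x u = G.dist a u → ball G x R' ⊆ W) :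
    ∫ x, |pathProd G (fun p q => bW G θ W N j s p q x) a u - pathProd G (fun p q => bInf G θ N j s p q x) a u| ∂(omP V) ≤
      ϑ ^ (G.dist a u - 1) * (G.dist a u * (Ld θ * (3 * ρ R'))) := by
  have h1 := theta_lt_one hG hθ0 hθ
  have hϑ : 0 ≤ ϑ := hθ0.trans hθϑ
  have hL := Ld_nonneg hθ0 h1
  refine integral_pathProdF_diff hG (fun p q => measurable_bW hG hθ0 hθ hW hne s p q)
    (fun p q => measurable_bInf hG hθ0 hθ hN s p q) hϑ hW
    (fun ω p hp q hq hpq => ?_) (fun ω p _ q _ _ => ?_) (by positivity) _ a u ha hu rfl ?_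
  · have := bW_bounds hG hθ0 hθ hW hne (N := N) (j := j) s ω hp hq hpq
    exact ⟨this.1, this.2.trans hθϑ⟩
  · have := bInf_bounds hG hθ0 hθ hN s p q ω
    exact ⟨this.1, this.2.trans hθϑ⟩
  · intro x c hx hxc hc
    have hcg : G.dist a c + G.dist c u = G.dist a u := by
      have t1 : G.dist a c ≤ G.dist a x + G.dist x c := hG.isTree.connected.dist_triangle
      have t2 : G.dist a u ≤ G.dist a c + G.dist c u := hG.isTree.connected.dist_triangle
      have t3 : G.dist x c = 1 := SimpleGraph.dist_eq_one_iff_adj.mpr hxc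
      omega
    have hbx := hball x hx
    have hbc := hball c hcg
    have hxW : x ∈ W := hbx ((hG.mem_ball x R' x).mpr (by simp))
    have hcW : c ∈ W := hbc ((hG.mem_ball c R' c).mpr (by simp))
    obtain ⟨r1, r2⟩ := hRate hW hne hbx hs0 hs
    obtain ⟨r3, -⟩ := hRate hW hne hbc hs0 hs
    have r2' := r2 c hxc
    have m1 : ∀ b : V, Measurable fun y => |mW G θ W N j s b y - mInf G θ N j s b y| := fun b =>
      ((measurable_mW hG hθ0 hθ hW hne s b).sub (measurable_mInf hG hθ0 hθ hN s b)).abs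
    have b1 : ∀ (b : V) (y : Om V), |mW G θ W N j s b y| ≤ 1 := fun b y => abs_mW_le hG hθ0 hθ hW hne s b y
    have b2 : ∀ (b : V) (y : Om V), |mInf G θ N j s b y| ≤ 1 := fun b y => abs_mInf_le hG hθ0 hθ s b y
    have i1 : ∀ b : V, Integrable (fun y => |mW G θ W N j s b y - mInf G θ N j s b y|) (omP V) := fun b =>
      integrable_abs_sub_of_bdd (measurable_mW hG hθ0 hθ hW hne s b) (measurable_mInf hG hθ0 hθ hN s b)
        (b1 b) (b2 b)
    have i2 : Integrable (fun y => |tW G θ W N j s x c y - tInf G θ N j s x c y|) (omP V) :=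
      integrable_abs_sub_of_bdd (measurable_tW hG hθ0 hθ hW hne s x c) (measurable_tInf hG hθ0 hθ hN s x c)
        (abs_tW_le hG hθ0 hθ hW hne s x c) (abs_tInf_le hG hθ0 hθ s x c)
    have i3 : Integrable (fun y => |bW G θ W N j s x c y - bInf G θ N j s x c y|) (omP V) :=
      integrable_abs_sub_of_bdd (measurable_bW hG hθ0 hθ hW hne s x c) (measurable_bInf hG hθ0 hθ hN s x c)
        (a := 1) (fun y => by
          have := bW_bounds hG hθ0 hθ hW hne (N := N) (j := j) s y hxW hcW hxc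
          rw [abs_of_nonneg this.1]; exact this.2.trans h1.le)
        (fun y => by
          have := bInf_bounds hG hθ0 hθ hN s x c y
          rw [abs_of_nonneg this.1]; exact this.2.trans h1.le)
    have i12 : Integrable (fun y => |mW G θ W N j s c y - mInf G θ N j s c y| +
        |mW G θ W N j s x y - mInf G θ N j s x y|) (omP V) := (i1 c).add (i1 x)
    have i4 : Integrable (fun y => Ld θ * (|mW G θ W N j s c y - mInf G θ N j s c y| +
        |mW G θ W N j s x y - mInf G θ N j s x y| + |tW G θ W N j s x c y - tInf G θ N j s x c y|)) (omP V) :=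
      (i12.add i2).const_mul _
    have h5 := integral_mono i3 i4 (fun y => bInf_sub_bW hG hθ0 hθ hW hne s y hxW hcW hxc)
    rw [integral_const_mul, integral_add i12 i2, integral_add (i1 c) (i1 x)] at h5
    refine h5.trans (mul_le_mul_of_nonneg_left ?_ hL)
    linarith

/-- The key closeness estimate of a system, with prefactors. -/
theorem pref_path_close {ϑ K : ℝ} (hϑ0 : 0 < ϑ) (hθϑ : θ ≤ ϑ) (hK : 3 + 6 * Ld θ / ϑ ≤ K) {a u : V} (ha : a ∈ W)
    (hu : u ∈ W) {R' : ℕ} (hρ : 0 ≤ ρ R') (hball : ∀ x, G.dist a x + G.dist x u = G.dist a u → ball G x R' ⊆ W)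
    {P P' : Om V → ℝ} (mP : Measurable P) (mP' : Measurable P') (bP : ∀ x, |P x| ≤ 2) (bP' : ∀ x, |P' x| ≤ 2)
    (hPP : ∫ x, |P x - P' x| ∂(omP V) ≤ 3 * ρ R') :
    ∫ x, |P x * pathProd G (fun p q => bW G θ W N j s p q x) a u -
        P' x * pathProd G (fun p q => bInf G θ N j s p q x) a u| ∂(omP V) ≤
      ϑ ^ G.dist a u * ρ R' * (K * (G.dist a u + 1)) := by
  have h1 := theta_lt_one hG hθ0 hθ
  have hL := Ld_nonneg hθ0 h1
  have mQ : Measurable fun x => pathProd G (fun p q => bW G θ W N j s p q x) a u :=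
    measurable_pathProdF (G := G) (fun p q => measurable_bW hG hθ0 hθ hW hne s p q) _ a u
  have mQ' := measurable_pathProd_bInf hG hθ0 hθ hN (j := j) s a u
  have hQ : ∀ x, |pathProd G (fun p q => bW G θ W N j s p q x) a u| ≤ ϑ ^ G.dist a u := fun x =>
    pathProd_bound hG hϑ0.le hW (fun p hp q hq hpq => by
      have := bW_bounds hG hθ0 hθ hW hne (N := N) (j := j) s x hp hq hpq
      exact ⟨this.1, this.2.trans hθϑ⟩) ha hu
  have hQ' := fun x => abs_pathProd_bInf_le hG hθ0 hθ hN hθϑ s a u x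
  have h2 := integral_mul_diff (μ := omP V) mP mP' mQ mQ' bP bP' hQ hQ' (by positivity)
  have h3 := path_L1 hG hθ0 hθ hN hRate hW hne hs0 hs hθϑ ha hu hρ hball
  refine h2.trans ?_
  have h4 : ϑ ^ G.dist a u * ∫ x, |P x - P' x| ∂(omP V) ≤ ϑ ^ G.dist a u * (3 * ρ R') :=
    mul_le_mul_of_nonneg_left hPP (by positivity)
  have hK0 : 0 ≤ K := le_trans (by positivity) hK
  generalize G.dist a u = n at *
  have h5 : 2 * (ϑ ^ (n - 1) * (n * (Ld θ * (3 * ρ R')))) ≤ ϑ ^ n * ρ R' * (6 * Ld θ / ϑ * n) := by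
    cases n with
    | zero => simp
    | succ k =>
      have e1 : ϑ ^ (k + 1 - 1) = ϑ ^ k := by simp
      rw [e1, pow_succ]
      apply le_of_eq
      field_simp
      ring
  have h6 : 2 * ∫ x, |pathProd G (fun p q => bW G θ W N j s p q x) a u -
      pathProd G (fun p q => bInf G θ N j s p q x) a u| ∂(omP V) ≤ 2 * (ϑ ^ (n - 1) * (n * (Ld θ * (3 * ρ R')))) :=
    mul_le_mul_of_nonneg_left h3 (by norm_num)
  have h7 : ϑ ^ n * (3 * ρ R') + ϑ ^ n * ρ R' * (6 * Ld θ / ϑ * n) ≤ ϑ ^ n * ρ R' * (K * (n + 1)) := by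
    have e : ϑ ^ n * (3 * ρ R') + ϑ ^ n * ρ R' * (6 * Ld θ / ϑ * n) = ϑ ^ n * ρ R' * (3 + 6 * Ld θ / ϑ * n) := by ring
    rw [e]
    apply mul_le_mul_of_nonneg_left _ (by positivity)
    have h8 : 0 ≤ 6 * Ld θ / ϑ := by positivity
    have h9 : (0 : ℝ) ≤ n := by positivity
    have h10 : (3 + 6 * Ld θ / ϑ) * (n + 1) ≤ K * (n + 1) := mul_le_mul_of_nonneg_right hK (by positivity)
    nlinarith
  linarith

end

end SysPath

end PairsAux

end Crest.Agent.Lib.IsingFIID
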