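/-
S0241 blueprint, Mod H1 (section 6): the pair inequality in infinite volume.
`pair_limit_mag_proved`, `pair_limit_tcor_proved`: limit `R → ∞` of (E3) + (E4) on balls, uniformly in `s` by `mInf_rate`.
-/
import Crest.Agent.Lib.IsingFIID.StrictPairsBase

set_option autoImplicit false
universe u

namespace Crest.Agent.Lib.IsingFIID

open MeasureTheory Filter
open scoped Classical Topology

namespace PairsAux

/-! ### The estimate at one vertex -/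

section Vertex

variable {V : Type u} {G : SimpleGraph V} [G.LocallyFinite] {D : ℕ}

variable (hG : RegTree G D) {θ θ' : ℝ} (hθ0 : 0 ≤ θ) (hθ : (D : ℝ) * θ ^ 2 < 1) (hθ0' : 0 ≤ θ') (hθ' : (D : ℝ) * θ' ^ 2 < 1)
  {N N' j : ℤ} (hN : N ≤ j) (hN' : N' ≤ j)
  {ρ : ℕ → ℝ} (hRate : RateL1 G θ N j ρ) (hRate' : RateL1 G θ' N' j ρ) {W : Finset V} (hW : IsConvexSet G W)
  (hne : W.Nonempty) {s : ℝ} (hs0 : 0 ≤ s) (hs : s ≤ 1 / 2) {f : Finset V → ℝ}
include hG hθ0 hθ hθ0' hθ' hN hN' hRate hRate' hW hne hs0 hs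

/-- The per-vertex estimate. -/
theorem vertex_bound {ϑ K : ℝ} (hϑ0 : 0 < ϑ) (hθϑ : θ ≤ ϑ) (hθϑ' : θ' ≤ ϑ) (hK : 3 + 6 * Ld θ / ϑ ≤ K)
    (hK' : 3 + 6 * Ld θ' / ϑ ≤ K) {a u : V} (ha : a ∈ W) (hu : u ∈ W) {R' : ℕ} (hρ : 0 ≤ ρ R')
    (hball : ∀ x, G.dist a x + G.dist x u = G.dist a u → ball G x R' ⊆ W)
    {P Pi P' Pi' Q Qi : Om V → ℝ} (mP : Measurable P) (mPi : Measurable Pi) (mP' : Measurable P')
    (mPi' : Measurable Pi') (mQ : Measurable Q) (mQi : Measurable Qi)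
    (bP : ∀ x, |P x| ≤ 2) (bPi : ∀ x, |Pi x| ≤ 2) (bP' : ∀ x, |P' x| ≤ 2) (bPi' : ∀ x, |Pi' x| ≤ 2)
    (bQ : ∀ x, |Q x| ≤ 2) (bQi : ∀ x, |Qi x| ≤ 2)
    (hPP : ∫ x, |P x - Pi x| ∂(omP V) ≤ 3 * ρ R') (hPP' : ∫ x, |P' x - Pi' x| ∂(omP V) ≤ 3 * ρ R')
    (hQQ : ∫ x, |Q x - Qi x| ∂(omP V) ≤ 3 * ρ R')
    (hcov : ∀ x, covG G θ (fieldAt G θ W N x j s) W f (fun A => spin A u) =
      P x * pathProd G (fun p q => bW G θ W N j s p q x) a u)
    (hcov' : ∀ x, covG G θ' (fieldAt G θ' W N' x j s) W f (fun A => spin A u) =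
      P' x * pathProd G (fun p q => bW G θ' W N' j s p q x) a u)
    (hcovQ : ∀ x, covG G θ' (fieldAt G θ' W N' x j s) W f (fun A => spin A u) ^ 2 ≤
      (Q x * pathProd G (fun p q => bW G θ' W N' j s p q x) a u) ^ 2) :
    ∫ x, (∫ U in (0 : ℝ)..1, psiU G θ θ' W W (eps j) f f (fieldAt G θ W N x j s) (fieldAt G θ' W N' x j s) u U) ∂(omP V) ≤
      2 * eps j ^ 2 * ∫ x, (Pi x * pathProd G (fun p q => bInf G θ N j s p q x) a u -
          Pi' x * pathProd G (fun p q => bInf G θ' N' j s p q x) a u) ^ 2 ∂(omP V) +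
      512 * eps j ^ 4 * ∫ x, (mInf G θ N j s u x - mInf G θ' N' j s u x) ^ 2 *
          (Qi x * pathProd G (fun p q => bInf G θ' N' j s p q x) a u) ^ 2 ∂(omP V) +
      60 * K * (G.dist a u + 1) * ϑ ^ (2 * G.dist a u) * ρ R' := by
  have h1 := theta_lt_one hG hθ0 hθ
  have h1' := theta_lt_one hG hθ0' hθ'
  set Pf : Om V → ℝ := fun x => pathProd G (fun p q => bW G θ W N j s p q x) a u with hPf
  set Pf' : Om V → ℝ := fun x => pathProd G (fun p q => bW G θ' W N' j s p q x) a u with hPf'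
  set Pn : Om V → ℝ := fun x => pathProd G (fun p q => bInf G θ N j s p q x) a u with hPn
  set Pn' : Om V → ℝ := fun x => pathProd G (fun p q => bInf G θ' N' j s p q x) a u with hPn'
  set n := G.dist a u with hn
  set A := ϑ ^ n with hA
  have hA0 : 0 ≤ A := by positivity
  have mPf : Measurable Pf :=
    measurable_pathProdF (G := G) (fun p q => measurable_bW hG hθ0 hθ hW hne s p q) _ a u
  have mPf' : Measurable Pf' :=
    measurable_pathProdF (G := G) (fun p q => measurable_bW hG hθ0' hθ' hW hne s p q) _ a u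
  have mPn : Measurable Pn := measurable_pathProd_bInf hG hθ0 hθ hN s a u
  have mPn' : Measurable Pn' := measurable_pathProd_bInf hG hθ0' hθ' hN' s a u
  have bPf : ∀ x, |Pf x| ≤ A := fun x =>
    pathProd_bound hG hϑ0.le hW (fun p hp q hq hpq => by
      have := bW_bounds hG hθ0 hθ hW hne (N := N) (j := j) s x hp hq hpq
      exact ⟨this.1, this.2.trans hθϑ⟩) ha hu
  have bPf' : ∀ x, |Pf' x| ≤ A := fun x =>
    pathProd_bound hG hϑ0.le hW (fun p hp q hq hpq => by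
      have := bW_bounds hG hθ0' hθ' hW hne (N := N') (j := j) s x hp hq hpq
      exact ⟨this.1, this.2.trans hθϑ'⟩) ha hu
  have bPn : ∀ x, |Pn x| ≤ A := fun x => abs_pathProd_bInf_le hG hθ0 hθ hN hθϑ s a u x
  have bPn' : ∀ x, |Pn' x| ≤ A := fun x => abs_pathProd_bInf_le hG hθ0' hθ' hN' hθϑ' s a u x
  have bmul : ∀ {p q : ℝ}, |p| ≤ 2 → |q| ≤ A → |p * q| ≤ 2 * A := by
    intro p q hp hq
    rw [abs_mul]
    exact mul_le_mul hp hq (abs_nonneg _) (by norm_num)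
  set Δ := A * ρ R' * (K * ((n : ℝ) + 1)) with hΔ
  have c1 : ∫ x, |P x * Pf x - Pi x * Pn x| ∂(omP V) ≤ Δ :=
    pref_path_close hG hθ0 hθ hN hRate hW hne hs0 hs hϑ0 hθϑ hK ha hu hρ hball mP mPi bP bPi hPP
  have c2 : ∫ x, |P' x * Pf' x - Pi' x * Pn' x| ∂(omP V) ≤ Δ :=
    pref_path_close hG hθ0' hθ' hN' hRate' hW hne hs0 hs hϑ0 hθϑ' hK' ha hu hρ hball mP' mPi' bP' bPi' hPP'
  have c3 : ∫ x, |Q x * Pf' x - Qi x * Pn' x| ∂(omP V) ≤ Δ :=
    pref_path_close hG hθ0' hθ' hN' hRate' hW hne hs0 hs hϑ0 hθϑ' hK' ha hu hρ hball mQ mQi bQ bQi hQQ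
  have hbu := hball u (by rw [SimpleGraph.dist_self, Nat.add_zero])
  have r1 := (hRate hW hne hbu hs0 hs).1
  have r2 := (hRate' hW hne hbu hs0 hs).1
  have t1 : ∫ x, (P x * Pf x - P' x * Pf' x) ^ 2 ∂(omP V) ≤
      ∫ x, (Pi x * Pn x - Pi' x * Pn' x) ^ 2 ∂(omP V) + 16 * A * Δ := vertex_term1 (μ := omP V) (mP.mul mPf) (mP'.mul mPf') (mPi.mul mPn) (mPi'.mul mPn')
    (fun x => bmul (bP x) (bPf x)) (fun x => bmul (bP' x) (bPf' x)) (fun x => bmul (bPi x) (bPn x))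
    (fun x => bmul (bPi' x) (bPn' x)) hA0 c1 c2
  have t2 : ∫ x, (mW G θ W N j s u x - mW G θ' W N' j s u x) ^ 2 * (Q x * Pf' x) ^ 2 ∂(omP V) ≤
      ∫ x, (mInf G θ N j s u x - mInf G θ' N' j s u x) ^ 2 * (Qi x * Pn' x) ^ 2 ∂(omP V) +
        (32 * A ^ 2 * ρ R' + 16 * A * Δ) := vertex_term2 (μ := omP V) (measurable_mW hG hθ0 hθ hW hne (N := N) (j := j) s u)
    (measurable_mW hG hθ0' hθ' hW hne (N := N') (j := j) s u) (measurable_mInf hG hθ0 hθ hN s u)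
    (measurable_mInf hG hθ0' hθ' hN' s u) (mQ.mul mPf') (mQi.mul mPn')
    (abs_mW_le hG hθ0 hθ hW hne s u) (abs_mW_le hG hθ0' hθ' hW hne s u)
    (abs_mInf_le hG hθ0 hθ s u) (abs_mInf_le hG hθ0' hθ' s u)
    (fun x => bmul (bQ x) (bPf' x)) (fun x => bmul (bQi x) (bPn' x)) hA0 r1 r2 c3
  have hε0 : 0 ≤ eps j := (eps_pos j).le
  have hε1 := eps_le j
  have hε2 : eps j ^ 2 ≤ 1 / 16 := by nlinarith
  have hε4 : eps j ^ 4 ≤ 1 / 256 := by
    have : eps j ^ 4 = (eps j ^ 2) ^ 2 := by ring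
    rw [this]
    have h0 : 0 ≤ eps j ^ 2 := sq_nonneg _
    nlinarith
  -- pointwise
  have hpt : ∀ x, (∫ U in (0 : ℝ)..1, psiU G θ θ' W W (eps j) f f (fieldAt G θ W N x j s) (fieldAt G θ' W N' x j s) u U) ≤
      2 * eps j ^ 2 * (P x * Pf x - P' x * Pf' x) ^ 2 +
        512 * eps j ^ 4 * ((mW G θ W N j s u x - mW G θ' W N' j s u x) ^ 2 * (Q x * Pf' x) ^ 2) := by
    intro x
    have h0 := integral_psiU_le (G := G) (θ := θ) (θ' := θ') (W := W) (W' := W) (ε := eps j) (f := f) (f' := f)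
      (ℓ := fieldAt G θ W N x j s) (ℓ' := fieldAt G θ' W N' x j s) (u := u) hε0 hε1
      (abs_mW_le hG hθ0 hθ hW hne s u x) (abs_mW_le hG hθ0' hθ' hW hne s u x) hu hu
    refine h0.trans ?_
    have h5 := hcovQ x
    have h6 : 512 * eps j ^ 4 * (mag G θ (fieldAt G θ W N x j s) W u - mag G θ' (fieldAt G θ' W N' x j s) W u) ^ 2 *
        covG G θ' (fieldAt G θ' W N' x j s) W f (fun A => spin A u) ^ 2 ≤
        512 * eps j ^ 4 * (mag G θ (fieldAt G θ W N x j s) W u - mag G θ' (fieldAt G θ' W N' x j s) W u) ^ 2 *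
          (Q x * pathProd G (fun p q => bW G θ' W N' j s p q x) a u) ^ 2 :=
      mul_le_mul_of_nonneg_left h5 (by positivity)
    have h7 : 2 * eps j ^ 2 * (covG G θ (fieldAt G θ W N x j s) W f (fun A => spin A u) -
        covG G θ' (fieldAt G θ' W N' x j s) W f (fun A => spin A u)) ^ 2 =
        2 * eps j ^ 2 * (P x * Pf x - P' x * Pf' x) ^ 2 := by
      rw [hcov x, hcov' x]
    have h8 : 512 * eps j ^ 4 * ((mW G θ W N j s u x - mW G θ' W N' j s u x) ^ 2 * (Q x * Pf' x) ^ 2) =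
        512 * eps j ^ 4 * (mag G θ (fieldAt G θ W N x j s) W u - mag G θ' (fieldAt G θ' W N' x j s) W u) ^ 2 *
          (Q x * pathProd G (fun p q => bW G θ' W N' j s p q x) a u) ^ 2 := by
      simp only [mW, hPf']
      ring
    rw [h7, h8]
    exact add_le_add le_rfl h6
  have hX2 : ∀ {p q : ℝ}, |p| ≤ 2 * A → |q| ≤ 2 * A → (p - q) ^ 2 ≤ (4 * A) ^ 2 := by
    intro p q hp hq
    have : |p - q| ≤ 4 * A := (abs_sub _ _).trans (by linarith)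
    rw [← sq_abs (p - q)]
    exact pow_le_pow_left₀ (abs_nonneg _) this 2
  have i1 : Integrable (fun x => (P x * Pf x - P' x * Pf' x) ^ 2) (omP V) :=
    integrable_of_bdd (((mP.mul mPf).sub (mP'.mul mPf')).pow_const 2) (C := (4 * A) ^ 2) fun x => by
      rw [abs_of_nonneg (sq_nonneg _)]
      exact hX2 (bmul (bP x) (bPf x)) (bmul (bP' x) (bPf' x))
  have i2 : Integrable (fun x => (mW G θ W N j s u x - mW G θ' W N' j s u x) ^ 2 * (Q x * Pf' x) ^ 2) (omP V) := by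
    refine integrable_of_bdd (((( measurable_mW hG hθ0 hθ hW hne (N := N) (j := j) s u).sub
      (measurable_mW hG hθ0' hθ' hW hne (N := N') (j := j) s u)).pow_const 2).mul ((mQ.mul mPf').pow_const 2))
      (C := 4 * (2 * A) ^ 2) fun x => ?_
    rw [abs_of_nonneg (by positivity)]
    have hm1 := abs_mW_le hG hθ0 hθ hW hne (N := N) (j := j) s u x
    have hm2 := abs_mW_le hG hθ0' hθ' hW hne (N := N') (j := j) s u x
    have h5 : |mW G θ W N j s u x - mW G θ' W N' j s u x| ≤ 2 :=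
      (abs_sub _ _).trans (by linarith)
    have h6 : (mW G θ W N j s u x - mW G θ' W N' j s u x) ^ 2 ≤ 4 := by
      rw [← sq_abs]
      nlinarith [abs_nonneg (mW G θ W N j s u x - mW G θ' W N' j s u x)]
    have h7 : (Q x * Pf' x) ^ 2 ≤ (2 * A) ^ 2 := by
      rw [← sq_abs (Q x * Pf' x)]
      exact pow_le_pow_left₀ (abs_nonneg _) (bmul (bQ x) (bPf' x)) 2
    exact mul_le_mul h6 h7 (sq_nonneg _) (by norm_num)
  have iR : Integrable (fun x => 2 * eps j ^ 2 * (P x * Pf x - P' x * Pf' x) ^ 2 +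
        512 * eps j ^ 4 * ((mW G θ W N j s u x - mW G θ' W N' j s u x) ^ 2 * (Q x * Pf' x) ^ 2)) (omP V) :=
    (i1.const_mul _).add (i2.const_mul _)
  have hmain : ∫ x, (∫ U in (0 : ℝ)..1, psiU G θ θ' W W (eps j) f f (fieldAt G θ W N x j s) (fieldAt G θ' W N' x j s) u U) ∂(omP V) ≤
      ∫ x, (2 * eps j ^ 2 * (P x * Pf x - P' x * Pf' x) ^ 2 +
        512 * eps j ^ 4 * ((mW G θ W N j s u x - mW G θ' W N' j s u x) ^ 2 * (Q x * Pf' x) ^ 2)) ∂(omP V) :=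
    integral_mono_of_nonneg
      (Eventually.of_forall fun x => intervalIntegral.integral_nonneg (by norm_num) fun U _ => by
        unfold psiU
        exact sq_nonneg _) iR (Eventually.of_forall hpt)
  rw [integral_add (i1.const_mul _) (i2.const_mul _), integral_const_mul, integral_const_mul] at hmain
  refine hmain.trans ?_
  have hε20 : 0 ≤ eps j ^ 2 := sq_nonneg _
  have hε40 : 0 ≤ eps j ^ 4 := by positivity
  have hKpos : 3 ≤ K := by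
    have : 0 ≤ 6 * Ld θ / ϑ := by
      have := Ld_nonneg hθ0 h1
      positivity
    linarith
  have hn0 : (0 : ℝ) ≤ n := by positivity
  have hK3 : 3 ≤ K * ((n : ℝ) + 1) := by nlinarith
  have hW0 : 0 ≤ A ^ 2 * ρ R' := by positivity
  have e0 : A * Δ = A ^ 2 * ρ R' * (K * ((n : ℝ) + 1)) := by
    rw [hΔ]; ring
  have e1 : 3 * (A ^ 2 * ρ R') ≤ A ^ 2 * ρ R' * (K * ((n : ℝ) + 1)) := by nlinarith
  have hAΔ0 : 0 ≤ A * Δ := by
    rw [e0]
    have : 0 ≤ K * ((n : ℝ) + 1) := by linarith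
    positivity
  have e2 : ϑ ^ (2 * n) = A ^ 2 := by
    rw [hA, ← pow_mul, mul_comm]
  have t1' : 2 * eps j ^ 2 * ∫ x, (P x * Pf x - P' x * Pf' x) ^ 2 ∂(omP V) ≤
      2 * eps j ^ 2 * ∫ x, (Pi x * Pn x - Pi' x * Pn' x) ^ 2 ∂(omP V) + 2 * (A * Δ) := by
    have h5 := mul_le_mul_of_nonneg_left t1 (by positivity : 0 ≤ 2 * eps j ^ 2)
    have h6 : 2 * eps j ^ 2 * (16 * A * Δ) ≤ 2 * (A * Δ) := by
      have : eps j ^ 2 * (A * Δ) ≤ 1 / 16 * (A * Δ) := mul_le_mul_of_nonneg_right hε2 hAΔ0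
      nlinarith
    nlinarith
  have t2' : 512 * eps j ^ 4 * ∫ x, (mW G θ W N j s u x - mW G θ' W N' j s u x) ^ 2 * (Q x * Pf' x) ^ 2 ∂(omP V) ≤
      512 * eps j ^ 4 * ∫ x, (mInf G θ N j s u x - mInf G θ' N' j s u x) ^ 2 * (Qi x * Pn' x) ^ 2 ∂(omP V) +
        2 * (32 * A ^ 2 * ρ R' + 16 * A * Δ) := by
    have h5 := mul_le_mul_of_nonneg_left t2 (by positivity : 0 ≤ 512 * eps j ^ 4)
    have h6 : 512 * eps j ^ 4 * (32 * A ^ 2 * ρ R' + 16 * A * Δ) ≤ 2 * (32 * A ^ 2 * ρ R' + 16 * A * Δ) := by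
      have h7 : 0 ≤ 32 * A ^ 2 * ρ R' + 16 * A * Δ := by nlinarith
      have : eps j ^ 4 * (32 * A ^ 2 * ρ R' + 16 * A * Δ) ≤ 1 / 256 * (32 * A ^ 2 * ρ R' + 16 * A * Δ) :=
        mul_le_mul_of_nonneg_right hε4 h7
      nlinarith
    nlinarith
  rw [e2]
  have e3 : 60 * K * ((n : ℝ) + 1) * A ^ 2 * ρ R' = 60 * (A ^ 2 * ρ R' * (K * ((n : ℝ) + 1))) := by ring
  rw [e3]
  have e4 : 16 * A * Δ = 16 * (A * Δ) := by ring
  rw [e4] at t2'
  nlinarith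

end Vertex
/-! ### Summing over the vertices -/

section Sums

variable {V : Type u} {G : SimpleGraph V} [G.LocallyFinite] {D : ℕ}

theorem card_sphere_le (hG : RegTree G D) (a : V) (r : ℕ) : (sphere G a r).card ≤ (D + 1) * D ^ r := by
  have hD : 1 ≤ D := by
    have := hG.two_le
    omega
  cases r with
  | zero => simp [sphere]
  | succ r =>
    have h1 : (sphere G a (r + 1)).card = ∑ y ∈ G.neighborFinset a, (desc G r a y).card := by
      rw [Finset.card_eq_sum_ones, hG.sum_sphere_succ a r (fun _ => 1)]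
      exact Finset.sum_congr rfl fun y _ => (Finset.card_eq_sum_ones _).symm
    have h2 : ∑ y ∈ G.neighborFinset a, (desc G r a y).card = ∑ _y ∈ G.neighborFinset a, D ^ r :=
      Finset.sum_congr rfl fun y hy => hG.card_desc ((SimpleGraph.mem_neighborFinset _ _ _).mp hy) r
    rw [h1, h2, Finset.sum_const, hG.card_neighbor, smul_eq_mul]
    exact Nat.mul_le_mul_left _ (Nat.pow_le_pow_right hD (Nat.le_succ r))

theorem partial_le_integral_tsum {Ω : Type*} [MeasurableSpace Ω] {μ : Measure Ω} [IsProbabilityMeasure μ]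
    {g : ℕ → Ω → ℝ} (hm : ∀ r, Measurable (g r)) (h0 : ∀ r x, 0 ≤ g r x) {b : ℕ → ℝ} (hb : ∀ r x, g r x ≤ b r)
    (hs : Summable b) (R : ℕ) :
    ∑ r ∈ Finset.range R, ∫ x, g r x ∂μ ≤ ∫ x, ∑' r, g r x ∂μ := by
  have hsx : ∀ x, Summable fun r => g r x := fun x =>
    Summable.of_nonneg_of_le (fun r => h0 r x) (fun r => hb r x) hs
  have hmt : Measurable fun x => ∑' r, g r x :=
    measurable_of_tendsto_metrizable (f := fun n x => ∑ r ∈ Finset.range n, g r x)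
      (fun n => Finset.measurable_sum _ fun r _ => hm r)
      (tendsto_pi_nhds.mpr fun x => (hsx x).hasSum.tendsto_sum_nat)
  have hint : ∀ r, Integrable (g r) μ := fun r =>
    integrable_of_bdd (hm r) (C := b r) fun x => by
      rw [abs_of_nonneg (h0 r x)]
      exact hb r x
  have hI : Integrable (fun x => ∑' r, g r x) μ :=
    integrable_of_bdd hmt (C := ∑' r, b r) fun x => by
      rw [abs_of_nonneg (tsum_nonneg fun r => h0 r x)]
      exact (hsx x).tsum_le_tsum (fun r => hb r x) hs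
  rw [← integral_finset_sum _ fun r _ => hint r]
  exact integral_mono (integrable_finset_sum _ fun r _ => hint r) hI fun x =>
    (hsx x).sum_le_tsum _ fun r _ => h0 r x

theorem sum_sum_integral_le (hG : RegTree G D) {Ω : Type*} [MeasurableSpace Ω] {μ : Measure Ω} [IsProbabilityMeasure μ]
    {T : ℕ → Finset V} {y : V → Ω → ℝ} (hm : ∀ u, Measurable (y u)) (h0 : ∀ u x, 0 ≤ y u x) {a : V}
    (hT : ∀ r, T r ⊆ sphere G a r) {ϑ C : ℝ} (hϑ0 : 0 ≤ ϑ) (hϑ : (D : ℝ) * ϑ ^ 2 < 1) (hC0 : 0 ≤ C)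
    (hC : ∀ u x, y u x ≤ C * ϑ ^ (2 * G.dist a u)) (R : ℕ) :
    ∑ r ∈ Finset.range R, ∑ u ∈ T r, ∫ x, y u x ∂μ ≤ ∫ x, ∑' r, ∑ u ∈ T r, y u x ∂μ := by
  have hint : ∀ u, Integrable (y u) μ := fun u =>
    integrable_of_bdd (hm u) (C := C * ϑ ^ (2 * G.dist a u)) fun x => by
      rw [abs_of_nonneg (h0 u x)]
      exact hC u x
  have hb : ∀ r x, ∑ u ∈ T r, y u x ≤ ((D : ℝ) + 1) * C * ((D : ℝ) * ϑ ^ 2) ^ r := by
    intro r x
    have h1 : ∀ u ∈ T r, y u x ≤ C * ϑ ^ (2 * r) := by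
      intro u hu
      have := (hG.mem_sphere a r u).mp (hT r hu)
      rw [← this]
      exact hC u x
    have h2 : ((T r).card : ℝ) ≤ ((D : ℝ) + 1) * (D : ℝ) ^ r := by
      have h3 := (Finset.card_le_card (hT r)).trans (card_sphere_le hG a r)
      exact_mod_cast h3
    calc ∑ u ∈ T r, y u x ≤ ∑ _u ∈ T r, C * ϑ ^ (2 * r) := Finset.sum_le_sum h1
      _ = ((T r).card : ℝ) * (C * ϑ ^ (2 * r)) := by rw [Finset.sum_const, nsmul_eq_mul]
      _ ≤ (((D : ℝ) + 1) * (D : ℝ) ^ r) * (C * ϑ ^ (2 * r)) :=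
          mul_le_mul_of_nonneg_right h2 (by positivity)
      _ = ((D : ℝ) + 1) * C * ((D : ℝ) * ϑ ^ 2) ^ r := by
          rw [mul_pow, ← pow_mul]
          ring
  have hs : Summable fun r => ((D : ℝ) + 1) * C * ((D : ℝ) * ϑ ^ 2) ^ r :=
    (summable_geometric_of_lt_one (by positivity) hϑ).mul_left _
  have h1 := partial_le_integral_tsum (μ := μ) (g := fun r x => ∑ u ∈ T r, y u x)
    (fun r => Finset.measurable_sum _ fun u _ => hm u) (fun r x => Finset.sum_nonneg fun u _ => h0 u x) hb hs R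
  refine le_trans (le_of_eq ?_) h1
  refine Finset.sum_congr rfl fun r _ => ?_
  rw [integral_finset_sum _ fun u _ => hint u]

theorem sum_vertices (hG : RegTree G D) {S : Finset V} {a : V} {T : ℕ → Finset V} {R : ℕ}
    (hT : ∀ r, T r ⊆ sphere G a r) (hS : ∀ u ∈ S, G.dist a u ≤ R ∧ u ∈ T (G.dist a u))
    {F I₁ I₂ : V → ℝ} {E : ℕ → ℝ} {c₁ c₂ : ℝ} (hc₁ : 0 ≤ c₁) (hc₂ : 0 ≤ c₂)
    (hI₁ : ∀ u, 0 ≤ I₁ u) (hI₂ : ∀ u, 0 ≤ I₂ u) (hE : ∀ r, 0 ≤ E r)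
    (hF : ∀ u ∈ S, F u ≤ c₁ * I₁ u + c₂ * I₂ u + E (G.dist a u)) :
    ∑ u ∈ S, F u ≤ c₁ * ∑ r ∈ Finset.range (R + 1), ∑ u ∈ T r, I₁ u +
      c₂ * ∑ r ∈ Finset.range (R + 1), ∑ u ∈ sphere G a r, I₂ u +
      ∑ r ∈ Finset.range (R + 1), (((D : ℝ) + 1) * (D : ℝ) ^ r) * E r := by
  have hmaps : ∀ u ∈ S, G.dist a u ∈ Finset.range (R + 1) := fun u hu =>
    Finset.mem_range.mpr (Nat.lt_succ_of_le (hS u hu).1)
  rw [← Finset.sum_fiberwise_of_maps_to hmaps F, Finset.mul_sum, Finset.mul_sum, ← Finset.sum_add_distrib,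
    ← Finset.sum_add_distrib]
  refine Finset.sum_le_sum fun r _ => ?_
  have hsub₁ : S.filter (fun u => G.dist a u = r) ⊆ T r := by
    intro u hu
    obtain ⟨hu1, hu2⟩ := Finset.mem_filter.mp hu
    have := (hS u hu1).2
    rwa [hu2] at this
  have hsub₂ : S.filter (fun u => G.dist a u = r) ⊆ sphere G a r := hsub₁.trans (hT r)
  have hcard : (((S.filter fun u => G.dist a u = r).card : ℕ) : ℝ) ≤ ((D : ℝ) + 1) * (D : ℝ) ^ r := by
    have h3 := (Finset.card_le_card hsub₂).trans (card_sphere_le hG a r)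
    exact_mod_cast h3
  calc ∑ u ∈ S.filter (fun u => G.dist a u = r), F u
      ≤ ∑ u ∈ S.filter (fun u => G.dist a u = r), (c₁ * I₁ u + c₂ * I₂ u + E r) := by
        refine Finset.sum_le_sum fun u hu => ?_
        obtain ⟨hu1, hu2⟩ := Finset.mem_filter.mp hu
        have := hF u hu1
        rwa [hu2] at this
    _ = c₁ * ∑ u ∈ S.filter (fun u => G.dist a u = r), I₁ u + c₂ * ∑ u ∈ S.filter (fun u => G.dist a u = r), I₂ u +
          ((S.filter fun u => G.dist a u = r).card : ℝ) * E r := by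
        rw [Finset.sum_add_distrib, Finset.sum_add_distrib, ← Finset.mul_sum, ← Finset.mul_sum, Finset.sum_const,
          nsmul_eq_mul]
    _ ≤ c₁ * ∑ u ∈ T r, I₁ u + c₂ * ∑ u ∈ sphere G a r, I₂ u + (((D : ℝ) + 1) * (D : ℝ) ^ r) * E r := by
        refine add_le_add (add_le_add ?_ ?_) (mul_le_mul_of_nonneg_right hcard (hE r))
        · exact mul_le_mul_of_nonneg_left
            (Finset.sum_le_sum_of_subset_of_nonneg hsub₁ fun u _ _ => hI₁ u) hc₁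
        · exact mul_le_mul_of_nonneg_left
            (Finset.sum_le_sum_of_subset_of_nonneg hsub₂ fun u _ _ => hI₂ u) hc₂

end Sums

/-! ### Total over one side -/

/-- the sum appearing in the error term -/
noncomputable def errS (D : ℕ) (ϑ τ : ℝ) (R : ℕ) : ℝ :=
  ∑ r ∈ Finset.range (R + 1), (((D : ℝ) + 1) * (D : ℝ) ^ r) * (((r : ℝ) + 1) * ϑ ^ (2 * r) * τ ^ (R - (r + 1)))

section Side

variable {V : Type u} {G : SimpleGraph V} [G.LocallyFinite] {D : ℕ}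

variable (hG : RegTree G D) {θ θ' : ℝ} (hθ0 : 0 ≤ θ) (hθ : (D : ℝ) * θ ^ 2 < 1) (hθ0' : 0 ≤ θ') (hθ' : (D : ℝ) * θ' ^ 2 < 1)
  {N N' j : ℤ} (hN : N ≤ j) (hN' : N' ≤ j)
  {c₀ τ : ℝ} (hc₀ : 0 < c₀) (hτ : 0 < τ)
  (hRate : RateL1 G θ N j (fun R' => c₀ * τ ^ R')) (hRate' : RateL1 G θ' N' j (fun R' => c₀ * τ ^ R')) {W : Finset V}
  (hW : IsConvexSet G W) (hne : W.Nonempty) {s : ℝ} (hs0 : 0 ≤ s) (hs : s ≤ 1 / 2) {f : Finset V → ℝ}
include hG hθ0 hθ hθ0' hθ' hN hN' hc₀ hτ hRate hRate' hW hne hs0 hs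

theorem side_total {ϑ K : ℝ} (hϑ0 : 0 < ϑ) (hϑ : (D : ℝ) * ϑ ^ 2 < 1) (hθϑ : θ ≤ ϑ) (hθϑ' : θ' ≤ ϑ)
    (hK : 3 + 6 * Ld θ / ϑ ≤ K) (hK' : 3 + 6 * Ld θ' / ϑ ≤ K) {a : V} {S : Finset V} {T : ℕ → Finset V} {R : ℕ}
    (ha : a ∈ W) (hSW : S ⊆ W) (hT : ∀ r, T r ⊆ sphere G a r) (hS : ∀ u ∈ S, G.dist a u ≤ R ∧ u ∈ T (G.dist a u))
    (hball : ∀ u ∈ S, ∀ x, G.dist a x + G.dist x u = G.dist a u → ball G x (R - (G.dist a u + 1)) ⊆ W)
    {P Pi P' Pi' Q Qi : Om V → ℝ} (mP : Measurable P) (mPi : Measurable Pi) (mP' : Measurable P')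
    (mPi' : Measurable Pi') (mQ : Measurable Q) (mQi : Measurable Qi)
    (bP : ∀ x, |P x| ≤ 2) (bPi : ∀ x, |Pi x| ≤ 2) (bP' : ∀ x, |P' x| ≤ 2) (bPi' : ∀ x, |Pi' x| ≤ 2)
    (bQ : ∀ x, |Q x| ≤ 2) (bQi : ∀ x, |Qi x| ≤ 2)
    (hPP : ∀ u ∈ S, ∫ x, |P x - Pi x| ∂(omP V) ≤ 3 * (c₀ * τ ^ (R - (G.dist a u + 1))))
    (hPP' : ∀ u ∈ S, ∫ x, |P' x - Pi' x| ∂(omP V) ≤ 3 * (c₀ * τ ^ (R - (G.dist a u + 1))))
    (hQQ : ∀ u ∈ S, ∫ x, |Q x - Qi x| ∂(omP V) ≤ 3 * (c₀ * τ ^ (R - (G.dist a u + 1))))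
    (hcov : ∀ u ∈ S, ∀ x, covG G θ (fieldAt G θ W N x j s) W f (fun A => spin A u) =
      P x * pathProd G (fun p q => bW G θ W N j s p q x) a u)
    (hcov' : ∀ u ∈ S, ∀ x, covG G θ' (fieldAt G θ' W N' x j s) W f (fun A => spin A u) =
      P' x * pathProd G (fun p q => bW G θ' W N' j s p q x) a u)
    (hcovQ : ∀ u ∈ S, ∀ x, covG G θ' (fieldAt G θ' W N' x j s) W f (fun A => spin A u) ^ 2 ≤
      (Q x * pathProd G (fun p q => bW G θ' W N' j s p q x) a u) ^ 2) :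
    ∑ u ∈ S, ∫ x, (∫ U in (0 : ℝ)..1, psiU G θ θ' W W (eps j) f f (fieldAt G θ W N x j s) (fieldAt G θ' W N' x j s) u U) ∂(omP V) ≤
      2 * eps j ^ 2 * ∫ x, ∑' r, ∑ u ∈ T r, (Pi x * pathProd G (fun p q => bInf G θ N j s p q x) a u -
          Pi' x * pathProd G (fun p q => bInf G θ' N' j s p q x) a u) ^ 2 ∂(omP V) +
      512 * eps j ^ 4 * ∫ x, ∑' r, ∑ u ∈ sphere G a r, (mInf G θ N j s u x - mInf G θ' N' j s u x) ^ 2 *
          (Qi x * pathProd G (fun p q => bInf G θ' N' j s p q x) a u) ^ 2 ∂(omP V) +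
      60 * K * c₀ * errS D ϑ τ R := by
  have hK0 : 0 ≤ K := by
    have h1 := theta_lt_one hG hθ0 hθ
    have : 0 ≤ 6 * Ld θ / ϑ := by
      have := Ld_nonneg hθ0 h1
      positivity
    linarith
  -- the path products
  have mPn : ∀ u, Measurable fun x => pathProd G (fun p q => bInf G θ N j s p q x) a u := fun u =>
    measurable_pathProd_bInf hG hθ0 hθ hN s a u
  have mPn' : ∀ u, Measurable fun x => pathProd G (fun p q => bInf G θ' N' j s p q x) a u := fun u =>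
    measurable_pathProd_bInf hG hθ0' hθ' hN' s a u
  have bPn : ∀ u x, |pathProd G (fun p q => bInf G θ N j s p q x) a u| ≤ ϑ ^ G.dist a u := fun u x =>
    abs_pathProd_bInf_le hG hθ0 hθ hN hθϑ s a u x
  have bPn' : ∀ u x, |pathProd G (fun p q => bInf G θ' N' j s p q x) a u| ≤ ϑ ^ G.dist a u := fun u x =>
    abs_pathProd_bInf_le hG hθ0' hθ' hN' hθϑ' s a u x
  have bmul : ∀ {p q A : ℝ}, 0 ≤ A → |p| ≤ 2 → |q| ≤ A → |p * q| ≤ 2 * A := by
    intro p q A _ hp hq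
    rw [abs_mul]
    exact mul_le_mul hp hq (abs_nonneg _) (by norm_num)
  set y₁ : V → Om V → ℝ := fun u x => (Pi x * pathProd G (fun p q => bInf G θ N j s p q x) a u -
    Pi' x * pathProd G (fun p q => bInf G θ' N' j s p q x) a u) ^ 2 with hy₁
  set y₂ : V → Om V → ℝ := fun u x => (mInf G θ N j s u x - mInf G θ' N' j s u x) ^ 2 *
    (Qi x * pathProd G (fun p q => bInf G θ' N' j s p q x) a u) ^ 2 with hy₂
  have my₁ : ∀ u, Measurable (y₁ u) := fun u =>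
    ((mPi.mul (mPn u)).sub (mPi'.mul (mPn' u))).pow_const 2
  have my₂ : ∀ u, Measurable (y₂ u) := fun u =>
    (((measurable_mInf hG hθ0 hθ hN s u).sub (measurable_mInf hG hθ0' hθ' hN' s u)).pow_const 2).mul
      ((mQi.mul (mPn' u)).pow_const 2)
  have y₁0 : ∀ u x, 0 ≤ y₁ u x := fun u x => sq_nonneg _
  have y₂0 : ∀ u x, 0 ≤ y₂ u x := fun u x => mul_nonneg (sq_nonneg _) (sq_nonneg _)
  have hϑ2 : ∀ n : ℕ, ϑ ^ (2 * n) = (ϑ ^ n) ^ 2 := fun n => by rw [← pow_mul, mul_comm]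
  have y₁b : ∀ u x, y₁ u x ≤ 16 * ϑ ^ (2 * G.dist a u) := by
    intro u x
    have hA : 0 ≤ ϑ ^ G.dist a u := by positivity
    have h1 := bmul hA (bPi x) (bPn u x)
    have h2 := bmul hA (bPi' x) (bPn' u x)
    have h3 : |Pi x * pathProd G (fun p q => bInf G θ N j s p q x) a u -
        Pi' x * pathProd G (fun p q => bInf G θ' N' j s p q x) a u| ≤ 4 * ϑ ^ G.dist a u :=
      (abs_sub _ _).trans (by linarith)
    have h4 := pow_le_pow_left₀ (abs_nonneg _) h3 2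
    rw [sq_abs] at h4
    rw [hϑ2]
    calc y₁ u x ≤ (4 * ϑ ^ G.dist a u) ^ 2 := h4
      _ = _ := by ring
  have y₂b : ∀ u x, y₂ u x ≤ 16 * ϑ ^ (2 * G.dist a u) := by
    intro u x
    have hA : 0 ≤ ϑ ^ G.dist a u := by positivity
    have h1 := bmul hA (bQi x) (bPn' u x)
    have h2 := pow_le_pow_left₀ (abs_nonneg _) h1 2
    rw [sq_abs] at h2
    have hm1 := abs_mInf_le hG hθ0 hθ (N := N) (j := j) s u x
    have hm2 := abs_mInf_le hG hθ0' hθ' (N := N') (j := j) s u x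
    have h3 : |mInf G θ N j s u x - mInf G θ' N' j s u x| ≤ 2 := (abs_sub _ _).trans (by linarith)
    have h4 := pow_le_pow_left₀ (abs_nonneg _) h3 2
    rw [sq_abs] at h4
    rw [hϑ2]
    calc y₂ u x ≤ 2 ^ 2 * (2 * ϑ ^ G.dist a u) ^ 2 := mul_le_mul h4 h2 (sq_nonneg _) (by norm_num)
      _ = _ := by ring
  have hv : ∀ u ∈ S, ∫ x, (∫ U in (0 : ℝ)..1, psiU G θ θ' W W (eps j) f f (fieldAt G θ W N x j s)
      (fieldAt G θ' W N' x j s) u U) ∂(omP V) ≤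
      2 * eps j ^ 2 * ∫ x, y₁ u x ∂(omP V) + 512 * eps j ^ 4 * ∫ x, y₂ u x ∂(omP V) +
        (60 * K * c₀) * (((G.dist a u : ℝ) + 1) * ϑ ^ (2 * G.dist a u) * τ ^ (R - (G.dist a u + 1))) := by
    intro u hu
    have hρ : (0 : ℝ) ≤ c₀ * τ ^ (R - (G.dist a u + 1)) := by positivity
    have h1 := vertex_bound (ρ := fun R' => c₀ * τ ^ R') hG hθ0 hθ hθ0' hθ' hN hN' hRate hRate' hW hne hs0 hs
      (f := f) hϑ0 hθϑ hθϑ' hK hK' ha (hSW hu) hρ (hball u hu) mP mPi mP' mPi' mQ mQi bP bPi bP' bPi' bQ bQi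
      (hPP u hu) (hPP' u hu) (hQQ u hu) (hcov u hu) (hcov' u hu) (hcovQ u hu)
    refine h1.trans (le_of_eq ?_)
    ring
  have h0 := sum_vertices hG (S := S) (a := a) (T := T) (R := R) (I₁ := fun u => ∫ x, y₁ u x ∂(omP V))
    (I₂ := fun u => ∫ x, y₂ u x ∂(omP V))
    (E := fun r => (60 * K * c₀) * (((r : ℝ) + 1) * ϑ ^ (2 * r) * τ ^ (R - (r + 1))))
    hT hS (by positivity) (by positivity) (fun u => integral_nonneg (y₁0 u)) (fun u => integral_nonneg (y₂0 u))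
    (fun r => by positivity) hv
  refine h0.trans ?_
  have h1 := sum_sum_integral_le hG (μ := omP V) (T := T) (y := y₁) my₁ y₁0 (a := a) hT hϑ0.le hϑ (C := 16) (by norm_num)
    y₁b (R + 1)
  have h2 := sum_sum_integral_le hG (μ := omP V) (T := fun r => sphere G a r) (y := y₂) my₂ y₂0 (a := a)
    (fun r => subset_refl _) hϑ0.le hϑ (C := 16) (by norm_num) y₂b (R + 1)
  refine add_le_add (add_le_add (mul_le_mul_of_nonneg_left h1 (by positivity))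
    (mul_le_mul_of_nonneg_left h2 (by positivity))) (le_of_eq ?_)
  unfold errS
  rw [Finset.mul_sum]
  refine Finset.sum_congr rfl fun r _ => ?_
  ring

end Side
/-! ### Constants and limits -/

section Constants

theorem errS_le {D : ℕ} {ϑ τ : ℝ} (hϑ0 : 0 < ϑ) (hτ0 : 0 < τ) (hτ1 : τ < 1) (h : (D : ℝ) * ϑ ^ 2 < τ ^ 2) :
    ∃ C₁ : ℝ, 0 < C₁ ∧ ∀ R, errS D ϑ τ R ≤ C₁ * τ ^ R := by
  set q := (D : ℝ) * ϑ ^ 2 / τ with hq
  have hq0 : 0 ≤ q := by positivity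
  have hq1 : q < 1 := by
    rw [hq, div_lt_one hτ0]
    nlinarith
  have hsum : Summable fun r : ℕ => ((r : ℝ) + 1) * q ^ r := by
    have h1 : Summable fun r : ℕ => ((r : ℝ) ^ 1) * q ^ r :=
      summable_pow_mul_geometric_of_norm_lt_one 1 (by rwa [Real.norm_of_nonneg hq0])
    have h2 : Summable fun r : ℕ => q ^ r := summable_geometric_of_lt_one hq0 hq1
    refine (h1.add h2).congr fun r => ?_
    ring
  set S := ∑' r : ℕ, ((r : ℝ) + 1) * q ^ r with hS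
  have hS0 : 0 ≤ S := tsum_nonneg fun r => by positivity
  refine ⟨((D : ℝ) + 1) / τ * S + 1, by positivity, fun R => ?_⟩
  have hterm : ∀ r ∈ Finset.range (R + 1),
      (((D : ℝ) + 1) * (D : ℝ) ^ r) * (((r : ℝ) + 1) * ϑ ^ (2 * r) * τ ^ (R - (r + 1))) ≤
        ((D : ℝ) + 1) / τ * τ ^ R * (((r : ℝ) + 1) * q ^ r) := by
    intro r _
    have h1 : τ ^ (R - (r + 1)) ≤ τ ^ R / τ ^ (r + 1) := by
      rw [le_div_iff₀ (by positivity), ← pow_add]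
      exact pow_le_pow_of_le_one hτ0.le hτ1.le (by omega)
    have e : ((D : ℝ) + 1) / τ * τ ^ R * (((r : ℝ) + 1) * q ^ r) =
        (((D : ℝ) + 1) * (D : ℝ) ^ r) * (((r : ℝ) + 1) * ϑ ^ (2 * r) * (τ ^ R / τ ^ (r + 1))) := by
      rw [hq, div_pow, mul_pow, ← pow_mul, pow_succ]
      field_simp
    rw [e]
    exact mul_le_mul_of_nonneg_left (mul_le_mul_of_nonneg_left h1 (by positivity)) (by positivity)
  unfold errS
  refine (Finset.sum_le_sum hterm).trans ?_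
  rw [← Finset.mul_sum]
  have h2 : ∑ r ∈ Finset.range (R + 1), ((r : ℝ) + 1) * q ^ r ≤ S :=
    hsum.sum_le_tsum _ fun r _ => by positivity
  have h3 : ((D : ℝ) + 1) / τ * τ ^ R * ∑ r ∈ Finset.range (R + 1), ((r : ℝ) + 1) * q ^ r ≤
      ((D : ℝ) + 1) / τ * τ ^ R * S := mul_le_mul_of_nonneg_left h2 (by positivity)
  have h4 : 0 ≤ τ ^ R := by positivity
  nlinarith

theorem exists_constants {V : Type u} {G : SimpleGraph V} [G.LocallyFinite] {D : ℕ} (hG : RegTree G D) {θ θ' : ℝ}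
    (hθ0 : 0 ≤ θ) (hθ : (D : ℝ) * θ ^ 2 < 1) (hθ0' : 0 ≤ θ') (hθ' : (D : ℝ) * θ' ^ 2 < 1) :
    ∃ ϑ τ : ℝ, 0 < ϑ ∧ θ ≤ ϑ ∧ θ' ≤ ϑ ∧ 0 < τ ∧ τ < 1 ∧ (D : ℝ) * ϑ ^ 2 < τ ^ 2 := by
  have hD : (2 : ℝ) ≤ D := by exact_mod_cast hG.two_le
  set m := max θ θ' with hm
  have hm0 : 0 ≤ m := hθ0.trans (le_max_left _ _)
  have hm1 : (D : ℝ) * m ^ 2 < 1 := by
    rcases max_cases θ θ' with ⟨h, _⟩ | ⟨h, _⟩ <;> rw [hm, h] <;> assumption
  have hDpos : (0 : ℝ) < D := by linarith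
  set y := ((D : ℝ) * m ^ 2 + 1) / (2 * (D : ℝ)) with hy
  have hy0 : 0 < y := by positivity
  have hϑ2 : Real.sqrt y ^ 2 = y := Real.sq_sqrt hy0.le
  have hmy : m ^ 2 ≤ y := by
    rw [hy, le_div_iff₀ (by positivity)]
    nlinarith
  have hmϑ : m ≤ Real.sqrt y := Real.le_sqrt_of_sq_le hmy
  have ha : (D : ℝ) * Real.sqrt y ^ 2 = ((D : ℝ) * m ^ 2 + 1) / 2 := by
    rw [hϑ2, hy]
    field_simp
  set a := ((D : ℝ) * m ^ 2 + 1) / 2 with haDef
  have ha1 : a < 1 := by rw [haDef]; linarith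
  have ha0 : 0 < a := by
    rw [haDef]
    positivity
  have ht : 0 < (1 + a) / 2 := by linarith
  have hτ2 : Real.sqrt ((1 + a) / 2) ^ 2 = (1 + a) / 2 := Real.sq_sqrt ht.le
  have hτ0 : 0 < Real.sqrt ((1 + a) / 2) := Real.sqrt_pos.mpr ht
  refine ⟨Real.sqrt y, Real.sqrt ((1 + a) / 2), Real.sqrt_pos.mpr hy0, (le_max_left _ _).trans hmϑ,
    (le_max_right _ _).trans hmϑ, hτ0, ?_, ?_⟩
  · by_contra hc
    push Not at hc
    nlinarith
  · rw [ha, hτ2]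
    linarith

theorem final_limit {X₁ X₂ B d τ C C' : ℝ} {x₁ x₂ : ℕ → ℝ} (hτ0 : 0 < τ) (hτ1 : τ < 1) (hd : 0 ≤ d)
    (hc₁ : ∀ R, |x₁ R - X₁| ≤ C * τ ^ R) (hc₂ : ∀ R, |x₂ R - X₂| ≤ C * τ ^ R) (hm : ∀ R, x₁ R ≤ x₂ R)
    (hdiff : ∀ R, x₂ R - x₁ R ≤ 2 * d * (B + C' * τ ^ R)) : X₁ ≤ X₂ ∧ X₂ - X₁ ≤ 2 * d * B := by
  have hlim : Tendsto (fun R : ℕ => τ ^ R) atTop (𝓝 0) :=
    tendsto_pow_atTop_nhds_zero_of_lt_one hτ0.le hτ1
  constructor
  · have hT : Tendsto (fun R : ℕ => X₂ + 2 * C * τ ^ R) atTop (𝓝 (X₂ + 2 * C * 0)) :=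
      tendsto_const_nhds.add (hlim.const_mul _)
    rw [mul_zero, add_zero] at hT
    refine ge_of_tendsto' hT fun R => ?_
    have h1 := abs_le.mp (hc₁ R)
    have h2 := abs_le.mp (hc₂ R)
    have h3 := hm R
    linarith [h1.1, h2.2]
  · have hT : Tendsto (fun R : ℕ => 2 * d * B + (2 * C + 2 * d * C') * τ ^ R) atTop
        (𝓝 (2 * d * B + (2 * C + 2 * d * C') * 0)) :=
      tendsto_const_nhds.add (hlim.const_mul _)
    rw [mul_zero, add_zero] at hT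
    refine ge_of_tendsto' hT fun R => ?_
    have h1 := abs_le.mp (hc₁ R)
    have h2 := abs_le.mp (hc₂ R)
    have h3 := hdiff R
    have e : 2 * d * (B + C' * τ ^ R) = 2 * d * B + 2 * d * C' * τ ^ R := by ring
    rw [e] at h3
    have e2 : (2 * C + 2 * d * C') * τ ^ R = 2 * (C * τ ^ R) + 2 * d * C' * τ ^ R := by ring
    rw [e2]
    linarith [h1.2, h2.1]

end Constants

section Prefactors

variable {Ω : Type*} [MeasurableSpace Ω] {μ : Measure Ω} [IsProbabilityMeasure μ]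

theorem abs_one_sub_sq_le {m : ℝ} (hm : |m| ≤ 1) : |1 - m ^ 2| ≤ 1 := by
  have : m ^ 2 ≤ 1 := (sq_le_one_iff_abs_le_one m).mpr hm
  rw [abs_le]
  constructor <;> nlinarith [sq_nonneg m]

theorem L1_cvar {M M₁ : Ω → ℝ} (mM : Measurable M) (mM₁ : Measurable M₁) (bM : ∀ x, |M x| ≤ 1)
    (bM₁ : ∀ x, |M₁ x| ≤ 1) {ρ : ℝ} (hρ : 0 ≤ ρ) (h : ∫ x, |M x - M₁ x| ∂μ ≤ ρ) :
    ∫ x, |(1 - M x ^ 2) - (1 - M₁ x ^ 2)| ∂μ ≤ 3 * ρ := by
  have i1 := integrable_abs_sub_of_bdd (μ := μ) mM mM₁ bM bM₁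
  have i2 : Integrable (fun x => |(1 - M x ^ 2) - (1 - M₁ x ^ 2)|) μ :=
    integrable_abs_sub_of_bdd (measurable_const.sub (mM.pow_const 2)) (measurable_const.sub (mM₁.pow_const 2))
      (fun x => abs_one_sub_sq_le (bM x)) (fun x => abs_one_sub_sq_le (bM₁ x))
  have h1 : ∫ x, |(1 - M x ^ 2) - (1 - M₁ x ^ 2)| ∂μ ≤ ∫ x, 2 * |M x - M₁ x| ∂μ :=
    integral_mono i2 (i1.const_mul 2) fun x => by
      show |(1 - M x ^ 2) - (1 - M₁ x ^ 2)| ≤ 2 * |M x - M₁ x|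
      have e : (1 - M x ^ 2) - (1 - M₁ x ^ 2) = (M₁ x + M x) * (M₁ x - M x) := by ring
      rw [e, abs_mul, abs_sub_comm (M₁ x)]
      apply mul_le_mul_of_nonneg_right _ (abs_nonneg _)
      exact (abs_add_le _ _).trans (by linarith [bM x, bM₁ x])
  rw [integral_const_mul] at h1
  linarith

theorem abs_n_le {a t b : ℝ} (ha : |a| ≤ 1) (ht : |t| ≤ 1) (hb : |b| ≤ 1) : |a - t * b| ≤ 2 := by
  refine (abs_sub _ _).trans ?_
  rw [abs_mul]
  have : |t| * |b| ≤ 1 * 1 := mul_le_mul ht hb (abs_nonneg _) (by norm_num)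
  linarith

theorem L1_nCoef {A A₁ T T₁ B B₁ : Ω → ℝ} (mA : Measurable A) (mA₁ : Measurable A₁) (mT : Measurable T)
    (mT₁ : Measurable T₁) (mB : Measurable B) (mB₁ : Measurable B₁) (bA : ∀ x, |A x| ≤ 1) (bA₁ : ∀ x, |A₁ x| ≤ 1)
    (bT : ∀ x, |T x| ≤ 1) (bT₁ : ∀ x, |T₁ x| ≤ 1) (bB : ∀ x, |B x| ≤ 1) (bB₁ : ∀ x, |B₁ x| ≤ 1) {ρ : ℝ}
    (hA : ∫ x, |A x - A₁ x| ∂μ ≤ ρ) (hT : ∫ x, |T x - T₁ x| ∂μ ≤ ρ) (hB : ∫ x, |B x - B₁ x| ∂μ ≤ ρ) :
    ∫ x, |(A x - T x * B x) - (A₁ x - T₁ x * B₁ x)| ∂μ ≤ 3 * ρ := by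
  have i1 := integrable_abs_sub_of_bdd (μ := μ) mA mA₁ bA bA₁
  have i2 := integrable_abs_sub_of_bdd (μ := μ) mT mT₁ bT bT₁
  have i3 := integrable_abs_sub_of_bdd (μ := μ) mB mB₁ bB bB₁
  have i4 : Integrable (fun x => |(A x - T x * B x) - (A₁ x - T₁ x * B₁ x)|) μ :=
    integrable_abs_sub_of_bdd (a := 2) (mA.sub (mT.mul mB)) (mA₁.sub (mT₁.mul mB₁))
      (fun x => abs_n_le (bA x) (bT x) (bB x)) (fun x => abs_n_le (bA₁ x) (bT₁ x) (bB₁ x))
  have i12 : Integrable (fun x => |A x - A₁ x| + |T x - T₁ x|) μ := i1.add i2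
  have h1 : ∫ x, |(A x - T x * B x) - (A₁ x - T₁ x * B₁ x)| ∂μ ≤
      ∫ x, (|A x - A₁ x| + |T x - T₁ x| + |B x - B₁ x|) ∂μ :=
    integral_mono i4 (i12.add i3) fun x => by
      show |(A x - T x * B x) - (A₁ x - T₁ x * B₁ x)| ≤ |A x - A₁ x| + |T x - T₁ x| + |B x - B₁ x|
      have e : (A x - T x * B x) - (A₁ x - T₁ x * B₁ x) =
          (A x - A₁ x) - ((T x - T₁ x) * B x + T₁ x * (B x - B₁ x)) := by ring
      rw [e]
      refine (abs_sub _ _).trans ?_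
      have h2 : |(T x - T₁ x) * B x + T₁ x * (B x - B₁ x)| ≤ |T x - T₁ x| + |B x - B₁ x| := by
        refine (abs_add_le _ _).trans (add_le_add ?_ ?_)
        · rw [abs_mul]
          calc |T x - T₁ x| * |B x| ≤ |T x - T₁ x| * 1 := mul_le_mul_of_nonneg_left (bB x) (abs_nonneg _)
            _ = _ := mul_one _
        · rw [abs_mul]
          calc |T₁ x| * |B x - B₁ x| ≤ 1 * |B x - B₁ x| := mul_le_mul_of_nonneg_right (bT₁ x) (abs_nonneg _)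
            _ = _ := one_mul _
      linarith
  rw [integral_add i12 i3, integral_add i1 i2] at h1
  linarith

/-- `L¹`-close functions have close second moments of differences. -/
theorem sq_close {M M' M₁ M₁' : Ω → ℝ} (mM : Measurable M) (mM' : Measurable M') (mM₁ : Measurable M₁)
    (mM₁' : Measurable M₁') (bM : ∀ x, |M x| ≤ 1) (bM' : ∀ x, |M' x| ≤ 1) (bM₁ : ∀ x, |M₁ x| ≤ 1)
    (bM₁' : ∀ x, |M₁' x| ≤ 1) {ρ : ℝ} (h : ∫ x, |M x - M₁ x| ∂μ ≤ ρ) (h' : ∫ x, |M' x - M₁' x| ∂μ ≤ ρ) :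
    |∫ x, (M x - M' x) ^ 2 ∂μ - ∫ x, (M₁ x - M₁' x) ^ 2 ∂μ| ≤ 8 * ρ := by
  have hd : ∀ {p q : ℝ}, |p| ≤ 1 → |q| ≤ 1 → |p - q| ≤ 2 := by
    intro p q hp hq
    exact (abs_sub _ _).trans (by linarith)
  have i1 := integrable_abs_sub_of_bdd (μ := μ) mM mM₁ bM bM₁
  have i2 := integrable_abs_sub_of_bdd (μ := μ) mM' mM₁' bM' bM₁'
  have i3 : Integrable (fun x => |(M x - M' x) - (M₁ x - M₁' x)|) μ :=
    integrable_abs_sub_of_bdd (a := 2) (mM.sub mM') (mM₁.sub mM₁') (fun x => hd (bM x) (bM' x))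
      (fun x => hd (bM₁ x) (bM₁' x))
  have h4 : ∫ x, |(M x - M' x) - (M₁ x - M₁' x)| ∂μ ≤ ∫ x, |M x - M₁ x| ∂μ + ∫ x, |M' x - M₁' x| ∂μ := by
    rw [← integral_add i1 i2]
    refine integral_mono i3 (i1.add i2) fun x => ?_
    show |(M x - M' x) - (M₁ x - M₁' x)| ≤ |M x - M₁ x| + |M' x - M₁' x|
    have e : (M x - M' x) - (M₁ x - M₁' x) = (M x - M₁ x) - (M' x - M₁' x) := by ring
    rw [e]
    exact abs_sub _ _
  have h5 : ∫ x, (M x - M' x) ^ 2 ∂μ ≤ ∫ x, (M₁ x - M₁' x) ^ 2 ∂μ + 2 * 2 * ∫ x, |(M x - M' x) - (M₁ x - M₁' x)| ∂μ :=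
    integral_sq_le_add (f := fun x => M x - M' x) (g := fun x => M₁ x - M₁' x) (mM.sub mM') (mM₁.sub mM₁')
      (fun x => hd (bM x) (bM' x)) (fun x => hd (bM₁ x) (bM₁' x))
  have h6 : ∫ x, (M₁ x - M₁' x) ^ 2 ∂μ ≤ ∫ x, (M x - M' x) ^ 2 ∂μ + 2 * 2 * ∫ x, |(M₁ x - M₁' x) - (M x - M' x)| ∂μ :=
    integral_sq_le_add (f := fun x => M₁ x - M₁' x) (g := fun x => M x - M' x) (mM₁.sub mM₁') (mM.sub mM')
      (fun x => hd (bM₁ x) (bM₁' x)) (fun x => hd (bM x) (bM' x))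
  have e6 : ∫ x, |(M₁ x - M₁' x) - (M x - M' x)| ∂μ = ∫ x, |(M x - M' x) - (M₁ x - M₁' x)| ∂μ := by
    congr 1
    funext x
    rw [abs_sub_comm]
  rw [e6] at h6
  rw [abs_le]
  constructor <;> linarith

end Prefactors

section Balls

variable {V : Type u} {G : SimpleGraph V} [G.LocallyFinite] {D : ℕ}

theorem ball_ball (hG : RegTree G D) {o x : V} {R' R : ℕ} (h : G.dist o x + R' ≤ R) : ball G x R' ⊆ ball G o R := by
  intro u hu
  rw [hG.mem_ball] at hu ⊢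
  have := hG.isTree.connected.dist_triangle (u := o) (v := x) (w := u)
  omega

/-- a point of a geodesic starting in a ball of `o`. -/
theorem geodesic_ball (hG : RegTree G D) {o a x u : V} {R r : ℕ} (ho : G.dist o a ≤ 1) (hR : G.dist o u ≤ R)
    (haR : G.dist o a ≤ R) (hr : G.dist a u = r) (hx : G.dist a x + G.dist x u = G.dist a u) :
    ball G x (R - (r + 1)) ⊆ ball G o R := by
  have hxconv : x ∈ ball G o R :=
    hG.isConvexSet_ball o R a ((hG.mem_ball _ _ _).mpr haR) u ((hG.mem_ball _ _ _).mpr hR) x hx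
  have hxd : G.dist o x ≤ R := (hG.mem_ball _ _ _).mp hxconv
  have t1 := hG.isTree.connected.dist_triangle (u := o) (v := a) (w := x)
  apply ball_ball hG
  omega

end Balls

end PairsAux

end Crest.Agent.Lib.IsingFIID
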