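/-
S0241 blueprint, Mod H1 (section 6): the pair inequality in infinite volume.
`pair_limit_mag_proved`, `pair_limit_tcor_proved`: limit `R → ∞` of (E3) + (E4) on balls, uniformly in `s` by `mInf_rate`.
-/
import Crest.Agent.Lib.IsingFIID.StrictPairsMid

set_option autoImplicit false
universe u

namespace Crest.Agent.Lib.IsingFIID

open MeasureTheory Filter
open scoped Classical Topology

namespace PairsAux

/-! ### The two main theorems -/

section Main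

variable {V : Type u} {G : SimpleGraph V} [G.LocallyFinite] {D : ℕ}

section Setup

variable (hG : RegTree G D) {θ θ' : ℝ} (hθ0 : 0 ≤ θ) (hθ : (D : ℝ) * θ ^ 2 < 1) (hθ0' : 0 ≤ θ') (hθ' : (D : ℝ) * θ' ^ 2 < 1)
  {N N' j : ℤ} (hN : N ≤ j) (hN' : N' ≤ j)
include hG hθ0 hθ hθ0' hθ' hN hN'

theorem common_setup : ∃ ϑ τ c₀ K C₁ : ℝ, 0 < ϑ ∧ (D : ℝ) * ϑ ^ 2 < 1 ∧ θ ≤ ϑ ∧ θ' ≤ ϑ ∧ 0 < τ ∧ τ < 1 ∧ 0 < c₀ ∧
    3 + 6 * Ld θ / ϑ ≤ K ∧ 3 + 6 * Ld θ' / ϑ ≤ K ∧ 0 < C₁ ∧ (∀ R, errS D ϑ τ R ≤ C₁ * τ ^ R) ∧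
    RateL1 G θ N j (fun R' => c₀ * τ ^ R') ∧ RateL1 G θ' N' j (fun R' => c₀ * τ ^ R') := by
  obtain ⟨ϑ, τ, hϑ0, hθϑ, hθϑ', hτ0, hτ1, hϑτ⟩ := exists_constants hG hθ0 hθ hθ0' hθ'
  have h1 := theta_lt_one hG hθ0 hθ
  have h1' := theta_lt_one hG hθ0' hθ'
  have hτ2 : τ ^ 2 < 1 := by nlinarith
  have hτ20 : 0 < τ ^ 2 := by positivity
  have hκ : 1 < (τ ^ 2)⁻¹ := (one_lt_inv₀ hτ20).mpr hτ2
  have hD0 : (0 : ℝ) ≤ D := by positivity
  have hκθ : ∀ {t : ℝ}, 0 ≤ t → t ≤ ϑ → (D : ℝ) * t ^ 2 * (τ ^ 2)⁻¹ < 1 := by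
    intro t ht0 ht
    rw [← div_eq_mul_inv, div_lt_one hτ20]
    have : t ^ 2 ≤ ϑ ^ 2 := pow_le_pow_left₀ ht0 ht 2
    nlinarith
  obtain ⟨c₁, hc₁, r₁⟩ := rateL1_of_rate hG hθ0 hθ hN hκ (hκθ hθ0 hθϑ) hτ0 (inv_inv _).symm
  obtain ⟨c₂, hc₂, r₂⟩ := rateL1_of_rate hG hθ0' hθ' hN' hκ (hκθ hθ0' hθϑ') hτ0 (inv_inv _).symm
  obtain ⟨C₁, hC₁, herr⟩ := errS_le (D := D) hϑ0 hτ0 hτ1 hϑτ
  have hL := Ld_nonneg hθ0 h1
  have hL' := Ld_nonneg hθ0' h1'
  refine ⟨ϑ, τ, c₁ + c₂, 3 + 6 * Ld θ / ϑ + 6 * Ld θ' / ϑ, C₁, hϑ0, by linarith, hθϑ, hθϑ', hτ0, hτ1, by linarith, ?_, ?_,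
    hC₁, herr, r₁.mono fun R' => ?_, r₂.mono fun R' => ?_⟩
  · have : 0 ≤ 6 * Ld θ' / ϑ := by positivity
    linarith
  · have : 0 ≤ 6 * Ld θ / ϑ := by positivity
    linarith
  · show c₁ * τ ^ R' ≤ (c₁ + c₂) * τ ^ R'
    have : 0 ≤ τ ^ R' := by positivity
    nlinarith
  · show c₂ * τ ^ R' ≤ (c₁ + c₂) * τ ^ R'
    have : 0 ≤ τ ^ R' := by positivity
    nlinarith

end Setup

section Bounds

variable (hG : RegTree G D) {θ θ' : ℝ} (hθ0 : 0 ≤ θ) (hθ : (D : ℝ) * θ ^ 2 < 1) (hθ0' : 0 ≤ θ') (hθ' : (D : ℝ) * θ' ^ 2 < 1)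
  {N N' j : ℤ} (hN : N ≤ j) (hN' : N' ≤ j)
  {c₀ τ : ℝ} (hc₀ : 0 < c₀) (hτ : 0 < τ)
  (hRate : RateL1 G θ N j (fun R' => c₀ * τ ^ R')) (hRate' : RateL1 G θ' N' j (fun R' => c₀ * τ ^ R'))
  {s : ℝ} (hs0 : 0 ≤ s) (hs : s ≤ 1 / 2)
  {ϑ K : ℝ} (hϑ0 : 0 < ϑ) (hϑ : (D : ℝ) * ϑ ^ 2 < 1) (hθϑ : θ ≤ ϑ) (hθϑ' : θ' ≤ ϑ)
  (hK : 3 + 6 * Ld θ / ϑ ≤ K) (hK' : 3 + 6 * Ld θ' / ϑ ≤ K)
include hG hθ0 hθ hθ0' hθ' hN hN' hc₀ hτ hRate hRate' hs0 hs hϑ0 hϑ hθϑ hθϑ' hK hK'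

theorem mag_sum_bound (v : V) (R : ℕ) :
    ∑ u ∈ ball G v R ∪ ball G v R, ∫ x, (∫ U in (0 : ℝ)..1, psiU G θ θ' (ball G v R) (ball G v R) (eps j)
        (fun A => spin A v) (fun A => spin A v) (fieldAt G θ (ball G v R) N x j s)
        (fieldAt G θ' (ball G v R) N' x j s) u U) ∂(omP V) ≤
      TmInf G θ θ' N N' j s v + 60 * K * c₀ * errS D ϑ τ R := by
  rw [Finset.union_self]
  have hW := hG.isConvexSet_ball v R
  have hv : v ∈ ball G v R := (hG.mem_ball _ _ _).mpr (by simp)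
  have hne : (ball G v R).Nonempty := ⟨v, hv⟩
  have h1 := theta_lt_one hG hθ0 hθ
  have h1' := theta_lt_one hG hθ0' hθ'
  set W := ball G v R with hWdef
  have mM := measurable_mW hG hθ0 hθ hW hne (N := N) (j := j) s v
  have mM' := measurable_mW hG hθ0' hθ' hW hne (N := N') (j := j) s v
  have bM := abs_mW_le hG hθ0 hθ hW hne (N := N) (j := j) s v
  have bM' := abs_mW_le hG hθ0' hθ' hW hne (N := N') (j := j) s v
  have mI := measurable_mInf hG hθ0 hθ hN s v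
  have mI' := measurable_mInf hG hθ0' hθ' hN' s v
  have bI := abs_mInf_le hG hθ0 hθ (N := N) (j := j) s v
  have bI' := abs_mInf_le hG hθ0' hθ' (N := N') (j := j) s v
  have hballv : ∀ R', R' ≤ R → ball G v R' ⊆ W := fun R' hR' =>
    ball_ball hG (by simpa using hR')
  have hbd : ∀ {m : Om V → ℝ}, (∀ x, |m x| ≤ 1) → ∀ x, |1 - m x ^ 2| ≤ 2 := by
    intro m hm x
    exact (abs_one_sub_sq_le (hm x)).trans (by norm_num)
  have mP : Measurable fun x => 1 - mW G θ W N j s v x ^ 2 := measurable_const.sub (mM.pow_const 2)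
  have mP' : Measurable fun x => 1 - mW G θ' W N' j s v x ^ 2 := measurable_const.sub (mM'.pow_const 2)
  have mPi : Measurable (cInf G θ N j s v) := measurable_cInf hG hθ0 hθ hN s v
  have mPi' : Measurable (cInf G θ' N' j s v) := measurable_cInf hG hθ0' hθ' hN' s v
  have hPP : ∀ u ∈ W, ∫ x, |(1 - mW G θ W N j s v x ^ 2) - cInf G θ N j s v x| ∂(omP V) ≤
      3 * (c₀ * τ ^ (R - (G.dist v u + 1))) := fun u _ =>
    L1_cvar mM mI bM bI (by positivity) (hRate hW hne (hballv _ (Nat.sub_le _ _)) hs0 hs).1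
  have hPP' : ∀ u ∈ W, ∫ x, |(1 - mW G θ' W N' j s v x ^ 2) - cInf G θ' N' j s v x| ∂(omP V) ≤
      3 * (c₀ * τ ^ (R - (G.dist v u + 1))) := fun u _ =>
    L1_cvar mM' mI' bM' bI' (by positivity) (hRate' hW hne (hballv _ (Nat.sub_le _ _)) hs0 hs).1
  have hcov : ∀ u ∈ W, ∀ x, covG G θ (fieldAt G θ W N x j s) W (fun A => spin A v) (fun A => spin A u) =
      (1 - mW G θ W N j s v x ^ 2) * pathProd G (fun p q => bW G θ W N j s p q x) v u := fun u hu x =>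
    cov_eq_pathProd hG hθ0 h1 (fun y => field_lt hG hθ0 hθ hW hne s x y) hW hne hv hu
  have hcov' : ∀ u ∈ W, ∀ x, covG G θ' (fieldAt G θ' W N' x j s) W (fun A => spin A v) (fun A => spin A u) =
      (1 - mW G θ' W N' j s v x ^ 2) * pathProd G (fun p q => bW G θ' W N' j s p q x) v u := fun u hu x =>
    cov_eq_pathProd hG hθ0' h1' (fun y => field_lt hG hθ0' hθ' hW hne s x y) hW hne hv hu
  have h := side_total (f := fun A => spin A v) hG hθ0 hθ hθ0' hθ' hN hN' hc₀ hτ hRate hRate' hW hne hs0 hs hϑ0 hϑ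
    hθϑ hθϑ' hK hK' (a := v) (S := W) (T := fun r => sphere G v r) (R := R) hv (subset_refl _)
    (fun r => subset_refl _)
    (fun u hu => ⟨(hG.mem_ball _ _ _).mp hu, (hG.mem_sphere _ _ _).mpr rfl⟩)
    (fun u hu x hx => geodesic_ball hG (o := v) (a := v) (by simp) ((hG.mem_ball _ _ _).mp hu) (by simp) rfl hx)
    mP mPi mP' mPi' mP' mPi' (hbd bM)
    (fun x => by
      have := (stInf hG hθ0 hθ N j hN s).c_nonneg v x
      have h2 := (stInf hG hθ0 hθ N j hN s).c_le v x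
      rw [abs_le]
      exact ⟨by linarith [show cInf G θ N j s v x = (stInf hG hθ0 hθ N j hN s).c v x from rfl],
        by linarith [show cInf G θ N j s v x = (stInf hG hθ0 hθ N j hN s).c v x from rfl]⟩)
    (hbd bM')
    (fun x => by
      have := (stInf hG hθ0' hθ' N' j hN' s).c_nonneg v x
      have h2 := (stInf hG hθ0' hθ' N' j hN' s).c_le v x
      rw [abs_le]
      exact ⟨by linarith [show cInf G θ' N' j s v x = (stInf hG hθ0' hθ' N' j hN' s).c v x from rfl],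
        by linarith [show cInf G θ' N' j s v x = (stInf hG hθ0' hθ' N' j hN' s).c v x from rfl]⟩)
    (hbd bM')
    (fun x => by
      have := (stInf hG hθ0' hθ' N' j hN' s).c_nonneg v x
      have h2 := (stInf hG hθ0' hθ' N' j hN' s).c_le v x
      rw [abs_le]
      exact ⟨by linarith [show cInf G θ' N' j s v x = (stInf hG hθ0' hθ' N' j hN' s).c v x from rfl],
        by linarith [show cInf G θ' N' j s v x = (stInf hG hθ0' hθ' N' j hN' s).c v x from rfl]⟩)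
    hPP hPP' hPP' hcov hcov' (fun u hu x => le_of_eq (by rw [hcov' u hu x]))
  unfold TmInf totalDiff totalWeighted
  exact h

/-- one half of the tree, for the two point function. -/
theorem half_tcor {W : Finset V} (hW : IsConvexSet G W) (hne : W.Nonempty) {z w : V} (hzw : G.Adj z w) (hz : z ∈ W)
    (hw : w ∈ W) {R : ℕ} (hSR : ∀ u ∈ sideOf G z w W, G.dist w u ≤ R)
    (hball : ∀ u ∈ sideOf G z w W, ∀ x, G.dist w x + G.dist x u = G.dist w u → ball G x (R - (G.dist w u + 1)) ⊆ W)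
    (hballz : ∀ u ∈ sideOf G z w W, ball G z (R - (G.dist w u + 1)) ⊆ W) :
    ∑ u ∈ sideOf G z w W, ∫ x, (∫ U in (0 : ℝ)..1, psiU G θ θ' W W (eps j) (fun A => spin A z * spin A w)
        (fun A => spin A z * spin A w) (fieldAt G θ W N x j s) (fieldAt G θ' W N' x j s) u U) ∂(omP V) ≤
      2 * eps j ^ 2 * ∫ x, sideDiff G (nInf G θ N j s z w x) (nInf G θ' N' j s z w x)
        (fun a b => bInf G θ N j s a b x) (fun a b => bInf G θ' N' j s a b x) z w ∂(omP V) +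
      512 * eps j ^ 4 * ∫ x, totalWeighted G (fun u => (mInf G θ N j s u x - mInf G θ' N' j s u x) ^ 2)
        (cInf G θ' N' j s w x) (fun a b => bInf G θ' N' j s a b x) w ∂(omP V) +
      60 * K * c₀ * errS D ϑ τ R := by
  have h1 := theta_lt_one hG hθ0 hθ
  have h1' := theta_lt_one hG hθ0' hθ'
  have hS₀ : ∀ u ∈ sideOf G z w W, u ∈ W ∧ G.dist w u < G.dist z u := fun u hu => Finset.mem_filter.mp hu
  -- measurability and bounds of the magnetisations and the two point functions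
  have mMz := measurable_mW hG hθ0 hθ hW hne (N := N) (j := j) s z
  have mMw := measurable_mW hG hθ0 hθ hW hne (N := N) (j := j) s w
  have mT := measurable_tW hG hθ0 hθ hW hne (N := N) (j := j) s z w
  have mMz' := measurable_mW hG hθ0' hθ' hW hne (N := N') (j := j) s z
  have mMw' := measurable_mW hG hθ0' hθ' hW hne (N := N') (j := j) s w
  have mT' := measurable_tW hG hθ0' hθ' hW hne (N := N') (j := j) s z w
  have bMz := abs_mW_le hG hθ0 hθ hW hne (N := N) (j := j) s z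
  have bMw := abs_mW_le hG hθ0 hθ hW hne (N := N) (j := j) s w
  have bT := abs_tW_le hG hθ0 hθ hW hne (N := N) (j := j) s z w
  have bMz' := abs_mW_le hG hθ0' hθ' hW hne (N := N') (j := j) s z
  have bMw' := abs_mW_le hG hθ0' hθ' hW hne (N := N') (j := j) s w
  have bT' := abs_tW_le hG hθ0' hθ' hW hne (N := N') (j := j) s z w
  have mIz := measurable_mInf hG hθ0 hθ hN s z
  have mIw := measurable_mInf hG hθ0 hθ hN s w
  have mIT := measurable_tInf hG hθ0 hθ hN s z w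
  have mIz' := measurable_mInf hG hθ0' hθ' hN' s z
  have mIw' := measurable_mInf hG hθ0' hθ' hN' s w
  have mIT' := measurable_tInf hG hθ0' hθ' hN' s z w
  have bIz := abs_mInf_le hG hθ0 hθ (N := N) (j := j) s z
  have bIw := abs_mInf_le hG hθ0 hθ (N := N) (j := j) s w
  have bIT := abs_tInf_le hG hθ0 hθ (N := N) (j := j) s z w
  have bIz' := abs_mInf_le hG hθ0' hθ' (N := N') (j := j) s z
  have bIw' := abs_mInf_le hG hθ0' hθ' (N := N') (j := j) s w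
  have bIT' := abs_tInf_le hG hθ0' hθ' (N := N') (j := j) s z w
  have hbd : ∀ {m : Om V → ℝ}, (∀ x, |m x| ≤ 1) → ∀ x, |1 - m x ^ 2| ≤ 2 := by
    intro m hm x
    exact (abs_one_sub_sq_le (hm x)).trans (by norm_num)
  have hballw : ∀ u ∈ sideOf G z w W, ball G w (R - (G.dist w u + 1)) ⊆ W := fun u hu =>
    hball u hu w (by rw [SimpleGraph.dist_self, Nat.zero_add])
  have hPP : ∀ u ∈ sideOf G z w W, ∫ x, |(mW G θ W N j s z x - tW G θ W N j s z w x * mW G θ W N j s w x) -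
      nInf G θ N j s z w x| ∂(omP V) ≤ 3 * (c₀ * τ ^ (R - (G.dist w u + 1))) := fun u hu =>
    L1_nCoef mMz mIz mT mIT mMw mIw bMz bIz bT bIT bMw bIw (hRate hW hne (hballz u hu) hs0 hs).1
      ((hRate hW hne (hballz u hu) hs0 hs).2 w hzw) (hRate hW hne (hballw u hu) hs0 hs).1
  have hPP' : ∀ u ∈ sideOf G z w W, ∫ x, |(mW G θ' W N' j s z x - tW G θ' W N' j s z w x * mW G θ' W N' j s w x) -
      nInf G θ' N' j s z w x| ∂(omP V) ≤ 3 * (c₀ * τ ^ (R - (G.dist w u + 1))) := fun u hu =>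
    L1_nCoef mMz' mIz' mT' mIT' mMw' mIw' bMz' bIz' bT' bIT' bMw' bIw' (hRate' hW hne (hballz u hu) hs0 hs).1
      ((hRate' hW hne (hballz u hu) hs0 hs).2 w hzw) (hRate' hW hne (hballw u hu) hs0 hs).1
  have hQQ : ∀ u ∈ sideOf G z w W, ∫ x, |(1 - mW G θ' W N' j s w x ^ 2) - cInf G θ' N' j s w x| ∂(omP V) ≤
      3 * (c₀ * τ ^ (R - (G.dist w u + 1))) := fun u hu =>
    L1_cvar mMw' mIw' bMw' bIw' (by positivity) (hRate' hW hne (hballw u hu) hs0 hs).1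
  have hcov : ∀ u ∈ sideOf G z w W, ∀ x, covG G θ (fieldAt G θ W N x j s) W (fun A => spin A z * spin A w)
      (fun A => spin A u) =
      (mW G θ W N j s z x - tW G θ W N j s z w x * mW G θ W N j s w x) *
        pathProd G (fun p q => bW G θ W N j s p q x) w u := fun u hu x =>
    covPair_eq_pathProd hG hθ0 h1 (fun y => field_lt hG hθ0 hθ hW hne s x y) hW hne hzw hz hw (hS₀ u hu).1 (hS₀ u hu).2
  have hcov' : ∀ u ∈ sideOf G z w W, ∀ x, covG G θ' (fieldAt G θ' W N' x j s) W (fun A => spin A z * spin A w)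
      (fun A => spin A u) =
      (mW G θ' W N' j s z x - tW G θ' W N' j s z w x * mW G θ' W N' j s w x) *
        pathProd G (fun p q => bW G θ' W N' j s p q x) w u := fun u hu x =>
    covPair_eq_pathProd hG hθ0' h1' (fun y => field_lt hG hθ0' hθ' hW hne s x y) hW hne hzw hz hw (hS₀ u hu).1 (hS₀ u hu).2
  have hcovQ : ∀ u ∈ sideOf G z w W, ∀ x, covG G θ' (fieldAt G θ' W N' x j s) W (fun A => spin A z * spin A w)
      (fun A => spin A u) ^ 2 ≤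
      ((1 - mW G θ' W N' j s w x ^ 2) * pathProd G (fun p q => bW G θ' W N' j s p q x) w u) ^ 2 := by
    intro u hu x
    rw [hcov' u hu x, mul_pow, mul_pow]
    refine mul_le_mul_of_nonneg_right ?_ (sq_nonneg _)
    have h3 : |nCoef G θ' (fieldAt G θ' W N' x j s) W z w| ≤ cvar G θ' (fieldAt G θ' W N' x j s) W w :=
      abs_nCoef_le hG hθ0' h1' (fun y => field_lt hG hθ0' hθ' hW hne s x y) hW hne hz hw
    exact sq_le_sq.mpr (h3.trans (le_abs_self _))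
  have h := side_total (f := fun A => spin A z * spin A w) hG hθ0 hθ hθ0' hθ' hN hN' hc₀ hτ hRate hRate' hW hne hs0 hs
    hϑ0 hϑ hθϑ hθϑ' hK hK' (a := w) (S := sideOf G z w W) (T := fun r => desc G r z w) (R := R) hw
    (Finset.filter_subset _ _)
    (fun r u hu => (hG.mem_sphere _ _ _).mpr ((hG.mem_desc hzw r u).mp hu).1)
    (fun u hu => ⟨hSR u hu, (hG.mem_desc hzw _ u).mpr ⟨rfl, by
      have t := hG.isTree.connected.dist_triangle (u := z) (v := w) (w := u)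
      have t1 : G.dist z w = 1 := SimpleGraph.dist_eq_one_iff_adj.mpr hzw
      have := (hS₀ u hu).2
      omega⟩⟩)
    hball (mMz.sub (mT.mul mMw)) (mIz.sub (mIT.mul mIw)) (mMz'.sub (mT'.mul mMw')) (mIz'.sub (mIT'.mul mIw'))
    (measurable_const.sub (mMw'.pow_const 2)) (measurable_cInf hG hθ0' hθ' hN' s w)
    (fun x => abs_n_le (bMz x) (bT x) (bMw x)) (fun x => abs_n_le (bIz x) (bIT x) (bIw x))
    (fun x => abs_n_le (bMz' x) (bT' x) (bMw' x)) (fun x => abs_n_le (bIz' x) (bIT' x) (bIw' x))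
    (hbd bMw') (hbd bIw') hPP hPP' hQQ hcov hcov' hcovQ
  unfold sideDiff totalWeighted
  exact h

/-- the sum over all vertices for the two point function. -/
theorem tcor_sum_bound {z w : V} (hzw : G.Adj z w) (R : ℕ) :
    ∑ u ∈ ball G z (R + 1) ∪ ball G z (R + 1), ∫ x, (∫ U in (0 : ℝ)..1, psiU G θ θ' (ball G z (R + 1)) (ball G z (R + 1))
        (eps j) (fun A => spin A z * spin A w) (fun A => spin A z * spin A w) (fieldAt G θ (ball G z (R + 1)) N x j s)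
        (fieldAt G θ' (ball G z (R + 1)) N' x j s) u U) ∂(omP V) ≤
      TtInf G θ θ' N N' j s z w + 2 * (60 * K * c₀ * errS D ϑ τ (R + 1)) := by
  rw [Finset.union_self]
  have hW := hG.isConvexSet_ball z (R + 1)
  have hd1 : G.dist z w = 1 := SimpleGraph.dist_eq_one_iff_adj.mpr hzw
  have hz : z ∈ ball G z (R + 1) := (hG.mem_ball _ _ _).mpr (by simp)
  have hw : w ∈ ball G z (R + 1) := (hG.mem_ball _ _ _).mpr (by omega)
  have hne : (ball G z (R + 1)).Nonempty := ⟨z, hz⟩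
  have hmem : ∀ {u}, u ∈ ball G z (R + 1) → G.dist z u ≤ R + 1 := fun hu => (hG.mem_ball _ _ _).mp hu
  set W := ball G z (R + 1) with hWdef
  have hc := isCut_sides hG.isTree hzw hz hw
  have hS₁ : ∀ {a b u : V}, u ∈ sideOf G a b W → u ∈ W ∧ G.dist b u < G.dist a u := fun hu => Finset.mem_filter.mp hu
  have h₂ := half_tcor hG hθ0 hθ hθ0' hθ' hN hN' hc₀ hτ hRate hRate' hs0 hs hϑ0 hϑ hθϑ hθϑ' hK hK' hW hne hzw hz hw
    (R := R + 1)
    (fun u hu => by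
      have h3 := hS₁ hu
      have h4 := hmem h3.1
      omega)
    (fun u hu x hx => geodesic_ball hG (o := z) (a := w) (by omega) (hmem (hS₁ hu).1) (by omega) rfl hx)
    (fun u hu => ball_ball hG (by
      rw [SimpleGraph.dist_self]
      omega))
  have h₁ := half_tcor hG hθ0 hθ hθ0' hθ' hN hN' hc₀ hτ hRate hRate' hs0 hs hϑ0 hϑ hθϑ hθϑ' hK hK' hW hne hzw.symm hw hz
    (R := R + 1)
    (fun u hu => hmem (hS₁ hu).1)
    (fun u hu x hx => geodesic_ball hG (o := z) (a := z) (by simp) (hmem (hS₁ hu).1) (by simp) rfl hx)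
    (fun u hu => ball_ball hG (by omega))
  have hf : (fun A : Finset V => spin A w * spin A z) = fun A => spin A z * spin A w :=
    funext fun A => mul_comm _ _
  rw [hf] at h₁
  have e := Finset.sum_union (f := fun u => ∫ x, (∫ U in (0 : ℝ)..1, psiU G θ θ' W W
        (eps j) (fun A => spin A z * spin A w) (fun A => spin A z * spin A w) (fieldAt G θ W N x j s)
        (fieldAt G θ' W N' x j s) u U) ∂(omP V)) hc.disj
  rw [← hc.union] at e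
  rw [e]
  unfold TtInf
  linarith

end Bounds

end Main
/-! ### The final statements -/

section Final

variable {V : Type u} {G : SimpleGraph V} [G.LocallyFinite] {D : ℕ}

variable (hG : RegTree G D) {θ θ' : ℝ} (hθ0 : 0 ≤ θ) (hθ : (D : ℝ) * θ ^ 2 < 1) (hθ0' : 0 ≤ θ') (hθ' : (D : ℝ) * θ' ^ 2 < 1)
  {N N' j : ℤ} (hN : N ≤ j) (hN' : N' ≤ j) {s₁ s₂ : ℝ} (hs₁ : 0 ≤ s₁) (hs₁₂ : s₁ ≤ s₂) (hs₂ : s₂ ≤ 1 / 2) {B : ℝ}
include hG hθ0 hθ hθ0' hθ' hN hN' hs₁ hs₁₂ hs₂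

theorem mag_limit_aux (v : V) (hB : ∀ s ∈ Set.Icc s₁ s₂, TmInf G θ θ' N N' j s v ≤ B) :
    (∫ x, (mInf G θ N j s₁ v x - mInf G θ' N' j s₁ v x) ^ 2 ∂(omP V) ≤
      ∫ x, (mInf G θ N j s₂ v x - mInf G θ' N' j s₂ v x) ^ 2 ∂(omP V)) ∧
    (∫ x, (mInf G θ N j s₂ v x - mInf G θ' N' j s₂ v x) ^ 2 ∂(omP V) -
      ∫ x, (mInf G θ N j s₁ v x - mInf G θ' N' j s₁ v x) ^ 2 ∂(omP V) ≤ 2 * (s₂ - s₁) * B) := by
  obtain ⟨ϑ, τ, c₀, K, C₁, hϑ0, hϑ, hθϑ, hθϑ', hτ0, hτ1, hc₀, hK, hK', hC₁, herr, hRate, hRate'⟩ :=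
    common_setup hG hθ0 hθ hθ0' hθ' hN hN'
  have h1 := theta_lt_one hG hθ0 hθ
  have h1' := theta_lt_one hG hθ0' hθ'
  have hK0 : 0 ≤ K := by
    have : 0 ≤ 6 * Ld θ / ϑ := by
      have := Ld_nonneg hθ0 h1
      positivity
    linarith
  have hd : 0 ≤ s₂ - s₁ := by linarith
  set X : ℕ → ℝ → ℝ := fun R s => ∫ x, (mW G θ (ball G v R) N j s v x - mW G θ' (ball G v R) N' j s v x) ^ 2 ∂(omP V)
    with hX
  have hball : ∀ R, (ball G v R).Nonempty := fun R => ⟨v, (hG.mem_ball _ _ _).mpr (by simp)⟩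
  have hclose : ∀ s, 0 ≤ s → s ≤ 1 / 2 → ∀ R, |X R s - ∫ x, (mInf G θ N j s v x - mInf G θ' N' j s v x) ^ 2 ∂(omP V)| ≤
      (8 * c₀) * τ ^ R := by
    intro s hs0 hs R
    have hW := hG.isConvexSet_ball v R
    have hne := hball R
    have h := sq_close (μ := omP V) (measurable_mW hG hθ0 hθ hW hne (N := N) (j := j) s v)
      (measurable_mW hG hθ0' hθ' hW hne (N := N') (j := j) s v) (measurable_mInf hG hθ0 hθ hN s v)
      (measurable_mInf hG hθ0' hθ' hN' s v) (abs_mW_le hG hθ0 hθ hW hne s v) (abs_mW_le hG hθ0' hθ' hW hne s v)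
      (abs_mInf_le hG hθ0 hθ s v) (abs_mInf_le hG hθ0' hθ' s v) (hRate hW hne (subset_refl _) hs0 hs).1
      (hRate' hW hne (subset_refl _) hs0 hs).1
    calc _ ≤ 8 * (c₀ * τ ^ R) := h
      _ = _ := by ring
  have hpair : ∀ R, X R s₁ ≤ X R s₂ ∧ X R s₂ - X R s₁ ≤ 2 * (s₂ - s₁) * (B + 60 * K * c₀ * errS D ϑ τ R) := by
    intro R
    have hW := hG.isConvexSet_ball v R
    have hne := hball R
    exact pair_inequality hG hθ0 h1 hθ0' h1' hW hne hW hne hN hN' (f := fun A => spin A v) (f' := fun A => spin A v)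
      (fun A => by rw [abs_spin]) (fun A => by rw [abs_spin]) hs₁ hs₁₂ hs₂ (B := B + 60 * K * c₀ * errS D ϑ τ R)
      (fun s hs => (mag_sum_bound hG hθ0 hθ hθ0' hθ' hN hN' hc₀ hτ0 hRate hRate' (hs₁.trans hs.1) (hs.2.trans hs₂)
        hϑ0 hϑ hθϑ hθϑ' hK hK' v R).trans (by linarith [hB s hs]))
  refine final_limit (d := s₂ - s₁) (C := 8 * c₀) (C' := 60 * K * c₀ * C₁) (x₁ := fun R => X R s₁)
    (x₂ := fun R => X R s₂) hτ0 hτ1 hd (hclose s₁ hs₁ (by linarith)) (hclose s₂ (by linarith) hs₂)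
    (fun R => (hpair R).1) (fun R => (hpair R).2.trans ?_)
  refine mul_le_mul_of_nonneg_left ?_ (by positivity)
  have h3 : 60 * K * c₀ * errS D ϑ τ R ≤ 60 * K * c₀ * (C₁ * τ ^ R) :=
    mul_le_mul_of_nonneg_left (herr R) (by positivity)
  have e : 60 * K * c₀ * C₁ * τ ^ R = 60 * K * c₀ * (C₁ * τ ^ R) := by ring
  rw [e]
  linarith

theorem tcor_limit_aux {z w : V} (hzw : G.Adj z w) (hB : ∀ s ∈ Set.Icc s₁ s₂, TtInf G θ θ' N N' j s z w ≤ B) :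
    (∫ x, (tInf G θ N j s₁ z w x - tInf G θ' N' j s₁ z w x) ^ 2 ∂(omP V) ≤
      ∫ x, (tInf G θ N j s₂ z w x - tInf G θ' N' j s₂ z w x) ^ 2 ∂(omP V)) ∧
    (∫ x, (tInf G θ N j s₂ z w x - tInf G θ' N' j s₂ z w x) ^ 2 ∂(omP V) -
      ∫ x, (tInf G θ N j s₁ z w x - tInf G θ' N' j s₁ z w x) ^ 2 ∂(omP V) ≤ 2 * (s₂ - s₁) * B) := by
  obtain ⟨ϑ, τ, c₀, K, C₁, hϑ0, hϑ, hθϑ, hθϑ', hτ0, hτ1, hc₀, hK, hK', hC₁, herr, hRate, hRate'⟩ :=
    common_setup hG hθ0 hθ hθ0' hθ' hN hN'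
  have h1 := theta_lt_one hG hθ0 hθ
  have h1' := theta_lt_one hG hθ0' hθ'
  have hK0 : 0 ≤ K := by
    have : 0 ≤ 6 * Ld θ / ϑ := by
      have := Ld_nonneg hθ0 h1
      positivity
    linarith
  have hd : 0 ≤ s₂ - s₁ := by linarith
  set X : ℕ → ℝ → ℝ := fun R s => ∫ x, (tW G θ (ball G z (R + 1)) N j s z w x -
    tW G θ' (ball G z (R + 1)) N' j s z w x) ^ 2 ∂(omP V) with hX
  have hball : ∀ R, (ball G z R).Nonempty := fun R => ⟨z, (hG.mem_ball _ _ _).mpr (by simp)⟩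
  have hτR : ∀ R : ℕ, τ ^ (R + 1) ≤ τ ^ R := fun R => pow_le_pow_of_le_one hτ0.le hτ1.le (Nat.le_succ R)
  have hclose : ∀ s, 0 ≤ s → s ≤ 1 / 2 → ∀ R, |X R s - ∫ x, (tInf G θ N j s z w x - tInf G θ' N' j s z w x) ^ 2 ∂(omP V)| ≤
      (8 * c₀) * τ ^ R := by
    intro s hs0 hs R
    have hW := hG.isConvexSet_ball z (R + 1)
    have hne := hball (R + 1)
    have h := sq_close (μ := omP V) (measurable_tW hG hθ0 hθ hW hne (N := N) (j := j) s z w)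
      (measurable_tW hG hθ0' hθ' hW hne (N := N') (j := j) s z w) (measurable_tInf hG hθ0 hθ hN s z w)
      (measurable_tInf hG hθ0' hθ' hN' s z w) (abs_tW_le hG hθ0 hθ hW hne s z w) (abs_tW_le hG hθ0' hθ' hW hne s z w)
      (abs_tInf_le hG hθ0 hθ s z w) (abs_tInf_le hG hθ0' hθ' s z w) ((hRate hW hne (subset_refl _) hs0 hs).2 w hzw)
      ((hRate' hW hne (subset_refl _) hs0 hs).2 w hzw)
    calc _ ≤ 8 * (c₀ * τ ^ (R + 1)) := h
      _ ≤ 8 * (c₀ * τ ^ R) := by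
          have := mul_le_mul_of_nonneg_left (hτR R) hc₀.le
          linarith
      _ = _ := by ring
  have hpair : ∀ R, X R s₁ ≤ X R s₂ ∧
      X R s₂ - X R s₁ ≤ 2 * (s₂ - s₁) * (B + 2 * (60 * K * c₀ * errS D ϑ τ (R + 1))) := by
    intro R
    have hW := hG.isConvexSet_ball z (R + 1)
    have hne := hball (R + 1)
    exact pair_inequality hG hθ0 h1 hθ0' h1' hW hne hW hne hN hN' (f := fun A => spin A z * spin A w)
      (f' := fun A => spin A z * spin A w)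
      (fun A => abs_spin_mul_le A z w) (fun A => abs_spin_mul_le A z w) hs₁ hs₁₂ hs₂
      (B := B + 2 * (60 * K * c₀ * errS D ϑ τ (R + 1)))
      (fun s hs => (tcor_sum_bound hG hθ0 hθ hθ0' hθ' hN hN' hc₀ hτ0 hRate hRate' (hs₁.trans hs.1) (hs.2.trans hs₂)
        hϑ0 hϑ hθϑ hθϑ' hK hK' hzw R).trans (by linarith [hB s hs]))
  refine final_limit (d := s₂ - s₁) (C := 8 * c₀) (C' := 2 * (60 * K * c₀ * C₁)) (x₁ := fun R => X R s₁)
    (x₂ := fun R => X R s₂) hτ0 hτ1 hd (hclose s₁ hs₁ (by linarith)) (hclose s₂ (by linarith) hs₂)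
    (fun R => (hpair R).1) (fun R => (hpair R).2.trans ?_)
  refine mul_le_mul_of_nonneg_left ?_ (by positivity)
  have h3 : 60 * K * c₀ * errS D ϑ τ (R + 1) ≤ 60 * K * c₀ * (C₁ * τ ^ R) :=
    mul_le_mul_of_nonneg_left ((herr (R + 1)).trans (mul_le_mul_of_nonneg_left (hτR R) hC₁.le)) (by positivity)
  have e : 2 * (60 * K * c₀ * C₁) * τ ^ R = 2 * (60 * K * c₀ * (C₁ * τ ^ R)) := by ring
  rw [e]
  linarith

end Final

end PairsAux

section Pairs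

variable {V : Type u} {G : SimpleGraph V} [G.LocallyFinite] {D : ℕ}

variable (hG : RegTree G D) {θ θ' : ℝ} (hθ0 : 0 ≤ θ) (hθ : (D : ℝ) * θ ^ 2 < 1) (hθ0' : 0 ≤ θ') (hθ' : (D : ℝ) * θ' ^ 2 < 1)
  {N N' j : ℤ} (hN : N ≤ j) (hN' : N' ≤ j) {s₁ s₂ : ℝ} (hs₁ : 0 ≤ s₁) (hs₁₂ : s₁ ≤ s₂) (hs₂ : s₂ ≤ 1 / 2) {B : ℝ}
include hG hθ0 hθ hθ0' hθ' hN hN' hs₁ hs₁₂ hs₂

/-- **(H1) magnetisation.**  Limit `R → ∞` of (E3) + (E4) on `W = W' = ball v R`, uniformly in `s` by `mInf_rate`. -/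
theorem pair_limit_mag_proved (v : V) (hB : ∀ s ∈ Set.Icc s₁ s₂, TmInf G θ θ' N N' j s v ≤ B) :
    (∫ x, (mInf G θ N j s₁ v x - mInf G θ' N' j s₁ v x) ^ 2 ∂(omP V) ≤
      ∫ x, (mInf G θ N j s₂ v x - mInf G θ' N' j s₂ v x) ^ 2 ∂(omP V)) ∧
    (∫ x, (mInf G θ N j s₂ v x - mInf G θ' N' j s₂ v x) ^ 2 ∂(omP V) -
      ∫ x, (mInf G θ N j s₁ v x - mInf G θ' N' j s₁ v x) ^ 2 ∂(omP V) ≤ 2 * (s₂ - s₁) * B) :=
  PairsAux.mag_limit_aux hG hθ0 hθ hθ0' hθ' hN hN' hs₁ hs₁₂ hs₂ v hB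

/-- **(H1) two point function**, on `W = W' = ball z R`. -/
theorem pair_limit_tcor_proved {z w : V} (hzw : G.Adj z w) (hB : ∀ s ∈ Set.Icc s₁ s₂, TtInf G θ θ' N N' j s z w ≤ B) :
    (∫ x, (tInf G θ N j s₁ z w x - tInf G θ' N' j s₁ z w x) ^ 2 ∂(omP V) ≤
      ∫ x, (tInf G θ N j s₂ z w x - tInf G θ' N' j s₂ z w x) ^ 2 ∂(omP V)) ∧
    (∫ x, (tInf G θ N j s₂ z w x - tInf G θ' N' j s₂ z w x) ^ 2 ∂(omP V) -
      ∫ x, (tInf G θ N j s₁ z w x - tInf G θ' N' j s₁ z w x) ^ 2 ∂(omP V) ≤ 2 * (s₂ - s₁) * B) :=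
  PairsAux.tcor_limit_aux hG hθ0 hθ hθ0' hθ' hN hN' hs₁ hs₁₂ hs₂ hzw hB

end Pairs

alias pair_limit_mag := pair_limit_mag_proved
alias pair_limit_tcor := pair_limit_tcor_proved

end Crest.Agent.Lib.IsingFIID
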