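/-
S0241 blueprint, Mod M-d: `bihari_partition`, `sweep_step`, `start_bound`, `critical_pair` (helper26).
-/
import Crest.Agent.Lib.IsingFIID.CriticalPairT
import Crest.Agent.Lib.IsingFIID.CriticalMoments
import Crest.Agent.Lib.IsingFIID.StrictPairs

set_option autoImplicit false
universe u

namespace Crest.Agent.Lib.IsingFIID

open MeasureTheory Filter
open scoped Classical Topology

/-- concavity of `x ↦ x^r`, tangent line at `a`. -/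
theorem rpow_sub_rpow_le_aux {a b r : ℝ} (ha : 0 < a) (hb : 0 ≤ b) (hr0 : 0 ≤ r) (hr1 : r ≤ 1) :
    b ^ r - a ^ r ≤ r * a ^ (r - 1) * (b - a) := by
  have h1 : (1 + (b - a) / a) ^ r ≤ 1 + r * ((b - a) / a) := by
    refine rpow_one_add_le_one_add_mul_self ?_ hr0 hr1
    have : 0 ≤ b / a := div_nonneg hb ha.le
    have h2 : (b - a) / a = b / a - 1 := by field_simp
    rw [h2]; linarith
  have h3 : 1 + (b - a) / a = b / a := by field_simp; ring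
  rw [h3, Real.div_rpow hb ha.le] at h1
  have har : 0 < a ^ r := Real.rpow_pos_of_pos ha r
  have h4 : b ^ r ≤ a ^ r * (1 + r * ((b - a) / a)) := by
    rw [div_le_iff₀ har] at h1
    linarith
  have h5 : a ^ (r - 1) = a ^ r / a := by
    rw [Real.rpow_sub_one ha.ne']
  rw [h5]
  have h6 : a ^ r * (1 + r * ((b - a) / a)) = a ^ r + r * (a ^ r / a) * (b - a) := by
    field_simp
  linarith

theorem bihari_partition_proved {X : ℝ → ℝ} (hX0 : ∀ s ∈ Set.Icc (0 : ℝ) (1 / 2), 0 ≤ X s)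
    (hmono : MonotoneOn X (Set.Icc 0 (1 / 2))) {y τ A : ℝ} (hy : 1 < y) (hτ : 0 < τ) (hA : 0 ≤ A)
    (h : ∀ s₁ s₂, 0 ≤ s₁ → s₁ ≤ s₂ → s₂ ≤ 1 / 2 → X s₂ - X s₁ ≤ (s₂ - s₁) * A * (X s₂ + τ) ^ (1 - 1 / y)) :
    (X (1 / 2) + τ) ^ (1 / y) ≤ (X 0 + τ) ^ (1 / y) + A / y := by
  set r : ℝ := 1 / y with hr
  have hy0 : 0 < y := by linarith
  have hr0 : 0 < r := by positivity
  have hr1 : r ≤ 1 := by rw [hr, div_le_one hy0]; exact hy.le
  set a : ℝ := 1 - r with ha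
  have ha0 : 0 ≤ a := by linarith
  have ha1 : a ≤ 1 := by linarith
  have hhalf : (1 / 2 : ℝ) ∈ Set.Icc (0 : ℝ) (1 / 2) := by constructor <;> norm_num
  have hXh : 0 ≤ X (1 / 2) := hX0 _ hhalf
  set L : ℝ := A * (X (1 / 2) + τ) ^ a with hL
  have hL0 : 0 ≤ L := by positivity
  obtain ⟨n, hn⟩ := exists_nat_gt (L / (2 * τ) + 1)
  have hn0 : (0 : ℝ) < n := by
    have : 0 ≤ L / (2 * τ) := by positivity
    linarith
  have hnpos : 0 < n := by exact_mod_cast hn0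
  set h' : ℝ := 1 / (2 * n) with hh'
  have hh'0 : 0 < h' := by positivity
  have hh'L : h' * L ≤ τ := by
    rw [hh']
    have h2 : L / (2 * τ) < n := by linarith
    rw [div_lt_iff₀ (by positivity)] at h2
    rw [div_mul_eq_mul_div, one_mul, div_le_iff₀ (by positivity)]
    nlinarith
  have hs : ∀ i : ℕ, i ≤ n → (i : ℝ) * h' ∈ Set.Icc (0 : ℝ) (1 / 2) := by
    intro i hi
    have hi' : (i : ℝ) ≤ n := by exact_mod_cast hi
    constructor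
    · positivity
    · rw [hh', mul_one_div, div_le_iff₀ (by positivity)]
      linarith
  have hu : ∀ i : ℕ, i ≤ n → 0 < X ((i : ℝ) * h') + τ := by
    intro i hi
    have := hX0 _ (hs i hi)
    linarith
  -- one step
  have hstep : ∀ i : ℕ, i < n →
      (X (((i + 1 : ℕ) : ℝ) * h') + τ) ^ r ≤ (X ((i : ℝ) * h') + τ) ^ r + r * h' * A * 2 := by
    intro i hi
    have hi1 : i + 1 ≤ n := hi
    set s₁ : ℝ := (i : ℝ) * h' with hs₁
    set s₂ : ℝ := ((i + 1 : ℕ) : ℝ) * h' with hs₂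
    have hs₁m := hs i hi.le
    have hs₂m := hs (i + 1) hi1
    have hs₂₁ : s₂ - s₁ = h' := by
      rw [hs₁, hs₂]; push_cast; ring
    have hle : s₁ ≤ s₂ := by linarith
    have hstep0 := h s₁ s₂ hs₁m.1 hle hs₂m.2
    rw [hs₂₁] at hstep0
    set u₁ : ℝ := X s₁ + τ with hu₁
    set u₂ : ℝ := X s₂ + τ with hu₂
    have hu₁0 : 0 < u₁ := hu i hi.le
    have hu₂0 : 0 < u₂ := hu (i + 1) hi1
    have hu₁τ : τ ≤ u₁ := by have := hX0 _ hs₁m; rw [hu₁]; linarith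
    have hu₁₂ : u₁ ≤ u₂ := by
      have := hmono hs₁m hs₂m hle
      rw [hu₁, hu₂]; linarith
    have hstep1 : u₂ - u₁ ≤ h' * A * u₂ ^ a := by
      have : u₂ - u₁ = X s₂ - X s₁ := by rw [hu₁, hu₂]; ring
      rw [this]; exact hstep0
    -- Lipschitz
    have hu₂h : u₂ ≤ X (1 / 2) + τ := by
      have := hmono hs₂m hhalf hs₂m.2
      rw [hu₂]; linarith
    have hlip : u₂ - u₁ ≤ τ := by
      have h3 : u₂ ^ a ≤ (X (1 / 2) + τ) ^ a := Real.rpow_le_rpow hu₂0.le hu₂h ha0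
      have h4 : h' * A * u₂ ^ a ≤ h' * L := by
        rw [hL, mul_assoc]
        apply mul_le_mul_of_nonneg_left _ hh'0.le
        exact mul_le_mul_of_nonneg_left h3 hA
      linarith
    have hdouble : u₂ ≤ 2 * u₁ := by linarith
    have hcon := rpow_sub_rpow_le_aux hu₁0 hu₂0.le hr0.le hr1
    -- `u₁^(r-1) * u₂^a = (u₂/u₁)^a ≤ 2`
    have hratio : u₁ ^ (r - 1) * u₂ ^ a ≤ 2 := by
      have h5 : r - 1 = -a := by rw [ha]; ring
      rw [h5, Real.rpow_neg hu₁0.le, ← div_eq_inv_mul, ← Real.div_rpow hu₂0.le hu₁0.le]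
      have h6 : u₂ / u₁ ≤ 2 := by rw [div_le_iff₀ hu₁0]; linarith
      have h7 : 1 ≤ u₂ / u₁ := by rw [one_le_div hu₁0]; exact hu₁₂
      calc (u₂ / u₁) ^ a ≤ (u₂ / u₁) ^ (1 : ℝ) := Real.rpow_le_rpow_of_exponent_le h7 ha1
        _ = u₂ / u₁ := Real.rpow_one _
        _ ≤ 2 := h6
    have h8 : r * u₁ ^ (r - 1) * (u₂ - u₁) ≤ r * h' * A * 2 := by
      have hp : 0 ≤ u₁ ^ (r - 1) := (Real.rpow_pos_of_pos hu₁0 _).le
      calc r * u₁ ^ (r - 1) * (u₂ - u₁) ≤ r * u₁ ^ (r - 1) * (h' * A * u₂ ^ a) :=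
            mul_le_mul_of_nonneg_left hstep1 (by positivity)
        _ = r * h' * A * (u₁ ^ (r - 1) * u₂ ^ a) := by ring
        _ ≤ r * h' * A * 2 := mul_le_mul_of_nonneg_left hratio (by positivity)
    linarith
  -- iterate
  have hiter : ∀ i : ℕ, i ≤ n →
      (X ((i : ℝ) * h') + τ) ^ r ≤ (X (((0 : ℕ) : ℝ) * h') + τ) ^ r + (i : ℝ) * (r * h' * A * 2) := by
    intro i
    induction i with
    | zero => intro _; simp
    | succ i ih =>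
      intro hi
      have h1 := ih (by omega)
      have h2 := hstep i hi
      push_cast at h1 h2 ⊢
      linarith
  have hfin := hiter n le_rfl
  have hnh : (n : ℝ) * h' = 1 / 2 := by
    rw [hh']; field_simp
  rw [hnh] at hfin
  have h0 : (((0 : ℕ) : ℝ) * h') = 0 := by simp
  rw [h0] at hfin
  have hlast : (n : ℝ) * (r * h' * A * 2) = A / y := by
    rw [hh', hr]; field_simp
  rw [hlast] at hfin
  exact hfin


section Sweep

variable {V : Type u} {G : SimpleGraph V} [G.LocallyFinite] {D : ℕ}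

theorem Xpair_nonneg (θ θ' : ℝ) (N N' j : ℤ) (s : ℝ) (p y : V) : 0 ≤ Xpair G θ θ' N N' j s p y :=
  add_nonneg (integral_nonneg fun _ => sq_nonneg _) (integral_nonneg fun _ => sq_nonneg _)

theorem integral_sq_sub_le_four {f g : Om V → ℝ} (hf : ∀ x, |f x| ≤ 1) (hg : ∀ x, |g x| ≤ 1) :
    ∫ x, (f x - g x) ^ 2 ∂(omP V) ≤ 4 := by
  have h : ∫ x, (f x - g x) ^ 2 ∂(omP V) ≤ ∫ _, (4 : ℝ) ∂(omP V) := by
    refine integral_mono_of_nonneg (ae_of_all _ fun _ => sq_nonneg _) (integrable_const _)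
      (ae_of_all _ fun x => ?_)
    have h1 := abs_le.1 (hf x)
    have h2 := abs_le.1 (hg x)
    show (f x - g x) ^ 2 ≤ 4
    nlinarith
  simpa using h

theorem Xpair_le (hG : RegTree G D) {θ θ' : ℝ} (hθ0 : 0 ≤ θ) (hθ : (D : ℝ) * θ ^ 2 < 1) (hθ0' : 0 ≤ θ')
    (hθ' : (D : ℝ) * θ' ^ 2 < 1) (N N' j : ℤ) (s : ℝ) (p y : V) : Xpair G θ θ' N N' j s p y ≤ 8 := by
  unfold Xpair
  have h1 := integral_sq_sub_le_four (f := mInf G θ N j s p) (g := mInf G θ' N' j s p)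
    (abs_mInf_le hG hθ0 hθ s p) (abs_mInf_le hG hθ0' hθ' s p)
  have h2 := integral_sq_sub_le_four (f := tInf G θ N j s p y) (g := tInf G θ' N' j s p y)
    (abs_tInf_le hG hθ0 hθ s p y) (abs_tInf_le hG hθ0' hθ' s p y)
  linarith

end Sweep

theorem sweep_step_proved (D : ℕ) : ∃ C₁ : ℝ, 1 ≤ C₁ ∧ ∀ {V : Type u} {G : SimpleGraph V} [G.LocallyFinite] (_ : RegTree G D)
    {θ θ' : ℝ} (_ : 0 ≤ θ) (_ : (D : ℝ) * θ ^ 2 < 1) (_ : 0 ≤ θ') (_ : (D : ℝ) * θ' ^ 2 < 1)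
    {N N' j : ℤ} (_ : N ≤ j) (_ : N' ≤ j) {y₀ : ℕ} (_ : 2 ≤ y₀) {K Vb g τ : ℝ} (_ : 1 ≤ K) (_ : 0 ≤ Vb) (_ : 0 ≤ g)
    (_ : 0 < τ) (_ : τ ≤ 1)
    (_ : ∀ s, 0 ≤ s → s ≤ 1 / 2 → ∀ {p y : V}, G.Adj p y →
      ∫ x, Qmix G (fun a b => bInf G θ N j s a b x) (fun a b => bInf G θ N j s a b x) p y ^ (4 * y₀) ∂(omP V) ≤ K ^ (4 * y₀))
    (_ : ∀ s, 0 ≤ s → s ≤ 1 / 2 → ∀ {p y : V}, G.Adj p y →
      ∫ x, Qmix G (fun a b => bInf G θ' N' j s a b x) (fun a b => bInf G θ' N' j s a b x) p y ^ (4 * y₀) ∂(omP V) ≤ K ^ (4 * y₀))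
    (_ : ∀ s, 0 ≤ s → s ≤ 1 / 2 → ∀ {p y : V}, G.Adj p y → ∫ x, cavInf G θ N j s p y x ^ (4 * y₀) ∂(omP V) ≤ Vb ^ (2 * y₀))
    (_ : ∀ s, 0 ≤ s → s ≤ 1 / 2 → ∀ {p y : V}, G.Adj p y → ∫ x, cavInf G θ' N' j s p y x ^ (4 * y₀) ∂(omP V) ≤ Vb ^ (2 * y₀))
    (_ : ∀ s, 0 ≤ s → s ≤ 1 / 2 → ∀ {p y : V}, G.Adj p y → |EQ G θ N j s p y - EQ G θ' N' j s p y| ≤ g)
    {p y : V} (_ : G.Adj p y),
    (Xpair G θ θ' N N' (j + 1) 0 p y + τ) ^ (1 / (y₀ : ℝ)) ≤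
      (Xpair G θ θ' N N' j 0 p y + τ) ^ (1 / (y₀ : ℝ)) +
        4 * C₁ * eps j ^ 2 * (Vb * K ^ 2 + K + (g ^ 2 + (θ - θ') ^ 2 * K ^ 2) / τ) / y₀ := by
  obtain ⟨C₁, hC₁, hT⟩ := pair_T_le.{u} D
  refine ⟨C₁, hC₁, ?_⟩
  intro V G _ hG θ θ' hθ0 hθ hθ0' hθ' N N' j hN hN' y₀ hy₀ K Vb g τ hK hVb hg hτ hτ1 hQ hQ' hc hc' hE p y hpy
  set X : ℝ → ℝ := fun s => Xpair G θ θ' N N' j s p y with hX
  have hy₀R : (1 : ℝ) < (y₀ : ℝ) := by
    have : (2 : ℝ) ≤ y₀ := by exact_mod_cast hy₀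
    linarith
  have hy₀pos : (0 : ℝ) < y₀ := by linarith
  set a : ℝ := 1 - 1 / (y₀ : ℝ) with ha
  have ha0 : 0 ≤ a := by
    rw [ha]
    have : 1 / (y₀ : ℝ) ≤ 1 := by rw [div_le_one hy₀pos]; exact hy₀R.le
    linarith
  have ha1 : a ≤ 1 := by
    rw [ha]
    have : 0 ≤ 1 / (y₀ : ℝ) := by positivity
    linarith
  set WK : ℝ := Vb * K ^ 2 + K with hWK
  have hK0 : 0 ≤ K := by linarith
  have hWK0 : 0 ≤ WK := by positivity
  set R : ℝ := g ^ 2 + (θ - θ') ^ 2 * K ^ 2 with hR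
  have hR0 : 0 ≤ R := by positivity
  set c : ℝ := C₁ * eps j ^ 2 with hc0
  have hC₁0 : 0 ≤ C₁ := by linarith
  have hcnn : 0 ≤ c := by positivity
  have hX0 : ∀ s, 0 ≤ X s := fun s => Xpair_nonneg _ _ _ _ _ _ _ _
  have hX8 : ∀ s, X s ≤ 8 := fun s => Xpair_le hG hθ0 hθ hθ0' hθ' _ _ _ _ _ _
  -- the bound at one time
  have hTb : ∀ s, 0 ≤ s → s ≤ 1 / 2 →
      TmInf G θ θ' N N' j s p ≤ c * (X s ^ a * WK + R) ∧ TtInf G θ θ' N N' j s p y ≤ c * (X s ^ a * WK + R) := by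
    intro s hs0 hs
    have := hT hG hθ0 hθ hθ0' hθ' hN hN' hs0 hs hy₀ hK hVb hg
      (fun {p y} h => hQ s hs0 hs h) (fun {p y} h => hQ' s hs0 hs h)
      (fun {p y} h => hc s hs0 hs h) (fun {p y} h => hc' s hs0 hs h)
      (fun {p y} h => hE s hs0 hs h) hpy hpy
    simp only at this
    have e : C₁ * eps j ^ 2 * (Xpair G θ θ' N N' j s p y ^ (1 - 1 / (y₀ : ℝ)) * (Vb * K ^ 2 + K) + g ^ 2 +
        (θ - θ') ^ 2 * K ^ 2) = c * (X s ^ a * WK + R) := by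
      simp only [hc0, hWK, hR, hX, ha]; ring
    rw [e] at this
    exact this
  -- crude bound and monotonicity
  set B₀ : ℝ := c * (8 * WK + R) with hB₀
  have hXa : ∀ s, X s ^ a ≤ 8 := by
    intro s
    calc X s ^ a ≤ (8 : ℝ) ^ a := Real.rpow_le_rpow (hX0 s) (hX8 s) ha0
      _ ≤ (8 : ℝ) ^ (1 : ℝ) := Real.rpow_le_rpow_of_exponent_le (by norm_num) ha1
      _ = 8 := Real.rpow_one _
  have hB₀b : ∀ s, c * (X s ^ a * WK + R) ≤ B₀ := by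
    intro s
    apply mul_le_mul_of_nonneg_left _ hcnn
    have := mul_le_mul_of_nonneg_right (hXa s) hWK0
    linarith
  have hmonoX : ∀ s₁ s₂, 0 ≤ s₁ → s₁ ≤ s₂ → s₂ ≤ 1 / 2 → X s₁ ≤ X s₂ := by
    intro s₁ s₂ hs₁ hs₁₂ hs₂
    have h1 := (pair_limit_mag hG hθ0 hθ hθ0' hθ' hN hN' hs₁ hs₁₂ hs₂ p (B := B₀)
      (fun s hs => ((hTb s (hs₁.trans hs.1) (hs.2.trans hs₂)).1).trans (hB₀b s))).1
    have h2 := (pair_limit_tcor hG hθ0 hθ hθ0' hθ' hN hN' hs₁ hs₁₂ hs₂ hpy (B := B₀)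
      (fun s hs => ((hTb s (hs₁.trans hs.1) (hs.2.trans hs₂)).2).trans (hB₀b s))).1
    show Xpair G θ θ' N N' j s₁ p y ≤ Xpair G θ θ' N N' j s₂ p y
    unfold Xpair
    linarith
  have hmonoOn : MonotoneOn X (Set.Icc 0 (1 / 2)) := fun s₁ h₁ s₂ h₂ hle => hmonoX s₁ s₂ h₁.1 hle h₂.2
  -- the increment
  set A : ℝ := 4 * C₁ * eps j ^ 2 * (WK + R / τ) with hA
  have hA0 : 0 ≤ A := by positivity
  have hinc : ∀ s₁ s₂, 0 ≤ s₁ → s₁ ≤ s₂ → s₂ ≤ 1 / 2 →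
      X s₂ - X s₁ ≤ (s₂ - s₁) * A * (X s₂ + τ) ^ (1 - 1 / (y₀ : ℝ)) := by
    intro s₁ s₂ hs₁ hs₁₂ hs₂
    have hBs : ∀ s ∈ Set.Icc s₁ s₂, c * (X s ^ a * WK + R) ≤ c * (X s₂ ^ a * WK + R) := by
      intro s hs
      apply mul_le_mul_of_nonneg_left _ hcnn
      have h3 : X s ^ a ≤ X s₂ ^ a :=
        Real.rpow_le_rpow (hX0 s) (hmonoX s s₂ (hs₁.trans hs.1) hs.2 hs₂) ha0
      have := mul_le_mul_of_nonneg_right h3 hWK0
      linarith
    have h1 := (pair_limit_mag hG hθ0 hθ hθ0' hθ' hN hN' hs₁ hs₁₂ hs₂ p (B := c * (X s₂ ^ a * WK + R))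
      (fun s hs => ((hTb s (hs₁.trans hs.1) (hs.2.trans hs₂)).1).trans (hBs s hs))).2
    have h2 := (pair_limit_tcor hG hθ0 hθ hθ0' hθ' hN hN' hs₁ hs₁₂ hs₂ hpy (B := c * (X s₂ ^ a * WK + R))
      (fun s hs => ((hTb s (hs₁.trans hs.1) (hs.2.trans hs₂)).2).trans (hBs s hs))).2
    have h3 : X s₂ - X s₁ ≤ 4 * (s₂ - s₁) * (c * (X s₂ ^ a * WK + R)) := by
      show Xpair G θ θ' N N' j s₂ p y - Xpair G θ θ' N N' j s₁ p y ≤ _
      unfold Xpair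
      linarith
    have hd : 0 ≤ s₂ - s₁ := by linarith
    have hu : X s₂ ^ a ≤ (X s₂ + τ) ^ a := Real.rpow_le_rpow (hX0 _) (by linarith) ha0
    have hτa : τ ≤ (X s₂ + τ) ^ a := by
      calc τ = τ ^ (1 : ℝ) := (Real.rpow_one _).symm
        _ ≤ τ ^ a := Real.rpow_le_rpow_of_exponent_ge hτ hτ1 ha1
        _ ≤ (X s₂ + τ) ^ a := Real.rpow_le_rpow hτ.le (by linarith [hX0 s₂]) ha0
    have hR' : R ≤ (R / τ) * (X s₂ + τ) ^ a := by
      have h4 : R = (R / τ) * τ := by field_simp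
      calc R = (R / τ) * τ := h4
        _ ≤ (R / τ) * (X s₂ + τ) ^ a := mul_le_mul_of_nonneg_left hτa (by positivity)
    have h5 : X s₂ ^ a * WK + R ≤ (X s₂ + τ) ^ a * (WK + R / τ) := by
      have := mul_le_mul_of_nonneg_right hu hWK0
      nlinarith
    calc X s₂ - X s₁ ≤ 4 * (s₂ - s₁) * (c * (X s₂ ^ a * WK + R)) := h3
      _ ≤ 4 * (s₂ - s₁) * (c * ((X s₂ + τ) ^ a * (WK + R / τ))) := by
          apply mul_le_mul_of_nonneg_left _ (by positivity)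
          exact mul_le_mul_of_nonneg_left h5 hcnn
      _ = (s₂ - s₁) * A * (X s₂ + τ) ^ (1 - 1 / (y₀ : ℝ)) := by
          rw [hA, hc0]; ring
  have hfin := bihari_partition_proved (X := X) (y := (y₀ : ℝ)) (τ := τ) (A := A)
    (fun s _ => hX0 s) hmonoOn hy₀R hτ hA0 hinc
  have hhalf : X (1 / 2) = Xpair G θ θ' N N' (j + 1) 0 p y := by
    show Xpair G θ θ' N N' j (1 / 2) p y = _
    unfold Xpair
    simp only [mInf_half hG hθ0 hθ hN, mInf_half hG hθ0' hθ' hN', tInf_half hG hθ0 hθ hN, tInf_half hG hθ0' hθ' hN']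
  rw [hhalf] at hfin
  exact hfin


section Start

variable {V : Type u} {G : SimpleGraph V} [G.LocallyFinite] {D : ℕ}

theorem measurable_clampOne_cp {Ω : Type*} [MeasurableSpace Ω] {f : Ω → ℝ} (hf : Measurable f) :
    Measurable fun x => clampOne (f x) := by
  unfold clampOne
  exact measurable_const.max (measurable_const.min hf)

theorem measurable_cavInf_cp (hG : RegTree G D) {θ : ℝ} (hθ0 : 0 ≤ θ) (hθ : (D : ℝ) * θ ^ 2 < 1) {N j : ℤ}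
    (hN : N ≤ j) (s : ℝ) (p y : V) : Measurable (cavInf G θ N j s p y) := by
  unfold cavInf cavOf
  refine measurable_clampOne_cp ?_
  have h1 := measurable_mInf hG hθ0 hθ hN s y
  have h2 := measurable_mInf hG hθ0 hθ hN s p
  have h3 := measurable_tInf hG hθ0 hθ hN s p y
  exact (h1.sub (measurable_const.mul h2)).div (measurable_const.sub (measurable_const.mul h3))

theorem integrable_pow_of_abs_le_one {f : Om V → ℝ} (hf : Measurable f) (h1 : ∀ x, |f x| ≤ 1) (k : ℕ) :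
    Integrable (fun x => f x ^ k) (omP V) := by
  refine Integrable.of_bound (hf.pow_const k).aestronglyMeasurable 1 (ae_of_all _ fun x => ?_)
  rw [Real.norm_eq_abs, abs_pow]
  exact pow_le_one₀ (abs_nonneg _) (h1 x)

/-- `(E f²)² ≤ E f⁴`. -/
theorem sq_integral_sq_le {f : Om V → ℝ} (hf : Measurable f) (h1 : ∀ x, |f x| ≤ 1) :
    (∫ x, f x ^ 2 ∂(omP V)) ^ 2 ≤ ∫ x, f x ^ 4 ∂(omP V) := by
  set c := ∫ x, f x ^ 2 ∂(omP V) with hc
  have h2 := integrable_pow_of_abs_le_one hf h1 2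
  have h4 := integrable_pow_of_abs_le_one hf h1 4
  have h0 : 0 ≤ ∫ x, (f x ^ 2 - c) ^ 2 ∂(omP V) := integral_nonneg fun _ => sq_nonneg _
  have he : ∫ x, (f x ^ 2 - c) ^ 2 ∂(omP V) = ∫ x, f x ^ 4 ∂(omP V) - c ^ 2 := by
    have e1 : (fun x => (f x ^ 2 - c) ^ 2) = fun x => f x ^ 4 - (2 * c) * f x ^ 2 + c ^ 2 := by
      funext x; ring
    have i1 : Integrable (fun x => f x ^ 4 - (2 * c) * f x ^ 2) (omP V) := h4.sub (h2.const_mul _)
    rw [e1, integral_add i1 (integrable_const _), integral_sub h4 (h2.const_mul _), integral_const_mul, ← hc]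
    simp
    ring
  linarith

theorem integral_sq_le_of_four {f : Om V → ℝ} (hf : Measurable f) (h1 : ∀ x, |f x| ≤ 1) {T : ℝ}
    (hT : ∫ x, f x ^ 4 ∂(omP V) ≤ 3 * T) : ∫ x, f x ^ 2 ∂(omP V) ≤ 2 * Real.sqrt T := by
  have h2 := sq_integral_sq_le hf h1
  have h0 : 0 ≤ ∫ x, f x ^ 4 ∂(omP V) := integral_nonneg fun x => by positivity
  have hT0 : 0 ≤ T := by linarith
  have h3 : (∫ x, f x ^ 2 ∂(omP V)) ^ 2 ≤ (2 * Real.sqrt T) ^ 2 := by
    rw [mul_pow, Real.sq_sqrt hT0]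
    linarith
  exact abs_le_of_sq_le_sq' h3 (by positivity) |>.2

/-- the pointwise algebra for the start. -/
theorem start_pointwise {θ a b m t : ℝ} (hθ0 : 0 ≤ θ) (hθ : θ ≤ 3 / 4) (ha : |a| ≤ 1) (hb : |b| ≤ 1)
    (hm : m = (b + θ * a) / (1 + θ * a * b)) (ht : t = (θ + a * b) / (1 + θ * a * b)) :
    m ^ 2 ≤ 32 * (a ^ 2 + b ^ 2) ∧ (t - θ) ^ 2 ≤ 16 * a ^ 2 := by
  have ha' := abs_le.1 ha
  have hb' := abs_le.1 hb
  have hab : -1 ≤ a * b := by nlinarith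
  have hab1 : (a * b) ^ 2 ≤ a ^ 2 := by
    have : b ^ 2 ≤ 1 := by nlinarith
    have h2 := mul_le_mul_of_nonneg_left this (sq_nonneg a)
    nlinarith
  have hden : 1 / 4 ≤ 1 + θ * a * b := by
    have : θ * (a * b) ≥ θ * (-1) := mul_le_mul_of_nonneg_left hab hθ0
    nlinarith
  have hden0 : 0 < 1 + θ * a * b := by linarith
  have hd2 : 1 ≤ 16 * (1 + θ * a * b) ^ 2 := by nlinarith
  constructor
  · rw [hm, div_pow, div_le_iff₀ (by positivity)]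
    have h1 : (b + θ * a) ^ 2 ≤ 2 * (a ^ 2 + b ^ 2) := by
      have : θ ^ 2 ≤ 1 := by nlinarith
      have h3 := mul_le_mul_of_nonneg_right this (sq_nonneg a)
      nlinarith [sq_nonneg (b - θ * a)]
    have h2 : 0 ≤ a ^ 2 + b ^ 2 := by positivity
    nlinarith
  · have e : t - θ = (a * b * (1 - θ ^ 2)) / (1 + θ * a * b) := by
      rw [ht]; field_simp; ring
    rw [e, div_pow, div_le_iff₀ (by positivity)]
    have h1 : (a * b * (1 - θ ^ 2)) ^ 2 ≤ (a * b) ^ 2 := by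
      have h3 : (1 - θ ^ 2) ^ 2 ≤ 1 := by
        have : θ ^ 2 ≤ 1 := by nlinarith
        have : 0 ≤ θ ^ 2 := sq_nonneg θ
        nlinarith
      rw [mul_pow]
      have := mul_le_mul_of_nonneg_left h3 (sq_nonneg (a * b))
      linarith
    have h2 : 0 ≤ a ^ 2 := sq_nonneg a
    nlinarith

omit [G.LocallyFinite] in
theorem theta_le_of_regTree (hG : RegTree G D) {θ : ℝ} (hθ0 : 0 ≤ θ) (hθ : (D : ℝ) * θ ^ 2 ≤ 1) : θ ≤ 3 / 4 := by
  have h2 : (2 : ℝ) ≤ D := by exact_mod_cast hG.two_le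
  have h3 : 2 * θ ^ 2 ≤ (D : ℝ) * θ ^ 2 := mul_le_mul_of_nonneg_right h2 (sq_nonneg θ)
  nlinarith

end Start

theorem start_bound_proved (D : ℕ) : ∃ C : ℝ, 0 < C ∧ ∀ {V : Type u} {G : SimpleGraph V} [G.LocallyFinite]
    (_ : RegTree G D) {θ : ℝ} (_ : 0 ≤ θ) (_ : (D : ℝ) * θ ^ 2 < 1) {N j : ℤ} (_ : N ≤ j) {s : ℝ} (_ : 0 ≤ s) (_ : s ≤ 1 / 2)
    {p y : V} (_ : G.Adj p y),
    ∫ x, mInf G θ N j s p x ^ 2 ∂(omP V) + ∫ x, (tInf G θ N j s p y x - θ) ^ 2 ∂(omP V) ≤ C * Real.sqrt (timeT N j s) := by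
  refine ⟨160, by norm_num, ?_⟩
  intro V G _ hG θ hθ0 hθ N j hN s hs0 hs p y hpy
  have hθ34 : θ ≤ 3 / 4 := theta_le_of_regTree hG hθ0 hθ.le
  set a := cavInf G θ N j s p y with ha
  set b := cavInf G θ N j s y p with hb
  have ham : Measurable a := measurable_cavInf_cp hG hθ0 hθ hN s p y
  have hbm : Measurable b := measurable_cavInf_cp hG hθ0 hθ hN s y p
  have ha1 : ∀ x, |a x| ≤ 1 := abs_cavInf_le hG hθ0 hθ s p y
  have hb1 : ∀ x, |b x| ≤ 1 := abs_cavInf_le hG hθ0 hθ s y p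
  have ha2 := integrable_pow_of_abs_le_one ham ha1 2
  have hb2 := integrable_pow_of_abs_le_one hbm hb1 2
  have hA : ∫ x, a x ^ 2 ∂(omP V) ≤ 2 * Real.sqrt (timeT N j s) :=
    integral_sq_le_of_four ham ha1 (integral_cav_four_le hG hθ0 hθ hN hs0 hs hpy)
  have hB : ∫ x, b x ^ 2 ∂(omP V) ≤ 2 * Real.sqrt (timeT N j s) :=
    integral_sq_le_of_four hbm hb1 (integral_cav_four_le hG hθ0 hθ hN hs0 hs hpy.symm)
  have hrel := rel_inf hG hθ0 hθ hN hs0 hs hpy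
  have hptw : ∀ᵐ x ∂(omP V), mInf G θ N j s p x ^ 2 ≤ 32 * (a x ^ 2 + b x ^ 2) ∧
      (tInf G θ N j s p y x - θ) ^ 2 ≤ 16 * a x ^ 2 := by
    filter_upwards [hrel] with x hx
    obtain ⟨-, h2, h3⟩ := hx
    exact start_pointwise hθ0 hθ34 (ha1 x) (hb1 x) h2 h3
  have h1 : ∫ x, mInf G θ N j s p x ^ 2 ∂(omP V) ≤ ∫ x, 32 * (a x ^ 2 + b x ^ 2) ∂(omP V) :=
    integral_mono_of_nonneg (ae_of_all _ fun _ => sq_nonneg _) ((ha2.add hb2).const_mul 32)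
      (hptw.mono fun x hx => hx.1)
  have h2 : ∫ x, (tInf G θ N j s p y x - θ) ^ 2 ∂(omP V) ≤ ∫ x, 16 * a x ^ 2 ∂(omP V) :=
    integral_mono_of_nonneg (ae_of_all _ fun _ => sq_nonneg _) (ha2.const_mul 16)
      (hptw.mono fun x hx => hx.2)
  rw [integral_const_mul, integral_add ha2 hb2] at h1
  rw [integral_const_mul] at h2
  have hs' : 0 ≤ Real.sqrt (timeT N j s) := Real.sqrt_nonneg _
  nlinarith


section Arith

/-- real arithmetic of one step. -/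
theorem step_arith {CQ c₂ ξ μ L K Vb R' : ℝ} (hCQ : 1 ≤ CQ) (hc₂0 : 0 < c₂) (hc₂1 : c₂ ≤ 1) (hξ0 : 0 < ξ) (hξ1 : ξ ≤ 1)
    (hμ0 : 0 < μ) (hL : 1 ≤ L) (hVb0 : 0 ≤ Vb) (hVb1 : Vb ≤ 1)
    (hK : K = CQ * (1 / (c₂ * Real.sqrt μ) + L)) (hR : R' ≤ ξ * (1 + K ^ 2)) :
    μ / 16 * (Vb * K ^ 2 + K + R') ≤
      CQ ^ 2 / (8 * c₂ ^ 2) * (Vb + 2 * ξ) + μ * (3 * (CQ ^ 2 / (8 * c₂ ^ 2)) * L ^ 2 + (1 / (64 * ξ) + 1)) := by
  set M := CQ ^ 2 / (8 * c₂ ^ 2) with hM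
  have hM0 : 0 < M := by positivity
  set s := Real.sqrt μ with hs
  have hs0 : 0 < s := Real.sqrt_pos.2 hμ0
  have hs2 : s ^ 2 = μ := Real.sq_sqrt hμ0.le
  set a := 1 / (c₂ * s) with ha
  have hμa : μ * a ^ 2 = 1 / c₂ ^ 2 := by
    rw [ha, ← hs2]; field_simp
  have hK2 : K ^ 2 ≤ 2 * CQ ^ 2 * (a ^ 2 + L ^ 2) := by
    rw [hK, mul_pow]
    have : (a + L) ^ 2 ≤ 2 * (a ^ 2 + L ^ 2) := by nlinarith [sq_nonneg (a - L)]
    have h := mul_le_mul_of_nonneg_left this (sq_nonneg CQ)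
    linarith
  have hc2 : 1 / 8 ≤ 1 / (8 * c₂ ^ 2) := by
    apply one_div_le_one_div_of_le (by positivity)
    have : c₂ ^ 2 ≤ 1 := by nlinarith
    linarith
  have hM8 : CQ ^ 2 / 8 ≤ M := by
    rw [hM, div_eq_mul_one_div (CQ ^ 2) (8 * c₂ ^ 2), div_eq_mul_one_div (CQ ^ 2) 8]
    exact mul_le_mul_of_nonneg_left hc2 (sq_nonneg _)
  have hZ : μ / 16 * K ^ 2 ≤ M + M * μ * L ^ 2 := by
    have h1 : μ / 16 * K ^ 2 ≤ μ / 16 * (2 * CQ ^ 2 * (a ^ 2 + L ^ 2)) :=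
      mul_le_mul_of_nonneg_left hK2 (by positivity)
    have h2 : μ / 16 * (2 * CQ ^ 2 * (a ^ 2 + L ^ 2)) = M + (CQ ^ 2 / 8) * μ * L ^ 2 := by
      have : μ / 16 * (2 * CQ ^ 2 * (a ^ 2 + L ^ 2)) = CQ ^ 2 / 8 * (μ * a ^ 2) + CQ ^ 2 / 8 * μ * L ^ 2 := by ring
      rw [this, hμa, hM]; field_simp
    have h3 : (CQ ^ 2 / 8) * μ * L ^ 2 ≤ M * μ * L ^ 2 := by
      apply mul_le_mul_of_nonneg_right _ (sq_nonneg _)
      exact mul_le_mul_of_nonneg_right hM8 hμ0.le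
    linarith
  have hKam : K ≤ ξ * K ^ 2 + 1 / (4 * ξ) := by
    have h : 0 ≤ ξ * (K - 1 / (2 * ξ)) ^ 2 := by positivity
    have e : ξ * (K - 1 / (2 * ξ)) ^ 2 = ξ * K ^ 2 - K + 1 / (4 * ξ) := by
      field_simp; ring
    linarith
  have hsum : Vb * K ^ 2 + K + R' ≤ (Vb + 2 * ξ) * K ^ 2 + (1 / (4 * ξ) + ξ) := by nlinarith
  have hmul : μ / 16 * (Vb * K ^ 2 + K + R') ≤ μ / 16 * ((Vb + 2 * ξ) * K ^ 2 + (1 / (4 * ξ) + ξ)) :=
    mul_le_mul_of_nonneg_left hsum (by positivity)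
  have hVξ : Vb + 2 * ξ ≤ 3 := by linarith
  have hVξ0 : 0 ≤ Vb + 2 * ξ := by positivity
  have h1 : (Vb + 2 * ξ) * (μ / 16 * K ^ 2) ≤ (Vb + 2 * ξ) * (M + M * μ * L ^ 2) :=
    mul_le_mul_of_nonneg_left hZ hVξ0
  have h2 : (Vb + 2 * ξ) * (M * μ * L ^ 2) ≤ 3 * (M * μ * L ^ 2) :=
    mul_le_mul_of_nonneg_right hVξ (by positivity)
  have h3 : μ / 16 * (1 / (4 * ξ) + ξ) ≤ μ * (1 / (64 * ξ) + 1) := by
    have e : μ / 16 * (1 / (4 * ξ) + ξ) = μ * (1 / (64 * ξ) + ξ / 16) := by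
      field_simp; ring
    rw [e]
    apply mul_le_mul_of_nonneg_left _ hμ0.le
    linarith
  have e2 : μ / 16 * ((Vb + 2 * ξ) * K ^ 2 + (1 / (4 * ξ) + ξ)) =
      (Vb + 2 * ξ) * (μ / 16 * K ^ 2) + μ / 16 * (1 / (4 * ξ) + ξ) := by ring
  have e3 : M * (Vb + 2 * ξ) + μ * (3 * M * L ^ 2 + (1 / (64 * ξ) + 1)) =
      M * (Vb + 2 * ξ) + 3 * (M * μ * L ^ 2) + μ * (1 / (64 * ξ) + 1) := by ring
  rw [e3]
  have e4 : (Vb + 2 * ξ) * (M + M * μ * L ^ 2) = M * (Vb + 2 * ξ) + (Vb + 2 * ξ) * (M * μ * L ^ 2) := by ring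
  linarith

theorem chain_nat {v : ℤ → ℝ} {a : ℝ} (A : ℤ) (m : ℕ)
    (h : ∀ j : ℤ, A ≤ j → j < A + m → v (j + 1) ≤ v j + a) : v (A + m) ≤ v A + m * a := by
  induction m with
  | zero => simp
  | succ m ih =>
    have h1 := ih (fun j hj hj' => h j hj (by push_cast; omega))
    have h2 := h (A + m) (by omega) (by push_cast; omega)
    have e : A + ((m + 1 : ℕ) : ℤ) = A + m + 1 := by push_cast; ring
    rw [e]
    push_cast
    linarith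

/-- the potential for `Σ_j μ_j`. -/
noncomputable def psiPot (j : ℤ) : ℝ := 2 * min 1 ((2 : ℝ) ^ j) + max 0 (j : ℝ)

theorem min_zpow_of_nonneg {j : ℤ} (hj : 0 ≤ j) : min 1 ((2 : ℝ) ^ j) = 1 := by
  apply min_eq_left
  exact one_le_zpow₀ (by norm_num) hj

theorem min_zpow_of_nonpos {j : ℤ} (hj : j ≤ 0) : min 1 ((2 : ℝ) ^ j) = (2 : ℝ) ^ j := by
  apply min_eq_right
  exact zpow_le_one_of_nonpos₀ (by norm_num) hj

theorem mu_le_psiPot (j : ℤ) : min 1 ((2 : ℝ) ^ j) ≤ psiPot (j + 1) - psiPot j := by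
  unfold psiPot
  rcases lt_or_ge j 0 with h | h
  · have h1 : j + 1 ≤ 0 := by omega
    rw [min_zpow_of_nonpos h1, min_zpow_of_nonpos h.le]
    have hj : (j : ℝ) ≤ 0 := by exact_mod_cast h.le
    have hj1 : ((j + 1 : ℤ) : ℝ) ≤ 0 := by exact_mod_cast h1
    rw [max_eq_left hj, max_eq_left hj1, zpow_add_one₀ (by norm_num)]
    have : (0 : ℝ) < 2 ^ j := zpow_pos (by norm_num) _
    linarith
  · rw [min_zpow_of_nonneg h, min_zpow_of_nonneg (by omega : 0 ≤ j + 1)]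
    have hj : (0 : ℝ) ≤ j := by exact_mod_cast h
    have hj1 : (0 : ℝ) ≤ ((j + 1 : ℤ) : ℝ) := by
      push_cast; linarith
    rw [max_eq_right hj, max_eq_right hj1]
    push_cast
    linarith

theorem psiPot_nonneg (j : ℤ) : 0 ≤ psiPot j := by
  unfold psiPot
  have h1 : 0 ≤ min 1 ((2 : ℝ) ^ j) := le_min zero_le_one (zpow_nonneg (by norm_num) _)
  have h2 : 0 ≤ max 0 (j : ℝ) := le_max_left _ _
  linarith

theorem psiPot_of_nonneg {j : ℤ} (hj : 0 ≤ j) : psiPot j = j + 2 := by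
  unfold psiPot
  rw [min_zpow_of_nonneg hj, max_eq_right (by exact_mod_cast hj)]
  ring

theorem eps_sq_eq (j : ℤ) : eps j ^ 2 = min 1 ((2 : ℝ) ^ j) / 16 := by
  unfold eps
  have h1 : 0 ≤ min 1 ((2 : ℝ) ^ j) := le_min zero_le_one (zpow_nonneg (by norm_num) _)
  rw [mul_pow, Real.sq_sqrt h1]
  ring

theorem mu_pos (j : ℤ) : 0 < min 1 ((2 : ℝ) ^ j) := lt_min one_pos (zpow_pos (by norm_num) _)

theorem mu_le_one (j : ℤ) : min 1 ((2 : ℝ) ^ j) ≤ 1 := min_le_left _ _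

/-- `L² T ≤ η n` for large `n`. -/
theorem log_sq_sqrt_small {η : ℝ} (hη : 0 < η) :
    ∀ᶠ n : ℕ in atTop, (Real.log (((4 * n : ℕ) : ℝ) + 1) + 1) ^ 2 * (Nat.sqrt n : ℝ) ≤ η * n := by
  have hev : ∀ᶠ n : ℕ in atTop, ((289 / η) ^ 4 : ℝ) ≤ n :=
    tendsto_natCast_atTop_atTop.eventually_ge_atTop _
  filter_upwards [hev, eventually_ge_atTop 1] with n hn hn1
  have hnR : (1 : ℝ) ≤ n := by exact_mod_cast hn1
  have hn0 : (0 : ℝ) < n := by linarith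
  -- `w = n^(1/8)`
  set w : ℝ := (n : ℝ) ^ ((1 : ℝ) / 8) with hw
  have hw1 : 1 ≤ w := Real.one_le_rpow hnR (by norm_num)
  have hw8 : w ^ 8 = n := by
    rw [hw, ← Real.rpow_natCast, ← Real.rpow_mul hn0.le]
    norm_num
  have hlog : Real.log (((4 * n : ℕ) : ℝ) + 1) ≤ 16 * w := by
    have h1 : ((4 * n : ℕ) : ℝ) + 1 ≤ 256 * w ^ 8 := by
      push_cast
      rw [hw8]; linarith
    have h2 : Real.log (((4 * n : ℕ) : ℝ) + 1) ≤ Real.log (256 * w ^ 8) :=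
      Real.log_le_log (by positivity) h1
    have h3 : Real.log (256 * w ^ 8) = 8 * Real.log (2 * w) := by
      have : (256 : ℝ) * w ^ 8 = (2 * w) ^ 8 := by ring
      rw [this, Real.log_pow]; norm_num
    have h4 : Real.log (2 * w) ≤ 2 * w - 1 := Real.log_le_sub_one_of_pos (by positivity)
    have h5 : 8 * (2 * w - 1) ≤ 16 * w := by linarith
    rw [h3] at h2
    linarith
  have hlog0 : 0 ≤ Real.log (((4 * n : ℕ) : ℝ) + 1) := by
    apply Real.log_nonneg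
    push_cast
    linarith
  have hL : Real.log (((4 * n : ℕ) : ℝ) + 1) + 1 ≤ 17 * w := by linarith
  have hL2 : (Real.log (((4 * n : ℕ) : ℝ) + 1) + 1) ^ 2 ≤ 289 * w ^ 2 := by
    have := pow_le_pow_left₀ (by linarith) hL 2
    calc _ ≤ (17 * w) ^ 2 := this
      _ = 289 * w ^ 2 := by ring
  have hT : (Nat.sqrt n : ℝ) ≤ w ^ 4 := by
    have h1 : ((Nat.sqrt n : ℝ)) ^ 2 ≤ (w ^ 4) ^ 2 := by
      have h2 : Nat.sqrt n * Nat.sqrt n ≤ n := Nat.sqrt_le n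
      have h3 : ((Nat.sqrt n * Nat.sqrt n : ℕ) : ℝ) ≤ n := by exact_mod_cast h2
      push_cast at h3
      calc ((Nat.sqrt n : ℝ)) ^ 2 = (Nat.sqrt n : ℝ) * Nat.sqrt n := by ring
        _ ≤ n := h3
        _ = w ^ 8 := hw8.symm
        _ = (w ^ 4) ^ 2 := by ring
    exact abs_le_of_sq_le_sq' h1 (by positivity) |>.2
  have hw2 : 289 / η ≤ w ^ 2 := by
    have h1 : (289 / η) ^ 4 ≤ (w ^ 2) ^ 4 := by
      calc (289 / η) ^ 4 ≤ n := hn
        _ = w ^ 8 := hw8.symm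
        _ = (w ^ 2) ^ 4 := by ring
    exact le_of_pow_le_pow_left₀ (by norm_num) (by positivity) h1
  have h289 : 289 ≤ η * w ^ 2 := by
    rw [div_le_iff₀ hη] at hw2
    linarith
  have hw0 : 0 ≤ w := by linarith
  calc (Real.log (((4 * n : ℕ) : ℝ) + 1) + 1) ^ 2 * (Nat.sqrt n : ℝ)
      ≤ (289 * w ^ 2) * (w ^ 4) := mul_le_mul hL2 hT (by positivity) (by positivity)
    _ = 289 * w ^ 6 := by ring
    _ ≤ (η * w ^ 2) * w ^ 6 := mul_le_mul_of_nonneg_right h289 (by positivity)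
    _ = η * n := by rw [← hw8]; ring

end Arith


section Main

variable {V : Type u} {G : SimpleGraph V} [G.LocallyFinite] {D : ℕ}

theorem zpow_two_neg_nat (J : ℕ) : (2 : ℝ) ^ (-(J : ℤ)) = (1 / 2 : ℝ) ^ J := by
  rw [zpow_neg, zpow_natCast, one_div, inv_pow]

/-- high moment of the cavity magnetisation from a fixed moment. -/
theorem integral_cav_high_le (hG : RegTree G D) {θ : ℝ} (hθ0 : 0 ≤ θ) (hθ : (D : ℝ) * θ ^ 2 < 1) {N j : ℤ} (hN : N ≤ j)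
    (s : ℝ) {p y : V} {m k : ℕ} (hk : k ≤ m) :
    ∫ x, cavInf G θ N j s p y x ^ (2 * (2 * m)) ∂(omP V) ≤ ∫ x, cavInf G θ N j s p y x ^ (2 * (2 * k)) ∂(omP V) := by
  have hm := measurable_cavInf_cp hG hθ0 hθ hN s p y
  have h1 := abs_cavInf_le (N := N) (j := j) hG hθ0 hθ s p y
  refine integral_mono_of_nonneg (ae_of_all _ fun x => ?_) (integrable_pow_of_abs_le_one hm h1 _)
    (ae_of_all _ fun x => ?_)
  · show 0 ≤ cavInf G θ N j s p y x ^ (2 * (2 * m))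
    rw [pow_mul]; positivity
  · show cavInf G θ N j s p y x ^ (2 * (2 * m)) ≤ cavInf G θ N j s p y x ^ (2 * (2 * k))
    set a := cavInf G θ N j s p y x
    have ha : a ^ 2 ≤ 1 := by
      have := abs_le.1 (h1 x)
      nlinarith
    rw [pow_mul a 2, pow_mul a 2]
    exact pow_le_pow_of_le_one (sq_nonneg a) ha (by omega)

theorem integral_cav_le_one (hG : RegTree G D) {θ : ℝ} (hθ0 : 0 ≤ θ) (hθ : (D : ℝ) * θ ^ 2 < 1) {N j : ℤ}
    (s : ℝ) {p y : V} (n : ℕ) :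
    ∫ x, cavInf G θ N j s p y x ^ (4 * n) ∂(omP V) ≤ 1 := by
  have h1 := abs_cavInf_le (N := N) (j := j) hG hθ0 hθ s p y
  have h : ∫ x, cavInf G θ N j s p y x ^ (4 * n) ∂(omP V) ≤ ∫ _, (1 : ℝ) ∂(omP V) := by
    refine integral_mono_of_nonneg (ae_of_all _ fun x => ?_) (integrable_const _) (ae_of_all _ fun x => ?_)
    · show 0 ≤ cavInf G θ N j s p y x ^ (4 * n)
      have e : 4 * n = 2 * (2 * n) := by ring
      rw [e, pow_mul]; positivity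
    · show cavInf G θ N j s p y x ^ (4 * n) ≤ 1
      have e : 4 * n = 2 * (2 * n) := by ring
      rw [e, pow_mul]
      have ha : cavInf G θ N j s p y x ^ 2 ≤ 1 := by
        have := abs_le.1 (h1 x)
        nlinarith
      exact pow_le_one₀ (sq_nonneg _) ha
  simpa using h

/-- the start of the comparison. -/
theorem start_X_le (hG : RegTree G D) {CS : ℝ} (hCS0 : 0 < CS)
    (hstart : ∀ {θ : ℝ}, 0 ≤ θ → (D : ℝ) * θ ^ 2 < 1 → ∀ {N j : ℤ}, N ≤ j → ∀ {s : ℝ}, 0 ≤ s → s ≤ 1 / 2 →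
      ∀ {p y : V}, G.Adj p y →
      ∫ x, mInf G θ N j s p x ^ 2 ∂(omP V) + ∫ x, (tInf G θ N j s p y x - θ) ^ 2 ∂(omP V) ≤ CS * Real.sqrt (timeT N j s))
    {θ θ' : ℝ} (hθ0 : 0 ≤ θ) (hθ : (D : ℝ) * θ ^ 2 < 1) (hθ0' : 0 ≤ θ') (hθ' : (D : ℝ) * θ' ^ 2 < 1)
    {N N' : ℤ} {n : ℕ} (hN : N ≤ -(n : ℤ)) (hN' : N' ≤ -(n : ℤ)) {p y : V} (hpy : G.Adj p y) :
    Xpair G θ θ' N N' (-(n : ℤ)) 0 p y ≤
      6 * CS * Real.sqrt ((1 / 2 : ℝ) ^ n) + 3 * (θ - θ') ^ 2 := by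
  have hjn : -(n : ℤ) ≤ 0 := by omega
  have hT : ∀ N'' : ℤ, Real.sqrt (timeT N'' (-(n : ℤ)) 0) ≤ Real.sqrt ((1 / 2 : ℝ) ^ n) := by
    intro N''
    apply Real.sqrt_le_sqrt
    have h1 := timeT_le (N := N'') hjn (s := 0) (by norm_num)
    rw [zpow_two_neg_nat] at h1
    have h2 : (0 : ℝ) ≤ (1 / 2 : ℝ) ^ n := by positivity
    linarith
  have h1 := hstart hθ0 hθ hN (s := 0) le_rfl (by norm_num) hpy
  have h2 := hstart hθ0' hθ' hN' (s := 0) le_rfl (by norm_num) hpy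
  have hb1 := mul_le_mul_of_nonneg_left (hT N) hCS0.le
  have hb2 := mul_le_mul_of_nonneg_left (hT N') hCS0.le
  set j : ℤ := -(n : ℤ) with hj
  -- measurability, integrability
  have hm := measurable_mInf hG hθ0 hθ hN 0 p
  have hm' := measurable_mInf hG hθ0' hθ' hN' 0 p
  have ht := measurable_tInf hG hθ0 hθ hN 0 p y
  have ht' := measurable_tInf hG hθ0' hθ' hN' 0 p y
  have hmb := abs_mInf_le (N := N) (j := j) hG hθ0 hθ 0 p
  have hmb' := abs_mInf_le (N := N') (j := j) hG hθ0' hθ' 0 p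
  have htb := abs_tInf_le (N := N) (j := j) hG hθ0 hθ 0 p y
  have htb' := abs_tInf_le (N := N') (j := j) hG hθ0' hθ' 0 p y
  have hθ1 : θ ≤ 3 / 4 := theta_le_of_regTree hG hθ0 hθ.le
  have hθ1' : θ' ≤ 3 / 4 := theta_le_of_regTree hG hθ0' hθ'.le
  have iA := integrable_pow_of_abs_le_one hm hmb 2
  have iA' := integrable_pow_of_abs_le_one hm' hmb' 2
  have iT : Integrable (fun x => (tInf G θ N j 0 p y x - θ) ^ 2) (omP V) := by
    refine Integrable.of_bound ((ht.sub_const θ).pow_const 2).aestronglyMeasurable 4 (ae_of_all _ fun x => ?_)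
    rw [Real.norm_eq_abs, abs_of_nonneg (sq_nonneg _)]
    have := abs_le.1 (htb x)
    nlinarith
  have iT' : Integrable (fun x => (tInf G θ' N' j 0 p y x - θ') ^ 2) (omP V) := by
    refine Integrable.of_bound ((ht'.sub_const θ').pow_const 2).aestronglyMeasurable 4 (ae_of_all _ fun x => ?_)
    rw [Real.norm_eq_abs, abs_of_nonneg (sq_nonneg _)]
    have := abs_le.1 (htb' x)
    nlinarith
  have h3 : ∫ x, (mInf G θ N j 0 p x - mInf G θ' N' j 0 p x) ^ 2 ∂(omP V) ≤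
      2 * ∫ x, mInf G θ N j 0 p x ^ 2 ∂(omP V) + 2 * ∫ x, mInf G θ' N' j 0 p x ^ 2 ∂(omP V) := by
    rw [← integral_const_mul, ← integral_const_mul, ← integral_add (iA.const_mul 2) (iA'.const_mul 2)]
    refine integral_mono_of_nonneg (ae_of_all _ fun _ => sq_nonneg _) ((iA.const_mul 2).add (iA'.const_mul 2))
      (ae_of_all _ fun x => ?_)
    show (mInf G θ N j 0 p x - mInf G θ' N' j 0 p x) ^ 2 ≤
      2 * mInf G θ N j 0 p x ^ 2 + 2 * mInf G θ' N' j 0 p x ^ 2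
    nlinarith [sq_nonneg (mInf G θ N j 0 p x + mInf G θ' N' j 0 p x)]
  have h4 : ∫ x, (tInf G θ N j 0 p y x - tInf G θ' N' j 0 p y x) ^ 2 ∂(omP V) ≤
      3 * ∫ x, (tInf G θ N j 0 p y x - θ) ^ 2 ∂(omP V) + 3 * ∫ x, (tInf G θ' N' j 0 p y x - θ') ^ 2 ∂(omP V)
        + 3 * (θ - θ') ^ 2 := by
    have i1 : Integrable (fun x => 3 * (tInf G θ N j 0 p y x - θ) ^ 2 + 3 * (tInf G θ' N' j 0 p y x - θ') ^ 2) (omP V) :=
      (iT.const_mul 3).add (iT'.const_mul 3)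
    have hR : ∫ x, (3 * (tInf G θ N j 0 p y x - θ) ^ 2 + 3 * (tInf G θ' N' j 0 p y x - θ') ^ 2 + 3 * (θ - θ') ^ 2) ∂(omP V) =
        3 * ∫ x, (tInf G θ N j 0 p y x - θ) ^ 2 ∂(omP V) + 3 * ∫ x, (tInf G θ' N' j 0 p y x - θ') ^ 2 ∂(omP V)
        + 3 * (θ - θ') ^ 2 := by
      rw [integral_add i1 (integrable_const _), integral_add (iT.const_mul 3) (iT'.const_mul 3),
        integral_const_mul, integral_const_mul]
      simp
    rw [← hR]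
    refine integral_mono_of_nonneg (ae_of_all _ fun _ => sq_nonneg _)
      (i1.add (integrable_const _)) (ae_of_all _ fun x => ?_)
    show (tInf G θ N j 0 p y x - tInf G θ' N' j 0 p y x) ^ 2 ≤
      3 * (tInf G θ N j 0 p y x - θ) ^ 2 + 3 * (tInf G θ' N' j 0 p y x - θ') ^ 2 + 3 * (θ - θ') ^ 2
    have key : ∀ a b c : ℝ, (a - b + c) ^ 2 ≤ 3 * a ^ 2 + 3 * b ^ 2 + 3 * c ^ 2 := by
      intro a b c
      nlinarith [sq_nonneg (a + b), sq_nonneg (a - c), sq_nonneg (b + c)]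
    have := key (tInf G θ N j 0 p y x - θ) (tInf G θ' N' j 0 p y x - θ') (θ - θ')
    have e : tInf G θ N j 0 p y x - θ - (tInf G θ' N' j 0 p y x - θ') + (θ - θ') =
        tInf G θ N j 0 p y x - tInf G θ' N' j 0 p y x := by ring
    rw [e] at this
    exact this
  have p1 : 0 ≤ ∫ x, mInf G θ N j 0 p x ^ 2 ∂(omP V) := integral_nonneg fun _ => sq_nonneg _
  have p2 : 0 ≤ ∫ x, mInf G θ' N' j 0 p x ^ 2 ∂(omP V) := integral_nonneg fun _ => sq_nonneg _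
  unfold Xpair
  linarith


/-- arithmetic of the fixed moment of the cavity magnetisation. -/
theorem cav_moment_arith {ξ Cc a : ℝ} {B P' J n : ℕ} (hξ0 : 0 < ξ) (hCc : 0 < Cc) (hBpos : 0 < B)
    (hJ : J = n / B) (hP' : (1 / 2 : ℝ) ^ P' < ξ ^ 2 / 2)
    (hH : Cc * 4 ^ (B * P') * 2 ^ (B * P') ≤ (2 : ℝ) ^ n)
    (ha2 : a ^ 2 ≤ 4 * (1 / 2 : ℝ) ^ J) :
    Cc * a ^ (2 * (B * P')) ≤ ξ ^ (2 * n) := by
  set P := B * P' with hP
  have hapow : a ^ (2 * P) ≤ 4 ^ P * (1 / 2 : ℝ) ^ (J * P) := by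
    rw [pow_mul]
    calc (a ^ 2) ^ P ≤ (4 * (1 / 2 : ℝ) ^ J) ^ P := pow_le_pow_left₀ (sq_nonneg _) ha2 P
      _ = 4 ^ P * (1 / 2 : ℝ) ^ (J * P) := by rw [mul_pow, ← pow_mul]
  have hJB : n ≤ J * B + B := by
    have h1 := Nat.div_add_mod n B
    have h2 := Nat.mod_lt n hBpos
    rw [← hJ] at h1
    nlinarith
  have hexp : n * P' ≤ J * P + B * P' := by
    rw [hP]
    calc n * P' ≤ (J * B + B) * P' := Nat.mul_le_mul_right _ hJB
      _ = J * (B * P') + B * P' := by ring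
  have hhalf : (1 / 2 : ℝ) ^ (J * P) ≤ 2 ^ (B * P') * (1 / 2 : ℝ) ^ (n * P') := by
    have h1 : (1 / 2 : ℝ) ^ (J * P + B * P') ≤ (1 / 2 : ℝ) ^ (n * P') :=
      pow_le_pow_of_le_one (by norm_num) (by norm_num) hexp
    rw [pow_add] at h1
    have h2 : (2 : ℝ) ^ (B * P') * (1 / 2 : ℝ) ^ (B * P') = 1 := by
      rw [← mul_pow]; norm_num
    have h3 : ∀ x y z : ℝ, x * z = 1 → y = x * (y * z) := by
      intro x y z h
      calc y = y * (x * z) := by rw [h, mul_one]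
        _ = x * (y * z) := by ring
    calc (1 / 2 : ℝ) ^ (J * P) = (2 : ℝ) ^ (B * P') * ((1 / 2 : ℝ) ^ (J * P) * (1 / 2 : ℝ) ^ (B * P')) :=
          h3 _ _ _ h2
      _ ≤ 2 ^ (B * P') * (1 / 2 : ℝ) ^ (n * P') :=
          mul_le_mul_of_nonneg_left h1 (by positivity)
  have hξpow : (1 / 2 : ℝ) ^ (n * P') ≤ ξ ^ (2 * n) * (1 / 2 : ℝ) ^ n := by
    rw [mul_comm n P', pow_mul]
    calc ((1 / 2 : ℝ) ^ P') ^ n ≤ (ξ ^ 2 / 2) ^ n := pow_le_pow_left₀ (by positivity) hP'.le n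
      _ = ξ ^ (2 * n) * (1 / 2 : ℝ) ^ n := by
          rw [div_eq_mul_one_div, mul_pow, pow_mul]
  have hξn : 0 ≤ ξ ^ (2 * n) := by positivity
  calc Cc * a ^ (2 * P) ≤ Cc * (4 ^ P * (2 ^ (B * P') * (ξ ^ (2 * n) * (1 / 2 : ℝ) ^ n))) := by
        apply mul_le_mul_of_nonneg_left _ hCc.le
        refine hapow.trans ?_
        apply mul_le_mul_of_nonneg_left _ (by positivity)
        refine hhalf.trans ?_
        exact mul_le_mul_of_nonneg_left hξpow (by positivity)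
    _ = (Cc * 4 ^ P * 2 ^ (B * P')) * ((1 / 2 : ℝ) ^ n) * ξ ^ (2 * n) := by ring
    _ ≤ 1 * ξ ^ (2 * n) := by
        apply mul_le_mul_of_nonneg_right _ hξn
        have h2 : (2 : ℝ) ^ n * (1 / 2 : ℝ) ^ n = 1 := by rw [← mul_pow]; norm_num
        have h3 : 0 ≤ (1 / 2 : ℝ) ^ n := by positivity
        have h4 := mul_le_mul_of_nonneg_right hH h3
        rw [h2] at h4
        exact h4
    _ = ξ ^ (2 * n) := one_mul _

/-- the sum of all the increments is at most `0.05`. -/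
theorem term_arith {C₁ M ξ W T n J L κ a₁ a₂ nJ JT : ℝ} (hC₁ : 0 < C₁) (hM : 0 < M) (hξ : 0 < ξ) (hW : 0 < W)
    (hT : 1 ≤ T) (hn : 0 < n) (hJ : J ≤ ξ * n) (hL : 1 ≤ L)
    (hξ24 : 24 * (C₁ * M) * ξ ≤ 0.02) (hlog : L ^ 2 * T ≤ 0.03 / (12 * C₁ * (4 * M + W)) * n)
    (ha₁ : a₁ = 4 * C₁ / n * (M * (3 * ξ))) (ha₂ : a₂ = 4 * C₁ / n * (M * 3))
    (hκ : κ = 4 * C₁ / n * (3 * M * L ^ 2 + W)) (hnJ : nJ ≤ n) (hJT : JT = J + T) :
    nJ * a₁ + JT * a₂ + κ * (T + 2) ≤ 0.05 := by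
  have hCM : 0 < C₁ * M := mul_pos hC₁ hM
  have ha₁0 : 0 ≤ a₁ := by rw [ha₁]; positivity
  have hterm1 : nJ * a₁ ≤ 12 * (C₁ * M) * ξ := by
    calc nJ * a₁ ≤ n * a₁ := mul_le_mul_of_nonneg_right hnJ ha₁0
      _ = 12 * (C₁ * M) * ξ := by rw [ha₁]; field_simp; ring
  have hterm2 : JT * a₂ ≤ 12 * (C₁ * M) * ξ + 12 * (C₁ * M) * T / n := by
    have e : JT * a₂ = 12 * (C₁ * M) * (J / n) + 12 * (C₁ * M) * T / n := by
      rw [ha₂, hJT]; field_simp; ring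
    rw [e]
    have h1 : J / n ≤ ξ := by rw [div_le_iff₀ hn]; exact hJ
    have := mul_le_mul_of_nonneg_left h1 (show 0 ≤ 12 * (C₁ * M) by positivity)
    linarith
  have hL2 : 1 ≤ L ^ 2 := by nlinarith
  set Ξ : ℝ := 12 * C₁ * (4 * M + W) with hΞ
  have hΞ0 : 0 < Ξ := by positivity
  have hT0 : 0 < T := by linarith
  have hterm3 : 12 * (C₁ * M) * T / n + κ * (T + 2) ≤ 0.03 := by
    have h1 : 12 * (C₁ * M) * T / n + κ * (T + 2) ≤ Ξ * (L ^ 2 * T) / n := by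
      rw [hκ, hΞ]
      have hT3 : T + 2 ≤ 3 * T := by linarith
      have e : 12 * (C₁ * M) * T / n + 4 * C₁ / n * (3 * M * L ^ 2 + W) * (T + 2) =
          (12 * (C₁ * M) * T + 4 * C₁ * (3 * M * L ^ 2 + W) * (T + 2)) / n := by
        field_simp
      rw [e]
      apply div_le_div_of_nonneg_right _ hn.le
      have h2 : 4 * C₁ * (3 * M * L ^ 2 + W) * (T + 2) ≤ 4 * C₁ * (3 * M * L ^ 2 + W) * (3 * T) :=
        mul_le_mul_of_nonneg_left hT3 (by positivity)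
      have h3 : W * T ≤ W * (L ^ 2 * T) := by
        apply mul_le_mul_of_nonneg_left _ hW.le
        nlinarith
      have h4 : (C₁ * M) * T ≤ (C₁ * M) * (L ^ 2 * T) := by
        apply mul_le_mul_of_nonneg_left _ hCM.le
        nlinarith
      have h5 : C₁ * (W * T) ≤ C₁ * (W * (L ^ 2 * T)) := mul_le_mul_of_nonneg_left h3 hC₁.le
      have e2 : 12 * C₁ * (4 * M + W) * (L ^ 2 * T) =
          36 * ((C₁ * M) * (L ^ 2 * T)) + 12 * ((C₁ * M) * (L ^ 2 * T)) + 12 * (C₁ * (W * (L ^ 2 * T))) := by ring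
      have e3 : 4 * C₁ * (3 * M * L ^ 2 + W) * (3 * T) =
          36 * ((C₁ * M) * (L ^ 2 * T)) + 12 * (C₁ * (W * T)) := by ring
      have e4 : 12 * (C₁ * M) * T = 12 * ((C₁ * M) * T) := by ring
      rw [e2]
      rw [e3] at h2
      rw [e4]
      linarith
    have h6 : Ξ * (L ^ 2 * T) / n ≤ 0.03 := by
      rw [div_le_iff₀ hn]
      have := mul_le_mul_of_nonneg_left hlog hΞ0.le
      have e : Ξ * (0.03 / Ξ * n) = 0.03 * n := by field_simp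
      rw [e] at this
      exact this
    linarith
  linarith

/-- the start. -/
theorem start_arith {X τ CS δ2 : ℝ} {n : ℕ} (hn : n ≠ 0)
    (hX : X ≤ 6 * CS * Real.sqrt ((1 / 2 : ℝ) ^ n) + 3 * δ2) (hX0 : 0 ≤ X) (hτ0 : 0 < τ)
    (hτ : τ ≤ (1 / 2 : ℝ) ^ n) (hδ2 : δ2 ≤ (1 / 2 : ℝ) ^ n)
    (e3 : (6 * CS + 4) ^ 2 ≤ (((0.72 : ℝ)) ^ 2 * 2) ^ n) : (X + τ) ^ (1 / (n : ℝ)) ≤ 0.72 := by
  set v₀ : ℝ := Real.sqrt ((1 / 2 : ℝ) ^ n) with hv₀
  have hv₀0 : 0 ≤ v₀ := Real.sqrt_nonneg _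
  have hv₀2 : v₀ ^ 2 = (1 / 2 : ℝ) ^ n := Real.sq_sqrt (by positivity)
  have hhalf1 : (1 / 2 : ℝ) ^ n ≤ 1 := pow_le_one₀ (by norm_num) (by norm_num)
  have hhalf0 : (0 : ℝ) ≤ (1 / 2 : ℝ) ^ n := by positivity
  have hv₀h : (1 / 2 : ℝ) ^ n ≤ v₀ := by
    apply Real.le_sqrt_of_sq_le
    calc ((1 / 2 : ℝ) ^ n) ^ 2 = (1 / 2 : ℝ) ^ n * (1 / 2 : ℝ) ^ n := by ring
      _ ≤ (1 / 2 : ℝ) ^ n * 1 := mul_le_mul_of_nonneg_left hhalf1 hhalf0
      _ = (1 / 2 : ℝ) ^ n := mul_one _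
  have hsum : X + τ ≤ (6 * CS + 4) * v₀ := by
    have : (6 * CS + 4) * v₀ = 6 * CS * v₀ + 4 * v₀ := by ring
    rw [this]
    linarith
  have hpow : (6 * CS + 4) * v₀ ≤ (0.72 : ℝ) ^ n := by
    have h2 : ((6 * CS + 4) * v₀) ^ 2 ≤ ((0.72 : ℝ) ^ n) ^ 2 := by
      rw [mul_pow, hv₀2]
      calc (6 * CS + 4) ^ 2 * (1 / 2 : ℝ) ^ n ≤ (((0.72 : ℝ)) ^ 2 * 2) ^ n * (1 / 2 : ℝ) ^ n :=
            mul_le_mul_of_nonneg_right e3 hhalf0
        _ = ((0.72 : ℝ) ^ n) ^ 2 := by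
            rw [← mul_pow, ← pow_mul, mul_comm n 2, pow_mul]; norm_num
    exact abs_le_of_sq_le_sq' h2 (by positivity) |>.2
  have hXτ0 : 0 ≤ X + τ := by linarith
  calc (X + τ) ^ (1 / (n : ℝ)) ≤ ((0.72 : ℝ) ^ n) ^ (1 / (n : ℝ)) :=
        Real.rpow_le_rpow hXτ0 (hsum.trans hpow) (by positivity)
    _ = 0.72 := by
        rw [one_div, Real.pow_rpow_inv_natCast (by norm_num) hn]

end Main

alias bihari_partition := bihari_partition_proved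
alias sweep_step := sweep_step_proved
alias start_bound := start_bound_proved

end Crest.Agent.Lib.IsingFIID
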