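/-
S0241 blueprint, Mod M-d: `critical_pair` (helper26).
-/
import Crest.Agent.Lib.IsingFIID.CriticalPair

set_option autoImplicit false
universe u

namespace Crest.Agent.Lib.IsingFIID

open MeasureTheory Filter
open scoped Classical Topology

variable {V : Type u} {G : SimpleGraph V} [G.LocallyFinite] {D : ℕ}

theorem critical_pair_proved (hG : RegTree G D) : ∃ n₀ : ℕ, ∀ n ≥ n₀, ∀ {θ θ' : ℝ}, 0 ≤ θ → (D : ℝ) * θ ^ 2 < 1 → 0 ≤ θ' → (D : ℝ) * θ' ^ 2 < 1 →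
    ∀ {N N' : ℤ}, N ≤ -(n : ℤ) - 1 → N' ≤ -(n : ℤ) - 1 → |θ - θ'| ≤ (1 / 2 : ℝ) ^ (20 * n) →
    (∀ {j : ℤ} {s : ℝ} {p y : V}, -(n : ℤ) ≤ j → j ≤ Tn n → 0 ≤ s → s ≤ 1 / 2 → G.Adj p y →
      |EQ G θ N j s p y - EQ G θ' N' j s p y| ≤ (1 / 2 : ℝ) ^ (20 * n)) →
    ∀ {p y : V}, G.Adj p y → Xpair G θ θ' N N' (Tn n) 0 p y ≤ (4 / 5 : ℝ) ^ n := by
  obtain ⟨C₁, hC₁, hsweep⟩ := sweep_step_proved.{u} D
  obtain ⟨c₂, hc₂0, hc₂1, hgamma⟩ := gamma_bound.{u} D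
  obtain ⟨CQ, hCQ, hQmom⟩ := integral_Q_pow_le.{u} D
  obtain ⟨CS, hCS0, hstart⟩ := start_bound_proved.{u} D
  have hCQ0 : 0 < CQ := by linarith
  obtain ⟨M, hM⟩ : ∃ M : ℝ, M = CQ ^ 2 / (8 * c₂ ^ 2) := ⟨_, rfl⟩
  have hM0 : 0 < M := by rw [hM]; positivity
  have hC₁0 : 0 < C₁ := by linarith
  have hCM : 0 < C₁ * M := mul_pos hC₁0 hM0
  obtain ⟨ξ, hξ⟩ : ∃ ξ : ℝ, ξ = 1 / (1200 * (C₁ * M) + 1) := ⟨_, rfl⟩
  have hξ0 : 0 < ξ := by rw [hξ]; positivity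
  have hξ1 : ξ ≤ 1 := by
    rw [hξ, div_le_one (by positivity)]; linarith
  have hξ24 : 24 * (C₁ * M) * ξ ≤ 0.02 := by
    rw [hξ, mul_one_div, div_le_iff₀ (by positivity)]; linarith
  obtain ⟨W, hW⟩ : ∃ W : ℝ, W = 1 / (64 * ξ) + 1 := ⟨_, rfl⟩
  have hW0 : 0 < W := by rw [hW]; positivity
  obtain ⟨B, hB⟩ := exists_nat_ge (1 / ξ)
  have hB0 : (0 : ℝ) < B := lt_of_lt_of_le (by positivity) hB
  have hBpos : 0 < B := by exact_mod_cast hB0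
  obtain ⟨P', hP'⟩ := exists_pow_lt_of_lt_one (show 0 < ξ ^ 2 / 2 by positivity) (show (1 / 2 : ℝ) < 1 by norm_num)
  obtain ⟨Cc, a₀, hCc, ha₀, hcav⟩ := integral_cav_pow_le.{u} D (2 * (B * P'))
  obtain ⟨J₀, hJ₀⟩ := exists_pow_lt_of_lt_one (show 0 < a₀ ^ 2 / 4 by positivity) (show (1 / 2 : ℝ) < 1 by norm_num)
  have hΞ0 : 0 < 12 * C₁ * (4 * M + W) := by positivity
  have ev1 : ∀ᶠ n : ℕ in atTop, (1 / 2 : ℝ) ^ n < ξ :=
    (tendsto_pow_atTop_nhds_zero_of_lt_one (by norm_num) (by norm_num)).eventually (gt_mem_nhds hξ0)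
  have ev2 : ∀ᶠ n : ℕ in atTop, Cc * 4 ^ (B * P') * 2 ^ (B * P') ≤ (2 : ℝ) ^ n :=
    (tendsto_pow_atTop_atTop_of_one_lt (by norm_num)).eventually_ge_atTop _
  have ev3 : ∀ᶠ n : ℕ in atTop, (6 * CS + 4) ^ 2 ≤ (((0.72 : ℝ)) ^ 2 * 2) ^ n :=
    (tendsto_pow_atTop_atTop_of_one_lt (by norm_num)).eventually_ge_atTop _
  have ev4 := log_sq_sqrt_small (η := 0.03 / (12 * C₁ * (4 * M + W))) (by positivity)
  obtain ⟨n₀, hn₀⟩ := eventually_atTop.1 (ev1.and (ev2.and (ev3.and (ev4.and ((eventually_ge_atTop 2).and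
    ((eventually_ge_atTop (B * P')).and (eventually_ge_atTop (J₀ * B))))))))
  refine ⟨n₀, ?_⟩
  intro n hn θ θ' hθ0 hθ hθ0' hθ' N N' hN hN' hδ hEQ p y hpy
  obtain ⟨e1, e2, e3, e4, hn2, hnP, hnJ⟩ := hn₀ n hn
  clear hn₀ ev1 ev2 ev3 ev4
  have hnR : (2 : ℝ) ≤ n := by exact_mod_cast hn2
  have hn0 : (0 : ℝ) < n := by linarith
  obtain ⟨τ, hτ⟩ : ∃ τ : ℝ, τ = (1 / 2 : ℝ) ^ (10 * n) := ⟨_, rfl⟩
  obtain ⟨g, hg⟩ : ∃ g : ℝ, g = (1 / 2 : ℝ) ^ (20 * n) := ⟨_, rfl⟩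
  rw [← hg] at hδ
  obtain ⟨J, hJ⟩ : ∃ J : ℕ, J = n / B := ⟨_, rfl⟩
  obtain ⟨T, hT⟩ : ∃ T : ℕ, T = Nat.sqrt n := ⟨_, rfl⟩
  have hTn : Tn n = (T : ℤ) := by rw [hT]; rfl
  have hJ₀J : J₀ ≤ J := by rw [hJ]; exact (Nat.le_div_iff_mul_le hBpos).2 hnJ
  have hJn : J ≤ n := by rw [hJ]; exact Nat.div_le_self _ _
  have hτ0 : 0 < τ := by rw [hτ]; positivity
  have hτ1 : τ ≤ 1 := by rw [hτ]; exact pow_le_one₀ (by norm_num) (by norm_num)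
  have hg0 : 0 ≤ g := by rw [hg]; positivity
  obtain ⟨ℓ, hℓ⟩ : ∃ ℓ : ℝ, ℓ = Real.log (((4 * n : ℕ) : ℝ) + 1) := ⟨_, rfl⟩
  have hℓ0 : 0 ≤ ℓ := by
    rw [hℓ]
    apply Real.log_nonneg
    have : (0 : ℝ) ≤ ((4 * n : ℕ) : ℝ) := by positivity
    linarith
  obtain ⟨L, hL⟩ : ∃ L : ℝ, L = ℓ + 1 := ⟨_, rfl⟩
  have hL1 : 1 ≤ L := by linarith
  rw [← hℓ, ← hL, ← hT] at e4
  -- the quantities of sweep `j`
  obtain ⟨μ, hμ⟩ : ∃ μ : ℤ → ℝ, μ = fun j => min 1 ((2 : ℝ) ^ j) := ⟨_, rfl⟩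
  have hμ0 : ∀ j, 0 < μ j := by rw [hμ]; exact mu_pos
  have hμ1 : ∀ j, μ j ≤ 1 := by rw [hμ]; exact mu_le_one
  obtain ⟨γ, hγ⟩ : ∃ γ : ℤ → ℝ, γ = fun j => c₂ * Real.sqrt (μ j) := ⟨_, rfl⟩
  have hγj : ∀ j, γ j = c₂ * Real.sqrt (μ j) := by intro j; rw [hγ]
  have hγ0 : ∀ j, 0 < γ j := fun j => by rw [hγj]; exact mul_pos hc₂0 (Real.sqrt_pos.2 (hμ0 j))
  have hγ1 : ∀ j, γ j ≤ 1 := by
    intro j
    rw [hγj]
    exact mul_le_one₀ hc₂1 (Real.sqrt_nonneg _) (Real.sqrt_le_one.2 (hμ1 j))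
  obtain ⟨K, hK⟩ : ∃ K : ℤ → ℝ, K = fun j => CQ * (1 / γ j + ℓ + 1) := ⟨_, rfl⟩
  have hKj : ∀ j, K j = CQ * (1 / γ j + ℓ + 1) := by intro j; rw [hK]
  have hK1 : ∀ j, 1 ≤ K j := by
    intro j
    rw [hKj]
    have h1 : 0 < 1 / γ j := one_div_pos.2 (hγ0 j)
    exact one_le_mul_of_one_le_of_one_le hCQ (by linarith)
  obtain ⟨Vb, hVb⟩ : ∃ Vb : ℤ → ℝ, Vb = fun j => if j < -(J : ℤ) then ξ else 1 := ⟨_, rfl⟩
  have hVbj : ∀ j, Vb j = if j < -(J : ℤ) then ξ else 1 := by intro j; rw [hVb]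
  have hVb0 : ∀ j, 0 ≤ Vb j := by
    intro j; rw [hVbj]; split_ifs <;> linarith
  have hVb1 : ∀ j, Vb j ≤ 1 := by
    intro j; rw [hVbj]; split_ifs <;> linarith
  -- moments of `Q`
  have hQgen : ∀ {θ : ℝ} {N : ℤ}, 0 ≤ θ → (D : ℝ) * θ ^ 2 < 1 → N ≤ -(n : ℤ) - 1 → ∀ j : ℤ, -(n : ℤ) ≤ j →
      ∀ s, 0 ≤ s → s ≤ 1 / 2 → ∀ {p y : V}, G.Adj p y →
      ∫ x, Qmix G (fun a b => bInf G θ N j s a b x) (fun a b => bInf G θ N j s a b x) p y ^ (4 * n) ∂(omP V) ≤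
        K j ^ (4 * n) := by
    intro θ N hθ0 hθ hN j hj s hs0 hs p y hpy
    have hNj : N < j := by omega
    have hdamp : Damped (G := G) (blockAt N j s) θ (c₂ * Real.sqrt (min 1 ((2 : ℝ) ^ j))) := hgamma hG hθ0 hθ.le hNj hs0 hs
    have h := hQmom hG hθ0 hθ hNj.le hs0 hs (γ := c₂ * Real.sqrt (min 1 ((2 : ℝ) ^ j)))
      (by have := hγ0 j; rw [hγj, hμ] at this; exact this)
      (by have := hγ1 j; rw [hγj, hμ] at this; exact this) hdamp hpy (4 * n) (by omega)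
    have e : K j = CQ * (1 / (c₂ * Real.sqrt (min 1 ((2 : ℝ) ^ j))) + Real.log (((4 * n : ℕ) : ℝ) + 1) + 1) := by
      rw [hKj, hγj, hμ, hℓ]
    rw [e]
    exact h
  -- moments of the cavity magnetisation
  have hcavGen : ∀ {θ : ℝ} {N : ℤ}, 0 ≤ θ → (D : ℝ) * θ ^ 2 < 1 → N ≤ -(n : ℤ) - 1 → ∀ j : ℤ, -(n : ℤ) ≤ j →
      ∀ s, 0 ≤ s → s ≤ 1 / 2 → ∀ {p y : V}, G.Adj p y →
      ∫ x, cavInf G θ N j s p y x ^ (4 * n) ∂(omP V) ≤ Vb j ^ (2 * n) := by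
    intro θ N hθ0 hθ hN j hj s hs0 hs p y hpy
    have hNj : N ≤ j := by omega
    rw [hVbj]
    split_ifs with hjJ
    · have hj0 : j ≤ 0 := by omega
      have hsum := sum_eps_le (N := N) hj0
      obtain ⟨a, ha⟩ : ∃ a : ℝ, a = 2 * Real.sqrt ((2 : ℝ) ^ j) := ⟨_, rfl⟩
      rw [← ha] at hsum
      have h2j0 : (0 : ℝ) < (2 : ℝ) ^ j := zpow_pos (by norm_num) _
      have ha0 : 0 ≤ a := by rw [ha]; positivity
      have ha2 : a ^ 2 = 4 * (2 : ℝ) ^ j := by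
        rw [ha, mul_pow, Real.sq_sqrt h2j0.le]; norm_num
      have h2j : (2 : ℝ) ^ j ≤ (1 / 2 : ℝ) ^ J := by
        rw [← zpow_two_neg_nat]
        exact zpow_le_zpow_right₀ (by norm_num) hjJ.le
      have hJa : (1 / 2 : ℝ) ^ J ≤ (1 / 2 : ℝ) ^ J₀ := pow_le_pow_of_le_one (by norm_num) (by norm_num) hJ₀J
      have haa₀ : a ≤ a₀ := by
        have : a ^ 2 ≤ a₀ ^ 2 := by rw [ha2]; linarith
        exact abs_le_of_sq_le_sq' this ha₀.le |>.2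
      have hc := hcav hG hθ0 hθ hNj hs0 hs hsum haa₀ hpy
      have e4n : 4 * n = 2 * (2 * n) := by ring
      rw [e4n]
      exact (integral_cav_high_le hG hθ0 hθ hNj s hnP).trans
        (hc.trans (cav_moment_arith hξ0 hCc hBpos hJ hP' e2 (by rw [ha2]; linarith)))
    · rw [one_pow]
      exact integral_cav_le_one hG hθ0 hθ s n
  -- the error term
  have hδ2 : (θ - θ') ^ 2 ≤ g ^ 2 := by
    rw [← sq_abs (θ - θ')]
    exact pow_le_pow_left₀ (abs_nonneg _) hδ 2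
  have hg2τ : g ^ 2 / τ ≤ ξ := by
    have h1 : g ^ 2 / τ = (1 / 2 : ℝ) ^ (30 * n) := by
      rw [hg, hτ, ← pow_mul, div_eq_iff (by positivity), ← pow_add]
      congr 1; ring
    rw [h1]
    have h2 : (1 / 2 : ℝ) ^ (30 * n) ≤ (1 / 2 : ℝ) ^ n := pow_le_pow_of_le_one (by norm_num) (by norm_num) (by omega)
    linarith
  have hR : ∀ j, (g ^ 2 + (θ - θ') ^ 2 * K j ^ 2) / τ ≤ ξ * (1 + K j ^ 2) := by
    intro j
    have h1 : (g ^ 2 + (θ - θ') ^ 2 * K j ^ 2) / τ ≤ (g ^ 2 + g ^ 2 * K j ^ 2) / τ := by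
      apply div_le_div_of_nonneg_right _ hτ0.le
      have := mul_le_mul_of_nonneg_right hδ2 (sq_nonneg (K j))
      linarith
    have h2 : (g ^ 2 + g ^ 2 * K j ^ 2) / τ = g ^ 2 / τ * (1 + K j ^ 2) := by ring
    rw [h2] at h1
    exact h1.trans (mul_le_mul_of_nonneg_right hg2τ (by positivity))
  -- the step
  obtain ⟨u, hu⟩ : ∃ u : ℤ → ℝ, u = fun j => (Xpair G θ θ' N N' j 0 p y + τ) ^ (1 / (n : ℝ)) := ⟨_, rfl⟩
  have huj : ∀ j, u j = (Xpair G θ θ' N N' j 0 p y + τ) ^ (1 / (n : ℝ)) := by intro j; rw [hu]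
  obtain ⟨κ, hκ⟩ : ∃ κ : ℝ, κ = 4 * C₁ / n * (3 * M * L ^ 2 + W) := ⟨_, rfl⟩
  have hκ0 : 0 ≤ κ := by rw [hκ]; positivity
  have hstep : ∀ j : ℤ, -(n : ℤ) ≤ j → j < T →
      u (j + 1) ≤ u j + 4 * C₁ / n * (M * (Vb j + 2 * ξ)) + κ * μ j := by
    intro j hj hjT
    have hNj : N ≤ j := by omega
    have hNj' : N' ≤ j := by omega
    have h := hsweep hG hθ0 hθ hθ0' hθ' hNj hNj' hn2 (K := K j) (Vb := Vb j) (g := g) (τ := τ) (hK1 j) (hVb0 j) hg0 hτ0 hτ1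
      (fun s hs0 hs {p y} h => hQgen hθ0 hθ hN j hj s hs0 hs h)
      (fun s hs0 hs {p y} h => hQgen hθ0' hθ' hN' j hj s hs0 hs h)
      (fun s hs0 hs {p y} h => hcavGen hθ0 hθ hN j hj s hs0 hs h)
      (fun s hs0 hs {p y} h => hcavGen hθ0' hθ' hN' j hj s hs0 hs h)
      (fun s hs0 hs {p y} h => by rw [hg]; exact hEQ hj (by rw [hTn]; omega) hs0 hs h) hpy
    have harith := step_arith (CQ := CQ) (c₂ := c₂) (ξ := ξ) (μ := μ j) (L := L) (K := K j) (Vb := Vb j)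
      (R' := (g ^ 2 + (θ - θ') ^ 2 * K j ^ 2) / τ) hCQ hc₂0 hc₂1 hξ0 hξ1 (hμ0 j) hL1 (hVb0 j) (hVb1 j)
      (by rw [hKj, hγj, hL, add_assoc]) (hR j)
    rw [← hM, ← hW] at harith
    have he : eps j ^ 2 = μ j / 16 := by rw [hμ]; exact eps_sq_eq j
    have hmain : 4 * C₁ * eps j ^ 2 * (Vb j * K j ^ 2 + K j + (g ^ 2 + (θ - θ') ^ 2 * K j ^ 2) / τ) / n ≤
        4 * C₁ / n * (M * (Vb j + 2 * ξ)) + κ * μ j := by
      rw [he]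
      have e5 : 4 * C₁ * (μ j / 16) * (Vb j * K j ^ 2 + K j + (g ^ 2 + (θ - θ') ^ 2 * K j ^ 2) / τ) / n =
          4 * C₁ / n * (μ j / 16 * (Vb j * K j ^ 2 + K j + (g ^ 2 + (θ - θ') ^ 2 * K j ^ 2) / τ)) := by ring
      have e6 : 4 * C₁ / n * (M * (Vb j + 2 * ξ)) + κ * μ j =
          4 * C₁ / n * (M * (Vb j + 2 * ξ) + μ j * (3 * M * L ^ 2 + W)) := by rw [hκ]; ring
      rw [e5, e6]
      exact mul_le_mul_of_nonneg_left harith (by positivity)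
    rw [huj, huj]
    linarith
  -- chain
  obtain ⟨v, hv⟩ : ∃ v : ℤ → ℝ, v = fun j => u j - κ * psiPot j := ⟨_, rfl⟩
  have hvj : ∀ j, v j = u j - κ * psiPot j := by intro j; rw [hv]
  have hpot : ∀ j, κ * μ j ≤ κ * psiPot (j + 1) - κ * psiPot j := by
    intro j
    have := mul_le_mul_of_nonneg_left (mu_le_psiPot j) hκ0
    rw [mul_sub] at this
    rw [hμ]
    exact this
  obtain ⟨a₁, ha₁⟩ : ∃ a₁ : ℝ, a₁ = 4 * C₁ / n * (M * (3 * ξ)) := ⟨_, rfl⟩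
  obtain ⟨a₂, ha₂⟩ : ∃ a₂ : ℝ, a₂ = 4 * C₁ / n * (M * 3) := ⟨_, rfl⟩
  have hphase1 : v (-(n : ℤ) + ((n - J : ℕ) : ℤ)) ≤ v (-(n : ℤ)) + ((n - J : ℕ) : ℝ) * a₁ := by
    apply chain_nat
    intro j hj hj'
    have hjJ : j < -(J : ℤ) := by omega
    have hjT : j < T := by omega
    have h1 := hstep j hj hjT
    have h2 := hpot j
    have h3 : Vb j = ξ := by rw [hVbj, if_pos hjJ]
    rw [h3] at h1
    have e : ξ + 2 * ξ = 3 * ξ := by ring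
    rw [e, ← ha₁] at h1
    rw [hvj, hvj]
    linarith
  have hphase2 : v (-(J : ℤ) + ((J + T : ℕ) : ℤ)) ≤ v (-(J : ℤ)) + ((J + T : ℕ) : ℝ) * a₂ := by
    apply chain_nat
    intro j hj hj'
    have hjn : -(n : ℤ) ≤ j := by omega
    have hjT : j < T := by push_cast at hj'; omega
    have h1 := hstep j hjn hjT
    have h2 := hpot j
    have h3 : 4 * C₁ / n * (M * (Vb j + 2 * ξ)) ≤ a₂ := by
      rw [ha₂]
      apply mul_le_mul_of_nonneg_left _ (by positivity)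
      apply mul_le_mul_of_nonneg_left _ hM0.le
      linarith [hVb1 j]
    rw [hvj, hvj]
    linarith
  have hm1 : -(n : ℤ) + ((n - J : ℕ) : ℤ) = -(J : ℤ) := by omega
  have hm2 : -(J : ℤ) + ((J + T : ℕ) : ℤ) = (T : ℤ) := by push_cast; ring
  rw [hm1] at hphase1
  rw [hm2] at hphase2
  -- the numbers
  have hT1 : 1 ≤ T := by
    rw [hT, Nat.one_le_iff_ne_zero, Ne, Nat.sqrt_eq_zero]; omega
  have hT1R : (1 : ℝ) ≤ T := by exact_mod_cast hT1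
  have hpsiT : psiPot (T : ℤ) = (T : ℝ) + 2 := by
    rw [psiPot_of_nonneg (by positivity)]; push_cast; ring
  have hpsi0 := psiPot_nonneg (-(n : ℤ))
  have hu_end : u (T : ℤ) ≤ u (-(n : ℤ)) + ((n - J : ℕ) : ℝ) * a₁ + ((J + T : ℕ) : ℝ) * a₂ + κ * ((T : ℝ) + 2) := by
    have h1 : 0 ≤ κ * psiPot (-(n : ℤ)) := by positivity
    rw [hvj (T : ℤ), hvj (-(J : ℤ)), hpsiT] at hphase2
    rw [hvj (-(J : ℤ)), hvj (-(n : ℤ))] at hphase1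
    linarith
  have hJξ : (J : ℝ) ≤ ξ * n := by
    have h1 : (J : ℝ) ≤ (n : ℝ) / B := by rw [hJ]; exact Nat.cast_div_le
    have h2 : (n : ℝ) / B ≤ ξ * n := by
      rw [div_le_iff₀ hB0]
      have h3 : 1 ≤ ξ * B := by
        rw [div_le_iff₀ hξ0] at hB
        linarith
      have h4 := mul_le_mul_of_nonneg_right h3 hn0.le
      calc (n : ℝ) = 1 * n := (one_mul _).symm
        _ ≤ ξ * B * n := h4
        _ = ξ * n * B := by ring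
    linarith
  have hterms := term_arith (C₁ := C₁) (M := M) (ξ := ξ) (W := W) (T := (T : ℝ)) (n := (n : ℝ)) (J := (J : ℝ))
    (L := L) (κ := κ) (a₁ := a₁) (a₂ := a₂) (nJ := ((n - J : ℕ) : ℝ)) (JT := ((J + T : ℕ) : ℝ))
    hC₁0 hM0 hξ0 hW0 hT1R hn0 hJξ hL1 hξ24 e4 ha₁ ha₂ hκ (by exact_mod_cast Nat.sub_le _ _) (by push_cast; ring)
  -- the start
  have hu_start : u (-(n : ℤ)) ≤ 0.72 := by
    have h1 := start_X_le hG hCS0 (fun {θ} h0 h1 {N j} hN {s} h2 h3 {p y} h4 => hstart hG h0 h1 hN h2 h3 h4)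
      hθ0 hθ hθ0' hθ' (N := N) (N' := N') (n := n) (by omega) (by omega) hpy
    have hgn : g ≤ (1 / 2 : ℝ) ^ n := by
      rw [hg]; exact pow_le_pow_of_le_one (by norm_num) (by norm_num) (by omega)
    have hτn : τ ≤ (1 / 2 : ℝ) ^ n := by
      rw [hτ]; exact pow_le_pow_of_le_one (by norm_num) (by norm_num) (by omega)
    have hg1 : g ≤ 1 := by rw [hg]; exact pow_le_one₀ (by norm_num) (by norm_num)
    have hδ3 : (θ - θ') ^ 2 ≤ (1 / 2 : ℝ) ^ n := by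
      have h2 : g ^ 2 ≤ g := by
        rw [sq]
        calc g * g ≤ g * 1 := mul_le_mul_of_nonneg_left hg1 hg0
          _ = g := mul_one _
      linarith
    rw [huj]
    exact start_arith (by omega) h1 (Xpair_nonneg _ _ _ _ _ _ _ _) hτ0 hτn hδ3 e3
  -- conclusion
  have hu_T : u (T : ℤ) ≤ 0.77 := by linarith
  have hXT0 : 0 ≤ Xpair G θ θ' N N' (T : ℤ) 0 p y := Xpair_nonneg _ _ _ _ _ _ _ _
  have hXτT : Xpair G θ θ' N N' (T : ℤ) 0 p y + τ ≤ (0.77 : ℝ) ^ n := by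
    have hbase : 0 ≤ Xpair G θ θ' N N' (T : ℤ) 0 p y + τ := by linarith
    have h1 : ((Xpair G θ θ' N N' (T : ℤ) 0 p y + τ) ^ (1 / (n : ℝ))) ^ n = Xpair G θ θ' N N' (T : ℤ) 0 p y + τ := by
      rw [one_div, Real.rpow_inv_natCast_pow hbase (by omega)]
    rw [← h1, ← huj]
    exact pow_le_pow_left₀ (by rw [huj]; exact Real.rpow_nonneg hbase _) hu_T n
  have hfin : (0.77 : ℝ) ^ n ≤ (4 / 5 : ℝ) ^ n := pow_le_pow_left₀ (by norm_num) (by norm_num) n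
  rw [hTn]
  linarith

alias critical_pair := critical_pair_proved

end Crest.Agent.Lib.IsingFIID
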