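/-
S0241 blueprint, Mod S-final: the strict case `D θ² < 1` of the theorem, assembled from `factor_of_sequence` (Output.lean)
and the infinite volume facts of Strict.lean, used as black boxes.  The helpers here are reused by CriticalFinal.lean.
-/
import Crest.Agent.Lib.IsingFIID.Strict

set_option autoImplicit false
universe u

namespace Crest.Agent.Lib.IsingFIID

open MeasureTheory Filter
open scoped Classical Topology

variable {V : Type u} {G : SimpleGraph V} {D : ℕ}

/-- The Ising weight is non negative for `0 ≤ θ ≤ 1`. -/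
theorem isingWeight_nonneg_of {θ : ℝ} (hθ0 : 0 ≤ θ) (hθ1 : θ ≤ 1) (S : Finset V) (η : V → Bool) :
    0 ≤ Crest.ProbabilityR.TreeIsing.isingWeight G θ S η := by
  unfold Crest.ProbabilityR.TreeIsing.isingWeight
  refine mul_nonneg (by norm_num) (Finset.prod_nonneg fun e _ => ?_)
  split_ifs <;> linarith

theorem theta_lt_one_of_sf (hG : RegTree G D) {θ : ℝ} (hθ0 : 0 ≤ θ) (hθ : (D : ℝ) * θ ^ 2 < 1) : θ < 1 := by
  have h2 : (2 : ℝ) ≤ D := by exact_mod_cast hG.two_le
  by_contra hcon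
  push Not at hcon
  nlinarith [sq_nonneg θ]

variable [G.LocallyFinite]

/-- `E (1 - m²)`: the elementary consequence of `integral_sqrt_cInf_le`. -/
theorem integral_cInf_le_pow (hG : RegTree G D) {θ : ℝ} (hθ0 : 0 ≤ θ) (hθ : (D : ℝ) * θ ^ 2 < 1) {N j : ℤ}
    (hN : N ≤ j) (hN0 : N ≤ 0) (hj : 0 ≤ j) {s : ℝ} (hs0 : 0 ≤ s) (hs : s ≤ 1 / 2) (v : V) :
    ∫ x, cInf G θ N j s v x ∂(omP V) ≤ (191 / 192 : ℝ) ^ j.toNat := by
  refine le_trans ?_ (integral_sqrt_cInf_le hG hθ0 hθ hN0 hj hs0 hs v)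
  have hm := measurable_mInf hG hθ0 hθ hN s v
  have hbd : ∀ x, |mInf G θ N j s v x| ≤ 1 := abs_mInf_le hG hθ0 hθ s v
  have hmc : Measurable fun x => cInf G θ N j s v x := by
    unfold cInf
    fun_prop
  have hc0 : ∀ x, 0 ≤ cInf G θ N j s v x := by
    intro x
    have := abs_le.1 (hbd x)
    unfold cInf
    nlinarith
  have hc1 : ∀ x, cInf G θ N j s v x ≤ 1 := by
    intro x
    unfold cInf
    nlinarith [sq_nonneg (mInf G θ N j s v x)]
  have hi1 : Integrable (fun x => cInf G θ N j s v x) (omP V) := by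
    refine Integrable.of_bound hmc.aestronglyMeasurable 1 (Eventually.of_forall fun x => ?_)
    rw [Real.norm_eq_abs, abs_le]
    exact ⟨by linarith [hc0 x], hc1 x⟩
  have hi2 : Integrable (fun x => Real.sqrt (cInf G θ N j s v x)) (omP V) := by
    refine Integrable.of_bound (hmc.sqrt).aestronglyMeasurable 1 (Eventually.of_forall fun x => ?_)
    rw [Real.norm_eq_abs, abs_of_nonneg (Real.sqrt_nonneg _)]
    exact Real.sqrt_le_one.2 (hc1 x)
  refine integral_mono hi1 hi2 fun x => ?_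
  show cInf G θ N j s v x ≤ Real.sqrt (cInf G θ N j s v x)
  refine Real.le_sqrt_of_sq_le ?_
  nlinarith [hc0 x, hc1 x]

/-- Change of sign between two times of the same system. -/
theorem integral_sq_mInf_time_le (hG : RegTree G D) {θ : ℝ} (hθ0 : 0 ≤ θ) (hθ : (D : ℝ) * θ ^ 2 < 1) {N j j' : ℤ}
    (hN : N ≤ j) (hN0 : N ≤ 0) (hj : 0 ≤ j) (hjj' : j ≤ j') (v : V) :
    ∫ x, (mInf G θ N j 0 v x - mInf G θ N j' 0 v x) ^ 2 ∂(omP V) ≤ (191 / 192 : ℝ) ^ j.toNat := by
  have h := integral_sq_mInf_sub_le (N := N) hG hθ0 hθ hN hjj' v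
  have h2 := integral_cInf_le_pow hG hθ0 hθ hN hN0 hj (le_refl (0 : ℝ)) (by norm_num) v
  have heq : (fun x => (mInf G θ N j 0 v x - mInf G θ N j' 0 v x) ^ 2) =
      fun x => (mInf G θ N j' 0 v x - mInf G θ N j 0 v x) ^ 2 := by
    funext x; ring
  rw [heq]
  exact h.trans h2

/-- The theorem in the strict regime. -/
theorem strict_factor_proved (hG : RegTree G D) {θ : ℝ} (hθ0 : 0 ≤ θ) (hθ : (D : ℝ) * θ ^ 2 < 1) :
    ∃ Φ : (V → unitInterval) → (V → Bool), Measurable Φ ∧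
      (∀ (g : G ≃g G) (x : V → unitInterval), Φ (x ∘ ⇑g) = Φ x ∘ ⇑g) ∧
      ∀ (S : Finset V) (η : V → Bool), (G.induce (S : Set V)).Connected →
        (Crest.ProbabilityR.Labels.labelMeasure V).map Φ {σ | ∀ v ∈ S, σ v = η v} =
          ENNReal.ofReal (Crest.ProbabilityR.TreeIsing.isingWeight G θ S η) := by
  have hN0 : ∀ n : ℕ, (0 : ℤ) ≤ (n : ℤ) := fun n => Int.natCast_nonneg n
  refine factor_of_sequence G θ (fun n x v => mInf G θ 0 (n : ℤ) 0 v x) ?_ ?_ ?_ ?_ ?_
  · intro n v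
    exact measurable_mInf hG hθ0 hθ (hN0 n) 0 v
  · intro g n x v
    exact mInf_comp_aut hG hθ0 hθ g 0 v x
  · intro v
    have hgeo : Summable fun n : ℕ => (6 : ℝ) * (191 / 192 : ℝ) ^ n :=
      (summable_geometric_of_lt_one (by norm_num) (by norm_num)).mul_left 6
    refine Summable.of_nonneg_of_le (fun _ => ENNReal.toReal_nonneg) (fun n => ?_) hgeo
    have h1 := prob_sign_ne_le (P := omP V) (measurable_mInf hG hθ0 hθ (hN0 n) 0 v)
      (measurable_mInf hG hθ0 hθ (hN0 (n + 1)) 0 v) (abs_mInf_le hG hθ0 hθ 0 v) (abs_mInf_le hG hθ0 hθ 0 v)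
    have h2 := integral_cInf_le_pow hG hθ0 hθ (hN0 n) le_rfl (hN0 n) (le_refl (0 : ℝ)) (by norm_num) v
    have h3 := integral_sq_mInf_time_le hG hθ0 hθ (hN0 n) le_rfl (hN0 n)
      (j' := ((n + 1 : ℕ) : ℤ)) (by push_cast; omega) v
    simp only [Int.toNat_natCast] at h2 h3
    unfold cInf at h2
    linarith
  · intro S η hS
    rw [tendsto_iff_dist_tendsto_zero]
    have hlim : Tendsto (fun n : ℕ => 3 * (S.card : ℝ) * (191 / 192 : ℝ) ^ n) atTop (𝓝 0) := by
      have := (tendsto_pow_atTop_nhds_zero_of_lt_one (r := (191 / 192 : ℝ)) (by norm_num) (by norm_num)).const_mul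
        (3 * (S.card : ℝ))
      simpa using this
    refine squeeze_zero (fun _ => dist_nonneg) (fun n => ?_) hlim
    have h := law_mInf hG hθ0 hθ (N := 0) (j := (n : ℤ)) le_rfl (hN0 n) (le_refl (0 : ℝ)) (by norm_num) hS η
    simp only [Int.toNat_natCast] at h
    rw [Real.dist_eq]
    exact h
  · exact fun S η => isingWeight_nonneg_of hθ0 (theta_lt_one_of_sf hG hθ0 hθ).le S η

alias strict_factor := strict_factor_proved

end Crest.Agent.Lib.IsingFIID
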