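/-
S0241 blueprint, Mod M-e: the choice of the sequence of systems and the critical case `D θ² = 1` of the theorem,
assembled from `factor_of_sequence` (Output.lean), `EQ_cauchy`, `critical_pair` (Critical.lean) and the infinite volume facts
of Strict.lean, used as black boxes.
-/
import Crest.Agent.Lib.IsingFIID.CriticalPairMain
import Crest.Agent.Lib.IsingFIID.CriticalCauchy
import Crest.Agent.Lib.IsingFIID.StrictFinal

set_option autoImplicit false
universe u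

namespace Crest.Agent.Lib.IsingFIID

open MeasureTheory Filter
open scoped Classical Topology

variable {V : Type u} {G : SimpleGraph V} {D : ℕ}

/-- `Σ_n r^{⌊√n⌋} < ∞`. -/
theorem summable_pow_sqrt {r : ℝ} (hr0 : 0 < r) (hr1 : r < 1) : Summable fun n : ℕ => r ^ Nat.sqrt n := by
  have hlim := tendsto_pow_const_mul_const_pow_of_abs_lt_one 4 (r := r) (by rwa [abs_of_pos hr0])
  obtain ⟨C, hC⟩ := hlim.bddAbove_range
  have hC' : ∀ n : ℕ, (n : ℝ) ^ 4 * r ^ n ≤ C := fun n => hC ⟨n, rfl⟩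
  have hbase : Summable fun n : ℕ => 1 / ((n + 1 : ℕ) : ℝ) ^ 2 :=
    (summable_nat_add_iff 1).2 (Real.summable_one_div_nat_pow.2 (by norm_num : 1 < 2))
  refine Summable.of_nonneg_of_le (fun n => by positivity) (fun m => ?_) (hbase.mul_left (C / r))
  set s := Nat.sqrt m with hs
  have h1 : m + 1 ≤ (s + 1) ^ 2 := by
    have := Nat.lt_succ_sqrt m
    nlinarith
  have h2 : ((m + 1 : ℕ) : ℝ) ^ 2 ≤ ((s + 1 : ℕ) : ℝ) ^ 4 := by
    have h3 : ((m + 1 : ℕ) : ℝ) ≤ ((s + 1 : ℕ) : ℝ) ^ 2 := by exact_mod_cast h1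
    have h4 : (0 : ℝ) ≤ ((m + 1 : ℕ) : ℝ) := by positivity
    calc ((m + 1 : ℕ) : ℝ) ^ 2 ≤ (((s + 1 : ℕ) : ℝ) ^ 2) ^ 2 := pow_le_pow_left₀ h4 h3 2
      _ = ((s + 1 : ℕ) : ℝ) ^ 4 := by ring
  have h5 := hC' (s + 1)
  have hpos : (0 : ℝ) < ((m + 1 : ℕ) : ℝ) ^ 2 := by positivity
  have hrs : 0 < r ^ s := by positivity
  rw [mul_one_div, le_div_iff₀ hpos, le_div_iff₀ hr0]
  calc r ^ s * ((m + 1 : ℕ) : ℝ) ^ 2 * r = ((m + 1 : ℕ) : ℝ) ^ 2 * (r ^ s * r) := by ring
    _ ≤ ((s + 1 : ℕ) : ℝ) ^ 4 * (r ^ s * r) := mul_le_mul_of_nonneg_right h2 (by positivity)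
    _ = ((s + 1 : ℕ) : ℝ) ^ 4 * r ^ (s + 1) := by rw [pow_succ r s]
    _ ≤ C := h5

/-- the Ising weight is continuous in `θ`. -/
theorem continuous_isingWeight (S : Finset V) (η : V → Bool) :
    Continuous fun θ : ℝ => Crest.ProbabilityR.TreeIsing.isingWeight G θ S η := by
  unfold Crest.ProbabilityR.TreeIsing.isingWeight
  refine continuous_const.mul (continuous_finsetProd _ fun e _ => ?_)
  split_ifs <;> fun_prop

variable [G.LocallyFinite]

/-- (M-e) choice of the sequence of systems.  `θ_c` is any value with `D θ_c² = 1`. -/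
theorem exists_sequence_proved (hG : RegTree G D) {θc : ℝ} (hθc0 : 0 ≤ θc) (hθc : (D : ℝ) * θc ^ 2 = 1) :
    ∃ (θs : ℕ → ℝ) (Ns : ℕ → ℤ), (∀ n, 0 ≤ θs n) ∧ (∀ n, (D : ℝ) * θs n ^ 2 < 1) ∧ Tendsto θs atTop (𝓝 θc) ∧
      (∀ n : ℕ, Ns n ≤ -(n : ℤ) - 1) ∧ (∀ n, |θs n - θs (n + 1)| ≤ (1 / 2 : ℝ) ^ (20 * n)) ∧
      ∀ n : ℕ, ∀ {j : ℤ} {s : ℝ} {p y : V}, -(n : ℤ) ≤ j → j ≤ Tn n → 0 ≤ s → s ≤ 1 / 2 → G.Adj p y →
        |EQ G (θs n) (Ns n) j s p y - EQ G (θs (n + 1)) (Ns (n + 1)) j s p y| ≤ (1 / 2 : ℝ) ^ (20 * n) := by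
  have hθcpos : 0 < θc := by
    rcases hθc0.lt_or_eq with h | h
    · exact h
    · rw [← h] at hθc
      norm_num at hθc
  have hDpos : (0 : ℝ) < D := by
    have : (2 : ℝ) ≤ D := by exact_mod_cast hG.two_le
    linarith
  have hc := fun n : ℕ => EQ_cauchy hG n (Tn n) (η := (1 / 2 : ℝ) ^ (20 * n)) (by positivity)
  choose δ hδ Nt hNt using hc
  -- the increments
  let a : ℕ → ℝ := fun n => min (min (δ n) ((1 / 2 : ℝ) ^ (20 * n))) ((1 / 2 : ℝ) ^ n)
  have ha0 : ∀ n, 0 < a n := fun n => lt_min (lt_min (hδ n) (by positivity)) (by positivity)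
  have ha1 : ∀ n, a n ≤ δ n := fun n => (min_le_left _ _).trans (min_le_left _ _)
  have ha2 : ∀ n, a n ≤ (1 / 2 : ℝ) ^ (20 * n) := fun n => (min_le_left _ _).trans (min_le_right _ _)
  have ha3 : ∀ n, a n ≤ (1 / 2 : ℝ) ^ n := fun n => min_le_right _ _
  have hgeo : Summable fun n : ℕ => (1 / 2 : ℝ) ^ n := summable_geometric_two
  have hsum : Summable a := Summable.of_nonneg_of_le (fun n => (ha0 n).le) ha3 hgeo
  have hsumn : ∀ n, Summable fun k => a (k + n) := fun n => (summable_nat_add_iff n).2 hsum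
  -- the tails
  let τ : ℕ → ℝ := fun n => ∑' k, a (k + n)
  have hτ_succ : ∀ n, τ n = a n + τ (n + 1) := by
    intro n
    show ∑' k, a (k + n) = a n + ∑' k, a (k + (n + 1))
    rw [(hsumn n).tsum_eq_zero_add]
    simp only [zero_add]
    congr 1
    refine tsum_congr fun k => ?_
    congr 1
    ring
  have hτ_pos : ∀ n, 0 < τ n := fun n => (hsumn n).tsum_pos (fun k => (ha0 _).le) 0 (ha0 _)
  have hτ_le : ∀ n, τ n ≤ 2 := by
    intro n
    have h1 : τ n ≤ ∑' k : ℕ, (1 / 2 : ℝ) ^ k := by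
      refine (hsumn n).tsum_le_tsum (fun k => ?_) hgeo
      refine (ha3 _).trans ?_
      exact pow_le_pow_of_le_one (by norm_num) (by norm_num) (Nat.le_add_right _ _)
    rwa [tsum_geometric_two] at h1
  have hτ_lim : Tendsto τ atTop (𝓝 0) := tendsto_sum_nat_add a
  -- the scale
  let c : ℝ := min 1 (θc / 4)
  have hc0 : 0 < c := lt_min one_pos (by positivity)
  have hc1 : c ≤ 1 := min_le_left _ _
  have hc2 : c ≤ θc / 4 := min_le_right _ _
  let θs : ℕ → ℝ := fun n => θc - c * τ n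
  have hθs0 : ∀ n, 0 ≤ θs n := by
    intro n
    have := hτ_le n
    have h2 := hτ_pos n
    show 0 ≤ θc - c * τ n
    nlinarith
  have hθslt : ∀ n, θs n < θc := by
    intro n
    have h2 := mul_pos hc0 (hτ_pos n)
    show θc - c * τ n < θc
    linarith
  have hθsD : ∀ n, (D : ℝ) * θs n ^ 2 < 1 := by
    intro n
    have h1 : θs n ^ 2 < θc ^ 2 := pow_lt_pow_left₀ (hθslt n) (hθs0 n) (by norm_num)
    calc (D : ℝ) * θs n ^ 2 < (D : ℝ) * θc ^ 2 := mul_lt_mul_of_pos_left h1 hDpos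
      _ = 1 := hθc
  have hdiff : ∀ n, |θs n - θs (n + 1)| ≤ a n := by
    intro n
    have h1 : θs n - θs (n + 1) = -(c * a n) := by
      show (θc - c * τ n) - (θc - c * τ (n + 1)) = _
      rw [hτ_succ n]
      ring
    rw [h1, abs_neg, abs_of_pos (mul_pos hc0 (ha0 n))]
    nlinarith [ha0 n]
  let Ns : ℕ → ℤ := fun n => min (-(n : ℤ) - 1) (min (Nt n) (Nt (n - 1)))
  have hNs1 : ∀ n, Ns n ≤ -(n : ℤ) - 1 := fun n => min_le_left _ _
  have hNs2 : ∀ n, Ns n ≤ Nt n := fun n => (min_le_right _ _).trans (min_le_left _ _)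
  have hNs3 : ∀ n, Ns (n + 1) ≤ Nt n := by
    intro n
    have : Ns (n + 1) ≤ Nt (n + 1 - 1) := (min_le_right _ _).trans (min_le_right _ _)
    simpa using this
  refine ⟨θs, Ns, hθs0, hθsD, ?_, hNs1, fun n => (hdiff n).trans (ha2 n), ?_⟩
  · have h := (hτ_lim.const_mul c).const_sub θc
    simpa using h
  · intro n j s p y hj1 hj2 hs0 hs1 hpy
    exact hNt n (hθs0 n) (hθs0 (n + 1)) (hθsD n) (hθsD (n + 1)) ((hdiff n).trans (ha1 n)) (hNs2 n) (hNs3 n)
      hj1 hj2 hs0 hs1 hpy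

theorem Tn_nonneg (n : ℕ) : 0 ≤ Tn n := Int.natCast_nonneg _

theorem Tn_toNat (n : ℕ) : (Tn n).toNat = Nat.sqrt n := by
  simp [Tn]

theorem Tn_mono (n : ℕ) : Tn n ≤ Tn (n + 1) := by
  unfold Tn
  exact_mod_cast Nat.sqrt_le_sqrt (Nat.le_succ n)

/-- **The critical case.** -/
theorem critical_factor_proved (hG : RegTree G D) {θ : ℝ} (hθ0 : 0 ≤ θ) (hθ : (D : ℝ) * θ ^ 2 = 1) :
    ∃ Φ : (V → unitInterval) → (V → Bool), Measurable Φ ∧
      (∀ (g : G ≃g G) (x : V → unitInterval), Φ (x ∘ ⇑g) = Φ x ∘ ⇑g) ∧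
      ∀ (S : Finset V) (η : V → Bool), (G.induce (S : Set V)).Connected →
        (Crest.ProbabilityR.Labels.labelMeasure V).map Φ {σ | ∀ v ∈ S, σ v = η v} =
          ENNReal.ofReal (Crest.ProbabilityR.TreeIsing.isingWeight G θ S η) := by
  obtain ⟨θs, Ns, h0, h1, hlim, hNs, hd, hEQ⟩ := exists_sequence_proved hG hθ0 hθ
  obtain ⟨n₀, hn₀⟩ := critical_pair hG
  have hNs0 : ∀ n, Ns n ≤ 0 := fun n => by
    have := hNs n
    omega
  have hNT : ∀ n m : ℕ, Ns n ≤ Tn m := fun n m => (hNs0 n).trans (Tn_nonneg m)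
  have hθ1 : θ ≤ 1 := by
    have h2 : (2 : ℝ) ≤ D := by exact_mod_cast hG.two_le
    by_contra hcon
    push Not at hcon
    nlinarith [sq_nonneg θ]
  have hsqrt := summable_pow_sqrt (r := (191 / 192 : ℝ)) (by norm_num) (by norm_num)
  refine factor_of_sequence G θ (fun n x v => mInf G (θs n) (Ns n) (Tn n) 0 v x) ?_ ?_ ?_ ?_ ?_
  · intro n v
    exact measurable_mInf hG (h0 n) (h1 n) (hNT n n) 0 v
  · intro g n x v
    exact mInf_comp_aut hG (h0 n) (h1 n) g 0 v x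
  · intro v
    -- a neighbour of `v`
    obtain ⟨y, hvy⟩ : ∃ y, G.Adj v y := by
      have hcard := hG.card_neighbor v
      have : (G.neighborFinset v).Nonempty := by
        rw [← Finset.card_pos, hcard]
        omega
      obtain ⟨y, hy⟩ := this
      exact ⟨y, by simpa using hy⟩
    have hgeo : Summable fun n : ℕ => (8 : ℝ) * (4 / 5 : ℝ) ^ n :=
      (summable_geometric_of_lt_one (by norm_num) (by norm_num)).mul_left 8
    have hB : Summable fun n : ℕ => (10 : ℝ) * (191 / 192 : ℝ) ^ Nat.sqrt n + (8 : ℝ) * (4 / 5 : ℝ) ^ n :=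
      (hsqrt.mul_left 10).add hgeo
    refine Summable.of_norm_bounded_eventually_nat hB ?_
    filter_upwards [eventually_ge_atTop n₀] with n hn
    rw [Real.norm_eq_abs, abs_of_nonneg ENNReal.toReal_nonneg]
    -- the three measurable fields
    have hma := measurable_mInf hG (h0 n) (h1 n) (hNT n n) 0 v
    have hmb := measurable_mInf hG (h0 (n + 1)) (h1 (n + 1)) (hNT (n + 1) (n + 1)) 0 v
    have hmc := measurable_mInf hG (h0 (n + 1)) (h1 (n + 1)) (hNT (n + 1) n) 0 v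
    have hba := abs_mInf_le hG (h0 n) (h1 n) (N := Ns n) (j := Tn n) 0 v
    have hbb := abs_mInf_le hG (h0 (n + 1)) (h1 (n + 1)) (N := Ns (n + 1)) (j := Tn (n + 1)) 0 v
    have hbc := abs_mInf_le hG (h0 (n + 1)) (h1 (n + 1)) (N := Ns (n + 1)) (j := Tn n) 0 v
    have hs := prob_sign_ne_le (P := omP V) hma hmb hba hbb
    -- the bound on the two pieces
    have hc1 := integral_cInf_le_pow hG (h0 n) (h1 n) (hNT n n) (hNs0 n) (Tn_nonneg n) (le_refl (0 : ℝ))
      (by norm_num) v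
    rw [Tn_toNat] at hc1
    have hc2 := integral_sq_mInf_time_le hG (h0 (n + 1)) (h1 (n + 1)) (hNT (n + 1) n) (hNs0 (n + 1)) (Tn_nonneg n)
      (Tn_mono n) v
    rw [Tn_toNat] at hc2
    have hX := hn₀ n hn (h0 n) (h1 n) (h0 (n + 1)) (h1 (n + 1)) (N := Ns n) (N' := Ns (n + 1)) (hNs n)
      (by have := hNs (n + 1); push_cast at this; omega) (hd n) (fun {j s p y} a1 a2 a3 a4 a5 => hEQ n a1 a2 a3 a4 a5) hvy
    have hpair : ∫ x, (mInf G (θs n) (Ns n) (Tn n) 0 v x - mInf G (θs (n + 1)) (Ns (n + 1)) (Tn n) 0 v x) ^ 2 ∂(omP V)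
        ≤ (4 / 5 : ℝ) ^ n := by
      refine le_trans ?_ hX
      unfold Xpair
      have : 0 ≤ ∫ x, (tInf G (θs n) (Ns n) (Tn n) 0 v y x - tInf G (θs (n + 1)) (Ns (n + 1)) (Tn n) 0 v y x) ^ 2 ∂(omP V) :=
        integral_nonneg fun x => sq_nonneg _
      linarith
    -- triangle inequality in `L²`
    have hint : ∀ f g : Om V → ℝ, Measurable f → Measurable g → (∀ x, |f x| ≤ 1) → (∀ x, |g x| ≤ 1) →
        Integrable (fun x => (f x - g x) ^ 2) (omP V) := by
      intro f g hf hg hf1 hg1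
      refine Integrable.of_bound (by fun_prop : Measurable fun x => (f x - g x) ^ 2).aestronglyMeasurable 4
        (Eventually.of_forall fun x => ?_)
      have h3 := abs_le.1 (hf1 x)
      have h4 := abs_le.1 (hg1 x)
      rw [Real.norm_eq_abs, abs_le]
      constructor <;> nlinarith
    have htri : ∫ x, (mInf G (θs n) (Ns n) (Tn n) 0 v x - mInf G (θs (n + 1)) (Ns (n + 1)) (Tn (n + 1)) 0 v x) ^ 2 ∂(omP V)
        ≤ 2 * ∫ x, (mInf G (θs n) (Ns n) (Tn n) 0 v x - mInf G (θs (n + 1)) (Ns (n + 1)) (Tn n) 0 v x) ^ 2 ∂(omP V)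
          + 2 * ∫ x, (mInf G (θs (n + 1)) (Ns (n + 1)) (Tn n) 0 v x - mInf G (θs (n + 1)) (Ns (n + 1)) (Tn (n + 1)) 0 v x) ^ 2 ∂(omP V) := by
      rw [← integral_const_mul, ← integral_const_mul,
        ← integral_add ((hint _ _ hma hmc hba hbc).const_mul 2) ((hint _ _ hmc hmb hbc hbb).const_mul 2)]
      refine integral_mono (hint _ _ hma hmb hba hbb)
        (((hint _ _ hma hmc hba hbc).const_mul 2).add ((hint _ _ hmc hmb hbc hbb).const_mul 2)) fun x => ?_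
      show (_ - _) ^ 2 ≤ 2 * (_ - _) ^ 2 + 2 * (_ - _) ^ 2
      nlinarith [sq_nonneg ((mInf G (θs n) (Ns n) (Tn n) 0 v x - mInf G (θs (n + 1)) (Ns (n + 1)) (Tn n) 0 v x) -
        (mInf G (θs (n + 1)) (Ns (n + 1)) (Tn n) 0 v x - mInf G (θs (n + 1)) (Ns (n + 1)) (Tn (n + 1)) 0 v x))]
    unfold cInf at hc1
    linarith
  · intro S η hS
    have hw : Tendsto (fun n => Crest.ProbabilityR.TreeIsing.isingWeight G (θs n) S η) atTop
        (𝓝 (Crest.ProbabilityR.TreeIsing.isingWeight G θ S η)) :=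
      (continuous_isingWeight S η).tendsto θ |>.comp hlim
    have hlim0 : Tendsto (fun n : ℕ => 3 * (S.card : ℝ) * (191 / 192 : ℝ) ^ Nat.sqrt n) atTop (𝓝 0) := by
      have := hsqrt.tendsto_atTop_zero.const_mul (3 * (S.card : ℝ))
      simpa using this
    have hdiff : Tendsto (fun n => ((omP V) {x | ∀ v ∈ S, signB (mInf G (θs n) (Ns n) (Tn n) 0 v x) = η v}).toReal -
        Crest.ProbabilityR.TreeIsing.isingWeight G (θs n) S η) atTop (𝓝 0) := by
      refine squeeze_zero_norm (fun n => ?_) hlim0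
      have h := law_mInf hG (h0 n) (h1 n) (hNs0 n) (Tn_nonneg n) (le_refl (0 : ℝ)) (by norm_num) hS η
      rw [Tn_toNat] at h
      rw [Real.norm_eq_abs]
      exact h
    have h := hdiff.add hw
    simpa using h
  · exact fun S η => isingWeight_nonneg_of hθ0 hθ1 S η

alias exists_sequence := exists_sequence_proved
alias critical_factor := critical_factor_proved

end Crest.Agent.Lib.IsingFIID
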