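import Crest.Agent.Lib.IsingFIID.StaticMomentsBase

set_option autoImplicit false
namespace Crest.Agent.Lib.IsingFIID
universe u v
namespace SM

open MeasureTheory Filter
open scoped Classical Topology

/-! ### The recursion -/

section Rec

variable {V : Type u} {G : SimpleGraph V} [G.LocallyFinite] {D : ℕ}
variable {E : Type v} [MeasurableSpace E] {κ : Measure E}
variable (𝔟 : BlockData κ) {θ : ℝ}

/-- `P = ∏_z (Z_z + θ n_z)`. -/
noncomputable def Pp (G : SimpleGraph V) [G.LocallyFinite] (𝔟 : BlockData κ) (θ : ℝ) (R : ℕ) (p y : V)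
    (x : V → E) : ℝ := ∏ z ∈ ch G p y, (zR G 𝔟 θ R y z x + θ * nR G 𝔟 θ R y z x)

/-- `M = ∏_z (Z_z - θ n_z)`. -/
noncomputable def Pm (G : SimpleGraph V) [G.LocallyFinite] (𝔟 : BlockData κ) (θ : ℝ) (R : ℕ) (p y : V)
    (x : V → E) : ℝ := ∏ z ∈ ch G p y, (zR G 𝔟 θ R y z x - θ * nR G 𝔟 θ R y z x)

theorem zR_zero (p y : V) (x : V → E) :
    zR G 𝔟 θ 0 p y x = (𝔟.wp (x y) + 𝔟.wm (x y)) / 2 := rfl

theorem nR_zero (p y : V) (x : V → E) :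
    nR G 𝔟 θ 0 p y x = (𝔟.wp (x y) - 𝔟.wm (x y)) / 2 := rfl

theorem zR_succ (R : ℕ) (p y : V) (x : V → E) :
    zR G 𝔟 θ (R + 1) p y x =
      (𝔟.wp (x y) * Pp G 𝔟 θ R p y x + 𝔟.wm (x y) * Pm G 𝔟 θ R p y x) / 2 := rfl

theorem nR_succ (R : ℕ) (p y : V) (x : V → E) :
    nR G 𝔟 θ (R + 1) p y x =
      (𝔟.wp (x y) * Pp G 𝔟 θ R p y x - 𝔟.wm (x y) * Pm G 𝔟 θ R p y x) / 2 := rfl

theorem nuR_eq (R : ℕ) (p y : V) (x : V → E) :
    nuR G 𝔟 θ R p y x = nR G 𝔟 θ R p y x / zR G 𝔟 θ R p y x := rfl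

theorem BM_wp (y : V) : BM (fun x : V → E => 𝔟.wp (x y)) := by
  refine ⟨𝔟.meas_wp.comp (measurable_pi_apply y), max |𝔟.lo| |𝔟.hi|, fun x => ?_⟩
  exact abs_le_max_abs_abs (𝔟.wp_ge _) (𝔟.wp_le _)

theorem BM_wm (y : V) : BM (fun x : V → E => 𝔟.wm (x y)) := by
  refine ⟨𝔟.meas_wm.comp (measurable_pi_apply y), max |𝔟.lo| |𝔟.hi|, fun x => ?_⟩
  exact abs_le_max_abs_abs (𝔟.wm_ge _) (𝔟.wm_le _)

theorem BM_zR_nR (R : ℕ) : ∀ p y : V, BM (zR G 𝔟 θ R p y) ∧ BM (nR G 𝔟 θ R p y) := by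
  induction R with
  | zero =>
    intro p y
    constructor
    · have := ((BM_wp 𝔟 y).add (BM_wm 𝔟 y)).mul (BM.const (1 / 2))
      convert this using 2 with x
      rw [zR_zero]; ring
    · have := ((BM_wp 𝔟 y).sub (BM_wm 𝔟 y)).mul (BM.const (1 / 2))
      convert this using 2 with x
      rw [nR_zero]; ring
  | succ R ih =>
    intro p y
    have hP : BM (Pp G 𝔟 θ R p y) :=
      BM.prod _ _ fun z _ => (ih y z).1.add ((BM.const θ).mul (ih y z).2)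
    have hM : BM (Pm G 𝔟 θ R p y) :=
      BM.prod _ _ fun z _ => (ih y z).1.sub ((BM.const θ).mul (ih y z).2)
    constructor
    · have := (((BM_wp 𝔟 y).mul hP).add ((BM_wm 𝔟 y).mul hM)).mul (BM.const (1 / 2))
      convert this using 2 with x
      rw [zR_succ]; ring
    · have := (((BM_wp 𝔟 y).mul hP).sub ((BM_wm 𝔟 y).mul hM)).mul (BM.const (1 / 2))
      convert this using 2 with x
      rw [nR_succ]; ring

theorem BM_Pp (R : ℕ) (p y : V) : BM (Pp G 𝔟 θ R p y) :=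
  BM.prod _ _ fun z _ => (BM_zR_nR 𝔟 R y z).1.add ((BM.const θ).mul (BM_zR_nR 𝔟 R y z).2)

theorem BM_Pm (R : ℕ) (p y : V) : BM (Pm G 𝔟 θ R p y) :=
  BM.prod _ _ fun z _ => (BM_zR_nR 𝔟 R y z).1.sub ((BM.const θ).mul (BM_zR_nR 𝔟 R y z).2)

theorem measurable_nuR (R : ℕ) (p y : V) : Measurable (nuR G 𝔟 θ R p y) := by
  have h1 := (BM_zR_nR (G := G) (θ := θ) 𝔟 R p y).1.meas
  have h2 := (BM_zR_nR (G := G) (θ := θ) 𝔟 R p y).2.meas
  exact h2.div h1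

/-- dependence on the subtree. -/
theorem Dep_zR_nR (hG : RegTree G D) (R : ℕ) : ∀ {p y : V}, G.Adj p y →
    Dep (sub G R p y : Set V) (zR G 𝔟 θ R p y) ∧ Dep (sub G R p y : Set V) (nR G 𝔟 θ R p y) := by
  induction R with
  | zero =>
    intro p y _
    have hy : y ∈ (sub G 0 p y : Set V) := by simp [sub, desc]
    constructor
    · intro x x' h
      rw [zR_zero, zR_zero, h y hy]
    · intro x x' h
      rw [nR_zero, nR_zero, h y hy]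
  | succ R ih =>
    intro p y hpy
    have hs := hG.sub_succ hpy R
    have hy : y ∈ (sub G (R + 1) p y : Set V) := by
      rw [hs]; simp
    have hz : ∀ z ∈ ch G p y, ((sub G R y z : Finset V) : Set V) ⊆ (sub G (R + 1) p y : Set V) := by
      intro z hz u hu
      rw [hs]
      simp only [Finset.coe_union, Finset.coe_biUnion, Set.mem_union, Set.mem_iUnion]
      right
      exact ⟨z, hz, hu⟩
    have hP : ∀ x x' : V → E, (∀ v ∈ (sub G (R + 1) p y : Set V), x v = x' v) →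
        Pp G 𝔟 θ R p y x = Pp G 𝔟 θ R p y x' ∧ Pm G 𝔟 θ R p y x = Pm G 𝔟 θ R p y x' := by
      intro x x' h
      constructor
      · refine Finset.prod_congr rfl fun z hzz => ?_
        have hadj := (mem_ch.mp hzz).1
        rw [(ih hadj).1 x x' fun v hv => h v (hz z hzz hv), (ih hadj).2 x x' fun v hv => h v (hz z hzz hv)]
      · refine Finset.prod_congr rfl fun z hzz => ?_
        have hadj := (mem_ch.mp hzz).1
        rw [(ih hadj).1 x x' fun v hv => h v (hz z hzz hv), (ih hadj).2 x x' fun v hv => h v (hz z hzz hv)]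
    constructor
    · intro x x' h
      rw [zR_succ, zR_succ, h y hy, (hP x x' h).1, (hP x x' h).2]
    · intro x x' h
      rw [nR_succ, nR_succ, h y hy, (hP x x' h).1, (hP x x' h).2]

theorem Dep_nuR (hG : RegTree G D) {p y : V} (hpy : G.Adj p y) (R : ℕ) :
    Dep (sub G R p y : Set V) (nuR G 𝔟 θ R p y) := by
  intro x x' h
  rw [nuR_eq, nuR_eq, (Dep_zR_nR 𝔟 hG R hpy).1 x x' h, (Dep_zR_nR 𝔟 hG R hpy).2 x x' h]

/-- The flip of all the blocks. -/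
def flip (x : V → E) : V → E := 𝔟.swap ∘ x

theorem flip_apply (x : V → E) (v : V) : flip 𝔟 x v = 𝔟.swap (x v) := rfl

theorem zR_nR_flip (R : ℕ) : ∀ (p y : V) (x : V → E),
    zR G 𝔟 θ R p y (flip 𝔟 x) = zR G 𝔟 θ R p y x ∧ nR G 𝔟 θ R p y (flip 𝔟 x) = - nR G 𝔟 θ R p y x := by
  induction R with
  | zero =>
    intro p y x
    rw [zR_zero, zR_zero, nR_zero, nR_zero, flip_apply, 𝔟.wp_swap, 𝔟.wm_swap]
    constructor <;> ring
  | succ R ih =>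
    intro p y x
    have hP : Pp G 𝔟 θ R p y (flip 𝔟 x) = Pm G 𝔟 θ R p y x := by
      refine Finset.prod_congr rfl fun z _ => ?_
      rw [(ih y z x).1, (ih y z x).2]; ring
    have hM : Pm G 𝔟 θ R p y (flip 𝔟 x) = Pp G 𝔟 θ R p y x := by
      refine Finset.prod_congr rfl fun z _ => ?_
      rw [(ih y z x).1, (ih y z x).2]; ring
    rw [zR_succ, zR_succ, nR_succ, nR_succ, hP, hM, flip_apply, 𝔟.wp_swap, 𝔟.wm_swap]
    constructor <;> ring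

theorem nuR_flip (R : ℕ) (p y : V) (x : V → E) :
    nuR G 𝔟 θ R p y (flip 𝔟 x) = - nuR G 𝔟 θ R p y x := by
  rw [nuR_eq, nuR_eq, (zR_nR_flip 𝔟 R p y x).1, (zR_nR_flip 𝔟 R p y x).2, neg_div]

theorem Pp_flip (R : ℕ) (p y : V) (x : V → E) :
    Pp G 𝔟 θ R p y (flip 𝔟 x) = Pm G 𝔟 θ R p y x := by
  refine Finset.prod_congr rfl fun z _ => ?_
  rw [(zR_nR_flip 𝔟 R y z x).1, (zR_nR_flip 𝔟 R y z x).2]; ring

variable [IsProbabilityMeasure κ]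

theorem flip_mp : MeasurePreserving (flip (V := V) 𝔟) (Measure.infinitePi fun _ : V => κ)
    (Measure.infinitePi fun _ : V => κ) := by
  have hm : Measurable (flip (V := V) 𝔟) :=
    measurable_pi_lambda _ fun v => 𝔟.swap_mp.measurable.comp (measurable_pi_apply v)
  refine ⟨hm, ?_⟩
  have := Measure.infinitePi_map_pi (μ := fun _ : V => κ) (f := fun _ : V => 𝔟.swap)
    (fun _ => 𝔟.swap_mp.measurable)
  simp only [𝔟.swap_mp.map_eq] at this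
  exact this

/-- Change of variables under the flip. -/
theorem integral_flip {f : (V → E) → ℝ} (hf : Measurable f) :
    ∫ x, f (flip 𝔟 x) ∂(Measure.infinitePi fun _ : V => κ) = ∫ x, f x ∂(Measure.infinitePi fun _ : V => κ) := by
  have h := flip_mp (V := V) 𝔟
  have h2 := integral_map (μ := Measure.infinitePi fun _ : V => κ) h.measurable.aemeasurable (f := f)
    (by rw [h.map_eq]; exact hf.aestronglyMeasurable)
  rw [h.map_eq] at h2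
  exact h2.symm

/-- An odd function has zero static expectation. -/
theorem EsR_odd {f : (V → E) → ℝ} (hf : Measurable f) (hodd : ∀ x, f (flip 𝔟 x) = - f x) (R : ℕ) (p y : V) :
    EsR G 𝔟 θ R p y f = 0 := by
  have hm : Measurable fun x => f x * zR G 𝔟 θ R p y x := hf.mul (BM_zR_nR 𝔟 R p y).1.meas
  have h := integral_flip (V := V) 𝔟 hm
  simp only [hodd, (zR_nR_flip 𝔟 R p y _).1] at h
  have h2 : ∫ x, - f x * zR G 𝔟 θ R p y x ∂(Measure.infinitePi fun _ : V => κ) =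
      - ∫ x, f x * zR G 𝔟 θ R p y x ∂(Measure.infinitePi fun _ : V => κ) := by
    rw [← integral_neg]
    simp only [neg_mul]
  rw [h2] at h
  unfold EsR
  linarith

/-- An even function: `E^{R+1} f = ∫ f w₊ P`. -/
theorem EsR_succ_even {f : (V → E) → ℝ} (hf : BM f) (heven : ∀ x, f (flip 𝔟 x) = f x) (R : ℕ) (p y : V) :
    EsR G 𝔟 θ (R + 1) p y f =
      ∫ x, f x * (𝔟.wp (x y) * Pp G 𝔟 θ R p y x) ∂(Measure.infinitePi fun _ : V => κ) := by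
  have hBP : BM fun x : V → E => f x * (𝔟.wp (x y) * Pp G 𝔟 θ R p y x) :=
    hf.mul ((BM_wp 𝔟 y).mul (BM_Pp 𝔟 R p y))
  have hBM : BM fun x : V → E => f x * (𝔟.wm (x y) * Pm G 𝔟 θ R p y x) :=
    hf.mul ((BM_wm 𝔟 y).mul (BM_Pm 𝔟 R p y))
  have h := integral_flip (V := V) 𝔟 hBP.meas
  have h2 : ∀ x : V → E, f (flip 𝔟 x) * (𝔟.wp (flip 𝔟 x y) * Pp G 𝔟 θ R p y (flip 𝔟 x)) =
      f x * (𝔟.wm (x y) * Pm G 𝔟 θ R p y x) := by
    intro x
    rw [heven, flip_apply, 𝔟.wp_swap, Pp_flip]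
  simp only [h2] at h
  unfold EsR
  simp only [zR_succ]
  have h3 : ∀ x : V → E, f x * ((𝔟.wp (x y) * Pp G 𝔟 θ R p y x + 𝔟.wm (x y) * Pm G 𝔟 θ R p y x) / 2) =
      (1 / 2) * (f x * (𝔟.wp (x y) * Pp G 𝔟 θ R p y x)) + (1 / 2) * (f x * (𝔟.wm (x y) * Pm G 𝔟 θ R p y x)) := by
    intro x; ring
  simp only [h3]
  rw [integral_add ((hBP.integrable _).const_mul _) ((hBM.integrable _).const_mul _),
    integral_const_mul, integral_const_mul, h]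
  ring

end Rec

/-! ### the magnetisation -/

set_option linter.unusedSectionVars false

section Nu

variable {V : Type u} {G : SimpleGraph V} [G.LocallyFinite] {D : ℕ}
variable {E : Type v} [MeasurableSpace E] {κ : Measure E} [IsProbabilityMeasure κ]
variable (𝔟 : BlockData κ) {θ : ℝ}

/-- half the log likelihood ratio. -/
noncomputable def hOf (e : E) : ℝ := (1 / 2) * Real.log (𝔟.wp e / 𝔟.wm e)

theorem wp_pos (e : E) : 0 < 𝔟.wp e := 𝔟.lo_pos.trans_le (𝔟.wp_ge e)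
theorem wm_pos (e : E) : 0 < 𝔟.wm e := 𝔟.lo_pos.trans_le (𝔟.wm_ge e)

theorem measurable_hOf : Measurable (hOf 𝔟) := by
  unfold hOf
  exact (Real.measurable_log.comp (𝔟.meas_wp.div 𝔟.meas_wm)).const_mul _

theorem abs_hOf_le (e : E) : |hOf 𝔟 e| ≤ (1 / 2) * (Real.log 𝔟.hi - Real.log 𝔟.lo) := by
  have h1 := wp_pos 𝔟 e
  have h2 := wm_pos 𝔟 e
  have h3 := Real.log_le_log 𝔟.lo_pos (𝔟.wp_ge e)
  have h4 := Real.log_le_log 𝔟.lo_pos (𝔟.wm_ge e)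
  have h5 := Real.log_le_log h1 (𝔟.wp_le e)
  have h6 := Real.log_le_log h2 (𝔟.wm_le e)
  rw [hOf, Real.log_div h1.ne' h2.ne', abs_le]
  constructor <;> linarith

theorem hOf_swap (e : E) : hOf 𝔟 (𝔟.swap e) = - hOf 𝔟 e := by
  have h1 := wp_pos 𝔟 e
  have h2 := wm_pos 𝔟 e
  rw [hOf, hOf, 𝔟.wp_swap, 𝔟.wm_swap, Real.log_div h2.ne' h1.ne', Real.log_div h1.ne' h2.ne']
  ring

theorem BM_hOf (y : V) : BM (fun x : V → E => hOf 𝔟 (x y)) :=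
  ⟨(measurable_hOf 𝔟).comp (measurable_pi_apply y), _, fun _ => abs_hOf_le 𝔟 _⟩

section Hyp

variable (hG : RegTree G D) (hθ0 : 0 ≤ θ) (hθ : (D : ℝ) * θ ^ 2 ≤ 1)
include hG hθ

theorem theta_sq_le : θ ^ 2 ≤ 1 / 2 := by
  have h2 : (2 : ℝ) ≤ D := by exact_mod_cast hG.two_le
  nlinarith [sq_nonneg θ]

include hθ0 in
theorem theta_lt_one : θ < 1 := by
  have := theta_sq_le hG hθ
  nlinarith

theorem theta_mul_sq_le {u : ℝ} (hu : |u| < 1) : (θ * u) ^ 2 ≤ 1 / 2 := by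
  have := theta_sq_le hG hθ
  have h2 : u ^ 2 ≤ 1 := by
    rw [← sq_abs]
    have := abs_nonneg u
    nlinarith
  rw [mul_pow]
  nlinarith [sq_nonneg θ, sq_nonneg u]

include hθ0 in
theorem abs_theta_mul_lt {u : ℝ} (hu : |u| < 1) : |θ * u| < 1 := by
  have := theta_lt_one hG hθ0 hθ
  rw [abs_mul, abs_of_nonneg hθ0]
  have := abs_nonneg u
  nlinarith

include hθ0

variable {p y : V} (hpy : G.Adj p y)
include hpy

theorem Z_pos (R : ℕ) (x : V → E) : 0 < zR G 𝔟 θ R p y x := zR_pos 𝔟 hG hθ0 hθ hpy R x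
theorem nu_lt (R : ℕ) (x : V → E) : |nuR G 𝔟 θ R p y x| < 1 := abs_nuR_lt 𝔟 hG hθ0 hθ hpy R x

theorem n_eq (R : ℕ) (x : V → E) : nR G 𝔟 θ R p y x = nuR G 𝔟 θ R p y x * zR G 𝔟 θ R p y x := by
  rw [nuR_eq, div_mul_cancel₀ _ (Z_pos 𝔟 hG hθ0 hθ hpy R x).ne']

/-- `Z + θ n = Z (1 + θ ν)` is positive. -/
theorem gp_pos (R : ℕ) (x : V → E) : 0 < zR G 𝔟 θ R p y x + θ * nR G 𝔟 θ R p y x := by
  have h := abs_lt.mp (abs_theta_mul_lt hG hθ0 hθ (nu_lt 𝔟 hG hθ0 hθ hpy R x))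
  have hZ := Z_pos 𝔟 hG hθ0 hθ hpy R x
  rw [n_eq 𝔟 hG hθ0 hθ hpy R x]
  nlinarith [h.1]

theorem gm_pos (R : ℕ) (x : V → E) : 0 < zR G 𝔟 θ R p y x - θ * nR G 𝔟 θ R p y x := by
  have h := abs_lt.mp (abs_theta_mul_lt hG hθ0 hθ (nu_lt 𝔟 hG hθ0 hθ hpy R x))
  have hZ := Z_pos 𝔟 hG hθ0 hθ hpy R x
  rw [n_eq 𝔟 hG hθ0 hθ hpy R x]
  nlinarith [h.2]

/-- `atanh (θ ν)` in terms of `Z, n`. -/
theorem atanhL_theta_nu (R : ℕ) (x : V → E) :
    atanhL (θ * nuR G 𝔟 θ R p y x) =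
      (1 / 2) * (Real.log (zR G 𝔟 θ R p y x + θ * nR G 𝔟 θ R p y x)
        - Real.log (zR G 𝔟 θ R p y x - θ * nR G 𝔟 θ R p y x)) := by
  have hZ := Z_pos 𝔟 hG hθ0 hθ hpy R x
  have hp := gp_pos 𝔟 hG hθ0 hθ hpy R x
  have hm := gm_pos 𝔟 hG hθ0 hθ hpy R x
  have h := abs_lt.mp (abs_theta_mul_lt hG hθ0 hθ (nu_lt 𝔟 hG hθ0 hθ hpy R x))
  rw [atanhL, ← Real.log_div hp.ne' hm.ne']
  congr 2
  rw [nuR_eq]
  field_simp

theorem atanhL_nuR_succ (R : ℕ) (x : V → E) :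
    atanhL (nuR G 𝔟 θ (R + 1) p y x) =
      hOf 𝔟 (x y) + ∑ z ∈ ch G p y, atanhL (θ * nuR G 𝔟 θ R y z x) := by
  have h1 := wp_pos 𝔟 (x y)
  have h2 := wm_pos 𝔟 (x y)
  have hzs : ∀ z ∈ ch G p y, G.Adj y z := fun z hz => (mem_ch.mp hz).1
  have hPpos : 0 < Pp G 𝔟 θ R p y x :=
    Finset.prod_pos fun z hz => gp_pos 𝔟 hG hθ0 hθ (hzs z hz) R x
  have hMpos : 0 < Pm G 𝔟 θ R p y x :=
    Finset.prod_pos fun z hz => gm_pos 𝔟 hG hθ0 hθ (hzs z hz) R x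
  have hZ := Z_pos 𝔟 hG hθ0 hθ hpy (R + 1) x
  have hlogP : Real.log (Pp G 𝔟 θ R p y x) - Real.log (Pm G 𝔟 θ R p y x) =
      2 * ∑ z ∈ ch G p y, atanhL (θ * nuR G 𝔟 θ R y z x) := by
    rw [Pp, Pm, Real.log_prod (fun z hz => (gp_pos 𝔟 hG hθ0 hθ (hzs z hz) R x).ne'),
      Real.log_prod (fun z hz => (gm_pos 𝔟 hG hθ0 hθ (hzs z hz) R x).ne'), Finset.mul_sum,
      ← Finset.sum_sub_distrib]
    refine Finset.sum_congr rfl fun z hz => ?_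
    rw [atanhL_theta_nu 𝔟 hG hθ0 hθ (hzs z hz)]
    ring
  have e : (1 + nuR G 𝔟 θ (R + 1) p y x) / (1 - nuR G 𝔟 θ (R + 1) p y x) =
      (𝔟.wp (x y) * Pp G 𝔟 θ R p y x) / (𝔟.wm (x y) * Pm G 𝔟 θ R p y x) := by
    rw [nuR_eq]
    have e1 : 1 + nR G 𝔟 θ (R + 1) p y x / zR G 𝔟 θ (R + 1) p y x =
        (𝔟.wp (x y) * Pp G 𝔟 θ R p y x) / zR G 𝔟 θ (R + 1) p y x := by
      field_simp
      rw [zR_succ, nR_succ]; ring
    have e2 : 1 - nR G 𝔟 θ (R + 1) p y x / zR G 𝔟 θ (R + 1) p y x =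
        (𝔟.wm (x y) * Pm G 𝔟 θ R p y x) / zR G 𝔟 θ (R + 1) p y x := by
      field_simp
      rw [zR_succ, nR_succ]; ring
    rw [e1, e2]
    field_simp
  rw [atanhL, e, hOf, Real.log_div (by positivity) (by positivity),
    Real.log_mul h1.ne' hPpos.ne', Real.log_mul h2.ne' hMpos.ne', Real.log_div h1.ne' h2.ne']
  linarith

theorem atanhL_nuR_zero (x : V → E) : atanhL (nuR G 𝔟 θ 0 p y x) = hOf 𝔟 (x y) := by
  have h1 := wp_pos 𝔟 (x y)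
  have h2 := wm_pos 𝔟 (x y)
  rw [atanhL, hOf, nuR_eq, zR_zero, nR_zero]
  congr 2
  have hs : 𝔟.wp (x y) + 𝔟.wm (x y) ≠ 0 := by positivity
  have e1 : 1 + (𝔟.wp (x y) - 𝔟.wm (x y)) / 2 / ((𝔟.wp (x y) + 𝔟.wm (x y)) / 2) =
      2 * 𝔟.wp (x y) / (𝔟.wp (x y) + 𝔟.wm (x y)) := by
    field_simp; ring
  have e2 : 1 - (𝔟.wp (x y) - 𝔟.wm (x y)) / 2 / ((𝔟.wp (x y) + 𝔟.wm (x y)) / 2) =
      2 * 𝔟.wm (x y) / (𝔟.wp (x y) + 𝔟.wm (x y)) := by
    field_simp; ring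
  rw [e1, e2]
  field_simp


end Hyp

/-! bounds on `φ` -/

theorem phiKL_eq_atanh (u : ℝ) : phiKL u = 2 * u * atanhL u := by
  unfold phiKL atanhL; ring

theorem measurable_atanhL : Measurable atanhL := by
  unfold atanhL
  exact (Real.measurable_log.comp ((measurable_const.add measurable_id).div
    (measurable_const.sub measurable_id))).const_mul _

theorem measurable_phiKL : Measurable phiKL := by
  have : phiKL = fun u => 2 * u * atanhL u := funext phiKL_eq_atanh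
  rw [this]
  exact ((measurable_id.const_mul 2)).mul measurable_atanhL

theorem measurable_dphiKL : Measurable dphiKL := by
  unfold dphiKL
  refine (Real.measurable_log.comp ((measurable_const.add measurable_id).div
    (measurable_const.sub measurable_id))).add ?_
  exact (measurable_id.const_mul 2).div (measurable_const.sub (measurable_id.pow_const 2))

theorem abs_phiKL_le {t : ℝ} (ht : t ^ 2 ≤ 1 / 2) : |phiKL t| ≤ 5 / 4 := by
  rw [phiKL_eq_atanh, abs_mul, abs_mul]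
  have h := abs_atanhL_le ht
  have h2 : (2 : ℝ) = |2| := by simp
  rw [← h2]
  have h3 := abs_nonneg t
  have h4 : |t| ^ 2 ≤ 1 / 2 := by rwa [sq_abs]
  nlinarith [abs_nonneg (atanhL t)]

theorem abs_dphiKL_le {t : ℝ} (ht : t ^ 2 ≤ 1 / 2) : |dphiKL t| ≤ 13 / 2 := by
  have h := abs_atanhL_le ht
  have h3 := abs_nonneg t
  have h4 : |t| ^ 2 ≤ 1 / 2 := by rwa [sq_abs]
  have h5 : |t| ≤ 1 := by nlinarith
  have h6 : Real.log ((1 + t) / (1 - t)) = 2 * atanhL t := by unfold atanhL; ring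
  unfold dphiKL
  rw [h6]
  have h7 : |2 * atanhL t| ≤ 5 / 2 := by
    rw [abs_mul]; simp only [Nat.abs_ofNat]
    nlinarith
  have h8 : |2 * t / (1 - t ^ 2)| ≤ 4 := by
    have h9 : 0 < 1 - t ^ 2 := by linarith
    rw [abs_div, abs_of_pos h9, abs_mul, div_le_iff₀ h9]
    simp only [Nat.abs_ofNat]
    nlinarith
  calc _ ≤ |2 * atanhL t| + |2 * t / (1 - t ^ 2)| := abs_add_le _ _
    _ ≤ 13 / 2 := by linarith

section Hyp2

variable (hG : RegTree G D) (hθ0 : 0 ≤ θ) (hθ : (D : ℝ) * θ ^ 2 ≤ 1)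

/-! linearity of `E^R` on bounded measurable functions. -/

theorem BM_mul_Z {f : (V → E) → ℝ} (hf : BM f) (R : ℕ) (p y : V) :
    BM fun x => f x * zR G 𝔟 θ R p y x := hf.mul (BM_zR_nR 𝔟 R p y).1

theorem EsR_add {f g : (V → E) → ℝ} (hf : BM f) (hg : BM g) (R : ℕ) (p y : V) :
    EsR G 𝔟 θ R p y (fun x => f x + g x) = EsR G 𝔟 θ R p y f + EsR G 𝔟 θ R p y g := by
  unfold EsR
  simp only [add_mul]
  exact integral_add ((BM_mul_Z 𝔟 hf R p y).integrable _) ((BM_mul_Z 𝔟 hg R p y).integrable _)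

theorem EsR_sub {f g : (V → E) → ℝ} (hf : BM f) (hg : BM g) (R : ℕ) (p y : V) :
    EsR G 𝔟 θ R p y (fun x => f x - g x) = EsR G 𝔟 θ R p y f - EsR G 𝔟 θ R p y g := by
  unfold EsR
  simp only [sub_mul]
  exact integral_sub ((BM_mul_Z 𝔟 hf R p y).integrable _) ((BM_mul_Z 𝔟 hg R p y).integrable _)

theorem EsR_const_mul (c : ℝ) (f : (V → E) → ℝ) (R : ℕ) (p y : V) :
    EsR G 𝔟 θ R p y (fun x => c * f x) = c * EsR G 𝔟 θ R p y f := by
  unfold EsR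
  simp only [mul_assoc]
  exact integral_const_mul _ _

include hG hθ0 hθ

theorem EsR_mono {p y : V} (hpy : G.Adj p y) {f g : (V → E) → ℝ} (hf : BM f) (hg : BM g)
    (hfg : ∀ x, f x ≤ g x) (R : ℕ) : EsR G 𝔟 θ R p y f ≤ EsR G 𝔟 θ R p y g := by
  unfold EsR
  refine integral_mono ((BM_mul_Z 𝔟 hf R p y).integrable _) ((BM_mul_Z 𝔟 hg R p y).integrable _) fun x => ?_
  exact mul_le_mul_of_nonneg_right (hfg x) (Z_pos 𝔟 hG hθ0 hθ hpy R x).le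

theorem EsR_nonneg {p y : V} (hpy : G.Adj p y) {f : (V → E) → ℝ} (hf0 : ∀ x, 0 ≤ f x) (R : ℕ) :
    0 ≤ EsR G 𝔟 θ R p y f := by
  unfold EsR
  exact integral_nonneg fun x => mul_nonneg (hf0 x) (Z_pos 𝔟 hG hθ0 hθ hpy R x).le

theorem EsR_const {p y : V} (hpy : G.Adj p y) (c : ℝ) (R : ℕ) :
    EsR G 𝔟 θ R p y (fun _ => c) = c := by
  unfold EsR
  rw [integral_const_mul, integral_zR 𝔟 hG hθ0 hθ hpy R, mul_one]

theorem BM_nu {p y : V} (hpy : G.Adj p y) (R : ℕ) : BM (nuR G 𝔟 θ R p y) :=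
  ⟨measurable_nuR 𝔟 R p y, 1, fun x => (nu_lt 𝔟 hG hθ0 hθ hpy R x).le⟩

theorem BM_comp_nu {p y : V} (hpy : G.Adj p y) (R : ℕ) {F : ℝ → ℝ} (hF : Measurable F)
    (hFb : ∃ C, ∀ u, |u| < 1 → |F u| ≤ C) : BM (fun x => F (nuR G 𝔟 θ R p y x)) := by
  obtain ⟨C, hC⟩ := hFb
  exact ⟨hF.comp (measurable_nuR 𝔟 R p y), C, fun x => hC _ (nu_lt 𝔟 hG hθ0 hθ hpy R x)⟩

theorem abs_atanhL_nu_le {p y : V} (hpy : G.Adj p y) (R : ℕ) (x : V → E) :
    |atanhL (nuR G 𝔟 θ R p y x)| ≤ (1 / 2) * (Real.log 𝔟.hi - Real.log 𝔟.lo) + D * (5 / 4) := by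
  cases R with
  | zero =>
    rw [atanhL_nuR_zero 𝔟 hG hθ0 hθ hpy]
    have := abs_hOf_le 𝔟 (x y)
    have h2 : (0 : ℝ) ≤ D * (5 / 4) := by positivity
    linarith
  | succ R =>
    rw [atanhL_nuR_succ 𝔟 hG hθ0 hθ hpy]
    refine (abs_add_le _ _).trans (add_le_add (abs_hOf_le 𝔟 (x y)) ?_)
    refine (Finset.abs_sum_le_sum_abs _ _).trans ?_
    have : ∀ z ∈ ch G p y, |atanhL (θ * nuR G 𝔟 θ R y z x)| ≤ 5 / 4 := by
      intro z hz
      have hadj := (mem_ch.mp hz).1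
      have hnu := nu_lt 𝔟 hG hθ0 hθ hadj R x
      have h1 := abs_atanhL_le (theta_mul_sq_le hG hθ hnu)
      have h2 := abs_theta_mul_lt hG hθ0 hθ hnu
      linarith
    refine (Finset.sum_le_sum this).trans ?_
    simp [hG.card_ch hpy]

theorem BM_phi_nu {p y : V} (hpy : G.Adj p y) (R : ℕ) : BM (fun x => phiKL (nuR G 𝔟 θ R p y x)) := by
  refine ⟨measurable_phiKL.comp (measurable_nuR 𝔟 R p y),
    2 * ((1 / 2) * (Real.log 𝔟.hi - Real.log 𝔟.lo) + D * (5 / 4)), fun x => ?_⟩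
  have h := abs_atanhL_nu_le 𝔟 hG hθ0 hθ hpy R x
  have hnu := nu_lt 𝔟 hG hθ0 hθ hpy R x
  rw [phiKL_eq_atanh, abs_mul, abs_mul]
  simp only [Nat.abs_ofNat]
  nlinarith [abs_nonneg (atanhL (nuR G 𝔟 θ R p y x)), abs_nonneg (nuR G 𝔟 θ R p y x)]

theorem BM_phi_theta_nu {p y : V} (hpy : G.Adj p y) (R : ℕ) :
    BM (fun x => phiKL (θ * nuR G 𝔟 θ R p y x)) := by
  refine ⟨measurable_phiKL.comp ((measurable_nuR 𝔟 R p y).const_mul θ), 5 / 4, fun x => ?_⟩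
  exact abs_phiKL_le (theta_mul_sq_le hG hθ (nu_lt 𝔟 hG hθ0 hθ hpy R x))

theorem BM_dphi_theta_nu {p y : V} (hpy : G.Adj p y) (R : ℕ) :
    BM (fun x => dphiKL (θ * nuR G 𝔟 θ R p y x)) := by
  refine ⟨measurable_dphiKL.comp ((measurable_nuR 𝔟 R p y).const_mul θ), 13 / 2, fun x => ?_⟩
  exact abs_dphiKL_le (theta_mul_sq_le hG hθ (nu_lt 𝔟 hG hθ0 hθ hpy R x))

omit hG hθ0 hθ in
/-- Automorphism covariance of the recursion. -/
theorem zR_nR_map (g : G ≃g G) (R : ℕ) : ∀ (p y : V) (x : V → E),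
    zR G 𝔟 θ R (g p) (g y) x = zR G 𝔟 θ R p y (x ∘ g) ∧
    nR G 𝔟 θ R (g p) (g y) x = nR G 𝔟 θ R p y (x ∘ g) := by
  induction R with
  | zero =>
    intro p y x
    exact ⟨rfl, rfl⟩
  | succ R ih =>
    intro p y x
    have hP : Pp G 𝔟 θ R (g p) (g y) x = Pp G 𝔟 θ R p y (x ∘ g) := by
      unfold Pp
      rw [ch_map, Finset.prod_map]
      refine Finset.prod_congr rfl fun z _ => ?_
      have := ih y z x
      simp only [RelIso.coe_fn_toEquiv, Equiv.coe_toEmbedding]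
      rw [this.1, this.2]
    have hM : Pm G 𝔟 θ R (g p) (g y) x = Pm G 𝔟 θ R p y (x ∘ g) := by
      unfold Pm
      rw [ch_map, Finset.prod_map]
      refine Finset.prod_congr rfl fun z _ => ?_
      have := ih y z x
      simp only [RelIso.coe_fn_toEquiv, Equiv.coe_toEmbedding]
      rw [this.1, this.2]
    rw [zR_succ, zR_succ, nR_succ, nR_succ, hP, hM]
    exact ⟨rfl, rfl⟩

/-- A functional of `ν` has the same static expectation on all directed edges. -/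
theorem EsR_edge_inv {p y p' y' : V} (hpy : G.Adj p y) (hpy' : G.Adj p' y') (R : ℕ) {F : ℝ → ℝ}
    (hF : Measurable F) (hFb : ∃ C, ∀ u, |u| < 1 → |F u| ≤ C) :
    EsR G 𝔟 θ R p y (fun x => F (nuR G 𝔟 θ R p y x)) =
      EsR G 𝔟 θ R p' y' (fun x => F (nuR G 𝔟 θ R p' y' x)) := by
  obtain ⟨g, hg⟩ := hG.exists_aut_of_isNB (l := [p, y]) (l' := [p', y']) hpy hpy' rfl
  have hgp : g p = p' := by simpa using (List.cons.inj hg).1
  have hgy : g y = y' := by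
    have := (List.cons.inj hg).2
    simpa using (List.cons.inj this).1
  subst hgp hgy
  have hbm := BM_comp_nu 𝔟 hG hθ0 hθ hpy' R hF hFb
  have h := EsR_comp_aut 𝔟 hG hθ0 hθ g (p := p) (y := y) R _ hbm.meas hbm.bdd
  rw [h]
  congr 1
  funext x
  congr 1
  have h2 := zR_nR_map 𝔟 (θ := θ) g R p y (x ∘ g.symm)
  have h3 : (x ∘ g.symm) ∘ g = x := by
    funext v; simp
  rw [h3] at h2
  rw [nuR_eq, nuR_eq, h2.1, h2.2]

/-- `c_R` is nondecreasing. -/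
theorem c_mono {p y : V} (hpy : G.Adj p y) (R : ℕ) :
    EsR G 𝔟 θ R p y (fun x => phiKL (θ * nuR G 𝔟 θ R p y x)) ≤
      EsR G 𝔟 θ (R + 1) p y (fun x => phiKL (θ * nuR G 𝔟 θ (R + 1) p y x)) := by
  have hdep := Dep_nuR (θ := θ) 𝔟 hG hpy R
  have hBF := BM_phi_theta_nu 𝔟 hG hθ0 hθ hpy R
  have hBd := BM_dphi_theta_nu 𝔟 hG hθ0 hθ hpy R
  have hBn := BM_nu 𝔟 hG hθ0 hθ hpy R
  have hBn' := BM_nu 𝔟 hG hθ0 hθ hpy (R + 1)
  have hBF' := BM_phi_theta_nu 𝔟 hG hθ0 hθ hpy (R + 1)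
  have dF : ∀ x x' : V → E, (∀ v ∈ sub G R p y, x v = x' v) →
      phiKL (θ * nuR G 𝔟 θ R p y x) = phiKL (θ * nuR G 𝔟 θ R p y x') := fun x x' h => by
    rw [hdep x x' h]
  have dd : ∀ x x' : V → E, (∀ v ∈ sub G R p y, x v = x' v) →
      dphiKL (θ * nuR G 𝔟 θ R p y x) = dphiKL (θ * nuR G 𝔟 θ R p y x') := fun x x' h => by
    rw [hdep x x' h]
  have ddn : ∀ x x' : V → E, (∀ v ∈ sub G R p y, x v = x' v) →
      dphiKL (θ * nuR G 𝔟 θ R p y x) * nuR G 𝔟 θ R p y x =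
        dphiKL (θ * nuR G 𝔟 θ R p y x') * nuR G 𝔟 θ R p y x' := fun x x' h => by
    rw [hdep x x' h]
  have s1 := (EsR_shallow 𝔟 hG hθ0 hθ hpy (Nat.le_succ R) hBF.meas hBF.bdd dF).1
  have s2 := (EsR_shallow 𝔟 hG hθ0 hθ hpy (Nat.le_succ R) hBd.meas hBd.bdd dd).2
  have hBdn := hBd.mul hBn
  have s3 := (EsR_shallow 𝔟 hG hθ0 hθ hpy (Nat.le_succ R) hBdn.meas hBdn.bdd ddn).1
  have hle : ∀ x : V → E, phiKL (θ * nuR G 𝔟 θ R p y x) +
      θ * (nuR G 𝔟 θ (R + 1) p y x * dphiKL (θ * nuR G 𝔟 θ R p y x)) -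
      θ * (dphiKL (θ * nuR G 𝔟 θ R p y x) * nuR G 𝔟 θ R p y x) ≤
        phiKL (θ * nuR G 𝔟 θ (R + 1) p y x) := by
    intro x
    have := phiKL_tangent (abs_theta_mul_lt hG hθ0 hθ (nu_lt 𝔟 hG hθ0 hθ hpy R x))
      (abs_theta_mul_lt hG hθ0 hθ (nu_lt 𝔟 hG hθ0 hθ hpy (R + 1) x))
    linarith
  have hBnd := hBn'.mul hBd
  have hB1 : BM fun x => θ * (nuR G 𝔟 θ (R + 1) p y x * dphiKL (θ * nuR G 𝔟 θ R p y x)) :=
    (BM.const θ).mul hBnd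
  have hB2 : BM fun x => θ * (dphiKL (θ * nuR G 𝔟 θ R p y x) * nuR G 𝔟 θ R p y x) :=
    (BM.const θ).mul hBdn
  have hmono := EsR_mono 𝔟 hG hθ0 hθ hpy ((hBF.add hB1).sub hB2) hBF' hle (R + 1)
  rw [EsR_sub 𝔟 (hBF.add hB1) hB2, EsR_add 𝔟 hBF hB1, EsR_const_mul, EsR_const_mul, s1, s2, s3] at hmono
  have h4 : EsR G 𝔟 θ R p y (fun x => nuR G 𝔟 θ R p y x * dphiKL (θ * nuR G 𝔟 θ R p y x)) =
      EsR G 𝔟 θ R p y (fun x => dphiKL (θ * nuR G 𝔟 θ R p y x) * nuR G 𝔟 θ R p y x) := by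
    congr 1; funext x; ring
  rw [h4] at hmono
  linarith

/-- `a_0 = I`. -/
theorem a_zero {p y : V} (hpy : G.Adj p y) :
    EsR G 𝔟 θ 0 p y (fun x => phiKL (nuR G 𝔟 θ 0 p y x)) = 𝔟.kl := by
  unfold EsR
  have h : ∀ x : V → E, phiKL (nuR G 𝔟 θ 0 p y x) * zR G 𝔟 θ 0 p y x =
      (fun e => (𝔟.wp e - 𝔟.wm e) / 2 * Real.log (𝔟.wp e / 𝔟.wm e)) (x y) := by
    intro x
    have hZ := Z_pos 𝔟 hG hθ0 hθ hpy 0 x
    rw [phiKL_eq_atanh, atanhL_nuR_zero 𝔟 hG hθ0 hθ hpy, hOf]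
    have hn : nuR G 𝔟 θ 0 p y x * zR G 𝔟 θ 0 p y x = (𝔟.wp (x y) - 𝔟.wm (x y)) / 2 := by
      rw [← n_eq 𝔟 hG hθ0 hθ hpy 0 x, nR_zero]
    calc _ = 2 * (nuR G 𝔟 θ 0 p y x * zR G 𝔟 θ 0 p y x) *
        (1 / 2 * Real.log (𝔟.wp (x y) / 𝔟.wm (x y))) := by ring
      _ = _ := by rw [hn]; ring
  simp only [h]
  have hm : Measurable fun e => (𝔟.wp e - 𝔟.wm e) / 2 * Real.log (𝔟.wp e / 𝔟.wm e) :=
    ((𝔟.meas_wp.sub 𝔟.meas_wm).div_const 2).mul (Real.measurable_log.comp (𝔟.meas_wp.div 𝔟.meas_wm))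
  rw [integral_eval_infinitePi κ y hm]
  rfl

/-- `a_R - D c_R ≤ I`. -/
theorem a_sub_c_le {p y : V} (hpy : G.Adj p y) (R : ℕ) :
    EsR G 𝔟 θ R p y (fun x => phiKL (nuR G 𝔟 θ R p y x)) -
      D * EsR G 𝔟 θ R p y (fun x => phiKL (θ * nuR G 𝔟 θ R p y x)) ≤ 𝔟.kl := by
  have hbd : ∃ C, ∀ u : ℝ, |u| < 1 → |phiKL (θ * u)| ≤ C :=
    ⟨5 / 4, fun u hu => abs_phiKL_le (theta_mul_sq_le hG hθ hu)⟩
  have hmeas : Measurable fun u : ℝ => phiKL (θ * u) := measurable_phiKL.comp (measurable_id.const_mul θ)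
  have hD : (0 : ℝ) ≤ D := by positivity
  cases R with
  | zero =>
    rw [a_zero 𝔟 hG hθ0 hθ hpy]
    have : 0 ≤ EsR G 𝔟 θ 0 p y (fun x => phiKL (θ * nuR G 𝔟 θ 0 p y x)) :=
      EsR_nonneg 𝔟 hG hθ0 hθ hpy (fun x => phiKL_nonneg
        (abs_theta_mul_lt hG hθ0 hθ (nu_lt 𝔟 hG hθ0 hθ hpy 0 x))) 0
    nlinarith
  | succ R =>
    have hne : (ch G p y).Nonempty := by
      rw [← Finset.card_pos, hG.card_ch hpy]
      have := hG.two_le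
      omega
    obtain ⟨z, hz⟩ := hne
    rw [kl_recursion 𝔟 hG hθ0 hθ hpy hz R]
    have h1 := EsR_edge_inv 𝔟 hG hθ0 hθ (mem_ch.mp hz).1 hpy R hmeas hbd
    have h2 := c_mono 𝔟 hG hθ0 hθ hpy R
    rw [h1]
    nlinarith

/-- (J3). -/
theorem nu4_aux {p y : V} (hpy : G.Adj p y) (R : ℕ) :
    EsR G 𝔟 θ R p y (fun x => nuR G 𝔟 θ R p y x ^ 4) ≤ 3 * 𝔟.kl := by
  have hBn := BM_nu 𝔟 hG hθ0 hθ hpy R
  have hBa := BM_phi_nu 𝔟 hG hθ0 hθ hpy R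
  have hBc := BM_phi_theta_nu 𝔟 hG hθ0 hθ hpy R
  have hθ1 := theta_lt_one hG hθ0 hθ
  have hθ2 := theta_sq_le hG hθ
  have hle : ∀ x : V → E, nuR G 𝔟 θ R p y x ^ 4 ≤
      3 * phiKL (nuR G 𝔟 θ R p y x) - 3 * (D * phiKL (θ * nuR G 𝔟 θ R p y x)) := by
    intro x
    have hnu := nu_lt 𝔟 hG hθ0 hθ hpy R x
    have : (2 / 3) * (1 - θ ^ 2) * nuR G 𝔟 θ R p y x ^ 4 ≤
        phiKL (nuR G 𝔟 θ R p y x) - D * phiKL (θ * nuR G 𝔟 θ R p y x) := by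
      unfold phiKL
      exact OneDim.phi_sub_ge hnu hθ0 hθ1 hθ
    have h4 : 0 ≤ nuR G 𝔟 θ R p y x ^ 4 := by positivity
    nlinarith
  have hB3 : BM fun x => 3 * phiKL (nuR G 𝔟 θ R p y x) := (BM.const 3).mul hBa
  have hB4 : BM fun x => 3 * (D * phiKL (θ * nuR G 𝔟 θ R p y x)) :=
    (BM.const 3).mul ((BM.const (D : ℝ)).mul hBc)
  have := EsR_mono 𝔟 hG hθ0 hθ hpy (hBn.pow 4) (hB3.sub hB4) hle R
  rw [EsR_sub 𝔟 hB3 hB4, EsR_const_mul, EsR_const_mul, EsR_const_mul] at this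
  have h2 := a_sub_c_le 𝔟 hG hθ0 hθ hpy R
  linarith

end Hyp2

end Nu

end SM

open MeasureTheory
open scoped Classical

section Main
variable {V : Type u} {G : SimpleGraph V} [G.LocallyFinite] {D : ℕ}
variable {E : Type v} [MeasurableSpace E] {κ : Measure E} [IsProbabilityMeasure κ]
variable (𝔟 : BlockData κ) {θ : ℝ}

/-- (J3) fourth moment (same statement as `nu4_le` of Static.lean). -/
theorem nu4_le_proved (hG : RegTree G D) (hθ0 : 0 ≤ θ) (hθ : (D : ℝ) * θ ^ 2 ≤ 1) {p y : V} (hpy : G.Adj p y) (R : ℕ) :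
    EsR G 𝔟 θ R p y (fun x => nuR G 𝔟 θ R p y x ^ 4) ≤ 3 * 𝔟.kl :=
  SM.nu4_aux 𝔟 hG hθ0 hθ hpy R

end Main
end Crest.Agent.Lib.IsingFIID
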