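/-
S0241 Mod J-c (helper68): moments of the static model: `nu4_le` (J3) and `nu_moment` (J7).
Uses the J-a statements of StaticRec.lean and `OneDim.phi_sub_ge` as black boxes.
-/
import Crest.Agent.Lib.IsingFIID.StaticRec
import Crest.Agent.Lib.IsingFIID.OneDim

set_option autoImplicit false
namespace Crest.Agent.Lib.IsingFIID
universe u v
namespace SM

/-- `atanh(θ u)` written with logarithms. -/
noncomputable def atanhT (θ u : ℝ) : ℝ := (1 / 2) * Real.log ((1 + θ * u) / (1 - θ * u))

/-- `atanh u` written with logarithms. -/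
noncomputable def atanhL (u : ℝ) : ℝ := (1 / 2) * Real.log ((1 + u) / (1 - u))

theorem atanhL_eq_sub {u : ℝ} (hu : |u| < 1) :
    atanhL u = (1 / 2) * (Real.log (1 + u) - Real.log (1 - u)) := by
  have h1 : 0 < 1 + u := by linarith [(abs_lt.mp hu).1]
  have h2 : 0 < 1 - u := by linarith [(abs_lt.mp hu).2]
  rw [atanhL, Real.log_div h1.ne' h2.ne']

theorem atanhL_neg {u : ℝ} (hu : |u| < 1) : atanhL (-u) = - atanhL u := by
  have hu' : |(-u)| < 1 := by rwa [abs_neg]
  rw [atanhL_eq_sub hu', atanhL_eq_sub hu]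
  simp only [sub_neg_eq_add]
  ring_nf

theorem hasSum_atanhL {u : ℝ} (hu : |u| < 1) :
    HasSum (fun k : ℕ => (1 / (2 * (k : ℝ) + 1)) * u ^ (2 * k + 1)) (atanhL u) := by
  have := Real.hasSum_log_sub_log_of_abs_lt_one hu
  have h2 := this.mul_left (1 / 2 : ℝ)
  have h3 : (fun k : ℕ => (1 / 2 : ℝ) * (2 * (1 / (2 * (k : ℝ) + 1)) * u ^ (2 * k + 1))) =
      fun k : ℕ => (1 / (2 * (k : ℝ) + 1)) * u ^ (2 * k + 1) := by
    funext k; ring
  rw [h3] at h2
  rwa [atanhL_eq_sub hu]

/-- `u ≤ atanh u` for `0 ≤ u < 1`. -/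
theorem le_atanhL {u : ℝ} (h0 : 0 ≤ u) (h1 : u < 1) : u ≤ atanhL u := by
  have hu : |u| < 1 := by rw [abs_of_nonneg h0]; exact h1
  have hs := hasSum_atanhL hu
  have := le_hasSum hs 0 (fun k _ => by positivity)
  simpa using this

/-- `|u| ≤ |atanh u|`. -/
theorem abs_le_abs_atanhL {u : ℝ} (hu : |u| < 1) : |u| ≤ |atanhL u| := by
  rcases le_total 0 u with h | h
  · have h1 : u < 1 := by rwa [abs_of_nonneg h] at hu
    have := le_atanhL h h1
    rw [abs_of_nonneg h, abs_of_nonneg (h.trans this)]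
    exact this
  · have hu' : |(-u)| < 1 := by rwa [abs_neg]
    have h1 : -u < 1 := by rwa [abs_of_nonneg (neg_nonneg.mpr h)] at hu'
    have := le_atanhL (neg_nonneg.mpr h) h1
    rw [atanhL_neg hu] at this
    rw [abs_of_nonpos h]
    exact this.trans (neg_le_abs (atanhL u))

theorem atanhL_nonneg {u : ℝ} (h0 : 0 ≤ u) (h1 : u < 1) : 0 ≤ atanhL u := h0.trans (le_atanhL h0 h1)

/-- numeric value. -/
theorem atanhL_num : atanhL (7072 / 10000) ≤ (5 / 4) * (7072 / 10000) := by
  have h : Real.log ((1 + 7072 / 10000) / (1 - 7072 / 10000)) ≤ 1768 / 1000 := by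
    rw [Real.log_le_iff_le_exp (by norm_num)]
    have := Real.sum_le_exp_of_nonneg (x := (1768 / 1000 : ℝ)) (by norm_num) 14
    refine le_trans ?_ this
    norm_num [Finset.sum_range_succ, Nat.factorial]
  rw [atanhL]
  linarith

/-- `atanh u ≤ (5/4) u` for `0 ≤ u`, `u² ≤ 1/2`. -/
theorem atanhL_le {u : ℝ} (h0 : 0 ≤ u) (h1 : u ^ 2 ≤ 1 / 2) : atanhL u ≤ (5 / 4) * u := by
  have hu₀ : u ≤ 7072 / 10000 := by nlinarith
  have hlt : |u| < 1 := by rw [abs_of_nonneg h0]; linarith
  have hlt₀ : |(7072 / 10000 : ℝ)| < 1 := by rw [abs_of_nonneg (by norm_num)]; norm_num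
  have hs := hasSum_atanhL hlt
  have hs₀ := (hasSum_atanhL hlt₀).mul_left u
  have hs₁ := hs.mul_left (7072 / 10000 : ℝ)
  have key : (7072 / 10000 : ℝ) * atanhL u ≤ u * atanhL (7072 / 10000) := by
    refine hasSum_le (fun k => ?_) hs₁ hs₀
    have : u ^ (2 * k) ≤ (7072 / 10000 : ℝ) ^ (2 * k) := pow_le_pow_left₀ h0 hu₀ _
    have h2 : (0:ℝ) ≤ 1 / (2 * (k : ℝ) + 1) := by positivity
    rw [pow_succ u, pow_succ (7072 / 10000 : ℝ)]
    have h3 : (7072 / 10000 : ℝ) * (1 / (2 * (k : ℝ) + 1) * (u ^ (2 * k) * u)) =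
        (1 / (2 * (k : ℝ) + 1)) * (u * (7072 / 10000)) * u ^ (2 * k) := by ring
    have h4 : u * (1 / (2 * (k : ℝ) + 1) * ((7072 / 10000 : ℝ) ^ (2 * k) * (7072 / 10000))) =
        (1 / (2 * (k : ℝ) + 1)) * (u * (7072 / 10000)) * (7072 / 10000 : ℝ) ^ (2 * k) := by ring
    rw [h3, h4]
    exact mul_le_mul_of_nonneg_left this (by positivity)
  have h5 := atanhL_num
  have h6 : u * atanhL (7072 / 10000) ≤ u * ((5 / 4) * (7072 / 10000)) :=
    mul_le_mul_of_nonneg_left h5 h0
  have h7 : (7072 / 10000 : ℝ) * atanhL u ≤ (7072 / 10000) * ((5 / 4) * u) := by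
    calc _ ≤ _ := key
      _ ≤ _ := h6
      _ = _ := by ring
  exact le_of_mul_le_mul_left h7 (by norm_num)

/-- `|atanh u| ≤ (5/4)|u|` for `u² ≤ 1/2`. -/
theorem abs_atanhL_le {u : ℝ} (h1 : u ^ 2 ≤ 1 / 2) : |atanhL u| ≤ (5 / 4) * |u| := by
  have hlt : |u| < 1 := by
    rw [abs_lt]; constructor <;> nlinarith
  rcases le_total 0 u with h | h
  · rw [abs_of_nonneg h, abs_of_nonneg (atanhL_nonneg h (by rwa [abs_of_nonneg h] at hlt))]
    exact atanhL_le h h1
  · have h2 : (-u) ^ 2 ≤ 1 / 2 := by simpa using h1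
    have h3 := atanhL_le (neg_nonneg.mpr h) h2
    have hlt' : -u < 1 := by rw [abs_of_nonpos h] at hlt; exact hlt
    have h4 := atanhL_nonneg (neg_nonneg.mpr h) hlt'
    rw [atanhL_neg hlt] at h3 h4
    rw [abs_of_nonpos h, abs_of_nonpos (by linarith)]
    linarith



noncomputable def dphiKL (u : ℝ) : ℝ := Real.log ((1 + u) / (1 - u)) + 2 * u / (1 - u ^ 2)

theorem hasDerivAt_phiKL {u : ℝ} (hu : |u| < 1) : HasDerivAt phiKL (dphiKL u) u := by
  have h1 : 0 < 1 + u := by linarith [(abs_lt.mp hu).1]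
  have h2 : 0 < 1 - u := by linarith [(abs_lt.mp hu).2]
  have hq : HasDerivAt (fun u : ℝ => (1 + u) / (1 - u))
      (((0 + 1) * (1 - u) - (1 + u) * (0 - 1)) / (1 - u) ^ 2) u :=
    ((hasDerivAt_const u (1 : ℝ)).add (hasDerivAt_id' u)).div
      ((hasDerivAt_const u (1 : ℝ)).sub (hasDerivAt_id' u)) h2.ne'
  have hl := hq.log (div_pos h1 h2).ne'
  have hm := (hasDerivAt_id' u).mul hl
  have hfun : phiKL = fun u : ℝ => u * Real.log ((1 + u) / (1 - u)) := rfl
  rw [hfun]
  have hval : dphiKL u = 1 * Real.log ((1 + u) / (1 - u)) +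
      u * ((((0 + 1) * (1 - u) - (1 + u) * (0 - 1)) / (1 - u) ^ 2) / ((1 + u) / (1 - u))) := by
    unfold dphiKL
    have h3 : 1 - u ^ 2 = (1 - u) * (1 + u) := by ring
    rw [h3]
    field_simp
    ring
  rw [hval]
  exact hm

theorem dphiKL_mono {u v : ℝ} (hu : |u| < 1) (hv : |v| < 1) (huv : u ≤ v) : dphiKL u ≤ dphiKL v := by
  have h1 : 0 < 1 + u := by linarith [(abs_lt.mp hu).1]
  have h2 : 0 < 1 - u := by linarith [(abs_lt.mp hu).2]
  have h3 : 0 < 1 + v := by linarith [(abs_lt.mp hv).1]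
  have h4 : 0 < 1 - v := by linarith [(abs_lt.mp hv).2]
  have h5 : Real.log ((1 + u) / (1 - u)) ≤ Real.log ((1 + v) / (1 - v)) := by
    apply Real.log_le_log (div_pos h1 h2)
    rw [div_le_div_iff₀ h2 h4]
    nlinarith
  have h6 : 2 * u / (1 - u ^ 2) ≤ 2 * v / (1 - v ^ 2) := by
    have h7 : 0 < 1 - u ^ 2 := by nlinarith
    have h8 : 0 < 1 - v ^ 2 := by nlinarith
    rw [div_le_div_iff₀ h7 h8]
    have h9 : 0 < 1 + u * v := by nlinarith [mul_pos h1 h3, mul_pos h2 h4]
    nlinarith [mul_nonneg (sub_nonneg.mpr huv) h9.le]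
  rw [dphiKL, dphiKL]
  linarith

theorem convexOn_phiKL : ConvexOn ℝ (Set.Ioo (-1) 1) phiKL := by
  have hmem : ∀ {u : ℝ}, u ∈ Set.Ioo (-1 : ℝ) 1 → |u| < 1 := fun h => abs_lt.mpr h
  have hderiv : ∀ {u : ℝ}, u ∈ Set.Ioo (-1 : ℝ) 1 → deriv phiKL u = dphiKL u :=
    fun h => (hasDerivAt_phiKL (hmem h)).deriv
  apply MonotoneOn.convexOn_of_deriv (convex_Ioo _ _)
  · exact fun u hu => (hasDerivAt_phiKL (hmem hu)).continuousAt.continuousWithinAt
  · rw [interior_Ioo]
    exact fun u hu => (hasDerivAt_phiKL (hmem hu)).differentiableAt.differentiableWithinAt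
  · rw [interior_Ioo]
    intro u hu v hv huv
    rw [hderiv hu, hderiv hv]
    exact dphiKL_mono (hmem hu) (hmem hv) huv

/-- tangent line inequality -/
theorem phiKL_tangent {u v : ℝ} (hu : |u| < 1) (hv : |v| < 1) :
    phiKL u + dphiKL u * (v - u) ≤ phiKL v := by
  have hu' : u ∈ Set.Ioo (-1 : ℝ) 1 := abs_lt.mp hu
  have hv' : v ∈ Set.Ioo (-1 : ℝ) 1 := abs_lt.mp hv
  rcases lt_trichotomy u v with h | h | h
  · have := convexOn_phiKL.le_slope_of_hasDerivAt hu' hv' h (hasDerivAt_phiKL hu)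
    rw [slope_def_field, le_div_iff₀ (by linarith)] at this
    linarith
  · subst h; simp
  · have := convexOn_phiKL.slope_le_of_hasDerivAt hv' hu' h (hasDerivAt_phiKL hu)
    rw [slope_def_field, div_le_iff₀ (by linarith)] at this
    nlinarith

theorem phiKL_nonneg {u : ℝ} (hu : |u| < 1) : 0 ≤ phiKL u := by
  have h := phiKL_tangent (u := 0) (v := u) (by simp) hu
  have h0 : phiKL 0 = 0 := by simp [phiKL]
  have h1 : dphiKL 0 = 0 := by simp [dphiKL]
  rw [h0, h1] at h
  simpa using h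


open MeasureTheory Filter
open scoped Classical Topology

/-! ### bounded measurable functions -/

section BMsec
variable {X : Type*} [MeasurableSpace X]

/-- bounded measurable -/
structure BM (f : X → ℝ) : Prop where
  meas : Measurable f
  bdd : ∃ C, ∀ x, |f x| ≤ C

theorem BM.const (c : ℝ) : BM (fun _ : X => c) := ⟨measurable_const, |c|, fun _ => le_rfl⟩

theorem BM.add {f g : X → ℝ} (hf : BM f) (hg : BM g) : BM (fun x => f x + g x) := by
  obtain ⟨C, hC⟩ := hf.bdd
  obtain ⟨C', hC'⟩ := hg.bdd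
  exact ⟨hf.meas.add hg.meas, C + C', fun x => (abs_add_le _ _).trans (add_le_add (hC x) (hC' x))⟩

theorem BM.neg {f : X → ℝ} (hf : BM f) : BM (fun x => - f x) := by
  obtain ⟨C, hC⟩ := hf.bdd
  exact ⟨hf.meas.neg, C, fun x => by rw [abs_neg]; exact hC x⟩

theorem BM.sub {f g : X → ℝ} (hf : BM f) (hg : BM g) : BM (fun x => f x - g x) := by
  simpa [sub_eq_add_neg] using hf.add hg.neg

theorem BM.mul {f g : X → ℝ} (hf : BM f) (hg : BM g) : BM (fun x => f x * g x) := by
  obtain ⟨C, hC⟩ := hf.bdd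
  obtain ⟨C', hC'⟩ := hg.bdd
  refine ⟨hf.meas.mul hg.meas, C * C', fun x => ?_⟩
  rw [abs_mul]
  exact mul_le_mul (hC x) (hC' x) (abs_nonneg _) ((abs_nonneg _).trans (hC x))

theorem BM.pow {f : X → ℝ} (hf : BM f) (n : ℕ) : BM (fun x => f x ^ n) := by
  induction n with
  | zero => simpa using BM.const (X := X) 1
  | succ n ih =>
    simpa [pow_succ] using ih.mul hf

theorem BM.prod {ι : Type*} (s : Finset ι) (f : ι → X → ℝ) (h : ∀ i ∈ s, BM (f i)) :
    BM (fun x => ∏ i ∈ s, f i x) := by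
  induction s using Finset.induction_on with
  | empty => simpa using BM.const (X := X) 1
  | insert a s ha ih =>
    have h1 := h a (Finset.mem_insert_self a s)
    have h2 := ih (fun i hi => h i (Finset.mem_insert_of_mem hi))
    simpa [Finset.prod_insert ha] using h1.mul h2

theorem BM.sum {ι : Type*} (s : Finset ι) (f : ι → X → ℝ) (h : ∀ i ∈ s, BM (f i)) :
    BM (fun x => ∑ i ∈ s, f i x) := by
  induction s using Finset.induction_on with
  | empty => simpa using BM.const (X := X) 0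
  | insert a s ha ih =>
    have h1 := h a (Finset.mem_insert_self a s)
    have h2 := ih (fun i hi => h i (Finset.mem_insert_of_mem hi))
    simpa [Finset.sum_insert ha] using h1.add h2

theorem BM.integrable {f : X → ℝ} (hf : BM f) (μ : Measure X) [IsFiniteMeasure μ] : Integrable f μ := by
  obtain ⟨C, hC⟩ := hf.bdd
  exact Integrable.of_bound hf.meas.aestronglyMeasurable C (Eventually.of_forall fun x => by simpa using hC x)

end BMsec

/-! ### dependence on a set of coordinates -/

section DepSec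
variable {V : Type u} {E : Type v}

/-- `f` depends only on the coordinates in `S`. -/
def Dep (S : Set V) (f : (V → E) → ℝ) : Prop :=
  ∀ x x' : V → E, (∀ v ∈ S, x v = x' v) → f x = f x'

theorem Dep.mono {S S' : Set V} {f : (V → E) → ℝ} (h : Dep S f) (hS : S ⊆ S') : Dep S' f :=
  fun x x' hx => h x x' fun v hv => hx v (hS hv)

theorem Dep.const (S : Set V) (c : ℝ) : Dep S (fun _ : V → E => c) := fun _ _ _ => rfl

theorem Dep.add {S : Set V} {f g : (V → E) → ℝ} (hf : Dep S f) (hg : Dep S g) :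
    Dep S (fun x => f x + g x) := fun x x' h => by
  show f x + g x = f x' + g x'
  rw [hf x x' h, hg x x' h]

theorem Dep.mul {S : Set V} {f g : (V → E) → ℝ} (hf : Dep S f) (hg : Dep S g) :
    Dep S (fun x => f x * g x) := fun x x' h => by
  show f x * g x = f x' * g x'
  rw [hf x x' h, hg x x' h]

theorem Dep.comp {S : Set V} {f : (V → E) → ℝ} (hf : Dep S f) (F : ℝ → ℝ) :
    Dep S (fun x => F (f x)) := fun x x' h => by
  show F (f x) = F (f x')
  rw [hf x x' h]

theorem Dep.pow {S : Set V} {f : (V → E) → ℝ} (hf : Dep S f) (n : ℕ) :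
    Dep S (fun x => f x ^ n) := hf.comp (fun t => t ^ n)

theorem Dep.prod {S : Set V} {ι : Type*} (s : Finset ι) (f : ι → (V → E) → ℝ) (h : ∀ i ∈ s, Dep S (f i)) :
    Dep S (fun x => ∏ i ∈ s, f i x) := fun x x' hx =>
  Finset.prod_congr rfl fun i hi => h i hi x x' hx

theorem Dep.sum {S : Set V} {ι : Type*} (s : Finset ι) (f : ι → (V → E) → ℝ) (h : ∀ i ∈ s, Dep S (f i)) :
    Dep S (fun x => ∑ i ∈ s, f i x) := fun x x' hx =>
  Finset.sum_congr rfl fun i hi => h i hi x x' hx

variable [MeasurableSpace E] (κ : Measure E) [IsProbabilityMeasure κ]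

/-- Independence of disjoint blocks under `infinitePi`. -/
theorem integral_mul_of_disjoint {A B : Set V} (hAB : Disjoint A B)
    {f g : (V → E) → ℝ} (hf : Measurable f) (hg : Measurable g)
    (hfA : Dep A f) (hgB : Dep B g) :
    ∫ x, f x * g x ∂(Measure.infinitePi fun _ : V => κ) =
      (∫ x, f x ∂(Measure.infinitePi fun _ : V => κ)) * ∫ x, g x ∂(Measure.infinitePi fun _ : V => κ) := by
  classical
  have : Nonempty E := nonempty_of_isProbabilityMeasure κ
  let m : V → MeasurableSpace (V → E) := fun v =>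
    MeasurableSpace.comap (fun x : V → E => x v) inferInstance
  have hm_le : ∀ v, m v ≤ (inferInstance : MeasurableSpace (V → E)) := fun v =>
    (measurable_pi_apply v).comap_le
  have hiIndep : ProbabilityTheory.iIndep m (Measure.infinitePi fun _ : V => κ) := by
    have := ProbabilityTheory.iIndepFun_infinitePi (P := fun _ : V => κ)
      (X := fun _ (b : E) => b) (fun _ => measurable_id)
    exact this
  have hInd := ProbabilityTheory.indep_iSup_of_disjoint hm_le hiIndep hAB
  have key : ∀ (S : Set V) (h : (V → E) → ℝ), Measurable h → Dep S h →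
      MeasurableSpace.comap h inferInstance ≤ ⨆ v ∈ S, m v := by
    intro S h hh hS
    let d : E := Classical.arbitrary E
    let r : (V → E) → (V → E) := fun x v => if v ∈ S then x v else d
    have hr : Measurable[⨆ v ∈ S, m v] r := by
      refine @measurable_pi_lambda _ _ _ (⨆ v ∈ S, m v) _ _ fun v => ?_
      by_cases hv : v ∈ S
      · simp only [r, hv, if_true]
        refine Measurable.mono (comap_measurable (fun x : V → E => x v)) ?_ le_rfl
        exact le_iSup₂_of_le v hv le_rfl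
      · simp only [r, hv, if_false]
        exact @measurable_const _ _ _ (⨆ v ∈ S, m v) _
    have heq : h = h ∘ r := by
      funext x
      apply hS
      intro v hv
      simp [r, hv]
    rw [heq, ← MeasurableSpace.comap_comp]
    have : MeasurableSpace.comap r (MeasurableSpace.comap h inferInstance) ≤
        MeasurableSpace.comap r inferInstance :=
      MeasurableSpace.comap_mono hh.comap_le
    exact this.trans hr.comap_le
  have hIF : ProbabilityTheory.IndepFun f g (Measure.infinitePi fun _ : V => κ) := by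
    rw [ProbabilityTheory.IndepFun_iff_Indep]
    exact ProbabilityTheory.indep_of_indep_of_le_left
      (ProbabilityTheory.indep_of_indep_of_le_right hInd (key B g hg hgB)) (key A f hf hfA)
  exact hIF.integral_mul_eq_mul_integral hf.aestronglyMeasurable hg.aestronglyMeasurable

/-- Marginal of one coordinate. -/
theorem integral_eval_infinitePi (y : V) {f : E → ℝ} (hf : Measurable f) :
    ∫ x, f (x y) ∂(Measure.infinitePi fun _ : V => κ) = ∫ e, f e ∂κ := by
  have h := measurePreserving_eval_infinitePi (fun _ : V => κ) y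
  have h2 := integral_map (μ := Measure.infinitePi fun _ : V => κ) h.measurable.aemeasurable (f := f)
    (by rw [h.map_eq]; exact hf.aestronglyMeasurable)
  rw [h.map_eq] at h2
  exact h2.symm

end DepSec

end SM
end Crest.Agent.Lib.IsingFIID
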