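/-
S0241 blueprint, Mod J-e (section 7, J8): truncation and continuity of the static level sums.
Uses the J-a statements of `Static.lean` as black boxes.  The final theorems are
`ES_truncation_proved`, `ES_continuity_proved` (same statements as `ES_truncation`, `ES_continuity`).
-/
import Crest.Agent.Lib.IsingFIID.StaticRec

set_option autoImplicit false
universe u v

namespace Crest.Agent.Lib.IsingFIID.Trunc

open MeasureTheory Filter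
open scoped Classical Topology

/-! ### One-dimensional inequalities -/

section OneDim

lemma sq_lt_one_of_abs {x : ℝ} (hx : |x| < 1) : x ^ 2 < 1 := (sq_lt_one_iff_abs_lt_one x).mpr hx

lemma sqrt_one_sub_pos {x : ℝ} (hx : |x| < 1) : 0 < Real.sqrt (1 - x ^ 2) :=
  Real.sqrt_pos.mpr (by have := sq_lt_one_of_abs hx; linarith)

lemma sqrt_one_sub_sq {x : ℝ} (hx : |x| < 1) : Real.sqrt (1 - x ^ 2) ^ 2 = 1 - x ^ 2 :=
  Real.sq_sqrt (by have := sq_lt_one_of_abs hx; linarith)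

lemma sqrt_one_sub_le_one (x : ℝ) : Real.sqrt (1 - x ^ 2) ≤ 1 := by
  rw [Real.sqrt_le_one]; nlinarith [sq_nonneg x]

/-- Tangent inequality for `√(1-x²)`, with the strong concavity term. -/
lemma tangent_sqrt {a x : ℝ} (ha : |a| < 1) (hx : |x| < 1) :
    Real.sqrt (1 - x ^ 2) + (x - a) ^ 2 / 2 ≤
      1 / Real.sqrt (1 - a ^ 2) - a / Real.sqrt (1 - a ^ 2) * x := by
  have hα := sqrt_one_sub_pos ha
  have hα2 := sqrt_one_sub_sq ha
  have hw2 := sqrt_one_sub_sq hx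
  have hα1 := sqrt_one_sub_le_one a
  set α := Real.sqrt (1 - a ^ 2)
  set w := Real.sqrt (1 - x ^ 2)
  have key : 1 / α - a / α * x = (1 - a * x) / α := by field_simp
  rw [key, le_div_iff₀ hα]
  have hid : 1 - a * x - α * w = ((x - a) ^ 2 + (α - w) ^ 2) / 2 := by
    linear_combination (-1 / 2) * hα2 + (-1 / 2) * hw2
  nlinarith [sq_nonneg (x - a), sq_nonneg (α - w), mul_nonneg (sub_nonneg.mpr hα1) (sq_nonneg (x - a))]

lemma abs_mul_lt_one {θ x : ℝ} (hθ0 : 0 ≤ θ) (hθ1 : θ ≤ 1) (hx : |x| < 1) : |θ * x| < 1 := by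
  rw [abs_mul, abs_of_nonneg hθ0]
  calc θ * |x| ≤ 1 * |x| := by gcongr
    _ < 1 := by simpa using hx

/-- The comparison of the tangent defects at `θ` and at `1`. -/
lemma tangent_compare {θ a x : ℝ} (hθ0 : 0 ≤ θ) (hθ1 : θ ≤ 1) (ha : |a| < 1) (hx : |x| < 1) :
    (1 / Real.sqrt (1 - (θ * a) ^ 2) - θ ^ 2 * a / Real.sqrt (1 - (θ * a) ^ 2) * x)
        - Real.sqrt (1 - (θ * x) ^ 2) ≤
      θ ^ 2 * ((1 / Real.sqrt (1 - a ^ 2) - a / Real.sqrt (1 - a ^ 2) * x) - Real.sqrt (1 - x ^ 2)) := by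
  have ha' := abs_mul_lt_one hθ0 hθ1 ha
  have hx' := abs_mul_lt_one hθ0 hθ1 hx
  have hα := sqrt_one_sub_pos ha
  have hw := sqrt_one_sub_pos hx
  have hα2 := sqrt_one_sub_sq ha
  have hw2 := sqrt_one_sub_sq hx
  have hA := sqrt_one_sub_pos ha'
  have hW := sqrt_one_sub_pos hx'
  have hA2 := sqrt_one_sub_sq ha'
  have hW2 := sqrt_one_sub_sq hx'
  have hθ2 : θ ^ 2 ≤ 1 := by nlinarith
  have hαA : Real.sqrt (1 - a ^ 2) ≤ Real.sqrt (1 - (θ * a) ^ 2) :=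
    Real.sqrt_le_sqrt (by nlinarith [sq_nonneg a, mul_nonneg (sub_nonneg.mpr hθ2) (sq_nonneg a)])
  have hwW : Real.sqrt (1 - x ^ 2) ≤ Real.sqrt (1 - (θ * x) ^ 2) :=
    Real.sqrt_le_sqrt (by nlinarith [sq_nonneg x, mul_nonneg (sub_nonneg.mpr hθ2) (sq_nonneg x)])
  set α := Real.sqrt (1 - a ^ 2)
  set w := Real.sqrt (1 - x ^ 2)
  set A := Real.sqrt (1 - (θ * a) ^ 2)
  set W := Real.sqrt (1 - (θ * x) ^ 2)
  -- difference of the square roots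
  have hP : (A - W) * (A + W) = θ ^ 2 * ((α - w) * (α + w)) := by
    linear_combination hA2 - hW2 - θ ^ 2 * hα2 + θ ^ 2 * hw2
  have hPQ : (A - W) ^ 2 ≤ θ ^ 2 * (α - w) ^ 2 := by
    have hs : 0 < A + W := by positivity
    have ht : 0 < α + w := by positivity
    have hts : α + w ≤ A + W := by linarith
    have h1 : (A - W) ^ 2 * (A + W) ^ 2 = θ ^ 4 * (α - w) ^ 2 * (α + w) ^ 2 := by
      have : ((A - W) * (A + W)) ^ 2 = (θ ^ 2 * ((α - w) * (α + w))) ^ 2 := by rw [hP]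
      nlinarith [this]
    have h2 : θ ^ 4 * (α - w) ^ 2 * (α + w) ^ 2 ≤ θ ^ 2 * (α - w) ^ 2 * (A + W) ^ 2 := by
      have h3 : θ ^ 4 ≤ θ ^ 2 := by nlinarith [sq_nonneg θ]
      have h4 : (α + w) ^ 2 ≤ (A + W) ^ 2 := by gcongr
      have h5 : 0 ≤ (α - w) ^ 2 := sq_nonneg _
      calc θ ^ 4 * (α - w) ^ 2 * (α + w) ^ 2 ≤ θ ^ 2 * (α - w) ^ 2 * (α + w) ^ 2 := by gcongr
        _ ≤ θ ^ 2 * (α - w) ^ 2 * (A + W) ^ 2 := by gcongr
    have h6 : (A - W) ^ 2 * (A + W) ^ 2 ≤ (θ ^ 2 * (α - w) ^ 2) * (A + W) ^ 2 := by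
      rw [h1]; exact h2
    exact le_of_mul_le_mul_right h6 (by positivity)
  have key1 : (1 / A - θ ^ 2 * a / A * x) - W = ((θ ^ 2 * (x - a) ^ 2) + (A - W) ^ 2) / (2 * A) := by
    field_simp
    linear_combination (-1 : ℝ) * hA2 - hW2
  have key2 : (1 / α - a / α * x) - w = (((x - a) ^ 2) + (α - w) ^ 2) / (2 * α) := by
    field_simp
    linear_combination (-1 : ℝ) * hα2 - hw2
  rw [key1, key2]
  have hnum : 0 ≤ θ ^ 2 * (x - a) ^ 2 + (A - W) ^ 2 := by positivity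
  calc ((θ ^ 2 * (x - a) ^ 2) + (A - W) ^ 2) / (2 * A)
      ≤ ((θ ^ 2 * (x - a) ^ 2) + (A - W) ^ 2) / (2 * α) := by gcongr
    _ ≤ (θ ^ 2 * ((x - a) ^ 2 + (α - w) ^ 2)) / (2 * α) := by
        gcongr
        linarith
    _ = θ ^ 2 * (((x - a) ^ 2 + (α - w) ^ 2) / (2 * α)) := by ring

/-- Nonnegativity of the tangent defect at `θ`. -/
lemma tangent_theta {θ a x : ℝ} (hθ0 : 0 ≤ θ) (hθ1 : θ ≤ 1) (ha : |a| < 1) (hx : |x| < 1) :
    Real.sqrt (1 - (θ * x) ^ 2) ≤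
      1 / Real.sqrt (1 - (θ * a) ^ 2) - θ ^ 2 * a / Real.sqrt (1 - (θ * a) ^ 2) * x := by
  have h := tangent_sqrt (abs_mul_lt_one hθ0 hθ1 ha) (abs_mul_lt_one hθ0 hθ1 hx)
  have h2 : 0 ≤ (θ * x - θ * a) ^ 2 / 2 := by positivity
  have h3 : θ * a / Real.sqrt (1 - (θ * a) ^ 2) * (θ * x) =
      θ ^ 2 * a / Real.sqrt (1 - (θ * a) ^ 2) * x := by ring
  rw [h3] at h
  linarith

/-- `a^D - b^D ≤ D (a-b)` on `[0,1]`. -/
lemma pow_sub_pow_le {a b : ℝ} (hb : 0 ≤ b) (hba : b ≤ a) (ha : a ≤ 1) (n : ℕ) :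
    a ^ n - b ^ n ≤ n * (a - b) := by
  induction n with
  | zero => simp
  | succ n ih =>
    have h1 : b ^ n ≤ 1 := pow_le_one₀ hb (hba.trans ha)
    have h2 : b ^ n ≤ a ^ n := pow_le_pow_left₀ hb hba n
    have h3 : 0 ≤ b ^ n := pow_nonneg hb n
    have h4 : a * (a ^ n - b ^ n) ≤ 1 * (a ^ n - b ^ n) :=
      mul_le_mul_of_nonneg_right ha (sub_nonneg.mpr h2)
    have h5 : (a - b) * b ^ n ≤ (a - b) * 1 := mul_le_mul_of_nonneg_left h1 (sub_nonneg.mpr hba)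
    have h6 : a ^ (n + 1) - b ^ (n + 1) = a * (a ^ n - b ^ n) + (a - b) * b ^ n := by ring
    push_cast
    rw [h6]
    linarith

/-- `b_θ²` is Lipschitz. -/
lemma bTheta_sq_lipschitz {θ x x' : ℝ} (hθ2 : θ ^ 2 ≤ 1 / 2) (hx : |x| < 1) (hx' : |x'| < 1) :
    |bTheta θ x ^ 2 - bTheta θ x' ^ 2| ≤ 8 * θ ^ 2 * |x - x'| := by
  have h1 := sq_lt_one_of_abs hx
  have h2 := sq_lt_one_of_abs hx'
  have hθ0 : 0 ≤ θ ^ 2 := sq_nonneg θ
  have hd : 1 / 2 ≤ 1 - θ ^ 2 * x ^ 2 := by nlinarith [sq_nonneg x]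
  have hd' : 1 / 2 ≤ 1 - θ ^ 2 * x' ^ 2 := by nlinarith [sq_nonneg x']
  have hc : 1 - θ ^ 2 ≤ 1 - θ ^ 2 * x ^ 2 := by nlinarith [sq_nonneg x]
  have hc' : 1 - θ ^ 2 ≤ 1 - θ ^ 2 * x' ^ 2 := by nlinarith [sq_nonneg x']
  set g := (1 - x ^ 2) / (1 - θ ^ 2 * x ^ 2) with hg
  set g' := (1 - x' ^ 2) / (1 - θ ^ 2 * x' ^ 2) with hg'
  have hb : bTheta θ x ^ 2 = θ ^ 2 * g ^ 2 := by
    simp only [bTheta, hg]; ring
  have hb' : bTheta θ x' ^ 2 = θ ^ 2 * g' ^ 2 := by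
    simp only [bTheta, hg']; ring
  have hg0 : 0 ≤ g := div_nonneg (by linarith) (by linarith)
  have hg0' : 0 ≤ g' := div_nonneg (by linarith) (by linarith)
  have hg1 : g ≤ 1 := (div_le_one (by linarith)).mpr (by nlinarith [sq_nonneg x])
  have hg1' : g' ≤ 1 := (div_le_one (by linarith)).mpr (by nlinarith [sq_nonneg x'])
  have hdiff : g - g' = (x' ^ 2 - x ^ 2) * (1 - θ ^ 2) /
      ((1 - θ ^ 2 * x ^ 2) * (1 - θ ^ 2 * x' ^ 2)) := by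
    have hne : 1 - θ ^ 2 * x ^ 2 ≠ 0 := by linarith
    have hne' : 1 - θ ^ 2 * x' ^ 2 ≠ 0 := by linarith
    rw [hg, hg', div_sub_div _ _ hne hne']
    congr 1
    ring
  have hc0 : 0 < 1 - θ ^ 2 := by linarith
  have habs : |g - g'| ≤ 2 * |x ^ 2 - x' ^ 2| := by
    rw [hdiff, abs_div, abs_mul, abs_of_pos hc0, abs_of_pos (a := (1 - θ ^ 2 * x ^ 2) * _) (by
      have : (0 : ℝ) < 1 - θ ^ 2 * x ^ 2 := by linarith
      have : (0 : ℝ) < 1 - θ ^ 2 * x' ^ 2 := by linarith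
      positivity), abs_sub_comm (x' ^ 2)]
    rw [div_le_iff₀ (by
      have : (0 : ℝ) < 1 - θ ^ 2 * x ^ 2 := by linarith
      have : (0 : ℝ) < 1 - θ ^ 2 * x' ^ 2 := by linarith
      positivity)]
    have hprod : (1 - θ ^ 2) * (1 / 2) ≤ (1 - θ ^ 2 * x ^ 2) * (1 - θ ^ 2 * x' ^ 2) := by
      apply mul_le_mul hc hd' (by norm_num) (by linarith)
    have h0 := abs_nonneg (x ^ 2 - x' ^ 2)
    nlinarith [mul_le_mul_of_nonneg_left hprod h0]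
  have hsq : |x ^ 2 - x' ^ 2| ≤ 2 * |x - x'| := by
    have : x ^ 2 - x' ^ 2 = (x - x') * (x + x') := by ring
    rw [this, abs_mul]
    have h3 : |x + x'| ≤ 2 := by
      have := abs_add_le x x'
      linarith
    nlinarith [abs_nonneg (x - x')]
  have hgg : |g ^ 2 - g' ^ 2| ≤ 2 * |g - g'| := by
    have : g ^ 2 - g' ^ 2 = (g - g') * (g + g') := by ring
    rw [this, abs_mul, abs_of_nonneg (by linarith : 0 ≤ g + g')]
    nlinarith [abs_nonneg (g - g')]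
  rw [hb, hb', ← mul_sub, abs_mul, abs_of_nonneg hθ0]
  have : |g ^ 2 - g' ^ 2| ≤ 8 * |x - x'| := by linarith
  nlinarith

lemma bTheta_sq_le {θ x : ℝ} (hθ2 : θ ^ 2 ≤ 1 / 2) (hx : |x| < 1) : bTheta θ x ^ 2 ≤ θ ^ 2 := by
  have h1 := sq_lt_one_of_abs hx
  have hd : 1 / 2 ≤ 1 - θ ^ 2 * x ^ 2 := by nlinarith [sq_nonneg x, sq_nonneg θ]
  have hg0 : 0 ≤ (1 - x ^ 2) / (1 - θ ^ 2 * x ^ 2) := div_nonneg (by linarith) (by linarith)
  have hg1 : (1 - x ^ 2) / (1 - θ ^ 2 * x ^ 2) ≤ 1 :=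
    (div_le_one (by linarith)).mpr (by nlinarith [sq_nonneg x, sq_nonneg θ])
  have hb : bTheta θ x ^ 2 = θ ^ 2 * ((1 - x ^ 2) / (1 - θ ^ 2 * x ^ 2)) ^ 2 := by
    simp only [bTheta]; ring
  rw [hb]
  have : ((1 - x ^ 2) / (1 - θ ^ 2 * x ^ 2)) ^ 2 ≤ 1 := pow_le_one₀ hg0 hg1
  nlinarith [sq_nonneg θ]

end OneDim

end Crest.Agent.Lib.IsingFIID.Trunc
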