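/-
S0241 blueprint, Mod J-e (section 7, J8): truncation and continuity of the static level sums.
Uses the J-a statements of `Static.lean` as black boxes.  The final theorems are
`ES_truncation_proved`, `ES_continuity_proved` (same statements as `ES_truncation`, `ES_continuity`,
which `Static.lean` restates).  Helper lemmas live in the sub-namespace `Trunc`.
-/
import Crest.Agent.Lib.IsingFIID.StaticTruncOneDim

set_option autoImplicit false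
set_option linter.unusedSectionVars false
set_option linter.unusedVariables false
universe u v

namespace Crest.Agent.Lib.IsingFIID.Trunc

open MeasureTheory Filter
open scoped Classical Topology

variable {V : Type u} {G : SimpleGraph V} [G.LocallyFinite] {D : ℕ}
variable {E : Type v} [MeasurableSpace E] {κ : Measure E}

/-! ### Congruence and flip -/

section Pointwise

theorem sub_zero_eq (p y : V) : sub G 0 p y = {y} := by
  simp [sub, desc]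

theorem mem_sub_self (hG : RegTree G D) {p y : V} (R : ℕ) : y ∈ sub G R p y := by
  simp only [sub, Finset.mem_biUnion, Finset.mem_range]
  exact ⟨0, by omega, by simp [desc]⟩

theorem sub_mono {p y : V} {R R' : ℕ} (h : R ≤ R') : sub G R p y ⊆ sub G R' p y := by
  intro u hu
  simp only [sub, Finset.mem_biUnion, Finset.mem_range] at hu ⊢
  obtain ⟨r, hr, hu⟩ := hu
  exact ⟨r, by omega, hu⟩

theorem sub_child_subset (hG : RegTree G D) {p y z : V} (hpy : G.Adj p y) (hz : z ∈ ch G p y) (R : ℕ) :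
    sub G R y z ⊆ sub G (R + 1) p y := by
  rw [hG.sub_succ hpy]
  intro u hu
  exact Finset.mem_union_right _ (Finset.mem_biUnion.mpr ⟨z, hz, hu⟩)

theorem adj_of_mem_ch {p y z : V} (hz : z ∈ ch G p y) : G.Adj y z := (mem_ch.mp hz).1

theorem bpPair_congr (hG : RegTree G D) {θ : ℝ} {wp wm wp' wm' : V → ℝ} (R : ℕ) :
    ∀ {p y : V}, G.Adj p y → (∀ v ∈ sub G R p y, wp v = wp' v ∧ wm v = wm' v) →
      bpPair G θ wp wm R p y = bpPair G θ wp' wm' R p y := by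
  induction R with
  | zero =>
    intro p y _ h
    rw [sub_zero_eq] at h
    obtain ⟨h1, h2⟩ := h y (by simp)
    simp [bpPair, h1, h2]
  | succ R ih =>
    intro p y hpy h
    obtain ⟨h1, h2⟩ := h y (mem_sub_self hG _)
    have hch : ∀ z ∈ ch G p y, bpPair G θ wp wm R y z = bpPair G θ wp' wm' R y z := fun z hz =>
      ih (adj_of_mem_ch hz) fun v hv => h v (sub_child_subset hG hpy hz R hv)
    have hP : ∏ z ∈ ch G p y, ((bpPair G θ wp wm R y z).1 + θ * (bpPair G θ wp wm R y z).2) =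
        ∏ z ∈ ch G p y, ((bpPair G θ wp' wm' R y z).1 + θ * (bpPair G θ wp' wm' R y z).2) :=
      Finset.prod_congr rfl fun z hz => by rw [hch z hz]
    have hM : ∏ z ∈ ch G p y, ((bpPair G θ wp wm R y z).1 - θ * (bpPair G θ wp wm R y z).2) =
        ∏ z ∈ ch G p y, ((bpPair G θ wp' wm' R y z).1 - θ * (bpPair G θ wp' wm' R y z).2) :=
      Finset.prod_congr rfl fun z hz => by rw [hch z hz]
    simp only [bpPair, h1, h2, hP, hM]

theorem bpS_congr (hG : RegTree G D) {θ : ℝ} {wp wm wp' wm' : V → ℝ} (r R : ℕ) :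
    ∀ {p y : V}, G.Adj p y → (∀ v ∈ sub G R p y, wp v = wp' v ∧ wm v = wm' v) →
      bpS G θ wp wm r R p y = bpS G θ wp' wm' r R p y := by
  induction r generalizing R with
  | zero => intro p y _ _; simp [bpS]
  | succ r ih =>
    cases R with
    | zero => intro p y _ _; simp [bpS]
    | succ R =>
      intro p y hpy h
      simp only [bpS]
      refine Finset.sum_congr rfl fun z hz => ?_
      have hsub : ∀ v ∈ sub G R y z, wp v = wp' v ∧ wm v = wm' v :=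
        fun v hv => h v (sub_child_subset hG hpy hz R hv)
      rw [ih R (adj_of_mem_ch hz) hsub]
      simp only [bpNu]
      rw [bpPair_congr hG R (adj_of_mem_ch hz) hsub]

/-- flip: exchanging the weights negates `n` and keeps `Z`. -/
theorem bpPair_flip (θ : ℝ) (wp wm : V → ℝ) (R : ℕ) (p y : V) :
    bpPair G θ wm wp R p y = ((bpPair G θ wp wm R p y).1, -(bpPair G θ wp wm R p y).2) := by
  induction R generalizing p y with
  | zero =>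
    simp only [bpPair]
    ext
    · simp; ring
    · simp; ring
  | succ R ih =>
    simp only [bpPair]
    have hP : ∏ z ∈ ch G p y, ((bpPair G θ wm wp R y z).1 + θ * (bpPair G θ wm wp R y z).2) =
        ∏ z ∈ ch G p y, ((bpPair G θ wp wm R y z).1 - θ * (bpPair G θ wp wm R y z).2) :=
      Finset.prod_congr rfl fun z _ => by rw [ih y z]; simp; ring
    have hM : ∏ z ∈ ch G p y, ((bpPair G θ wm wp R y z).1 - θ * (bpPair G θ wm wp R y z).2) =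
        ∏ z ∈ ch G p y, ((bpPair G θ wp wm R y z).1 + θ * (bpPair G θ wp wm R y z).2) :=
      Finset.prod_congr rfl fun z _ => by rw [ih y z]; simp
    rw [hP, hM]
    ext
    · simp; ring
    · simp; ring

theorem bTheta_neg (θ x : ℝ) : bTheta θ (-x) = bTheta θ x := by
  simp [bTheta]

theorem bpS_flip (θ : ℝ) (wp wm : V → ℝ) (r R : ℕ) (p y : V) :
    bpS G θ wm wp r R p y = bpS G θ wp wm r R p y := by
  induction r generalizing R p y with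
  | zero => simp [bpS]
  | succ r ih =>
    cases R with
    | zero => simp [bpS]
    | succ R =>
      simp only [bpS]
      refine Finset.sum_congr rfl fun z _ => ?_
      rw [ih]
      have : bpNu G θ wm wp R y z = - bpNu G θ wp wm R y z := by
        unfold bpNu
        rw [bpPair_flip]
        simp [neg_div]
      rw [this, bTheta_neg]

end Pointwise

/-! ### Functions of the blocks -/

variable [IsProbabilityMeasure κ] (𝔟 : BlockData κ) {θ : ℝ}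

section Congr

theorem zR_congr (hG : RegTree G D) {p y : V} (hpy : G.Adj p y) {R : ℕ} {x x' : V → E}
    (h : ∀ v ∈ sub G R p y, x v = x' v) : zR G 𝔟 θ R p y x = zR G 𝔟 θ R p y x' := by
  simp only [zR]
  rw [bpPair_congr hG R hpy fun v hv => ⟨by rw [h v hv], by rw [h v hv]⟩]

theorem nR_congr (hG : RegTree G D) {p y : V} (hpy : G.Adj p y) {R : ℕ} {x x' : V → E}
    (h : ∀ v ∈ sub G R p y, x v = x' v) : nR G 𝔟 θ R p y x = nR G 𝔟 θ R p y x' := by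
  simp only [nR]
  rw [bpPair_congr hG R hpy fun v hv => ⟨by rw [h v hv], by rw [h v hv]⟩]

theorem nuR_congr (hG : RegTree G D) {p y : V} (hpy : G.Adj p y) {R : ℕ} {x x' : V → E}
    (h : ∀ v ∈ sub G R p y, x v = x' v) : nuR G 𝔟 θ R p y x = nuR G 𝔟 θ R p y x' := by
  simp only [nuR, bpNu]
  rw [bpPair_congr hG R hpy fun v hv => ⟨by rw [h v hv], by rw [h v hv]⟩]

theorem SR_congr (hG : RegTree G D) {p y : V} (hpy : G.Adj p y) {r R : ℕ} {x x' : V → E}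
    (h : ∀ v ∈ sub G R p y, x v = x' v) : SR G 𝔟 θ r R p y x = SR G 𝔟 θ r R p y x' := by
  simp only [SR]
  exact bpS_congr hG r R hpy fun v hv => ⟨by rw [h v hv], by rw [h v hv]⟩

theorem nuR_eq_div (R : ℕ) (p y : V) (x : V → E) :
    nuR G 𝔟 θ R p y x = nR G 𝔟 θ R p y x / zR G 𝔟 θ R p y x := rfl

theorem nuR_swap (R : ℕ) (p y : V) (x : V → E) :
    nuR G 𝔟 θ R p y (𝔟.swap ∘ x) = - nuR G 𝔟 θ R p y x := by
  simp only [nuR, bpNu, Function.comp, 𝔟.wp_swap, 𝔟.wm_swap]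
  rw [bpPair_flip]
  simp [neg_div]

theorem SR_swap (r R : ℕ) (p y : V) (x : V → E) :
    SR G 𝔟 θ r R p y (𝔟.swap ∘ x) = SR G 𝔟 θ r R p y x := by
  simp only [SR, Function.comp, 𝔟.wp_swap, 𝔟.wm_swap]
  exact bpS_flip _ _ _ _ _ _ _

end Congr

/-! ### The API of `E^R` on bounded measurable functions -/

/-- bounded measurable -/
def Good (f : (V → E) → ℝ) : Prop := Measurable f ∧ ∃ C, ∀ x, |f x| ≤ C

omit [IsProbabilityMeasure κ] in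
theorem Good.add {f g : (V → E) → ℝ} (hf : Good f) (hg : Good g) : Good fun x => f x + g x := by
  obtain ⟨hf1, C, hC⟩ := hf
  obtain ⟨hg1, C', hC'⟩ := hg
  refine ⟨hf1.add hg1, C + C', fun x => ?_⟩
  exact (abs_add_le _ _).trans (add_le_add (hC x) (hC' x))

omit [IsProbabilityMeasure κ] in
theorem Good.sub {f g : (V → E) → ℝ} (hf : Good f) (hg : Good g) : Good fun x => f x - g x := by
  obtain ⟨hf1, C, hC⟩ := hf
  obtain ⟨hg1, C', hC'⟩ := hg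
  refine ⟨hf1.sub hg1, C + C', fun x => ?_⟩
  exact (abs_sub _ _).trans (add_le_add (hC x) (hC' x))

omit [IsProbabilityMeasure κ] in
theorem Good.mul {f g : (V → E) → ℝ} (hf : Good f) (hg : Good g) : Good fun x => f x * g x := by
  obtain ⟨hf1, C, hC⟩ := hf
  obtain ⟨hg1, C', hC'⟩ := hg
  refine ⟨hf1.mul hg1, C * C', fun x => ?_⟩
  rw [abs_mul]
  exact mul_le_mul (hC x) (hC' x) (abs_nonneg _) ((abs_nonneg _).trans (hC x))

omit [IsProbabilityMeasure κ] in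
theorem Good.const (c : ℝ) : Good fun _ : V → E => c :=
  ⟨measurable_const, |c|, fun _ => le_rfl⟩

omit [IsProbabilityMeasure κ] in
theorem Good.abs {f : (V → E) → ℝ} (hf : Good f) : Good fun x => |f x| := by
  obtain ⟨hf1, C, hC⟩ := hf
  exact ⟨hf1.abs, C, fun x => by simpa using hC x⟩

omit [IsProbabilityMeasure κ] in
theorem Good.sq {f : (V → E) → ℝ} (hf : Good f) : Good fun x => f x ^ 2 := by
  simpa [pow_two] using hf.mul hf

omit [IsProbabilityMeasure κ] in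
theorem Good.sum {ι : Type*} (s : Finset ι) {f : ι → (V → E) → ℝ} (hf : ∀ i ∈ s, Good (f i)) :
    Good fun x => ∑ i ∈ s, f i x := by
  classical
  induction s using Finset.induction_on with
  | empty => simpa using Good.const (V := V) (E := E) 0
  | insert a s ha ih =>
    have h1 := hf a (Finset.mem_insert_self _ _)
    have h2 := ih fun i hi => hf i (Finset.mem_insert_of_mem hi)
    simpa [Finset.sum_insert ha] using h1.add h2

section Api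
variable (hG : RegTree G D) (hθ0 : 0 ≤ θ) (hθ : (D : ℝ) * θ ^ 2 ≤ 1)
include hG hθ0 hθ

theorem theta_sq_le_half : θ ^ 2 ≤ 1 / 2 := by
  have h2 : (2 : ℝ) ≤ D := by exact_mod_cast hG.two_le
  nlinarith [sq_nonneg θ]

theorem theta_lt_one : θ < 1 := by
  have := theta_sq_le_half hG hθ0 hθ
  nlinarith

theorem integrable_zR {p y : V} (hpy : G.Adj p y) (R : ℕ) :
    Integrable (zR G 𝔟 θ R p y) (Measure.infinitePi fun _ : V => κ) :=
  integrable_of_integral_eq_one (integral_zR 𝔟 hG hθ0 hθ hpy R)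

theorem integrable_mul_zR {p y : V} (hpy : G.Adj p y) (R : ℕ) {f : (V → E) → ℝ} (hf : Good f) :
    Integrable (fun x => f x * zR G 𝔟 θ R p y x) (Measure.infinitePi fun _ : V => κ) := by
  obtain ⟨hf1, C, hC⟩ := hf
  exact (integrable_zR 𝔟 hG hθ0 hθ hpy R).bdd_mul hf1.aestronglyMeasurable
    (Eventually.of_forall fun x => by simpa [Real.norm_eq_abs] using hC x)

theorem EsR_add {p y : V} (hpy : G.Adj p y) (R : ℕ) {f g : (V → E) → ℝ} (hf : Good f) (hg : Good g) :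
    EsR G 𝔟 θ R p y (fun x => f x + g x) = EsR G 𝔟 θ R p y f + EsR G 𝔟 θ R p y g := by
  simp only [EsR]
  rw [← integral_add (integrable_mul_zR 𝔟 hG hθ0 hθ hpy R hf) (integrable_mul_zR 𝔟 hG hθ0 hθ hpy R hg)]
  congr 1; ext x; ring

theorem EsR_sub {p y : V} (hpy : G.Adj p y) (R : ℕ) {f g : (V → E) → ℝ} (hf : Good f) (hg : Good g) :
    EsR G 𝔟 θ R p y (fun x => f x - g x) = EsR G 𝔟 θ R p y f - EsR G 𝔟 θ R p y g := by
  simp only [EsR]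
  rw [← integral_sub (integrable_mul_zR 𝔟 hG hθ0 hθ hpy R hf) (integrable_mul_zR 𝔟 hG hθ0 hθ hpy R hg)]
  congr 1; ext x; ring

omit hG hθ0 hθ in
theorem EsR_const_mul (c : ℝ) (R : ℕ) (p y : V) (f : (V → E) → ℝ) :
    EsR G 𝔟 θ R p y (fun x => c * f x) = c * EsR G 𝔟 θ R p y f := by
  simp only [EsR]
  rw [← integral_const_mul]
  congr 1; ext x; ring

theorem EsR_const {p y : V} (hpy : G.Adj p y) (R : ℕ) (c : ℝ) :
    EsR G 𝔟 θ R p y (fun _ => c) = c := by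
  simp only [EsR]
  rw [integral_const_mul, integral_zR 𝔟 hG hθ0 hθ hpy R, mul_one]

theorem EsR_mono {p y : V} (hpy : G.Adj p y) (R : ℕ) {f g : (V → E) → ℝ} (hf : Good f) (hg : Good g)
    (h : ∀ x, f x ≤ g x) : EsR G 𝔟 θ R p y f ≤ EsR G 𝔟 θ R p y g := by
  simp only [EsR]
  exact integral_mono (integrable_mul_zR 𝔟 hG hθ0 hθ hpy R hf) (integrable_mul_zR 𝔟 hG hθ0 hθ hpy R hg)
    fun x => mul_le_mul_of_nonneg_right (h x) (zR_pos 𝔟 hG hθ0 hθ hpy R x).le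

theorem EsR_sum {p y : V} (hpy : G.Adj p y) (R : ℕ) {ι : Type*} (s : Finset ι)
    {f : ι → (V → E) → ℝ} (hf : ∀ i ∈ s, Good (f i)) :
    EsR G 𝔟 θ R p y (fun x => ∑ i ∈ s, f i x) = ∑ i ∈ s, EsR G 𝔟 θ R p y (f i) := by
  simp only [EsR, Finset.sum_mul]
  exact integral_finsetSum s fun i hi => integrable_mul_zR 𝔟 hG hθ0 hθ hpy R (hf i hi)

theorem EsR_abs_le {p y : V} (hpy : G.Adj p y) (R : ℕ) {f : (V → E) → ℝ} (hf : Good f) :
    |EsR G 𝔟 θ R p y f| ≤ EsR G 𝔟 θ R p y fun x => |f x| := by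
  rw [abs_le]
  constructor
  · have h := EsR_mono 𝔟 hG hθ0 hθ hpy R (f := fun x => - |f x|) (g := f)
      (by simpa using (Good.const (-1)).mul hf.abs) hf (fun x => neg_abs_le _)
    have h2 := EsR_const_mul (G := G) (θ := θ) 𝔟 (-1) R p y (fun x => |f x|)
    simp only [neg_mul, one_mul] at h2
    rw [h2] at h
    linarith
  · exact EsR_mono 𝔟 hG hθ0 hθ hpy R hf hf.abs fun x => le_abs_self _

/-- Cauchy-Schwarz for `E^R`. -/
theorem EsR_abs_le_sqrt {p y : V} (hpy : G.Adj p y) (R : ℕ) {f : (V → E) → ℝ} (hf : Good f) :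
    EsR G 𝔟 θ R p y (fun x => |f x|) ≤ Real.sqrt (EsR G 𝔟 θ R p y fun x => f x ^ 2) := by
  set m := EsR G 𝔟 θ R p y (fun x => |f x|) with hm
  have hpos : 0 ≤ EsR G 𝔟 θ R p y (fun x => (|f x| - m) ^ 2) := by
    have := EsR_mono 𝔟 hG hθ0 hθ hpy R (f := fun _ => 0) (g := fun x => (|f x| - m) ^ 2)
      (Good.const 0) ((hf.abs.sub (Good.const m)).sq) (fun x => sq_nonneg _)
    rwa [EsR_const 𝔟 hG hθ0 hθ hpy R] at this
  have hexp : EsR G 𝔟 θ R p y (fun x => (|f x| - m) ^ 2) =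
      EsR G 𝔟 θ R p y (fun x => f x ^ 2) - 2 * m * m + m ^ 2 := by
    have h1 : (fun x => (|f x| - m) ^ 2) =
        fun x => (f x ^ 2 - (2 * m) * |f x|) + m ^ 2 := by
      ext x; rw [sub_sq, sq_abs]; ring
    rw [h1, EsR_add 𝔟 hG hθ0 hθ hpy R (hf.sq.sub ((Good.const (2 * m)).mul hf.abs)) (Good.const _),
      EsR_sub 𝔟 hG hθ0 hθ hpy R hf.sq ((Good.const (2 * m)).mul hf.abs),
      EsR_const_mul, EsR_const 𝔟 hG hθ0 hθ hpy R]
  have : m ^ 2 ≤ EsR G 𝔟 θ R p y fun x => f x ^ 2 := by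
    rw [hexp] at hpos
    nlinarith
  exact (le_abs_self m).trans (Real.abs_le_sqrt this)

/-- measurability, boundedness of `ν`. -/
theorem measurable_nuR {p y : V} (hpy : G.Adj p y) (R : ℕ) : Measurable (nuR G 𝔟 θ R p y) :=
  (measurable_nR 𝔟 hG hθ0 hθ hpy R).div (measurable_zR 𝔟 hG hθ0 hθ hpy R)

theorem good_nuR {p y : V} (hpy : G.Adj p y) (R : ℕ) : Good (nuR G 𝔟 θ R p y) :=
  ⟨measurable_nuR 𝔟 hG hθ0 hθ hpy R, 1, fun x => (abs_nuR_lt 𝔟 hG hθ0 hθ hpy R x).le⟩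

theorem abs_nR_lt {p y : V} (hpy : G.Adj p y) (R : ℕ) (x : V → E) :
    |nR G 𝔟 θ R p y x| < zR G 𝔟 θ R p y x := by
  have hZ := zR_pos 𝔟 hG hθ0 hθ hpy R x
  have h := abs_nuR_lt 𝔟 hG hθ0 hθ hpy R x
  rw [nuR_eq_div, abs_div, abs_of_pos hZ, div_lt_one hZ] at h
  exact h

omit hG hθ0 hθ in
theorem zR_succ (R : ℕ) (p y : V) (x : V → E) :
    zR G 𝔟 θ (R + 1) p y x =
      (𝔟.wp (x y) * ∏ z ∈ ch G p y, (zR G 𝔟 θ R y z x + θ * nR G 𝔟 θ R y z x) +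
        𝔟.wm (x y) * ∏ z ∈ ch G p y, (zR G 𝔟 θ R y z x - θ * nR G 𝔟 θ R y z x)) / 2 := rfl

omit hG hθ0 hθ in
theorem nR_succ (R : ℕ) (p y : V) (x : V → E) :
    nR G 𝔟 θ (R + 1) p y x =
      (𝔟.wp (x y) * ∏ z ∈ ch G p y, (zR G 𝔟 θ R y z x + θ * nR G 𝔟 θ R y z x) -
        𝔟.wm (x y) * ∏ z ∈ ch G p y, (zR G 𝔟 θ R y z x - θ * nR G 𝔟 θ R y z x)) / 2 := rfl

omit hG hθ0 hθ in
theorem zR_zero (p y : V) (x : V → E) :
    zR G 𝔟 θ 0 p y x = (𝔟.wp (x y) + 𝔟.wm (x y)) / 2 := rfl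

omit hG hθ0 hθ in
theorem nR_zero (p y : V) (x : V → E) :
    nR G 𝔟 θ 0 p y x = (𝔟.wp (x y) - 𝔟.wm (x y)) / 2 := rfl

omit hG hθ0 hθ in
theorem SR_zero_left (R : ℕ) (p y : V) (x : V → E) : SR G 𝔟 θ 0 R p y x = 1 := rfl

omit hG hθ0 hθ in
theorem SR_succ_zero (r : ℕ) (p y : V) (x : V → E) : SR G 𝔟 θ (r + 1) 0 p y x = 0 := rfl

omit hG hθ0 hθ in
theorem SR_succ_succ (r R : ℕ) (p y : V) (x : V → E) :
    SR G 𝔟 θ (r + 1) (R + 1) p y x =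
      ∑ z ∈ ch G p y, bTheta θ (nuR G 𝔟 θ R y z x) ^ 2 * SR G 𝔟 θ r R y z x := rfl

end Api

omit [IsProbabilityMeasure κ] [MeasurableSpace E] in
theorem abs_ratio_le {A B ρ : ℝ} (hA : 0 < A) (hB : 0 < B) (hρ : 1 ≤ ρ) (h1 : A ≤ ρ * B) (h2 : B ≤ ρ * A) :
    |(A - B) / (A + B)| ≤ (ρ - 1) / (ρ + 1) := by
  have hs : 0 < A + B := by linarith
  have hr : 0 < ρ + 1 := by linarith
  rw [abs_div, abs_of_pos hs, div_le_div_iff₀ hs hr]
  rcases le_total A B with h | h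
  · rw [abs_of_nonpos (by linarith)]
    nlinarith
  · rw [abs_of_nonneg (by linarith)]
    nlinarith

section Bound
variable (hG : RegTree G D) (hθ0 : 0 ≤ θ) (hθ : (D : ℝ) * θ ^ 2 ≤ 1)
include hG hθ0 hθ

/-- One factor comparison. -/
theorem factor_pos {p y z : V} (hz : z ∈ ch G p y) (R : ℕ) (x : V → E) :
    0 < zR G 𝔟 θ R y z x + θ * nR G 𝔟 θ R y z x ∧ 0 < zR G 𝔟 θ R y z x - θ * nR G 𝔟 θ R y z x := by
  have hθ1 := theta_lt_one hG hθ0 hθ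
  have h := abs_nR_lt 𝔟 hG hθ0 hθ (adj_of_mem_ch hz) R x
  have hZ := zR_pos 𝔟 hG hθ0 hθ (adj_of_mem_ch hz) R x
  have h3 := abs_lt.mp h
  set n := nR G 𝔟 θ R y z x
  set Z := zR G 𝔟 θ R y z x
  constructor
  · nlinarith
  · nlinarith

theorem factor_le {p y z : V} (hz : z ∈ ch G p y) (R : ℕ) (x : V → E) :
    zR G 𝔟 θ R y z x + θ * nR G 𝔟 θ R y z x ≤
        (1 + θ) / (1 - θ) * (zR G 𝔟 θ R y z x - θ * nR G 𝔟 θ R y z x) ∧
    zR G 𝔟 θ R y z x - θ * nR G 𝔟 θ R y z x ≤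
        (1 + θ) / (1 - θ) * (zR G 𝔟 θ R y z x + θ * nR G 𝔟 θ R y z x) := by
  have hθ1 := theta_lt_one hG hθ0 hθ
  have h := abs_nR_lt 𝔟 hG hθ0 hθ (adj_of_mem_ch hz) R x
  have hZ := zR_pos 𝔟 hG hθ0 hθ (adj_of_mem_ch hz) R x
  have h3 := abs_lt.mp h
  set n := nR G 𝔟 θ R y z x
  set Z := zR G 𝔟 θ R y z x
  have hd : 0 < 1 - θ := by linarith
  constructor
  · rw [div_mul_eq_mul_div, le_div_iff₀ hd]
    nlinarith
  · rw [div_mul_eq_mul_div, le_div_iff₀ hd]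
    nlinarith

/-- A uniform bound on `ν`: all depths, all blocks. -/
theorem exists_nu_bound : ∃ c : ℝ, 0 ≤ c ∧ c < 1 ∧ ∀ (R : ℕ) (p y : V), G.Adj p y → ∀ x : V → E,
    |nuR G 𝔟 θ R p y x| ≤ c := by
  have hθ1 := theta_lt_one hG hθ0 hθ
  have hd : 0 < 1 - θ := by linarith
  set r := (1 + θ) / (1 - θ) with hr
  have hr1 : 1 ≤ r := by rw [hr, le_div_iff₀ hd]; linarith
  have hlo := 𝔟.lo_pos
  obtain ⟨e₀⟩ : Nonempty E := nonempty_of_isProbabilityMeasure κ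
  have hlohi : 𝔟.lo ≤ 𝔟.hi := (𝔟.wp_ge e₀).trans (𝔟.wp_le e₀)
  set ρ := 𝔟.hi / 𝔟.lo * r ^ D with hρ
  have hq : 1 ≤ 𝔟.hi / 𝔟.lo := by rwa [le_div_iff₀ hlo, one_mul]
  have hrD : 1 ≤ r ^ D := one_le_pow₀ hr1
  have hρ1 : 1 ≤ ρ := by
    rw [hρ]; nlinarith
  have hw : ∀ e e', 𝔟.wp e ≤ 𝔟.hi / 𝔟.lo * 𝔟.wm e' ∧ 𝔟.wm e ≤ 𝔟.hi / 𝔟.lo * 𝔟.wp e' := by
    intro e e'
    have h0 : 𝔟.hi / 𝔟.lo * 𝔟.lo = 𝔟.hi := by field_simp
    have h1 : 𝔟.hi / 𝔟.lo * 𝔟.lo ≤ 𝔟.hi / 𝔟.lo * 𝔟.wm e' :=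
      mul_le_mul_of_nonneg_left (𝔟.wm_ge e') (by linarith)
    have h2 : 𝔟.hi / 𝔟.lo * 𝔟.lo ≤ 𝔟.hi / 𝔟.lo * 𝔟.wp e' :=
      mul_le_mul_of_nonneg_left (𝔟.wp_ge e') (by linarith)
    exact ⟨by linarith [𝔟.wp_le e], by linarith [𝔟.wm_le e]⟩
  have hpos : ∀ e, 0 < 𝔟.wp e ∧ 0 < 𝔟.wm e := fun e =>
    ⟨lt_of_lt_of_le hlo (𝔟.wp_ge e), lt_of_lt_of_le hlo (𝔟.wm_ge e)⟩
  refine ⟨(ρ - 1) / (ρ + 1), div_nonneg (by linarith) (by linarith),
    (div_lt_one (by linarith)).mpr (by linarith), ?_⟩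
  intro R p y hpy x
  cases R with
  | zero =>
    have heq : nuR G 𝔟 θ 0 p y x = (𝔟.wp (x y) - 𝔟.wm (x y)) / (𝔟.wp (x y) + 𝔟.wm (x y)) := by
      rw [nuR_eq_div, zR_zero, nR_zero]
      field_simp
    rw [heq]
    obtain ⟨h1, h2⟩ := hw (x y) (x y)
    obtain ⟨h3, h4⟩ := hpos (x y)
    refine abs_ratio_le h3 h4 hρ1 ?_ ?_
    · calc 𝔟.wp (x y) ≤ 𝔟.hi / 𝔟.lo * 𝔟.wm (x y) := h1
        _ ≤ ρ * 𝔟.wm (x y) := by
          apply mul_le_mul_of_nonneg_right _ h4.le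
          rw [hρ]; nlinarith
    · calc 𝔟.wm (x y) ≤ 𝔟.hi / 𝔟.lo * 𝔟.wp (x y) := h2
        _ ≤ ρ * 𝔟.wp (x y) := by
          apply mul_le_mul_of_nonneg_right _ h3.le
          rw [hρ]; nlinarith
  | succ R =>
    set P := ∏ z ∈ ch G p y, (zR G 𝔟 θ R y z x + θ * nR G 𝔟 θ R y z x) with hP
    set M := ∏ z ∈ ch G p y, (zR G 𝔟 θ R y z x - θ * nR G 𝔟 θ R y z x) with hM
    have hPpos : 0 < P := Finset.prod_pos fun z hz => (factor_pos 𝔟 hG hθ0 hθ hz R x).1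
    have hMpos : 0 < M := Finset.prod_pos fun z hz => (factor_pos 𝔟 hG hθ0 hθ hz R x).2
    have hPM : P ≤ r ^ D * M := by
      have : ∏ z ∈ ch G p y, (r * (zR G 𝔟 θ R y z x - θ * nR G 𝔟 θ R y z x)) = r ^ D * M := by
        rw [Finset.prod_mul_distrib, Finset.prod_const, hG.card_ch hpy]
      rw [← this]
      exact Finset.prod_le_prod (fun z hz => (factor_pos 𝔟 hG hθ0 hθ hz R x).1.le)
        fun z hz => (factor_le 𝔟 hG hθ0 hθ hz R x).1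
    have hMP : M ≤ r ^ D * P := by
      have : ∏ z ∈ ch G p y, (r * (zR G 𝔟 θ R y z x + θ * nR G 𝔟 θ R y z x)) = r ^ D * P := by
        rw [Finset.prod_mul_distrib, Finset.prod_const, hG.card_ch hpy]
      rw [← this]
      exact Finset.prod_le_prod (fun z hz => (factor_pos 𝔟 hG hθ0 hθ hz R x).2.le)
        fun z hz => (factor_le 𝔟 hG hθ0 hθ hz R x).2
    obtain ⟨h1, h2⟩ := hw (x y) (x y)
    obtain ⟨h3, h4⟩ := hpos (x y)
    have heq : nuR G 𝔟 θ (R + 1) p y x =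
        (𝔟.wp (x y) * P - 𝔟.wm (x y) * M) / (𝔟.wp (x y) * P + 𝔟.wm (x y) * M) := by
      have hZ' : zR G 𝔟 θ (R + 1) p y x = (𝔟.wp (x y) * P + 𝔟.wm (x y) * M) / 2 := rfl
      have hN' : nR G 𝔟 θ (R + 1) p y x = (𝔟.wp (x y) * P - 𝔟.wm (x y) * M) / 2 := rfl
      rw [nuR_eq_div, hZ', hN']
      have : 𝔟.wp (x y) * P + 𝔟.wm (x y) * M ≠ 0 := by positivity
      field_simp
    rw [heq]
    have hq0 : 0 ≤ 𝔟.hi / 𝔟.lo := by linarith
    refine abs_ratio_le (by positivity) (by positivity) hρ1 ?_ ?_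
    · calc 𝔟.wp (x y) * P ≤ (𝔟.hi / 𝔟.lo * 𝔟.wm (x y)) * (r ^ D * M) :=
            mul_le_mul h1 hPM hPpos.le (by positivity)
        _ = ρ * (𝔟.wm (x y) * M) := by rw [hρ]; ring
    · calc 𝔟.wm (x y) * M ≤ (𝔟.hi / 𝔟.lo * 𝔟.wp (x y)) * (r ^ D * P) :=
            mul_le_mul h2 hMP hMpos.le (by positivity)
        _ = ρ * (𝔟.wp (x y) * P) := by rw [hρ]; ring

end Bound

/-! ### Jensen at the two depths -/

variable (G) in
/-- `B_R = E^R √(1-ν²)` -/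
noncomputable def BBR (𝔟 : BlockData κ) (θ : ℝ) (R : ℕ) (p y : V) : ℝ :=
  EsR G 𝔟 θ R p y (fun x => Real.sqrt (1 - nuR G 𝔟 θ R p y x ^ 2))

variable (G) in
/-- `A_R = E^R √(1-(θν)²)` -/
noncomputable def AAR (𝔟 : BlockData κ) (θ : ℝ) (R : ℕ) (p y : V) : ℝ :=
  EsR G 𝔟 θ R p y (fun x => Real.sqrt (1 - (θ * nuR G 𝔟 θ R p y x) ^ 2))

omit [IsProbabilityMeasure κ] in
theorem Good.sqrt_one_sub {f : (V → E) → ℝ} (hf : Measurable f) :
    Good fun x => Real.sqrt (1 - f x ^ 2) :=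
  ⟨((measurable_const.sub (hf.pow_const 2))).sqrt, 1, fun x => by
    rw [abs_of_nonneg (Real.sqrt_nonneg _)]; exact sqrt_one_sub_le_one _⟩

section Jensen
variable (hG : RegTree G D) (hθ0 : 0 ≤ θ) (hθ : (D : ℝ) * θ ^ 2 ≤ 1)
include hG hθ0 hθ

theorem good_test {p y : V} (hpy : G.Adj p y) (R : ℕ) {F : ℝ → ℝ} (hF : Measurable F)
    (hb : ∀ c, 0 ≤ c → c < 1 → ∃ C, ∀ t, |t| ≤ c → |F t| ≤ C) :
    Good fun x => F (nuR G 𝔟 θ R p y x) := by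
  obtain ⟨c, hc0, hc1, hc⟩ := exists_nu_bound 𝔟 hG hθ0 hθ
  obtain ⟨C, hC⟩ := hb c hc0 hc1
  exact ⟨hF.comp (measurable_nuR 𝔟 hG hθ0 hθ hpy R), C, fun x => hC _ (hc R p y hpy x)⟩

theorem shallow_affine {p y : V} (hpy : G.Adj p y) {R R' : ℕ} (hRR' : R ≤ R') {F H : ℝ → ℝ}
    (hF : Measurable F) (hH : Measurable H)
    (hFb : ∀ c, 0 ≤ c → c < 1 → ∃ C, ∀ t, |t| ≤ c → |F t| ≤ C)
    (hHb : ∀ c, 0 ≤ c → c < 1 → ∃ C, ∀ t, |t| ≤ c → |H t| ≤ C) :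
    EsR G 𝔟 θ R' p y (fun x => F (nuR G 𝔟 θ R p y x) - H (nuR G 𝔟 θ R p y x) * nuR G 𝔟 θ R' p y x) =
      EsR G 𝔟 θ R p y (fun x => F (nuR G 𝔟 θ R p y x) - H (nuR G 𝔟 θ R p y x) * nuR G 𝔟 θ R p y x) := by
  have hg1 := good_test 𝔟 hG hθ0 hθ hpy R hF hFb
  have hg2 := good_test 𝔟 hG hθ0 hθ hpy R hH hHb
  have hν := good_nuR 𝔟 hG hθ0 hθ hpy R
  have hν' := good_nuR 𝔟 hG hθ0 hθ hpy R'
  have hdep1 : ∀ x x' : V → E, (∀ v ∈ sub G R p y, x v = x' v) →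
      F (nuR G 𝔟 θ R p y x) = F (nuR G 𝔟 θ R p y x') := fun x x' h => by
    rw [nuR_congr 𝔟 hG hpy h]
  have hdep2 : ∀ x x' : V → E, (∀ v ∈ sub G R p y, x v = x' v) →
      H (nuR G 𝔟 θ R p y x) = H (nuR G 𝔟 θ R p y x') := fun x x' h => by
    rw [nuR_congr 𝔟 hG hpy h]
  have s1 := (EsR_shallow 𝔟 hG hθ0 hθ hpy hRR' hg1.1 hg1.2 hdep1).1
  have s2 := (EsR_shallow 𝔟 hG hθ0 hθ hpy hRR' hg2.1 hg2.2 hdep2).2
  rw [EsR_sub 𝔟 hG hθ0 hθ hpy R' hg1 (hg2.mul hν'), EsR_sub 𝔟 hG hθ0 hθ hpy R hg1 (hg2.mul hν), s1]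
  congr 1
  simp only [mul_comm (H _)]
  exact s2

omit hG hθ0 hθ in
theorem measurable_sqrt_one_sub_sq (θ : ℝ) : Measurable fun t : ℝ => Real.sqrt (1 - (θ * t) ^ 2) := by
  fun_prop

omit hG hθ0 hθ in
theorem bound_inv_sqrt {θ c t : ℝ} (hθ1 : θ ^ 2 ≤ 1) (hc0 : 0 ≤ c) (hc1 : c < 1) (ht : |t| ≤ c) :
    1 / Real.sqrt (1 - (θ * t) ^ 2) ≤ 1 / Real.sqrt (1 - c ^ 2) ∧ 0 < Real.sqrt (1 - c ^ 2) := by
  have hc2 : c ^ 2 < 1 := by nlinarith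
  have h0 : 0 < Real.sqrt (1 - c ^ 2) := Real.sqrt_pos.mpr (by linarith)
  refine ⟨?_, h0⟩
  have ht2 : t ^ 2 ≤ c ^ 2 := sq_le_sq' (by linarith [abs_le.mp ht]) (abs_le.mp ht).2
  have : (θ * t) ^ 2 ≤ c ^ 2 := by
    rw [mul_pow]; nlinarith [sq_nonneg t, sq_nonneg θ]
  apply one_div_le_one_div_of_le h0
  exact Real.sqrt_le_sqrt (by linarith)

theorem good_tangent {p y : V} (hpy : G.Adj p y) (R R' : ℕ) {τ : ℝ} (hτ0 : 0 ≤ τ) (hτ1 : τ ≤ 1) :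
    Good fun x => 1 / Real.sqrt (1 - (τ * nuR G 𝔟 θ R p y x) ^ 2) -
      τ ^ 2 * nuR G 𝔟 θ R p y x / Real.sqrt (1 - (τ * nuR G 𝔟 θ R p y x) ^ 2) *
        nuR G 𝔟 θ R' p y x := by
  have hτ2 : τ ^ 2 ≤ 1 := by nlinarith
  obtain ⟨c, hc0, hc1, hc⟩ := exists_nu_bound 𝔟 hG hθ0 hθ
  have hF : Good fun x => 1 / Real.sqrt (1 - (τ * nuR G 𝔟 θ R p y x) ^ 2) := by
    refine good_test 𝔟 hG hθ0 hθ hpy R (F := fun t => 1 / Real.sqrt (1 - (τ * t) ^ 2)) (by fun_prop) ?_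
    intro c hc0 hc1
    refine ⟨1 / Real.sqrt (1 - c ^ 2), fun t ht => ?_⟩
    obtain ⟨h1, h2⟩ := bound_inv_sqrt hτ2 hc0 hc1 ht
    rwa [abs_of_nonneg (by positivity)]
  have hH : Good fun x => τ ^ 2 * nuR G 𝔟 θ R p y x / Real.sqrt (1 - (τ * nuR G 𝔟 θ R p y x) ^ 2) := by
    refine good_test 𝔟 hG hθ0 hθ hpy R (F := fun t => τ ^ 2 * t / Real.sqrt (1 - (τ * t) ^ 2))
      (by fun_prop) ?_
    intro c hc0 hc1
    refine ⟨1 / Real.sqrt (1 - c ^ 2), fun t ht => ?_⟩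
    obtain ⟨h1, h2⟩ := bound_inv_sqrt hτ2 hc0 hc1 ht
    have h3 : |τ ^ 2 * t| ≤ 1 := by
      rw [abs_mul, abs_of_nonneg (sq_nonneg τ)]
      have : |t| ≤ 1 := by linarith
      nlinarith [abs_nonneg t, sq_nonneg τ]
    rw [abs_div, abs_of_nonneg (Real.sqrt_nonneg _)]
    calc |τ ^ 2 * t| / Real.sqrt (1 - (τ * t) ^ 2) ≤ 1 / Real.sqrt (1 - (τ * t) ^ 2) := by gcongr
      _ ≤ _ := h1
  exact hF.sub (hH.mul (good_nuR 𝔟 hG hθ0 hθ hpy R'))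

theorem tangent_integral {p y : V} (hpy : G.Adj p y) {R R' : ℕ} (hRR' : R ≤ R') {τ : ℝ} (hτ0 : 0 ≤ τ)
    (hτ1 : τ ≤ 1) :
    EsR G 𝔟 θ R' p y (fun x => 1 / Real.sqrt (1 - (τ * nuR G 𝔟 θ R p y x) ^ 2) -
      τ ^ 2 * nuR G 𝔟 θ R p y x / Real.sqrt (1 - (τ * nuR G 𝔟 θ R p y x) ^ 2) * nuR G 𝔟 θ R' p y x) =
    EsR G 𝔟 θ R p y (fun x => Real.sqrt (1 - (τ * nuR G 𝔟 θ R p y x) ^ 2)) := by
  have hτ2 : τ ^ 2 ≤ 1 := by nlinarith
  have h := shallow_affine 𝔟 hG hθ0 hθ hpy hRR' (F := fun t => 1 / Real.sqrt (1 - (τ * t) ^ 2))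
    (H := fun t => τ ^ 2 * t / Real.sqrt (1 - (τ * t) ^ 2)) (by fun_prop) (by fun_prop)
    (fun c hc0 hc1 => ⟨1 / Real.sqrt (1 - c ^ 2), fun t ht => by
      obtain ⟨h1, h2⟩ := bound_inv_sqrt hτ2 hc0 hc1 ht
      rwa [abs_of_nonneg (by positivity)]⟩)
    (fun c hc0 hc1 => ⟨1 / Real.sqrt (1 - c ^ 2), fun t ht => by
      obtain ⟨h1, h2⟩ := bound_inv_sqrt hτ2 hc0 hc1 ht
      have h3 : |τ ^ 2 * t| ≤ 1 := by
        rw [abs_mul, abs_of_nonneg (sq_nonneg τ)]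
        have : |t| ≤ 1 := by linarith
        nlinarith [abs_nonneg t, sq_nonneg τ]
      rw [abs_div, abs_of_nonneg (Real.sqrt_nonneg _)]
      calc |τ ^ 2 * t| / Real.sqrt (1 - (τ * t) ^ 2) ≤ 1 / Real.sqrt (1 - (τ * t) ^ 2) := by gcongr
        _ ≤ _ := h1⟩)
  refine h.trans ?_
  simp only [EsR]
  congr 1
  ext x
  congr 1
  have hν := abs_mul_lt_one hτ0 hτ1 (abs_nuR_lt 𝔟 hG hθ0 hθ hpy R x)
  have h1 := sqrt_one_sub_pos hν
  have h2 := sqrt_one_sub_sq hν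
  set w := Real.sqrt (1 - (τ * nuR G 𝔟 θ R p y x) ^ 2)
  field_simp
  nlinarith [h2]

theorem tangent_integral_one {p y : V} (hpy : G.Adj p y) {R R' : ℕ} (hRR' : R ≤ R') :
    EsR G 𝔟 θ R' p y (fun x => 1 / Real.sqrt (1 - nuR G 𝔟 θ R p y x ^ 2) -
      nuR G 𝔟 θ R p y x / Real.sqrt (1 - nuR G 𝔟 θ R p y x ^ 2) * nuR G 𝔟 θ R' p y x) =
    BBR G 𝔟 θ R p y := by
  have h := tangent_integral 𝔟 hG hθ0 hθ hpy hRR' (τ := 1) zero_le_one le_rfl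
  simpa only [one_mul, one_pow, BBR] using h

theorem good_tangent_one {p y : V} (hpy : G.Adj p y) (R R' : ℕ) :
    Good fun x => 1 / Real.sqrt (1 - nuR G 𝔟 θ R p y x ^ 2) -
      nuR G 𝔟 θ R p y x / Real.sqrt (1 - nuR G 𝔟 θ R p y x ^ 2) * nuR G 𝔟 θ R' p y x := by
  have h := good_tangent 𝔟 hG hθ0 hθ hpy R R' (τ := 1) zero_le_one le_rfl
  simpa only [one_mul, one_pow] using h

theorem good_sqrt_nu {p y : V} (hpy : G.Adj p y) (R : ℕ) :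
    Good fun x => Real.sqrt (1 - nuR G 𝔟 θ R p y x ^ 2) :=
  Good.sqrt_one_sub (measurable_nuR 𝔟 hG hθ0 hθ hpy R)

theorem good_sqrt_theta_nu {p y : V} (hpy : G.Adj p y) (R : ℕ) :
    Good fun x => Real.sqrt (1 - (θ * nuR G 𝔟 θ R p y x) ^ 2) :=
  Good.sqrt_one_sub ((measurable_nuR 𝔟 hG hθ0 hθ hpy R).const_mul θ)

theorem BBR_nonneg {p y : V} (hpy : G.Adj p y) (R : ℕ) : 0 ≤ BBR G 𝔟 θ R p y := by
  have := EsR_mono 𝔟 hG hθ0 hθ hpy R (f := fun _ => 0) (Good.const 0) (good_sqrt_nu 𝔟 hG hθ0 hθ hpy R)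
    (fun x => Real.sqrt_nonneg _)
  rwa [EsR_const 𝔟 hG hθ0 hθ hpy R] at this

theorem BBR_le_one {p y : V} (hpy : G.Adj p y) (R : ℕ) : BBR G 𝔟 θ R p y ≤ 1 := by
  have := EsR_mono 𝔟 hG hθ0 hθ hpy R (g := fun _ => 1) (good_sqrt_nu 𝔟 hG hθ0 hθ hpy R) (Good.const 1)
    (fun x => sqrt_one_sub_le_one _)
  rwa [EsR_const 𝔟 hG hθ0 hθ hpy R] at this

theorem AAR_nonneg {p y : V} (hpy : G.Adj p y) (R : ℕ) : 0 ≤ AAR G 𝔟 θ R p y := by
  have := EsR_mono 𝔟 hG hθ0 hθ hpy R (f := fun _ => 0) (Good.const 0)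
    (good_sqrt_theta_nu 𝔟 hG hθ0 hθ hpy R) (fun x => Real.sqrt_nonneg _)
  rwa [EsR_const 𝔟 hG hθ0 hθ hpy R] at this

theorem AAR_le_one {p y : V} (hpy : G.Adj p y) (R : ℕ) : AAR G 𝔟 θ R p y ≤ 1 := by
  have := EsR_mono 𝔟 hG hθ0 hθ hpy R (g := fun _ => 1) (good_sqrt_theta_nu 𝔟 hG hθ0 hθ hpy R)
    (Good.const 1) (fun x => sqrt_one_sub_le_one _)
  rwa [EsR_const 𝔟 hG hθ0 hθ hpy R] at this

theorem good_diff {p y : V} (hpy : G.Adj p y) (R R' : ℕ) :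
    Good fun x => nuR G 𝔟 θ R' p y x - nuR G 𝔟 θ R p y x :=
  (good_nuR 𝔟 hG hθ0 hθ hpy R').sub (good_nuR 𝔟 hG hθ0 hθ hpy R)

/-- (a) The strong Jensen inequality. -/
theorem bhatt_jensen {p y : V} (hpy : G.Adj p y) {R R' : ℕ} (hRR' : R ≤ R') :
    BBR G 𝔟 θ R' p y + (1 / 2) * EsR G 𝔟 θ R' p y (fun x => (nuR G 𝔟 θ R' p y x - nuR G 𝔟 θ R p y x) ^ 2) ≤
      BBR G 𝔟 θ R p y := by
  have hd := (good_diff 𝔟 hG hθ0 hθ hpy R R').sq
  have h := EsR_mono 𝔟 hG hθ0 hθ hpy R'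
    (f := fun x => Real.sqrt (1 - nuR G 𝔟 θ R' p y x ^ 2) +
      (1 / 2) * (nuR G 𝔟 θ R' p y x - nuR G 𝔟 θ R p y x) ^ 2)
    ((good_sqrt_nu 𝔟 hG hθ0 hθ hpy R').add ((Good.const (1 / 2)).mul hd))
    (good_tangent_one 𝔟 hG hθ0 hθ hpy R R')
    (fun x => by
      have := tangent_sqrt (abs_nuR_lt 𝔟 hG hθ0 hθ hpy R x) (abs_nuR_lt 𝔟 hG hθ0 hθ hpy R' x)
      linarith)
  rw [tangent_integral_one 𝔟 hG hθ0 hθ hpy hRR',
    EsR_add 𝔟 hG hθ0 hθ hpy R' (good_sqrt_nu 𝔟 hG hθ0 hθ hpy R') ((Good.const (1 / 2)).mul hd),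
    EsR_const_mul] at h
  exact h

/-- (b) `A` is monotone. -/
theorem AAR_anti {p y : V} (hpy : G.Adj p y) {R R' : ℕ} (hRR' : R ≤ R') :
    AAR G 𝔟 θ R' p y ≤ AAR G 𝔟 θ R p y := by
  have hθ1 := (theta_lt_one hG hθ0 hθ).le
  have h := EsR_mono 𝔟 hG hθ0 hθ hpy R'
    (good_sqrt_theta_nu 𝔟 hG hθ0 hθ hpy R') (good_tangent 𝔟 hG hθ0 hθ hpy R R' hθ0 hθ1)
    (fun x => tangent_theta hθ0 hθ1 (abs_nuR_lt 𝔟 hG hθ0 hθ hpy R x) (abs_nuR_lt 𝔟 hG hθ0 hθ hpy R' x))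
  rw [tangent_integral 𝔟 hG hθ0 hθ hpy hRR' hθ0 hθ1] at h
  exact h

/-- (c) The comparison of the decrements. -/
theorem AAR_sub_le {p y : V} (hpy : G.Adj p y) {R R' : ℕ} (hRR' : R ≤ R') :
    AAR G 𝔟 θ R p y - AAR G 𝔟 θ R' p y ≤ θ ^ 2 * (BBR G 𝔟 θ R p y - BBR G 𝔟 θ R' p y) := by
  have hθ1 := (theta_lt_one hG hθ0 hθ).le
  have g1 := good_tangent 𝔟 hG hθ0 hθ hpy R R' hθ0 hθ1
  have g2 := good_tangent_one 𝔟 hG hθ0 hθ hpy R R'
  have g3 := good_sqrt_theta_nu 𝔟 hG hθ0 hθ hpy R'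
  have g4 := good_sqrt_nu 𝔟 hG hθ0 hθ hpy R'
  have h := EsR_mono 𝔟 hG hθ0 hθ hpy R' (g1.sub g3) ((Good.const (θ ^ 2)).mul (g2.sub g4))
    (fun x => tangent_compare hθ0 hθ1 (abs_nuR_lt 𝔟 hG hθ0 hθ hpy R x) (abs_nuR_lt 𝔟 hG hθ0 hθ hpy R' x))
  rw [EsR_const_mul, EsR_sub 𝔟 hG hθ0 hθ hpy R' g1 g3, EsR_sub 𝔟 hG hθ0 hθ hpy R' g2 g4,
    tangent_integral 𝔟 hG hθ0 hθ hpy hRR' hθ0 hθ1, tangent_integral_one 𝔟 hG hθ0 hθ hpy hRR'] at h
  exact h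

theorem lam_nonneg' : 0 ≤ 𝔟.lam := integral_nonneg fun e => Real.sqrt_nonneg _

theorem exists_child {p y : V} (hpy : G.Adj p y) : ∃ z, z ∈ ch G p y := by
  have h := hG.card_ch hpy
  have h2 := hG.two_le
  have : (ch G p y).Nonempty := by
    rw [← Finset.card_pos]; omega
  exact this

/-- The decrement of `B_R`. -/
theorem BBR_step (R : ℕ) : ∀ {p y : V}, G.Adj p y → BBR G 𝔟 θ R p y - BBR G 𝔟 θ (R + 1) p y ≤ 𝔟.lam ^ R := by
  have hΛ := lam_nonneg' 𝔟 hG hθ0 hθ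
  induction R with
  | zero =>
    intro p y hpy
    have h1 := BBR_le_one 𝔟 hG hθ0 hθ hpy 0
    have h2 := BBR_nonneg 𝔟 hG hθ0 hθ hpy 1
    simp only [pow_zero, zero_add]
    linarith
  | succ R ih =>
    intro p y hpy
    obtain ⟨z, hz⟩ := exists_child hG hθ0 hθ hpy
    have hyz := adj_of_mem_ch hz
    have e1 : BBR G 𝔟 θ (R + 1) p y = 𝔟.lam * AAR G 𝔟 θ R y z ^ D :=
      bhatt_recursion 𝔟 hG hθ0 hθ hpy hz R
    have e2 : BBR G 𝔟 θ (R + 1 + 1) p y = 𝔟.lam * AAR G 𝔟 θ (R + 1) y z ^ D :=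
      bhatt_recursion 𝔟 hG hθ0 hθ hpy hz (R + 1)
    rw [e1, e2]
    have h1 := pow_sub_pow_le (AAR_nonneg 𝔟 hG hθ0 hθ hyz (R + 1))
      (AAR_anti 𝔟 hG hθ0 hθ hyz (Nat.le_succ R)) (AAR_le_one 𝔟 hG hθ0 hθ hyz R) D
    have h2 := AAR_sub_le 𝔟 hG hθ0 hθ hyz (Nat.le_succ R)
    have h3 := ih hyz
    have h4 : 0 ≤ BBR G 𝔟 θ R y z - BBR G 𝔟 θ (R + 1) y z := by
      have := bhatt_jensen 𝔟 hG hθ0 hθ hyz (Nat.le_succ R)
      have h5 := EsR_mono 𝔟 hG hθ0 hθ hyz (R + 1) (f := fun _ => 0) (Good.const 0)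
        ((good_diff 𝔟 hG hθ0 hθ hyz R (R + 1)).sq) (fun x => sq_nonneg _)
      rw [EsR_const 𝔟 hG hθ0 hθ hyz] at h5
      linarith
    have hD0 : (0 : ℝ) ≤ D := Nat.cast_nonneg _
    have h6 : AAR G 𝔟 θ R y z ^ D - AAR G 𝔟 θ (R + 1) y z ^ D ≤ 𝔟.lam ^ R := by
      calc AAR G 𝔟 θ R y z ^ D - AAR G 𝔟 θ (R + 1) y z ^ D
          ≤ D * (AAR G 𝔟 θ R y z - AAR G 𝔟 θ (R + 1) y z) := h1
        _ ≤ D * (θ ^ 2 * (BBR G 𝔟 θ R y z - BBR G 𝔟 θ (R + 1) y z)) := by gcongr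
        _ = (D * θ ^ 2) * (BBR G 𝔟 θ R y z - BBR G 𝔟 θ (R + 1) y z) := by ring
        _ ≤ 1 * (BBR G 𝔟 θ R y z - BBR G 𝔟 θ (R + 1) y z) := by gcongr
        _ ≤ 𝔟.lam ^ R := by linarith
    calc 𝔟.lam * AAR G 𝔟 θ R y z ^ D - 𝔟.lam * AAR G 𝔟 θ (R + 1) y z ^ D
        = 𝔟.lam * (AAR G 𝔟 θ R y z ^ D - AAR G 𝔟 θ (R + 1) y z ^ D) := by ring
      _ ≤ 𝔟.lam * 𝔟.lam ^ R := by gcongr
      _ = 𝔟.lam ^ (R + 1) := by ring

theorem BBR_telescope (hlam : 𝔟.lam < 1) {p y : V} (hpy : G.Adj p y) {R R' : ℕ} (hRR' : R ≤ R') :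
    BBR G 𝔟 θ R p y - BBR G 𝔟 θ R' p y ≤ 𝔟.lam ^ R / (1 - 𝔟.lam) := by
  have hΛ := lam_nonneg' 𝔟 hG hθ0 hθ
  have hd : 0 < 1 - 𝔟.lam := by linarith
  obtain ⟨k, rfl⟩ := Nat.exists_eq_add_of_le hRR'
  have key : BBR G 𝔟 θ R p y - BBR G 𝔟 θ (R + k) p y ≤ 𝔟.lam ^ R * (1 - 𝔟.lam ^ k) / (1 - 𝔟.lam) := by
    induction k with
    | zero => simp
    | succ k ih =>
      have h1 := BBR_step 𝔟 hG hθ0 hθ (R + k) hpy
      have h2 := ih (Nat.le_add_right R k)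
      rw [le_div_iff₀ hd] at h2 ⊢
      have h3 : BBR G 𝔟 θ R p y - BBR G 𝔟 θ (R + (k + 1)) p y =
          (BBR G 𝔟 θ R p y - BBR G 𝔟 θ (R + k) p y) + (BBR G 𝔟 θ (R + k) p y - BBR G 𝔟 θ (R + k + 1) p y) := by
        rw [← add_assoc]; ring
      rw [h3]
      have h4 := mul_le_mul_of_nonneg_right h1 hd.le
      calc ((BBR G 𝔟 θ R p y - BBR G 𝔟 θ (R + k) p y) + (BBR G 𝔟 θ (R + k) p y - BBR G 𝔟 θ (R + k + 1) p y)) * (1 - 𝔟.lam)
          = (BBR G 𝔟 θ R p y - BBR G 𝔟 θ (R + k) p y) * (1 - 𝔟.lam) +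
            (BBR G 𝔟 θ (R + k) p y - BBR G 𝔟 θ (R + k + 1) p y) * (1 - 𝔟.lam) := by ring
        _ ≤ 𝔟.lam ^ R * (1 - 𝔟.lam ^ k) + 𝔟.lam ^ (R + k) * (1 - 𝔟.lam) := add_le_add h2 h4
        _ = 𝔟.lam ^ R * (1 - 𝔟.lam ^ (k + 1)) := by ring
  refine key.trans ?_
  apply div_le_div_of_nonneg_right _ hd.le
  have h1 : 0 ≤ 𝔟.lam ^ R := pow_nonneg hΛ R
  have h2 : 0 ≤ 𝔟.lam ^ k := pow_nonneg hΛ k
  nlinarith

/-- The `L²` distance of `ν^R` and `ν^{R'}` -/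
theorem nu_sq_bound (hlam : 𝔟.lam < 1) {p y : V} (hpy : G.Adj p y) {R R' : ℕ} (hRR' : R ≤ R') :
    EsR G 𝔟 θ R' p y (fun x => (nuR G 𝔟 θ R' p y x - nuR G 𝔟 θ R p y x) ^ 2) ≤
      2 * 𝔟.lam ^ R / (1 - 𝔟.lam) := by
  have h1 := bhatt_jensen 𝔟 hG hθ0 hθ hpy hRR'
  have h2 := BBR_telescope 𝔟 hG hθ0 hθ hlam hpy hRR'
  have h3 : 2 * 𝔟.lam ^ R / (1 - 𝔟.lam) = 2 * (𝔟.lam ^ R / (1 - 𝔟.lam)) := by ring
  rw [h3]
  linarith

theorem nu_abs_bound (hlam : 𝔟.lam < 1) {p y : V} (hpy : G.Adj p y) {R R' : ℕ} (hRR' : R ≤ R') :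
    EsR G 𝔟 θ R' p y (fun x => |nuR G 𝔟 θ R' p y x - nuR G 𝔟 θ R p y x|) ≤
      Real.sqrt (2 * 𝔟.lam ^ R / (1 - 𝔟.lam)) :=
  (EsR_abs_le_sqrt 𝔟 hG hθ0 hθ hpy R' (good_diff 𝔟 hG hθ0 hθ hpy R R')).trans
    (Real.sqrt_le_sqrt (nu_sq_bound 𝔟 hG hθ0 hθ hlam hpy hRR'))

end Jensen

/-! ### Level sums -/

omit [IsProbabilityMeasure κ] in
theorem measurable_bTheta (θ : ℝ) : Measurable (bTheta θ) := by
  unfold bTheta
  fun_prop

section Level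
variable (hG : RegTree G D) (hθ0 : 0 ≤ θ) (hθ : (D : ℝ) * θ ^ 2 ≤ 1)
include hG hθ0 hθ

theorem SR_bounds (r : ℕ) : ∀ (R : ℕ) {p y : V}, G.Adj p y → ∀ x : V → E,
    0 ≤ SR G 𝔟 θ r R p y x ∧ SR G 𝔟 θ r R p y x ≤ 1 := by
  have hθ2 := theta_sq_le_half hG hθ0 hθ
  induction r with
  | zero => intro R p y _ x; rw [SR_zero_left]; norm_num
  | succ r ih =>
    intro R p y hpy x
    cases R with
    | zero => rw [SR_succ_zero]; norm_num
    | succ R =>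
      rw [SR_succ_succ]
      constructor
      · exact Finset.sum_nonneg fun z hz =>
          mul_nonneg (sq_nonneg _) (ih R (adj_of_mem_ch hz) x).1
      · calc ∑ z ∈ ch G p y, bTheta θ (nuR G 𝔟 θ R y z x) ^ 2 * SR G 𝔟 θ r R y z x
            ≤ ∑ z ∈ ch G p y, θ ^ 2 := by
              refine Finset.sum_le_sum fun z hz => ?_
              have hb := bTheta_sq_le hθ2 (abs_nuR_lt 𝔟 hG hθ0 hθ (adj_of_mem_ch hz) R x)
              obtain ⟨h1, h2⟩ := ih R (adj_of_mem_ch hz) x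
              calc _ ≤ θ ^ 2 * 1 := mul_le_mul hb h2 h1 (sq_nonneg _)
                _ = θ ^ 2 := mul_one _
          _ = D * θ ^ 2 := by
              rw [Finset.sum_const, hG.card_ch hpy, nsmul_eq_mul]
          _ ≤ 1 := hθ

theorem measurable_SR (r : ℕ) : ∀ (R : ℕ) {p y : V}, G.Adj p y → Measurable (SR G 𝔟 θ r R p y) := by
  induction r with
  | zero =>
    intro R p y _
    have : SR G 𝔟 θ 0 R p y = fun _ => 1 := rfl
    rw [this]; exact measurable_const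
  | succ r ih =>
    intro R p y hpy
    cases R with
    | zero =>
      have : SR G 𝔟 θ (r + 1) 0 p y = fun _ => 0 := rfl
      rw [this]; exact measurable_const
    | succ R =>
      have : SR G 𝔟 θ (r + 1) (R + 1) p y =
          fun x => ∑ z ∈ ch G p y, bTheta θ (nuR G 𝔟 θ R y z x) ^ 2 * SR G 𝔟 θ r R y z x := rfl
      rw [this]
      refine Finset.measurable_fun_sum _ fun z hz => ?_
      exact (((measurable_bTheta θ).comp (measurable_nuR 𝔟 hG hθ0 hθ (adj_of_mem_ch hz) R)).pow_const 2).mul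
        (ih R (adj_of_mem_ch hz))

theorem good_SR {p y : V} (hpy : G.Adj p y) (r R : ℕ) : Good (SR G 𝔟 θ r R p y) :=
  ⟨measurable_SR 𝔟 hG hθ0 hθ r R hpy, 1, fun x => by
    obtain ⟨h1, h2⟩ := SR_bounds 𝔟 hG hθ0 hθ r R hpy x
    rwa [abs_of_nonneg h1]⟩

/-- The tower property for one child. -/
theorem EsR_child {p y z : V} (hpy : G.Adj p y) (hz : z ∈ ch G p y) (R : ℕ) {f : (V → E) → ℝ}
    (hf : Good f) (hdep : ∀ x x' : V → E, (∀ v ∈ sub G R y z, x v = x' v) → f x = f x')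
    (heven : ∀ x, f (𝔟.swap ∘ x) = f x) :
    EsR G 𝔟 θ (R + 1) p y f = EsR G 𝔟 θ R y z f := by
  obtain ⟨hf1, C, hC⟩ := hf
  have h := EsR_prod_children 𝔟 hG hθ0 hθ hpy R
    (fun z' => if z' = z then f else fun _ => 1)
    (fun z' => by
      by_cases h : z' = z
      · simpa [h] using hf1
      · simpa [h] using measurable_const)
    ⟨max C 1, fun z' x => by
      by_cases h : z' = z
      · simpa [h] using Or.inl (hC x)
      · simp [h]⟩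
    (fun z' _ x x' hxx' => by
      by_cases h : z' = z
      · subst h; simpa using hdep x x' hxx'
      · simp [h])
    (fun z' _ x => by
      by_cases h : z' = z
      · subst h; simpa using heven x
      · simp [h])
  have h1 : (fun x => ∏ z' ∈ ch G p y, (if z' = z then f else fun _ => (1 : ℝ)) x) = f := by
    ext x
    rw [Finset.prod_eq_single z]
    · simp
    · intro b _ hb; simp [hb]
    · intro h; exact absurd hz h
  rw [h1] at h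
  rw [h, Finset.prod_eq_single z]
  · simp
  · intro b hb hbz
    simp only [hbz, if_false]
    exact EsR_const 𝔟 hG hθ0 hθ (adj_of_mem_ch hb) R 1
  · intro h; exact absurd hz h

/-- The main induction: `L¹` distance of the level sums. -/
theorem S_diff_bound (hlam : 𝔟.lam < 1) (r : ℕ) : ∀ (R R' : ℕ), R ≤ R' → r ≤ R → ∀ {p y : V}, G.Adj p y →
    EsR G 𝔟 θ R' p y (fun x => |SR G 𝔟 θ r R' p y x - SR G 𝔟 θ r R p y x|) ≤
      8 * r * Real.sqrt (2 * 𝔟.lam ^ (R - r) / (1 - 𝔟.lam)) := by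
  have hθ2 := theta_sq_le_half hG hθ0 hθ
  have hΛ := lam_nonneg' 𝔟 hG hθ0 hθ
  have hd : 0 < 1 - 𝔟.lam := by linarith
  induction r with
  | zero =>
    intro R R' _ _ p y hpy
    simp only [SR_zero_left, sub_self, abs_zero, Nat.cast_zero, mul_zero, zero_mul]
    exact (EsR_const 𝔟 hG hθ0 hθ hpy R' 0).le
  | succ r ih =>
    intro R R' hRR' hr p y hpy
    obtain ⟨R, rfl⟩ : ∃ R₀, R = R₀ + 1 := ⟨R - 1, by omega⟩
    obtain ⟨R', rfl⟩ : ∃ R₀, R' = R₀ + 1 := ⟨R' - 1, by omega⟩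
    have hRR : R ≤ R' := by omega
    have hrR : r ≤ R := by omega
    rw [Nat.add_sub_add_right]
    set ε := Real.sqrt (2 * 𝔟.lam ^ (R - r) / (1 - 𝔟.lam)) with hε
    have hε0 : 0 ≤ ε := Real.sqrt_nonneg _
    have hε1 : Real.sqrt (2 * 𝔟.lam ^ R / (1 - 𝔟.lam)) ≤ ε := by
      apply Real.sqrt_le_sqrt
      apply div_le_div_of_nonneg_right _ hd.le
      have : 𝔟.lam ^ R ≤ 𝔟.lam ^ (R - r) := pow_le_pow_of_le_one hΛ hlam.le (Nat.sub_le _ _)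
      linarith
    -- test functions
    set f : V → (V → E) → ℝ := fun z x =>
      8 * θ ^ 2 * |nuR G 𝔟 θ R' y z x - nuR G 𝔟 θ R y z x| +
        θ ^ 2 * |SR G 𝔟 θ r R' y z x - SR G 𝔟 θ r R y z x| with hf
    have hgoodν : ∀ z ∈ ch G p y, Good fun x => |nuR G 𝔟 θ R' y z x - nuR G 𝔟 θ R y z x| :=
      fun z hz => (good_diff 𝔟 hG hθ0 hθ (adj_of_mem_ch hz) R R').abs
    have hgoodS : ∀ z ∈ ch G p y, Good fun x => |SR G 𝔟 θ r R' y z x - SR G 𝔟 θ r R y z x| :=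
      fun z hz => ((good_SR 𝔟 hG hθ0 hθ (adj_of_mem_ch hz) r R').sub
        (good_SR 𝔟 hG hθ0 hθ (adj_of_mem_ch hz) r R)).abs
    have hgoodf : ∀ z ∈ ch G p y, Good (f z) := fun z hz =>
      ((Good.const _).mul (hgoodν z hz)).add ((Good.const _).mul (hgoodS z hz))
    have hpt : ∀ x, |SR G 𝔟 θ (r + 1) (R' + 1) p y x - SR G 𝔟 θ (r + 1) (R + 1) p y x| ≤
        ∑ z ∈ ch G p y, f z x := by
      intro x
      rw [SR_succ_succ, SR_succ_succ, ← Finset.sum_sub_distrib]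
      refine (Finset.abs_sum_le_sum_abs _ _).trans (Finset.sum_le_sum fun z hz => ?_)
      have hyz := adj_of_mem_ch hz
      have hb := bTheta_sq_lipschitz hθ2 (abs_nuR_lt 𝔟 hG hθ0 hθ hyz R' x) (abs_nuR_lt 𝔟 hG hθ0 hθ hyz R x)
      have hb' := bTheta_sq_le hθ2 (abs_nuR_lt 𝔟 hG hθ0 hθ hyz R x)
      obtain ⟨h1, h2⟩ := SR_bounds 𝔟 hG hθ0 hθ r R' hyz x
      set a' := bTheta θ (nuR G 𝔟 θ R' y z x) ^ 2
      set a := bTheta θ (nuR G 𝔟 θ R y z x) ^ 2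
      set s' := SR G 𝔟 θ r R' y z x
      set s := SR G 𝔟 θ r R y z x
      have ha0 : 0 ≤ a := sq_nonneg _
      have e : a' * s' - a * s = (a' - a) * s' + a * (s' - s) := by ring
      rw [e]
      refine (abs_add_le _ _).trans (add_le_add ?_ ?_)
      · rw [abs_mul, abs_of_nonneg h1]
        calc |a' - a| * s' ≤ |a' - a| * 1 := by gcongr
          _ ≤ _ := by simpa using hb
      · rw [abs_mul, abs_of_nonneg ha0]
        gcongr
    have hkey : EsR G 𝔟 θ (R' + 1) p y (fun x => ∑ z ∈ ch G p y, f z x) =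
        ∑ z ∈ ch G p y, (8 * θ ^ 2 * EsR G 𝔟 θ R' y z (fun x => |nuR G 𝔟 θ R' y z x - nuR G 𝔟 θ R y z x|) +
          θ ^ 2 * EsR G 𝔟 θ R' y z (fun x => |SR G 𝔟 θ r R' y z x - SR G 𝔟 θ r R y z x|)) := by
      rw [EsR_sum 𝔟 hG hθ0 hθ hpy (R' + 1) _ hgoodf]
      refine Finset.sum_congr rfl fun z hz => ?_
      have hyz := adj_of_mem_ch hz
      have hdep : ∀ x x' : V → E, (∀ v ∈ sub G R' y z, x v = x' v) → f z x = f z x' := by
        intro x x' h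
        have h' : ∀ v ∈ sub G R y z, x v = x' v := fun v hv => h v (sub_mono hRR hv)
        simp only [hf]
        rw [nuR_congr 𝔟 hG hyz h, nuR_congr 𝔟 hG hyz h', SR_congr 𝔟 hG hyz h, SR_congr 𝔟 hG hyz h']
      have heven : ∀ x, f z (𝔟.swap ∘ x) = f z x := by
        intro x
        simp only [hf]
        rw [nuR_swap, nuR_swap, SR_swap, SR_swap]
        have : -nuR G 𝔟 θ R' y z x - -nuR G 𝔟 θ R y z x = -(nuR G 𝔟 θ R' y z x - nuR G 𝔟 θ R y z x) := by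
          ring
        rw [this, abs_neg]
      rw [EsR_child 𝔟 hG hθ0 hθ hpy hz R' (hgoodf z hz) hdep heven]
      simp only [hf]
      rw [EsR_add 𝔟 hG hθ0 hθ hyz R' ((Good.const _).mul (hgoodν z hz)) ((Good.const _).mul (hgoodS z hz)),
        EsR_const_mul, EsR_const_mul]
    have hmono := EsR_mono 𝔟 hG hθ0 hθ hpy (R' + 1)
      (((good_SR 𝔟 hG hθ0 hθ hpy (r + 1) (R' + 1)).sub (good_SR 𝔟 hG hθ0 hθ hpy (r + 1) (R + 1))).abs)
      (Good.sum _ hgoodf) hpt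
    rw [hkey] at hmono
    refine hmono.trans ?_
    have hterm : ∀ z ∈ ch G p y,
        8 * θ ^ 2 * EsR G 𝔟 θ R' y z (fun x => |nuR G 𝔟 θ R' y z x - nuR G 𝔟 θ R y z x|) +
          θ ^ 2 * EsR G 𝔟 θ R' y z (fun x => |SR G 𝔟 θ r R' y z x - SR G 𝔟 θ r R y z x|) ≤
        θ ^ 2 * (8 * (r + 1) * ε) := by
      intro z hz
      have hyz := adj_of_mem_ch hz
      have h1 := (nu_abs_bound 𝔟 hG hθ0 hθ hlam hyz hRR).trans hε1
      have h2 := ih R R' hRR hrR hyz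
      have ht : 0 ≤ θ ^ 2 := sq_nonneg θ
      have h3 := mul_le_mul_of_nonneg_left h1 (mul_nonneg (by norm_num : (0:ℝ) ≤ 8) ht)
      have h4 := mul_le_mul_of_nonneg_left h2 ht
      nlinarith
    refine (Finset.sum_le_sum hterm).trans ?_
    rw [Finset.sum_const, hG.card_ch hpy, nsmul_eq_mul]
    have h0 : 0 ≤ 8 * ((r : ℝ) + 1) * ε := by positivity
    push_cast
    calc (D : ℝ) * (θ ^ 2 * (8 * ((r : ℝ) + 1) * ε)) = (D * θ ^ 2) * (8 * ((r : ℝ) + 1) * ε) := by ring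
      _ ≤ 1 * (8 * ((r : ℝ) + 1) * ε) := by gcongr
      _ = 8 * ((r : ℝ) + 1) * ε := one_mul _

end Level

/-- (J8) uniform truncation: `E^R S_r` is Cauchy in `R`, uniformly in `θ`. -/
theorem _root_.Crest.Agent.Lib.IsingFIID.ES_truncation_proved (hG : RegTree G D) (hθ0 : 0 ≤ θ) (hθ : (D : ℝ) * θ ^ 2 ≤ 1)
    (hlam : 𝔟.lam < 1) {p y : V} (hpy : G.Adj p y) (r R R' : ℕ) (hRR' : R ≤ R') (hr : r ≤ R) :
    |EsR G 𝔟 θ R' p y (fun x => SR G 𝔟 θ r R' p y x) - EsR G 𝔟 θ R p y (fun x => SR G 𝔟 θ r R p y x)| ≤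
      (r + 1) * 16 * Real.sqrt (𝔟.lam ^ (R - r) / (1 - 𝔟.lam)) := by
  have hg := good_SR 𝔟 hG hθ0 hθ hpy r R
  have hg' := good_SR 𝔟 hG hθ0 hθ hpy r R'
  have hs := (EsR_shallow 𝔟 hG hθ0 hθ hpy hRR' hg.1 hg.2
    (fun x x' h => SR_congr 𝔟 hG hpy h)).1
  have e1 : EsR G 𝔟 θ R p y (fun x => SR G 𝔟 θ r R p y x) = EsR G 𝔟 θ R' p y (fun x => SR G 𝔟 θ r R p y x) :=
    hs.symm
  rw [e1, ← EsR_sub 𝔟 hG hθ0 hθ hpy R' hg' hg]
  refine (EsR_abs_le 𝔟 hG hθ0 hθ hpy R' (hg'.sub hg)).trans ?_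
  refine (S_diff_bound 𝔟 hG hθ0 hθ hlam r R R' hRR' hr hpy).trans ?_
  have e2 : 2 * 𝔟.lam ^ (R - r) / (1 - 𝔟.lam) = 2 * (𝔟.lam ^ (R - r) / (1 - 𝔟.lam)) := by ring
  rw [e2, Real.sqrt_mul (by norm_num : (0:ℝ) ≤ 2)]
  have h2 : Real.sqrt 2 ≤ 2 := by
    rw [Real.sqrt_le_left (by norm_num)]; norm_num
  have h3 := Real.sqrt_nonneg (𝔟.lam ^ (R - r) / (1 - 𝔟.lam))
  have h4 : (0 : ℝ) ≤ r := Nat.cast_nonneg _
  set w := Real.sqrt (𝔟.lam ^ (R - r) / (1 - 𝔟.lam))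
  calc 8 * (r : ℝ) * (Real.sqrt 2 * w) ≤ 8 * r * (2 * w) := by gcongr
    _ ≤ (r + 1) * 16 * w := by nlinarith

/-! ### Continuity at finite depth -/

section Continuity

omit [IsProbabilityMeasure κ] [MeasurableSpace E] in
theorem prod_bounds {ι : Type*} (s : Finset ι) (f : ι → ℝ) {a b : ℝ} (ha : 0 ≤ a)
    (h : ∀ i ∈ s, a ≤ f i ∧ f i ≤ b) : a ^ s.card ≤ ∏ i ∈ s, f i ∧ ∏ i ∈ s, f i ≤ b ^ s.card := by
  constructor
  · have : a ^ s.card = ∏ _i ∈ s, a := by rw [Finset.prod_const]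
    rw [this]
    exact Finset.prod_le_prod (fun _ _ => ha) fun i hi => (h i hi).1
  · have : b ^ s.card = ∏ _i ∈ s, b := by rw [Finset.prod_const]
    rw [this]
    exact Finset.prod_le_prod (fun i hi => ha.trans (h i hi).1) fun i hi => (h i hi).2

omit [IsProbabilityMeasure κ] [MeasurableSpace E] in
theorem prod_diff {ι : Type*} (s : Finset ι) (f g : ι → ℝ) {b ε : ℝ} (hb : 1 ≤ b) (hε : 0 ≤ ε)
    (hf : ∀ i ∈ s, 0 ≤ f i ∧ f i ≤ b) (hg : ∀ i ∈ s, 0 ≤ g i ∧ g i ≤ b)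
    (h : ∀ i ∈ s, |f i - g i| ≤ ε) :
    |∏ i ∈ s, f i - ∏ i ∈ s, g i| ≤ s.card * b ^ s.card * ε := by
  classical
  induction s using Finset.induction_on with
  | empty => simp
  | insert a s ha ih =>
    have ih' := ih (fun i hi => hf i (Finset.mem_insert_of_mem hi))
      (fun i hi => hg i (Finset.mem_insert_of_mem hi)) (fun i hi => h i (Finset.mem_insert_of_mem hi))
    rw [Finset.prod_insert ha, Finset.prod_insert ha, Finset.card_insert_of_notMem ha]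
    obtain ⟨h1, h2⟩ := hf a (Finset.mem_insert_self _ _)
    have h3 := h a (Finset.mem_insert_self _ _)
    obtain ⟨h4, h5⟩ := prod_bounds s g (a := 0) (b := b) le_rfl
      (fun i hi => hg i (Finset.mem_insert_of_mem hi))
    have h6 : 0 ≤ ∏ i ∈ s, g i := by
      rcases s.card.eq_zero_or_pos with h0 | h0
      · rw [Finset.card_eq_zero] at h0; simp [h0]
      · have := h4; rwa [zero_pow h0.ne'] at this
    have e : f a * ∏ i ∈ s, f i - g a * ∏ i ∈ s, g i =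
        f a * (∏ i ∈ s, f i - ∏ i ∈ s, g i) + (f a - g a) * ∏ i ∈ s, g i := by ring
    rw [e]
    refine (abs_add_le _ _).trans ?_
    rw [abs_mul, abs_mul, abs_of_nonneg h1, abs_of_nonneg h6]
    have hbp : 0 ≤ b ^ s.card := by positivity
    have hcard : (0 : ℝ) ≤ s.card := Nat.cast_nonneg _
    calc f a * |∏ i ∈ s, f i - ∏ i ∈ s, g i| + |f a - g a| * ∏ i ∈ s, g i
        ≤ b * (s.card * b ^ s.card * ε) + ε * b ^ s.card := by
          gcongr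
      _ ≤ b * (s.card * b ^ s.card * ε) + ε * b ^ (s.card + 1) := by
          have : b ^ s.card ≤ b ^ (s.card + 1) := pow_le_pow_right₀ hb (Nat.le_succ _)
          gcongr
      _ = ((s.card + 1 : ℕ) : ℝ) * b ^ (s.card + 1) * ε := by
          push_cast; ring

omit [IsProbabilityMeasure κ] [MeasurableSpace E] in
theorem abs_mul_sub_mul_le {a a' b b' K ε ε' : ℝ} (ha' : |a'| ≤ K) (hb : |b| ≤ K) (h1 : |a - a'| ≤ ε)
    (h2 : |b - b'| ≤ ε') : |a * b - a' * b'| ≤ K * ε + K * ε' := by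
  have e : a * b - a' * b' = (a - a') * b + a' * (b - b') := by ring
  rw [e]
  refine (abs_add_le _ _).trans (add_le_add ?_ ?_)
  · rw [abs_mul, mul_comm]
    exact mul_le_mul hb h1 (abs_nonneg _) ((abs_nonneg _).trans hb)
  · rw [abs_mul]
    exact mul_le_mul ha' h2 (abs_nonneg _) ((abs_nonneg _).trans ha')

/-- Bounds for `Z^R` uniform in the data. -/
theorem pair_bounds (D R : ℕ) (lo hi : ℝ) (hlo : 0 < lo) : ∃ K m : ℝ, 1 ≤ K ∧ 0 < m ∧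
    ∀ {V : Type u} {G : SimpleGraph V} [G.LocallyFinite] (_ : RegTree G D) {E : Type v} [MeasurableSpace E]
      {κ : Measure E} [IsProbabilityMeasure κ] (𝔟 : BlockData κ) {θ : ℝ} (_ : 0 ≤ θ)
      (_ : (D : ℝ) * θ ^ 2 ≤ 1) (_ : lo ≤ 𝔟.lo) (_ : 𝔟.hi ≤ hi) {p y : V} (_ : G.Adj p y) (x : V → E),
      m ≤ zR G 𝔟 θ R p y x ∧ zR G 𝔟 θ R p y x ≤ K := by
  induction R with
  | zero =>
    refine ⟨max hi 1, lo, le_max_right _ _, hlo, ?_⟩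
    intro V G _ hG E _ κ _ 𝔟 θ hθ0 hθ hl hh p y hpy x
    rw [zR_zero]
    have h1 := 𝔟.wp_ge (x y)
    have h2 := 𝔟.wm_ge (x y)
    have h3 := 𝔟.wp_le (x y)
    have h4 := 𝔟.wm_le (x y)
    have h5 := le_max_left hi 1
    constructor <;> linarith
  | succ R ih =>
    obtain ⟨K, m, hK, hm, ih⟩ := ih
    refine ⟨max (hi * (2 * K) ^ D) 1, lo * (m / 4) ^ D, le_max_right _ _, by positivity, ?_⟩
    intro V G _ hG E _ κ _ 𝔟 θ hθ0 hθ hl hh p y hpy x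
    have hθ2 := theta_sq_le_half hG hθ0 hθ
    have hθ3 : θ ≤ 3 / 4 := by nlinarith
    have hfac : ∀ z ∈ ch G p y,
        (m / 4 ≤ zR G 𝔟 θ R y z x + θ * nR G 𝔟 θ R y z x ∧ zR G 𝔟 θ R y z x + θ * nR G 𝔟 θ R y z x ≤ 2 * K) ∧
        (m / 4 ≤ zR G 𝔟 θ R y z x - θ * nR G 𝔟 θ R y z x ∧ zR G 𝔟 θ R y z x - θ * nR G 𝔟 θ R y z x ≤ 2 * K) := by
      intro z hz
      have hyz := adj_of_mem_ch hz
      obtain ⟨h1, h2⟩ := ih hG 𝔟 hθ0 hθ hl hh hyz x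
      have h3 := abs_lt.mp (abs_nR_lt 𝔟 hG hθ0 hθ hyz R x)
      set n := nR G 𝔟 θ R y z x
      set Z := zR G 𝔟 θ R y z x
      refine ⟨⟨?_, ?_⟩, ?_, ?_⟩ <;> nlinarith
    obtain ⟨hP1, hP2⟩ := prod_bounds (ch G p y) (fun z => zR G 𝔟 θ R y z x + θ * nR G 𝔟 θ R y z x)
      (a := m / 4) (b := 2 * K) (by positivity) fun z hz => (hfac z hz).1
    obtain ⟨hM1, hM2⟩ := prod_bounds (ch G p y) (fun z => zR G 𝔟 θ R y z x - θ * nR G 𝔟 θ R y z x)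
      (a := m / 4) (b := 2 * K) (by positivity) fun z hz => (hfac z hz).2
    rw [hG.card_ch hpy] at hP1 hP2 hM1 hM2
    rw [zR_succ]
    set P := ∏ z ∈ ch G p y, (zR G 𝔟 θ R y z x + θ * nR G 𝔟 θ R y z x)
    set M := ∏ z ∈ ch G p y, (zR G 𝔟 θ R y z x - θ * nR G 𝔟 θ R y z x)
    have h1 := (hl.trans (𝔟.wp_ge (x y)))
    have h2 := (hl.trans (𝔟.wm_ge (x y)))
    have h3 := ((𝔟.wp_le (x y)).trans hh)
    have h4 := ((𝔟.wm_le (x y)).trans hh)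
    have hq : 0 ≤ (m / 4) ^ D := by positivity
    have hP0 : 0 ≤ P := hq.trans hP1
    have hM0 : 0 ≤ M := hq.trans hM1
    have hb0 : 0 ≤ (2 * K) ^ D := by positivity
    constructor
    · have a1 : lo * (m / 4) ^ D ≤ 𝔟.wp (x y) * P := mul_le_mul h1 hP1 hq (by linarith)
      have a2 : lo * (m / 4) ^ D ≤ 𝔟.wm (x y) * M := mul_le_mul h2 hM1 hq (by linarith)
      linarith
    · have hhi0 : 0 ≤ hi := by linarith
      have a1 : 𝔟.wp (x y) * P ≤ hi * (2 * K) ^ D := mul_le_mul h3 hP2 hP0 hhi0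
      have a2 : 𝔟.wm (x y) * M ≤ hi * (2 * K) ^ D := mul_le_mul h4 hM2 hM0 hhi0
      have a3 := le_max_left (hi * (2 * K) ^ D) 1
      linarith

/-- Lipschitz in the data. -/
theorem pair_lipschitz (D R : ℕ) (lo hi : ℝ) (hlo : 0 < lo) : ∃ L : ℝ, 0 ≤ L ∧
    ∀ {V : Type u} {G : SimpleGraph V} [G.LocallyFinite] (_ : RegTree G D) {E : Type v} [MeasurableSpace E]
      {κ : Measure E} [IsProbabilityMeasure κ] (𝔟 𝔟' : BlockData κ) {θ θ' δ : ℝ} (_ : 0 ≤ θ) (_ : 0 ≤ θ')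
      (_ : (D : ℝ) * θ ^ 2 ≤ 1) (_ : (D : ℝ) * θ' ^ 2 ≤ 1)
      (_ : lo ≤ 𝔟.lo) (_ : 𝔟.hi ≤ hi) (_ : lo ≤ 𝔟'.lo) (_ : 𝔟'.hi ≤ hi)
      (_ : |θ - θ'| ≤ δ) (_ : ∀ e, |𝔟.wp e - 𝔟'.wp e| ≤ δ) (_ : ∀ e, |𝔟.wm e - 𝔟'.wm e| ≤ δ)
      {p y : V} (_ : G.Adj p y) (x : V → E),
      |zR G 𝔟 θ R p y x - zR G 𝔟' θ' R p y x| ≤ L * δ ∧ |nR G 𝔟 θ R p y x - nR G 𝔟' θ' R p y x| ≤ L * δ := by
  induction R with
  | zero =>
    refine ⟨1, zero_le_one, ?_⟩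
    intro V G _ hG E _ κ _ 𝔟 𝔟' θ θ' δ hθ0 hθ0' hθ hθ' hl hh hl' hh' hδ hδp hδm p y hpy x
    rw [zR_zero, zR_zero, nR_zero, nR_zero, one_mul]
    have h1 := abs_le.mp (hδp (x y))
    have h2 := abs_le.mp (hδm (x y))
    constructor <;> (rw [abs_le]; constructor <;> linarith [h1.1, h1.2, h2.1, h2.2])
  | succ R ih =>
    obtain ⟨L, hL, ih⟩ := ih
    obtain ⟨K, m, hK, hm, hbd⟩ := pair_bounds.{u, v} D R lo hi hlo
    set b := 2 * K with hb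
    have hb1 : 1 ≤ b := by rw [hb]; linarith
    set ε := (2 * L + K) with hε
    have hε0 : 0 ≤ ε := by rw [hε]; linarith
    set Q := (D : ℝ) * b ^ D * ε with hQ
    have hQ0 : 0 ≤ Q := by positivity
    set hh0 := max hi 0 with hhh0
    have hh00 : 0 ≤ hh0 := le_max_right _ _
    have hbD : 0 ≤ b ^ D := by positivity
    refine ⟨b ^ D + hh0 * Q, by positivity, ?_⟩
    intro V G _ hG E _ κ _ 𝔟 𝔟' θ θ' δ hθ0 hθ0' hθ hθ' hl hh hl' hh' hδ hδp hδm p y hpy x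
    have hδ0 : 0 ≤ δ := (abs_nonneg _).trans hδ
    have hθ2 := theta_sq_le_half hG hθ0 hθ
    have hθ2' := theta_sq_le_half hG hθ0' hθ'
    have hθ3 : θ ≤ 1 := by nlinarith
    have hθ3' : θ' ≤ 1 := by nlinarith
    have hfac : ∀ (𝔠 : BlockData κ) (τ : ℝ), 0 ≤ τ → (D : ℝ) * τ ^ 2 ≤ 1 → lo ≤ 𝔠.lo → 𝔠.hi ≤ hi →
        ∀ z ∈ ch G p y, (0 ≤ zR G 𝔠 τ R y z x + τ * nR G 𝔠 τ R y z x ∧ zR G 𝔠 τ R y z x + τ * nR G 𝔠 τ R y z x ≤ b) ∧
          (0 ≤ zR G 𝔠 τ R y z x - τ * nR G 𝔠 τ R y z x ∧ zR G 𝔠 τ R y z x - τ * nR G 𝔠 τ R y z x ≤ b) := by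
      intro 𝔠 τ hτ0 hτ hl1 hh1 z hz
      have hyz := adj_of_mem_ch hz
      obtain ⟨h1, h2⟩ := hbd hG 𝔠 hτ0 hτ hl1 hh1 hyz x
      have h3 := abs_lt.mp (abs_nR_lt 𝔠 hG hτ0 hτ hyz R x)
      have hτ2 := theta_sq_le_half hG hτ0 hτ
      have hτ3 : τ ≤ 1 := by nlinarith
      set n := nR G 𝔠 τ R y z x
      set Z := zR G 𝔠 τ R y z x
      refine ⟨⟨?_, ?_⟩, ?_, ?_⟩ <;> nlinarith
    have hdiff : ∀ z ∈ ch G p y,
        |(zR G 𝔟 θ R y z x + θ * nR G 𝔟 θ R y z x) - (zR G 𝔟' θ' R y z x + θ' * nR G 𝔟' θ' R y z x)| ≤ ε * δ ∧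
        |(zR G 𝔟 θ R y z x - θ * nR G 𝔟 θ R y z x) - (zR G 𝔟' θ' R y z x - θ' * nR G 𝔟' θ' R y z x)| ≤ ε * δ := by
      intro z hz
      have hyz := adj_of_mem_ch hz
      obtain ⟨h1, h2⟩ := ih hG 𝔟 𝔟' hθ0 hθ0' hθ hθ' hl hh hl' hh' hδ hδp hδm hyz x
      obtain ⟨h3, h4⟩ := hbd hG 𝔟' hθ0' hθ' hl' hh' hyz x
      have h5 := (abs_nR_lt 𝔟' hG hθ0' hθ' hyz R x).le
      set n := nR G 𝔟 θ R y z x
      set Z := zR G 𝔟 θ R y z x
      set n' := nR G 𝔟' θ' R y z x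
      set Z' := zR G 𝔟' θ' R y z x
      have e1 : θ * n - θ' * n' = θ * (n - n') + (θ - θ') * n' := by ring
      have h6 : |θ * n - θ' * n'| ≤ L * δ + K * δ := by
        rw [e1]
        refine (abs_add_le _ _).trans (add_le_add ?_ ?_)
        · rw [abs_mul, abs_of_nonneg hθ0]
          calc θ * |n - n'| ≤ 1 * (L * δ) := mul_le_mul hθ3 h2 (abs_nonneg _) zero_le_one
            _ = L * δ := one_mul _
        · rw [abs_mul, mul_comm]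
          exact mul_le_mul (h5.trans h4) hδ (abs_nonneg _) (by linarith)
      have h1' := abs_le.mp h1
      have h6' := abs_le.mp h6
      have hLδ : 0 ≤ L * δ := by positivity
      have hKδ : 0 ≤ K * δ := by positivity
      have e2 : ε * δ = 2 * (L * δ) + K * δ := by rw [hε]; ring
      rw [e2]
      constructor <;> (rw [abs_le]; constructor <;> linarith [h1'.1, h1'.2, h6'.1, h6'.2])
    have hεδ : 0 ≤ ε * δ := by positivity
    have hP := prod_diff (ch G p y) (fun z => zR G 𝔟 θ R y z x + θ * nR G 𝔟 θ R y z x)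
      (fun z => zR G 𝔟' θ' R y z x + θ' * nR G 𝔟' θ' R y z x) hb1 hεδ
      (fun z hz => (hfac 𝔟 θ hθ0 hθ hl hh z hz).1) (fun z hz => (hfac 𝔟' θ' hθ0' hθ' hl' hh' z hz).1)
      (fun z hz => (hdiff z hz).1)
    have hM := prod_diff (ch G p y) (fun z => zR G 𝔟 θ R y z x - θ * nR G 𝔟 θ R y z x)
      (fun z => zR G 𝔟' θ' R y z x - θ' * nR G 𝔟' θ' R y z x) hb1 hεδ
      (fun z hz => (hfac 𝔟 θ hθ0 hθ hl hh z hz).2) (fun z hz => (hfac 𝔟' θ' hθ0' hθ' hl' hh' z hz).2)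
      (fun z hz => (hdiff z hz).2)
    rw [hG.card_ch hpy] at hP hM
    have hPb := prod_bounds (ch G p y) (fun z => zR G 𝔟 θ R y z x + θ * nR G 𝔟 θ R y z x) (a := 0) (b := b)
      le_rfl (fun z hz => (hfac 𝔟 θ hθ0 hθ hl hh z hz).1)
    have hMb := prod_bounds (ch G p y) (fun z => zR G 𝔟 θ R y z x - θ * nR G 𝔟 θ R y z x) (a := 0) (b := b)
      le_rfl (fun z hz => (hfac 𝔟 θ hθ0 hθ hl hh z hz).2)
    have hP0 : 0 ≤ ∏ z ∈ ch G p y, (zR G 𝔟 θ R y z x + θ * nR G 𝔟 θ R y z x) :=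
      Finset.prod_nonneg fun z hz => (hfac 𝔟 θ hθ0 hθ hl hh z hz).1.1
    have hM0 : 0 ≤ ∏ z ∈ ch G p y, (zR G 𝔟 θ R y z x - θ * nR G 𝔟 θ R y z x) :=
      Finset.prod_nonneg fun z hz => (hfac 𝔟 θ hθ0 hθ hl hh z hz).2.1
    rw [hG.card_ch hpy] at hPb hMb
    have hw1 := hδp (x y)
    have hw2 := hδm (x y)
    have hw3 : |𝔟'.wp (x y)| ≤ hh0 := by
      rw [abs_of_pos (lt_of_lt_of_le hlo (hl'.trans (𝔟'.wp_ge (x y))))]
      exact ((𝔟'.wp_le (x y)).trans hh').trans (le_max_left _ _)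
    have hw4 : |𝔟'.wm (x y)| ≤ hh0 := by
      rw [abs_of_pos (lt_of_lt_of_le hlo (hl'.trans (𝔟'.wm_ge (x y))))]
      exact ((𝔟'.wm_le (x y)).trans hh').trans (le_max_left _ _)
    rw [zR_succ, zR_succ, nR_succ, nR_succ]
    set P := ∏ z ∈ ch G p y, (zR G 𝔟 θ R y z x + θ * nR G 𝔟 θ R y z x)
    set M := ∏ z ∈ ch G p y, (zR G 𝔟 θ R y z x - θ * nR G 𝔟 θ R y z x)
    set P' := ∏ z ∈ ch G p y, (zR G 𝔟' θ' R y z x + θ' * nR G 𝔟' θ' R y z x)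
    set M' := ∏ z ∈ ch G p y, (zR G 𝔟' θ' R y z x - θ' * nR G 𝔟' θ' R y z x)
    set a := 𝔟.wp (x y)
    set c := 𝔟.wm (x y)
    set a' := 𝔟'.wp (x y)
    set c' := 𝔟'.wm (x y)
    have hPQ : |P - P'| ≤ Q * δ := by
      have : Q * δ = (D : ℝ) * b ^ D * (ε * δ) := by rw [hQ]; ring
      rw [this]; exact hP
    have hMQ : |M - M'| ≤ Q * δ := by
      have : Q * δ = (D : ℝ) * b ^ D * (ε * δ) := by rw [hQ]; ring
      rw [this]; exact hM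
    have t1 : |a * P - a' * P'| ≤ (b ^ D + hh0 * Q) * δ := by
      have e : a * P - a' * P' = (a - a') * P + a' * (P - P') := by ring
      rw [e]
      refine (abs_add_le _ _).trans ?_
      rw [abs_mul, abs_mul, abs_of_nonneg hP0]
      calc |a - a'| * P + |a'| * |P - P'| ≤ δ * b ^ D + hh0 * (Q * δ) := by
            apply add_le_add
            · exact mul_le_mul hw1 hPb.2 hP0 hδ0
            · exact mul_le_mul hw3 hPQ (abs_nonneg _) hh00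
        _ = (b ^ D + hh0 * Q) * δ := by ring
    have t2 : |c * M - c' * M'| ≤ (b ^ D + hh0 * Q) * δ := by
      have e : c * M - c' * M' = (c - c') * M + c' * (M - M') := by ring
      rw [e]
      refine (abs_add_le _ _).trans ?_
      rw [abs_mul, abs_mul, abs_of_nonneg hM0]
      calc |c - c'| * M + |c'| * |M - M'| ≤ δ * b ^ D + hh0 * (Q * δ) := by
            apply add_le_add
            · exact mul_le_mul hw2 hMb.2 hM0 hδ0
            · exact mul_le_mul hw4 hMQ (abs_nonneg _) hh00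
        _ = (b ^ D + hh0 * Q) * δ := by ring
    have t1' := abs_le.mp t1
    have t2' := abs_le.mp t2
    constructor <;> (rw [abs_le]; constructor <;> linarith [t1'.1, t1'.2, t2'.1, t2'.2])

omit [IsProbabilityMeasure κ] [MeasurableSpace E] in
/-- `b_θ²` is Lipschitz in `θ`. -/
theorem bTheta_sq_lipschitz_theta {θ θ' t : ℝ} (hθ0 : 0 ≤ θ) (hθ0' : 0 ≤ θ') (hθ2 : θ ^ 2 ≤ 1 / 2)
    (hθ2' : θ' ^ 2 ≤ 1 / 2) (ht : |t| < 1) :
    |bTheta θ t ^ 2 - bTheta θ' t ^ 2| ≤ 10 * |θ - θ'| := by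
  have h1 := sq_lt_one_of_abs ht
  have ht0 := sq_nonneg t
  have hd : 1 / 2 ≤ 1 - θ ^ 2 * t ^ 2 := by nlinarith [sq_nonneg θ]
  have hd' : 1 / 2 ≤ 1 - θ' ^ 2 * t ^ 2 := by nlinarith [sq_nonneg θ']
  set g := (1 - t ^ 2) / (1 - θ ^ 2 * t ^ 2) with hg
  set g' := (1 - t ^ 2) / (1 - θ' ^ 2 * t ^ 2) with hg'
  have hb : bTheta θ t ^ 2 = θ ^ 2 * g ^ 2 := by
    simp only [bTheta, hg]; ring
  have hb' : bTheta θ' t ^ 2 = θ' ^ 2 * g' ^ 2 := by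
    simp only [bTheta, hg']; ring
  have hg0 : 0 ≤ g := div_nonneg (by linarith) (by linarith)
  have hg0' : 0 ≤ g' := div_nonneg (by linarith) (by linarith)
  have hg1 : g ≤ 1 := (div_le_one (by linarith)).mpr (by nlinarith [sq_nonneg θ])
  have hg1' : g' ≤ 1 := (div_le_one (by linarith)).mpr (by nlinarith [sq_nonneg θ'])
  have hθ1 : θ ≤ 1 := by nlinarith
  have hθ1' : θ' ≤ 1 := by nlinarith
  have hsq : |θ ^ 2 - θ' ^ 2| ≤ 2 * |θ - θ'| := by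
    have e : θ ^ 2 - θ' ^ 2 = (θ - θ') * (θ + θ') := by ring
    rw [e, abs_mul, abs_of_nonneg (by linarith : 0 ≤ θ + θ')]
    nlinarith [abs_nonneg (θ - θ')]
  have hdiff : g - g' = (1 - t ^ 2) * t ^ 2 * (θ ^ 2 - θ' ^ 2) /
      ((1 - θ ^ 2 * t ^ 2) * (1 - θ' ^ 2 * t ^ 2)) := by
    have hne : 1 - θ ^ 2 * t ^ 2 ≠ 0 := by linarith
    have hne' : 1 - θ' ^ 2 * t ^ 2 ≠ 0 := by linarith
    rw [hg, hg', div_sub_div _ _ hne hne']
    congr 1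
    ring
  have hpos : 0 < (1 - θ ^ 2 * t ^ 2) * (1 - θ' ^ 2 * t ^ 2) := by
    have : (0 : ℝ) < 1 - θ ^ 2 * t ^ 2 := by linarith
    have : (0 : ℝ) < 1 - θ' ^ 2 * t ^ 2 := by linarith
    positivity
  have hlow : 1 / 4 ≤ (1 - θ ^ 2 * t ^ 2) * (1 - θ' ^ 2 * t ^ 2) := by nlinarith
  have hgd : |g - g'| ≤ 8 * |θ - θ'| := by
    rw [hdiff, abs_div, abs_of_pos hpos, div_le_iff₀ hpos, abs_mul, abs_mul, abs_of_nonneg ht0,
      abs_of_nonneg (by linarith : 0 ≤ 1 - t ^ 2)]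
    have h0 := abs_nonneg (θ ^ 2 - θ' ^ 2)
    have h2 : (1 - t ^ 2) * t ^ 2 ≤ 1 := by nlinarith
    have h3 : 0 ≤ (1 - t ^ 2) * t ^ 2 := mul_nonneg (by linarith) ht0
    have h4 := abs_nonneg (θ - θ')
    calc (1 - t ^ 2) * t ^ 2 * |θ ^ 2 - θ' ^ 2| ≤ 1 * (2 * |θ - θ'|) := by gcongr
      _ = 8 * |θ - θ'| * (1 / 4) := by ring
      _ ≤ 8 * |θ - θ'| * ((1 - θ ^ 2 * t ^ 2) * (1 - θ' ^ 2 * t ^ 2)) := by gcongr
  have hgg : |g ^ 2 - g' ^ 2| ≤ 2 * |g - g'| := by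
    have : g ^ 2 - g' ^ 2 = (g - g') * (g + g') := by ring
    rw [this, abs_mul, abs_of_nonneg (by linarith : 0 ≤ g + g')]
    nlinarith [abs_nonneg (g - g')]
  rw [hb, hb']
  have e : θ ^ 2 * g ^ 2 - θ' ^ 2 * g' ^ 2 = (θ ^ 2 - θ' ^ 2) * g ^ 2 + θ' ^ 2 * (g ^ 2 - g' ^ 2) := by ring
  rw [e]
  refine (abs_add_le _ _).trans ?_
  rw [abs_mul, abs_mul, abs_of_nonneg (sq_nonneg g), abs_of_nonneg (sq_nonneg θ')]
  have hgsq : g ^ 2 ≤ 1 := pow_le_one₀ hg0 hg1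
  have h4 := abs_nonneg (θ - θ')
  have h5 := abs_nonneg (θ ^ 2 - θ' ^ 2)
  have h6 := abs_nonneg (g ^ 2 - g' ^ 2)
  calc |θ ^ 2 - θ' ^ 2| * g ^ 2 + θ' ^ 2 * |g ^ 2 - g' ^ 2|
      ≤ (2 * |θ - θ'|) * 1 + (1 / 2) * (2 * (8 * |θ - θ'|)) := by
        apply add_le_add
        · exact mul_le_mul hsq hgsq (sq_nonneg _) (by positivity)
        · exact mul_le_mul hθ2' (hgg.trans (by linarith)) h6 (by norm_num)
    _ = 10 * |θ - θ'| := by ring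

/-- `ν` is Lipschitz in the data. -/
theorem nu_lipschitz {Z Z' n n' m L δ : ℝ} (hm : 0 < m) (hZ : m ≤ Z) (hZ' : 0 < Z') (hn' : |n' / Z'| < 1)
    (h1 : |Z - Z'| ≤ L * δ) (h2 : |n - n'| ≤ L * δ) : |n / Z - n' / Z'| ≤ 2 * L / m * δ := by
  have hZ0 : 0 < Z := lt_of_lt_of_le hm hZ
  have hLδ : 0 ≤ L * δ := (abs_nonneg _).trans h1
  have e : n / Z - n' / Z' = ((n - n') + (n' / Z') * (Z' - Z)) / Z := by
    field_simp
    ring
  rw [e, abs_div, abs_of_pos hZ0]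
  have h3 : |(n - n') + (n' / Z') * (Z' - Z)| ≤ 2 * (L * δ) := by
    refine (abs_add_le _ _).trans ?_
    rw [abs_mul, abs_sub_comm Z' Z]
    have : |n' / Z'| * |Z - Z'| ≤ 1 * (L * δ) :=
      mul_le_mul hn'.le h1 (abs_nonneg _) zero_le_one
    linarith
  calc |(n - n') + (n' / Z') * (Z' - Z)| / Z ≤ (2 * (L * δ)) / m := by
        apply div_le_div₀ (by positivity) h3 hm hZ
    _ = 2 * L / m * δ := by ring

/-- Lipschitz for the level sums. -/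
theorem S_lipschitz (D r : ℕ) (lo hi : ℝ) (hlo : 0 < lo) : ∀ R : ℕ, ∃ L : ℝ, 0 ≤ L ∧
    ∀ {V : Type u} {G : SimpleGraph V} [G.LocallyFinite] (_ : RegTree G D) {E : Type v} [MeasurableSpace E]
      {κ : Measure E} [IsProbabilityMeasure κ] (𝔟 𝔟' : BlockData κ) {θ θ' δ : ℝ} (_ : 0 ≤ θ) (_ : 0 ≤ θ')
      (_ : (D : ℝ) * θ ^ 2 ≤ 1) (_ : (D : ℝ) * θ' ^ 2 ≤ 1)
      (_ : lo ≤ 𝔟.lo) (_ : 𝔟.hi ≤ hi) (_ : lo ≤ 𝔟'.lo) (_ : 𝔟'.hi ≤ hi)
      (_ : |θ - θ'| ≤ δ) (_ : ∀ e, |𝔟.wp e - 𝔟'.wp e| ≤ δ) (_ : ∀ e, |𝔟.wm e - 𝔟'.wm e| ≤ δ)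
      {p y : V} (_ : G.Adj p y) (x : V → E),
      |SR G 𝔟 θ r R p y x - SR G 𝔟' θ' r R p y x| ≤ L * δ := by
  induction r with
  | zero =>
    intro R
    refine ⟨0, le_rfl, ?_⟩
    intro V G _ hG E _ κ _ 𝔟 𝔟' θ θ' δ hθ0 hθ0' hθ hθ' hl hh hl' hh' hδ hδp hδm p y hpy x
    simp [SR_zero_left]
  | succ r ih =>
    intro R
    cases R with
    | zero =>
      refine ⟨0, le_rfl, ?_⟩
      intro V G _ hG E _ κ _ 𝔟 𝔟' θ θ' δ hθ0 hθ0' hθ hθ' hl hh hl' hh' hδ hδp hδm p y hpy x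
      simp [SR_succ_zero]
    | succ R =>
      obtain ⟨LS, hLS, hS⟩ := ih R
      obtain ⟨K, m, hK, hm, hbd⟩ := pair_bounds.{u, v} D R lo hi hlo
      obtain ⟨L, hL, hlip⟩ := pair_lipschitz.{u, v} D R lo hi hlo
      set C := 10 + 8 * (2 * L / m) * (1 / 2) + LS with hC
      have hC0 : 0 ≤ C := by rw [hC]; positivity
      refine ⟨D * C, by positivity, ?_⟩
      intro V G _ hG E _ κ _ 𝔟 𝔟' θ θ' δ hθ0 hθ0' hθ hθ' hl hh hl' hh' hδ hδp hδm p y hpy x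
      have hδ0 : 0 ≤ δ := (abs_nonneg _).trans hδ
      have hθ2 := theta_sq_le_half hG hθ0 hθ
      have hθ2' := theta_sq_le_half hG hθ0' hθ'
      rw [SR_succ_succ, SR_succ_succ, ← Finset.sum_sub_distrib]
      refine (Finset.abs_sum_le_sum_abs _ _).trans ?_
      have hterm : ∀ z ∈ ch G p y,
          |bTheta θ (nuR G 𝔟 θ R y z x) ^ 2 * SR G 𝔟 θ r R y z x -
            bTheta θ' (nuR G 𝔟' θ' R y z x) ^ 2 * SR G 𝔟' θ' r R y z x| ≤ C * δ := by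
        intro z hz
        have hyz := adj_of_mem_ch hz
        have hν := abs_nuR_lt 𝔟 hG hθ0 hθ hyz R x
        have hν' := abs_nuR_lt 𝔟' hG hθ0' hθ' hyz R x
        have hZ := hbd hG 𝔟 hθ0 hθ hl hh hyz x
        have hZ' := zR_pos 𝔟' hG hθ0' hθ' hyz R x
        obtain ⟨h1, h2⟩ := hlip hG 𝔟 𝔟' hθ0 hθ0' hθ hθ' hl hh hl' hh' hδ hδp hδm hyz x
        have hνd : |nuR G 𝔟 θ R y z x - nuR G 𝔟' θ' R y z x| ≤ 2 * L / m * δ :=
          nu_lipschitz hm hZ.1 hZ' hν' h1 h2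
        have hb1 := bTheta_sq_lipschitz_theta (t := nuR G 𝔟 θ R y z x) hθ0 hθ0' hθ2 hθ2' hν
        have hb2 := bTheta_sq_lipschitz hθ2' hν hν'
        have hb3 := bTheta_sq_le hθ2' hν'
        obtain ⟨hS1, hS2⟩ := SR_bounds 𝔟 hG hθ0 hθ r R hyz x
        have hSd := hS hG 𝔟 𝔟' hθ0 hθ0' hθ hθ' hl hh hl' hh' hδ hδp hδm hyz x
        set b := bTheta θ (nuR G 𝔟 θ R y z x) ^ 2
        set b' := bTheta θ' (nuR G 𝔟' θ' R y z x) ^ 2
        set s := SR G 𝔟 θ r R y z x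
        set s' := SR G 𝔟' θ' r R y z x
        have hb0 : 0 ≤ b' := sq_nonneg _
        have hmid : |b - b'| ≤ (10 + 8 * (2 * L / m) * (1 / 2)) * δ := by
          have e : b - b' = (b - bTheta θ' (nuR G 𝔟 θ R y z x) ^ 2) +
              (bTheta θ' (nuR G 𝔟 θ R y z x) ^ 2 - b') := by ring
          rw [e]
          refine (abs_add_le _ _).trans ?_
          have h5 : |bTheta θ' (nuR G 𝔟 θ R y z x) ^ 2 - b'| ≤ 8 * (1 / 2) * (2 * L / m * δ) := by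
            refine hb2.trans ?_
            have h6 := abs_nonneg (nuR G 𝔟 θ R y z x - nuR G 𝔟' θ' R y z x)
            exact mul_le_mul (mul_le_mul_of_nonneg_left hθ2' (by norm_num)) hνd h6 (by norm_num)
          have h7 : 10 * |θ - θ'| ≤ 10 * δ := mul_le_mul_of_nonneg_left hδ (by norm_num)
          have h8 : (10 + 8 * (2 * L / m) * (1 / 2)) * δ = 10 * δ + 8 * (1 / 2) * (2 * L / m * δ) := by ring
          rw [h8]
          linarith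
        have e : b * s - b' * s' = (b - b') * s + b' * (s - s') := by ring
        rw [e]
        refine (abs_add_le _ _).trans ?_
        rw [abs_mul, abs_mul, abs_of_nonneg hS1, abs_of_nonneg hb0]
        have hLSδ : 0 ≤ LS * δ := by positivity
        have hb4 : b' ≤ 1 := by linarith [hb3]
        calc |b - b'| * s + b' * |s - s'| ≤ ((10 + 8 * (2 * L / m) * (1 / 2)) * δ) * 1 + 1 * (LS * δ) := by
              apply add_le_add
              · exact mul_le_mul hmid hS2 hS1 ((abs_nonneg _).trans hmid)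
              · exact mul_le_mul hb4 hSd (abs_nonneg _) zero_le_one
          _ = C * δ := by rw [hC]; ring
      refine (Finset.sum_le_sum hterm).trans ?_
      rw [Finset.sum_const, hG.card_ch hpy, nsmul_eq_mul]
      exact le_of_eq (by ring)

/-- (J8, finite depth continuity) at fixed depth the static value of `S_r` is uniformly continuous in the
parameters: two block data on the same `κ`, uniformly close weights, close `θ`. -/
theorem _root_.Crest.Agent.Lib.IsingFIID.ES_continuity_proved (D R r : ℕ) (lo hi η : ℝ) (hlo : 0 < lo) (hη : 0 < η) : ∃ δ > 0,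
    ∀ {V : Type u} {G : SimpleGraph V} [G.LocallyFinite] (_ : RegTree G D) {E : Type v} [MeasurableSpace E]
      {κ : Measure E} [IsProbabilityMeasure κ] (𝔟 𝔟' : BlockData κ) {θ θ' : ℝ} (_ : 0 ≤ θ) (_ : 0 ≤ θ')
      (_ : (D : ℝ) * θ ^ 2 ≤ 1) (_ : (D : ℝ) * θ' ^ 2 ≤ 1)
      (_ : lo ≤ 𝔟.lo) (_ : 𝔟.hi ≤ hi) (_ : lo ≤ 𝔟'.lo) (_ : 𝔟'.hi ≤ hi)
      (_ : |θ - θ'| ≤ δ) (_ : ∀ e, |𝔟.wp e - 𝔟'.wp e| ≤ δ) (_ : ∀ e, |𝔟.wm e - 𝔟'.wm e| ≤ δ)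
      {p y : V} (_ : G.Adj p y),
      |EsR G 𝔟 θ R p y (fun x => SR G 𝔟 θ r R p y x) - EsR G 𝔟' θ' R p y (fun x => SR G 𝔟' θ' r R p y x)| ≤ η := by
  obtain ⟨K, m, hK, hm, hbd⟩ := pair_bounds.{u, v} D R lo hi hlo
  obtain ⟨L, hL, hlip⟩ := pair_lipschitz.{u, v} D R lo hi hlo
  obtain ⟨LS, hLS, hSlip⟩ := S_lipschitz.{u, v} D r lo hi hlo R
  have hdenom : 0 < LS * K + L + 1 := by positivity
  refine ⟨η / (LS * K + L + 1), by positivity, ?_⟩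
  intro V G _ hG E _ κ _ 𝔟 𝔟' θ θ' hθ0 hθ0' hθ hθ' hl hh hl' hh' hδ hδp hδm p y hpy
  set δ := η / (LS * K + L + 1) with hδdef
  have hδ0 : 0 ≤ δ := by positivity
  have hg := good_SR 𝔟 hG hθ0 hθ hpy r R
  have hg' := good_SR 𝔟' hG hθ0' hθ' hpy r R
  simp only [EsR]
  rw [← integral_sub (integrable_mul_zR 𝔟 hG hθ0 hθ hpy R hg) (integrable_mul_zR 𝔟' hG hθ0' hθ' hpy R hg')]
  have hpt : ∀ x : V → E, ‖SR G 𝔟 θ r R p y x * zR G 𝔟 θ R p y x - SR G 𝔟' θ' r R p y x * zR G 𝔟' θ' R p y x‖ ≤ η := by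
    intro x
    rw [Real.norm_eq_abs]
    obtain ⟨h1, h2⟩ := hbd hG 𝔟 hθ0 hθ hl hh hpy x
    obtain ⟨h3, h4⟩ := hlip hG 𝔟 𝔟' hθ0 hθ0' hθ hθ' hl hh hl' hh' hδ hδp hδm hpy x
    have h5 := hSlip hG 𝔟 𝔟' hθ0 hθ0' hθ hθ' hl hh hl' hh' hδ hδp hδm hpy x
    obtain ⟨h6, h7⟩ := SR_bounds 𝔟' hG hθ0' hθ' r R hpy x
    have hZ0 : 0 ≤ zR G 𝔟 θ R p y x := (lt_of_lt_of_le hm h1).le
    have e : SR G 𝔟 θ r R p y x * zR G 𝔟 θ R p y x - SR G 𝔟' θ' r R p y x * zR G 𝔟' θ' R p y x =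
        (SR G 𝔟 θ r R p y x - SR G 𝔟' θ' r R p y x) * zR G 𝔟 θ R p y x +
          SR G 𝔟' θ' r R p y x * (zR G 𝔟 θ R p y x - zR G 𝔟' θ' R p y x) := by ring
    rw [e]
    refine (abs_add_le _ _).trans ?_
    rw [abs_mul, abs_mul, abs_of_nonneg hZ0, abs_of_nonneg h6]
    have hK0 : 0 ≤ K := by linarith
    calc |SR G 𝔟 θ r R p y x - SR G 𝔟' θ' r R p y x| * zR G 𝔟 θ R p y x +
          SR G 𝔟' θ' r R p y x * |zR G 𝔟 θ R p y x - zR G 𝔟' θ' R p y x|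
        ≤ (LS * δ) * K + 1 * (L * δ) := by
          apply add_le_add
          · exact mul_le_mul h5 h2 hZ0 (by positivity)
          · exact mul_le_mul h7 h3 (abs_nonneg _) zero_le_one
      _ = (LS * K + L) * δ := by ring
      _ ≤ (LS * K + L + 1) * δ := by nlinarith
      _ = η := by rw [hδdef]; field_simp
  have hint := norm_integral_le_of_norm_le_const (μ := Measure.infinitePi fun _ : V => κ)
    (Eventually.of_forall hpt)
  simpa [Real.norm_eq_abs] using hint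

end Continuity

end Crest.Agent.Lib.IsingFIID.Trunc
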