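/-
S0241, Mod K: radial test function on the tree and the Schur inequality.
-/
import Crest.Agent.Lib.IsingFIID.Tree

set_option autoImplicit false
set_option linter.unusedSectionVars false
universe u

namespace Crest.Agent.Lib.IsingFIID

open scoped Classical
open Finset

variable {V : Type u} {G : SimpleGraph V} [G.LocallyFinite] {D : ℕ}

/-! ### levels in the tree -/

theorem dist_level (hT : G.IsTree) (r : V) {u v : V} (h : G.Adj u v) :
    G.dist r u = G.dist r v + 1 ∨ G.dist r v = G.dist r u + 1 :=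
  hT.dist_eq_dist_add_one_of_adj r h

theorem parent_unique (hT : G.IsTree) (r : V) {w v v' : V} (hv : G.Adj w v) (hv' : G.Adj w v')
    (h : G.dist r v + 1 = G.dist r w) (h' : G.dist r v' + 1 = G.dist r w) : v = v' := by
  obtain ⟨p, hp, hpl⟩ := hT.connected.exists_path_of_dist r v
  obtain ⟨p', hp', hpl'⟩ := hT.connected.exists_path_of_dist r v'
  have h1 : (p.concat hv.symm).IsPath :=
    SimpleGraph.Walk.isPath_of_length_eq_dist _ (by simp [SimpleGraph.Walk.length_concat, hpl, h])
  have h2 : (p'.concat hv'.symm).IsPath :=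
    SimpleGraph.Walk.isPath_of_length_eq_dist _ (by simp [SimpleGraph.Walk.length_concat, hpl', h'])
  have h3 := (hT.existsUnique_path r w).unique h1 h2
  have h4 := congrArg SimpleGraph.Walk.penultimate h3
  simpa using h4

theorem exists_parent (hT : G.IsTree) (r : V) {w : V} (h : G.dist r w ≠ 0) :
    ∃ v, G.Adj w v ∧ G.dist r v + 1 = G.dist r w := by
  obtain ⟨p, hp, hpl⟩ := hT.connected.exists_path_of_dist r w
  have hnil : ¬ p.Nil := by
    intro hn
    have := SimpleGraph.Walk.Nil.length_eq_zero hn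
    omega
  refine ⟨p.penultimate, (p.adj_penultimate hnil).symm, ?_⟩
  have h1 : G.dist r p.penultimate ≤ p.dropLast.length := SimpleGraph.dist_le _
  have h2 : p.dropLast.length + 1 = p.length := by
    have h5 : p.dropLast.length = p.length - 1 := by simp
    omega
  rcases dist_level hT r (p.adj_penultimate hnil) with h3 | h3 <;> omega

/-- A vertex other than the parent is a child. -/
theorem kid_of_parent (hT : G.IsTree) (r : V) {y q z : V} (hq : G.Adj y q)
    (hqd : G.dist r q + 1 = G.dist r y) (hz : G.Adj y z) (hne : z ≠ q) :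
    G.dist r z = G.dist r y + 1 := by
  rcases dist_level hT r hz with h | h
  · exact absurd (parent_unique hT r hz hq h.symm hqd) hne
  · exact h

theorem kid_of_root (hT : G.IsTree) (r : V) {y z : V} (hy : G.dist r y = 0) (hz : G.Adj y z) :
    G.dist r z = G.dist r y + 1 := by
  rcases dist_level hT r hz with h | h
  · omega
  · exact h

/-! ### the sequences -/

/-- `D^3 - 1/2`. -/
noncomputable def lamD (D : ℕ) : ℝ := (D : ℝ) ^ 3 - 1 / 2

noncomputable def aSeq (D : ℕ) (n : ℕ) : ℝ :=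
  if n = 0 then (D : ℝ) ^ 2 / lamD D else (1 / (D : ℝ)) ^ (n / 2)

noncomputable def bSeq (D : ℕ) (n : ℕ) : ℝ := (D : ℝ) ^ 3 * aSeq D (n + 2) / lamD D

/-- The radial test function, with root `r`, at the directed edge `(p, y)`. -/
noncomputable def phi (G : SimpleGraph V) (D : ℕ) (r p y : V) : ℝ :=
  if G.dist r y = G.dist r p + 1 then aSeq D (G.dist r p) else bSeq D (G.dist r p)

theorem lamD_pos (hD : 2 ≤ D) : 0 < lamD D := by
  have h : (2 : ℝ) ≤ D := by exact_mod_cast hD
  unfold lamD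
  have : (8 : ℝ) ≤ (D : ℝ) ^ 3 := by nlinarith [sq_nonneg ((D : ℝ) - 2), sq_nonneg (D : ℝ)]
  linarith

theorem aSeq_pos (hD : 2 ≤ D) (n : ℕ) : 0 < aSeq D n := by
  have h : (0 : ℝ) < D := by
    have : (2 : ℝ) ≤ D := by exact_mod_cast hD
    linarith
  unfold aSeq
  split_ifs
  · exact div_pos (by positivity) (lamD_pos hD)
  · positivity

theorem bSeq_pos (hD : 2 ≤ D) (n : ℕ) : 0 < bSeq D n := by
  have h : (0 : ℝ) < D := by
    have : (2 : ℝ) ≤ D := by exact_mod_cast hD
    linarith
  unfold bSeq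
  exact div_pos (mul_pos (by positivity) (aSeq_pos hD _)) (lamD_pos hD)

theorem phi_pos (hD : 2 ≤ D) (r p y : V) : 0 < phi G D r p y := by
  unfold phi
  split_ifs
  · exact aSeq_pos hD _
  · exact bSeq_pos hD _

theorem aSeq_succ_two (n : ℕ) (hn : n ≠ 0) : aSeq D (n + 2) = aSeq D n * (1 / (D : ℝ)) := by
  unfold aSeq
  simp only [hn, if_false, Nat.add_eq_zero_iff, OfNat.ofNat_ne_zero, and_false]
  rw [Nat.add_div_right _ (by norm_num : 0 < 2), pow_succ]

theorem aSeq_one : aSeq D 1 = 1 := by simp [aSeq]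
theorem aSeq_two : aSeq D 2 = 1 / (D : ℝ) := by simp [aSeq]

/-! ### summing over children -/

theorem sum_ch_const (hG : RegTree G D) {p y : V} (h : G.Adj p y) {F : V → ℝ} {c : ℝ}
    (hF : ∀ z ∈ ch G p y, F z = c) : ∑ z ∈ ch G p y, F z = (D : ℝ) * c := by
  rw [Finset.sum_congr rfl hF, Finset.sum_const, hG.card_ch h, nsmul_eq_mul]

theorem sum_ch_parent (hG : RegTree G D) {p y q : V} (h : G.Adj p y) (hq : q ∈ ch G p y)
    {F : V → ℝ} {c : ℝ} (hF : ∀ z ∈ ch G p y, z ≠ q → F z = c) :
    ∑ z ∈ ch G p y, F z = F q + ((D : ℝ) - 1) * c := by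
  rw [← Finset.add_sum_erase _ _ hq]
  congr 1
  rw [Finset.sum_congr rfl (fun z hz => hF z (Finset.mem_of_mem_erase hz) (Finset.ne_of_mem_erase hz)),
    Finset.sum_const, Finset.card_erase_of_mem hq, hG.card_ch h, nsmul_eq_mul]
  have : 2 ≤ D := hG.two_le
  rw [Nat.cast_sub (by omega)]
  simp

section levels
variable (hG : RegTree G D) (r : V)
include hG

/-- innermost sum, `(y, w')` pointing away from `r`. -/
theorem gsum_away {y w' : V} (h : G.Adj y w') (hd : G.dist r w' = G.dist r y + 1) :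
    ∑ z' ∈ ch G y w', phi G D r w' z' = (D : ℝ) * aSeq D (G.dist r w') := by
  refine sum_ch_const hG h fun z' hz' => ?_
  rw [mem_ch] at hz'
  have := kid_of_parent hG.isTree r h.symm (by omega) hz'.1 hz'.2
  simp [phi, this]

theorem gsum_root {y w' : V} (h : G.Adj y w') (hd : G.dist r w' = 0) :
    ∑ z' ∈ ch G y w', phi G D r w' z' = (D : ℝ) * aSeq D 0 := by
  refine sum_ch_const hG h fun z' hz' => ?_
  rw [mem_ch] at hz'
  have := kid_of_root hG.isTree r hd hz'.1
  simp [phi, this, hd]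

theorem gsum_toward {y w' : V} (h : G.Adj y w') (hd : G.dist r y = G.dist r w' + 1)
    (hne : G.dist r w' ≠ 0) :
    ∑ z' ∈ ch G y w', phi G D r w' z' =
      bSeq D (G.dist r w') + ((D : ℝ) - 1) * aSeq D (G.dist r w') := by
  obtain ⟨q, hq, hqd⟩ := exists_parent hG.isTree r hne
  have hqy : q ≠ y := by
    rintro rfl
    omega
  have hqmem : q ∈ ch G y w' := mem_ch.2 ⟨hq, hqy⟩
  rw [sum_ch_parent hG h hqmem (c := aSeq D (G.dist r w'))]
  · congr 1
    have : G.dist r q ≠ G.dist r w' + 1 := by omega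
    simp [phi, this]
  · intro z hz hzq
    rw [mem_ch] at hz
    have := kid_of_parent hG.isTree r hq hqd hz.1 hzq
    simp [phi, this]

/-- the value of the innermost sum at the parent. -/
noncomputable def gVal (D n : ℕ) : ℝ :=
  if n = 0 then (D : ℝ) * aSeq D 0 else bSeq D n + ((D : ℝ) - 1) * aSeq D n

theorem gsum_up {y w' : V} (h : G.Adj y w') (hd : G.dist r y = G.dist r w' + 1) :
    ∑ z' ∈ ch G y w', phi G D r w' z' = gVal D (G.dist r w') := by
  by_cases h0 : G.dist r w' = 0
  · simp only [gVal, h0, if_true]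
    exact gsum_root hG r h h0
  · simp only [gVal, h0, if_false]
    exact gsum_toward hG r h hd h0

/-- middle sum, `(w, y)` pointing away from `r`. -/
theorem hsum_away {w y : V} (h : G.Adj w y) (hd : G.dist r y = G.dist r w + 1) :
    ∑ w' ∈ ch G w y, ∑ z' ∈ ch G y w', phi G D r w' z' =
      (D : ℝ) * ((D : ℝ) * aSeq D (G.dist r y + 1)) := by
  refine sum_ch_const hG h fun w' hw' => ?_
  rw [mem_ch] at hw'
  have := kid_of_parent hG.isTree r h.symm (by omega) hw'.1 hw'.2
  rw [gsum_away hG r hw'.1 this, this]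

theorem hsum_root {w y : V} (h : G.Adj w y) (hd : G.dist r y = 0) :
    ∑ w' ∈ ch G w y, ∑ z' ∈ ch G y w', phi G D r w' z' =
      (D : ℝ) * ((D : ℝ) * aSeq D 1) := by
  refine sum_ch_const hG h fun w' hw' => ?_
  rw [mem_ch] at hw'
  have := kid_of_root hG.isTree r hd hw'.1
  rw [gsum_away hG r hw'.1 this, this, hd]

theorem hsum_toward {w y : V} (h : G.Adj w y) (hd : G.dist r w = G.dist r y + 1)
    (hne : G.dist r y ≠ 0) :
    ∑ w' ∈ ch G w y, ∑ z' ∈ ch G y w', phi G D r w' z' =
      gVal D (G.dist r y - 1) + ((D : ℝ) - 1) * ((D : ℝ) * aSeq D (G.dist r y + 1)) := by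
  obtain ⟨q, hq, hqd⟩ := exists_parent hG.isTree r hne
  have hqw : q ≠ w := by
    rintro rfl
    omega
  have hqmem : q ∈ ch G w y := mem_ch.2 ⟨hq, hqw⟩
  rw [sum_ch_parent hG h hqmem (c := (D : ℝ) * aSeq D (G.dist r y + 1))
    (F := fun w' => ∑ z' ∈ ch G y w', phi G D r w' z')]
  · congr 1
    have : G.dist r y - 1 = G.dist r q := by omega
    rw [this]
    exact gsum_up hG r hq hqd.symm
  · intro z hz hzq
    rw [mem_ch] at hz
    have := kid_of_parent hG.isTree r hq hqd hz.1 hzq
    rw [gsum_away hG r hz.1 this, this]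

/-- The triple sum of the Schur test. -/
theorem ksum_toward {z w : V} (h : G.Adj z w) (hd : G.dist r w = G.dist r z + 1) :
    ∑ y ∈ ch G z w, ∑ w' ∈ ch G w y, ∑ z' ∈ ch G y w', phi G D r w' z' =
      (D : ℝ) * ((D : ℝ) * ((D : ℝ) * aSeq D (G.dist r w + 2))) := by
  refine sum_ch_const hG h fun y hy => ?_
  rw [mem_ch] at hy
  have := kid_of_parent hG.isTree r h.symm (by omega) hy.1 hy.2
  rw [hsum_away hG r hy.1 this, this]

theorem ksum_root {z w : V} (h : G.Adj z w) (hd : G.dist r w = 0) :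
    ∑ y ∈ ch G z w, ∑ w' ∈ ch G w y, ∑ z' ∈ ch G y w', phi G D r w' z' =
      (D : ℝ) * ((D : ℝ) * ((D : ℝ) * aSeq D 2)) := by
  refine sum_ch_const hG h fun y hy => ?_
  rw [mem_ch] at hy
  have := kid_of_root hG.isTree r hd hy.1
  rw [hsum_away hG r hy.1 this, this, hd]

/-- the value of the middle sum at the parent of `w`, where `n = dist r w`. -/
noncomputable def hVal (D n : ℕ) : ℝ :=
  if n = 1 then (D : ℝ) * ((D : ℝ) * aSeq D 1)
  else gVal D (n - 2) + ((D : ℝ) - 1) * ((D : ℝ) * aSeq D n)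

theorem ksum_up {z w : V} (h : G.Adj z w) (hd : G.dist r z = G.dist r w + 1)
    (hne : G.dist r w ≠ 0) :
    ∑ y ∈ ch G z w, ∑ w' ∈ ch G w y, ∑ z' ∈ ch G y w', phi G D r w' z' =
      hVal D (G.dist r w) + ((D : ℝ) - 1) * ((D : ℝ) * ((D : ℝ) * aSeq D (G.dist r w + 2))) := by
  obtain ⟨q, hq, hqd⟩ := exists_parent hG.isTree r hne
  have hqz : q ≠ z := by
    rintro rfl
    omega
  have hqmem : q ∈ ch G z w := mem_ch.2 ⟨hq, hqz⟩
  rw [sum_ch_parent hG h hqmem (c := (D : ℝ) * ((D : ℝ) * aSeq D (G.dist r w + 2)))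
    (F := fun y => ∑ w' ∈ ch G w y, ∑ z' ∈ ch G y w', phi G D r w' z')]
  · congr 1
    by_cases h1 : G.dist r w = 1
    · have h0 : G.dist r q = 0 := by omega
      simp only [hVal, h1, if_true]
      exact hsum_root hG r hq h0
    · have h0 : G.dist r q ≠ 0 := by omega
      simp only [hVal, h1, if_false]
      rw [hsum_toward hG r hq hqd.symm h0]
      have h2 : G.dist r q - 1 = G.dist r w - 2 := by omega
      have h3 : G.dist r q + 1 = G.dist r w := by omega
      rw [h2, h3]
  · intro y hy hyq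
    rw [mem_ch] at hy
    have := kid_of_parent hG.isTree r hq hqd hy.1 hyq
    rw [hsum_away hG r hy.1 this, this]

end levels

/-! ### the arithmetic -/

theorem ineq_I1 {d : ℝ} (hd : 2 ≤ d) : 2 * d ^ 2 - d ≤ d ^ 3 - 1 / 2 := by
  nlinarith [mul_nonneg (sub_nonneg.2 hd) (sub_nonneg.2 hd),
    mul_nonneg (mul_nonneg (sub_nonneg.2 hd) (sub_nonneg.2 hd)) (sub_nonneg.2 hd)]

theorem ineq_I3 {d : ℝ} (hd : 2 ≤ d) :
    3 * d * (d - 1) + d ^ 3 / (d ^ 3 - 1 / 2) ≤ d ^ 3 - 1 / 2 := by
  have h8 : 8 ≤ d ^ 3 := by nlinarith [sq_nonneg (d - 2), sq_nonneg d]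
  have hpos : 0 < d ^ 3 - 1 / 2 := by linarith
  have h1 : d ^ 3 / (d ^ 3 - 1 / 2) ≤ 16 / 15 := by
    rw [div_le_iff₀ hpos]
    linarith
  have h2 : 3 * d * (d - 1) + 16 / 15 ≤ d ^ 3 - 1 / 2 := by
    have h3 : 0 ≤ (d - 2) := by linarith
    nlinarith [mul_nonneg h3 h3, mul_nonneg (mul_nonneg h3 h3) h3]
  linarith

theorem ineq_I2 {d : ℝ} (hd : 2 ≤ d) :
    d ^ 3 / (d ^ 3 - 1 / 2) + 2 * (d - 1) ≤ (d ^ 3 - 1 / 2) * (1 / d) := by
  have h8 : 8 ≤ d ^ 3 := by nlinarith [sq_nonneg (d - 2), sq_nonneg d]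
  have hpos : 0 < d ^ 3 - 1 / 2 := by linarith
  have hd0 : 0 < d := by linarith
  have h1 : d ^ 3 / (d ^ 3 - 1 / 2) ≤ 16 / 15 := by
    rw [div_le_iff₀ hpos]
    linarith
  have h2 : (16 / 15 + 2 * (d - 1)) ≤ (d ^ 3 - 1 / 2) * (1 / d) := by
    rw [mul_one_div, le_div_iff₀ hd0]
    have h3 : 0 ≤ (d - 2) := by linarith
    nlinarith [mul_nonneg h3 h3, mul_nonneg (mul_nonneg h3 h3) h3]
  linarith

/-- **The Schur inequality for the radial test function.** -/
theorem schur_phi (hG : RegTree G D) (r : V) {w z : V} (h : G.Adj z w) :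
    ∑ y ∈ ch G z w, ∑ w' ∈ ch G w y, ∑ z' ∈ ch G y w', phi G D r w' z' ≤
      lamD D * phi G D r w z := by
  have hD : 2 ≤ D := hG.two_le
  have hDr : (2 : ℝ) ≤ D := by exact_mod_cast hD
  have hD0 : (D : ℝ) ≠ 0 := by linarith
  have hΛ := lamD_pos hD
  have hΛne := hΛ.ne'
  rcases dist_level hG.isTree r h with hd | hd
  · -- `(w, z)` points away from `r`
    by_cases h0 : G.dist r w = 0
    · rw [ksum_root hG r h h0]
      have : phi G D r w z = aSeq D 0 := by simp [phi, hd, h0]
      rw [this, aSeq_two]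
      simp only [aSeq, if_true]
      apply le_of_eq
      field_simp
    · rw [ksum_up hG r h hd h0]
      have hphi : phi G D r w z = aSeq D (G.dist r w) := by simp [phi, hd]
      rw [hphi]
      set n := G.dist r w with hn
      by_cases h1 : n = 1
      · rw [h1]
        simp only [hVal, if_true]
        have h3 : aSeq D (1 + 2) = aSeq D 1 * (1 / (D : ℝ)) := aSeq_succ_two 1 (by norm_num)
        rw [h3, aSeq_one]
        have := ineq_I1 hDr
        unfold lamD
        have e : (D : ℝ) * ((D : ℝ) * 1) + ((D : ℝ) - 1) * ((D : ℝ) * ((D : ℝ) * (1 * (1 / (D : ℝ))))) =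
            2 * (D : ℝ) ^ 2 - D := by
          field_simp
          ring
        rw [e]
        linarith
      · by_cases h2 : n = 2
        · rw [h2]
          have h4 : aSeq D (2 + 2) = aSeq D 2 * (1 / (D : ℝ)) := aSeq_succ_two 2 (by norm_num)
          simp only [hVal, OfNat.ofNat_ne_one, if_false]
          rw [h4, aSeq_two]
          simp only [gVal, Nat.sub_self, if_true, aSeq]
          have := ineq_I2 hDr
          unfold lamD
          have hpos : (D : ℝ) ^ 3 - 1 / 2 ≠ 0 := hΛne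
          have e : (D : ℝ) * ((D : ℝ) ^ 2 / ((D : ℝ) ^ 3 - 1 / 2)) +
              ((D : ℝ) - 1) * ((D : ℝ) * (1 / (D : ℝ))) +
              ((D : ℝ) - 1) * ((D : ℝ) * ((D : ℝ) * (1 / (D : ℝ) * (1 / (D : ℝ))))) =
              (D : ℝ) ^ 3 / ((D : ℝ) ^ 3 - 1 / 2) + 2 * ((D : ℝ) - 1) := by
            field_simp
            ring
          rw [e]
          exact this
        · have h3 : 3 ≤ n := by omega
          have hn2 : n - 2 ≠ 0 := by omega
          have hn' : n - 2 + 2 = n := by omega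
          simp only [hVal, h1, if_false, gVal, hn2]
          have ha1 : aSeq D n = aSeq D (n - 2) * (1 / (D : ℝ)) := by
            conv_lhs => rw [← hn']
            exact aSeq_succ_two _ hn2
          have ha2 : aSeq D (n + 2) = aSeq D n * (1 / (D : ℝ)) := aSeq_succ_two n (by omega)
          have ha3 : aSeq D (n - 2) = aSeq D n * D := by
            rw [ha1]; field_simp
          have hb : bSeq D (n - 2) = (D : ℝ) ^ 3 * aSeq D n / lamD D := by
            unfold bSeq
            rw [hn']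
          rw [hb, ha2, ha3]
          set t := aSeq D n with ht
          have htpos : 0 < t := aSeq_pos hD n
          have := mul_le_mul_of_nonneg_right (ineq_I3 hDr) htpos.le
          unfold lamD at *
          have hpos : (D : ℝ) ^ 3 - 1 / 2 ≠ 0 := hΛne
          have e : (D : ℝ) ^ 3 * t / ((D : ℝ) ^ 3 - 1 / 2) + ((D : ℝ) - 1) * (t * D) +
              ((D : ℝ) - 1) * ((D : ℝ) * t) +
              ((D : ℝ) - 1) * ((D : ℝ) * ((D : ℝ) * (t * (1 / (D : ℝ))))) =
              (3 * (D : ℝ) * ((D : ℝ) - 1) + (D : ℝ) ^ 3 / ((D : ℝ) ^ 3 - 1 / 2)) * t := by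
            field_simp
            ring
          rw [e]
          exact this
  · -- `(w, z)` points towards `r`
    rw [ksum_toward hG r h hd]
    have : phi G D r w z = bSeq D (G.dist r w) := by
      have : G.dist r z ≠ G.dist r w + 1 := by omega
      simp [phi, this]
    rw [this]
    unfold bSeq
    apply le_of_eq
    field_simp

/-! ### invariance under automorphisms -/

theorem dist_iso_le (hT : G.IsTree) (g : G ≃g G) (u v : V) : G.dist (g u) (g v) ≤ G.dist u v := by
  obtain ⟨p, hp⟩ := hT.connected.exists_walk_length_eq_dist u v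
  have := SimpleGraph.dist_le (p.map g.toHom)
  simpa [hp] using this

theorem dist_iso (hT : G.IsTree) (g : G ≃g G) (u v : V) : G.dist (g u) (g v) = G.dist u v := by
  refine le_antisymm (dist_iso_le hT g u v) ?_
  have := dist_iso_le hT g.symm (g u) (g v)
  simpa using this

theorem phi_iso (hT : G.IsTree) (g : G ≃g G) (r p y : V) :
    phi G D (g r) (g p) (g y) = phi G D r p y := by
  simp only [phi, dist_iso hT]

end Crest.Agent.Lib.IsingFIID
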